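import Crest.Agent.R97.Defs

set_option autoImplicit false
open MeasureTheory Metric Set Filter Topology
open scoped RealInnerProductSpace NNReal

namespace Crest.Agent.R97

variable {d : ℕ}

/-! Bas_A: the gradient in coordinates, integrability of the energy density. -/

theorem gradient_apply (f : E d → ℝ) (x : E d) (i : Fin d) : gradient f x i = pd i f x := by
  have h : ⟪gradient f x, EuclideanSpace.single i (1 : ℝ)⟫ = fderiv ℝ f x (EuclideanSpace.single i 1) := by
    simp only [gradient, InnerProductSpace.toDual_symm_apply]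
  rw [EuclideanSpace.inner_single_right] at h
  rw [pd, ← h]
  simp

theorem norm_gradient_sq (f : E d → ℝ) (x : E d) : ‖gradient f x‖ ^ 2 = ∑ i, (pd i f x) ^ 2 := by
  rw [EuclideanSpace.norm_sq_eq]
  simp only [gradient_apply, Real.norm_eq_abs, sq_abs]

theorem norm_gradient_le {K : ℝ≥0} {f : E d → ℝ} (hf : LipschitzWith K f) (x : E d) :
    ‖gradient f x‖ ≤ K := by
  rw [gradient, LinearIsometryEquiv.norm_map]
  exact norm_fderiv_le_of_lipschitz ℝ hf

theorem measurable_gradient (f : E d → ℝ) : Measurable (gradient f) := by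
  exact (InnerProductSpace.toDual ℝ (E d)).symm.continuous.measurable.comp (measurable_fderiv ℝ f)

theorem integrableOn_jd {K : ℝ≥0} {f : E d → ℝ} (hf : LipschitzWith K f) {S : Set (E d)}
    (hS : Bornology.IsBounded S) : IntegrableOn (jd f) S := by
  obtain ⟨R, hR⟩ := hS.subset_ball 0
  refine IntegrableOn.mono_set ?_ hR
  have hm : Measurable (jd f) := by
    refine ((measurable_gradient f).norm.pow_const 2).add ?_
    exact Measurable.ite (isOpen_lt continuous_const hf.continuous).measurableSet measurable_const measurable_const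
  refine Measure.integrableOn_of_bounded (M := (K : ℝ) ^ 2 + 1) measure_ball_lt_top.ne hm.aestronglyMeasurable
    (Eventually.of_forall fun x => ?_)
  have h1 := norm_gradient_le hf x
  have h2 : ‖gradient f x‖ ^ 2 ≤ (K : ℝ) ^ 2 := pow_le_pow_left₀ (norm_nonneg _) h1 2
  have h3 : 0 ≤ ‖gradient f x‖ ^ 2 := sq_nonneg _
  rw [Real.norm_eq_abs, jd, abs_le]
  split_ifs <;> constructor <;> linarith [sq_nonneg (K : ℝ)]

theorem Mn.mono {L L' : ℝ≥0} {u : E d → ℝ} (hu : Mn L u) (h : LipschitzWith L' u) : Mn L' u :=
  ⟨h, hu.nn, hu.min⟩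

end Crest.Agent.R97
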