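import Crest.Agent.R97.Bas_A

set_option autoImplicit false
open MeasureTheory Metric Set Filter Topology
open scoped RealInnerProductSpace NNReal

namespace Crest.Agent.R97

variable {d : ℕ}

/-! Bas_G: gradients agree a.e. where the functions agree; minimality on bounded sets. -/

/-- two Lipschitz functions have the same gradient a.e. on the set where they agree -/
theorem gradient_ae_eq {K K' : ℝ≥0} {f g : E d → ℝ} (hf : LipschitzWith K f) (hg : LipschitzWith K' g) :
    ∀ᵐ x, f x = g x → gradient f x = gradient g x := by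
  let s : Set (E d) := {x | DifferentiableAt ℝ f x} ∩ ({x | DifferentiableAt ℝ g x} ∩ {x | f x = g x})
  have hs : MeasurableSet s := (measurableSet_of_differentiableAt ℝ f).inter
    ((measurableSet_of_differentiableAt ℝ g).inter (isClosed_eq hf.continuous hg.continuous).measurableSet)
  have hA : ApproximatesLinearOn (fun _ : E d => (0 : E d)) (0 : E d →L[ℝ] E d) s 0 := by
    intro x _ y _
    simp
  have hd : ∀ x ∈ s, HasFDerivWithinAt (fun _ : E d => (0 : E d))
      ((fderiv ℝ f x - fderiv ℝ g x).smulRight (gradient f x - gradient g x)) s x := by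
    intro x hx
    have h1 : HasFDerivAt (fun y => (f y - g y) • (gradient f x - gradient g x))
        ((fderiv ℝ f x - fderiv ℝ g x).smulRight (gradient f x - gradient g x)) x :=
      (hx.1.hasFDerivAt.sub hx.2.1.hasFDerivAt).smul_const _
    have h2 : ∀ y ∈ s, (0 : E d) = (f y - g y) • (gradient f x - gradient g x) := by
      intro y hy
      have : f y = g y := hy.2.2
      rw [this, sub_self, zero_smul]
    exact h1.hasFDerivWithinAt.congr h2 (h2 x hx)
  have h := hA.norm_fderiv_sub_le volume hs _ hd
  rw [ae_restrict_iff' hs] at h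
  filter_upwards [h, hf.ae_differentiableAt (μ := volume), hg.ae_differentiableAt (μ := volume)] with x hx h1 h2 h3
  have h4 := hx ⟨h1, h2, h3⟩
  rw [sub_zero, nonpos_iff_eq_zero, nnnorm_eq_zero, ← norm_eq_zero, ContinuousLinearMap.norm_smulRight_apply,
    mul_eq_zero, norm_eq_zero, norm_eq_zero, sub_eq_zero, sub_eq_zero] at h4
  rcases h4 with h4 | h4
  · rw [gradient, gradient, h4]
  · exact h4

/-- minimality on any bounded measurable set -/
theorem Mn.min' {L : ℝ≥0} {u : E d → ℝ} (hu : Mn L u) {D : Set (E d)} (hD : Bornology.IsBounded D)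
    (hm : MeasurableSet D) {v : E d → ℝ} {K : ℝ≥0} (hv : LipschitzWith K v) (h0 : ∀ x, 0 ≤ v x)
    (he : ∀ x, x ∉ D → v x = u x) : J u D ≤ J v D := by
  obtain ⟨R, hR0, hR⟩ := hD.subset_ball_lt 0 0
  have h1 := hu.min 0 R hR0 v K hv h0 fun x hx => he x fun h => hx (hR h)
  have split : ∀ {K' : ℝ≥0} {w : E d → ℝ}, LipschitzWith K' w →
      J w (ball 0 R) = J w D + ∫ x in ball 0 R \ D, jd w x := by
    intro K' w hw
    have := integral_inter_add_sdiff (μ := volume) (s := ball (0 : E d) R) hm (integrableOn_jd hw isBounded_ball)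
    rw [inter_eq_right.2 hR] at this
    exact this.symm
  have h2 : ∫ x in ball 0 R \ D, jd v x = ∫ x in ball 0 R \ D, jd u x := by
    refine setIntegral_congr_ae (measurableSet_ball.diff hm) ?_
    filter_upwards [gradient_ae_eq hv hu.lip] with x hx hxD
    have e := he x hxD.2
    rw [jd, jd, hx e, e]
  rw [split hu.lip, split hv, h2] at h1
  linarith

end Crest.Agent.R97
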