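import Crest.Agent.R97.Bas_A

set_option autoImplicit false
open MeasureTheory Metric Set Filter Topology
open scoped RealInnerProductSpace NNReal

namespace Crest.Agent.R97

variable {d : ℕ}

/-! Bas_I: divergence theorem for Lipschitz functions (helper prefix `basI_`).
Plan: `K = closure D` is compact. Take `χ` smooth (`exists_contDiff_tsupport_subset`, `exists_smooth_one_nhds_of_subset_interior`,
`exists_contMDiff_...`, or `IsOpen.exists_contDiff_support_eq`-type lemmas), compactly supported in `U`, `χ = 1` near `K`.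
`Y i = fun x => χ x * X x i` is `ContDiff ℝ 1` (`contDiff_of_tsupport`/`contDiffOn` + zero off the support) with compact
support, hence Lipschitz (`ContDiff.lipschitzWith_of_hasCompactSupport`). `LipschitzWith.integral_lineDeriv_mul_eq`
with `v = single i 1` + Rademacher (`LipschitzWith.ae_differentiableAt`, `DifferentiableAt.lineDeriv_eq_fderiv`, `lineDeriv_neg`)
give `∫ pd i h * Y i + h * pd i (Y i) = 0` on the whole space. Off `K` (open) `h = 0` nearby so the integrand vanishes
(`setIntegral_eq_integral_of_forall_compl_eq_zero`); on `K`, `Y i =ᶠ X · i`. Sum over `i` (`gradient_apply`, `PiLp.inner_apply`). -/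

theorem basI_cut {K U : Set (E d)} (hK : IsCompact K) (hU : IsOpen U) (hKU : K ⊆ U)
    {g : E d → ℝ} (hg : ContDiffOn ℝ 1 g U) :
    ∃ Y : E d → ℝ, ContDiff ℝ 1 Y ∧ HasCompactSupport Y ∧ ∀ x ∈ K, Y =ᶠ[𝓝 x] g := by
  obtain ⟨L, hL, hKL, hLU⟩ := exists_compact_between hK hU hKU
  obtain ⟨f, hf1, hf0, -⟩ := exists_contMDiffMap_one_nhds_of_subset_interior
    (modelWithCornersSelf ℝ (E d)) (n := 1) hK.isClosed hKL
  have hfc : ContDiff ℝ 1 (f : E d → ℝ) := by
    have := f.contMDiff.contDiff
    exact_mod_cast this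
  refine ⟨fun x => f x * g x, ?_, ?_, ?_⟩
  · rw [contDiff_iff_contDiffAt]
    intro x
    by_cases hx : x ∈ L
    · exact hfc.contDiffAt.mul (hg.contDiffAt (hU.mem_nhds (hLU hx)))
    · have h1 : (fun x => f x * g x) =ᶠ[𝓝 x] fun _ => (0 : ℝ) := by
        filter_upwards [hL.isClosed.isOpen_compl.mem_nhds hx] with y hy
        rw [hf0 y hy, zero_mul]
      exact contDiffAt_const.congr_of_eventuallyEq h1
  · refine HasCompactSupport.intro hL (fun x hx => ?_)
    rw [hf0 x hx, zero_mul]
  · intro x hx
    have h1 : ∀ᶠ y in 𝓝 x, f y = 1 := (eventually_nhdsSet_iff_forall.1 hf1) x hx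
    filter_upwards [h1] with y hy
    rw [hy, one_mul]

theorem basI_pd_bound {K : ℝ≥0} {h : E d → ℝ} (hh : LipschitzWith K h) (i : Fin d) (x : E d) :
    ‖pd i h x‖ ≤ K := by
  unfold pd
  refine ((fderiv ℝ h x).le_opNorm _).trans ?_
  have h1 : ‖fderiv ℝ h x‖ ≤ K := norm_fderiv_le_of_lipschitz ℝ hh
  simpa using h1

theorem basI_pd_meas (h : E d → ℝ) (i : Fin d) : Measurable (pd i h) :=
  measurable_fderiv_apply_const ℝ h _

theorem basI_one {K : ℝ≥0} {h : E d → ℝ} (hh : LipschitzWith K h) {Y : E d → ℝ}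
    (hY : ContDiff ℝ 1 Y) (hc : HasCompactSupport Y) (i : Fin d) :
    Integrable (fun x => Y x * pd i h x + h x * pd i Y x) ∧
      ∫ x, (Y x * pd i h x + h x * pd i Y x) = 0 := by
  obtain ⟨C, hC⟩ := ContDiff.lipschitzWith_of_hasCompactSupport hc hY one_ne_zero
  have hI1 : Integrable (fun x => Y x * pd i h x) :=
    (hY.continuous.integrable_of_hasCompactSupport hc).mul_bdd (c := K)
      (basI_pd_meas h i).aestronglyMeasurable (Eventually.of_forall (basI_pd_bound hh i))
  have hpc : Continuous (pd i Y) :=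
    (hY.continuous_fderiv one_ne_zero).clm_apply continuous_const
  have hps : HasCompactSupport (pd i Y) := hc.fderiv_apply ℝ _
  have hI2 : Integrable (fun x => h x * pd i Y x) :=
    (hh.continuous.mul hpc).integrable_of_hasCompactSupport hps.mul_left
  refine ⟨hI1.add hI2, ?_⟩
  rw [integral_add hI1 hI2]
  have key := hh.integral_lineDeriv_mul_eq (μ := volume) hC hc (EuclideanSpace.single i (1 : ℝ))
  have e1 : ∫ x, lineDeriv ℝ h x (EuclideanSpace.single i (1 : ℝ)) * Y x = ∫ x, Y x * pd i h x := by
    refine integral_congr_ae ?_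
    filter_upwards [hh.ae_differentiableAt (μ := volume)] with x hx
    rw [hx.lineDeriv_eq_fderiv, mul_comm]; rfl
  have e2 : ∫ x, lineDeriv ℝ Y x (-EuclideanSpace.single i (1 : ℝ)) * h x
      = - ∫ x, h x * pd i Y x := by
    rw [← integral_neg]
    refine integral_congr_ae (Eventually.of_forall fun x => ?_)
    have hx : DifferentiableAt ℝ Y x := (hY.differentiable one_ne_zero) x
    simp only []
    rw [lineDeriv_neg, hx.lineDeriv_eq_fderiv]
    unfold pd; ring
  rw [e1, e2] at key
  rw [key]; ring

/-- divergence theorem: `h` Lipschitz vanishing off a bounded set `D`, `X` of class `C¹` on an open set containing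
the closure of `D` -/
theorem int_by_parts {K : ℝ≥0} {h : E d → ℝ} (hh : LipschitzWith K h) {D U : Set (E d)}
    (hD : Bornology.IsBounded D) (hU : IsOpen U) (hDU : closure D ⊆ U) (h0 : ∀ x, x ∉ D → h x = 0)
    {X : E d → E d} (hX : ContDiffOn ℝ 1 X U) :
    ∫ x in closure D, (⟪X x, gradient h x⟫ + h x * dv X x) = 0 := by
  have hKc : IsCompact (closure D) := hD.isCompact_closure
  have hXi : ∀ i : Fin d, ContDiffOn ℝ 1 (fun y => X y i) U := fun i =>
    (EuclideanSpace.proj i : E d →L[ℝ] ℝ).contDiff.comp_contDiffOn hX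
  choose Y hY hYc hYX using fun i => basI_cut hKc hU hDU (hXi i)
  have hone := fun i => basI_one hh (hY i) (hYc i) i
  have e1 : ∫ x in closure D, (⟪X x, gradient h x⟫ + h x * dv X x)
      = ∫ x in closure D, ∑ i, (Y i x * pd i h x + h x * pd i (Y i) x) := by
    refine setIntegral_congr_fun isClosed_closure.measurableSet (fun x hx => ?_)
    rw [Finset.sum_add_distrib, ← Finset.mul_sum]
    congr 1
    · rw [PiLp.inner_apply]
      refine Finset.sum_congr rfl (fun i _ => ?_)
      rw [gradient_apply, (hYX i x hx).self_of_nhds]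
      simp [mul_comm]
    · congr 1
      unfold dv
      refine Finset.sum_congr rfl (fun i _ => ?_)
      unfold pd
      rw [(hYX i x hx).fderiv_eq]
  rw [e1, setIntegral_eq_integral_of_forall_compl_eq_zero,
    integral_finsetSum _ (fun i _ => (hone i).1)]
  · exact Finset.sum_eq_zero (fun i _ => (hone i).2)
  · intro x hx
    have hz : h =ᶠ[𝓝 x] fun _ => (0 : ℝ) := by
      filter_upwards [isClosed_closure.isOpen_compl.mem_nhds hx] with y hy
      exact h0 y (fun hy' => hy (subset_closure hy'))
    refine Finset.sum_eq_zero (fun i _ => ?_)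
    have h1 : pd i h x = 0 := by
      unfold pd
      rw [hz.fderiv_eq]; simp
    rw [h1, hz.self_of_nhds]; simp

end Crest.Agent.R97
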