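import Crest.Agent.R97.Bas_A

set_option autoImplicit false
open MeasureTheory Metric Set Filter Topology
open scoped RealInnerProductSpace NNReal

namespace Crest.Agent.R97

variable {d : ℕ}

/-! Bas_L: Lipschitz bound from a gradient bound off the zero set (helper prefix `basL_`).
Plan: `g t = f (x + t • (y - x))`, `C = K * ‖y - x‖`. One-variable lemma A: `g` continuous, `g t ≠ 0` on `Ioo a b`
⇒ `|g b - g a| ≤ C (b - a)` (`exists_deriv_eq_slope`/`exists_hasDerivAt_eq_slope`). If `g` has a zero in `Icc 0 1`, let `t0`, `t1`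
be the least and greatest zero (`IsCompact.exists_isLeast`, `exists_isGreatest` of the closed set `Icc 0 1 ∩ g ⁻¹' {0}`):
`|g 0| ≤ C t0`, `|g 1| ≤ C (1 - t1)`, `t0 ≤ t1`. `‖fderiv ℝ f x‖ = ‖gradient f x‖` (`gradient`, `LinearIsometryEquiv.norm_map`). -/

theorem basL_seg {g : ℝ → ℝ} {C : ℝ} (hc : Continuous g) (h : ∀ t, g t ≠ 0 → ∃ g', HasDerivAt g g' t ∧ |g'| ≤ C)
    {a b : ℝ} (hab : a ≤ b) (h0 : ∀ t ∈ Ioo a b, g t ≠ 0) : |g b - g a| ≤ C * (b - a) := by
  rcases hab.eq_or_lt with rfl | hab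
  · simp
  · obtain ⟨c, hc', e⟩ := exists_deriv_eq_slope g hab hc.continuousOn fun t ht => by
      obtain ⟨g', h1, -⟩ := h t (h0 t ht)
      exact h1.differentiableAt.differentiableWithinAt
    obtain ⟨g', h1, h2⟩ := h c (h0 c hc')
    rw [h1.deriv] at e
    rwa [e, abs_div, abs_of_pos (sub_pos.2 hab), div_le_iff₀ (sub_pos.2 hab)] at h2

theorem basL_line {g : ℝ → ℝ} {C : ℝ} (hC : 0 ≤ C) (hc : Continuous g)
    (h : ∀ t, g t ≠ 0 → ∃ g', HasDerivAt g g' t ∧ |g'| ≤ C) : |g 1 - g 0| ≤ C := by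
  by_cases hz : (Icc (0 : ℝ) 1 ∩ g ⁻¹' {0}).Nonempty
  · have hK : IsCompact (Icc (0 : ℝ) 1 ∩ g ⁻¹' {0}) := isCompact_Icc.inter_right (isClosed_singleton.preimage hc)
    obtain ⟨a, ⟨ha, ha0⟩, hal⟩ := hK.exists_isLeast hz
    obtain ⟨b, ⟨hb, hb0⟩, hbl⟩ := hK.exists_isGreatest hz
    have hab : a ≤ b := hal ⟨hb, hb0⟩
    have h1 := basL_seg hc h ha.1 fun t ht e => absurd (hal ⟨⟨ht.1.le, ht.2.le.trans ha.2⟩, e⟩) (not_le.2 ht.2)
    have h2 := basL_seg hc h hb.2 fun t ht e => absurd (hbl ⟨⟨hb.1.trans ht.1.le, ht.2.le⟩, e⟩) (not_le.2 ht.1)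
    rw [show g a = 0 from ha0] at h1
    rw [show g b = 0 from hb0] at h2
    have h3 := abs_sub_le (g 1) 0 (g 0)
    nlinarith [mul_le_mul_of_nonneg_left hab hC]
  · simpa using basL_seg hc h zero_le_one fun t ht e => hz ⟨t, ⟨ht.1.le, ht.2.le⟩, e⟩

/-- a continuous function, differentiable with bounded gradient where it is nonzero, is Lipschitz -/
theorem lipschitz_of_grad {K : ℝ≥0} {f : E d → ℝ} (hc : Continuous f)
    (h : ∀ x, f x ≠ 0 → DifferentiableAt ℝ f x ∧ ‖gradient f x‖ ≤ K) : LipschitzWith K f := by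
  refine LipschitzWith.of_dist_le_mul fun y x => ?_
  have hl : ∀ t : ℝ, HasDerivAt (fun t : ℝ => x + t • (y - x)) (y - x) t := fun t => by
    simpa using ((hasDerivAt_id t).smul_const (y - x)).const_add x
  have h1 := basL_line (g := fun t : ℝ => f (x + t • (y - x))) (C := K * ‖y - x‖) (by positivity)
    (hc.comp (by fun_prop)) fun t ht => ⟨_, (h _ ht).1.hasFDerivAt.comp_hasDerivAt t (hl t), by
      have h2 := (h _ ht).2
      rw [gradient, LinearIsometryEquiv.norm_map] at h2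
      exact ((fderiv ℝ f _).le_opNorm _).trans (mul_le_mul_of_nonneg_right h2 (norm_nonneg _))⟩
  simpa [Real.dist_eq, dist_eq_norm] using h1

end Crest.Agent.R97
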