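import Crest.Agent.R97.Bas_A

set_option autoImplicit false
open MeasureTheory Metric Set Filter Topology
open scoped RealInnerProductSpace NNReal

namespace Crest.Agent.R97

variable {d : ℕ}

/-! Bas_S: invariance under blow-up and rotation (helper prefix `basS_`).
Plan: `gradient (bl u z r) y = gradient u (z + r • y)` at EVERY point (`fderiv_comp_smul`, `fderiv_comp_add_left`, `fderiv_const_mul`/
`fderiv_div_const`-type lemmas, or split on differentiability), so `jd (bl u z r) y = jd u (z + r • y)`; general formula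
`J (bl u z r) (ball c t) = J u (ball (z + r • c) (r * t)) / r ^ d` (indicator form, `Measure.integral_comp_smul`,
`integral_add_left_eq_self`, `finrank_euclideanSpace_fin`); no Lipschitz hypothesis is needed. A competitor `v` of `bl u z r` is
`bl w z r` for `w x = r * v (r⁻¹ • (x - z))`. Rotation: `‖fderiv (u ∘ R) x‖ = ‖fderiv u (R x)‖` (`LinearIsometryEquiv.comp_right_fderiv`,
`ContinuousLinearEquiv.comp_right_fderiv`, `ContinuousLinearMap.opNorm_comp_linearIsometryEquiv`), `R.measurePreserving`,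
`MeasurePreserving.setIntegral_preimage_emb`, `R ⁻¹' ball (R c) r = ball c r`; competitor `v ∘ R.symm`. -/

theorem basS_norm_grad (u : E d → ℝ) (x : E d) : ‖gradient u x‖ = ‖fderiv ℝ u x‖ := by
  unfold gradient
  exact LinearIsometryEquiv.norm_map _ _

theorem basS_fderiv_bl (u : E d → ℝ) (z : E d) {r : ℝ} (hr : 0 < r) (y : E d) :
    fderiv ℝ (bl u z r) y = fderiv ℝ u (z + r • y) := by
  have h1 : bl u z r = r⁻¹ • (fun y : E d => (fun x => u (z + x)) (r • y)) := by
    funext y
    simp only [bl, Pi.smul_apply, smul_eq_mul]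
    rw [div_eq_inv_mul]
  rw [h1, fderiv_const_smul_field, Pi.smul_apply,
    fderiv_comp_smul (f := fun x => u (z + x)) r, fderiv_comp_add_left, smul_smul,
    inv_mul_cancel₀ hr.ne', one_smul]

theorem basS_jd_bl (u : E d → ℝ) (z : E d) {r : ℝ} (hr : 0 < r) (y : E d) :
    jd (bl u z r) y = jd u (z + r • y) := by
  unfold jd
  rw [basS_norm_grad, basS_norm_grad, basS_fderiv_bl u z hr]
  have : (0 < bl u z r y) ↔ 0 < u (z + r • y) := by
    unfold bl
    exact div_pos_iff_of_pos_right hr
  simp only [this]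

theorem basS_mem_ball (z c : E d) {r : ℝ} (hr : 0 < r) (t : ℝ) (y : E d) :
    z + r • y ∈ ball (z + r • c) (r * t) ↔ y ∈ ball c t := by
  rw [mem_ball, mem_ball, dist_add_left, dist_smul₀, Real.norm_eq_abs, abs_of_pos hr]
  exact mul_lt_mul_iff_right₀ hr

theorem basS_J_bl (u : E d → ℝ) (z c : E d) {r : ℝ} (hr : 0 < r) (t : ℝ) :
    J (bl u z r) (ball c t) = J u (ball (z + r • c) (r * t)) / r ^ d := by
  unfold J
  rw [← integral_indicator measurableSet_ball, ← integral_indicator measurableSet_ball]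
  set g : E d → ℝ := (ball (z + r • c) (r * t)).indicator (jd u) with hg
  have h1 : (ball c t).indicator (jd (bl u z r)) = fun y => (fun x => g (z + x)) (r • y) := by
    funext y
    by_cases hy : y ∈ ball c t
    · rw [indicator_of_mem hy, basS_jd_bl u z hr]
      simp only [hg]
      rw [indicator_of_mem ((basS_mem_ball z c hr t y).2 hy)]
    · rw [indicator_of_notMem hy]
      simp only [hg]
      rw [indicator_of_notMem (fun h => hy ((basS_mem_ball z c hr t y).1 h))]
  have h2 : ∫ y, (ball c t).indicator (fun x => jd (bl u z r) x) y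
      = ∫ y, (fun x => g (z + x)) (r • y) := by
    rw [← h1]
  rw [h2, Measure.integral_comp_smul volume (fun x => g (z + x)) r, integral_add_left_eq_self,
    finrank_euclideanSpace_fin, abs_of_pos (by positivity), smul_eq_mul, div_eq_inv_mul]

theorem basS_lip_bl {K : ℝ≥0} {u : E d → ℝ} (hu : LipschitzWith K u) (z : E d) {r : ℝ} (hr : 0 < r) :
    LipschitzWith K (bl u z r) := by
  refine LipschitzWith.of_dist_le_mul fun x y => ?_
  have h := hu.dist_le_mul (z + r • x) (z + r • y)
  rw [dist_add_left, dist_smul₀, Real.norm_eq_abs, abs_of_pos hr] at h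
  unfold bl
  rw [Real.dist_eq] at h ⊢
  rw [← sub_div, abs_div, abs_of_pos hr, div_le_iff₀ hr]
  linarith

theorem basS_jd_rot (u : E d → ℝ) (R : E d ≃ₗᵢ[ℝ] E d) (x : E d) :
    jd (fun x => u (R x)) x = jd u (R x) := by
  unfold jd
  rw [basS_norm_grad, basS_norm_grad]
  have h1 : fderiv ℝ (fun x => u (R x)) x
      = (fderiv ℝ u (R x)).comp (R.toContinuousLinearEquiv : E d →L[ℝ] E d) :=
    R.toContinuousLinearEquiv.comp_right_fderiv (f := u) (x := x)
  have h2 : ‖(fderiv ℝ u (R x)).comp (R.toContinuousLinearEquiv : E d →L[ℝ] E d)‖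
      = ‖fderiv ℝ u (R x)‖ :=
    ContinuousLinearMap.opNorm_comp_linearIsometryEquiv _ R
  rw [h1, h2]

theorem basS_J_rot (u : E d → ℝ) (R : E d ≃ₗᵢ[ℝ] E d) (c : E d) (t : ℝ) :
    J (fun x => u (R x)) (ball c t) = J u (ball (R c) t) := by
  unfold J
  simp only [basS_jd_rot]
  have h1 : ball c t = R ⁻¹' ball (R c) t := by
    ext y
    simp only [mem_preimage, mem_ball, LinearIsometryEquiv.dist_map]
  rw [h1]
  exact R.measurePreserving.setIntegral_preimage_emb
    R.toHomeomorph.measurableEmbedding (jd u) (ball (R c) t)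

theorem Mn.bl {L : ℝ≥0} {u : E d → ℝ} (hu : Mn L u) (z : E d) {r : ℝ} (hr : 0 < r) :
    Mn L (bl u z r) := by
  refine ⟨basS_lip_bl hu.lip z hr, fun x => div_nonneg (hu.nn _) hr.le, ?_⟩
  intro c t ht v K hv hv0 hvu
  set w : E d → ℝ := Crest.Agent.R97.bl v (-(r⁻¹ • z)) r⁻¹ with hw
  have hw1 : ∀ y, w (z + r • y) = r * v y := by
    intro y
    simp only [hw, Crest.Agent.R97.bl]
    have : -(r⁻¹ • z) + r⁻¹ • (z + r • y) = y := by
      rw [smul_add, smul_smul, inv_mul_cancel₀ hr.ne', one_smul]; abel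
    rw [this, div_inv_eq_mul, mul_comm]
  have hvw : v = Crest.Agent.R97.bl w z r := by
    funext y
    simp only [Crest.Agent.R97.bl]
    rw [hw1, mul_div_cancel_left₀ _ hr.ne']
  have hmin := hu.min (z + r • c) (r * t) (mul_pos hr ht) w K
    (basS_lip_bl hv _ (inv_pos.2 hr)) (fun x => div_nonneg (hv0 _) (inv_pos.2 hr).le) (by
      intro x hx
      have hx' : x = z + r • (r⁻¹ • (x - z)) := by
        rw [smul_smul, mul_inv_cancel₀ hr.ne', one_smul]; abel
      rw [hx'] at hx ⊢
      rw [hw1, hvu _ (fun h => hx ((basS_mem_ball z c hr t _).2 h))]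
      simp only [Crest.Agent.R97.bl]
      rw [mul_div_cancel₀ _ hr.ne'])
  rw [hvw, basS_J_bl u z c hr, basS_J_bl w z c hr]
  exact div_le_div_of_nonneg_right hmin (by positivity)

theorem J_bl {K : ℝ≥0} {u : E d → ℝ} (hu : LipschitzWith K u) (z : E d) {r : ℝ} (hr : 0 < r) (t : ℝ) :
    J (bl u z r) (ball 0 t) = J u (ball z (r * t)) / r ^ d := by
  have _ := hu
  rw [basS_J_bl u z 0 hr, smul_zero, add_zero]

theorem Mn.rot {L : ℝ≥0} {u : E d → ℝ} (hu : Mn L u) (R : E d ≃ₗᵢ[ℝ] E d) : Mn L (fun x => u (R x)) := by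
  refine ⟨?_, fun x => hu.nn _, ?_⟩
  · refine LipschitzWith.of_dist_le_mul fun x y => ?_
    have h := hu.lip.dist_le_mul (R x) (R y)
    rwa [LinearIsometryEquiv.dist_map] at h
  · intro c t ht v K hv hv0 hvu
    have hvw : v = fun x => (fun y => v (R.symm y)) (R x) := by
      funext x
      simp only [LinearIsometryEquiv.symm_apply_apply]
    have hmin := hu.min (R c) t ht (fun y => v (R.symm y)) K
      (by
        refine LipschitzWith.of_dist_le_mul fun x y => ?_
        have h := hv.dist_le_mul (R.symm x) (R.symm y)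
        rwa [LinearIsometryEquiv.dist_map] at h)
      (fun x => hv0 _) (by
        intro x hx
        rw [hvu (R.symm x) (fun h => hx (by
          rw [mem_ball] at h ⊢
          rw [← R.dist_map, LinearIsometryEquiv.apply_symm_apply] at h
          exact h)), LinearIsometryEquiv.apply_symm_apply])
    rw [hvw, basS_J_rot u R c t, basS_J_rot (fun y => v (R.symm y)) R c t]
    exact hmin

theorem FB.bl {u : E d → ℝ} {z : E d} (h : FB u z) {r : ℝ} (hr : 0 < r) : FB (bl u z r) 0 := by
  refine ⟨?_, ?_⟩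
  · simp only [Crest.Agent.R97.bl, smul_zero, add_zero, h.1, zero_div]
  · rw [Metric.mem_closure_iff]
    intro ε hε
    obtain ⟨x, hx, hd⟩ := Metric.mem_closure_iff.1 h.2 (r * ε) (mul_pos hr hε)
    have hx' : x = z + r • (r⁻¹ • (x - z)) := by
      rw [smul_smul, mul_inv_cancel₀ hr.ne', one_smul]; abel
    refine ⟨r⁻¹ • (x - z), ?_, ?_⟩
    · show 0 < u (z + r • (r⁻¹ • (x - z))) / r
      rw [← hx']
      exact div_pos hx hr
    · rw [dist_comm, dist_zero_right, norm_smul, Real.norm_eq_abs, abs_of_pos (inv_pos.2 hr),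
        ← dist_eq_norm, dist_comm, inv_mul_lt_iff₀ hr]
      exact hd

end Crest.Agent.R97
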