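import Crest.Agent.R97.BzBW1C0

set_option autoImplicit false
set_option maxRecDepth 100000
set_option Elab.async false
set_option linter.all false

namespace Crest.Agent.R97.BzBW1

open Crest.Agent.Bern

theorem j0 : Good 64 48 [9, 11, 11, 11] 2 (sub 64 [9, 11, 11, 11] 2 R [(0, true), (0, false)]) :=
  good_sub_join (by decide) _ _ 1 (by decide) _ c1 c2

theorem j1 : Good 64 48 [9, 11, 11, 11] 2 (sub 64 [9, 11, 11, 11] 2 R [(0, false)]) :=
  good_sub_join (by decide) _ _ 0 (by decide) _ c0 j0

theorem j2 : Good 64 48 [9, 11, 11, 11] 2 (sub 64 [9, 11, 11, 11] 2 R [(0, true), (1, true), (0, true)]) :=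
  good_sub_join (by decide) _ _ 1 (by decide) _ c5 c6

theorem j3 : Good 64 48 [9, 11, 11, 11] 2 (sub 64 [9, 11, 11, 11] 2 R [(1, true), (0, true)]) :=
  good_sub_join (by decide) _ _ 0 (by decide) _ c4 j2

theorem j4 : Good 64 48 [9, 11, 11, 11] 2 (sub 64 [9, 11, 11, 11] 2 R [(0, true)]) :=
  good_sub_join (by decide) _ _ 1 (by decide) _ c3 j3

theorem j5 : Good 64 48 [9, 11, 11, 11] 2 (sub 64 [9, 11, 11, 11] 2 R []) :=
  good_sub_join (by decide) _ _ 0 (by decide) _ j1 j4

theorem final (x : ℕ → ℝ) (hx : In01 x) (h1 : top1_r x ≤ 0) : 0 ≤ top0_r x := by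
  have h := main (W0 := 152) (m := 2) (by decide) (by decide) rfl hok hR hb j5 x hx (by
    intro e he
    simp only [es, List.mem_cons, List.not_mem_nil, or_false] at he
    rcases he with rfl
    · simp only [PE.eval, top1_ev]; push_cast; linarith)
  simp only [PE.eval, top0_ev] at h
  push_cast at h
  linarith

end Crest.Agent.R97.BzBW1
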