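import Crest.Agent.R97.BzBW1D

set_option autoImplicit false
set_option maxRecDepth 100000
set_option Elab.async false
set_option linter.all false

namespace Crest.Agent.R97.BzBW1

open Crest.Agent.Bern

theorem c0 : Good 64 48 [9, 11, 11, 11] 2 (sub 64 [9, 11, 11, 11] 2 R [(0, false), (0, false)]) :=
  good_of_go (wb := 13) (by decide) (by decide) (by decide) 8 _
    0x7c000001f0000007c000001f0000007c000001f3210000007c04000001f01 (by decide +kernel)

theorem c1 : Good 64 48 [9, 11, 11, 11] 2 (sub 64 [9, 11, 11, 11] 2 R [(1, false), (0, true), (0, false)]) :=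
  good_of_go (wb := 13) (by decide) (by decide) (by decide) 8 _
    0x7c000001f00000007c0000001f0000007c000001f230000007c000001f0000007c4c4000001f0000007c000001f20000007c0c000001f0000007c000001f0000007c08000001f0000007c000001f3203102 (by decide +kernel)

theorem c2 : Good 64 48 [9, 11, 11, 11] 2 (sub 64 [9, 11, 11, 11] 2 R [(1, true), (0, true), (0, false)]) :=
  good_of_go (wb := 13) (by decide) (by decide) (by decide) 6 _
    0x7c000001f0000007c000001f320000007c04000001f0 (by decide +kernel)

theorem c3 : Good 64 48 [9, 11, 11, 11] 2 (sub 64 [9, 11, 11, 11] 2 R [(1, false), (0, true)]) :=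
  good_of_go (wb := 13) (by decide) (by decide) (by decide) 9 _
    0x8003c000001f0000007c002000f320008003c40000001f0000007c0000001f0000007c00000001f0000007c000001f0008003cc8c000001f0000007c8000001f300000007c002000f0000007c002000f0000007c002000f10203120 (by decide +kernel)

theorem c4 : Good 64 48 [9, 11, 11, 11] 2 (sub 64 [9, 11, 11, 11] 2 R [(0, false), (1, true), (0, true)]) :=
  good_of_go (wb := 13) (by decide) (by decide) (by decide) 7 _
    0x7c000001f0000007c84000001f0000007c0000001f0000007cc000001f0000007c0000001f310000007c000001f10000007c000001f03021 (by decide +kernel)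

theorem c5 : Good 64 48 [9, 11, 11, 11] 2 (sub 64 [9, 11, 11, 11] 2 R [(1, false), (0, true), (1, true), (0, true)]) :=
  good_of_go (wb := 13) (by decide) (by decide) (by decide) 9 _
    0x8003c002000f000bfffc000001f0000007c8002000f10000008003c4000001f0008003c4000001f00008003c4000001f00000007c002000f1200000007c000001f10000007c000001f10000007c000001f0000007c002000f132120 (by decide +kernel)

theorem c6 : Good 64 48 [9, 11, 11, 11] 2 (sub 64 [9, 11, 11, 11] 2 R [(1, true), (0, true), (1, true), (0, true)]) :=
  good_of_go (wb := 13) (by decide) (by decide) (by decide) 10 _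
    0x7c000001f0008003c4000001f00000007c0002000f0000007c0002000f10000007cc002000f20000007c0000001f020000007c000001f201 (by decide +kernel)

end Crest.Agent.R97.BzBW1
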