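import Crest.Agent.R97.BzWW1C0

set_option autoImplicit false
set_option maxRecDepth 100000
set_option Elab.async false
set_option linter.all false

namespace Crest.Agent.R97.BzWW1

open Crest.Agent.Bern


theorem final (x : ℕ → ℝ) (hx : In01 x) (h1 : top1_r x ≤ 0) (h2 : top2_r x ≤ 0) (h3 : top3_r x ≤ 0) : 0 ≤ top0_r x := by
  have h := main (W0 := 72) (m := 4) (by decide) (by decide) rfl hok hR hb c0 x hx (by
    intro e he
    simp only [es, List.mem_cons, List.not_mem_nil, or_false] at he
    rcases he with rfl | rfl | rfl
    · simp only [PE.eval, top1_ev]; push_cast; linarith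
    · simp only [PE.eval, top2_ev]; push_cast; linarith
    · simp only [PE.eval, top3_ev]; push_cast; linarith)
  simp only [PE.eval, top0_ev] at h
  push_cast at h
  linarith

end Crest.Agent.R97.BzWW1
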