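import Crest.Agent.R97.CertA1

set_option autoImplicit false
open MeasureTheory Metric Set Filter Topology
open scoped RealInnerProductSpace NNReal

namespace Crest.Agent.R97

variable {d : ℕ} {u : E d → ℝ} {x : E d}

/-! CertA3 (owner helper66): tangential divergences of the eight fields.  Aux prefix `ca3_`.  One lemma per field;
`pd_norm_zpow`, `ca1_pd_mul`, `ca1_pd_sum`, `HC.div_T`, the relations `HC.hj` (`⟪T(b), x⟫ = - a : b`, `⟪T(v,w), x⟫ = - a(v,w)`,
`⟪a v, x⟫ = 0`, `∑_l T l l j = 0`). -/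

section alg
variable {z : Fin d → ℝ} {a : Fin d → Fin d → ℝ} {T : Fin d → Fin d → Fin d → ℝ}

theorem ca3_tmv (h : HJ z a T) (b : Fin d → Fin d → ℝ) (v : Fin d → ℝ) :
    ∑ i, ∑ j, b i j * ∑ k, T i j k * v k = dp (tm T b) v := by
  simp only [dp, tm, Finset.mul_sum, Finset.sum_mul]
  refine Eq.symm (Finset.sum_comm.trans (Finset.sum_congr rfl fun i _ => Finset.sum_comm.trans
    (Finset.sum_congr rfl fun j _ => Finset.sum_congr rfl fun k _ => ?_)))
  rw [h.T1 k i j, h.T2 i k j]; ring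

theorem ca3_tm_x (h : HJ z a T) (b : Fin d → Fin d → ℝ) : dp (tm T b) z = -fr a b := by
  rw [← ca3_tmv h]
  simp only [h.Tx, fr, ← Finset.sum_neg_distrib]
  exact Finset.sum_congr rfl fun i _ => Finset.sum_congr rfl fun j _ => by ring

theorem ca3_tv_eq (v w : Fin d → ℝ) : tv T v w = tm T fun i j => v i * w j := by
  funext l; simp only [tv, tm, mul_assoc]

theorem ca3_tv_x (h : HJ z a T) (v w : Fin d → ℝ) : dp (tv T v w) z = -dp v (mv a w) := by
  rw [ca3_tv_eq, ca3_tm_x h]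
  simp only [fr, dp, mv, Finset.mul_sum]
  congr 1
  exact Finset.sum_congr rfl fun i _ => Finset.sum_congr rfl fun j _ => by ring

theorem ca3_dp_mv (h : HJ z a T) (v w : Fin d → ℝ) : dp (mv a v) w = dp v (mv a w) := by
  simp only [dp, mv, Finset.mul_sum, Finset.sum_mul]
  refine Finset.sum_comm.trans (Finset.sum_congr rfl fun i _ => Finset.sum_congr rfl fun j _ => ?_)
  rw [h.as j i]; ring

theorem ca3_mv_x (h : HJ z a T) (v : Fin d → ℝ) : dp (mv a v) z = 0 := by
  rw [ca3_dp_mv h]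
  simp only [dp, h.ax, mul_zero, Finset.sum_const_zero]

theorem ca3_sq (D : Fin d → Fin d → ℝ) :
    ∑ l, ∑ j, a l j * ∑ k, a j k * D l k = ∑ l, ∑ k, sqm a l k * D l k := by
  refine Finset.sum_congr rfl fun l _ => ?_
  simp only [sqm, Finset.mul_sum, Finset.sum_mul]
  exact Finset.sum_comm.trans
    (Finset.sum_congr rfl fun i _ => Finset.sum_congr rfl fun j _ => by ring)

end alg

theorem ca3_dp (h : HC u) (hx : 0 < u x) (i : Fin d) :
    DifferentiableAt ℝ (fun y => up u y i) x := (h.cd_up hx i).differentiableAt (by simp)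
theorem ca3_da (h : HC u) (hx : 0 < u x) (i j : Fin d) :
    DifferentiableAt ℝ (fun y => ua u y i j) x := (h.cd_ua hx i j).differentiableAt (by simp)
theorem ca3_dT (h : HC u) (hx : 0 < u x) (i j l : Fin d) :
    DifferentiableAt ℝ (fun y => uT u y i j l) x := (h.cd_uT hx i j l).differentiableAt (by simp)
theorem ca3_pp (l i : Fin d) : pd l (fun y => up u y i) x = ua u x l i := rfl
theorem ca3_pa (l i j : Fin d) : pd l (fun y => ua u y i j) x = uT u x l i j := rfl

theorem ca3_dmv (h : HC u) (hx : 0 < u x) {v : E d → Fin d → ℝ}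
    (hv : ∀ i, DifferentiableAt ℝ (fun y => v y i) x) (j : Fin d) :
    DifferentiableAt ℝ (fun y => mv (ua u y) (v y) j) x :=
  DifferentiableAt.fun_sum fun k _ => (ca3_da h hx j k).fun_mul (hv k)

theorem ca3_dtm (h : HC u) (hx : 0 < u x) {b : E d → Fin d → Fin d → ℝ}
    (hb : ∀ i j, DifferentiableAt ℝ (fun y => b y i j) x) (l : Fin d) :
    DifferentiableAt ℝ (fun y => tm (uT u y) (b y) l) x :=
  DifferentiableAt.fun_sum fun i _ => DifferentiableAt.fun_sum fun j _ =>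
    (ca3_dT h hx l i j).fun_mul (hb i j)

theorem ca3_dsq (h : HC u) (hx : 0 < u x) (i j : Fin d) :
    DifferentiableAt ℝ (fun y => sqm (ua u y) i j) x :=
  DifferentiableAt.fun_sum fun k _ => (ca3_da h hx i k).fun_mul (ca3_da h hx k j)

theorem ca3_pmv (h : HC u) (hx : 0 < u x) {v : E d → Fin d → ℝ}
    (hv : ∀ i, DifferentiableAt ℝ (fun y => v y i) x) (l j : Fin d) :
    pd l (fun y => mv (ua u y) (v y) j) x =
      ∑ k, uT u x l j k * v x k + ∑ k, ua u x j k * pd l (fun y => v y k) x := by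
  simp only [mv]
  rw [ca1_pd_sum _ (fun k _ => (ca3_da h hx j k).fun_mul (hv k)), ← Finset.sum_add_distrib]
  exact Finset.sum_congr rfl fun k _ => ca1_pd_mul (ca3_da h hx j k) (hv k) l

theorem ca3_pap (h : HC u) (hx : 0 < u x) (h1 : ‖x‖ = 1) (l j : Fin d) :
    pd l (fun y => mv (ua u y) (up u y) j) x =
      ∑ k, uT u x l j k * up u x k + sqm (ua u x) l j := by
  rw [ca3_pmv h hx (ca3_dp h hx), sqm]
  congr 1
  exact Finset.sum_congr rfl fun k _ => by rw [ca3_pp, (h.hj hx h1).as j k, mul_comm]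

theorem ca3_div_mv (h : HC u) (hx : 0 < u x) (h1 : ‖x‖ = 1) {v : E d → Fin d → ℝ}
    (hv : ∀ i, DifferentiableAt ℝ (fun y => v y i) x) :
    ∑ l, pd l (fun y => mv (ua u y) (v y) l) x =
      ∑ l, ∑ k, ua u x l k * pd l (fun y => v y k) x := by
  simp only [ca3_pmv h hx hv, Finset.sum_add_distrib]
  rw [Finset.sum_comm]
  simp only [← Finset.sum_mul, (h.hj hx h1).Ttr, zero_mul, Finset.sum_const_zero, zero_add]

theorem ca3_div_tm (h : HC u) (hx : 0 < u x) {b : E d → Fin d → Fin d → ℝ}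
    (hb : ∀ i j, DifferentiableAt ℝ (fun y => b y i j) x) :
    ∑ l, pd l (fun y => tm (uT u y) (b y) l) x =
      ∑ l, ∑ i, ∑ j, uT u x l i j * pd l (fun y => b y i j) x := by
  have e : ∀ l, pd l (fun y => tm (uT u y) (b y) l) x =
      ∑ i, ∑ j, pd l (fun y => uT u y l i j) x * b x i j +
        ∑ i, ∑ j, uT u x l i j * pd l (fun y => b y i j) x := by
    intro l
    simp only [tm]
    rw [ca1_pd_sum _ (fun i _ => DifferentiableAt.fun_sum fun j _ =>
      (ca3_dT h hx l i j).fun_mul (hb i j)), ← Finset.sum_add_distrib]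
    refine Finset.sum_congr rfl fun i _ => ?_
    rw [ca1_pd_sum _ (fun j _ => (ca3_dT h hx l i j).fun_mul (hb i j)), ← Finset.sum_add_distrib]
    exact Finset.sum_congr rfl fun j _ => ca1_pd_mul (ca3_dT h hx l i j) (hb i j) l
  have e0 : ∑ l, ∑ i, ∑ j, pd l (fun y => uT u y l i j) x * b x i j = 0 := by
    rw [Finset.sum_comm]
    refine Finset.sum_eq_zero fun i _ => ?_
    rw [Finset.sum_comm]
    refine Finset.sum_eq_zero fun j _ => ?_
    rw [← Finset.sum_mul, h.div_T hx, zero_mul]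
  simp only [e, Finset.sum_add_distrib, e0, zero_add]

theorem ca3_div_tv (h : HC u) (hx : 0 < u x) (h1 : ‖x‖ = 1) {v w : E d → Fin d → ℝ}
    (hv : ∀ i, DifferentiableAt ℝ (fun y => v y i) x)
    (hw : ∀ i, DifferentiableAt ℝ (fun y => w y i) x) :
    ∑ l, pd l (fun y => tv (uT u y) (v y) (w y) l) x =
      ∑ l, ∑ i, pd l (fun y => v y i) x * ∑ j, uT u x l i j * w x j +
        ∑ l, ∑ i, pd l (fun y => w y i) x * ∑ j, uT u x l i j * v x j := by
  simp only [ca3_tv_eq]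
  rw [ca3_div_tm h hx (fun i j => (hv i).fun_mul (hw j)), ← Finset.sum_add_distrib]
  refine Finset.sum_congr rfl fun l _ => ?_
  simp only [ca1_pd_mul (hv _) (hw _), mul_add, Finset.sum_add_distrib, Finset.mul_sum]
  congr 1
  · exact Finset.sum_congr rfl fun i _ => Finset.sum_congr rfl fun j _ => by ring
  · refine Finset.sum_comm.trans
      (Finset.sum_congr rfl fun i _ => Finset.sum_congr rfl fun j _ => ?_)
    rw [(h.hj hx h1).T2 l j i]; ring

theorem ca3_red (h1 : ‖x‖ = 1) (k : ℤ) {F : E d → Fin d → ℝ}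
    (hF : ∀ l, DifferentiableAt ℝ (fun y => F y l) x) :
    ∑ l, pd l (fun y => ‖y‖ ^ k * F y l) x = k * dp (F x) x + ∑ l, pd l (fun y => F y l) x := by
  simp only [pd_norm_zpow h1 k (hF _), Finset.sum_add_distrib, dp, Finset.mul_sum]
  congr 1
  exact Finset.sum_congr rfl fun l _ => by ring

theorem HC.dv_uX (h : HC u) (hx : 0 < u x) (h1 : ‖x‖ = 1) (m : Fin 8) :
    ∑ l, pd l (fun y => uX u y m l) x - ((d : ℝ) - 2) * dp (Xv (up u x) (ua u x) (uT u x) m) x =
      dX x (up u x) (ua u x) (uT u x) m := by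
  have J := h.hj hx h1
  have dp1 := ca3_dp h hx
  have dp2 := ca3_dmv h hx dp1
  have dp3 := ca3_dmv h hx dp2
  have dp4 := ca3_dmv h hx dp3
  have dtv : ∀ {v w : E d → Fin d → ℝ}, (∀ i, DifferentiableAt ℝ (fun y => v y i) x) →
      (∀ i, DifferentiableAt ℝ (fun y => w y i) x) →
      ∀ l, DifferentiableAt ℝ (fun y => tv (uT u y) (v y) (w y) l) x := fun hv hw l => by
    simp only [ca3_tv_eq]
    exact ca3_dtm h hx (fun i j => (hv i).fun_mul (hw j)) l
  fin_cases m
  · change ∑ l, pd l (fun y => ‖y‖ ^ (2 : ℤ) * tm (uT u y) (ua u y) l) x -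
      _ * dp (tm (uT u x) (ua u x)) x = (∑ i, ∑ j, ∑ l, uT u x i j l ^ 2) + (d - 4) * fr _ _
    rw [ca3_red h1 _ (ca3_dtm h hx (ca3_da h hx)), ca3_div_tm h hx (ca3_da h hx), ca3_tm_x J]
    simp only [ca3_pa, sq]
    push_cast; ring
  · change ∑ l, pd l (fun y => ‖y‖ ^ (1 : ℤ) * tv (uT u y) (up u y) (up u y) l) x -
      _ * dp (tv (uT u x) (up u x) (up u x)) x = 2 * dp _ _ + (d - 3) * dp _ _
    rw [ca3_red h1 _ (dtv dp1 dp1), ca3_div_tv h hx h1 dp1 dp1, ca3_tv_x J]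
    simp only [ca3_pp, ca3_tmv J]
    push_cast; ring
  · change ∑ l, pd l (fun y => ‖y‖ ^ (-1 : ℤ) * up u y l) x - _ * dp (up u x) x =
      -((d - 1) * dp _ _)
    rw [ca3_red h1 _ dp1]
    simp only [ca3_pp, J.atr]
    push_cast; ring
  · change ∑ l, pd l (fun y => ‖y‖ ^ (0 : ℤ) * mv (ua u y) (up u y) l) x -
      _ * dp (mv (ua u x) (up u x)) x = fr _ _
    rw [ca3_red h1 _ dp2, ca3_div_mv h hx h1 dp1, ca3_mv_x J]
    simp only [ca3_pp, fr]
    ring
  · change ∑ l, pd l (fun y => ‖y‖ ^ (1 : ℤ) * mv (ua u y) (mv (ua u y) (up u y)) l) x -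
      _ * dp (mv (ua u x) (mv (ua u x) (up u x))) x = dp _ _ + fr _ _
    rw [ca3_red h1 _ dp3, ca3_div_mv h hx h1 dp2, ca3_mv_x J]
    simp only [ca3_pap h hx h1, mul_add, Finset.sum_add_distrib, ca3_tmv J, fr]
    ring
  · change ∑ l, pd l (fun y => ‖y‖ ^ (2 : ℤ) *
        mv (ua u y) (mv (ua u y) (mv (ua u y) (up u y))) l) x -
      _ * dp (mv (ua u x) (mv (ua u x) (mv (ua u x) (up u x)))) x = dp _ _ + dp _ _ + fr _ _
    rw [ca3_red h1 _ dp4, ca3_div_mv h hx h1 dp3, ca3_mv_x J]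
    simp only [ca3_pmv h hx dp2, mul_add, Finset.sum_add_distrib, ca3_tmv J]
    rw [ca3_sq (fun l k => pd l (fun y => mv (ua u y) (up u y) k) x)]
    simp only [ca3_pap h hx h1, mul_add, Finset.sum_add_distrib, ca3_tmv J, fr]
    ring
  · change ∑ l, pd l (fun y => ‖y‖ ^ (2 : ℤ) * tv (uT u y) (up u y) (mv (ua u y) (up u y)) l) x -
      _ * dp (tv (uT u x) (up u x) (mv (ua u x) (up u x))) x =
      dp _ _ + (∑ i, ∑ j, (∑ l, uT u x i j l * up u x l) ^ 2) + dp _ _ + (d - 4) * dp _ _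
    rw [ca3_red h1 _ (dtv dp1 dp2), ca3_div_tv h hx h1 dp1 dp2, ca3_tv_x J, ← ca3_dp_mv J]
    simp only [ca3_pp, ca3_pap h hx h1, add_mul, Finset.sum_add_distrib, ca3_tmv J, sq]
    push_cast; ring
  · change ∑ l, pd l (fun y => ‖y‖ ^ (3 : ℤ) * tm (uT u y) (sqm (ua u y)) l) x -
      _ * dp (tm (uT u x) (sqm (ua u x))) x =
      2 * (∑ l, ∑ i, ∑ j, ∑ k, uT u x l i j * uT u x l i k * ua u x k j) + (d - 5) * fr _ _
    rw [ca3_red h1 _ (ca3_dtm h hx (ca3_dsq h hx)), ca3_div_tm h hx (ca3_dsq h hx), ca3_tm_x J]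
    have e : ∀ l i j, pd l (fun y => sqm (ua u y) i j) x =
        ∑ k, uT u x l i k * ua u x k j + ∑ k, ua u x i k * uT u x l k j := fun l i j => by
      simp only [sqm]
      rw [ca1_pd_sum _ (fun k _ => (ca3_da h hx i k).fun_mul (ca3_da h hx k j)),
        ← Finset.sum_add_distrib]
      exact Finset.sum_congr rfl fun k _ => ca1_pd_mul (ca3_da h hx i k) (ca3_da h hx k j) l
    have e1 : ∑ l, ∑ i, ∑ j, uT u x l i j * ∑ k, uT u x l i k * ua u x k j =
        ∑ l, ∑ i, ∑ j, ∑ k, uT u x l i j * uT u x l i k * ua u x k j := by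
      simp only [Finset.mul_sum, mul_assoc]
    have e2 : ∑ l, ∑ i, ∑ j, uT u x l i j * ∑ k, ua u x i k * uT u x l k j =
        ∑ l, ∑ i, ∑ j, ∑ k, uT u x l i j * uT u x l i k * ua u x k j := by
      refine Finset.sum_congr rfl fun l _ => Finset.sum_comm.trans
        (Finset.sum_congr rfl fun i _ => Finset.sum_congr rfl fun j _ => ?_)
      rw [Finset.mul_sum]
      refine Finset.sum_congr rfl fun k _ => ?_
      rw [J.T2 l j i, J.T2 l k i, J.as j k]; ring
    simp only [e, mul_add, Finset.sum_add_distrib, e1, e2]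
    push_cast; ring

end Crest.Agent.R97
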