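import Crest.Agent.R97.CertA4

set_option autoImplicit false
open MeasureTheory Metric Set Filter Topology
open scoped RealInnerProductSpace NNReal

namespace Crest.Agent.R97

variable {d : ℕ} {u : E d → ℝ} {x : E d}

/-! CertA5 (owner helper66): the boundary condition.  Aux prefix `ca5_`.
By contradiction: points `x_k` on the sphere with `u x_k → 0` and jets `j_k` (`IsB`, `Bdd C`, `Near` within `1/(k+1)`).
A subsequence of `(x_k, w_k, H_k, A_k, T_k)` converges (bounded in a finite dimensional space: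
`tendsto_subseq_of_bounded` in a product type); the limit is `IsB` (closed conditions), the jets of `u` at `x_k` and
`rho u x_k` have the same limits, so `HJ`, `dp w x = lim u x_k = 0`, `H = lim rho ≥ 0` (`|∇u| ≤ 1`).  The expression is
continuous at the limit (`Dom`, `ContDiffAt.continuousAt`), where it is `≥ 0` by `BdJ`. -/

/-- the space of jets -/
abbrev ca5_P (d : ℕ) : Type :=
  (Fin d → ℝ) × (Fin d → ℝ) × ℝ × (Fin d → Fin d → ℝ) × (Fin d → Fin d → Fin d → ℝ)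

theorem ca5_lim {f : ℕ → ℝ} {C : ℝ} (h : ∀ k, |f k| ≤ C) : ∃ L, Tendsto f (hyperfilter ℕ) (𝓝 L) := by
  obtain ⟨L, -, hL⟩ := (isCompact_Icc (a := -C) (b := C)).ultrafilter_le_nhds ((hyperfilter ℕ).map f)
    (le_principal_iff.2 (mem_map.2 (Eventually.of_forall fun k => abs_le.1 (h k))))
  exact ⟨L, hL⟩

theorem ca5_zero : Tendsto (fun k : ℕ => 1 / ((k : ℝ) + 1)) (hyperfilter ℕ) (𝓝 0) :=
  tendsto_one_div_add_atTop_nhds_zero_nat.mono_left Nat.hyperfilter_le_atTop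

theorem ca5_near {f g : ℕ → ℝ} {L : ℝ} (hg : Tendsto g (hyperfilter ℕ) (𝓝 L))
    (h : ∀ k, |f k - g k| ≤ 1 / ((k : ℝ) + 1)) : Tendsto f (hyperfilter ℕ) (𝓝 L) := by
  have h1 : Tendsto (fun k => f k - g k) (hyperfilter ℕ) (𝓝 0) := squeeze_zero_norm h ca5_zero
  simpa using h1.add hg

theorem ca5_eq {z : ℕ → ca5_P d} {y : ca5_P d} (hz : Tendsto z (hyperfilter ℕ) (𝓝 y)) (f g : ca5_P d → ℝ)
    (hf : Continuous f) (hg : Continuous g) (h : ∀ k, f (z k) = g (z k)) : f y = g y :=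
  tendsto_nhds_unique ((hf.tendsto y).comp hz) (((hg.tendsto y).comp hz).congr fun k => (h k).symm)

theorem ca5_sv : Continuous fun z : ca5_P d => sv z.1 z.2.1 z.2.2.2.1 := by
  refine continuous_pi fun i => ?_
  fin_cases i <;> simp only [sv, fr, dp, mv, sqm] <;> simp <;> fun_prop

theorem ca5_Xv (m : Fin 8) : Continuous fun z : ca5_P d => dp (Xv z.2.1 z.2.2.2.1 z.2.2.2.2 m) z.2.1 := by
  fin_cases m <;> simp only [Xv, dp] <;> simp [tm, tv, mv, sqm] <;> fun_prop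

theorem ca5_inner (v w : E d) : ⟪v, w⟫ = ∑ i, v i * w i := by
  simp [PiLp.inner_apply, mul_comm]

/-- limits of boundary jets are boundary jets -/
theorem ca5_isB {x : ℕ → Fin d → ℝ} {j : ℕ → Jet d} (hj : ∀ k, (j k).IsB) {y : ca5_P d}
    (hz : Tendsto (fun k => ((x k, (j k).w, (j k).H, (j k).A, (j k).T) : ca5_P d)) (hyperfilter ℕ) (𝓝 y)) :
    (⟨WithLp.toLp 2 y.2.1, y.2.2.1, y.2.2.2.1, y.2.2.2.2⟩ : Jet d).IsB := by
  have hw : ∀ k, ∑ i, (j k).w i * (j k).w i = 1 := fun k => by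
    rw [← ca5_inner, real_inner_self_eq_norm_sq, (hj k).w1, one_pow]
  refine ⟨?_, fun a b => ca5_eq hz (fun z => z.2.2.2.1 a b) (fun z => z.2.2.2.1 b a) (by fun_prop) (by fun_prop)
      fun k => (hj k).Asym a b,
    ca5_eq hz (fun z => ∑ a, z.2.2.2.1 a a) (fun _ => 0) (by fun_prop) (by fun_prop) fun k => (hj k).Atr,
    fun a => ca5_eq hz (fun z => ∑ b, z.2.2.2.1 a b * z.2.1 b) (fun z => -z.2.2.1 * z.2.1 a) (by fun_prop)
      (by fun_prop) fun k => (hj k).Aw a,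
    fun a b c => ca5_eq hz (fun z => z.2.2.2.2 a b c) (fun z => z.2.2.2.2 b a c) (by fun_prop) (by fun_prop)
      fun k => (hj k).Tsym1 a b c,
    fun a b c => ca5_eq hz (fun z => z.2.2.2.2 a b c) (fun z => z.2.2.2.2 a c b) (by fun_prop) (by fun_prop)
      fun k => (hj k).Tsym2 a b c,
    fun c => ca5_eq hz (fun z => ∑ a, z.2.2.2.2 a a c) (fun _ => 0) (by fun_prop) (by fun_prop) fun k => (hj k).Ttr c,
    fun v v' hv hv' => ?_⟩
  · have h1 := ca5_eq hz (fun z => ∑ i, z.2.1 i * z.2.1 i) (fun _ => 1) (by fun_prop) (by fun_prop) hw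
    have h2 : ‖(WithLp.toLp 2 y.2.1 : E d)‖ ^ 2 = 1 ^ 2 := by
      rw [← real_inner_self_eq_norm_sq, ca5_inner, one_pow]
      exact h1
    exact (sq_eq_sq₀ (norm_nonneg _) zero_le_one).1 h2
  · have h1 := ca5_eq hz
      (fun z => ∑ a, ∑ b, ∑ c, z.2.2.2.2 a b c * z.2.1 a * (v b - (∑ i, z.2.1 i * v i) * z.2.1 b) *
        (v' c - (∑ i, z.2.1 i * v' i) * z.2.1 c))
      (fun z => -∑ b, ∑ c, ((∑ a, z.2.2.2.1 b a * z.2.2.2.1 a c) + z.2.2.1 * z.2.2.2.1 b c) *
        (v b - (∑ i, z.2.1 i * v i) * z.2.1 b) * (v' c - (∑ i, z.2.1 i * v' i) * z.2.1 c))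
      (by fun_prop) (by fun_prop) fun k => by
        have e : ∀ v : E d, ⟪(j k).w, v - (∑ i, (j k).w i * v i) • (j k).w⟫ = 0 := fun v => by
          rw [inner_sub_right, inner_smul_right, ca5_inner, ca5_inner, hw, mul_one, sub_self]
        have h2 := (hj k).Tw _ _ (e v) (e v')
        simp only [PiLp.sub_apply, PiLp.smul_apply, smul_eq_mul] at h2
        exact h2
    rw [ca5_inner] at hv hv'
    simp only at hv hv' h1
    simpa only [hv, hv', zero_mul, sub_zero] using h1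

/-- limits of jets of homogeneous harmonic functions -/
theorem ca5_hj {z : ℕ → ca5_P d} (h : ∀ k, HJ (z k).1 (z k).2.2.2.1 (z k).2.2.2.2) {y : ca5_P d}
    (hz : Tendsto z (hyperfilter ℕ) (𝓝 y)) : HJ y.1 y.2.2.2.1 y.2.2.2.2 :=
  ⟨ca5_eq hz (fun z => ∑ i, z.1 i * z.1 i) (fun _ => 1) (by fun_prop) (by fun_prop) fun k => (h k).x1,
    fun a b => ca5_eq hz (fun z => z.2.2.2.1 a b) (fun z => z.2.2.2.1 b a) (by fun_prop) (by fun_prop)
      fun k => (h k).as a b,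
    ca5_eq hz (fun z => ∑ a, z.2.2.2.1 a a) (fun _ => 0) (by fun_prop) (by fun_prop) fun k => (h k).atr,
    fun a => ca5_eq hz (fun z => ∑ b, z.2.2.2.1 a b * z.1 b) (fun _ => 0) (by fun_prop) (by fun_prop)
      fun k => (h k).ax a,
    fun a b c => ca5_eq hz (fun z => z.2.2.2.2 a b c) (fun z => z.2.2.2.2 b a c) (by fun_prop) (by fun_prop)
      fun k => (h k).T1 a b c,
    fun a b c => ca5_eq hz (fun z => z.2.2.2.2 a b c) (fun z => z.2.2.2.2 a c b) (by fun_prop) (by fun_prop)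
      fun k => (h k).T2 a b c,
    fun c => ca5_eq hz (fun z => ∑ a, z.2.2.2.2 a a c) (fun _ => 0) (by fun_prop) (by fun_prop) fun k => (h k).Ttr c,
    fun a b => ca5_eq hz (fun z => ∑ l, z.2.2.2.2 a b l * z.1 l) (fun z => -z.2.2.2.1 a b) (by fun_prop) (by fun_prop)
      fun k => (h k).Tx a b⟩

theorem bd_limit (hd : 1 ≤ d) (h : HC u) (hu : Mn 1 u) (hj : JetsNear u) {s : Ans} (hs : s.Ok) (hb : s.BdJ d)
    {ε : ℝ} (hε : 0 < ε) : ∃ δ : ℝ, 0 < δ ∧ ∀ x : E d, ‖x‖ = 1 → 0 < u x → u x < δ →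
      -ε ≤ rho u x * s.Φ (sv x (up u x) (ua u x)) +
        ∑ m, s.c m (sv x (up u x) (ua u x)) * dp (Xv (up u x) (ua u x) (uT u x) m) (up u x) := by
  by_contra hcon
  push Not at hcon
  obtain ⟨C, hC⟩ := hj
  have key : ∀ k : ℕ, ∃ (x : E d) (j : Jet d), ‖x‖ = 1 ∧ 0 < u x ∧ u x ≤ 1 / ((k : ℝ) + 1) ∧ j.IsB ∧ j.Bdd C ∧
      j.Near u x (1 / ((k : ℝ) + 1)) ∧ rho u x * s.Φ (sv x (up u x) (ua u x)) +
        ∑ m, s.c m (sv x (up u x) (ua u x)) * dp (Xv (up u x) (ua u x) (uT u x) m) (up u x) < -ε := fun k => by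
    obtain ⟨δ, hδ, h1⟩ := hC (1 / ((k : ℝ) + 1)) (by positivity)
    obtain ⟨x, h2, h3, h4, h5⟩ := hcon (min δ (1 / ((k : ℝ) + 1))) (by positivity)
    obtain ⟨j, h6, h7, h8⟩ := h1 x h2 h3 (h4.trans_le (min_le_left _ _))
    exact ⟨x, j, h2, h3, h4.le.trans (min_le_right _ _), h6, h7, h8, h5⟩
  choose x j hx1 hx0 hxk hB hC hN hlt using key
  choose x' hx' using fun i => ca5_lim (f := fun k => x k i) (C := 1) fun k =>
    (PiLp.norm_apply_le (x k) i).trans (hx1 k).le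
  choose w' hw' using fun i => ca5_lim (f := fun k => (j k).w i) (C := 1) fun k =>
    (PiLp.norm_apply_le (j k).w i).trans (hB k).w1.le
  obtain ⟨H', hH'⟩ := ca5_lim (f := fun k => (j k).H) fun k => (hC k).1
  choose A' hA' using fun a b => ca5_lim (f := fun k => (j k).A a b) fun k => (hC k).2.1 a b
  choose T' hT' using fun a b c => ca5_lim (f := fun k => (j k).T a b c) fun k => (hC k).2.2 a b c
  have hr : Tendsto (fun k => rho u (x k)) (hyperfilter ℕ) (𝓝 H') := ca5_near hH' fun k => (hN k).2.2.2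
  have z1 : Tendsto (fun k => ((x k, (j k).w, (j k).H, (j k).A, (j k).T) : ca5_P d)) (hyperfilter ℕ)
      (𝓝 (x', w', H', A', T')) :=
    (tendsto_pi_nhds.2 hx').prodMk_nhds ((tendsto_pi_nhds.2 hw').prodMk_nhds (hH'.prodMk_nhds
      ((tendsto_pi_nhds.2 fun a => tendsto_pi_nhds.2 (hA' a)).prodMk_nhds
        (tendsto_pi_nhds.2 fun a => tendsto_pi_nhds.2 fun b => tendsto_pi_nhds.2 (hT' a b)))))
  have z2 : Tendsto (fun k => ((x k, up u (x k), rho u (x k), ua u (x k), uT u (x k)) : ca5_P d)) (hyperfilter ℕ)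
      (𝓝 (x', w', H', A', T')) :=
    (tendsto_pi_nhds.2 hx').prodMk_nhds ((tendsto_pi_nhds.2 fun a => ca5_near (hw' a) fun k => (hN k).1 a).prodMk_nhds
      (hr.prodMk_nhds ((tendsto_pi_nhds.2 fun a => tendsto_pi_nhds.2 fun b =>
        ca5_near (hA' a b) fun k => (hN k).2.1 a b).prodMk_nhds
        (tendsto_pi_nhds.2 fun a => tendsto_pi_nhds.2 fun b => tendsto_pi_nhds.2 fun c =>
          ca5_near (hT' a b c) fun k => (hN k).2.2.1 a b c))))
  have b1 := ca5_isB hB z1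
  have b2 := ca5_hj (fun k => h.hj (hx0 k) (hx1 k)) z2
  have b3 : dp w' x' = 0 := by
    have c : Continuous fun z : ca5_P d => ∑ i, z.2.1 i * z.1 i := by fun_prop
    refine tendsto_nhds_unique ((c.tendsto _).comp z2) ?_
    refine (squeeze_zero (fun k => (hx0 k).le) hxk ca5_zero).congr fun k => (h.euler (hx0 k)).symm
  have b4 : 0 ≤ H' := ge_of_tendsto' hr fun k => by
    have h1 := norm_gradient_le hu.lip (x k)
    rw [NNReal.coe_one] at h1
    exact div_nonneg (sub_nonneg.2 (pow_le_one₀ (norm_nonneg _) h1)) (by linarith [hx0 k])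
  have b5 := hb x' _ b1 b2 b3 b4
  have b6 : dp w' w' = 1 := by
    have h1 := real_inner_self_eq_norm_sq (WithLp.toLp 2 w' : E d)
    rw [ca5_inner, b1.w1, one_pow] at h1
    exact h1
  have hD : Dom (sv x' w' A') :=
    ⟨show 0 ≤ ∑ a, ∑ b, A' a b * A' a b from
      Finset.sum_nonneg fun a _ => Finset.sum_nonneg fun b _ => mul_self_nonneg _, b3.ge,
      lt_of_lt_of_eq one_pos b6.symm, b6.le,
      show 0 ≤ ∑ a, mv A' w' a * mv A' w' a from Finset.sum_nonneg fun a _ => mul_self_nonneg _⟩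
  have t1 := (ca5_sv.tendsto _).comp z2
  have t2 := (hr.mul ((hs.Φ _ hD).continuousAt.tendsto.comp t1)).add (tendsto_finset_sum Finset.univ fun m _ =>
    ((hs.c m _ hD).continuousAt.tendsto.comp t1).mul (((ca5_Xv m).tendsto _).comp z2))
  have t3 := le_of_tendsto' t2 fun k => (hlt k).le
  exact absurd (b5.trans t3) (not_le.2 (neg_neg_of_pos hε))

end Crest.Agent.R97
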