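import Crest.Agent.R97.StabD1

/-! StabD (helper49): the stability inequality for `√(Φ+δ²) η`. -/

set_option autoImplicit false
set_option linter.unusedSectionVars false
open MeasureTheory Metric Set Filter Topology
open scoped RealInnerProductSpace NNReal

namespace Crest.Agent.R97

variable {d : ℕ}

theorem std_int {f : E d → ℝ} {S : Set (E d)} {R M : ℝ} (hS : MeasurableSet S) (hR : S ⊆ ball 0 R)
    (hf : AEStronglyMeasurable f (volume.restrict S)) (hb : ∀ x ∈ S, |f x| ≤ M) : IntegrableOn f S :=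
  Integrable.mono' (g := fun _ => M)
    (integrableOn_const ((measure_mono hR).trans_lt measure_ball_lt_top).ne)
    hf ((ae_restrict_iff' hS).2 (Eventually.of_forall hb))

theorem std_cont_grad {φ : E d → ℝ} {U : Set (E d)} (hU : IsOpen U) (h : ContDiffOn ℝ 1 φ U) :
    ContinuousOn (gradient φ) U :=
  (InnerProductSpace.toDual ℝ (E d)).symm.continuous.comp_continuousOn
    (h.continuousOn_fderiv_of_isOpen hU le_rfl)

namespace Pf
variable {u Φ φ η : E d → ℝ} {X : E d → E d} {Λ M R : ℝ} (P : Pf u Φ φ η X Λ M R)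
include P

theorem ne0 {x : E d} (hx : 0 < u x) : ‖x‖ ≠ 0 := (hx.trans_le (P.ule x)).ne'

theorem cw : ContinuousOn (fun x => Φ x / ‖x‖ ^ 2) {x | 0 < u x} :=
  P.cΦ.div (continuous_norm.pow 2).continuousOn (fun _ hx => pow_ne_zero 2 (P.ne0 hx))

theorem w_le {x : E d} (hx : 0 < u x) :
    0 ≤ η x ^ 2 * Φ x / ‖x‖ ^ 2 ∧ η x ^ 2 * Φ x / ‖x‖ ^ 2 ≤ 4 * M ^ 4 := by
  have hM := P.M1
  have h0 := P.Φ0 x hx
  refine ⟨by positivity, ?_⟩
  rcases (P.rad.nn x).eq_or_lt with h | h
  · rw [← h]; simp; positivity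
  · have h1 := P.half h
    have h2 : Φ x ≤ M ^ 2 := (P.Φb x hx).trans (pow_le_pow_left₀ (P.φ0 x) (P.hi x hx) 2)
    have h3 : η x ^ 2 ≤ M ^ 2 := pow_le_pow_left₀ h.le (P.ηb x) 2
    rw [div_le_iff₀ (by positivity)]
    have h4 : 1 ≤ 4 * ‖x‖ ^ 2 := by nlinarith
    calc η x ^ 2 * Φ x ≤ M ^ 2 * M ^ 2 := by gcongr
      _ = M ^ 4 * 1 := by ring
      _ ≤ M ^ 4 * (4 * ‖x‖ ^ 2) := by gcongr
      _ = _ := by ring

theorem step {ε : ℝ} (hε : 0 < ε) : ∃ t0 > (0 : ℝ), ∀ t, 0 < t → t ≤ t0 →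
    Λ * ∫ x in {x | 0 < u x} ∩ ball (0 : E d) R, η x ^ 2 * Φ x / ‖x‖ ^ 2
      ≤ (∫ x in {x | 0 < u x} ∩ ball (0 : E d) R, φ x ^ 2 * ‖gradient η x‖ ^ 2)
        + (ε * (4 * M ^ 2) + t * (8 * M ^ 5 + Λ * (4 * M ^ 4)))
          * ((3 * M ^ 2 + (3 * M ^ 2) ^ 2) * volume.real (ball (0 : E d) R)) := by
  have hM := P.M1
  have hΛ := P.Λ0
  obtain ⟨δ, hδ, hbd⟩ := P.bd ε hε
  refine ⟨min 1 (δ / (2 * M ^ 2)), lt_min one_pos (by positivity), fun t ht htt => ?_⟩
  have ht1 : t ≤ 1 := htt.trans (min_le_left _ _)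
  have ht2 : t * M ^ 2 ≤ δ / 2 := by
    have := htt.trans (min_le_right _ _)
    rw [le_div_iff₀ (by positivity)] at this; linarith
  obtain ⟨Kk, hk⟩ := P.lip_k ht
  obtain ⟨Kh, hh'⟩ := P.lip_h ht ht1
  obtain ⟨Kη, hη⟩ := P.ηl
  obtain ⟨K2, hk2⟩ := std_lip_sq hk (P.k0 ht) (fun x => (min_le_right _ _).trans (P.ηb x))
  obtain ⟨K3, hη2⟩ := std_lip_sq hη P.rad.nn P.ηb
  have uc := P.mn.lip.continuous
  have ηc := P.rad.sm.continuous
  set O : Set (E d) := {x | 0 < u x} ∩ ball (0 : E d) R with hO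
  set A : Set (E d) := {x | 0 < u x ∧ hh u φ η t x = u x} with hA
  set B : Set (E d) := {x | hh u φ η t x < u x} ∩ ball (0 : E d) R with hB
  set S : Set (E d) := {x | 0 < kk u φ η t x ^ 2} with hS
  have mO : MeasurableSet O := P.opn.measurableSet.inter measurableSet_ball
  have mA : MeasurableSet A :=
    P.opn.measurableSet.inter (isClosed_eq hh'.continuous uc).measurableSet
  have mB : MeasurableSet B := (isOpen_lt hh'.continuous uc).measurableSet.inter measurableSet_ball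
  have mS : MeasurableSet S := (isOpen_lt continuous_const hk2.continuous).measurableSet
  have hAO : A ⊆ O := fun x hx => ⟨hx.1, by
    by_contra h
    have := P.h_out ht x h
    linarith [hx.1, hx.2]⟩
  have hBO : B ⊆ O := fun x hx => ⟨(P.B_iff ht hx.1).1, hx.2⟩
  have kS : ∀ x ∈ S, 0 < kk u φ η t x := fun x hx =>
    lt_of_le_of_ne (P.k0 ht x) (fun h => by simp [hS, ← h] at hx)
  have hSO : S ⊆ O := fun x hx => ⟨(P.k_pos ht (kS x hx)).1, by
    by_contra h
    exact (kS x hx).ne' (P.k_out ht h)⟩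
  have hOU : O = A ∪ B := by
    refine Subset.antisymm (fun x hx => ?_) (union_subset hAO hBO)
    rcases (P.h_le ht x).eq_or_lt with h | h
    · exact Or.inl ⟨hx.1, h⟩
    · exact Or.inr ⟨h, hx.2⟩
  have hAB : Disjoint A B := disjoint_left.2 fun x h1 h2 => h2.1.ne h1.2
  have OR : O ⊆ ball 0 R := inter_subset_right
  have OΩ : O ⊆ {x | 0 < u x} := inter_subset_left
  have cg := std_cont_grad P.opn P.cφ
  -- integrability on `O`
  have i1 : IntegrableOn (fun x => η x ^ 2 * Φ x / ‖x‖ ^ 2) O :=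
    std_int mO OR ((((ηc.pow 2).continuousOn.mul P.cΦ).div (continuous_norm.pow 2).continuousOn
      (fun _ hx => pow_ne_zero 2 (P.ne0 hx))).mono OΩ |>.aestronglyMeasurable mO)
      (fun x hx => by rw [abs_of_nonneg (P.w_le hx.1).1]; exact (P.w_le hx.1).2)
  have b2 : ∀ x, 0 < u x → η x ^ 2 * ‖gradient φ x‖ ^ 2 ≤ (2 * M ^ 2) ^ 2 := fun x hx => by
    rw [← mul_pow]
    exact pow_le_pow_left₀ (mul_nonneg (P.rad.nn x) (norm_nonneg _)) (P.ηgφ ht hx) 2
  have i2 : IntegrableOn (fun x => η x ^ 2 * ‖gradient φ x‖ ^ 2) O :=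
    std_int mO OR ((((ηc.pow 2).continuousOn.mul (cg.norm.pow 2)).mono OΩ).aestronglyMeasurable mO)
      (fun x hx => by rw [abs_of_nonneg (by positivity)]; exact b2 x hx.1)
  have i3 : IntegrableOn (fun x => φ x ^ 2 * ‖gradient η x‖ ^ 2) O :=
    std_int (M := M ^ 2 * M ^ 2) mO OR ((((P.cφ.continuousOn.pow 2).mul
      ((std_cont_grad P.opn P.rad.sm.contDiffOn).norm.pow 2)).mono OΩ).aestronglyMeasurable mO)
      (fun x hx => by
        rw [abs_of_nonneg (by positivity)]
        exact mul_le_mul (pow_le_pow_left₀ (P.φ0 x) (P.hi x hx.1) 2)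
          (pow_le_pow_left₀ (norm_nonneg _) (P.ηg x) 2) (by positivity) (by positivity))
  set g : E d → ℝ := fun x => ‖gradient φ x‖ ^ 2 + Λ * Φ x / ‖x‖ ^ 2 with hg
  have gc : ContinuousOn g {x | 0 < u x} :=
    (cg.norm.pow 2).add ((continuousOn_const.mul P.cΦ).div (continuous_norm.pow 2).continuousOn
      (fun _ hx => pow_ne_zero 2 (P.ne0 hx)))
  have g0 : ∀ x, 0 < u x → 0 ≤ g x := fun x hx => by have := P.Φ0 x hx; positivity
  have ge : ∀ x, η x ^ 2 * g x = η x ^ 2 * ‖gradient φ x‖ ^ 2 + Λ * (η x ^ 2 * Φ x / ‖x‖ ^ 2) :=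
    fun x => by simp only [hg]; ring
  have i4 : IntegrableOn (fun x => kk u φ η t x ^ 2 * g x) O :=
    std_int (M := (2 * M ^ 2) ^ 2 + Λ * (4 * M ^ 4)) mO OR
      (((hk2.continuous.continuousOn.mul gc).mono OΩ).aestronglyMeasurable mO) (fun x hx => by
        rw [abs_of_nonneg (mul_nonneg (by positivity) (g0 x hx.1))]
        have h1 : kk u φ η t x ^ 2 ≤ η x ^ 2 := pow_le_pow_left₀ (P.k0 ht x) (min_le_right _ _) 2
        refine (mul_le_mul_of_nonneg_right h1 (g0 x hx.1)).trans ?_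
        rw [ge]
        exact add_le_add (b2 x hx.1) (mul_le_mul_of_nonneg_left (P.w_le hx.1).2 hΛ))
  have gu : ∀ x, 0 ≤ 1 - ‖gradient u x‖ ^ 2 := fun x => by
    have : ‖gradient u x‖ ≤ 1 := by simpa using norm_gradient_le P.mn.lip x
    nlinarith [norm_nonneg (gradient u x)]
  have i5 : IntegrableOn (fun x => 1 - ‖gradient u x‖ ^ 2) A :=
    std_int (M := 1) mA (hAO.trans OR)
      (measurable_const.sub ((measurable_gradient u).norm.pow_const 2)).aestronglyMeasurable
      (fun x _ => by rw [abs_of_nonneg (gu x)]; nlinarith [norm_nonneg (gradient u x)])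
  have fA : volume A ≠ ⊤ := ((measure_mono (hAO.trans OR)).trans_lt measure_ball_lt_top).ne
  have XS : ∀ x ∈ S, ‖X x‖ ≤ 2 * M := fun x hx => by
    have h1 := P.Xb x (hSO hx).1
    have h2 := P.half (P.k_pos ht (kS x hx)).2
    nlinarith [norm_nonneg (X x)]
  -- integration by parts
  have hI := ibp_le (M := 4 * M ^ 2 + Λ * (4 * M ^ 2)) (g := g) P.opn P.cX hk2 (fun x => by positivity)
    (fun x hx => by rw [P.k_out ht hx]; simp) gc (fun x hx => by
      have hu := (hSO hx).1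
      have h2 := P.half (P.k_pos ht (kS x hx)).2
      refine ⟨hu, (XS x hx).trans (by nlinarith [mul_nonneg hΛ (sq_nonneg M)]), ?_, P.i1 x hu⟩
      rw [abs_of_nonneg (g0 x hu)]
      have a1 : ‖gradient φ x‖ ≤ 2 * M := by nlinarith [P.gφ x hu, norm_nonneg (gradient φ x)]
      have a2 : Φ x / ‖x‖ ^ 2 ≤ 4 * M ^ 2 := by
        rw [div_le_iff₀ (by positivity)]
        have : Φ x ≤ M ^ 2 := (P.Φb x hu).trans (pow_le_pow_left₀ (P.φ0 x) (P.hi x hu) 2)
        have h4 : 1 ≤ 4 * ‖x‖ ^ 2 := by nlinarith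
        nlinarith
      refine add_le_add (by nlinarith [norm_nonneg (gradient φ x)]) ?_
      rw [mul_div_assoc]; exact mul_le_mul_of_nonneg_left a2 hΛ)
  -- lower bound
  have L1 : (∫ x in B, η x ^ 2 * ‖gradient φ x‖ ^ 2) + Λ * ∫ x in B, η x ^ 2 * Φ x / ‖x‖ ^ 2
      ≤ ∫ x in S, kk u φ η t x ^ 2 * g x := by
    rw [← setIntegral_eq_of_subset_of_forall_sdiff_eq_zero mO hSO (fun x hx => by
      have : kk u φ η t x ^ 2 = 0 := le_antisymm (not_lt.1 hx.2) (by positivity)
      rw [this, zero_mul]), ← integral_const_mul, ← integral_add (i2.mono_set hBO)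
      ((i1.mono_set hBO).const_mul Λ)]
    refine le_trans (le_of_eq (setIntegral_congr_fun mB fun x hx => ?_))
      (setIntegral_mono_set i4 ((ae_restrict_iff' mO).2 (Eventually.of_forall fun x hx =>
        mul_nonneg (by positivity) (g0 x hx.1))) hBO.eventuallyLE)
    simp only [kk]
    rw [min_eq_right (P.B_iff ht hx.1).2.le, ge]
  have L2 : ∫ x in O, η x ^ 2 * Φ x / ‖x‖ ^ 2
      ≤ (∫ x in B, η x ^ 2 * Φ x / ‖x‖ ^ 2) + 4 * M ^ 4 * volume.real A := by
    rw [hOU, setIntegral_union hAB mB (i1.mono_set hAO) (i1.mono_set hBO), add_comm]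
    gcongr
    calc _ ≤ ∫ _ in A, 4 * M ^ 4 := setIntegral_mono_on (i1.mono_set hAO) (integrableOn_const fA) mA
          (fun x hx => (P.w_le hx.1).2)
      _ = _ := by rw [setIntegral_const, smul_eq_mul, mul_comm]
  -- upper bound
  set c : ℝ := ε * (4 * M ^ 2) / t + 8 * M ^ 5 with hc
  have c0 : 0 ≤ c := by positivity
  have i6 : IntegrableOn (fun x => (1 - ‖gradient u x‖ ^ 2) / t ^ 2 + c) A :=
    (i5.div_const _).add (integrableOn_const fA)
  have U1 : -∫ x in S, ⟪X x, gradient (fun y => kk u φ η t y ^ 2) x⟫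
      ≤ (∫ x in A, (1 - ‖gradient u x‖ ^ 2)) / t ^ 2 + c * volume.real A := by
    have i7 : IntegrableOn (fun x => ⟪X x, gradient (fun y => kk u φ η t y ^ 2) x⟫) S :=
      std_int (M := 2 * M * K2) mS (hSO.trans OR)
        (((P.cX.continuousOn.mono (hSO.trans OΩ)).aestronglyMeasurable mS).inner
          (measurable_gradient _).aestronglyMeasurable)
        (fun x hx => (abs_real_inner_le_norm _ _).trans
          (mul_le_mul (XS x hx) (norm_gradient_le hk2 x) (norm_nonneg _) (by positivity)))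
    rw [← integral_neg]
    calc _ ≤ ∫ x in S, A.indicator (fun x => (1 - ‖gradient u x‖ ^ 2) / t ^ 2 + c) x := by
          refine integral_mono_ae i7.neg ((i6.integrable_indicator mA).integrableOn) ?_
          filter_upwards [ae_restrict_mem mS, ae_restrict_of_ae (gradient_ae_eq hk2 hη2)] with x hx hae
          obtain ⟨hu, hηx⟩ := P.k_pos ht (kS x hx)
          have hp := P.φpos hu
          rcases lt_or_ge (t⁻¹ * (u x / φ x)) (η x) with h | h
          · have h1 : u x < t * φ x * η x := by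
              rw [inv_mul_eq_div, div_div, div_lt_iff₀ (by positivity)] at h; linarith
            have hxA : x ∈ A := ⟨hu, by rw [P.h_eq ht hu, min_eq_left h1.le]⟩
            rw [indicator_of_mem hxA]
            refine P.layer ht hε.le hu h (hbd x hu ?_)
            have h2 := P.half hηx
            have h3 : t * φ x * η x ≤ t * M ^ 2 := by
              rw [mul_assoc, sq]
              exact mul_le_mul_of_nonneg_left (mul_le_mul (P.hi x hu) (P.ηb x) hηx.le (by positivity)) ht.le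
            nlinarith
          · have h1 : kk u φ η t x = η x := min_eq_right h
            obtain ⟨a, ha⟩ := P.rad.rad x
            rw [hae (by rw [h1]), std_grad_comp (g := fun s => s ^ 2) (P.dη x) (hasDerivAt_pow 2 _), ha,
              real_inner_smul_right, real_inner_smul_right, P.tX x hu]
            simp only [mul_zero, neg_zero]
            exact indicator_nonneg (fun y _ => by have := gu y; positivity) x
      _ ≤ ∫ x, A.indicator (fun x => (1 - ‖gradient u x‖ ^ 2) / t ^ 2 + c) x :=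
          setIntegral_le_integral (i6.integrable_indicator mA) (Eventually.of_forall fun x =>
            indicator_nonneg (fun y _ => by have := gu y; positivity) x)
      _ = _ := by
          rw [integral_indicator mA, integral_add (i5.div_const _) (integrableOn_const fA),
            integral_div, setIntegral_const, smul_eq_mul, mul_comm]
  have U2 : (∫ x in A, (1 - ‖gradient u x‖ ^ 2)) / t ^ 2
      ≤ (∫ x in B, η x ^ 2 * ‖gradient φ x‖ ^ 2) + ∫ x in O, φ x ^ 2 * ‖gradient η x‖ ^ 2 := by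
    rw [div_le_iff₀ (by positivity)]
    refine (stb_one P.mn hh' (P.h0 ht) (P.h_le ht) (P.h_out ht)).trans ?_
    rw [setIntegral_congr_fun mB (fun x hx => P.grad_h ht hx.1), integral_const_mul,
      integral_add (i2.mono_set hBO) (i3.mono_set hBO), mul_comm]
    gcongr
    exact Eventually.of_forall fun x => by positivity
  have V := stb_vol P.mn hh' (P.h0 ht) (P.h_le ht) (P.h_out ht) (m := t * (3 * M ^ 2)) (by positivity)
    (fun x hx => P.grad_h_le ht hx)
  have V0 : 0 ≤ volume.real (ball (0 : E d) R) := measureReal_nonneg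
  have V2 : volume.real A ≤ t * ((3 * M ^ 2 + (3 * M ^ 2) ^ 2) * volume.real (ball (0 : E d) R)) := by
    refine V.trans ?_
    rw [← mul_assoc t (3 * M ^ 2 + (3 * M ^ 2) ^ 2)]
    refine mul_le_mul_of_nonneg_right ?_ V0
    have : t ^ 2 ≤ t := by nlinarith
    nlinarith [mul_le_mul_of_nonneg_right this (sq_nonneg (3 * M ^ 2))]
  have F1 := mul_le_mul_of_nonneg_left L2 hΛ
  have F2 := mul_le_mul_of_nonneg_left V2 (add_nonneg c0 (by positivity : 0 ≤ Λ * (4 * M ^ 4)))
  have F3 : (c + Λ * (4 * M ^ 4)) * (t * ((3 * M ^ 2 + (3 * M ^ 2) ^ 2) * volume.real (ball (0 : E d) R)))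
      = (ε * (4 * M ^ 2) + t * (8 * M ^ 5 + Λ * (4 * M ^ 4)))
          * ((3 * M ^ 2 + (3 * M ^ 2) ^ 2) * volume.real (ball (0 : E d) R)) := by
    rw [hc]; field_simp; ring
  nlinarith

theorem main : Λ * ∫ x in {x | 0 < u x} ∩ ball (0 : E d) R, η x ^ 2 * Φ x / ‖x‖ ^ 2
    ≤ ∫ x in {x | 0 < u x} ∩ ball (0 : E d) R, φ x ^ 2 * ‖gradient η x‖ ^ 2 := by
  have hM := P.M1
  have hΛ := P.Λ0
  have V0 : 0 ≤ volume.real (ball (0 : E d) R) := measureReal_nonneg
  set V := (3 * M ^ 2 + (3 * M ^ 2) ^ 2) * volume.real (ball (0 : E d) R) with hV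
  have hV0 : 0 ≤ V := by positivity
  set a := 4 * M ^ 2 + (8 * M ^ 5 + Λ * (4 * M ^ 4)) with ha
  have ha0 : 0 ≤ a := by positivity
  refine le_of_forall_pos_le_add fun e he => ?_
  have hε : 0 < e / (a * V + 1) := by positivity
  obtain ⟨t0, ht0, h⟩ := P.step hε
  refine (h (min t0 (e / (a * V + 1))) (lt_min ht0 hε) (min_le_left _ _)).trans ?_
  gcongr
  calc _ ≤ (e / (a * V + 1) * (4 * M ^ 2) + e / (a * V + 1) * (8 * M ^ 5 + Λ * (4 * M ^ 4))) * V := by
        gcongr; exact min_le_right _ _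
    _ = e * (a * V / (a * V + 1)) := by rw [ha]; field_simp
    _ ≤ e * 1 := by gcongr; rw [div_le_one (by positivity)]; linarith
    _ = e := mul_one e

end Pf

theorem stab_eta {u Φ : E d → ℝ} {X : E d → E d} {Λ C : ℝ} (hP : Pk u Φ X Λ C) (hΛ : 0 ≤ Λ)
    {η : E d → ℝ} {R : ℝ} (hη : Rad η R) :
    Λ * ∫ x in {x | 0 < u x} ∩ ball (0 : E d) R, η x ^ 2 * Φ x / ‖x‖ ^ 2
      ≤ ∫ x in {x | 0 < u x} ∩ ball (0 : E d) R, Φ x * ‖gradient η x‖ ^ 2 := by
  have hC := hP.C0
  have hcs : HasCompactSupport η :=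
    HasCompactSupport.intro (isCompact_closedBall (0 : E d) R) fun x hx =>
      hη.hi x (by simpa using le_of_lt (show R < ‖x‖ by simpa using hx))
  obtain ⟨K, hK⟩ := hη.sm.lipschitzWith_of_hasCompactSupport hcs one_ne_zero
  obtain ⟨b, hb⟩ := hη.sm.continuous.bounded_above_of_compact_support hcs
  have hb0 : 0 ≤ b := (norm_nonneg _).trans (hb 0)
  have opn : IsOpen {x | 0 < u x} := isOpen_lt continuous_const hP.mn.lip.continuous
  have mO : MeasurableSet ({x | 0 < u x} ∩ ball (0 : E d) R) := opn.measurableSet.inter measurableSet_ball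
  have cη := std_cont_grad isOpen_univ hη.sm.contDiffOn
  have i1 : IntegrableOn (fun x => ‖gradient η x‖ ^ 2) ({x | 0 < u x} ∩ ball (0 : E d) R) :=
    std_int (M := K ^ 2) mO inter_subset_right
      (((cη.norm.pow 2).mono (subset_univ _)).aestronglyMeasurable mO) (fun x _ => by
        rw [abs_of_nonneg (by positivity)]
        exact pow_le_pow_left₀ (norm_nonneg _) (norm_gradient_le hK x) 2)
  have i2 : IntegrableOn (fun x => Φ x * ‖gradient η x‖ ^ 2) ({x | 0 < u x} ∩ ball (0 : E d) R) :=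
    std_int (M := C * K ^ 2) mO inter_subset_right
      (((hP.cΦ.continuousOn.mono inter_subset_left).mul
        ((cη.norm.pow 2).mono (subset_univ _))).aestronglyMeasurable mO) (fun x hx => by
        have := hP.Φ0 x hx.1
        rw [abs_of_nonneg (by positivity)]
        exact mul_le_mul (hP.Φb x hx.1) (pow_le_pow_left₀ (norm_nonneg _) (norm_gradient_le hK x) 2)
          (by positivity) hC)
  set I := ∫ x in {x | 0 < u x} ∩ ball (0 : E d) R, ‖gradient η x‖ ^ 2 with hI
  have I0 : 0 ≤ I := integral_nonneg fun x => by positivity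
  refine le_of_forall_pos_le_add fun e he => ?_
  obtain ⟨δ, hδ, hδ1, hδe⟩ : ∃ δ : ℝ, 0 < δ ∧ δ ≤ 1 ∧ δ * I ≤ e :=
    ⟨min 1 (e / (I + 1)), lt_min one_pos (by positivity), min_le_left _ _, by
      have : min 1 (e / (I + 1)) ≤ e / (I + 1) := min_le_right _ _
      rw [le_div_iff₀ (by positivity)] at this
      nlinarith [lt_min one_pos (show 0 < e / (I + 1) by positivity)]⟩
  have hs : ∀ x, 0 < u x → 0 < Φ x + δ ^ 2 := fun x hx => by have := hP.Φ0 x hx; positivity
  have hlo : ∀ x, 0 < u x → δ ≤ √(Φ x + δ ^ 2) := fun x hx =>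
    Real.le_sqrt_of_sq_le (by linarith [hP.Φ0 x hx])
  have hgr : ∀ x, 0 < u x → gradient (fun y => √(Φ y + δ ^ 2)) x
      = (1 / (2 * √(Φ x + δ ^ 2))) • gradient Φ x := fun x hx =>
    std_grad_comp (g := fun s => √(s + δ ^ 2))
      ((hP.cΦ.contDiffAt (opn.mem_nhds hx)).differentiableAt (by simp))
      (((hasDerivAt_id' (Φ x)).add_const (δ ^ 2)).sqrt (hs x hx).ne')
  have hi : 0 < δ⁻¹ := by positivity
  have P : Pf u Φ (fun y => √(Φ y + δ ^ 2)) η X Λ (1 + C + δ⁻¹ + C * δ⁻¹ + b + K) R := by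
    have hK0 := K.coe_nonneg
    have hCδ : 0 ≤ C * δ⁻¹ := by positivity
    refine ⟨hP.mn, hP.ule, hP.cΦ.continuousOn,
      (hP.cΦ.add contDiffOn_const).sqrt (fun x hx => (hs x hx).ne'), hP.cX, hη, by linarith, hΛ,
      fun x => Real.sqrt_nonneg _, fun x hx => ?_, fun x hx => ?_, hP.Φ0, fun x hx => ?_, fun x hx => ?_,
      fun x hx => (hP.Xb x hx).trans (by linarith), fun x hx => ?_, hP.tX, fun x hx => ?_,
      fun x => ?_, fun x => (norm_gradient_le hK x).trans (by linarith), ⟨K, hK⟩, hP.bd⟩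
    · calc (1 : ℝ) = δ⁻¹ * δ := by field_simp
        _ ≤ _ := mul_le_mul (by linarith) (hlo x hx) hδ.le (by linarith)
    · refine (Real.sqrt_le_iff.2 ⟨by linarith, ?_⟩ : _ ≤ 1 + C).trans (by linarith)
      nlinarith [hP.Φb x hx]
    · rw [Real.sq_sqrt (hs x hx).le]; nlinarith
    · have h1 := hlo x hx
      have hp : 0 < √(Φ x + δ ^ 2) := hδ.trans_le h1
      rw [hgr x hx, norm_smul, Real.norm_of_nonneg (by positivity), mul_assoc]
      have h2 : 1 / (2 * √(Φ x + δ ^ 2)) ≤ δ⁻¹ := by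
        rw [← one_div]; exact one_div_le_one_div_of_le hδ (by linarith)
      calc _ ≤ δ⁻¹ * C := mul_le_mul h2 (hP.gΦ x hx) (by positivity) hi.le
        _ ≤ _ := by linarith
    · rw [hgr x hx, real_inner_smul_left, hP.tΦ x hx, mul_zero]
    · have hp : 0 < √(Φ x + δ ^ 2) := hδ.trans_le (hlo x hx)
      have h1 := hP.i0 x hx
      have h2 := hP.i1 x hx
      rw [hgr x hx, norm_smul, mul_pow, Real.norm_of_nonneg (by positivity), div_pow, mul_pow,
        Real.sq_sqrt (hs x hx).le, ← le_sub_iff_add_le, div_mul_eq_mul_div, div_le_iff₀ (by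
          have := hs x hx; positivity)]
      nlinarith [mul_nonneg h1 (sq_nonneg δ)]
    · have := (le_abs_self _).trans (hb x)
      linarith
  refine P.main.trans ?_
  rw [setIntegral_congr_fun mO (g := fun x => Φ x * ‖gradient η x‖ ^ 2 + δ ^ 2 * ‖gradient η x‖ ^ 2)
    (fun x hx => by simp only; rw [Real.sq_sqrt (hs x hx.1).le]; ring),
    integral_add i2 (i1.const_mul _), integral_const_mul]
  gcongr
  nlinarith [mul_nonneg hδ.le I0]

end Crest.Agent.R97
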