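import Crest.Agent.R97.StabDefs

/-! StabE (sub-lead helper49): the sharp Hardy constant on a cone.  Helper prefix `ste_`. -/

set_option autoImplicit false
open MeasureTheory Metric Set Filter Topology
open scoped RealInnerProductSpace NNReal

namespace Crest.Agent.R97

variable {d : ℕ}

theorem ste_beta : ∃ (β : ℝ → ℝ) (b : ℝ), 0 ≤ b ∧ ContDiff ℝ 1 β ∧ (∀ s, 0 ≤ β s ∧ β s ≤ 1) ∧
    (∀ s, s ≤ 1 / 4 → β s = 0) ∧ (∀ s, 1 ≤ s → β s = 1) ∧ (∀ s, |s * deriv β s| ≤ b) ∧
    (∀ s, s < 1 / 4 → deriv β s = 0) ∧ ∀ s, 1 < s → deriv β s = 0 := by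
  set β : ℝ → ℝ := fun s => Real.smoothTransition ((4 * s - 1) / 3) with hβ
  have hs : ContDiff ℝ 1 β := Real.smoothTransition.contDiff.comp (by fun_prop)
  have h0 : ∀ s, s ≤ 1 / 4 → β s = 0 := fun s h => Real.smoothTransition.zero_of_nonpos (by linarith)
  have h1 : ∀ s, 1 ≤ s → β s = 1 := fun s h => Real.smoothTransition.one_of_one_le (by linarith)
  have d0 : ∀ s, s < 1 / 4 → deriv β s = 0 := by
    intro s h
    have : β =ᶠ[𝓝 s] fun _ => 0 := by
      filter_upwards [gt_mem_nhds h] with y hy using h0 y hy.le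
    rw [this.deriv_eq, deriv_const]
  have d1 : ∀ s, 1 < s → deriv β s = 0 := by
    intro s h
    have : β =ᶠ[𝓝 s] fun _ => 1 := by
      filter_upwards [lt_mem_nhds h] with y hy using h1 y hy.le
    rw [this.deriv_eq, deriv_const]
  have hc : Continuous fun s => s * deriv β s := continuous_id.mul (hs.continuous_deriv le_rfl)
  obtain ⟨b, hb⟩ := isCompact_Icc.exists_bound_of_continuousOn (s := Icc (0 : ℝ) 1) hc.continuousOn
  have hb0 : 0 ≤ b := (norm_nonneg _).trans (hb 0 ⟨le_rfl, zero_le_one⟩)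
  refine ⟨β, b, hb0, hs, fun s => ⟨Real.smoothTransition.nonneg _, Real.smoothTransition.le_one _⟩, h0, h1,
    fun s => ?_, d0, d1⟩
  by_cases h : s ∈ Icc (0 : ℝ) 1
  · exact hb s h
  · rcases not_and_or.mp h with h | h
    · rw [d0 s (by linarith [not_le.mp h]), mul_zero, abs_zero]; exact hb0
    · rw [d1 s (not_le.mp h), mul_zero, abs_zero]; exact hb0

theorem ste_grad {e : ℝ → ℝ} (he : Differentiable ℝ e) (x : E d) :
    gradient (fun x : E d => e (‖x‖ ^ 2)) x = (2 * deriv e (‖x‖ ^ 2)) • x := by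
  have h := (he (‖x‖ ^ 2)).hasDerivAt.comp_hasFDerivAt x (hasStrictFDerivAt_norm_sq x).hasFDerivAt
  refine HasGradientAt.gradient ?_
  rw [hasGradientAt_iff_hasFDerivAt]
  refine h.congr_fderiv ?_
  ext v
  simp [InnerProductSpace.toDual_apply_apply]
  ring

theorem ste_rpow {r : ℝ} (hr : 0 < r) :
    ((r ^ 2) ^ (-(((d : ℝ) - 2) / 4))) ^ 2 / r ^ 2 = 1 / r ^ d := by
  have e : ((r ^ 2) ^ (-(((d : ℝ) - 2) / 4))) ^ 2 * r ^ d = r ^ 2 := by
    rw [← Real.rpow_natCast r 2, ← Real.rpow_mul hr.le, ← Real.rpow_natCast _ 2, ← Real.rpow_mul hr.le,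
      ← Real.rpow_natCast r d, ← Real.rpow_add hr]
    congr 1
    push_cast
    ring
  rw [div_eq_div_iff (by positivity) (by positivity), e, one_mul]

/-- `a = (d-2)/2`, `β r = Real.smoothTransition (2 r - 1)` (`0` for `r ≤ 1/2`, `1` for `r ≥ 1`, `|β'| ≤ b`: `deriv β` is
continuous with compact support).  `e r = r^(-a) * β r * β (2^N / r)`, `η x = e ‖x‖` (`ContDiff ℝ 1`: zero near the origin,
`contDiffAt_norm` elsewhere), `gradient η x = (e' ‖x‖ / ‖x‖) • x`.  On `1 < r < 2^N`: `e = r^(-a)` near `r`.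
For `r ≥ 1/2`: `|β' r| ≤ b·1_{r ≤ 1} ≤ b / r`, `|d/dr β(2^N/r)| ≤ b (2^N/r) / r · 1_{2^N/r ≤ 1} ≤ b / r`, so
`|e'| ≤ (a + 2b) r^(-a-1)`. -/
theorem ste_eta (hd : 2 ≤ d) : ∃ B : ℝ, 0 ≤ B ∧ ∀ N : ℕ, ∃ η : E d → ℝ, Rad η (2 ^ (N + 1)) ∧
    (∀ x : E d, ‖x‖ < 1 / 2 ∨ 2 ^ (N + 1) < ‖x‖ → gradient η x = 0) ∧
    (∀ x : E d, ‖gradient η x‖ ^ 2 ≤ B / ‖x‖ ^ d) ∧
    ∀ x : E d, 1 < ‖x‖ → ‖x‖ < 2 ^ N → η x ^ 2 / ‖x‖ ^ 2 = 1 / ‖x‖ ^ d ∧
      ‖gradient η x‖ ^ 2 = ((d : ℝ) - 2) ^ 2 / 4 / ‖x‖ ^ d := by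
  obtain ⟨β, b, hb0, hβ, hβ1, z0, z1, hb, d0, d1⟩ := ste_beta
  set p : ℝ := ((d : ℝ) - 2) / 4 with hp
  have hd' : (2 : ℝ) ≤ d := by exact_mod_cast hd
  have hp0 : 0 ≤ p := by rw [hp]; linarith
  refine ⟨4 * (p + 2 * b) ^ 2, by positivity, fun N => ?_⟩
  set T : ℝ := (2 ^ N) ^ 2 with hT
  have hT0 : 0 < T := by positivity
  set e : ℝ → ℝ := fun s => s ^ (-p) * (β s * β (T / s)) with he
  have hβd : Differentiable ℝ β := hβ.differentiable one_ne_zero
  have hes : ContDiff ℝ 1 e := by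
    refine contDiff_iff_contDiffAt.mpr fun s => ?_
    rcases lt_or_ge s (1 / 4) with h | h
    · have : e =ᶠ[𝓝 s] fun _ => 0 := by
        filter_upwards [gt_mem_nhds h] with y hy
        simp [he, z0 y hy.le]
      exact contDiffAt_const.congr_of_eventuallyEq this
    · have hs : s ≠ 0 := by linarith
      exact (Real.contDiffAt_rpow_const_of_ne hs).mul (hβ.contDiffAt.mul
        (hβ.contDiffAt.comp s (contDiffAt_const.div contDiffAt_id hs)))
  have hed : Differentiable ℝ e := hes.differentiable one_ne_zero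
  set K : ℝ → ℝ := fun s => -(p * (β s * β (T / s))) + s * deriv β s * β (T / s) - β s * (T / s * deriv β (T / s))
    with hK
  have hde : ∀ s, 0 < s → deriv e s = s ^ (-p) / s * K s := by
    intro s hs
    have h1 : HasDerivAt (fun s : ℝ => s ^ (-p)) (-p * s ^ (-p - 1)) s := Real.hasDerivAt_rpow_const (Or.inl hs.ne')
    have h2 : HasDerivAt (fun s : ℝ => T / s) (-(T / s ^ 2)) s := by
      simpa [div_eq_mul_inv] using (hasDerivAt_inv hs.ne').const_mul T
    have h3 := (hβd (T / s)).hasDerivAt.comp s h2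
    have h4 := (h1.mul ((hβd s).hasDerivAt.mul h3)).deriv
    have e1 : e = (fun s : ℝ => s ^ (-p)) * (β * (β ∘ fun s : ℝ => T / s)) := rfl
    rw [e1, h4, Real.rpow_sub_one hs.ne', hK]
    simp only [Pi.mul_apply, Function.comp_apply]
    field_simp
    ring
  have hKb : ∀ s, |K s| ≤ p + 2 * b := by
    intro s
    obtain ⟨a1, a2⟩ := hβ1 s
    obtain ⟨a3, a4⟩ := hβ1 (T / s)
    obtain ⟨b1, b2⟩ := abs_le.mp (hb s)
    obtain ⟨b3, b4⟩ := abs_le.mp (hb (T / s))
    have c1 : 0 ≤ β s * β (T / s) := by positivity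
    have c2 : β s * β (T / s) ≤ 1 := mul_le_one₀ a2 a3 a4
    simp only [hK]
    rw [abs_le]
    constructor <;> nlinarith [mul_nonneg hp0 c1, mul_le_mul_of_nonneg_left c2 hp0]
  have hg : ∀ x : E d, gradient (fun x : E d => e (‖x‖ ^ 2)) x = (2 * deriv e (‖x‖ ^ 2)) • x := ste_grad hed
  have hn : ∀ x : E d, x ≠ 0 → ‖gradient (fun x : E d => e (‖x‖ ^ 2)) x‖ ^ 2 = 4 * K (‖x‖ ^ 2) ^ 2 / ‖x‖ ^ d := by
    intro x hx
    have hr : 0 < ‖x‖ := norm_pos_iff.mpr hx
    have e1 := ste_rpow (d := d) hr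
    rw [← hp] at e1
    rw [hg, hde _ (by positivity), norm_smul, mul_pow, Real.norm_eq_abs, sq_abs, div_eq_mul_one_div _ (‖x‖ ^ d), ← e1]
    field_simp
    ring
  have hR : ((2 : ℝ) ^ (N + 1)) ^ 2 = 4 * T := by rw [hT]; ring
  refine ⟨fun x => e (‖x‖ ^ 2), ⟨hes.comp (contDiff_norm_sq ℝ), fun x => ?_, fun x hx => ?_, fun x hx => ?_,
    fun x => ⟨_, hg x⟩⟩, fun x hx => ?_, fun x => ?_, fun x h1 h2 => ?_⟩
  · exact mul_nonneg (Real.rpow_nonneg (by positivity) _) (mul_nonneg (hβ1 _).1 (hβ1 _).1)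
  · have : ‖x‖ ^ 2 ≤ 1 / 4 := by nlinarith [norm_nonneg x]
    simp [he, z0 _ this]
  · have h1 : 4 * T ≤ ‖x‖ ^ 2 := hR ▸ pow_le_pow_left₀ (by positivity) hx 2
    have : T / ‖x‖ ^ 2 ≤ 1 / 4 := by rw [div_le_iff₀ (by linarith)]; linarith
    simp [he, z0 _ this]
  · by_cases h0 : x = 0
    · rw [hg, h0, smul_zero]
    have hr : 0 < ‖x‖ := norm_pos_iff.mpr h0
    have : K (‖x‖ ^ 2) = 0 := by
      rcases hx with hx | hx
      · have : ‖x‖ ^ 2 < 1 / 4 := by nlinarith
        simp [hK, z0 _ this.le, d0 _ this]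
      · have h1 : 4 * T < ‖x‖ ^ 2 := hR ▸ pow_lt_pow_left₀ hx (by positivity) two_ne_zero
        have : T / ‖x‖ ^ 2 < 1 / 4 := by rw [div_lt_iff₀ (by linarith)]; linarith
        simp [hK, z0 _ this.le, d0 _ this]
    rw [hg, hde _ (by positivity), this]
    simp
  · by_cases h0 : x = 0
    · rw [hg, h0, smul_zero, norm_zero, zero_pow two_ne_zero]
      positivity
    rw [hn x h0]
    have := pow_le_pow_left₀ (abs_nonneg _) (hKb (‖x‖ ^ 2)) 2
    rw [sq_abs] at this
    gcongr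
  · have hr : 0 < ‖x‖ := by linarith
    have a1 : 1 < ‖x‖ ^ 2 := by nlinarith
    have a2 : ‖x‖ ^ 2 < T := pow_lt_pow_left₀ h2 hr.le two_ne_zero
    have a3 : 1 < T / ‖x‖ ^ 2 := (one_lt_div (by positivity)).mpr a2
    constructor
    · simp only [he, z1 _ a1.le, z1 _ a3.le, mul_one]
      exact ste_rpow hr
    · rw [hn x (norm_pos_iff.mp hr)]
      simp only [hK, z1 _ a1.le, z1 _ a3.le, d1 _ a1, d1 _ a3, hp]
      ring

/-- half-open shell -/
def ste_A (d : ℕ) (a b : ℝ) : Set (E d) := {x | a ≤ ‖x‖ ∧ ‖x‖ < b}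

theorem ste_mA (a b : ℝ) : MeasurableSet (ste_A d a b) :=
  (measurableSet_le measurable_const measurable_norm).inter (measurableSet_lt measurable_norm measurable_const)

theorem ste_int {F : E d → ℝ} {C : ℝ} (hm : AEStronglyMeasurable F) (hb : ∀ x, |F x| ≤ C) {a : ℝ} (ha : 0 < a) (b : ℝ) :
    IntegrableOn (fun x => F x / ‖x‖ ^ d) (ste_A d a b) := by
  have hf : volume (ste_A d a b) < ⊤ :=
    lt_of_le_of_lt (measure_mono fun x hx => mem_ball_zero_iff.mpr hx.2) (measure_ball_lt_top (x := (0 : E d)) (r := b))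
  refine Measure.integrableOn_of_bounded (M := C / a ^ d) hf.ne ?_ ?_
  · exact (hm.aemeasurable.div (measurable_norm.pow_const d).aemeasurable).aestronglyMeasurable
  · filter_upwards [ae_restrict_mem (ste_mA a b)] with x hx
    rw [norm_div, norm_pow, norm_norm]
    exact div_le_div₀ ((abs_nonneg _).trans (hb x)) (hb x) (by positivity) (pow_le_pow_left₀ ha.le hx.1 d)

theorem ste_scale {F : E d → ℝ} (hF : ∀ s : ℝ, 0 < s → ∀ x, F (s • x) = F x) {s : ℝ} (hs : 0 < s) :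
    ∫ x in ste_A d s (2 * s), F x / ‖x‖ ^ d = ∫ x in ste_A d 1 2, F x / ‖x‖ ^ d := by
  have e := Measure.integral_comp_smul_of_nonneg (volume : Measure (E d))
    ((ste_A d s (2 * s)).indicator fun x => F x / ‖x‖ ^ d) s (hR := hs.le)
  have e1 : ∀ z, ((ste_A d s (2 * s)).indicator fun x => F x / ‖x‖ ^ d) (s • z) =
      (s ^ d)⁻¹ * ((ste_A d 1 2).indicator fun x => F x / ‖x‖ ^ d) z := by
    intro z
    have hn : ‖s • z‖ = s * ‖z‖ := by rw [norm_smul, Real.norm_of_nonneg hs.le]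
    have hm : s • z ∈ ste_A d s (2 * s) ↔ z ∈ ste_A d 1 2 := by
      simp only [ste_A, mem_ofPred_eq, hn]
      constructor <;> rintro ⟨h1, h2⟩ <;> constructor <;> nlinarith
    by_cases hz : z ∈ ste_A d 1 2
    · rw [indicator_of_mem hz, indicator_of_mem (hm.mpr hz), hF s hs, hn, mul_pow]
      ring
    · rw [indicator_of_notMem hz, indicator_of_notMem (fun h => hz (hm.mp h)), mul_zero]
  simp only [e1, integral_const_mul, finrank_euclideanSpace, Fintype.card_fin] at e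
  rw [smul_eq_mul, integral_indicator (ste_mA _ _), integral_indicator (ste_mA _ _)] at e
  exact (mul_left_cancel₀ (by positivity) e).symm

theorem ste_add {F : E d → ℝ} {C : ℝ} (hm : AEStronglyMeasurable F) (hb : ∀ x, |F x| ≤ C) {a b c : ℝ} (ha : 0 < a)
    (hab : a ≤ b) (hbc : b ≤ c) : ∫ x in ste_A d a c, F x / ‖x‖ ^ d =
      (∫ x in ste_A d a b, F x / ‖x‖ ^ d) + ∫ x in ste_A d b c, F x / ‖x‖ ^ d := by
  have e : ste_A d a c = ste_A d a b ∪ ste_A d b c := by
    ext x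
    simp only [ste_A, mem_ofPred_eq, mem_union]
    constructor
    · rintro ⟨h1, h2⟩
      rcases lt_or_ge ‖x‖ b with h | h
      · exact Or.inl ⟨h1, h⟩
      · exact Or.inr ⟨h, h2⟩
    · rintro (⟨h1, h2⟩ | ⟨h1, h2⟩) <;> constructor <;> linarith
  rw [e, setIntegral_union (Set.disjoint_left.mpr fun x h1 h2 => absurd h1.2 (not_lt.mpr h2.1)) (ste_mA _ _)
    (ste_int hm hb ha _) (ste_int hm hb (by linarith) _)]

theorem ste_mul {F : E d → ℝ} {C : ℝ} (hm : AEStronglyMeasurable F) (hb : ∀ x, |F x| ≤ C)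
    (hF : ∀ s : ℝ, 0 < s → ∀ x, F (s • x) = F x) {a : ℝ} (ha : 0 < a) (n : ℕ) :
    ∫ x in ste_A d a (2 ^ n * a), F x / ‖x‖ ^ d = n * ∫ x in ste_A d 1 2, F x / ‖x‖ ^ d := by
  induction n with
  | zero =>
    have : ste_A d a (2 ^ 0 * a) = ∅ := by
      ext x
      simp [ste_A]
    rw [this]
    simp
  | succ n ih =>
    have h1 : (1 : ℝ) ≤ 2 ^ n := one_le_pow₀ one_le_two
    have e : (2 : ℝ) ^ (n + 1) * a = 2 * (2 ^ n * a) := by ring
    rw [e, ste_add hm hb (b := 2 ^ n * a) ha (by nlinarith) (by nlinarith), ih, ste_scale hF (by positivity)]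
    push_cast
    ring

/-- `F = 1_Ω Φ` is bounded, measurable, `0`-homogeneous.  `I s = ∫ x in {s < ‖x‖ < 2 s}, F x / ‖x‖^d` does not depend on
`s > 0` (`Measure.setIntegral_comp_smul_of_pos` or `Measure.integral_comp_smul`); spheres are null
(`Measure.addHaar_sphere`), so `∫_{1<‖x‖<2^N} F/‖x‖^d = N I`.  With `ste_eta`:
`Λ N I ≤ (d-2)²/4 N I + 2 B I` for all `N`, hence `I = 0`; `Φ` is continuous and `≥ 0` on the open set
`Ω ∩ {1 < ‖x‖ < 2}`, so it vanishes there (`Continuous(On)` + `setIntegral_pos_iff_support…` or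
`IsOpen.measure_pos`), and everywhere on `Ω` by homogeneity. -/
theorem ste_zero (hd : 2 ≤ d) {u Φ : E d → ℝ} {Λ C : ℝ} (hu : Continuous u) (hh : Hom u)
    (hΛ : ((d : ℝ) - 2) ^ 2 / 4 < Λ) (hΦ : ContinuousOn Φ {x | 0 < u x})
    (hΦh : ∀ r : ℝ, 0 < r → ∀ x, 0 < u x → Φ (r • x) = Φ x) (hΦ0 : ∀ x, 0 < u x → 0 ≤ Φ x ∧ Φ x ≤ C)
    (h : ∀ (η : E d → ℝ) (R : ℝ), Rad η R →
      Λ * ∫ x in {x | 0 < u x} ∩ ball (0 : E d) R, η x ^ 2 * Φ x / ‖x‖ ^ 2
        ≤ ∫ x in {x | 0 < u x} ∩ ball (0 : E d) R, Φ x * ‖gradient η x‖ ^ 2) :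
    ∀ x, 0 < u x → Φ x = 0 := by
  set Ω : Set (E d) := {x | 0 < u x} with hΩ
  have oΩ : IsOpen Ω := isOpen_lt continuous_const hu
  have mΩ := oΩ.measurableSet
  set F : E d → ℝ := Ω.indicator Φ with hF
  have hm : AEStronglyMeasurable F := (aestronglyMeasurable_indicator_iff mΩ).mpr (hΦ.aestronglyMeasurable mΩ)
  have hF0 : ∀ x, 0 ≤ F x := fun x => indicator_nonneg (fun y hy => (hΦ0 y hy).1) x
  have hb : ∀ x, |F x| ≤ |C| := by
    intro x
    rw [abs_of_nonneg (hF0 x)]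
    by_cases hx : x ∈ Ω
    · rw [hF, indicator_of_mem hx]; exact (hΦ0 x hx).2.trans (le_abs_self C)
    · rw [hF, indicator_of_notMem hx]; exact abs_nonneg C
  have hmem : ∀ s : ℝ, 0 < s → ∀ x, s • x ∈ Ω ↔ x ∈ Ω := fun s hs x => by
    simp only [hΩ, mem_ofPred_eq, hh s hs x, mul_pos_iff_of_pos_left hs]
  have hFh : ∀ s : ℝ, 0 < s → ∀ x, F (s • x) = F x := by
    intro s hs x
    by_cases hx : x ∈ Ω
    · rw [hF, indicator_of_mem hx, indicator_of_mem ((hmem s hs x).mpr hx), hΦh s hs x hx]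
    · rw [hF, indicator_of_notMem hx, indicator_of_notMem fun h => hx ((hmem s hs x).mp h)]
  set g : E d → ℝ := fun x => F x / ‖x‖ ^ d with hg
  have hg0 : ∀ x, 0 ≤ g x := fun x => div_nonneg (hF0 x) (by positivity)
  set I := ∫ x in ste_A d 1 2, g x with hI
  have hI0 : 0 ≤ I := integral_nonneg hg0
  set c := ((d : ℝ) - 2) ^ 2 / 4 with hc
  have hc0 : 0 ≤ c := by positivity
  obtain ⟨B, hB, hη⟩ := ste_eta hd
  have key : ∀ n : ℕ, Λ * (n * I) ≤ c * (n * I) + 3 * B * I := by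
    intro n
    obtain ⟨η, hr, g0, g1, g2⟩ := hη (n + 1)
    have h1 : (1 : ℝ) ≤ 2 ^ n := one_le_pow₀ one_le_two
    have e1 : (2 : ℝ) ^ (n + 1) = 2 ^ n * 2 := pow_succ _ _
    have e2 : (2 : ℝ) ^ (n + 1 + 1) = 2 * (2 ^ n * 2) := by ring
    rw [e1] at g2
    rw [e2] at hr g0
    have mS : MeasurableSet (Ω ∩ ball (0 : E d) (2 * (2 ^ n * 2))) := mΩ.inter measurableSet_ball
    have j1 := (ste_int hm hb (a := 1 / 2) (by norm_num) (2 ^ 2 * (1 / 2))).integrable_indicator (ste_mA _ _)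
    have j2 := (ste_int hm hb (a := 2) (by norm_num) (2 ^ n * 2)).integrable_indicator (ste_mA _ _)
    have j3 := (ste_int hm hb (a := 2 ^ n * 2) (by positivity) (2 * (2 ^ n * 2))).integrable_indicator (ste_mA _ _)
    have L : n * I ≤ ∫ x in Ω ∩ ball (0 : E d) (2 * (2 ^ n * 2)), η x ^ 2 * Φ x / ‖x‖ ^ 2 := by
      obtain ⟨M, hM⟩ := (isCompact_closedBall (0 : E d) (2 * (2 ^ n * 2))).exists_bound_of_continuousOn
        hr.sm.continuous.continuousOn
      have hi : IntegrableOn (fun x => η x ^ 2 * Φ x / ‖x‖ ^ 2) (Ω ∩ ball (0 : E d) (2 * (2 ^ n * 2))) := by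
        refine IntegrableOn.of_bound (lt_of_le_of_lt (measure_mono inter_subset_right) measure_ball_lt_top) ?_
          (M ^ 2 * |C| / (1 / 2) ^ 2) ?_
        · exact (((hr.sm.continuous.measurable.pow_const 2).aemeasurable.mul
            ((hΦ.mono inter_subset_left).aemeasurable mS)).div
            (measurable_norm.pow_const 2).aemeasurable).aestronglyMeasurable
        · filter_upwards [ae_restrict_mem mS] with x hx
          rcases le_or_gt ‖x‖ (1 / 2) with h0 | h0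
          · rw [hr.lo x h0]
            simp only [ne_eq, OfNat.ofNat_ne_zero, not_false_eq_true, zero_pow, zero_mul, zero_div, norm_zero]
            positivity
          · rw [norm_div, norm_mul, norm_pow, norm_pow, norm_norm]
            have a1 := hM x (ball_subset_closedBall hx.2)
            have a2 : ‖Φ x‖ ≤ |C| := by
              rw [Real.norm_of_nonneg (hΦ0 x hx.1).1]; exact (hΦ0 x hx.1).2.trans (le_abs_self C)
            have a3 := pow_le_pow_left₀ (norm_nonneg _) a1 2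
            exact div_le_div₀ (by positivity) (mul_le_mul a3 a2 (norm_nonneg _) (by positivity)) (by positivity)
              (pow_le_pow_left₀ (by norm_num) h0.le 2)
      rw [hI, ← ste_mul hm hb hFh two_pos n, ← integral_indicator (ste_mA _ _), ← integral_indicator mS]
      refine integral_mono j2 (hi.integrable_indicator mS) fun x => ?_
      have nn : 0 ≤ (Ω ∩ ball (0 : E d) (2 * (2 ^ n * 2))).indicator (fun x => η x ^ 2 * Φ x / ‖x‖ ^ 2) x :=
        indicator_nonneg (fun y hy => div_nonneg (mul_nonneg (sq_nonneg _) (hΦ0 y hy.1).1) (sq_nonneg _)) x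
      by_cases hx : x ∈ ste_A d 2 (2 ^ n * 2)
      · by_cases hx' : x ∈ Ω
        · have hxb : x ∈ Ω ∩ ball (0 : E d) (2 * (2 ^ n * 2)) := ⟨hx', mem_ball_zero_iff.mpr (by linarith [hx.2])⟩
          rw [indicator_of_mem hx, indicator_of_mem hxb, hF, indicator_of_mem hx', mul_div_right_comm,
            (g2 x (by linarith [hx.1]) hx.2).1]
          exact le_of_eq (by ring)
        · rw [indicator_of_mem hx, hF, indicator_of_notMem hx', zero_div]
          exact nn
      · rw [indicator_of_notMem hx]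
        exact nn
    have U : ∫ x in Ω ∩ ball (0 : E d) (2 * (2 ^ n * 2)), Φ x * ‖gradient η x‖ ^ 2 ≤ c * (n * I) + 3 * B * I := by
      have e3 : c * (n * I) + 3 * B * I = ∫ x, (B * (ste_A d (1 / 2) (2 ^ 2 * (1 / 2))).indicator g x
          + c * (ste_A d 2 (2 ^ n * 2)).indicator g x + B * (ste_A d (2 ^ n * 2) (2 * (2 ^ n * 2))).indicator g x) := by
        have j12 : Integrable fun x => B * (ste_A d (1 / 2) (2 ^ 2 * (1 / 2))).indicator g x
            + c * (ste_A d 2 (2 ^ n * 2)).indicator g x := (j1.const_mul B).add (j2.const_mul c)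
        rw [integral_add j12 (j3.const_mul B),
          integral_add (j1.const_mul B) (j2.const_mul c), integral_const_mul, integral_const_mul, integral_const_mul,
          integral_indicator (ste_mA _ _), integral_indicator (ste_mA _ _), integral_indicator (ste_mA _ _),
          ste_mul hm hb hFh two_pos n, ste_mul hm hb hFh (by norm_num) 2, ste_scale hFh (by positivity)]
        push_cast
        ring
      rw [e3, ← integral_indicator mS]
      refine integral_mono_of_nonneg (Eventually.of_forall fun x => indicator_nonneg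
        (fun y hy => mul_nonneg (hΦ0 y hy.1).1 (sq_nonneg _)) x)
        (((j1.const_mul B).add (j2.const_mul c)).add (j3.const_mul B)) (Eventually.of_forall fun x => ?_)
      have n1 : 0 ≤ B * (ste_A d (1 / 2) (2 ^ 2 * (1 / 2))).indicator g x :=
        mul_nonneg hB (indicator_nonneg (fun y _ => hg0 y) x)
      have n2 : 0 ≤ c * (ste_A d 2 (2 ^ n * 2)).indicator g x := mul_nonneg hc0 (indicator_nonneg (fun y _ => hg0 y) x)
      have n3 : 0 ≤ B * (ste_A d (2 ^ n * 2) (2 * (2 ^ n * 2))).indicator g x :=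
        mul_nonneg hB (indicator_nonneg (fun y _ => hg0 y) x)
      by_cases hx : x ∈ Ω ∩ ball (0 : E d) (2 * (2 ^ n * 2))
      swap
      · simp only [indicator_of_notMem hx]
        linarith
      simp only [indicator_of_mem hx]
      have eg : g x = Φ x / ‖x‖ ^ d := by simp only [hg, hF, indicator_of_mem hx.1]
      have b1 : Φ x * ‖gradient η x‖ ^ 2 ≤ B * g x := by
        rw [eg]
        refine (mul_le_mul_of_nonneg_left (g1 x) (hΦ0 x hx.1).1).trans (le_of_eq (by ring))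
      rcases lt_or_ge ‖x‖ (1 / 2) with h0 | h0
      · rw [g0 x (Or.inl h0), norm_zero, zero_pow two_ne_zero, mul_zero]
        linarith
      rcases lt_or_ge ‖x‖ 2 with h2 | h2
      · have : x ∈ ste_A d (1 / 2) (2 ^ 2 * (1 / 2)) := ⟨h0, by linarith⟩
        rw [indicator_of_mem this]
        linarith
      rcases lt_or_ge ‖x‖ (2 ^ n * 2) with h3 | h3
      · have : x ∈ ste_A d 2 (2 ^ n * 2) := ⟨h2, h3⟩
        rw [indicator_of_mem this, (g2 x (by linarith) h3).2, eg]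
        have : Φ x * (((d : ℝ) - 2) ^ 2 / 4 / ‖x‖ ^ d) = c * (Φ x / ‖x‖ ^ d) := by rw [hc]; ring
        linarith
      · have : x ∈ ste_A d (2 ^ n * 2) (2 * (2 ^ n * 2)) := ⟨h3, mem_ball_zero_iff.mp hx.2⟩
        rw [indicator_of_mem this]
        linarith
    exact le_trans (mul_le_mul_of_nonneg_left L (by linarith)) ((h η _ hr).trans U)
  have hI' : I = 0 := by
    by_contra hne
    have hpos : 0 < I := lt_of_le_of_ne hI0 (Ne.symm hne)
    obtain ⟨n, hn⟩ := exists_nat_gt (3 * B / (Λ - c))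
    rw [div_lt_iff₀ (by linarith)] at hn
    have := key n
    nlinarith
  have hae : g =ᵐ[volume.restrict (ste_A d 1 2)] 0 :=
    (integral_eq_zero_iff_of_nonneg hg0 (ste_int hm hb one_pos 2)).mp hI'
  set U : Set (E d) := Ω ∩ {x | 1 < ‖x‖ ∧ ‖x‖ < 2} with hU
  have oU : IsOpen U := oΩ.inter ((isOpen_lt continuous_const continuous_norm).inter
    (isOpen_lt continuous_norm continuous_const))
  have hz : EqOn Φ (fun _ => 0) U := by
    refine Measure.eqOn_open_of_ae_eq (μ := volume) ?_ oU (hΦ.mono inter_subset_left) continuousOn_const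
    have sub : U ⊆ ste_A d 1 2 := fun x hx => ⟨hx.2.1.le, hx.2.2⟩
    filter_upwards [ae_restrict_of_ae_restrict_of_subset sub hae, ae_restrict_mem oU.measurableSet] with x hx hxU
    have hp : 0 < ‖x‖ ^ d := pow_pos (by linarith [hxU.2.1]) d
    simp only [hg, hF, indicator_of_mem hxU.1, Pi.zero_apply, div_eq_zero_iff] at hx
    exact hx.resolve_right hp.ne'
  intro x hx
  have hx0 : x ≠ 0 := by
    rintro rfl
    have := hh 2 two_pos 0
    rw [smul_zero] at this
    linarith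
  have hr : 0 < ‖x‖ := norm_pos_iff.mpr hx0
  have hs : 0 < 3 / 2 / ‖x‖ := by positivity
  have hn : ‖(3 / 2 / ‖x‖) • x‖ = 3 / 2 := by rw [norm_smul, Real.norm_of_nonneg hs.le, div_mul_cancel₀ _ hr.ne']
  rw [← hΦh _ hs x hx]
  exact hz ⟨(hmem _ hs x).mpr hx, by rw [hn]; norm_num, by rw [hn]; norm_num⟩

end Crest.Agent.R97
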