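import Crest.Agent.R97.StabC
import Crest.Agent.R97.StabD
import Crest.Agent.R97.StabE

set_option autoImplicit false
open MeasureTheory Metric Set Filter Topology
open scoped RealInnerProductSpace NNReal

namespace Crest.Agent.R97

variable {d : ℕ}

/-! Stab: the stability inequality in divergence form. -/

theorem stab_div (hd : 2 ≤ d) {u : E d → ℝ} (hu : Mn 1 u) (hh : Hom u) {Φ : E d → ℝ} {W : E d → E d} {Λ C : ℝ}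
    (hΛ : ((d : ℝ) - 2) ^ 2 / 4 < Λ)
    (hΦ : ContDiffOn ℝ 1 Φ {x | 0 < u x}) (hW : ContDiffOn ℝ 1 W {x | 0 < u x})
    (hΦh : ∀ r : ℝ, 0 < r → ∀ x, 0 < u x → Φ (r • x) = Φ x)
    (hWh : ∀ r : ℝ, 0 < r → ∀ x, 0 < u x → W (r • x) = r⁻¹ • W x)
    (hΦ0 : ∀ x, 0 < u x → 0 ≤ Φ x)
    (hb : ∀ x, ‖x‖ = 1 → 0 < u x → Φ x ≤ C ∧ ‖gradient Φ x‖ ≤ C ∧ ‖W x‖ ≤ C)
    (hint : ∀ x, ‖x‖ = 1 → 0 < u x → 0 ≤ dv W x - ((d : ℝ) - 2) * ⟪W x, x⟫ - Λ * Φ x ∧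
      ‖gradient Φ x‖ ^ 2 ≤ 4 * Φ x * (dv W x - ((d : ℝ) - 2) * ⟪W x, x⟫ - Λ * Φ x))
    (hbd : ∀ ε : ℝ, 0 < ε → ∃ δ : ℝ, 0 < δ ∧ ∀ x, ‖x‖ = 1 → 0 < u x → u x < δ →
      -ε ≤ rho u x * Φ x + ⟪W x, gradient u x⟫) :
    ∀ x, 0 < u x → Φ x = 0 := by
  obtain ⟨X, C', hP⟩ := pk_of hu hh hΦ hW hΦh hWh hΦ0 hb hint hbd
  have hΛ0 : 0 ≤ Λ := le_trans (by positivity) hΛ.le
  exact ste_zero hd hu.lip.continuous hh hΛ hΦ.continuousOn hΦh (C := C')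
    (fun x hx => ⟨hP.Φ0 x hx, hP.Φb x hx⟩) (fun η R hη => stab_eta hP hΛ0 hη)

end Crest.Agent.R97
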