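import Crest.Agent.R97.CertA2
import Crest.Agent.R97.CertA3
import Crest.Agent.R97.CertA5
import Crest.Agent.R97.Stab

set_option autoImplicit false
open MeasureTheory Metric Set Filter Topology
open scoped RealInnerProductSpace NNReal

namespace Crest.Agent.R97

variable {d : ℕ} {u : E d → ℝ} {x : E d}

/-! CertA (owner helper66): from the conditions on jets to the vanishing of the Hessian. -/

theorem ca_norm {v : E d} {C : ℝ} (h0 : 0 ≤ C) (h : ∀ l, |v l| ≤ C) : ‖v‖ ≤ (d + 1) * C := by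
  refine abs_le_of_sq_le_sq' ?_ (by positivity) |>.2
  rw [EuclideanSpace.real_norm_sq_eq]
  have h1 : ∑ l, v l ^ 2 ≤ ∑ _l : Fin d, C ^ 2 := Finset.sum_le_sum fun l _ => sq_le_sq' (abs_le.1 (h l)).1 (abs_le.1 (h l)).2
  rw [Finset.sum_const, Finset.card_univ, Fintype.card_fin, nsmul_eq_mul] at h1
  nlinarith [sq_nonneg C, mul_nonneg (Nat.cast_nonneg (α := ℝ) d) (sq_nonneg C),
    mul_nonneg (sq_nonneg (d : ℝ)) (sq_nonneg C)]

theorem ca_inner (v w : E d) : ⟪v, w⟫ = dp v w := by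
  simp [PiLp.inner_apply, dp, mul_comm]

theorem cert_of_J (hd : 2 ≤ d) {s : Ans} (hs : s.Ok) (hΛ : ((d : ℝ) - 2) ^ 2 / 4 < s.Λ) (hi : s.IntJ d) (hb : s.BdJ d)
    (hu : Mn 1 u) (hh : Hom u) (hj : JetsNear u) : ∀ x, 0 < u x → ∀ a b, pd a (pd b u) x = 0 := by
  have hd1 : 1 ≤ d := by omega
  have h : HC u := ⟨hu.lip.continuous, hh, hu.harm⟩
  have hn : ∀ x : E d, 0 < u x → 0 < ‖x‖⁻¹ ∧ ‖‖x‖⁻¹ • x‖ = 1 := fun x hx =>
    ⟨inv_pos.2 (norm_pos_iff.2 (h.ne_zero hx)), norm_smul_inv_norm (h.ne_zero hx)⟩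
  have hD : ∀ x : E d, 0 < u x → Dom (uy u x) := fun x hx => by
    rw [← h.uy_smul hx (hn x hx).1, uy_one (hn x hx).2]
    exact (ij_of hd1 h hu (h.smul_pos hx (hn x hx).1) (hn x hx).2).dom
  have hc : ∀ {c : Cf}, (∀ y, Dom y → ContDiffAt ℝ 1 c y) → ∀ x, 0 < u x → ContDiffAt ℝ 1 (fun z => c (uy u z)) x :=
    fun hc x hx => (hc _ (hD x hx)).comp x ((h.cd_uy hx).of_le (by simp))
  have hg : ∀ {c : Cf}, (∀ y, Dom y → ContDiffAt ℝ 1 c y) → ∀ x, ‖x‖ = 1 → 0 < u x → ∀ l,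
      pd l (fun z => c (uy u z)) x = Cf.gr x (up u x) (ua u x) (uT u x) c l := fun hc x h1 hx l => by
    rw [pd_coef ((h.cd_uy hx).differentiableAt (by simp)) ((hc _ (hD x hx)).differentiableAt one_ne_zero), Cf.gr,
      uy_one h1]
    exact Finset.sum_congr rfl fun i _ => by rw [h.pd_uy hx h1]
  have hX : ∀ x, 0 < u x → ∀ m l, ContDiffAt ℝ 1 (fun y => uX u y m l) x := fun x hx m l =>
    (h.cd_uX hx m l).of_le (by simp)
  have hW : ∀ (x : E d) l, s.W u x l = ∑ m, s.c m (uy u x) * uX u x m l := fun _ _ => rfl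
  have hWd : ∀ x v : E d, ‖x‖ = 1 → ⟪s.W u x, v⟫ = ∑ m, s.c m (sv x (up u x) (ua u x)) *
      dp (Xv (up u x) (ua u x) (uT u x) m) v := fun x v h1 => by
    simp only [ca_inner, dp, hW, uy_one h1, uX_one h1, Finset.sum_mul, Finset.mul_sum, mul_assoc]
    exact Finset.sum_comm
  obtain ⟨C0, hC0⟩ := coef_bdd hd1 h hu hj hs.Φ
  choose C hC using fun m => coef_bdd hd1 h hu hj (hs.c m)
  have key := stab_div hd hu hh (Φ := fun z => s.Φ (uy u z)) (W := s.W u) (C := (d + 1) * (|C0| + ∑ m, |C m|)) hΛ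
    (fun x hx => (hc hs.Φ x hx).contDiffWithinAt)
    (fun x hx => (contDiffAt_euclidean.2 fun l => ContDiffAt.sum (s := Finset.univ) fun m _ =>
      (hc (hs.c m) x hx).mul (hX x hx m l)).contDiffWithinAt)
    (fun r hr x hx => by simp only [h.uy_smul hx hr])
    (fun r hr x hx => by
      ext l
      simp only [hW, h.uy_smul hx hr, h.uX_smul hx hr, PiLp.smul_apply, smul_eq_mul, Finset.mul_sum, mul_left_comm])
    (fun x hx => hs.nn _ (hD x hx)) (fun x h1 hx => ?_) (fun x h1 hx => ?_) fun ε hε => ?_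
  · intro x hx a b
    have h0 := key x hx
    have h2 : uy u x 0 ≤ 0 := not_lt.1 fun h' => (hs.pos _ (hD x hx) h').ne' h0
    have h3 : fr (ua u x) (ua u x) ≤ 0 := by
      have h4 : 0 < ‖x‖ ^ (2 : ℤ) := zpow_pos (norm_pos_iff.2 (h.ne_zero hx)) _
      exact nonpos_of_mul_nonpos_right h2 h4
    have h5 := Finset.single_le_sum (f := fun j => ua u x a j * ua u x a j) (fun j _ => mul_self_nonneg _)
      (Finset.mem_univ b)
    have h6 := Finset.single_le_sum (f := fun i => ∑ j, ua u x i j * ua u x i j)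
      (fun i _ => Finset.sum_nonneg fun j _ => mul_self_nonneg _) (Finset.mem_univ a)
    exact mul_self_eq_zero.1 (le_antisymm (h5.trans (h6.trans h3)) (mul_self_nonneg _))
  · have h2 : 0 ≤ ∑ m, |C m| := Finset.sum_nonneg fun m _ => abs_nonneg _
    have h3 := abs_nonneg C0
    have h4 := le_abs_self C0
    refine ⟨?_, ca_norm (by positivity) fun l => ?_, ca_norm (by positivity) fun l => ?_⟩
    · rw [uy_one h1]
      nlinarith [(abs_le.1 (hC0 x h1 hx).1).2, mul_nonneg (Nat.cast_nonneg (α := ℝ) d) (add_nonneg h3 h2)]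
    · rw [gradient_apply, hg hs.Φ x h1 hx]
      linarith [(hC0 x h1 hx).2.1 l]
    · rw [hW, uy_one h1]
      refine (Finset.abs_sum_le_sum_abs _ _).trans (le_add_of_nonneg_of_le h3 (Finset.sum_le_sum fun m _ => ?_))
      rw [uX_one h1]
      exact ((hC m x h1 hx).2.2 m l).trans (le_abs_self _)
  · have e : dv (s.W u) x - ((d : ℝ) - 2) * ⟪s.W u x, x⟫ - s.Λ * s.Φ (uy u x) =
        s.G x (up u x) (ua u x) (uT u x) := by
      have e1 : ∀ l, pd l (fun y => s.W u y l) x = ∑ m, (Cf.gr x (up u x) (ua u x) (uT u x) (s.c m) l *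
          Xv (up u x) (ua u x) (uT u x) m l + s.c m (sv x (up u x) (ua u x)) * pd l (fun y => uX u y m l) x) := fun l => by
        simp only [hW]
        rw [ca1_pd_sum _ fun m _ => ((hc (hs.c m) x hx).mul (hX x hx m l)).differentiableAt one_ne_zero]
        refine Finset.sum_congr rfl fun m _ => ?_
        rw [ca1_pd_mul ((hc (hs.c m) x hx).differentiableAt one_ne_zero) ((hX x hx m l).differentiableAt one_ne_zero),
          hg (hs.c m) x h1 hx, uX_one h1, uy_one h1]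
      rw [dv, Ans.G, hWd x x h1, uy_one h1, Finset.sum_congr rfl fun l _ => e1 l, Finset.sum_comm, Finset.mul_sum,
        ← Finset.sum_sub_distrib]
      congr 1
      refine Finset.sum_congr rfl fun m _ => ?_
      rw [← h.dv_uX hx h1, Finset.sum_add_distrib, ← Finset.mul_sum, dp.eq_1 (Cf.gr _ _ _ _ _)]
      ring
    rw [e, norm_gradient_sq, uy_one h1]
    simp only [hg hs.Φ x h1 hx, sq]
    exact hi _ _ _ _ (ij_of hd1 h hu hx h1)
  · obtain ⟨δ, hδ, h2⟩ := bd_limit hd1 h hu hj hs hb hε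
    refine ⟨δ, hδ, fun x h1 hx hxδ => ?_⟩
    rw [hWd x _ h1, uy_one h1, show (gradient u x).ofLp = up u x from funext fun i => gradient_apply u x i]
    exact h2 x h1 hx hxδ

end Crest.Agent.R97
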