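import Crest.Agent.R97.Defs

/-!
CertDefs (helper66): the general ansatz of the certificate.  With `r = |x|`, `p = ∇u`, `a = D²u`, `T = D³u`:
six 0-homogeneous scalars `y = (r²|a|², u/r, |p|², r a(p,p), r³ tr a³, r²|ap|²)` and eight (-1)-homogeneous fields
`X = (r² T(a), r T(p,p), p/r, ap, r a²p, r² a³p, r² T(p,ap), r³ T(a²))`;  `Φ = Φ(y)`, `W = ∑ c_m(y) X_m`.
`IntJ`, `BdJ`: the hypotheses of `stab_div` on the level of jets at a point of the unit sphere.
-/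

set_option autoImplicit false
open MeasureTheory Metric Set
open scoped RealInnerProductSpace NNReal

namespace Crest.Agent.R97

/-- coefficient functions of the six scalars -/
abbrev Cf : Type := (Fin 6 → ℝ) → ℝ

/-- partial derivative of a coefficient -/
noncomputable def Cf.D (c : Cf) (i : Fin 6) (y : Fin 6 → ℝ) : ℝ := deriv (fun t => c (Function.update y i t)) (y i)

/-- the region where the coefficients have to be `C¹` -/
def Dom (y : Fin 6 → ℝ) : Prop := 0 ≤ y 0 ∧ 0 ≤ y 1 ∧ 0 < y 2 ∧ y 2 ≤ 1 ∧ 0 ≤ y 5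

/-- the functions and the constant -/
structure Ans where
  Φ : Cf
  c : Fin 8 → Cf
  Λ : ℝ

/-- regularity and signs -/
structure Ans.Ok (s : Ans) : Prop where
  Φ : ∀ y, Dom y → ContDiffAt ℝ 1 s.Φ y
  c : ∀ m y, Dom y → ContDiffAt ℝ 1 (s.c m) y
  nn : ∀ y, Dom y → 0 ≤ s.Φ y
  pos : ∀ y, Dom y → 0 < y 0 → 0 < s.Φ y

section jets
variable {d : ℕ} (x p : Fin d → ℝ) (a : Fin d → Fin d → ℝ) (T : Fin d → Fin d → Fin d → ℝ)
/-- dot product -/
def dp (v w : Fin d → ℝ) : ℝ := ∑ i, v i * w i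
/-- matrix times vector -/
def mv (v : Fin d → ℝ) (l : Fin d) : ℝ := ∑ j, a l j * v j
/-- `a²` -/
def sqm (i j : Fin d) : ℝ := ∑ l, a i l * a l j
/-- Frobenius product -/
def fr (b : Fin d → Fin d → ℝ) : ℝ := ∑ i, ∑ j, a i j * b i j
/-- `T(b)` for a matrix `b` -/
def tm (b : Fin d → Fin d → ℝ) (l : Fin d) : ℝ := ∑ i, ∑ j, T l i j * b i j
/-- `T(v, w)` -/
def tv (v w : Fin d → ℝ) (l : Fin d) : ℝ := ∑ i, ∑ j, T l i j * v i * w j
/-- the scalars at `|x| = 1` -/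
def sv : Fin 6 → ℝ := ![fr a a, dp p x, dp p p, dp p (mv a p), fr a (sqm a), dp (mv a p) (mv a p)]
/-- their gradients at `|x| = 1` -/
def gv : Fin 6 → Fin d → ℝ :=
  ![fun l => 2 * (tm T a l + fr a a * x l), fun l => p l - dp p x * x l, fun l => 2 * mv a p l,
    fun l => tv T p p l + dp p (mv a p) * x l + 2 * mv a (mv a p) l,
    fun l => 3 * (tm T (sqm a) l + fr a (sqm a) * x l),
    fun l => 2 * (tv T p (mv a p) l + dp (mv a p) (mv a p) * x l + mv a (mv a (mv a p)) l)]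
/-- the fields without the powers of `r` -/
def Xv : Fin 8 → Fin d → ℝ :=
  ![tm T a, tv T p p, p, mv a p, mv a (mv a p), mv a (mv a (mv a p)), tv T p (mv a p), tm T (sqm a)]
/-- `dv X - (d - 2) ⟪X, x⟫` at `|x| = 1` -/
def dX : Fin 8 → ℝ :=
  ![(∑ i, ∑ j, ∑ l, T i j l ^ 2) + (d - 4) * fr a a,
    2 * dp (tm T a) p + (d - 3) * dp p (mv a p),
    -((d - 1) * dp p x),
    fr a a,
    dp (tm T a) p + fr a (sqm a),
    dp (tm T a) (mv a p) + dp (tm T (sqm a)) p + fr (sqm a) (sqm a),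
    dp (tm T a) (mv a p) + (∑ i, ∑ j, (∑ l, T i j l * p l) ^ 2) + dp (tm T (sqm a)) p + (d - 4) * dp (mv a p) (mv a p),
    2 * (∑ l, ∑ i, ∑ j, ∑ k, T l i j * T l i k * a k j) + (d - 5) * fr a (sqm a)]
/-- gradient of a coefficient -/
noncomputable def Cf.gr (c : Cf) (l : Fin d) : ℝ := ∑ i, c.D i (sv x p a) * gv x p a T i l
/-- `dv W - (d - 2) ⟪W, x⟫ - Λ Φ` -/
noncomputable def Ans.G (s : Ans) : ℝ :=
  ∑ m, (s.c m (sv x p a) * dX x p a T m + dp (Cf.gr x p a T (s.c m)) (Xv p a T m)) - s.Λ * s.Φ (sv x p a)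

/-- relations between the jets of a homogeneous harmonic function at a point of the unit sphere -/
structure HJ : Prop where
  x1 : dp x x = 1
  as : ∀ i j, a i j = a j i
  atr : ∑ i, a i i = 0
  ax : ∀ i, mv a x i = 0
  T1 : ∀ i j l, T i j l = T j i l
  T2 : ∀ i j l, T i j l = T i l j
  Ttr : ∀ l, ∑ i, T i i l = 0
  Tx : ∀ i j, ∑ l, T i j l * x l = - a i j

/-- interior jets -/
structure IJ : Prop extends HJ x a T where
  pos : 0 < dp p x
  le1 : dp p p ≤ 1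
  hb : fr a a * dp p x ^ 2 ≤ d * (1 - dp p p)
  hd : ∀ e : Fin d → ℝ, dp e e = 1 → Real.sqrt (dp (mv a e) (mv a e)) * dp p x ≤ d * (1 - dp p e)
end jets

/-- interior condition on jets -/
def Ans.IntJ (s : Ans) (d : ℕ) : Prop :=
  ∀ (x p : Fin d → ℝ) (a : Fin d → Fin d → ℝ) (T : Fin d → Fin d → Fin d → ℝ), IJ x p a T →
    0 ≤ s.G x p a T ∧ dp (Cf.gr x p a T s.Φ) (Cf.gr x p a T s.Φ) ≤ 4 * s.Φ (sv x p a) * s.G x p a T

/-- boundary condition on jets -/
def Ans.BdJ (s : Ans) (d : ℕ) : Prop :=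
  ∀ (x : Fin d → ℝ) (j : Jet d), j.IsB → HJ x j.A j.T → dp j.w x = 0 → 0 ≤ j.H →
    0 ≤ j.H * s.Φ (sv x j.w j.A) + ∑ m, s.c m (sv x j.w j.A) * dp (Xv j.w j.A j.T m) j.w

section fields
variable {d : ℕ} (u : E d → ℝ) (x : E d)
/-- gradient -/
noncomputable def up (i : Fin d) : ℝ := pd i u x
/-- Hessian -/
noncomputable def ua (i j : Fin d) : ℝ := pd i (pd j u) x
/-- third derivatives -/
noncomputable def uT (i j l : Fin d) : ℝ := pd i (pd j (pd l u)) x
/-- powers of `r` in the scalars (`dp p x = u`) -/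
def ks : Fin 6 → ℤ := ![2, -1, 0, 1, 3, 2]
/-- powers of `r` in the fields -/
def kX : Fin 8 → ℤ := ![2, 1, -1, 0, 1, 2, 2, 3]
/-- the 0-homogeneous scalars -/
noncomputable def uy (i : Fin 6) : ℝ := ‖x‖ ^ ks i * sv x (up u x) (ua u x) i
/-- the (-1)-homogeneous fields -/
noncomputable def uX (m : Fin 8) (l : Fin d) : ℝ := ‖x‖ ^ kX m * Xv (up u x) (ua u x) (uT u x) m l
/-- the vector field -/
noncomputable def Ans.W (s : Ans) (u : E d → ℝ) (x : E d) : E d :=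
  WithLp.toLp 2 fun l => ∑ m, s.c m (uy u x) * uX u x m l
end fields

end Crest.Agent.R97
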