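import Crest.Agent.R97.Har
import Crest.Agent.R97.CertDefs

set_option autoImplicit false
open MeasureTheory Metric Set Filter Topology
open scoped RealInnerProductSpace NNReal

namespace Crest.Agent.R97

variable {d : ℕ} {u : E d → ℝ} {x : E d}

/-! CertA1 (owner helper66): jets of a homogeneous harmonic function.  Aux prefix `ca1_`.
`{x | 0 < u x}` is open (continuity); `Harm.pd` three times gives smoothness and `Δ pd = 0`; `pd_comm` (also under `pd`, by
`Filter.EventuallyEq.fderiv_eq`).  Homogeneity: differentiate `u (r • y) = r * u y` in `y` (the cone is invariant), Euler: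
differentiate in `r` at `r = 1` (or differentiate the Euler identity `∑ pd i u y * y i = u y`, valid on the open cone). -/

/-- the standing assumptions -/
structure HC (u : E d → ℝ) : Prop where
  cont : Continuous u
  hom : Hom u
  harm : Harm u {x | 0 < u x}

theorem HC.isOpen (h : HC u) : IsOpen {x | 0 < u x} := isOpen_lt continuous_const h.cont

theorem ca1_hom {f : E d → ℝ} {r c : ℝ} (hr : 0 < r) (h : ∀ y, f (r • y) = c * f y) (i : Fin d) (y : E d) :
    pd i f (r • y) = r⁻¹ * c * pd i f y := by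
  have h1 := pd_shift f 0 r i y
  simp only [zero_add, h, pd_const_mul] at h1
  rw [mul_assoc, h1, inv_mul_cancel_left₀ hr.ne']

theorem ca1_euler {f : E d → ℝ} (hf : DifferentiableAt ℝ f x) {φ : ℝ → ℝ} {c : ℝ} (hφ : HasDerivAt φ c 1)
    (h : ∀ r, 0 < r → f (r • x) = φ r * f x) : ∑ i, pd i f x * x i = c * f x := by
  have h1 : HasDerivAt (fun r : ℝ => f (r • x)) (fderiv ℝ f x x) 1 := by
    have a1 : HasFDerivAt f (fderiv ℝ f x) ((1 : ℝ) • x) := by rw [one_smul]; exact hf.hasFDerivAt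
    have a2 := a1.comp_hasDerivAt (1 : ℝ) ((hasDerivAt_id (1 : ℝ)).smul_const x)
    rwa [one_smul] at a2
  have h2 : HasDerivAt (fun r : ℝ => f (r • x)) (c * f x) 1 :=
    (hφ.mul_const (f x)).congr_of_eventuallyEq ((lt_mem_nhds one_pos).mono h)
  rw [← h1.unique h2, fderiv_eq_sum_pd]
  exact Finset.sum_congr rfl fun i _ => mul_comm _ _

theorem ca1_at {f : E d → ℝ} (h : HC u) (hf : Harm f {x | 0 < u x}) (hx : 0 < u x) : ContDiffAt ℝ (⊤ : ℕ∞) f x :=
  hf.1.contDiffAt (h.isOpen.mem_nhds hx)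

theorem ca1_two {f : E d → ℝ} (h : HC u) (hf : Harm f {x | 0 < u x}) (hx : 0 < u x) : ContDiffAt ℝ 2 f x :=
  (ca1_at h hf hx).of_le (WithTop.coe_le_coe.2 le_top)

theorem ca1_up (h : HC u) {r : ℝ} (hr : 0 < r) (i : Fin d) (y : E d) : pd i u (r • y) = 1 * pd i u y := by
  rw [ca1_hom hr (h.hom r hr), inv_mul_cancel₀ hr.ne']

theorem ca1_ua (h : HC u) {r : ℝ} (hr : 0 < r) (i j : Fin d) (y : E d) :
    pd i (pd j u) (r • y) = r⁻¹ * pd i (pd j u) y := by
  rw [ca1_hom hr (ca1_up h hr j), mul_one]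

theorem ca1_zpow (hx : x ≠ 0) (k : ℤ) : ContDiffAt ℝ (⊤ : ℕ∞) (fun y : E d => ‖y‖ ^ k) x :=
  ((analyticAt_id.zpow (n := k) (norm_ne_zero_iff.2 hx)).contDiffAt).comp x (contDiffAt_norm ℝ hx)

section
variable (c : ℝ) (v w : Fin d → ℝ) (a b : Fin d → Fin d → ℝ) (T : Fin d → Fin d → Fin d → ℝ)

theorem ca1_dp1 : dp (c • v) w = c * dp v w := by simp [dp, Finset.mul_sum, mul_assoc]
theorem ca1_dp2 : dp v (c • w) = c * dp v w := by simp [dp, Finset.mul_sum, mul_left_comm]
theorem ca1_mv1 : mv (c • a) v = c • mv a v := funext fun _ => by simp [mv, Finset.mul_sum, mul_assoc]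
theorem ca1_mv2 : mv a (c • v) = c • mv a v := funext fun _ => by simp [mv, Finset.mul_sum, mul_left_comm]
theorem ca1_sqm : sqm (c • a) = (c * c) • sqm a :=
  funext₂ fun _ _ => by simp [sqm, Finset.mul_sum, mul_assoc, mul_left_comm]
theorem ca1_fr1 : fr (c • a) b = c * fr a b := by simp [fr, Finset.mul_sum, mul_assoc]
theorem ca1_fr2 : fr a (c • b) = c * fr a b := by simp [fr, Finset.mul_sum, mul_left_comm]
theorem ca1_tm1 : tm (c • T) b = c • tm T b := funext fun _ => by simp [tm, Finset.mul_sum, mul_assoc]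
theorem ca1_tm2 : tm T (c • b) = c • tm T b := funext fun _ => by simp [tm, Finset.mul_sum, mul_left_comm]
theorem ca1_tv1 : tv (c • T) v w = c • tv T v w := funext fun _ => by simp [tv, Finset.mul_sum, mul_assoc]
theorem ca1_tv2 : tv T v (c • w) = c • tv T v w := funext fun _ => by simp [tv, Finset.mul_sum, mul_left_comm]
end

theorem HC.ne_zero (h : HC u) (hx : 0 < u x) : x ≠ 0 := by
  rintro rfl
  have := h.hom 2 two_pos 0
  rw [smul_zero] at this
  linarith

theorem HC.smul_pos (h : HC u) (hx : 0 < u x) {r : ℝ} (hr : 0 < r) : 0 < u (r • x) := by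
  rw [h.hom r hr]
  exact mul_pos hr hx

theorem HC.cd_up (h : HC u) (hx : 0 < u x) (i : Fin d) : ContDiffAt ℝ (⊤ : ℕ∞) (fun y => up u y i) x :=
  ca1_at h (h.harm.pd h.isOpen i) hx

theorem HC.cd_ua (h : HC u) (hx : 0 < u x) (i j : Fin d) : ContDiffAt ℝ (⊤ : ℕ∞) (fun y => ua u y i j) x :=
  ca1_at h ((h.harm.pd h.isOpen j).pd h.isOpen i) hx

theorem HC.cd_uT (h : HC u) (hx : 0 < u x) (i j l : Fin d) : ContDiffAt ℝ (⊤ : ℕ∞) (fun y => uT u y i j l) x :=
  ca1_at h (((h.harm.pd h.isOpen l).pd h.isOpen j).pd h.isOpen i) hx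

theorem HC.up_smul (h : HC u) (hx : 0 < u x) {r : ℝ} (hr : 0 < r) : up u (r • x) = up u x := by
  have _ := hx
  exact funext fun i => (ca1_up h hr i x).trans (one_mul _)

theorem HC.ua_smul (h : HC u) (hx : 0 < u x) {r : ℝ} (hr : 0 < r) (i j : Fin d) :
    ua u (r • x) i j = r⁻¹ * ua u x i j := by
  have _ := hx
  exact ca1_ua h hr i j x

theorem HC.uT_smul (h : HC u) (hx : 0 < u x) {r : ℝ} (hr : 0 < r) (i j l : Fin d) :
    uT u (r • x) i j l = r⁻¹ * r⁻¹ * uT u x i j l := by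
  have _ := hx
  exact ca1_hom hr (ca1_ua h hr j l) i x

theorem HC.euler (h : HC u) (hx : 0 < u x) : dp (up u x) x = u x :=
  (ca1_euler ((ca1_at h h.harm hx).differentiableAt (by simp)) (hasDerivAt_id 1) fun r hr => h.hom r hr x).trans
    (one_mul _)

theorem HC.hj (h : HC u) (hx : 0 < u x) (h1 : ‖x‖ = 1) : HJ x (ua u x) (uT u x) := by
  have hs : ∀ {y}, 0 < u y → ∀ i j, pd i (pd j u) y = pd j (pd i u) y := fun hy => pd_comm (ca1_two h h.harm hy)
  have h2 : ∀ i j l, uT u x i j l = uT u x j i l := fun i j l => pd_comm (ca1_two h (h.harm.pd h.isOpen l) hx) i j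
  have h3 : ∀ i j l, uT u x i j l = uT u x i l j := fun i j l =>
    (pd_congr (Filter.mem_of_superset (h.isOpen.mem_nhds hx) fun y hy => hs hy j l) i).eq_of_nhds
  refine ⟨?_, hs hx, h.harm.2 x hx, fun i => ?_, h2, h3, fun l => (h.harm.pd h.isOpen l).2 x hx, fun i j => ?_⟩
  · have := EuclideanSpace.real_norm_sq_eq x
    rw [h1, one_pow] at this
    simp only [dp, ← sq, ← this]
  · have := ca1_euler ((h.cd_up hx i).differentiableAt (by simp)) (hasDerivAt_const (1 : ℝ) (1 : ℝ))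
      fun r hr => ca1_up h hr i x
    rw [zero_mul] at this
    exact (Finset.sum_congr rfl fun j _ => congrArg (· * x j) (hs hx i j)).trans this
  · have := ca1_euler ((h.cd_ua hx i j).differentiableAt (by simp)) (hasDerivAt_inv (one_ne_zero (α := ℝ)))
      fun r hr => ca1_ua h hr i j x
    rw [one_pow, inv_one, neg_one_mul] at this
    exact (Finset.sum_congr rfl fun l _ => congrArg (· * x l) ((h3 i j l).trans (h2 i l j))).trans this

/-- `∂_l T_{lij} = 0` -/
theorem HC.div_T (h : HC u) (hx : 0 < u x) (i j : Fin d) : ∑ l, pd l (fun y => uT u y l i j) x = 0 :=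
  ((h.harm.pd h.isOpen j).pd h.isOpen i).2 x hx

theorem HC.cd_uy (h : HC u) (hx : 0 < u x) : ContDiffAt ℝ (⊤ : ℕ∞) (uy u) x := by
  have h1 := h.cd_up hx
  have h2 := h.cd_ua hx
  have h3 : ∀ i, ContDiffAt ℝ (⊤ : ℕ∞) (fun y : E d => y i) x := fun i => by fun_prop
  refine contDiffAt_pi.2 fun i => (ca1_zpow (h.ne_zero hx) _).mul ?_
  fin_cases i <;> simp only [sv, fr, dp, mv, sqm, Fin.reduceFinMk, Matrix.cons_val] <;>
    repeat first | exact h1 _ | exact h2 _ _ | exact h3 _ | apply ContDiffAt.mul | refine ContDiffAt.sum fun _ _ => ?_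

theorem HC.cd_uX (h : HC u) (hx : 0 < u x) (m : Fin 8) (l : Fin d) :
    ContDiffAt ℝ (⊤ : ℕ∞) (fun y => uX u y m l) x := by
  have h1 := h.cd_up hx
  have h2 := h.cd_ua hx
  have h3 := h.cd_uT hx
  refine (ca1_zpow (h.ne_zero hx) _).mul ?_
  fin_cases m <;> simp only [Xv, tm, tv, mv, sqm, Fin.reduceFinMk, Matrix.cons_val] <;>
    repeat first | exact h1 _ | exact h2 _ _ | exact h3 _ _ _ | apply ContDiffAt.mul | refine ContDiffAt.sum fun _ _ => ?_

theorem HC.uy_smul (h : HC u) (hx : 0 < u x) {r : ℝ} (hr : 0 < r) : uy u (r • x) = uy u x := by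
  have h2 : ua u (r • x) = r⁻¹ • ua u x := funext₂ (h.ua_smul hx hr)
  have h0 := hr.ne'
  funext i
  rw [uy, uy, h.up_smul hx hr, h2, norm_smul, Real.norm_of_nonneg hr.le, mul_zpow, WithLp.ofLp_smul]
  generalize ‖x‖ ^ ks i = t
  fin_cases i <;> simp only [sv, ks, Fin.reduceFinMk, Matrix.cons_val, ca1_dp1, ca1_dp2, ca1_mv1, ca1_sqm, ca1_fr1,
    ca1_fr2] <;> field_simp

theorem HC.uX_smul (h : HC u) (hx : 0 < u x) {r : ℝ} (hr : 0 < r) (m : Fin 8) (l : Fin d) :
    uX u (r • x) m l = r⁻¹ * uX u x m l := by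
  have h2 : ua u (r • x) = r⁻¹ • ua u x := funext₂ (h.ua_smul hx hr)
  have h3 : uT u (r • x) = (r⁻¹ * r⁻¹) • uT u x := funext₃ (h.uT_smul hx hr)
  have h0 := hr.ne'
  rw [uX, uX, h.up_smul hx hr, h2, h3, norm_smul, Real.norm_of_nonneg hr.le, mul_zpow]
  generalize ‖x‖ ^ kX m = t
  fin_cases m <;> simp only [Xv, kX, Fin.reduceFinMk, Matrix.cons_val, ca1_mv1, ca1_mv2, ca1_sqm, ca1_tm1, ca1_tm2,
    ca1_tv1, ca1_tv2, Pi.smul_apply, smul_eq_mul] <;> field_simp

theorem uy_one (h1 : ‖x‖ = 1) : uy u x = sv x (up u x) (ua u x) := funext fun i => by simp [uy, h1]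
theorem uX_one (h1 : ‖x‖ = 1) (m : Fin 8) : uX u x m = Xv (up u x) (ua u x) (uT u x) m :=
  funext fun i => by simp [uX, h1]
/-- product rule with a power of the norm -/
theorem pd_norm_zpow (h1 : ‖x‖ = 1) (k : ℤ) {f : E d → ℝ} (hf : DifferentiableAt ℝ f x) (l : Fin d) :
    pd l (fun y => ‖y‖ ^ k * f y) x = k * x l * f x + pd l f x := by
  have h0 : x ≠ 0 := norm_ne_zero_iff.1 (h1.trans_ne one_ne_zero)
  have hn : DifferentiableAt ℝ (fun y : E d => ‖y‖) x := (contDiffAt_norm (n := 1) ℝ h0).differentiableAt one_ne_zero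
  have h2 : pd l (fun y : E d => ‖y‖) x = x l := by
    have a1 := pd_norm_sq 0 l x
    simp only [sub_zero, sq, PiLp.zero_apply] at a1
    rw [pd_mul hn hn, h1] at a1
    linarith
  have h3 : pd l (fun y : E d => ‖y‖ ^ k) x = k * x l := by
    have a1 := ((hasDerivAt_zpow k ‖x‖ (Or.inl (h1.trans_ne one_ne_zero))).comp_hasFDerivAt x hn.hasFDerivAt).fderiv
    rw [h1, one_zpow, mul_one] at a1
    rw [← h2, pd, pd]
    exact congrArg (fun L : E d →L[ℝ] ℝ => L (EuclideanSpace.single l 1)) a1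
  rw [pd_mul ((ca1_zpow h0 k).differentiableAt (by simp)) hf, h3, h1, one_zpow, one_mul]

theorem ca1_pd_mul {f g : E d → ℝ} (hf : DifferentiableAt ℝ f x) (hg : DifferentiableAt ℝ g x) (l : Fin d) :
    pd l (fun y => f y * g y) x = pd l f x * g x + f x * pd l g x := pd_mul hf hg l

theorem ca1_pd_sum {ι : Type*} (s : Finset ι) {f : ι → E d → ℝ} (hf : ∀ i ∈ s, DifferentiableAt ℝ (f i) x) (l : Fin d) :
    pd l (fun y => ∑ i ∈ s, f i y) x = ∑ i ∈ s, pd l (f i) x := pd_sum s hf l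

/-- chain rule for a coefficient -/
theorem pd_coef {c : Cf} {y : E d → Fin 6 → ℝ} (hy : DifferentiableAt ℝ y x) (hc : DifferentiableAt ℝ c (y x)) (l : Fin d) :
    pd l (fun z => c (y z)) x = ∑ i, c.D i (y x) * pd l (fun z => y z i) x := by
  have h1 : ∀ i, c.D i (y x) = fderiv ℝ c (y x) (Pi.single i 1) := fun i => by
    have a1 : HasFDerivAt c (fderiv ℝ c (y x)) (Function.update (y x) i (y x i)) := by
      rw [Function.update_eq_self]; exact hc.hasFDerivAt
    exact (a1.comp_hasDerivAt _ (hasDerivAt_update (y x) i (y x i))).deriv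
  rw [pd, fderiv_fun_comp x hc hy, ContinuousLinearMap.comp_apply,
    pi_eq_sum_univ' (fderiv ℝ y x (EuclideanSpace.single l 1)), map_sum]
  refine Finset.sum_congr rfl fun i _ => ?_
  rw [map_smul, smul_eq_mul, h1, pd, fderiv_apply hy, mul_comm]
  rfl

end Crest.Agent.R97
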