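import Crest.Agent.R97.CertA1

set_option autoImplicit false
open MeasureTheory Metric Set Filter Topology
open scoped RealInnerProductSpace NNReal

namespace Crest.Agent.R97

variable {d : ℕ} {u : E d → ℝ} {x : E d}

/-! CertA2 (owner helper66): gradients of the six scalars.  Aux prefix `ca2_`.  `fin_cases i`; `pd_norm_zpow`, `ca1_pd_mul`,
`ca1_pd_sum`; `pd l (up · i) = ua l i`, `pd l (ua · i j) = uT l i j` are `rfl`; symmetries from `HC.hj`; `pd l (y ↦ y i) = δ`. -/

/-- `f` has the partial derivative `c` -/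
def ca2_D (l : Fin d) (x : E d) (f : E d → ℝ) (c : ℝ) : Prop := DifferentiableAt ℝ f x ∧ pd l f x = c

section
variable {l : Fin d}

theorem ca2_mul {f g : E d → ℝ} {a b : ℝ} (hf : ca2_D l x f a) (hg : ca2_D l x g b) :
    ca2_D l x (fun y => f y * g y) (a * g x + f x * b) :=
  ⟨hf.1.mul hg.1, by rw [ca1_pd_mul hf.1 hg.1, hf.2, hg.2]⟩

theorem ca2_sum {f : Fin d → E d → ℝ} {a : Fin d → ℝ} (hf : ∀ i, ca2_D l x (f i) (a i)) :
    ca2_D l x (fun y => ∑ i, f i y) (∑ i, a i) :=
  ⟨DifferentiableAt.fun_sum fun i _ => (hf i).1, by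
    rw [ca1_pd_sum _ fun i _ => (hf i).1]
    exact Finset.sum_congr rfl fun i _ => (hf i).2⟩

theorem ca2_dp {v w : E d → Fin d → ℝ} {v' w' : Fin d → ℝ} (hv : ∀ i, ca2_D l x (fun y => v y i) (v' i))
    (hw : ∀ i, ca2_D l x (fun y => w y i) (w' i)) :
    ca2_D l x (fun y => dp (v y) (w y)) (dp v' (w x) + dp (v x) w') := by
  have := ca2_sum fun i => ca2_mul (hv i) (hw i)
  rwa [Finset.sum_add_distrib] at this

theorem ca2_mv {a : E d → Fin d → Fin d → ℝ} {a' : Fin d → Fin d → ℝ} {w : E d → Fin d → ℝ} {w' : Fin d → ℝ}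
    (ha : ∀ i j, ca2_D l x (fun y => a y i j) (a' i j)) (hw : ∀ i, ca2_D l x (fun y => w y i) (w' i)) (i : Fin d) :
    ca2_D l x (fun y => mv (a y) (w y) i) (mv a' (w x) i + mv (a x) w' i) := by
  have := ca2_sum fun j => ca2_mul (ha i j) (hw j)
  rwa [Finset.sum_add_distrib] at this

theorem ca2_fr {a b : E d → Fin d → Fin d → ℝ} {a' b' : Fin d → Fin d → ℝ}
    (ha : ∀ i j, ca2_D l x (fun y => a y i j) (a' i j)) (hb : ∀ i j, ca2_D l x (fun y => b y i j) (b' i j)) :
    ca2_D l x (fun y => fr (a y) (b y)) (fr a' (b x) + fr (a x) b') := by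
  have := ca2_sum fun i => ca2_sum fun j => ca2_mul (ha i j) (hb i j)
  simp only [Finset.sum_add_distrib] at this
  exact this

theorem ca2_pow (h1 : ‖x‖ = 1) (k : ℤ) {f : E d → ℝ} {c : ℝ} (hf : ca2_D l x f c) :
    pd l (fun y => ‖y‖ ^ k * f y) x = k * x l * f x + c := by
  rw [pd_norm_zpow h1 k hf.1, hf.2]

theorem ca2_coord (i : Fin d) : ca2_D l x (fun y => y i) (if l = i then 1 else 0) := by
  have h := (EuclideanSpace.proj i : E d →L[ℝ] ℝ).hasFDerivAt (x := x)
  refine ⟨h.differentiableAt, ?_⟩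
  have e : fderiv ℝ (fun y : E d => y i) x = EuclideanSpace.proj i := h.fderiv
  rw [pd, e]
  simp [eq_comm]

end

theorem ca2_dp_comm (v w : Fin d → ℝ) : dp v w = dp w v := Finset.sum_congr rfl fun _ _ => mul_comm _ _

theorem ca2_fr_comm (a b : Fin d → Fin d → ℝ) : fr a b = fr b a :=
  Finset.sum_congr rfl fun _ _ => Finset.sum_congr rfl fun _ _ => mul_comm _ _

theorem ca2_dp_add (v w w' : Fin d → ℝ) : dp v (fun i => w i + w' i) = dp v w + dp v w' := by
  simp only [dp, mul_add, Finset.sum_add_distrib]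

theorem ca2_symm {a : Fin d → Fin d → ℝ} (as : ∀ i j, a i j = a j i) (v w : Fin d → ℝ) :
    dp v (mv a w) = dp w (mv a v) := by
  simp only [dp, mv, Finset.mul_sum]
  rw [Finset.sum_comm]
  exact Finset.sum_congr rfl fun i _ => Finset.sum_congr rfl fun j _ => by rw [as j i]; ring

theorem ca2_tv (T : Fin d → Fin d → Fin d → ℝ) (v w : Fin d → ℝ) (l : Fin d) :
    dp v (mv (T l) w) = tv T v w l := by
  simp only [dp, mv, tv, Finset.mul_sum]
  exact Finset.sum_congr rfl fun i _ => Finset.sum_congr rfl fun j _ => by ring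

theorem ca2_cube {a : Fin d → Fin d → ℝ} (as : ∀ i j, a i j = a j i) (b : Fin d → Fin d → ℝ) :
    fr a (fun i j => ∑ k, (b i k * a k j + a i k * b k j)) = 2 * fr b (sqm a) := by
  have e1 : ∑ i, ∑ j, ∑ k, a i j * (b i k * a k j) = fr b (sqm a) := by
    simp only [fr, sqm, Finset.mul_sum]
    refine Finset.sum_congr rfl fun i _ => ?_
    rw [Finset.sum_comm]
    exact Finset.sum_congr rfl fun k _ => Finset.sum_congr rfl fun j _ => by rw [as k j]; ring
  have e2 : ∑ i, ∑ j, ∑ k, a i j * (a i k * b k j) = fr b (sqm a) := by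
    simp only [fr, sqm, Finset.mul_sum]
    rw [Finset.sum_comm, Finset.sum_comm (f := fun i j => ∑ l, b i j * (a i l * a l j))]
    refine Finset.sum_congr rfl fun j _ => ?_
    rw [Finset.sum_comm]
    exact Finset.sum_congr rfl fun k _ => Finset.sum_congr rfl fun i _ => by rw [as k i]; ring
  rw [two_mul]
  nth_rewrite 1 [← e1]
  rw [← e2]
  simp only [fr, Finset.mul_sum, mul_add, Finset.sum_add_distrib]

theorem HC.pd_uy (h : HC u) (hx : 0 < u x) (h1 : ‖x‖ = 1) (i : Fin 6) (l : Fin d) :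
    pd l (fun y => uy u y i) x = gv x (up u x) (ua u x) (uT u x) i l := by
  have hj := h.hj hx h1
  have hp : ∀ i, ca2_D l x (fun y => up u y i) (ua u x l i) := fun i =>
    ⟨(h.cd_up hx i).differentiableAt (by simp), rfl⟩
  have ha : ∀ i j, ca2_D l x (fun y => ua u y i j) (uT u x l i j) := fun i j =>
    ⟨(h.cd_ua hx i j).differentiableAt (by simp), rfl⟩
  have hm := ca2_mv ha hp
  have e1 : ∀ v, dp (ua u x l) v = mv (ua u x) v l := fun _ => rfl
  have e2 : ∀ b, fr (uT u x l) b = tm (uT u x) b l := fun _ => rfl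
  fin_cases i
  · refine (ca2_pow h1 2 (ca2_fr ha ha)).trans ?_
    change _ = 2 * (tm (uT u x) (ua u x) l + fr (ua u x) (ua u x) * x l)
    rw [ca2_fr_comm (ua u x) (uT u x l), e2]
    push_cast
    ring
  · refine (ca2_pow h1 (-1) (ca2_dp (w := fun y => y) hp ca2_coord)).trans ?_
    change _ = up u x l - dp (up u x) x * x l
    rw [e1, hj.ax]
    simp only [dp, mul_ite, mul_one, mul_zero, Finset.sum_ite_eq, Finset.mem_univ, if_true]
    push_cast
    ring
  · refine (ca2_pow h1 0 (ca2_dp hp hp)).trans ?_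
    change _ = 2 * mv (ua u x) (up u x) l
    rw [ca2_dp_comm (up u x) (ua u x l), e1]
    push_cast
    ring
  · refine (ca2_pow h1 1 (ca2_dp hp hm)).trans ?_
    change _ = tv (uT u x) (up u x) (up u x) l + dp (up u x) (mv (ua u x) (up u x)) * x l +
      2 * mv (ua u x) (mv (ua u x) (up u x)) l
    rw [ca2_dp_add, ca2_tv, ca2_symm hj.as (up u x) (ua u x l), e1]
    push_cast
    ring
  · refine (ca2_pow h1 3 (ca2_fr (b := fun y => sqm (ua u y)) ha fun i j =>
      ca2_sum fun k => ca2_mul (ha i k) (ha k j))).trans ?_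
    change _ = 3 * (tm (uT u x) (sqm (ua u x)) l + fr (ua u x) (sqm (ua u x)) * x l)
    rw [ca2_cube hj.as, e2]
    push_cast
    ring
  · refine (ca2_pow h1 2 (ca2_dp hm hm)).trans ?_
    change _ = 2 * (tv (uT u x) (up u x) (mv (ua u x) (up u x)) l +
      dp (mv (ua u x) (up u x)) (mv (ua u x) (up u x)) * x l + mv (ua u x) (mv (ua u x) (mv (ua u x) (up u x))) l)
    rw [ca2_dp_comm (fun i => _ + _), ca2_dp_add, ca2_symm (fun i j => hj.T2 l i j), ca2_tv,
      ca2_symm hj.as _ (ua u x l), e1]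
    push_cast
    ring

end Crest.Agent.R97
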