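import Crest.Agent.R97.Har

set_option autoImplicit false
open MeasureTheory Metric Set Filter Topology
open scoped RealInnerProductSpace NNReal

namespace Crest.Agent.R97

variable {d : ℕ}

/-! Gr: `|∇u| ≤ 1` and the a priori bounds on the ball `B(x, u x)`. -/

theorem gr_weight {a b : ℝ} (ha : 0 < a) (hab : a < b) : ∃ Ψ μ : ℝ → ℝ, ContDiff ℝ 1 Ψ ∧ Continuous μ ∧
    (∀ s, HasDerivAt Ψ (-(μ s) / 2) s) ∧ (∀ s, 0 ≤ Ψ s) ∧ (∀ s, 0 ≤ μ s) ∧ (∀ s, b ≤ s → Ψ s = 0 ∧ μ s = 0) ∧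
    (∀ s, s ≤ a → μ s = 0) ∧ Ψ 0 = 1 := by
  have hba : 0 < b - a := by linarith
  have hc : ContDiff ℝ 1 Real.smoothTransition := Real.smoothTransition.contDiff (n := 1)
  have hd : ∀ t, HasDerivAt Real.smoothTransition (deriv Real.smoothTransition t) t := fun t =>
    (hc.differentiable one_ne_zero t).hasDerivAt
  refine ⟨fun s => Real.smoothTransition ((b - s) / (b - a)),
    fun s => 2 / (b - a) * deriv Real.smoothTransition ((b - s) / (b - a)), hc.comp (by fun_prop),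
    continuous_const.mul ((hc.continuous_deriv le_rfl).comp (by fun_prop)), fun s => ?_,
    fun s => Real.smoothTransition.nonneg _,
    fun s => mul_nonneg (by positivity) ((hd _).nonneg_of_monotone Real.smoothTransition.monotone),
    fun s hs => ?_, fun s hs => ?_, ?_⟩
  · have h1 : HasDerivAt (fun s => (b - s) / (b - a)) (-1 / (b - a)) s := by
      simpa using ((hasDerivAt_id s).const_sub b).div_const (b - a)
    have h2 := (hd ((b - s) / (b - a))).comp s h1
    have h3 : -(2 / (b - a) * deriv Real.smoothTransition ((b - s) / (b - a))) / 2 =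
        deriv Real.smoothTransition ((b - s) / (b - a)) * (-1 / (b - a)) := by ring
    rw [h3]
    exact h2
  · have h1 : Real.smoothTransition ((b - s) / (b - a)) = 0 :=
      Real.smoothTransition.zero_of_nonpos (div_nonpos_of_nonpos_of_nonneg (by linarith) hba.le)
    refine ⟨h1, ?_⟩
    have h2 : IsLocalMin Real.smoothTransition ((b - s) / (b - a)) :=
      Eventually.of_forall fun t => by rw [h1]; exact Real.smoothTransition.nonneg t
    simp only [h2.deriv_eq_zero, mul_zero]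
  · have h1 : Real.smoothTransition ((b - s) / (b - a)) = 1 :=
      Real.smoothTransition.one_of_one_le ((one_le_div hba).2 (by linarith))
    have h2 : IsLocalMax Real.smoothTransition ((b - s) / (b - a)) :=
      Eventually.of_forall fun t => by rw [h1]; exact Real.smoothTransition.le_one t
    simp only [h2.deriv_eq_zero, mul_zero]
  · exact Real.smoothTransition.one_of_one_le ((one_le_div hba).2 (by linarith))

theorem gr_two : (2 : WithTop ℕ∞) ≤ ((⊤ : ℕ∞) : WithTop ℕ∞) := WithTop.coe_le_coe.2 le_top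

theorem gr_int {G φ : E d → ℝ} {x : E d} {R r : ℝ} (hr : r < R) (hG : ContinuousOn G (ball x R))
    (hφ : Continuous φ) (h0 : ∀ y, r ≤ ‖y‖ → φ y = 0) : Integrable fun y => G (x + y) * φ y := by
  have h1 : ContinuousOn (fun y => G (x + y) * φ y) (closedBall 0 r) := by
    refine (hG.comp (continuous_const.add continuous_id).continuousOn fun y hy => ?_).mul hφ.continuousOn
    rw [mem_closedBall_zero_iff] at hy
    show x + y ∈ ball x R
    rw [mem_ball_iff_norm, add_sub_cancel_left]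
    linarith
  refine (integrableOn_iff_integrable_of_support_subset (s := closedBall 0 r) fun y hy => ?_).1
    (h1.integrableOn_compact (isCompact_closedBall _ _))
  by_contra h
  rw [mem_closedBall_zero_iff, not_le] at h
  exact hy (by simp only [h0 y h.le, mul_zero])

theorem gr_mv {f : E d → ℝ} {x : E d} {R r : ℝ} (hf : Harm f (ball x R)) {m : ℝ → ℝ} (hm : Continuous m)
    (hm0 : ∀ t, 0 ≤ m t) (hr : r < R) (hs : ∀ t, r ≤ t → m t = 0) :
    ∫ y : E d, f (x + y) * m ‖y‖ = f x * ∫ y : E d, m ‖y‖ := by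
  have h1 := submean (hf.1.of_le gr_two) (fun y hy => (hf.2 y hy).ge) hm hm0 hr hs
  have hg := hf.const_mul isOpen_ball (-1)
  have h2 := submean (hg.1.of_le gr_two) (fun y hy => (hg.2 y hy).ge) hm hm0 hr hs
  simp only [neg_mul, one_mul, integral_neg] at h2
  linarith

theorem gr_pd_sq (x z : E d) {Ψ : ℝ → ℝ} {c : ℝ} (h : HasDerivAt Ψ c (‖z - x‖ ^ 2)) (b : Fin d) :
    pd b (fun z => Ψ (‖z - x‖ ^ 2)) z = c * (2 * (z - x) b) := by
  have h1 : HasFDerivAt (fun z : E d => ‖z - x‖ ^ 2) (2 • (innerSL ℝ (z - x)).comp (ContinuousLinearMap.id ℝ _)) z :=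
    ((hasFDerivAt_id z).sub_const x).norm_sq
  have h2 := h.comp_hasFDerivAt z h1
  unfold pd
  have h3 : (fun z : E d => Ψ (‖z - x‖ ^ 2)) = Ψ ∘ fun z : E d => ‖z - x‖ ^ 2 := rfl
  rw [h3, h2.fderiv]
  simp [EuclideanSpace.inner_single_right]

theorem gr_ibp {f : E d → ℝ} {x : E d} {R r : ℝ} (hr0 : 0 < r) (hr : r < R) (hf : ContDiffOn ℝ 2 f (ball x R))
    {Ψ μ : ℝ → ℝ} (hΨ : ContDiff ℝ 1 Ψ) (hμ : Continuous μ) (hd : ∀ s, HasDerivAt Ψ (-(μ s) / 2) s)
    (h0 : ∀ s, r ^ 2 ≤ s → Ψ s = 0 ∧ μ s = 0) (b : Fin d) :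
    ∫ y : E d, f (x + y) * (y b * μ (‖y‖ ^ 2)) = ∫ y : E d, pd b f (x + y) * Ψ (‖y‖ ^ 2) := by
  have hsq : ∀ y : E d, r ≤ ‖y‖ → r ^ 2 ≤ ‖y‖ ^ 2 := fun y hy => pow_le_pow_left₀ hr0.le hy 2
  have hh : ContDiff ℝ 1 fun z : E d => Ψ (‖z - x‖ ^ 2) :=
    hΨ.comp ((contDiff_norm_sq ℝ).comp (contDiff_id.sub contDiff_const))
  have hz : ∀ z : E d, z ∉ ball x r → Ψ (‖z - x‖ ^ 2) = 0 := fun z hz =>
    (h0 _ (hsq _ (not_lt.1 fun h => hz (mem_ball_iff_norm.2 h)))).1
  obtain ⟨K, hK⟩ := hh.lipschitzWith_of_hasCompactSupport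
    (HasCompactSupport.intro (isCompact_closedBall x r) fun z hz' => hz z fun h => hz' (ball_subset_closedBall h))
    one_ne_zero
  have hX : ContDiffOn ℝ 1 (fun z => f z • (EuclideanSpace.single b 1 : E d)) (ball x R) :=
    (hf.of_le (by norm_num)).smul contDiffOn_const
  have h1 := int_by_parts hK isBounded_ball isOpen_ball
    (closure_ball_subset_closedBall.trans (closedBall_subset_ball hr)) hz hX
  have h2 : ∀ z : E d, ⟪f z • (EuclideanSpace.single b 1 : E d), gradient (fun z => Ψ (‖z - x‖ ^ 2)) z⟫ +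
      Ψ (‖z - x‖ ^ 2) * dv (fun z => f z • (EuclideanSpace.single b 1 : E d)) z =
      pd b f z * Ψ (‖z - x‖ ^ 2) - f z * ((z - x) b * μ (‖z - x‖ ^ 2)) := by
    intro z
    have h3 : dv (fun z => f z • (EuclideanSpace.single b 1 : E d)) z = pd b f z := by
      unfold dv
      rw [Finset.sum_eq_single b]
      · simp
      · intro i _ hi
        simp [hi, pd]
      · simp
    rw [h3, real_inner_smul_left, EuclideanSpace.inner_single_left, gradient_apply, gr_pd_sq x z (hd _) b]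
    simp only [map_one, one_mul]
    ring
  simp_rw [h2] at h1
  rw [setIntegral_eq_integral_of_forall_compl_eq_zero fun z hz' => by
    have h3 : r ≤ ‖z - x‖ := not_lt.1 fun h => hz' (subset_closure (mem_ball_iff_norm.2 h))
    rw [(h0 _ (hsq _ h3)).1, (h0 _ (hsq _ h3)).2]; ring] at h1
  rw [← integral_add_left_eq_self _ x] at h1
  simp only [add_sub_cancel_left] at h1
  have hc1 : ContinuousOn (pd b f) (ball x R) :=
    (hf.continuousOn_fderiv_of_isOpen isOpen_ball (by norm_num)).clm_apply continuousOn_const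
  rw [integral_sub (gr_int hr hc1 (φ := fun y => Ψ (‖y‖ ^ 2)) (hΨ.continuous.comp (by fun_prop))
      fun y hy => (h0 _ (hsq y hy)).1)
    (gr_int hr hf.continuousOn (φ := fun y => y b * μ (‖y‖ ^ 2)) (by fun_prop)
      fun y hy => by rw [(h0 _ (hsq y hy)).2, mul_zero])] at h1
  linarith

theorem gr_pd_aff (x : E d) (c : ℝ) (v : Fin d → ℝ) (b : Fin d) :
    pd b (fun z : E d => c + ∑ a, v a * (z - x) a) = fun _ => v b := by
  funext z
  have h1 : HasFDerivAt (fun z : E d => c + ∑ a, v a * (z - x) a)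
      (∑ a, v a • (EuclideanSpace.proj a : E d →L[ℝ] ℝ)) z := by
    refine HasFDerivAt.const_add c (HasFDerivAt.fun_sum fun a _ => HasFDerivAt.const_mul ?_ (v a))
    have h2 : (fun z : E d => (z - x) a) = fun z : E d => (EuclideanSpace.proj a : E d →L[ℝ] ℝ) z - x a := by
      funext z; simp
    rw [h2]
    exact (EuclideanSpace.proj a : E d →L[ℝ] ℝ).hasFDerivAt.sub_const _
  unfold pd
  rw [h1.fderiv, sum_apply, Finset.sum_eq_single b]
  · simp
  · intro i _ hi
    simp [hi]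
  · simp

theorem gr_harm_aff (x : E d) (c : ℝ) (v : Fin d → ℝ) (U : Set (E d)) :
    Harm (fun z : E d => c + ∑ a, v a * (z - x) a) U := by
  refine ⟨ContDiff.contDiffOn (by fun_prop), fun z _ => ?_⟩
  unfold lap
  refine Finset.sum_eq_zero fun i _ => ?_
  rw [gr_pd_aff]
  simp [pd]

/-- radial weights concentrated near the sphere and the moments of harmonic functions -/
theorem gr_moments (hd : 1 ≤ d) {R r : ℝ} (hr0 : 0 < r) (hr : r < R) : ∃ (m : E d → ℝ) (M P r' : ℝ), Continuous m ∧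
    (∀ y, 0 ≤ m y) ∧ r' < R ∧ (∀ y, r' ≤ ‖y‖ → m y = 0) ∧ M = ∫ y, m y ∧ 0 < M ∧ r ^ 2 * M ≤ d * P ∧
    ∀ (f : E d → ℝ) (x : E d), Harm f (ball x R) → ∀ (c : ℝ) (v : Fin d → ℝ),
      ∫ y : E d, f (x + y) * ((c + ∑ a, v a * y a) * m y) = c * f x * M + (∑ a, v a * pd a f x) * P := by
  set r' := (r + R) / 2 with hr'
  have h1 : r < r' := by linarith
  have h2 : r' < R := by linarith
  have h3 : 0 < r' := by linarith
  obtain ⟨Ψ, μ, hΨ, hμ, hd', hΨ0, hμ0, hb, ha, hΨ1⟩ := gr_weight (a := r ^ 2) (b := r' ^ 2) (by positivity)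
    (pow_lt_pow_left₀ h1 hr0.le two_ne_zero)
  have hsq : ∀ t : ℝ, r' ≤ t → r' ^ 2 ≤ t ^ 2 := fun t ht => pow_le_pow_left₀ h3.le ht 2
  have hmc : Continuous fun y : E d => μ (‖y‖ ^ 2) := by fun_prop
  have hΨc : Continuous fun y : E d => Ψ (‖y‖ ^ 2) := hΨ.continuous.comp (by fun_prop)
  have hm0 : ∀ y : E d, r' ≤ ‖y‖ → μ (‖y‖ ^ 2) = 0 := fun y hy => (hb _ (hsq _ hy)).2
  have key : ∀ (f : E d → ℝ) (x : E d), Harm f (ball x R) → ∀ (c : ℝ) (v : Fin d → ℝ),
      ∫ y : E d, f (x + y) * ((c + ∑ a, v a * y a) * μ (‖y‖ ^ 2)) =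
        c * f x * (∫ y : E d, μ (‖y‖ ^ 2)) + (∑ a, v a * pd a f x) * ∫ y : E d, Ψ (‖y‖ ^ 2) := by
    intro f x hf c v
    have e1 : ∀ y : E d, f (x + y) * ((c + ∑ a, v a * y a) * μ (‖y‖ ^ 2)) =
        c * (f (x + y) * μ (‖y‖ ^ 2)) + ∑ a, v a * (f (x + y) * (y a * μ (‖y‖ ^ 2))) := by
      intro y
      rw [add_mul, mul_add, Finset.sum_mul, Finset.mul_sum]
      congr 1
      · ring
      · exact Finset.sum_congr rfl fun a _ => by ring
    have i1 := gr_int h2 hf.1.continuousOn hmc hm0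
    have i2 : ∀ a : Fin d, Integrable fun y : E d => v a * (f (x + y) * (y a * μ (‖y‖ ^ 2))) := fun a =>
      (gr_int h2 hf.1.continuousOn (φ := fun y => y a * μ (‖y‖ ^ 2)) (by fun_prop)
        fun y hy => by rw [hm0 y hy, mul_zero]).const_mul _
    simp_rw [e1]
    rw [integral_add (i1.const_mul c) (integrable_finsetSum _ fun a _ => i2 a), integral_const_mul,
      integral_finsetSum _ fun a _ => i2 a,
      gr_mv hf (m := fun t => μ (t ^ 2)) (by fun_prop) (fun t => hμ0 _) h2 fun t ht => (hb _ (hsq t ht)).2,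
      Finset.sum_mul, mul_assoc]
    congr 1
    refine Finset.sum_congr rfl fun a _ => ?_
    rw [integral_const_mul, gr_ibp h3 h2 (hf.1.of_le gr_two) hΨ hμ hd' hb a,
      gr_mv (hf.pd isOpen_ball a) (m := fun t => Ψ (t ^ 2)) (hΨ.continuous.comp (by fun_prop)) (fun t => hΨ0 _) h2
        fun t ht => (hb _ (hsq t ht)).1, mul_assoc]
  have i0 : ∀ {φ : E d → ℝ}, Continuous φ → Integrable fun y : E d => φ y * μ (‖y‖ ^ 2) := fun {φ} hφ => by
    simpa using gr_int (x := 0) h2 hφ.continuousOn hmc hm0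
  have hmom : ∫ y : E d, ‖y‖ ^ 2 * μ (‖y‖ ^ 2) = d * ∫ y : E d, Ψ (‖y‖ ^ 2) := by
    have e1 : ∀ a : Fin d, ∫ y : E d, y a ^ 2 * μ (‖y‖ ^ 2) = ∫ y : E d, Ψ (‖y‖ ^ 2) := by
      intro a
      have h4 := key _ 0 (gr_harm_aff (0 : E d) 0 (Pi.single a 1) (ball 0 R)) 0 (Pi.single a 1)
      simp only [gr_pd_aff] at h4
      simp [Pi.single_apply] at h4
      rw [← h4]
      exact integral_congr_ae (Eventually.of_forall fun y => by simp only; ring)
    have e2 : ∀ y : E d, ‖y‖ ^ 2 * μ (‖y‖ ^ 2) = ∑ a, y a ^ 2 * μ (‖y‖ ^ 2) := by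
      intro y
      rw [← Finset.sum_mul, ← EuclideanSpace.real_norm_sq_eq]
    simp_rw [e2]
    rw [integral_finsetSum _ fun a _ => i0 (by fun_prop)]
    simp [e1]
  have hP : 0 < ∫ y : E d, Ψ (‖y‖ ^ 2) := by
    refine hΨc.integral_pos_of_hasCompactSupport_nonneg_nonzero (x := 0)
      (HasCompactSupport.intro (isCompact_closedBall (0 : E d) r') fun y hy => (hb _ (hsq _ ?_)).1)
      (fun y => hΨ0 _) (by simp [hΨ1])
    rw [mem_closedBall_zero_iff, not_le] at hy
    exact hy.le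
  have hup : ∫ y : E d, ‖y‖ ^ 2 * μ (‖y‖ ^ 2) ≤ r' ^ 2 * ∫ y : E d, μ (‖y‖ ^ 2) := by
    rw [← integral_const_mul]
    refine integral_mono (i0 (by fun_prop)) (i0 continuous_const) fun y => ?_
    rcases le_total r' ‖y‖ with h | h
    · simp only [hm0 y h, mul_zero, le_refl]
    · exact mul_le_mul_of_nonneg_right (pow_le_pow_left₀ (norm_nonneg _) h 2) (hμ0 _)
  have hlo : r ^ 2 * ∫ y : E d, μ (‖y‖ ^ 2) ≤ ∫ y : E d, ‖y‖ ^ 2 * μ (‖y‖ ^ 2) := by
    rw [← integral_const_mul]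
    refine integral_mono (i0 continuous_const) (i0 (by fun_prop)) fun y => ?_
    rcases le_total (‖y‖ ^ 2) (r ^ 2) with h | h
    · simp only [ha _ h, mul_zero, le_refl]
    · exact mul_le_mul_of_nonneg_right h (hμ0 _)
  have hd0 : (0 : ℝ) < d := by exact_mod_cast hd
  refine ⟨fun y => μ (‖y‖ ^ 2), _, ∫ y : E d, Ψ (‖y‖ ^ 2), r', hmc, fun y => hμ0 _, h2, hm0, rfl, ?_,
    hlo.trans hmom.le, key⟩
  have h5 : 0 < r' ^ 2 * ∫ y : E d, μ (‖y‖ ^ 2) := lt_of_lt_of_le (by rw [hmom]; positivity) hup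
  exact (pos_iff_pos_of_mul_pos h5).1 (by positivity)

theorem gr_lim {N c R : ℝ} (hR : 0 < R) (h : ∀ r, 0 < r → r < R → N * r ^ 2 ≤ c) : N * R ^ 2 ≤ c := by
  have h1 : Tendsto (fun r : ℝ => N * r ^ 2) (𝓝[<] R) (𝓝 (N * R ^ 2)) :=
    (Continuous.tendsto (by fun_prop) R).mono_left nhdsWithin_le_nhds
  refine le_of_tendsto h1 ?_
  filter_upwards [Ioo_mem_nhdsLT hR] with r hr using h r hr.1 hr.2

theorem gr_ball {u : E d → ℝ} (hu : Mn 1 u) (x : E d) : Harm u (ball x (u x)) := by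
  refine hu.harm.mono fun y hy => ?_
  have h1 := hu.lip.dist_le_mul x y
  rw [mem_ball, dist_comm] at hy
  rw [Real.dist_eq, NNReal.coe_one, one_mul] at h1
  have := (abs_le.1 h1).2
  show 0 < u y
  linarith

theorem gr_harm_sum {U : Set (E d)} (hU : IsOpen U) {ι : Type} (s : Finset ι) {F : ι → E d → ℝ}
    (h : ∀ i, Harm (F i) U) : Harm (fun x => ∑ i ∈ s, F i x) U := by
  classical
  induction s using Finset.induction_on with
  | empty => simpa using harm_const 0 U
  | insert a s ha ih =>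
    simp only [Finset.sum_insert ha]
    exact (h a).add hU ih

theorem gr_inner (f : E d → ℝ) (x e : E d) : ⟪gradient f x, e⟫ = ∑ b, e b * pd b f x := by
  rw [PiLp.inner_apply]
  refine Finset.sum_congr rfl fun b _ => ?_
  rw [gradient_apply]
  simp

theorem gr_harm_dir {f : E d → ℝ} {U : Set (E d)} (hU : IsOpen U) (hf : Harm f U) (e : E d) :
    Harm (fun x => ⟪gradient f x, e⟫) U := by
  simp only [gr_inner]
  exact gr_harm_sum hU _ fun b => (hf.pd hU b).const_mul hU _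

theorem gr_zero {u : E d → ℝ} (hh : Hom u) : u 0 = 0 := by
  have := hh 2 two_pos 0
  rw [smul_zero] at this
  linarith

theorem gr_grad_hom {u : E d → ℝ} (hh : Hom u) {x : E d} (hx : DifferentiableAt ℝ u x) {r : ℝ} (hr : 0 < r) :
    gradient u (r • x) = gradient u x := by
  have h1 : u = fun y => r * u (r⁻¹ • y) := by
    funext y
    rw [hh r⁻¹ (inv_pos.2 hr), ← mul_assoc, mul_inv_cancel₀ hr.ne', one_mul]
  have h2 : HasFDerivAt u (fderiv ℝ u x) (r⁻¹ • r • x) := by
    rw [inv_smul_smul₀ hr.ne']; exact hx.hasFDerivAt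
  have h3 := (h2.comp (r • x) ((hasFDerivAt_id (r • x)).const_smul r⁻¹)).const_mul r
  have h4 : HasFDerivAt u (fderiv ℝ u x) (r • x) := by
    have h5 : r • (fderiv ℝ u x).comp (r⁻¹ • ContinuousLinearMap.id ℝ (E d)) = fderiv ℝ u x := by
      ext v
      simp [hr.ne']
    rw [h5] at h3
    exact h3.congr_of_eventuallyEq (Eventually.of_forall fun y => congrFun h1 y)
  unfold gradient
  rw [h4.fderiv]

theorem gr_euler {u : E d → ℝ} (hh : Hom u) {x : E d} (hx : DifferentiableAt ℝ u x) :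
    ⟪gradient u x, x⟫ = u x := by
  have h1 : HasFDerivAt u (fderiv ℝ u x) ((1 : ℝ) • x) := by rw [one_smul]; exact hx.hasFDerivAt
  have h2 : HasDerivAt (fun t : ℝ => t • x) x 1 := by simpa using (hasDerivAt_id (1 : ℝ)).smul_const x
  have h3 := h1.comp_hasDerivAt (1 : ℝ) h2
  have h4 : HasDerivAt (fun t : ℝ => t * u x) (u x) 1 := by simpa using (hasDerivAt_id (1 : ℝ)).mul_const (u x)
  have h5 : HasDerivAt (u ∘ fun t : ℝ => t • x) (u x) 1 := by
    refine h4.congr_of_eventuallyEq ?_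
    filter_upwards [lt_mem_nhds (zero_lt_one' ℝ)] with t ht using hh t ht x
  rw [← h3.unique h5]
  exact InnerProductSpace.toDual_symm_apply

theorem lip_one (hd : 2 ≤ d) {L : ℝ≥0} {u : E d → ℝ} (hu : Mn L u) (hh : Hom u) (hj : JetsNear u) :
    LipschitzWith 1 u := by
  have hO : IsOpen {x | 0 < u x} := isOpen_lt continuous_const hu.lip.continuous
  have hH := hu.harm
  have hdiff : ∀ x, 0 < u x → DifferentiableAt ℝ u x := fun x hx =>
    (hH.1.contDiffAt (hO.mem_nhds hx)).differentiableAt (by simp)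
  have hgc : ContinuousOn (gradient u) {x | 0 < u x} :=
    (InnerProductSpace.toDual ℝ (E d)).symm.continuous.comp_continuousOn
      (hH.1.continuousOn_fderiv_of_isOpen hO (by simp))
  have hne : ∀ x, 0 < u x → 0 < ‖x‖ := fun x hx => norm_pos_iff.2 fun h => by
    rw [h, gr_zero hh] at hx
    exact lt_irrefl _ hx
  have hnorm : ∀ x, 0 < u x → ‖‖x‖⁻¹ • x‖ = 1 ∧ u (‖x‖⁻¹ • x) = ‖x‖⁻¹ * u x ∧
      gradient u (‖x‖⁻¹ • x) = gradient u x := fun x hx =>
    ⟨norm_smul_inv_norm (norm_pos_iff.1 (hne x hx)), hh _ (inv_pos.2 (hne x hx)) x,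
      gr_grad_hom hh (hdiff x hx) (inv_pos.2 (hne x hx))⟩
  refine lipschitz_of_grad hu.lip.continuous fun x0 hx0 => ?_
  have hx0' : 0 < u x0 := lt_of_le_of_ne (hu.nn x0) (Ne.symm hx0)
  refine ⟨hdiff x0 hx0', ?_⟩
  by_contra hcon
  rw [NNReal.coe_one, not_le] at hcon
  have hd0 : (0 : ℝ) < d := by exact_mod_cast (by omega : 0 < d)
  obtain ⟨C, hC⟩ := hj
  obtain ⟨δ, hδ, hδ'⟩ := hC ((‖gradient u x0‖ - 1) / (2 * d)) (by have := sub_pos.2 hcon; positivity)
  -- near the free boundary the gradient is smaller than at `x0`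
  have hnear : ∀ x, 0 < u x → u x < δ * ‖x‖ → ‖gradient u x‖ < ‖gradient u x0‖ := by
    intro x hx hxδ
    obtain ⟨n1, n2, n3⟩ := hnorm x hx
    have hx1 := hne x hx
    obtain ⟨j, hjB, -, hjn⟩ := hδ' _ n1 (by rw [n2]; positivity) (by
      rw [n2, inv_mul_lt_iff₀ hx1, mul_comm]; exact hxδ)
    have h1 : ‖gradient u x - j.w‖ ≤ (‖gradient u x0‖ - 1) / 2 := by
      have hε : 0 ≤ (‖gradient u x0‖ - 1) / (2 * d) := by have := sub_pos.2 hcon; positivity
      have h2 : ‖gradient u x - j.w‖ ^ 2 ≤ d * ((‖gradient u x0‖ - 1) / (2 * d)) ^ 2 := by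
        rw [EuclideanSpace.real_norm_sq_eq]
        calc ∑ a, (gradient u x - j.w) a ^ 2 ≤ ∑ _a : Fin d, ((‖gradient u x0‖ - 1) / (2 * d)) ^ 2 := by
              refine Finset.sum_le_sum fun a _ => ?_
              rw [← n3, PiLp.sub_apply, gradient_apply, ← sq_abs]
              exact pow_le_pow_left₀ (abs_nonneg _) (hjn.1 a) 2
          _ = _ := by simp
      have hd1 : (1 : ℝ) ≤ d := by exact_mod_cast (by omega : 1 ≤ d)
      have hp := sub_pos.2 hcon
      refine (abs_le_of_sq_le_sq' (h2.trans ?_) (by positivity)).2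
      have h3 : (d : ℝ) * ((‖gradient u x0‖ - 1) / (2 * d)) ^ 2 = ((‖gradient u x0‖ - 1) / 2) ^ 2 / d := by
        field_simp
      rw [h3]
      exact div_le_self (sq_nonneg _) hd1
    have h2 := norm_le_insert' (gradient u x) j.w
    rw [hjB.w1] at h2
    linarith
  -- the maximum of the gradient
  have hK : IsCompact (sphere (0 : E d) 1 ∩ {x | δ ≤ u x}) :=
    (isCompact_sphere _ _).inter_right (isClosed_le continuous_const hu.lip.continuous)
  have hKO : sphere (0 : E d) 1 ∩ {x | δ ≤ u x} ⊆ {x | 0 < u x} := fun x hx => lt_of_lt_of_le hδ hx.2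
  have hmem : ∀ x, 0 < u x → δ * ‖x‖ ≤ u x → ‖x‖⁻¹ • x ∈ sphere (0 : E d) 1 ∩ {x | δ ≤ u x} := by
    intro x hx hxδ
    obtain ⟨n1, n2, -⟩ := hnorm x hx
    refine ⟨mem_sphere_zero_iff_norm.2 n1, ?_⟩
    show δ ≤ u (‖x‖⁻¹ • x)
    rw [n2, le_inv_mul_iff₀ (hne x hx), mul_comm]
    exact hxδ
  have hx0m := hmem x0 hx0' (not_lt.1 fun h => lt_irrefl _ (hnear x0 hx0' h))
  obtain ⟨x1, hx1, hmax⟩ := hK.exists_isMaxOn ⟨_, hx0m⟩ (hgc.mono hKO).norm
  set M := ‖gradient u x1‖ with hM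
  have hM0 : ‖gradient u x0‖ ≤ M := by
    rw [← (hnorm x0 hx0').2.2]; exact hmax hx0m
  have hMpos : 0 < M := by linarith
  have hall : ∀ x, 0 < u x → ‖gradient u x‖ ≤ M := by
    intro x hx
    rcases lt_or_ge (u x) (δ * ‖x‖) with h | h
    · exact (hnear x hx h).le.trans hM0
    · rw [← (hnorm x hx).2.2]; exact hmax (hmem x hx h)
  set e : E d := M⁻¹ • gradient u x1 with he
  have he1 : ‖e‖ = 1 := norm_smul_inv_norm (norm_pos_iff.1 hMpos)
  have hle : ∀ x, ⟪gradient u x, e⟫ ≤ ‖gradient u x‖ := fun x => by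
    have := real_inner_le_norm (gradient u x) e
    rwa [he1, mul_one] at this
  have hf := gr_harm_dir hO hH e
  have hZo : IsOpen {x | 0 < u x ∧ ⟪gradient u x, e⟫ = M} := by
    refine Metric.isOpen_iff.2 fun z hz => ?_
    obtain ⟨r, hr, hrs⟩ := Metric.isOpen_iff.1 hO z hz.1
    refine ⟨r, hr, fun y hy => ⟨hrs hy, ?_⟩⟩
    rw [← hz.2]
    exact strong_max (hf.mono hrs) (fun w hw => by rw [hz.2]; exact (hle w).trans (hall w (hrs hw))) y hy
  have hrank : 1 < Module.rank ℝ (E d) := by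
    rw [← Module.finrank_eq_rank, finrank_euclideanSpace_fin]
    exact_mod_cast (by omega : 1 < d)
  have hsub : ({0}ᶜ : Set (E d)) ⊆ {x | 0 < u x ∧ ⟪gradient u x, e⟫ = M} := by
    refine (isConnected_compl_singleton_of_one_lt_rank hrank 0).isPreconnected.subset_of_closure_inter_subset hZo
      ⟨x1, norm_pos_iff.1 (hne x1 (hKO hx1)), hKO hx1, ?_⟩ ?_
    · rw [he, real_inner_smul_right, real_inner_self_eq_norm_sq, ← hM]
      field_simp
    · rintro x ⟨hxc, hx0⟩
      have h1 : {x | 0 < u x ∧ ⟪gradient u x, e⟫ = M} ⊆ {x | δ * ‖x‖ ≤ u x} := fun y hy =>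
        not_lt.1 fun h => by
          have h2 := hnear y hy.1 h
          have h3 := hle y
          rw [hy.2] at h3
          linarith
      have h2 : δ * ‖x‖ ≤ u x :=
        closure_minimal h1 (isClosed_le (by fun_prop) hu.lip.continuous) hxc
      have h3 : 0 < u x := lt_of_lt_of_le (mul_pos hδ (norm_pos_iff.2 hx0)) h2
      refine ⟨h3, ?_⟩
      have h4 : ContinuousAt (fun x => ⟪gradient u x, e⟫) x := hf.1.continuousOn.continuousAt (hO.mem_nhds h3)
      exact (h4.continuousWithinAt (s := {x | 0 < u x ∧ ⟪gradient u x, e⟫ = M})).eq_const_of_mem_closure hxc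
        fun y hy => hy.2
  have hne0 : -e ∈ ({0}ᶜ : Set (E d)) := fun h => by
    have h1 : e = 0 := neg_eq_zero.1 h
    rw [h1, norm_zero] at he1
    exact zero_ne_one he1
  obtain ⟨h1, h2⟩ := hsub hne0
  have h3 := gr_euler hh (hdiff _ h1)
  rw [inner_neg_right, h2] at h3
  linarith

theorem hess_bound (hd : 1 ≤ d) {u : E d → ℝ} (hu : Mn 1 u) {x : E d} (hx : 0 < u x) :
    (∑ a, ∑ b, (pd a (pd b u) x) ^ 2) * (u x) ^ 2 ≤ d * (1 - ‖gradient u x‖ ^ 2) := by
  have hH := gr_ball hu x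
  refine gr_lim hx fun r hr0 hr => ?_
  obtain ⟨m, M, P, r', hm, hm0, hr', hms, hM, hM0, hMP, key⟩ := gr_moments hd hr0 hr
  have hb : ∀ b : Fin d, Harm (pd b u) (ball x (u x)) := fun b => hH.pd isOpen_ball b
  have hw : ∀ b : Fin d, Continuous fun y : E d => (pd b u x + ∑ a, pd a (pd b u) x * y a) * m y := fun b => by
    fun_prop
  have hw0 : ∀ (b : Fin d) (y : E d), r' ≤ ‖y‖ → (pd b u x + ∑ a, pd a (pd b u) x * y a) * m y = 0 :=
    fun b y hy => by rw [hms y hy, mul_zero]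
  have h1 : ∀ b : Fin d, pd b u x * pd b u x * M + (∑ a, pd a (pd b u) x * pd a (pd b u) x) * P ≤
      ∫ y : E d, pd b u (x + y) ^ 2 * m y := by
    intro b
    have k1 := key _ x (hb b) (pd b u x) fun a => pd a (pd b u) x
    have hl := gr_harm_aff x (pd b u x) (fun a => pd a (pd b u) x) (ball x (u x))
    have k2 := key _ x hl (pd b u x) fun a => pd a (pd b u) x
    simp only [gr_pd_aff, sub_self, PiLp.zero_apply, mul_zero, Finset.sum_const_zero, add_zero] at k2
    have i1 := gr_int hr' (hb b).1.continuousOn (hw b) (hw0 b)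
    have i2 := gr_int hr' hl.1.continuousOn (hw b) (hw0 b)
    have i3 := gr_int hr' ((hb b).1.continuousOn.pow 2) hm hms
    have h2 := integral_mono ((i1.const_mul 2).sub i2) i3 fun y => by
      simp only [Pi.sub_apply, Pi.pow_apply, add_sub_cancel_left]
      have := mul_nonneg (sq_nonneg (pd b u (x + y) - (pd b u x + ∑ a, pd a (pd b u) x * y a))) (hm0 y)
      nlinarith
    simp only [Pi.sub_apply, Pi.pow_apply] at h2
    rw [integral_sub (i1.const_mul 2) i2, integral_const_mul, k1, k2] at h2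
    linarith
  have i3 : ∀ b : Fin d, Integrable fun y : E d => pd b u (x + y) ^ 2 * m y := fun b =>
    gr_int hr' ((hb b).1.continuousOn.pow 2) hm hms
  have h2 : ∑ b, ∫ y : E d, pd b u (x + y) ^ 2 * m y ≤ M := by
    rw [← integral_finsetSum _ fun b _ => i3 b, hM]
    refine integral_mono (integrable_finsetSum _ fun b _ => i3 b)
      (by simpa using gr_int (x := x) (G := fun _ => 1) hr' continuousOn_const hm hms) fun y => ?_
    simp only
    rw [← Finset.sum_mul, ← norm_gradient_sq]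
    refine mul_le_of_le_one_left (hm0 y) (pow_le_one₀ (norm_nonneg _) ?_)
    simpa using norm_gradient_le hu.lip (x + y)
  have h3 := (Finset.sum_le_sum fun b (_ : b ∈ Finset.univ) => h1 b).trans h2
  rw [Finset.sum_add_distrib, ← Finset.sum_mul, ← Finset.sum_mul, Finset.sum_comm] at h3
  simp only [← sq] at h3
  rw [← norm_gradient_sq] at h3
  set A := ∑ a, ∑ b, pd a (pd b u) x ^ 2 with hA
  have hA0 : 0 ≤ A := Finset.sum_nonneg fun a _ => Finset.sum_nonneg fun b _ => sq_nonneg _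
  have hd0 : (0 : ℝ) ≤ d := Nat.cast_nonneg d
  refine le_of_mul_le_mul_right ?_ hM0
  have h4 : A * (r ^ 2 * M) ≤ A * (d * P) := mul_le_mul_of_nonneg_left hMP hA0
  have h5 : d * (A * P) ≤ d * (M - ‖gradient u x‖ ^ 2 * M) := mul_le_mul_of_nonneg_left (by linarith) hd0
  nlinarith

theorem hess_dir_bound (hd : 1 ≤ d) {u : E d → ℝ} (hu : Mn 1 u) {x : E d} (hx : 0 < u x) {e : E d} (he : ‖e‖ = 1) :
    Real.sqrt (∑ a, (∑ b, pd a (pd b u) x * e b) ^ 2) * u x ≤ d * (1 - ⟪gradient u x, e⟫) := by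
  have hH := gr_ball hu x
  have hg : Harm (fun y => 1 - ⟪gradient u y, e⟫) (ball x (u x)) :=
    (harm_const 1 _).sub isOpen_ball (gr_harm_dir isOpen_ball hH e)
  have hg0 : ∀ y, 0 ≤ 1 - ⟪gradient u y, e⟫ := fun y => by
    have h1 := real_inner_le_norm (gradient u y) e
    have h2 := norm_gradient_le hu.lip y
    rw [he, mul_one] at h1
    rw [NNReal.coe_one] at h2
    linarith
  have hpd : ∀ a, pd a (fun y => 1 - ⟪gradient u y, e⟫) x = -∑ b, pd a (pd b u) x * e b := by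
    intro a
    have h1 : HasFDerivAt (fun y => 1 - ∑ b, e b * pd b u y) (-∑ b, e b • fderiv ℝ (pd b u) x) x := by
      refine HasFDerivAt.const_sub (HasFDerivAt.fun_sum fun b _ => HasFDerivAt.const_mul ?_ (e b)) 1
      exact (((hH.pd isOpen_ball b).1.contDiffAt (ball_mem_nhds x hx)).differentiableAt (by simp)).hasFDerivAt
    simp only [gr_inner]
    show fderiv ℝ (fun y => 1 - ∑ b, e b * pd b u y) x (EuclideanSpace.single a 1) = _
    rw [h1.fderiv, ContinuousLinearMap.neg_apply, sum_apply]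
    congr 1
    refine Finset.sum_congr rfl fun b _ => ?_
    rw [ContinuousLinearMap.smul_apply, smul_eq_mul, mul_comm]
    rfl
  set v : Fin d → ℝ := fun a => ∑ b, pd a (pd b u) x * e b with hv
  set N := Real.sqrt (∑ a, v a ^ 2) with hN
  have hN0 : 0 ≤ N := Real.sqrt_nonneg _
  have hNN : N * N = ∑ a, v a ^ 2 := Real.mul_self_sqrt (Finset.sum_nonneg fun a _ => sq_nonneg _)
  have hd0 : (0 : ℝ) ≤ d := Nat.cast_nonneg d
  have hmain : N * u x ^ 2 ≤ d * (1 - ⟪gradient u x, e⟫) * u x := by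
    refine gr_lim hx fun r hr0 hr => ?_
    obtain ⟨m, M, P, r', hm, hm0, hr', hms, hM, hM0, hMP, key⟩ := gr_moments hd hr0 hr
    have k1 := key _ x hg (N * u x) v
    simp only [hpd] at k1
    have h1 : 0 ≤ ∫ y : E d, (1 - ⟪gradient u (x + y), e⟫) * ((N * u x + ∑ a, v a * y a) * m y) := by
      refine integral_nonneg fun y => mul_nonneg (hg0 _) ?_
      rcases le_total r' ‖y‖ with h | h
      · rw [hms y h, mul_zero]
      · refine mul_nonneg ?_ (hm0 y)
        have h2 : (∑ a, v a * y a) ^ 2 ≤ (N * u x) ^ 2 := by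
          refine (Finset.sum_mul_sq_le_sq_mul_sq _ _ _).trans ?_
          rw [← hNN, ← EuclideanSpace.real_norm_sq_eq, mul_pow, ← sq]
          exact mul_le_mul_of_nonneg_left (pow_le_pow_left₀ (norm_nonneg _) (by linarith) 2) (sq_nonneg _)
        have h3 := abs_le_of_sq_le_sq' h2 (by positivity)
        linarith [h3.1]
    have h2 : ∑ a, v a * -v a = -(N * N) := by
      rw [hNN, ← Finset.sum_neg_distrib]
      exact Finset.sum_congr rfl fun a _ => by ring
    rw [k1, h2] at h1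
    rcases hN0.eq_or_lt with h | h
    · rw [← h, zero_mul]
      exact mul_nonneg (mul_nonneg hd0 (hg0 x)) hx.le
    · have h3 : N * P ≤ u x * (1 - ⟪gradient u x, e⟫) * M := by
        refine le_of_mul_le_mul_left ?_ h
        linarith
      refine le_of_mul_le_mul_right ?_ hM0
      have h4 : N * (r ^ 2 * M) ≤ N * (d * P) := mul_le_mul_of_nonneg_left hMP hN0
      have h5 : d * (N * P) ≤ d * (u x * (1 - ⟪gradient u x, e⟫) * M) := mul_le_mul_of_nonneg_left h3 hd0
      nlinarith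
  refine le_of_mul_le_mul_right ?_ hx
  rw [mul_assoc, ← sq]
  exact hmain

end Crest.Agent.R97
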