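import Crest.Agent.R97.CertA1
import Crest.Agent.R97.Gr

set_option autoImplicit false
open MeasureTheory Metric Set Filter Topology
open scoped RealInnerProductSpace NNReal

namespace Crest.Agent.R97

variable {d : ℕ} {u : E d → ℝ} {x : E d}

/-! CertA4 (owner helper66): bounds on the unit sphere.  Aux prefix `ca4_`.
Near the free boundary (`u x < δ`) use `JetsNear` with `ε = 1/(2d+2)` or so (`‖j.w‖ = 1`, hence `|w a| ≤ 1`); on the compact set
`{‖x‖ = 1, δ ≤ u x}` use continuity, and `u x = dp p x ≤ |p|`.  Then the scalars stay in a compact subset of `Dom`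
(a closed bounded box), where a `C¹` coefficient and its partial derivatives `c.D i y = fderiv ℝ c y (Pi.single i 1)` are bounded. -/

theorem jets_bdd (h : HC u) (hj : JetsNear u) : ∃ M c : ℝ, 0 < c ∧ ∀ x : E d, ‖x‖ = 1 → 0 < u x →
    c ≤ dp (up u x) (up u x) ∧ (∀ i, |up u x i| ≤ M) ∧ (∀ i j, |ua u x i j| ≤ M) ∧ ∀ i j l, |uT u x i j l| ≤ M := by
  obtain ⟨C, hC⟩ := hj
  have hd0 : (0 : ℝ) ≤ d := Nat.cast_nonneg d
  obtain ⟨δ, hδ, hn⟩ := hC (1 / (2 * (d + 1))) (by positivity)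
  have hε1 : (1 : ℝ) / (2 * (d + 1)) ≤ 1 := by
    rw [div_le_one (by positivity)]
    linarith
  have hK : IsCompact (sphere (0 : E d) 1 ∩ {x | δ ≤ u x}) :=
    (isCompact_sphere 0 1).inter_right (isClosed_le continuous_const h.cont)
  have hc : ContinuousOn (fun x => (up u x, ua u x, uT u x)) (sphere (0 : E d) 1 ∩ {x | δ ≤ u x}) := by
    intro x hx
    have hx0 : 0 < u x := hδ.trans_le hx.2
    refine ContinuousAt.continuousWithinAt ((continuousAt_pi.2 fun i => (h.cd_up hx0 i).continuousAt).prodMk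
      ((continuousAt_pi.2 fun i => continuousAt_pi.2 fun j => (h.cd_ua hx0 i j).continuousAt).prodMk
      (continuousAt_pi.2 fun i => continuousAt_pi.2 fun j => continuousAt_pi.2 fun l =>
        (h.cd_uT hx0 i j l).continuousAt)))
  obtain ⟨M, hM⟩ := hK.exists_bound_of_continuousOn hc
  refine ⟨max M (max 2 (C + 1)), min (1 / 4) (δ ^ 2), by positivity, fun x hx hx0 => ?_⟩
  by_cases hs : u x < δ
  · obtain ⟨j, hB, hb, hN⟩ := hn x hx hx0 hs
    have hw : ∑ a, j.w a ^ 2 = 1 := by rw [← EuclideanSpace.real_norm_sq_eq, hB.w1, one_pow]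
    have hw1 : ∀ a, |j.w a| ≤ 1 := fun a => by
      have := PiLp.norm_apply_le j.w a
      rwa [hB.w1] at this
    have tri : ∀ a b e B : ℝ, |a - b| ≤ e → |b| ≤ B → |a| ≤ B + e := fun a b e B h1 h2 => by
      have := abs_add_le (a - b) b
      rw [sub_add_cancel] at this
      linarith
    refine ⟨(min_le_left _ _).trans ?_, fun i => ?_, fun i k => ?_, fun i k l => ?_⟩
    · have h1 : ∑ a, j.w a ^ 2 ≤ ∑ a : Fin d, (2 * (up u x a * up u x a) + 2 * (1 / (2 * (d + 1))) ^ 2) :=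
        Finset.sum_le_sum fun a _ => by
          have h2 : (pd a u x - j.w a) ^ 2 ≤ (1 / (2 * (d + 1))) ^ 2 := by
            rw [← sq_abs]
            exact pow_le_pow_left₀ (abs_nonneg _) (hN.1 a) 2
          unfold up
          nlinarith [sq_nonneg (2 * pd a u x - j.w a)]
      rw [hw, Finset.sum_add_distrib, ← Finset.mul_sum] at h1
      simp only [Finset.sum_const, Finset.card_univ, Fintype.card_fin, nsmul_eq_mul] at h1
      have h3 : (d : ℝ) * (2 * (1 / (2 * (d + 1))) ^ 2) ≤ 1 / 2 := by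
        rw [show (d : ℝ) * (2 * (1 / (2 * (d + 1))) ^ 2) = d / (2 * (d + 1) ^ 2) by field_simp,
          div_le_div_iff₀ (by positivity) (by positivity)]
        nlinarith
      unfold dp
      linarith
    · exact (tri _ _ _ _ (hN.1 i) (hw1 i)).trans (le_max_of_le_right (le_max_of_le_left (by linarith)))
    · exact (tri _ _ _ _ (hN.2.1 i k) (hb.2.1 i k)).trans (le_max_of_le_right (le_max_of_le_right (by linarith)))
    · exact (tri _ _ _ _ (hN.2.2.1 i k l) (hb.2.2 i k l)).trans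
        (le_max_of_le_right (le_max_of_le_right (by linarith)))
  · have h1 := hM x ⟨mem_sphere_zero_iff_norm.2 hx, not_lt.1 hs⟩
    rw [Prod.norm_def, Prod.norm_def, max_le_iff, max_le_iff] at h1
    refine ⟨(min_le_right _ _).trans ?_, fun i => le_max_of_le_left ?_, fun i k => le_max_of_le_left ?_,
      fun i k l => le_max_of_le_left ?_⟩
    · have h2 := Finset.sum_mul_sq_le_sq_mul_sq Finset.univ (up u x) x
      rw [← EuclideanSpace.real_norm_sq_eq, hx, one_pow, mul_one] at h2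
      have h3 : ∑ i, up u x i * x i = u x := h.euler hx0
      rw [h3] at h2
      unfold dp
      simp only [← sq]
      exact (pow_le_pow_left₀ hδ.le (not_lt.1 hs) 2).trans h2
    · exact (norm_le_pi_norm (up u x) i).trans h1.1
    · exact ((norm_le_pi_norm (ua u x i) k).trans (norm_le_pi_norm (ua u x) i)).trans h1.2.1
    · exact (((norm_le_pi_norm (uT u x i k) l).trans (norm_le_pi_norm (uT u x i) k)).trans
        (norm_le_pi_norm (uT u x) i)).trans h1.2.2

theorem ij_of (hd : 1 ≤ d) (h : HC u) (hu : Mn 1 u) (hx : 0 < u x) (h1 : ‖x‖ = 1) :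
    IJ x (up u x) (ua u x) (uT u x) := by
  have hp : dp (up u x) (up u x) = ‖gradient u x‖ ^ 2 := by
    rw [norm_gradient_sq]
    simp only [dp, up, sq]
  refine ⟨h.hj hx h1, ?_, ?_, ?_, fun e he => ?_⟩
  · rwa [h.euler hx]
  · rw [hp]
    exact pow_le_one₀ (norm_nonneg _) (by simpa using norm_gradient_le hu.lip x)
  · rw [h.euler hx, hp]
    simpa only [fr, ua, sq] using hess_bound hd hu hx
  · have h2 : ‖(WithLp.toLp 2 e : E d)‖ = 1 := by
      rw [← sq_eq_sq₀ (norm_nonneg _) zero_le_one, EuclideanSpace.real_norm_sq_eq, one_pow, ← he]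
      simp only [dp, sq]
    have h3 := hess_dir_bound hd hu hx h2
    rw [gr_inner] at h3
    rw [h.euler hx]
    simpa only [dp, mv, ua, up, sq, mul_comm (e _)] using h3

theorem ca4_fr (a : Fin d → Fin d → ℝ) : 0 ≤ fr a a :=
  Finset.sum_nonneg fun _ _ => Finset.sum_nonneg fun _ _ => mul_self_nonneg _

theorem IJ.dom {x p : Fin d → ℝ} {a : Fin d → Fin d → ℝ} {T : Fin d → Fin d → Fin d → ℝ} (h : IJ x p a T) :
    Dom (sv x p a) := by
  have h0 : ∀ v : Fin d → ℝ, 0 ≤ dp v v := fun v => Finset.sum_nonneg fun i _ => mul_self_nonneg _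
  refine ⟨?_, h.pos.le, ?_, h.le1, h0 _⟩
  · exact ca4_fr a
  · refine (h0 p).lt_of_ne fun h1 => h.pos.ne' ?_
    have h2 := (Finset.sum_eq_zero_iff_of_nonneg fun i _ => mul_self_nonneg (p i)).1 h1.symm
    exact Finset.sum_eq_zero fun i hi => by rw [mul_self_eq_zero.1 (h2 i hi), zero_mul]

theorem ca4_D {c : Cf} {y : Fin 6 → ℝ} (hc : DifferentiableAt ℝ c y) (i : Fin 6) :
    c.D i y = fderiv ℝ c y (Pi.single i 1) := by
  have h1 : HasFDerivAt c (fderiv ℝ c y) (Function.update y i (y i)) := by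
    rw [Function.update_eq_self]
    exact hc.hasFDerivAt
  exact (h1.comp_hasDerivAt _ (hasDerivAt_update y i (y i))).deriv

theorem ca4_D_cont {c : Cf} (hc : ∀ y, Dom y → ContDiffAt ℝ 1 c y) (i : Fin 6) :
    ContinuousOn (c.D i) {y | Dom y} := by
  refine ContinuousOn.congr (f := fun y => fderiv ℝ c y (Pi.single i 1)) (fun y hy => ?_) fun y hy =>
    ca4_D ((hc y hy).differentiableAt one_ne_zero) i
  exact (((hc y hy).fderiv_right (m := 0) (by simp)).continuousAt.clm_apply continuousAt_const).continuousWithinAt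

/-- the space of jets -/
abbrev ca4_Z (d : ℕ) := (Fin d → ℝ) × (Fin d → ℝ) × (Fin d → Fin d → ℝ) × (Fin d → Fin d → Fin d → ℝ)

theorem ca4_sv : Continuous fun z : ca4_Z d => sv z.1 z.2.1 z.2.2.1 := by
  unfold sv fr dp mv sqm
  fun_prop

theorem ca4_gv : Continuous fun z : ca4_Z d => gv z.1 z.2.1 z.2.2.1 z.2.2.2 := by
  unfold gv tm tv fr dp mv sqm
  fun_prop

theorem ca4_Xv : Continuous fun z : ca4_Z d => Xv z.2.1 z.2.2.1 z.2.2.2 := by
  unfold Xv tm tv mv sqm
  fun_prop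

theorem coef_bdd (hd : 1 ≤ d) (h : HC u) (hu : Mn 1 u) (hj : JetsNear u) {c : Cf}
    (hc : ∀ y, Dom y → ContDiffAt ℝ 1 c y) : ∃ C : ℝ, ∀ x : E d, ‖x‖ = 1 → 0 < u x →
      |c (sv x (up u x) (ua u x))| ≤ C ∧ (∀ l, |Cf.gr x (up u x) (ua u x) (uT u x) c l| ≤ C) ∧
      ∀ m l, |c (sv x (up u x) (ua u x)) * Xv (up u x) (ua u x) (uT u x) m l| ≤ C := by
  obtain ⟨M, c0, hc0, hb⟩ := jets_bdd h hj
  have h0 : ∀ v : Fin d → ℝ, 0 ≤ dp v v := fun v => Finset.sum_nonneg fun i _ => mul_self_nonneg _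
  let K : Set (ca4_Z d) := closedBall 0 (max M 1) ∩
    {z | 0 ≤ sv z.1 z.2.1 z.2.2.1 1 ∧ c0 ≤ sv z.1 z.2.1 z.2.2.1 2 ∧ sv z.1 z.2.1 z.2.2.1 2 ≤ 1}
  have hsv : ∀ i, Continuous fun z : ca4_Z d => sv z.1 z.2.1 z.2.2.1 i := fun i => (continuous_apply i).comp ca4_sv
  have hK : IsCompact K := (isCompact_closedBall _ _).inter_right
    ((isClosed_le continuous_const (hsv 1)).and ((isClosed_le continuous_const (hsv 2)).and
      (isClosed_le (hsv 2) continuous_const)))
  have hD : MapsTo (fun z : ca4_Z d => sv z.1 z.2.1 z.2.2.1) K {y | Dom y} := fun z hz =>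
    ⟨ca4_fr z.2.2.1, hz.2.1, hc0.trans_le hz.2.2.1,
      hz.2.2.2, h0 _⟩
  have h1 : ContinuousOn (fun z : ca4_Z d => c (sv z.1 z.2.1 z.2.2.1)) K :=
    ContinuousOn.comp (g := c) (fun y hy => (hc y hy).continuousAt.continuousWithinAt) ca4_sv.continuousOn hD
  have h2 : ContinuousOn (fun z : ca4_Z d => Cf.gr z.1 z.2.1 z.2.2.1 z.2.2.2 c) K := by
    refine continuousOn_pi.2 fun l => continuousOn_finsetSum _ fun i _ => ?_
    exact ((ca4_D_cont hc i).comp ca4_sv.continuousOn hD).mul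
      ((continuous_apply l).comp ((continuous_apply i).comp ca4_gv)).continuousOn
  have h3 : ContinuousOn (fun z : ca4_Z d => fun m l => c (sv z.1 z.2.1 z.2.2.1) * Xv z.2.1 z.2.2.1 z.2.2.2 m l) K :=
    continuousOn_pi.2 fun m => continuousOn_pi.2 fun l =>
      h1.mul ((continuous_apply l).comp ((continuous_apply m).comp ca4_Xv)).continuousOn
  obtain ⟨C, hC⟩ := hK.exists_bound_of_continuousOn (h1.prodMk (h2.prodMk h3))
  refine ⟨C, fun x hx hx0 => ?_⟩
  obtain ⟨b1, b2, b3, b4⟩ := hb x hx hx0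
  have hI := ij_of hd h hu hx0 hx
  have hM : 0 ≤ max M 1 := le_max_of_le_right zero_le_one
  have h4 := hC (fun i => x i, up u x, ua u x, uT u x) ⟨by
    rw [mem_closedBall_zero_iff, Prod.norm_def, Prod.norm_def, Prod.norm_def]
    refine max_le ((pi_norm_le_iff_of_nonneg hM).2 fun i => ?_) (max_le ((pi_norm_le_iff_of_nonneg hM).2 fun i => ?_)
      (max_le ((pi_norm_le_iff_of_nonneg hM).2 fun i => (pi_norm_le_iff_of_nonneg hM).2 fun j => ?_)
        ((pi_norm_le_iff_of_nonneg hM).2 fun i => (pi_norm_le_iff_of_nonneg hM).2 fun j =>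
          (pi_norm_le_iff_of_nonneg hM).2 fun l => ?_)))
    · exact le_max_of_le_right ((PiLp.norm_apply_le x i).trans hx.le)
    · exact le_max_of_le_left (b2 i)
    · exact le_max_of_le_left (b3 i j)
    · exact le_max_of_le_left (b4 i j l), hI.pos.le, b1, hI.le1⟩
  rw [Prod.norm_def, Prod.norm_def, max_le_iff, max_le_iff] at h4
  have h5 : ∀ F : Fin 8 → Fin d → ℝ, ‖F‖ ≤ C → ∀ m l, |F m l| ≤ C := fun F hF m l =>
    ((norm_le_pi_norm (F m) l).trans (norm_le_pi_norm F m)).trans hF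
  exact ⟨h4.1, fun l => (norm_le_pi_norm _ l).trans h4.2.1, h5 _ h4.2.2⟩

end Crest.Agent.R97
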