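import Crest.Agent.R97.CertDefs

/-! CertB1 (helper87): orthogonal invariance of the jet conditions; reduction of `IntJ` to `x = e₀`, `a` diagonal. -/

set_option autoImplicit false
open Finset

namespace Crest.Agent.R97

variable {d : ℕ}

/-- the unit vector `e₀` -/
def e0 {n : ℕ} (i : Fin (n + 1)) : ℝ := if i = 0 then 1 else 0
/-- diagonal matrix -/
def dg (lam : Fin d → ℝ) (i j : Fin d) : ℝ := if i = j then lam i else 0
/-- matrix product -/
def mm (a b : Fin d → Fin d → ℝ) (i j : Fin d) : ℝ := ∑ l, a i l * b l j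
/-- rotated matrix -/
def rm (U a : Fin d → Fin d → ℝ) (α β : Fin d) : ℝ := mv U (fun i => mv U (a i) β) α
/-- rotated tensor -/
def rt (U : Fin d → Fin d → ℝ) (T : Fin d → Fin d → Fin d → ℝ) (α β γ : Fin d) : ℝ :=
  mv U (fun i => rm U (T i) β γ) α
/-- orthogonal matrices -/
structure Orth (U : Fin d → Fin d → ℝ) : Prop where
  row : ∀ α β, ∑ i, U α i * U β i = if α = β then 1 else 0
  col : ∀ i j, ∑ α, U α i * U α j = if i = j then 1 else 0

section inv
variable {U : Fin d → Fin d → ℝ} (h : Orth U)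
include h

theorem Orth.sum_mul (v w : Fin d → ℝ) : ∑ α, mv U v α * mv U w α = ∑ i, v i * w i := by
  have e : ∀ α, mv U v α * mv U w α = ∑ i, ∑ j, v i * w j * (U α i * U α j) := fun α => by
    rw [mv, mv, sum_mul_sum]
    exact sum_congr rfl fun i _ => sum_congr rfl fun j _ => by ring
  simp only [e]
  rw [sum_comm]
  refine sum_congr rfl fun i _ => ?_
  rw [sum_comm]
  simp only [← mul_sum, h.col, mul_ite, mul_one, mul_zero, sum_ite_eq, mem_univ, if_true]

theorem Orth.dp (v w : Fin d → ℝ) : dp (mv U v) (mv U w) = dp v w := h.sum_mul v w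

theorem Orth.mv (a : Fin d → Fin d → ℝ) (v : Fin d → ℝ) : mv (rm U a) (mv U v) = mv U (mv a v) := by
  funext α
  have e : ∀ β, rm U a α β * R97.mv U v β = ∑ i, U α i * (R97.mv U (a i) β * R97.mv U v β) := fun β => by
    rw [rm, R97.mv, Finset.sum_mul]
    exact sum_congr rfl fun i _ => by ring
  rw [R97.mv]
  simp only [e]
  rw [sum_comm]
  simp only [← mul_sum, h.sum_mul]
  rfl

theorem Orth.mm (a b : Fin d → Fin d → ℝ) : mm (rm U a) (rm U b) = rm U (mm a b) := by
  funext α β
  have e := congrFun (h.mv a fun l => R97.mv U (b l) β) α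
  refine Eq.trans e ?_
  unfold rm
  congr 1
  funext i
  simp only [R97.mv, R97.mm, mul_sum]
  rw [sum_comm]
  exact sum_congr rfl fun j _ => sum_congr rfl fun l _ => by ring

theorem Orth.sqm (a : Fin d → Fin d → ℝ) : sqm (rm U a) = rm U (sqm a) := h.mm a a

theorem Orth.fr (a b : Fin d → Fin d → ℝ) : fr (rm U a) (rm U b) = fr a b := by
  unfold R97.fr rm
  rw [sum_comm]
  simp only [h.sum_mul]
  rw [sum_comm]
  simp only [h.sum_mul]

theorem Orth.tm (T : Fin d → Fin d → Fin d → ℝ) (b : Fin d → Fin d → ℝ) :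
    tm (rt U T) (rm U b) = R97.mv U (tm T b) := by
  funext α
  have e : ∀ β γ, rt U T α β γ * rm U b β γ = ∑ i, U α i * (rm U (T i) β γ * rm U b β γ) := fun β γ => by
    rw [rt, R97.mv, Finset.sum_mul]
    exact sum_congr rfl fun i _ => by ring
  have e2 : ∀ i, R97.tm T b i = ∑ β, ∑ γ, rm U (T i) β γ * rm U b β γ := fun i => (h.fr (T i) b).symm
  rw [R97.tm, R97.mv]
  simp only [e, e2, mul_sum]
  rw [sum_congr rfl fun β _ => sum_comm, sum_comm]

theorem Orth.tv (T : Fin d → Fin d → Fin d → ℝ) (v w : Fin d → ℝ) :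
    tv (rt U T) (R97.mv U v) (R97.mv U w) = R97.mv U (tv T v w) := by
  have e : rm U (fun i j => v i * w j) = fun α β => R97.mv U v α * R97.mv U w β := by
    funext α β
    simp only [rm, R97.mv, mul_sum, Finset.sum_mul]
    rw [sum_comm]
    exact sum_congr rfl fun j _ => sum_congr rfl fun i _ => by ring
  have e1 := h.tm T fun i j => v i * w j
  rw [e] at e1
  have e2 : ∀ (T : Fin d → Fin d → Fin d → ℝ) (v w : Fin d → ℝ), R97.tv T v w = R97.tm T fun i j => v i * w j := by
    intro T v w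
    funext l
    simp only [R97.tv, R97.tm, mul_assoc]
  rw [e2, e2, e1]

theorem Orth.fr3 (T T' : Fin d → Fin d → Fin d → ℝ) :
    ∑ α, ∑ β, ∑ γ, rt U T α β γ * rt U T' α β γ = ∑ i, ∑ j, ∑ l, T i j l * T' i j l := by
  rw [sum_comm, sum_congr rfl fun β _ => sum_comm]
  simp only [rt, h.sum_mul]
  rw [sum_congr rfl fun β _ => sum_comm, sum_comm]
  exact sum_congr rfl fun i _ => h.fr (T i) (T' i)

theorem Orth.tp (T : Fin d → Fin d → Fin d → ℝ) (p : Fin d → ℝ) (α β : Fin d) :
    ∑ γ, rt U T α β γ * R97.mv U p γ = rm U (fun i j => ∑ l, T i j l * p l) α β := by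
  have e : ∀ γ, rt U T α β γ * R97.mv U p γ = ∑ i, U α i * (rm U (T i) β γ * R97.mv U p γ) := fun γ => by
    rw [rt, R97.mv, Finset.sum_mul]
    exact sum_congr rfl fun i _ => by ring
  simp only [e]
  rw [sum_comm]
  simp only [← mul_sum]
  exact sum_congr rfl fun i _ => congrArg _ (congrFun (h.mv (T i) p) β)

theorem Orth.ta (T : Fin d → Fin d → Fin d → ℝ) (a : Fin d → Fin d → ℝ) (α β γ : Fin d) :
    ∑ k, rt U T α β k * rm U a k γ = rt U (fun l i j => ∑ k, T l i k * a k j) α β γ := by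
  have e : ∀ k, rt U T α β k * rm U a k γ = ∑ i, U α i * (rm U (T i) β k * rm U a k γ) := fun k => by
    rw [rt, R97.mv, Finset.sum_mul]
    exact sum_congr rfl fun i _ => by ring
  simp only [e]
  rw [sum_comm]
  simp only [← mul_sum]
  exact sum_congr rfl fun i _ => congrArg _ (congrFun (congrFun (h.mm (T i) a) β) γ)

theorem Orth.tr (a : Fin d → Fin d → ℝ) : ∑ α, rm U a α α = ∑ i, a i i := by
  have e : ∀ α, rm U a α α = ∑ i, ∑ j, a i j * (U α i * U α j) := fun α => by
    simp only [rm, R97.mv, mul_sum]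
    exact sum_congr rfl fun i _ => sum_congr rfl fun j _ => by ring
  simp only [e]
  rw [sum_comm]
  refine sum_congr rfl fun i _ => ?_
  rw [sum_comm]
  simp only [← mul_sum, h.col, mul_ite, mul_one, mul_zero, sum_ite_eq, mem_univ, if_true]

variable (x p : Fin d → ℝ) (a : Fin d → Fin d → ℝ) (T : Fin d → Fin d → Fin d → ℝ)

theorem Orth.sv : sv (R97.mv U x) (R97.mv U p) (rm U a) = sv x p a := by
  simp only [R97.sv, h.fr, h.dp, h.mv, h.sqm]

omit h in
theorem mv_lin (U : Fin d → Fin d → ℝ) (v w z : Fin d → ℝ) (c1 c2 c3 : ℝ) (l : Fin d) :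
    R97.mv U (fun l => c1 * v l + c2 * w l + c3 * z l) l
      = c1 * R97.mv U v l + c2 * R97.mv U w l + c3 * R97.mv U z l := by
  simp only [R97.mv, mul_sum, ← sum_add_distrib]
  exact sum_congr rfl fun i _ => by ring

theorem Orth.gv (i : Fin 6) :
    gv (R97.mv U x) (R97.mv U p) (rm U a) (rt U T) i = R97.mv U (gv x p a T i) := by
  funext l
  fin_cases i
  · have := mv_lin U (R97.tm T a) x x 2 (2 * R97.fr a a) 0 l
    simp only [R97.gv, h.tm, h.fr, Fin.zero_eta, Matrix.cons_val_zero]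
    rw [show (fun l => 2 * (R97.tm T a l + R97.fr a a * x l)) =
      fun l => 2 * R97.tm T a l + 2 * R97.fr a a * x l + 0 * x l from funext fun l => by ring, this]
    ring
  · have := mv_lin U p x x 1 (-R97.dp p x) 0 l
    simp only [R97.gv, h.dp, Fin.mk_one, Matrix.cons_val_one, Matrix.cons_val_zero]
    rw [show (fun l => p l - R97.dp p x * x l) = fun l => 1 * p l + -R97.dp p x * x l + 0 * x l from
      funext fun l => by ring, this]
    ring
  · have := mv_lin U (R97.mv a p) x x 2 0 0 l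
    simp only [R97.gv, h.mv, Fin.reduceFinMk, Matrix.cons_val]
    rw [show (fun l => 2 * R97.mv a p l) = fun l => 2 * R97.mv a p l + 0 * x l + 0 * x l from
      funext fun l => by ring, this]
    ring
  · have := mv_lin U (R97.tv T p p) x (R97.mv a (R97.mv a p)) 1 (R97.dp p (R97.mv a p)) 2 l
    simp only [R97.gv, h.mv, h.dp, h.tv, Fin.reduceFinMk, Matrix.cons_val]
    rw [show (fun l => R97.tv T p p l + R97.dp p (R97.mv a p) * x l + 2 * R97.mv a (R97.mv a p) l) =
      fun l => 1 * R97.tv T p p l + R97.dp p (R97.mv a p) * x l + 2 * R97.mv a (R97.mv a p) l from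
      funext fun l => by ring, this]
    ring
  · have := mv_lin U (R97.tm T (R97.sqm a)) x x 3 (3 * R97.fr a (R97.sqm a)) 0 l
    simp only [R97.gv, h.sqm, h.tm, h.fr, Fin.reduceFinMk, Matrix.cons_val]
    rw [show (fun l => 3 * (R97.tm T (R97.sqm a) l + R97.fr a (R97.sqm a) * x l)) =
      fun l => 3 * R97.tm T (R97.sqm a) l + 3 * R97.fr a (R97.sqm a) * x l + 0 * x l from
      funext fun l => by ring, this]
    ring
  · have := mv_lin U (R97.tv T p (R97.mv a p)) x (R97.mv a (R97.mv a (R97.mv a p))) 2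
      (2 * R97.dp (R97.mv a p) (R97.mv a p)) 2 l
    simp only [R97.gv, h.mv, h.dp, h.tv, Fin.reduceFinMk, Matrix.cons_val]
    rw [show (fun l => 2 * (R97.tv T p (R97.mv a p) l + R97.dp (R97.mv a p) (R97.mv a p) * x l
        + R97.mv a (R97.mv a (R97.mv a p)) l)) = fun l => 2 * R97.tv T p (R97.mv a p) l
        + 2 * R97.dp (R97.mv a p) (R97.mv a p) * x l + 2 * R97.mv a (R97.mv a (R97.mv a p)) l from
      funext fun l => by ring, this]
    ring

theorem Orth.Xv (m : Fin 8) : Xv (R97.mv U p) (rm U a) (rt U T) m = R97.mv U (Xv p a T m) := by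
  fin_cases m <;> simp [R97.Xv, h.mv, h.tm, h.tv, h.sqm]

theorem Orth.dX (m : Fin 8) : dX (R97.mv U x) (R97.mv U p) (rm U a) (rt U T) m = dX x p a T m := by
  have e1 : ∑ i, ∑ j, ∑ l, rt U T i j l ^ 2 = ∑ i, ∑ j, ∑ l, T i j l ^ 2 := by
    simpa only [sq] using h.fr3 T T
  have e2 : ∑ i, ∑ j, (∑ l, rt U T i j l * R97.mv U p l) ^ 2 = ∑ i, ∑ j, (∑ l, T i j l * p l) ^ 2 := by
    simp only [h.tp, sq]
    exact h.fr _ _
  have e3 : ∑ l, ∑ i, ∑ j, ∑ k, rt U T l i j * rt U T l i k * rm U a k j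
      = ∑ l, ∑ i, ∑ j, ∑ k, T l i j * T l i k * a k j := by
    simp only [mul_assoc, ← mul_sum, h.ta]
    exact h.fr3 _ _
  fin_cases m <;> simp [R97.dX, h.mv, h.tm, h.sqm, h.dp, h.fr, e1, e2, e3]

theorem Orth.gr (c : Cf) :
    Cf.gr (R97.mv U x) (R97.mv U p) (rm U a) (rt U T) c = R97.mv U (Cf.gr x p a T c) := by
  funext l
  simp only [Cf.gr, h.sv, h.gv]
  simp only [R97.mv, Cf.gr, mul_sum]
  rw [sum_comm]
  exact sum_congr rfl fun j _ => sum_congr rfl fun i _ => by ring

theorem Orth.G (s : Ans) : s.G (R97.mv U x) (R97.mv U p) (rm U a) (rt U T) = s.G x p a T := by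
  simp only [Ans.G, h.sv, h.dX, h.gr, h.Xv, h.dp]

omit h in
theorem rt_eq (U : Fin d → Fin d → ℝ) (T : Fin d → Fin d → Fin d → ℝ) (α β γ : Fin d) :
    rt U T α β γ = ∑ i, ∑ j, ∑ l, U α i * U β j * U γ l * T i j l := by
  simp only [rt, rm, R97.mv, mul_sum, mul_assoc]

variable {x p a T}

theorem Orth.HJ (hj : HJ x a T) : HJ (R97.mv U x) (rm U a) (rt U T) where
  x1 := by rw [h.dp, hj.x1]
  as := fun α β => by
    simp only [rm, R97.mv, mul_sum]
    rw [sum_comm]
    exact sum_congr rfl fun j _ => sum_congr rfl fun i _ => by rw [hj.as i j]; ring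
  atr := by rw [h.tr, hj.atr]
  ax := fun α => by
    rw [h.mv, R97.mv]
    simp only [hj.ax, mul_zero, sum_const_zero]
  T1 := fun α β γ => by
    rw [rt_eq, rt_eq, sum_comm]
    exact sum_congr rfl fun j _ => sum_congr rfl fun i _ => sum_congr rfl fun l _ => by rw [hj.T1 i j l]; ring
  T2 := fun α β γ => by
    rw [rt_eq, rt_eq]
    refine sum_congr rfl fun i _ => ?_
    rw [sum_comm]
    exact sum_congr rfl fun l _ => sum_congr rfl fun j _ => by rw [hj.T2 i j l]; ring
  Ttr := fun γ => by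
    have e : ∀ α, rt U T α α γ = ∑ l, U γ l * rm U (fun i j => T i j l) α α := fun α => by
      rw [rt_eq]
      simp only [rm, R97.mv, mul_sum]
      rw [sum_congr rfl fun i _ => sum_comm, sum_comm]
      exact sum_congr rfl fun l _ => sum_congr rfl fun i _ => sum_congr rfl fun j _ => by ring
    simp only [e]
    rw [sum_comm]
    simp only [← mul_sum, h.tr, hj.Ttr, mul_zero, sum_const_zero]
  Tx := fun α β => by
    rw [h.tp]
    simp only [hj.Tx, rm, R97.mv, mul_neg, sum_neg_distrib]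

theorem Orth.IJ (hj : IJ x p a T) : IJ (R97.mv U x) (R97.mv U p) (rm U a) (rt U T) where
  toHJ := h.HJ hj.toHJ
  pos := by rw [h.dp]; exact hj.pos
  le1 := by rw [h.dp]; exact hj.le1
  hb := by rw [h.dp, h.dp, h.fr]; exact hj.hb
  hd := fun e he => by
    have e1 : e = R97.mv U fun i => ∑ β, U β i * e β := by
      funext α
      simp only [R97.mv, mul_sum, ← mul_assoc]
      rw [sum_comm]
      simp only [← Finset.sum_mul, h.row, ite_mul, one_mul, zero_mul, sum_ite_eq, mem_univ, if_true]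
    rw [e1, h.dp] at he
    rw [e1, h.mv, h.dp, h.dp, h.dp]
    exact hj.hd _ he

end inv

theorem dp_comm (v w : Fin d → ℝ) : dp v w = dp w v := sum_congr rfl fun _ _ => mul_comm _ _

theorem dp_mv_symm {a : Fin d → Fin d → ℝ} (as : ∀ i j, a i j = a j i) (v w : Fin d → ℝ) :
    dp v (mv a w) = dp w (mv a v) := by
  simp only [dp, mv, mul_sum]
  rw [sum_comm]
  exact sum_congr rfl fun j _ => sum_congr rfl fun i _ => by rw [as i j]; ring

theorem dp_mv_le (a : Fin d → Fin d → ℝ) (v : Fin d → ℝ) : dp (mv a v) (mv a v) ≤ fr a a * dp v v := by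
  simp only [dp, fr, Finset.sum_mul]
  refine sum_le_sum fun i _ => ?_
  have := sum_mul_sq_le_sq_mul_sq univ (a i) v
  simp only [sq] at this
  rw [← Finset.sum_mul]
  exact this

theorem dp_self_nonneg (v : Fin d → ℝ) : 0 ≤ dp v v := sum_nonneg fun _ _ => mul_self_nonneg _

theorem dp_self_eq_zero {v : Fin d → ℝ} (h : dp v v = 0) (i : Fin d) : v i = 0 :=
  mul_self_eq_zero.1 ((sum_eq_zero_iff_of_nonneg fun _ _ => mul_self_nonneg _).1 h i (mem_univ i))

/-- an orthonormal eigenbasis of `a` whose first vector is `x` -/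
theorem exists_eig {n : ℕ} {x : Fin (n + 1) → ℝ} {a : Fin (n + 1) → Fin (n + 1) → ℝ} (x1 : dp x x = 1)
    (as : ∀ i j, a i j = a j i) (ax : ∀ i, mv a x i = 0) :
    ∃ (U : Fin (n + 1) → Fin (n + 1) → ℝ) (lam : Fin (n + 1) → ℝ), Orth U ∧ lam 0 = 0 ∧ mv U x = e0 ∧
      rm U a = dg lam := by
  obtain ⟨c, hc⟩ : ∃ c, c = fr a a + 1 := ⟨_, rfl⟩
  have hω : 0 ≤ fr a a := sum_nonneg fun _ _ => sum_nonneg fun _ _ => mul_self_nonneg _
  have hA : (Matrix.of fun i j => a i j + c * (x i * x j)).IsHermitian := by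
    ext i j
    simp only [Matrix.conjTranspose_apply, Matrix.of_apply, star_trivial, as j i, mul_comm (x j)]
  obtain ⟨b, μ, hb, hμ⟩ : ∃ (b : Fin (n + 1) → Fin (n + 1) → ℝ) (μ : Fin (n + 1) → ℝ),
      (∀ α β, dp (b α) (b β) = if α = β then 1 else 0) ∧ ∀ α i, mv a (b α) i + c * dp x (b α) * x i = μ α * b α i := by
    refine ⟨fun α => hA.eigenvectorBasis α, hA.eigenvalues, fun α β => ?_, fun α i => ?_⟩
    · have := orthonormal_iff_ite.1 hA.eigenvectorBasis.orthonormal α β
      rw [← this]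
      simp [PiLp.inner_apply, dp, mul_comm]
    · have := congrFun (hA.mulVec_eigenvectorBasis α) i
      simp only [Matrix.mulVec, dotProduct, Matrix.of_apply, Pi.smul_apply, smul_eq_mul, add_mul,
        sum_add_distrib] at this
      rw [← this, mv, dp, mul_assoc, Finset.sum_mul, mul_sum]
      congr 1
      exact sum_congr rfl fun j _ => by ring
  have col : ∀ {U : Fin (n + 1) → Fin (n + 1) → ℝ}, (∀ α β, dp (U α) (U β) = if α = β then 1 else 0) → Orth U := by
    intro U hU
    refine ⟨hU, fun i j => ?_⟩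
    have h1 : Matrix.of U * (Matrix.of U).transpose = 1 := by
      ext α β
      rw [Matrix.mul_apply, Matrix.one_apply, ← hU]
      rfl
    have h3 : (Matrix.of U).transpose * Matrix.of U = 1 := mul_eq_one_comm.1 h1
    have h2 : ((Matrix.of U).transpose * Matrix.of U) i j = (1 : Matrix _ _ ℝ) i j := by rw [h3]
    rw [Matrix.mul_apply, Matrix.one_apply] at h2
    exact h2
  -- some eigenvector is not orthogonal to `x`
  obtain ⟨k, hk⟩ : ∃ k, dp x (b k) ≠ 0 := by
    by_contra h0
    push Not at h0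
    have h1 := (col hb).dp x x
    have h2 : mv b x = fun _ => 0 := funext fun α => by rw [← h0 α, dp_comm]; rfl
    rw [h2, x1] at h1
    simp [dp] at h1
  have hx0 : ∀ v, dp x (mv a v) = 0 := fun v => by
    rw [dp_mv_symm as]
    simp only [dp, ax, mul_zero, sum_const_zero]
  have hμk : μ k = c := by
    have h1 : ∑ i, x i * (mv a (b k) i + c * dp x (b k) * x i) = ∑ i, x i * (μ k * b k i) :=
      sum_congr rfl fun i _ => by rw [hμ]
    have h2 : ∑ i, x i * (mv a (b k) i + c * dp x (b k) * x i) = dp x (mv a (b k)) + c * dp x (b k) * dp x x := by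
      simp only [dp, mul_add, sum_add_distrib, mul_sum]
      congr 1
      exact sum_congr rfl fun i _ => by ring
    have h3 : ∑ i, x i * (μ k * b k i) = μ k * dp x (b k) := by
      simp only [dp, mul_sum]
      exact sum_congr rfl fun i _ => by ring
    rw [h2, h3, hx0, x1, zero_add, mul_one] at h1
    exact (mul_right_cancel₀ hk h1).symm
  have hbk : ∀ i, b k i = dp x (b k) * x i := by
    obtain ⟨y, hy⟩ : ∃ y : Fin (n + 1) → ℝ, y = fun i => b k i - dp x (b k) * x i := ⟨_, rfl⟩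
    have h1 : mv a y = fun i => c * y i := by
      funext i
      have h2 := hμ k i
      have h3 : mv a y i = mv a (b k) i - dp x (b k) * mv a x i := by
        simp only [hy, mv, mul_sub, sum_sub_distrib, mul_sum]
        congr 1
        exact sum_congr rfl fun j _ => by ring
      rw [h3, ax, hy, hμk] at *
      linarith
    have h2 := dp_mv_le a y
    have h3 : dp (mv a y) (mv a y) = c ^ 2 * dp y y := by
      simp only [h1, dp, mul_sum]
      exact sum_congr rfl fun i _ => by ring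
    have h4 := dp_self_nonneg y
    have h5 : dp y y = 0 := by
      rw [h3, hc] at h2
      nlinarith [mul_nonneg hω h4, mul_nonneg (mul_nonneg hω hω) h4]
    intro i
    have := dp_self_eq_zero h5 i
    rw [hy] at this
    linarith
  have horth : ∀ j, j ≠ k → dp x (b j) = 0 := fun j hj => by
    have h1 := hb k j
    rw [if_neg hj.symm] at h1
    have h2 : dp (b k) (b j) = dp x (b k) * dp x (b j) := by
      obtain ⟨t, ht⟩ : ∃ t, t = dp x (b k) := ⟨_, rfl⟩
      rw [← ht] at hbk ⊢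
      rw [dp, dp, mul_sum]
      exact sum_congr rfl fun i _ => by rw [hbk i]; ring
    exact (mul_eq_zero.1 (h2 ▸ h1)).resolve_left hk
  have hσ : ∀ α : Fin (n + 1), α ≠ 0 → Equiv.swap 0 k α ≠ k := fun α hα h => hα (by
    have := congrArg (Equiv.swap 0 k) h
    rwa [Equiv.swap_apply_self, Equiv.swap_apply_right] at this)
  obtain ⟨U, hU⟩ : ∃ U : Fin (n + 1) → Fin (n + 1) → ℝ, U = fun α => if α = 0 then x else b (Equiv.swap 0 k α) :=
    ⟨_, rfl⟩
  have hrow : ∀ α β, dp (U α) (U β) = if α = β then 1 else 0 := by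
    intro α β
    by_cases hα : α = 0 <;> by_cases hβ : β = 0
    · simp [hU, hα, hβ, x1]
    · simp [hU, hα, hβ, horth _ (hσ β hβ), Ne.symm hβ]
    · simp [hU, hα, hβ, dp_comm _ x, horth _ (hσ α hα)]
    · simp [hU, hα, hβ, hb]
  have hev : ∀ β i, mv a (U β) i = (if β = 0 then 0 else μ (Equiv.swap 0 k β)) * U β i := by
    intro β i
    by_cases hβ : β = 0
    · simp [hU, hβ, ax]
    · have := hμ (Equiv.swap 0 k β) i
      rw [horth _ (hσ β hβ)] at this
      simp only [hU, if_neg hβ]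
      linarith
  refine ⟨U, fun β => if β = 0 then 0 else μ (Equiv.swap 0 k β), col hrow, by simp, ?_, ?_⟩
  · funext α
    have := hrow α 0
    rw [show U 0 = x by simp [hU]] at this
    exact this
  · funext α β
    have e : rm U a α β = dp (U α) (mv a (U β)) := by
      simp only [rm, mv, dp, mul_comm (U β _)]
    rw [e, dg]
    simp only [dp, hev, mul_left_comm (U α _), ← mul_sum]
    have := hrow α β
    rw [dp] at this
    rw [this]
    split_ifs with h1 h2 h3 <;> simp_all

/-- the interior condition in an eigenbasis -/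
def Ans.IntD (s : Ans) (n : ℕ) : Prop :=
  ∀ (p lam : Fin (n + 1) → ℝ) (T : Fin (n + 1) → Fin (n + 1) → Fin (n + 1) → ℝ), lam 0 = 0 → IJ e0 p (dg lam) T →
    0 ≤ s.G e0 p (dg lam) T ∧
      dp (Cf.gr e0 p (dg lam) T s.Φ) (Cf.gr e0 p (dg lam) T s.Φ) ≤ 4 * s.Φ (sv e0 p (dg lam)) * s.G e0 p (dg lam) T

theorem Ans.intJ_of_D {s : Ans} {n : ℕ} (h : s.IntD n) : s.IntJ (n + 1) := by
  intro x p a T hj
  obtain ⟨U, lam, hU, h0, hx, ha⟩ := exists_eig hj.x1 hj.as hj.ax
  have h1 := hU.IJ hj
  have e1 := hU.G x p a T s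
  have e2 := hU.gr x p a T s.Φ
  have e3 := hU.sv x p a
  rw [hx, ha] at h1 e1 e2 e3
  have h2 := h _ lam _ h0 h1
  rwa [e1, e2, e3, hU.dp] at h2

end Crest.Agent.R97
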