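import Crest.Agent.R97.CertB1

/-! CertB2 (helper87): the boundary condition `BdJ` as a scalar inequality in the eigenvalues. -/

set_option autoImplicit false
open Finset
open scoped RealInnerProductSpace

namespace Crest.Agent.R97

variable {d : ℕ}

/-- power sums of the eigenvalues -/
def pw (lam : Fin d → ℝ) (k : ℕ) : ℝ := ∑ i, lam i ^ k

theorem mv_dg (lam v : Fin d → ℝ) : mv (dg lam) v = fun i => lam i * v i := by
  funext i
  simp only [mv, dg, ite_mul, zero_mul, sum_ite_eq, mem_univ, if_true]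

theorem sqm_dg (lam : Fin d → ℝ) : sqm (dg lam) = dg fun i => lam i ^ 2 := by
  funext i j
  simp only [sqm, dg, ite_mul, zero_mul, sum_ite_eq, mem_univ, if_true]
  split_ifs <;> simp [sq]

theorem fr_dg (a : Fin d → Fin d → ℝ) (lam : Fin d → ℝ) : fr a (dg lam) = ∑ i, a i i * lam i := by
  simp only [fr, dg, mul_ite, mul_zero, sum_ite_eq, mem_univ, if_true]

theorem dg_self (lam : Fin d → ℝ) (i : Fin d) : dg lam i i = lam i := if_pos rfl

theorem fr_dg2 (lam : Fin d → ℝ) : fr (dg lam) (dg lam) = pw lam 2 := by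
  simp only [fr_dg, dg_self, pw, sq]

theorem fr_dg3 (lam : Fin d → ℝ) : fr (dg lam) (sqm (dg lam)) = pw lam 3 := by
  simp only [sqm_dg, fr_dg, dg_self, pw]
  exact sum_congr rfl fun i _ => by ring

theorem fr_dg4 (lam : Fin d → ℝ) : fr (sqm (dg lam)) (sqm (dg lam)) = pw lam 4 := by
  simp only [sqm_dg, fr_dg, dg_self, pw]
  exact sum_congr rfl fun i _ => by ring

theorem b2_inner (v w : E d) : ⟪v, w⟫ = dp v w := by
  simp [PiLp.inner_apply, dp, mul_comm]

/-- contraction of two matrices that agree on `w^⊥` with a symmetric matrix having `w` as an eigenvector -/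
theorem b2_fr {M N b : Fin d → Fin d → ℝ} {w : Fin d → ℝ} {β : ℝ} (w1 : dp w w = 1) (bs : ∀ i j, b i j = b j i)
    (bw : ∀ i, mv b w i = β * w i)
    (h : ∀ v v' : Fin d → ℝ, dp w v = 0 → dp w v' = 0 → dp v (mv M v') = dp v (mv N v')) :
    fr M b - β * dp w (mv M w) = fr N b - β * dp w (mv N w) := by
  have key : ∀ M : Fin d → Fin d → ℝ, ∑ k, dp (fun i => (if k = i then 1 else 0) - w k * w i)
      (mv M fun j => b j k - β * w k * w j) = fr M b - β * dp w (mv M w) := by
    intro M
    have e : ∀ k, dp (fun i => (if k = i then 1 else 0) - w k * w i) (mv M fun j => b j k - β * w k * w j)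
        = ∑ j, M k j * b k j - β * (w k * mv M w k) - ∑ i, ∑ j, w i * M i j * (b j k * w k)
          + w k * w k * (β * dp w (mv M w)) := by
      intro k
      simp only [dp, sub_mul, sum_sub_distrib, ite_mul, one_mul, zero_mul, sum_ite_eq, mem_univ, if_true]
      simp only [mv, mul_sub, sum_sub_distrib, mul_sum, bs k]
      have e1 : ∑ j, M k j * (β * w k * w j) = ∑ j, β * (w k * (M k j * w j)) := sum_congr rfl fun j _ => by ring
      have e2 : ∑ i, ∑ j, w k * w i * (M i j * b j k) = ∑ i, ∑ j, w i * M i j * (b j k * w k) :=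
        sum_congr rfl fun i _ => sum_congr rfl fun j _ => by ring
      have e3 : ∑ i, ∑ j, w k * w i * (M i j * (β * w k * w j)) = ∑ i, ∑ j, w k * w k * (β * (w i * (M i j * w j))) :=
        sum_congr rfl fun i _ => sum_congr rfl fun j _ => by ring
      rw [e1, e2, e3]
      ring
    have e4 : ∑ k, ∑ i, ∑ j, w i * M i j * (b j k * w k) = β * dp w (mv M w) := by
      rw [sum_comm, sum_congr rfl fun i _ => sum_comm]
      have e5 : ∀ j, ∑ k, b j k * w k = β * w j := bw
      simp only [← mul_sum, e5]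
      simp only [dp, mv, mul_sum]
      exact sum_congr rfl fun i _ => sum_congr rfl fun j _ => by ring
    have e6 : ∑ k, w k * w k = 1 := w1
    simp only [e, sum_add_distrib, sum_sub_distrib, ← mul_sum, ← sum_mul, e4, e6]
    simp only [fr, dp]
    ring
  rw [← key M, ← key N]
  refine sum_congr rfl fun k _ => h _ _ ?_ ?_
  · have e6 : ∑ i, w i * w i = 1 := w1
    simp only [dp, mul_sub, sum_sub_distrib, mul_ite, mul_one, mul_zero, sum_ite_eq, mem_univ, if_true,
      mul_left_comm _ (w k), ← mul_sum, e6, sub_self]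
  · have e6 : ∑ i, w i * w i = 1 := w1
    have e5 : ∑ i, w i * b i k = β * w k := by
      rw [← bw k, mv]
      exact sum_congr rfl fun i _ => by rw [bs i k, mul_comm]
    simp only [dp, mul_sub, sum_sub_distrib, e5, mul_left_comm _ (β * w k), ← mul_sum, e6, mul_one, sub_self]

/-- the scalars and the eight fluxes at a boundary jet -/
theorem bd_flux {x : Fin d → ℝ} {j : Jet d} (hB : j.IsB) (hx : dp j.w x = 0) :
    sv x j.w j.A = ![fr j.A j.A, 0, 1, -j.H, fr j.A (sqm j.A), j.H ^ 2] ∧
    (fun m => dp (Xv j.w j.A j.T m) j.w) = ![-fr j.A (sqm j.A) - 2 * j.H * fr j.A j.A, fr j.A j.A, 1, -j.H, j.H ^ 2,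
      -j.H ^ 3, -j.H * fr j.A j.A, j.H ^ 2 * fr j.A j.A - fr (sqm j.A) (sqm j.A) - j.H * fr j.A (sqm j.A)] := by
  obtain ⟨w, H, A, T⟩ := j
  have w1 : dp w w = 1 := by
    rw [← b2_inner, real_inner_self_eq_norm_sq, hB.w1, one_pow]
  have as : ∀ a b, A a b = A b a := hB.Asym
  have aw : mv A w = fun i => -H * w i := funext hB.Aw
  have mvc : ∀ (c : ℝ) (v : Fin d → ℝ), mv A (fun i => c * v i) = fun i => c * mv A v i := fun c v => by
    funext i
    simp only [mv, mul_sum, mul_left_comm]
  have dpc : ∀ (c : ℝ) (v z : Fin d → ℝ), dp (fun i => c * v i) z = c * dp v z := fun c v z => by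
    simp only [dp, mul_sum, mul_assoc]
  have dpc' : ∀ (c : ℝ) (v z : Fin d → ℝ), dp z (fun i => c * v i) = c * dp z v := fun c v z => by
    simp only [dp, mul_sum, mul_left_comm]
  have a2w : ∀ i, mv (sqm A) w i = H ^ 2 * w i := fun i => by
    have e : mv (sqm A) w i = mv A (mv A w) i := by
      simp only [mv, sqm, sum_mul, mul_sum, mul_assoc]
      exact sum_comm
    rw [e, aw, mvc, aw]
    ring
  have a2s : ∀ i k, sqm A i k = sqm A k i := fun i k => sum_congr rfl fun l _ => by rw [as i l, as l k, mul_comm]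
  obtain ⟨M, hM⟩ : ∃ M : Fin d → Fin d → ℝ, M = fun b c => ∑ a, T a b c * w a := ⟨_, rfl⟩
  obtain ⟨N, hN⟩ : ∃ N : Fin d → Fin d → ℝ, N = fun b c => -(sqm A b c + H * A b c) := ⟨_, rfl⟩
  have hMN : ∀ v v' : Fin d → ℝ, dp w v = 0 → dp w v' = 0 → dp v (mv M v') = dp v (mv N v') := by
    intro v v' h1 h2
    have h3 := hB.Tw (WithLp.toLp 2 v) (WithLp.toLp 2 v') (by rw [b2_inner]; exact h1) (by rw [b2_inner]; exact h2)
    simp only [hM, hN, dp, mv, sqm, mul_sum, sum_mul]
    rw [sum_comm, sum_congr rfl fun b _ => sum_comm] at h3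
    refine Eq.trans (sum_congr rfl fun b _ => sum_congr rfl fun c _ => sum_congr rfl fun a _ => by ring)
      (h3.trans ?_)
    simp only [← sum_neg_distrib]
    exact sum_congr rfl fun b _ => sum_congr rfl fun c _ => by ring
  have hNw : dp w (mv N w) = 0 := by
    have e : mv N w = fun i => -(mv (sqm A) w i + H * mv A w i) := by
      funext i
      simp only [hN, mv, mul_sum, ← sum_add_distrib, ← sum_neg_distrib]
      exact sum_congr rfl fun c _ => by ring
    rw [e, aw]
    refine sum_eq_zero fun i _ => ?_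
    simp only [a2w]
    ring
  have hNb : ∀ b, fr N b = -fr (sqm A) b - H * fr A b := fun b => by
    simp only [hN, fr, mul_sum, ← sum_neg_distrib, ← sum_sub_distrib]
    exact sum_congr rfl fun i _ => sum_congr rfl fun k _ => by ring
  have frc : ∀ a b : Fin d → Fin d → ℝ, fr a b = fr b a := fun a b => by simp only [fr, mul_comm]
  have hMw : dp w (mv M w) = fr A A := by
    have h1 := b2_fr (b := dg fun _ => 1) (β := 1) w1 (fun i k => by simp only [dg, eq_comm])
      (fun i => by rw [mv_dg]) hMN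
    have h2 : fr M (dg fun _ => 1) = 0 := by
      simp only [fr_dg, hM, mul_one]
      rw [sum_comm]
      refine sum_eq_zero fun a _ => ?_
      have e : ∀ i, T a i i = T i i a := fun i => (hB.Tsym1 a i i).trans (hB.Tsym2 i a i)
      have e2 : ∑ i, T i i a = 0 := hB.Ttr a
      simp only [e, ← sum_mul, e2, zero_mul]
    have h3 : fr A (dg fun _ => 1) = 0 := by
      simp only [fr_dg, mul_one]
      exact hB.Atr
    have h4 : fr (sqm A) (dg fun _ => 1) = fr A A := by
      simp only [fr_dg, mul_one]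
      exact sum_congr rfl fun i _ => sum_congr rfl fun l _ => by rw [as l i]
    rw [hNb, h2, h3, h4, hNw] at h1
    linarith
  have h1 := b2_fr (b := A) (β := -H) w1 as (congrFun aw) hMN
  have h2 := b2_fr (b := sqm A) (β := H ^ 2) w1 a2s a2w hMN
  rw [hNb, hNw, hMw] at h1 h2
  have htm : ∀ b, dp (tm T b) w = fr M b := fun b => by
    simp only [hM, dp, tm, fr, sum_mul]
    rw [sum_comm, sum_congr rfl fun i _ => sum_comm]
    exact sum_congr rfl fun i _ => sum_congr rfl fun k _ => sum_congr rfl fun l _ => by ring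
  have htv : ∀ c : ℝ, dp (tv T w fun i => c * w i) w = c * fr A A := fun c => by
    rw [← hMw]
    simp only [hM, dp, tv, mv, sum_mul, mul_sum]
    rw [sum_comm, sum_congr rfl fun i _ => sum_comm]
    exact sum_congr rfl fun i _ => sum_congr rfl fun k _ => sum_congr rfl fun l _ => by ring
  have htv1 : dp (tv T w w) w = fr A A := by simpa only [one_mul] using htv 1
  have hx' : dp w x = 0 := hx
  constructor
  · simp only [sv, hx', w1, aw, dpc, dpc']
    congr 5
    · ring
    · congr 1
      ring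
  · funext m
    fin_cases m <;> simp [Xv, htm, htv1, aw, mvc, dpc, htv, w1, -neg_mul, frc (sqm A) A] at h1 h2 ⊢ <;> linarith

/-- the boundary condition in terms of the eigenvalues -/
def Ans.BdD (s : Ans) (n : ℕ) : Prop :=
  ∀ (lam : Fin (n + 1) → ℝ) (k : Fin (n + 1)) (H : ℝ) (y : Fin 6 → ℝ), lam 0 = 0 → ∑ i, lam i = 0 → k ≠ 0 →
    lam k = -H → 0 ≤ H → y = ![pw lam 2, 0, 1, -H, pw lam 3, H ^ 2] →
    0 ≤ H * s.Φ y - s.c 0 y * (pw lam 3 + 2 * H * pw lam 2) + s.c 1 y * pw lam 2 + s.c 2 y - s.c 3 y * H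
      + s.c 4 y * H ^ 2 - s.c 5 y * H ^ 3 - s.c 6 y * (H * pw lam 2)
      + s.c 7 y * (H ^ 2 * pw lam 2 - pw lam 4 - H * pw lam 3)

theorem Ans.bdJ_of_D {s : Ans} {n : ℕ} (h : s.BdD n) : s.BdJ (n + 1) := by
  intro x j hB hj hx hH
  obtain ⟨e1, e2⟩ := bd_flux hB hx
  obtain ⟨U, lam, hU, h0, hUx, ha⟩ := exists_eig hj.x1 hj.as hj.ax
  have p2 : fr j.A j.A = pw lam 2 := by rw [← hU.fr, ha, fr_dg2]
  have p3 : fr j.A (sqm j.A) = pw lam 3 := by rw [← hU.fr, ← hU.sqm, ha, fr_dg3]
  have p4 : fr (sqm j.A) (sqm j.A) = pw lam 4 := by rw [← hU.fr, ← hU.sqm, ha, fr_dg4]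
  have tr : ∑ i, lam i = 0 := by
    have := hU.tr j.A
    rw [ha, hj.atr] at this
    simpa only [dg_self] using this
  obtain ⟨k, hk⟩ : ∃ k, mv U j.w k ≠ 0 := by
    by_contra hc
    push Not at hc
    have h1 := hU.dp j.w j.w
    rw [← b2_inner j.w j.w, real_inner_self_eq_norm_sq, hB.w1] at h1
    simp [dp, hc] at h1
  have hk0 : k ≠ 0 := by
    rintro rfl
    have h1 := hU.dp j.w x
    rw [hx, hUx] at h1
    simp only [dp, e0, mul_ite, mul_one, mul_zero, sum_ite_eq', mem_univ, if_true] at h1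
    exact hk h1
  have hlam : lam k = -j.H := by
    have h1 := congrFun (hU.mv j.A j.w) k
    have aw : mv j.A j.w = fun i => -j.H * j.w i := funext hB.Aw
    rw [ha, mv_dg, aw] at h1
    refine mul_right_cancel₀ hk (h1.trans ?_)
    simp only [mv, mul_sum, mul_left_comm]
  have h1 := h lam k j.H _ h0 tr hk0 hlam hH rfl
  have e3 := fun m => congrFun e2 m
  simp only at e3
  rw [p2, p3] at e1
  simp only [e3, e1, Fin.sum_univ_eight, p2, p3, p4]
  simp only [Matrix.cons_val_zero, Matrix.cons_val_one, Matrix.cons_val]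
  linarith

end Crest.Agent.R97
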