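import Crest.Agent.R97.CertB2

/-! CertB3 (helper87): the diagonal class (no `T(p,·)` fields, coefficients independent of `j`, `q`): the interior condition
splits into one condition per eigendirection.  `R` is any additional a priori constraint on the scalars. -/

set_option autoImplicit false
open Finset

namespace Crest.Agent.R97

/-- `IntJ` under an additional constraint on the scalars -/
def Ans.IntJR (s : Ans) (d : ℕ) (R : (Fin 6 → ℝ) → Prop) : Prop :=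
  ∀ (x p : Fin d → ℝ) (a : Fin d → Fin d → ℝ) (T : Fin d → Fin d → Fin d → ℝ), IJ x p a T → R (sv x p a) →
    0 ≤ s.G x p a T ∧ dp (Cf.gr x p a T s.Φ) (Cf.gr x p a T s.Φ) ≤ 4 * s.Φ (sv x p a) * s.G x p a T

theorem Ans.intJ_of_R {s : Ans} {d : ℕ} (h : s.IntJR d fun _ => True) : s.IntJ d :=
  fun x p a T hj => h x p a T hj trivial

/-- the diagonal class -/
structure Ans.Diag (s : Ans) : Prop where
  c1 : ∀ y, s.c 1 y = 0
  c6 : ∀ y, s.c 6 y = 0
  Φ3 : ∀ y, s.Φ.D 3 y = 0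
  Φ5 : ∀ y, s.Φ.D 5 y = 0
  c3 : ∀ m y, (s.c m).D 3 y = 0
  c5 : ∀ m y, (s.c m).D 5 y = 0

/-- component of the gradient of a coefficient along an eigenvector (`l` eigenvalue, `P = p_k`, `v = T(a)_k`, `w = T(a²)_k`) -/
noncomputable def Cf.gk (c : Cf) (y : Fin 6 → ℝ) (l P v w : ℝ) : ℝ :=
  2 * c.D 0 y * v + c.D 1 y * P + 2 * c.D 2 y * l * P + 3 * c.D 4 y * w

/-- the part of `G` without `T` and `P` (`n = d - 1`, `t4 = tr a⁴`) -/
noncomputable def Ans.G0 (s : Ans) (n : ℕ) (y : Fin 6 → ℝ) (t4 : ℝ) : ℝ :=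
  s.c 0 y * (n * y 0) - s.c 2 y * (n * y 1) + s.c 3 y * y 0 + s.c 4 y * (y 4 - y 1 * y 0)
    + s.c 5 y * (t4 - y 1 * y 4) + s.c 7 y * (n * y 4) - s.Λ * s.Φ y

/-- the part of `G` along one eigenvector, without the `T²` terms of the divergences -/
noncomputable def Ans.Gk (s : Ans) (y : Fin 6 → ℝ) (l P v w : ℝ) : ℝ :=
  s.c 4 y * (v * P) + s.c 5 y * ((l * v + w) * P) + (s.c 0).gk y l P v w * v
    + ((s.c 2).gk y l P v w + l * (s.c 3).gk y l P v w + l ^ 2 * (s.c 4).gk y l P v w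
      + l ^ 3 * (s.c 5).gk y l P v w) * P + (s.c 7).gk y l P v w * w

/-- the `T²` terms along the eigenvector `k`; `x j = T k j j` -/
noncomputable def Wk {d : ℕ} (c0 c7 : ℝ) (lam : Fin d → ℝ) (k : Fin d) (x : Fin d → ℝ) : ℝ :=
  ∑ j, (3 * c0 + 2 * c7 * (lam k + 2 * lam j)) * x j ^ 2 - 2 * (c0 + 2 * c7 * lam k) * x k ^ 2

/-- one condition per eigendirection -/
def Ans.Dir (s : Ans) (n : ℕ) (R : (Fin 6 → ℝ) → Prop) : Prop :=
  ∀ (lam : Fin (n + 1) → ℝ) (y : Fin 6 → ℝ), lam 0 = 0 → ∑ i, lam i = 0 → y 0 = pw lam 2 → y 4 = pw lam 3 →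
    0 < y 1 → y 1 ^ 2 ≤ y 2 → y 2 ≤ 1 → y 0 * y 1 ^ 2 ≤ (n + 1) * (1 - y 2) → 0 ≤ y 5 → R y →
    0 ≤ s.Φ y ∧
    (∀ i j l : Fin (n + 1), i ≠ 0 → j ≠ 0 → l ≠ 0 → i ≠ j → i ≠ l → j ≠ l →
      0 ≤ s.c 0 y + 2 / 3 * s.c 7 y * (lam i + lam j + lam l)) ∧
    ∀ k : Fin (n + 1), k ≠ 0 → ∃ m : ℝ, 0 ≤ s.G0 n y (pw lam 4) + (y 2 - y 1 ^ 2) * m ∧
      ∀ (P : ℝ) (x : Fin (n + 1) → ℝ) (v w : ℝ), x 0 = 0 → ∑ j, x j = 0 → v = ∑ j, x j * lam j →
        w = ∑ j, x j * lam j ^ 2 →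
        0 ≤ Wk (s.c 0 y) (s.c 7 y) lam k x + s.Gk y (lam k) P v w - P ^ 2 * m ∧
        s.Φ.gk y (lam k) P v w ^ 2 ≤
          4 * s.Φ y * (Wk (s.c 0 y) (s.c 7 y) lam k x + s.Gk y (lam k) P v w - P ^ 2 * m)

section
variable {n : ℕ} {p lam : Fin (n + 1) → ℝ} {T : Fin (n + 1) → Fin (n + 1) → Fin (n + 1) → ℝ}

theorem dp_e0 (v : Fin (n + 1) → ℝ) : dp v e0 = v 0 := by
  simp only [dp, e0, mul_ite, mul_one, mul_zero, sum_ite_eq', mem_univ, if_true]

theorem e0_zero : (e0 : Fin (n + 1) → ℝ) 0 = 1 := if_pos rfl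

theorem e0_succ (k : Fin n) : (e0 : Fin (n + 1) → ℝ) k.succ = 0 := if_neg (Fin.succ_ne_zero k)

theorem b3_T0 (h : HJ e0 (dg lam) T) (i j : Fin (n + 1)) : T 0 i j = -dg lam i j := by
  have h1 : dp (T i j) e0 = -dg lam i j := h.Tx i j
  rw [dp_e0] at h1
  rw [h.T1, h.T2, h1]

theorem b3_tm (T : Fin (n + 1) → Fin (n + 1) → Fin (n + 1) → ℝ) (lam : Fin (n + 1) → ℝ) (l : Fin (n + 1)) :
    tm T (dg lam) l = ∑ j, T l j j * lam j := fr_dg (T l) lam

theorem b3_v0 (h : HJ e0 (dg lam) T) : tm T (dg lam) 0 = -pw lam 2 := by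
  simp only [b3_tm, b3_T0 h, dg_self, pw, ← sum_neg_distrib]
  exact sum_congr rfl fun j _ => by ring

theorem b3_w0 (h : HJ e0 (dg lam) T) : tm T (sqm (dg lam)) 0 = -pw lam 3 := by
  simp only [sqm_dg, b3_tm, b3_T0 h, dg_self, pw, ← sum_neg_distrib]
  exact sum_congr rfl fun j _ => by ring

theorem b3_gr (h : HJ e0 (dg lam) T) (h0 : lam 0 = 0) {c : Cf} (h3 : ∀ y, c.D 3 y = 0) (h5 : ∀ y, c.D 5 y = 0)
    (X : Fin (n + 1) → ℝ) : dp (Cf.gr e0 p (dg lam) T c) X = ∑ k : Fin n, c.gk (sv e0 p (dg lam)) (lam k.succ)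
      (p k.succ) (tm T (dg lam) k.succ) (tm T (sqm (dg lam)) k.succ) * X k.succ := by
  have e : Cf.gr e0 p (dg lam) T c 0 = 0 := by
    simp [Cf.gr, Fin.sum_univ_six, h3, h5, gv, b3_v0 h, b3_w0 h, fr_dg2, fr_dg3, e0_zero, dp_e0, mv_dg, h0]
  rw [dp, Fin.sum_univ_succ, e, zero_mul, zero_add]
  refine sum_congr rfl fun k _ => ?_
  congr 1
  simp only [Cf.gr, Fin.sum_univ_six, h3, h5, gv, Cf.gk, Matrix.cons_val_zero, Matrix.cons_val_one, Matrix.cons_val,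
    e0_succ, mv_dg]
  ring

theorem b3_quad (h : HJ e0 (dg lam) T) (h0 : lam 0 = 0) {c0 c7 : ℝ}
    (hoff : ∀ i j l : Fin (n + 1), i ≠ 0 → j ≠ 0 → l ≠ 0 → i ≠ j → i ≠ l → j ≠ l →
      0 ≤ c0 + 2 / 3 * c7 * (lam i + lam j + lam l)) :
    3 * c0 * pw lam 2 + 4 * c7 * pw lam 3 + ∑ k : Fin n, Wk c0 c7 lam k.succ (fun j => T k.succ j j) ≤
      c0 * (∑ i, ∑ j, ∑ l, T i j l ^ 2) + c7 * (2 * ∑ l, ∑ i, ∑ j, ∑ k, T l i j * T l i k * dg lam k j) := by
  obtain ⟨F, hF⟩ : ∃ F : Fin (n + 1) → Fin (n + 1) → Fin (n + 1) → ℝ,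
      F = fun l i j => T l i j ^ 2 * (c0 + 2 / 3 * c7 * (lam l + lam i + lam j)) := ⟨_, rfl⟩
  have e1 : ∑ l, ∑ i, ∑ j, ∑ k, T l i j * T l i k * dg lam k j = ∑ l, ∑ i, ∑ j, T l i j ^ 2 * lam j := by
    simp only [dg, mul_ite, mul_zero, sum_ite_eq', mem_univ, if_true, sq]
  have e2 : ∑ l, ∑ i, ∑ j, T l i j ^ 2 * lam i = ∑ l, ∑ i, ∑ j, T l i j ^ 2 * lam j :=
    sum_congr rfl fun l _ => sum_comm.trans (sum_congr rfl fun i _ => sum_congr rfl fun j _ => by rw [h.T2])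
  have e3 : ∑ l, ∑ i, ∑ j, T l i j ^ 2 * lam l = ∑ l, ∑ i, ∑ j, T l i j ^ 2 * lam i :=
    sum_comm.trans (sum_congr rfl fun l _ => sum_congr rfl fun i _ => sum_congr rfl fun j _ => by rw [h.T1])
  have e4 : ∑ l, ∑ i, ∑ j, F l i j = c0 * (∑ i, ∑ j, ∑ l, T i j l ^ 2)
      + 2 / 3 * c7 * (∑ l, ∑ i, ∑ j, T l i j ^ 2 * lam l + ∑ l, ∑ i, ∑ j, T l i j ^ 2 * lam i
        + ∑ l, ∑ i, ∑ j, T l i j ^ 2 * lam j) := by
    simp only [hF, mul_sum, ← sum_add_distrib]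
    exact sum_congr rfl fun l _ => sum_congr rfl fun i _ => sum_congr rfl fun j _ => by ring
  have s1 : ∀ l i j, F l i j = F i l j := fun l i j => by simp only [hF, h.T1 l i j, add_comm (lam l)]
  have s2 : ∀ l i j, F l i j = F l j i := fun l i j => by simp only [hF, h.T2 l i j, add_right_comm (lam l)]
  have z : ∀ i j, i ≠ j → F 0 i j = 0 := fun i j hij => by simp [hF, b3_T0 h, dg, hij]
  have pt : ∀ l i j, (if i = j then F l j j else 0) + (if l = i then F j l l else 0) + (if l = j then F i l l else 0)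
      - (if l = i then if l = j then 2 * F l l l else 0 else 0) ≤ F l i j := by
    intro l i j
    by_cases h1 : l = i
    · subst h1
      by_cases h2 : l = j
      · subst h2
        simp only [if_true]
        linarith
      · simp only [if_true, if_neg h2]
        rw [s2 l l j, s1 l j l]
        linarith
    · by_cases h2 : l = j
      · subst h2
        simp only [if_true, if_neg h1, if_neg (Ne.symm h1)]
        rw [s1 l i l]
        linarith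
      · by_cases h3 : i = j
        · subst h3
          simp only [if_true, if_neg h1]
          linarith
        · simp only [if_neg h1, if_neg h2, if_neg h3, add_zero, sub_zero]
          by_cases hl : l = 0
          · rw [hl, z i j h3]
          by_cases hi : i = 0
          · rw [s1, hi, z l j h2]
          by_cases hj : j = 0
          · rw [s2, s1, hj, z l i h1]
          rw [hF]
          exact mul_nonneg (sq_nonneg _) (hoff l i j hl hi hj h1 h2 h3)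
  have h1 := sum_le_sum fun l (_ : l ∈ univ) => sum_le_sum fun i (_ : i ∈ univ) => sum_le_sum fun j (_ : j ∈ univ) =>
    pt l i j
  have e5 : ∀ l, ∑ i, ∑ j, (if l = i then F j l l else 0) = ∑ j, F j l l := fun l => by
    rw [sum_comm]
    simp only [sum_ite_eq, mem_univ, if_true]
  have e6 : ∀ l, ∑ i, ∑ j, (if l = i then if l = j then 2 * F l l l else 0 else 0) = 2 * F l l l := fun l => by
    rw [sum_comm]
    simp only [sum_ite_eq, mem_univ, if_true]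
  simp only [sum_add_distrib, sum_sub_distrib, e5, e6, sum_ite_eq, mem_univ, if_true] at h1
  have e7 : ∑ l, ∑ j, F j l l = ∑ l, ∑ j, F l j j := sum_comm
  have e8 : ∀ k, Wk c0 c7 lam k (fun j => T k j j) = 3 * ∑ j, F k j j - 2 * F k k k := fun k => by
    simp only [Wk, hF, mul_sum]
    congr 1
    · exact sum_congr rfl fun j _ => by ring
    · ring
  have e9 : Wk c0 c7 lam 0 (fun j => T 0 j j) = 3 * c0 * pw lam 2 + 4 * c7 * pw lam 3 := by
    simp only [Wk, b3_T0 h, dg_self, h0, pw, mul_sum, ← sum_add_distrib]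
    rw [neg_zero, sq (0 : ℝ), mul_zero, mul_zero, mul_zero, sub_zero]
    exact sum_congr rfl fun j _ => by ring
  have e10 := Fin.sum_univ_succ fun k => Wk c0 c7 lam k fun j => T k j j
  rw [e9] at e10
  rw [← e10, e1]
  simp only [e8, sum_sub_distrib, ← mul_sum] at h1 ⊢
  rw [e7, e4, e3, e2] at h1
  linarith

theorem b3_G {s : Ans} (hs : s.Diag) (h : HJ e0 (dg lam) T) (h0 : lam 0 = 0)
    (hoff : ∀ i j l : Fin (n + 1), i ≠ 0 → j ≠ 0 → l ≠ 0 → i ≠ j → i ≠ l → j ≠ l →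
      0 ≤ s.c 0 (sv e0 p (dg lam)) + 2 / 3 * s.c 7 (sv e0 p (dg lam)) * (lam i + lam j + lam l)) :
    s.G0 n (sv e0 p (dg lam)) (pw lam 4) + ∑ k : Fin n,
      (Wk (s.c 0 (sv e0 p (dg lam))) (s.c 7 (sv e0 p (dg lam))) lam k.succ (fun j => T k.succ j j)
        + s.Gk (sv e0 p (dg lam)) (lam k.succ) (p k.succ) (tm T (dg lam) k.succ) (tm T (sqm (dg lam)) k.succ))
      ≤ s.G e0 p (dg lam) T := by
  have h1 := b3_quad h h0 hoff
  have y0 : sv e0 p (dg lam) 0 = pw lam 2 := fr_dg2 lam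
  have y1 : sv e0 p (dg lam) 1 = p 0 := dp_e0 p
  have y4 : sv e0 p (dg lam) 4 = pw lam 3 := fr_dg3 lam
  have z : ∀ {c : Cf}, (∀ y, c y = 0) → ∀ i y, c.D i y = 0 := fun hc i y => by simp only [Cf.D, hc, deriv_const]
  have g1 : ∀ X, dp (Cf.gr e0 p (dg lam) T (s.c 1)) X = 0 := fun X => by simp [dp, Cf.gr, z hs.c1]
  have g6 : ∀ X, dp (Cf.gr e0 p (dg lam) T (s.c 6)) X = 0 := fun X => by simp [dp, Cf.gr, z hs.c6]
  have d4 : dp (tm T (dg lam)) p = -pw lam 2 * p 0 + ∑ k : Fin n, tm T (dg lam) k.succ * p k.succ := by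
    rw [dp, Fin.sum_univ_succ, b3_v0 h]
  have d5 : dp (tm T (dg lam)) (fun i => lam i * p i)
      = ∑ k : Fin n, tm T (dg lam) k.succ * (lam k.succ * p k.succ) := by
    rw [dp, Fin.sum_univ_succ, h0, zero_mul, mul_zero, zero_add]
  have d6 : dp (tm T (sqm (dg lam))) p = -pw lam 3 * p 0 + ∑ k : Fin n, tm T (sqm (dg lam)) k.succ * p k.succ := by
    rw [dp, Fin.sum_univ_succ, b3_w0 h]
  obtain ⟨y, hy⟩ : ∃ y, y = sv e0 p (dg lam) := ⟨_, rfl⟩
  have gr := fun m => b3_gr (p := p) h h0 (hs.c3 m) (hs.c5 m)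
  rw [Ans.G, Fin.sum_univ_eight, g1, g6, gr 0, gr 2, gr 3, gr 4, gr 5, gr 7, hs.c1, hs.c6, Ans.G0, y0, y1, y4]
  simp only [dX, Xv, Matrix.cons_val_zero, Matrix.cons_val_one, Matrix.cons_val, fr_dg2, fr_dg3, fr_dg4, dp_e0, mv_dg,
    d4, d5, d6, ← hy] at h1 ⊢
  have e : ∑ k : Fin n, s.Gk y (lam k.succ) (p k.succ) (tm T (dg lam) k.succ) (tm T (sqm (dg lam)) k.succ) =
      s.c 4 y * ∑ k : Fin n, tm T (dg lam) k.succ * p k.succ
      + s.c 5 y * (∑ k : Fin n, tm T (dg lam) k.succ * (lam k.succ * p k.succ)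
        + ∑ k : Fin n, tm T (sqm (dg lam)) k.succ * p k.succ)
      + ∑ k : Fin n, (s.c 0).gk y (lam k.succ) (p k.succ) (tm T (dg lam) k.succ) (tm T (sqm (dg lam)) k.succ)
        * tm T (dg lam) k.succ
      + ∑ k : Fin n, (s.c 2).gk y (lam k.succ) (p k.succ) (tm T (dg lam) k.succ) (tm T (sqm (dg lam)) k.succ)
        * p k.succ
      + ∑ k : Fin n, (s.c 3).gk y (lam k.succ) (p k.succ) (tm T (dg lam) k.succ) (tm T (sqm (dg lam)) k.succ)
        * (lam k.succ * p k.succ)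
      + ∑ k : Fin n, (s.c 4).gk y (lam k.succ) (p k.succ) (tm T (dg lam) k.succ) (tm T (sqm (dg lam)) k.succ)
        * (lam k.succ * (lam k.succ * p k.succ))
      + ∑ k : Fin n, (s.c 5).gk y (lam k.succ) (p k.succ) (tm T (dg lam) k.succ) (tm T (sqm (dg lam)) k.succ)
        * (lam k.succ * (lam k.succ * (lam k.succ * p k.succ)))
      + ∑ k : Fin n, (s.c 7).gk y (lam k.succ) (p k.succ) (tm T (dg lam) k.succ) (tm T (sqm (dg lam)) k.succ)
        * tm T (sqm (dg lam)) k.succ := by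
    simp only [mul_sum, ← sum_add_distrib, Ans.Gk]
    exact sum_congr rfl fun k _ => by ring
  rw [sum_add_distrib, e]
  push_cast
  linarith

end

theorem Ans.intJR_of_dir {s : Ans} {n : ℕ} {R : (Fin 6 → ℝ) → Prop} (hn : 1 ≤ n) (hs : s.Diag) (h : s.Dir n R) :
    s.IntJR (n + 1) R := by
  intro x p a T hj hR
  obtain ⟨U, lam, hU, h0, hx, ha⟩ := exists_eig hj.x1 hj.as hj.ax
  have h1 := hU.IJ hj
  have e1 := hU.G x p a T s
  have e2 := hU.gr x p a T s.Φ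
  have e3 := hU.sv x p a
  rw [hx, ha] at h1 e1 e2 e3
  rw [← e3] at hR
  rw [← e1, ← e3, ← hU.dp, ← e2]
  generalize mv U p = p at h1 hR ⊢
  generalize rt U T = T at h1 ⊢
  have y1 : sv e0 p (dg lam) 1 = p 0 := dp_e0 p
  have y2 : sv e0 p (dg lam) 2 = p 0 ^ 2 + ∑ k : Fin n, p k.succ ^ 2 := by
    change dp p p = _
    simp only [dp, Fin.sum_univ_succ, sq]
  have hσ : 0 ≤ ∑ k : Fin n, p k.succ ^ 2 := sum_nonneg fun _ _ => sq_nonneg _
  obtain ⟨hΦ, hoff, hdir⟩ := h lam (sv e0 p (dg lam)) h0 (by simpa only [dg_self] using h1.atr) (fr_dg2 lam)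
    (fr_dg3 lam) h1.pos (by rw [y1, y2]; linarith) h1.le1 (by exact_mod_cast h1.hb) (dp_self_nonneg _) hR
  have hG := b3_G hs h1.toHJ h0 hoff
  choose m hm hk using fun k : Fin n => hdir k.succ (Fin.succ_ne_zero k)
  have hk' := fun k : Fin n => hk k (p k.succ) (fun j => T k.succ j j) (tm T (dg lam) k.succ)
    (tm T (sqm (dg lam)) k.succ)
    (by rw [h1.T1, h1.T2, ← h1.T2, b3_T0 h1.toHJ, dg, if_neg (Fin.succ_ne_zero k), neg_zero])
    (by rw [← h1.Ttr k.succ]; exact sum_congr rfl fun j _ => by rw [h1.T1, h1.T2])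
    (b3_tm T lam _) (by rw [sqm_dg, b3_tm])
  rw [y1, y2, add_sub_cancel_left] at hm
  obtain ⟨G0, hG0⟩ : ∃ G0, G0 = s.G0 n (sv e0 p (dg lam)) (pw lam 4) := ⟨_, rfl⟩
  rw [← hG0] at hm hG
  have hm0 : 0 ≤ G0 + ∑ k : Fin n, p k.succ ^ 2 * m k := by
    rcases hσ.eq_or_lt with h2 | h2
    · have h3 := hm ⟨0, hn⟩
      have h4 : ∀ k : Fin n, p k.succ ^ 2 = 0 := fun k =>
        (sum_eq_zero_iff_of_nonneg fun _ _ => sq_nonneg _).1 h2.symm k (mem_univ k)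
      simp only [h4, zero_mul, sum_const_zero] at h3 ⊢
      exact h3
    · have h3 := sum_nonneg fun k (_ : k ∈ univ) => mul_nonneg (sq_nonneg (p k.succ)) (hm k)
      refine nonneg_of_mul_nonneg_right (le_of_le_of_eq h3 ?_) h2 |>.trans_eq rfl
      simp only [mul_add, sum_add_distrib, ← sum_mul, mul_left_comm _ (∑ k : Fin n, p k.succ ^ 2), ← mul_sum]
  have h5 := sum_nonneg fun k (_ : k ∈ univ) => (hk' k).1
  have h6 := sum_le_sum fun k (_ : k ∈ univ) => (hk' k).2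
  rw [← mul_sum] at h6
  rw [sum_sub_distrib] at h5 h6
  refine ⟨by linarith, ?_⟩
  rw [b3_gr h1.toHJ h0 hs.Φ3 hs.Φ5]
  have e4 : ∀ k : Fin n, Cf.gr e0 p (dg lam) T s.Φ k.succ = s.Φ.gk (sv e0 p (dg lam)) (lam k.succ)
      (p k.succ) (tm T (dg lam) k.succ) (tm T (sqm (dg lam)) k.succ) := fun k => by
    have := b3_gr (p := p) h1.toHJ h0 hs.Φ3 hs.Φ5 fun i => if i = k.succ then 1 else 0
    simpa only [dp, mul_ite, mul_one, mul_zero, sum_ite_eq', mem_univ, if_true, Fin.succ_inj] using this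
  simp only [e4, ← sq]
  exact h6.trans (mul_le_mul_of_nonneg_left (by linarith) (by linarith))

end Crest.Agent.R97
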