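import Crest.Agent.R97.CertB3

/-! CertB4 (helper87): the reductions of CertB2, CertB3 under a priori constraints on the eigenvalues (`Cvx`: `u a + (1-S)/2 ≥ 0`),
and the elimination of `T` by the Gram matrix of `T(a)`, `T(a²)` when `c 7 = 0`. -/

set_option autoImplicit false
open Finset

namespace Crest.Agent.R97

/-- `u a + (1 - S)/2 ≥ 0` -/
def Cvx {d : ℕ} (x p : Fin d → ℝ) (a : Fin d → Fin d → ℝ) : Prop :=
  ∀ e : Fin d → ℝ, 0 ≤ dp p x * dp e (mv a e) + (1 - dp p p) / 2 * dp e e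

/-- `a + H ≥ 0` on the boundary -/
def CvxB {d : ℕ} (H : ℝ) (a : Fin d → Fin d → ℝ) : Prop := ∀ e : Fin d → ℝ, 0 ≤ dp e (mv a e) + H * dp e e

/-- eigenvalues are values of the quadratic form at unit vectors -/
theorem eig_val {d : ℕ} {U a : Fin d → Fin d → ℝ} {lam : Fin d → ℝ} (hU : Orth U) (ha : rm U a = dg lam) (i : Fin d) :
    dp (U i) (U i) = 1 ∧ dp (U i) (mv a (U i)) = lam i := by
  constructor
  · have := hU.row i i
    rwa [if_pos rfl] at this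
  · have := congrFun (congrFun ha i) i
    rw [dg_self] at this
    rw [← this]
    simp only [rm, mv, dp, mul_comm (U i _)]

/-- `IntJ` under `Cvx` and an additional constraint on the scalars -/
def Ans.IntJC (s : Ans) (d : ℕ) (R : (Fin 6 → ℝ) → Prop) : Prop :=
  ∀ (x p : Fin d → ℝ) (a : Fin d → Fin d → ℝ) (T : Fin d → Fin d → Fin d → ℝ), IJ x p a T → Cvx x p a →
    R (sv x p a) →
    0 ≤ s.G x p a T ∧ dp (Cf.gr x p a T s.Φ) (Cf.gr x p a T s.Φ) ≤ 4 * s.Φ (sv x p a) * s.G x p a T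

/-- `BdJ` under `CvxB` -/
def Ans.BdJC (s : Ans) (d : ℕ) : Prop :=
  ∀ (x : Fin d → ℝ) (j : Jet d), j.IsB → HJ x j.A j.T → dp j.w x = 0 → 0 ≤ j.H → CvxB j.H j.A →
    0 ≤ j.H * s.Φ (sv x j.w j.A) + ∑ m, s.c m (sv x j.w j.A) * dp (Xv j.w j.A j.T m) j.w

/-- the boundary condition in terms of the eigenvalues, all `≥ -H` -/
def Ans.BdDC (s : Ans) (n : ℕ) : Prop :=
  ∀ (lam : Fin (n + 1) → ℝ) (k : Fin (n + 1)) (H : ℝ) (y : Fin 6 → ℝ), lam 0 = 0 → ∑ i, lam i = 0 → k ≠ 0 →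
    lam k = -H → 0 ≤ H → (∀ i, -H ≤ lam i) → y = ![pw lam 2, 0, 1, -H, pw lam 3, H ^ 2] →
    0 ≤ H * s.Φ y - s.c 0 y * (pw lam 3 + 2 * H * pw lam 2) + s.c 1 y * pw lam 2 + s.c 2 y - s.c 3 y * H
      + s.c 4 y * H ^ 2 - s.c 5 y * H ^ 3 - s.c 6 y * (H * pw lam 2)
      + s.c 7 y * (H ^ 2 * pw lam 2 - pw lam 4 - H * pw lam 3)

theorem Ans.bdJC_of_D {s : Ans} {n : ℕ} (h : s.BdDC n) : s.BdJC (n + 1) := by
  intro x j hB hj hx hH hC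
  obtain ⟨e1, e2⟩ := bd_flux hB hx
  obtain ⟨U, lam, hU, h0, hUx, ha⟩ := exists_eig hj.x1 hj.as hj.ax
  have p2 : fr j.A j.A = pw lam 2 := by rw [← hU.fr, ha, fr_dg2]
  have p3 : fr j.A (sqm j.A) = pw lam 3 := by rw [← hU.fr, ← hU.sqm, ha, fr_dg3]
  have p4 : fr (sqm j.A) (sqm j.A) = pw lam 4 := by rw [← hU.fr, ← hU.sqm, ha, fr_dg4]
  have tr : ∑ i, lam i = 0 := by
    have := hU.tr j.A
    rw [ha, hj.atr] at this
    simpa only [dg_self] using this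
  obtain ⟨k, hk⟩ : ∃ k, mv U j.w k ≠ 0 := by
    by_contra hc
    push Not at hc
    have h1 := hU.dp j.w j.w
    rw [← b2_inner j.w j.w, real_inner_self_eq_norm_sq, hB.w1] at h1
    simp [dp, hc] at h1
  have hk0 : k ≠ 0 := by
    rintro rfl
    have h1 := hU.dp j.w x
    rw [hx, hUx] at h1
    simp only [dp, e0, mul_ite, mul_one, mul_zero, sum_ite_eq', mem_univ, if_true] at h1
    exact hk h1
  have hlam : lam k = -j.H := by
    have h1 := congrFun (hU.mv j.A j.w) k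
    have aw : mv j.A j.w = fun i => -j.H * j.w i := funext hB.Aw
    rw [ha, mv_dg, aw] at h1
    refine mul_right_cancel₀ hk (h1.trans ?_)
    simp only [mv, mul_sum, mul_left_comm]
  have hlo : ∀ i, -j.H ≤ lam i := fun i => by
    have h1 := hC (U i)
    rw [(eig_val hU ha i).1, (eig_val hU ha i).2] at h1
    linarith
  have h1 := h lam k j.H _ h0 tr hk0 hlam hH hlo rfl
  have e3 := fun m => congrFun e2 m
  rw [p2, p3] at e1
  simp only [e3, e1, Fin.sum_univ_eight, p2, p3, p4]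
  simp only [Matrix.cons_val_zero, Matrix.cons_val_one, Matrix.cons_val]
  linarith

/-- one condition per eigendirection, under `Cvx` -/
def Ans.DirC (s : Ans) (n : ℕ) (R : (Fin 6 → ℝ) → Prop) : Prop :=
  ∀ (lam : Fin (n + 1) → ℝ) (y : Fin 6 → ℝ), lam 0 = 0 → ∑ i, lam i = 0 → y 0 = pw lam 2 → y 4 = pw lam 3 →
    0 < y 1 → y 1 ^ 2 ≤ y 2 → y 2 ≤ 1 → y 0 * y 1 ^ 2 ≤ (n + 1) * (1 - y 2) → 0 ≤ y 5 → R y →
    (∀ i, 0 ≤ y 1 * lam i + (1 - y 2) / 2) →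
    0 ≤ s.Φ y ∧
    (∀ i j l : Fin (n + 1), i ≠ 0 → j ≠ 0 → l ≠ 0 → i ≠ j → i ≠ l → j ≠ l →
      0 ≤ s.c 0 y + 2 / 3 * s.c 7 y * (lam i + lam j + lam l)) ∧
    ∀ k : Fin (n + 1), k ≠ 0 → ∃ m : ℝ, 0 ≤ s.G0 n y (pw lam 4) + (y 2 - y 1 ^ 2) * m ∧
      ∀ (P : ℝ) (x : Fin (n + 1) → ℝ) (v w : ℝ), x 0 = 0 → ∑ j, x j = 0 → v = ∑ j, x j * lam j →
        w = ∑ j, x j * lam j ^ 2 →
        0 ≤ Wk (s.c 0 y) (s.c 7 y) lam k x + s.Gk y (lam k) P v w - P ^ 2 * m ∧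
        s.Φ.gk y (lam k) P v w ^ 2 ≤
          4 * s.Φ y * (Wk (s.c 0 y) (s.c 7 y) lam k x + s.Gk y (lam k) P v w - P ^ 2 * m)

theorem Ans.intJC_of_dir {s : Ans} {n : ℕ} {R : (Fin 6 → ℝ) → Prop} (hn : 1 ≤ n) (hs : s.Diag) (h : s.DirC n R) :
    s.IntJC (n + 1) R := by
  intro x p a T hj hC hR
  obtain ⟨U, lam, hU, h0, hx, ha⟩ := exists_eig hj.x1 hj.as hj.ax
  have h1 := hU.IJ hj
  have e1 := hU.G x p a T s
  have e2 := hU.gr x p a T s.Φ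
  have e3 := hU.sv x p a
  have hlo : ∀ i, 0 ≤ sv x p a 1 * lam i + (1 - sv x p a 2) / 2 := fun i => by
    have h2 := hC (U i)
    rwa [(eig_val hU ha i).1, (eig_val hU ha i).2, mul_one] at h2
  rw [hx, ha] at h1 e1 e2 e3
  rw [← e3] at hR hlo
  rw [← e1, ← e3, ← hU.dp, ← e2]
  generalize mv U p = p at h1 hR hlo ⊢
  generalize rt U T = T at h1 ⊢
  have y1 : sv e0 p (dg lam) 1 = p 0 := dp_e0 p
  have y2 : sv e0 p (dg lam) 2 = p 0 ^ 2 + ∑ k : Fin n, p k.succ ^ 2 := by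
    change dp p p = _
    simp only [dp, Fin.sum_univ_succ, sq]
  have hσ : 0 ≤ ∑ k : Fin n, p k.succ ^ 2 := sum_nonneg fun _ _ => sq_nonneg _
  obtain ⟨hΦ, hoff, hdir⟩ := h lam (sv e0 p (dg lam)) h0 (by simpa only [dg_self] using h1.atr) (fr_dg2 lam)
    (fr_dg3 lam) h1.pos (by rw [y1, y2]; linarith) h1.le1 (by exact_mod_cast h1.hb) (dp_self_nonneg _) hR hlo
  have hG := b3_G hs h1.toHJ h0 hoff
  choose m hm hk using fun k : Fin n => hdir k.succ (Fin.succ_ne_zero k)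
  have hk' := fun k : Fin n => hk k (p k.succ) (fun j => T k.succ j j) (tm T (dg lam) k.succ)
    (tm T (sqm (dg lam)) k.succ)
    (by rw [h1.T1, h1.T2, ← h1.T2, b3_T0 h1.toHJ, dg, if_neg (Fin.succ_ne_zero k), neg_zero])
    (by rw [← h1.Ttr k.succ]; exact sum_congr rfl fun j _ => by rw [h1.T1, h1.T2])
    (b3_tm T lam _) (by rw [sqm_dg, b3_tm])
  rw [y1, y2, add_sub_cancel_left] at hm
  obtain ⟨G0, hG0⟩ : ∃ G0, G0 = s.G0 n (sv e0 p (dg lam)) (pw lam 4) := ⟨_, rfl⟩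
  rw [← hG0] at hm hG
  have hm0 : 0 ≤ G0 + ∑ k : Fin n, p k.succ ^ 2 * m k := by
    rcases hσ.eq_or_lt with h2 | h2
    · have h3 := hm ⟨0, hn⟩
      have h4 : ∀ k : Fin n, p k.succ ^ 2 = 0 := fun k =>
        (sum_eq_zero_iff_of_nonneg fun _ _ => sq_nonneg _).1 h2.symm k (mem_univ k)
      simp only [h4, zero_mul, sum_const_zero] at h3 ⊢
      exact h3
    · have h3 := sum_nonneg fun k (_ : k ∈ univ) => mul_nonneg (sq_nonneg (p k.succ)) (hm k)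
      refine nonneg_of_mul_nonneg_right (le_of_le_of_eq h3 ?_) h2 |>.trans_eq rfl
      simp only [mul_add, sum_add_distrib, ← sum_mul, mul_left_comm _ (∑ k : Fin n, p k.succ ^ 2), ← mul_sum]
  have h5 := sum_nonneg fun k (_ : k ∈ univ) => (hk' k).1
  have h6 := sum_le_sum fun k (_ : k ∈ univ) => (hk' k).2
  rw [← mul_sum] at h6
  rw [sum_sub_distrib] at h5 h6
  refine ⟨by linarith, ?_⟩
  rw [b3_gr h1.toHJ h0 hs.Φ3 hs.Φ5]
  have e4 : ∀ k : Fin n, Cf.gr e0 p (dg lam) T s.Φ k.succ = s.Φ.gk (sv e0 p (dg lam)) (lam k.succ)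
      (p k.succ) (tm T (dg lam) k.succ) (tm T (sqm (dg lam)) k.succ) := fun k => by
    have := b3_gr (p := p) h1.toHJ h0 hs.Φ3 hs.Φ5 fun i => if i = k.succ then 1 else 0
    simpa only [dp, mul_ite, mul_one, mul_zero, sum_ite_eq', mem_univ, if_true, Fin.succ_inj] using this
  simp only [e4, ← sq]
  exact h6.trans (mul_le_mul_of_nonneg_left (by linarith) (by linarith))

/-- Gram matrix of `T ↦ T(a)_k`, `T ↦ T(a²)_k` (`l` the eigenvalue, `n = d - 1`) -/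
noncomputable def g11 (n : ℕ) (om l : ℝ) : ℝ := om / 3 + 2 * n / (3 * (n + 2)) * l ^ 2
noncomputable def g12 (n : ℕ) (om t3 l : ℝ) : ℝ := t3 / 3 + 2 * n / (3 * (n + 2)) * l ^ 3 - 2 * l * om / (3 * (n + 2))
noncomputable def g22 (n : ℕ) (om t4 l : ℝ) : ℝ := t4 / 3 + 2 / 3 * l ^ 4 - (om + 2 * l ^ 2) ^ 2 / (3 * (n + 2))

/-- Cauchy–Schwarz along one eigendirection -/
theorem gram {n : ℕ} {lam x : Fin (n + 1) → ℝ} {k : Fin (n + 1)} (h0 : lam 0 = 0) (tr : ∑ i, lam i = 0) (hk : k ≠ 0)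
    (x0 : x 0 = 0) (xs : ∑ j, x j = 0) (α β : ℝ) :
    2 * (α * ∑ j, x j * lam j + β * ∑ j, x j * lam j ^ 2) - (α ^ 2 * g11 n (pw lam 2) (lam k)
      + 2 * α * β * g12 n (pw lam 2) (pw lam 3) (lam k) + β ^ 2 * g22 n (pw lam 2) (pw lam 4) (lam k))
      ≤ Wk 1 0 lam k x := by
  obtain ⟨θ, hθ⟩ : ∃ θ : ℝ, θ = (2 * α * lam k + β * (pw lam 2 + 2 * lam k ^ 2)) / (n + 2) := ⟨_, rfl⟩
  obtain ⟨f, hf⟩ : ∃ f : Fin (n + 1) → ℝ, f = fun j => α * lam j + β * lam j ^ 2 - θ := ⟨_, rfl⟩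
  have h1 : ∀ j, 0 ≤ 3 * x j ^ 2 - 2 * (f j * x j) + f j ^ 2 / 3
      - (if j = k then 2 * x k ^ 2 - 2 / 3 * f k ^ 2 else 0) - (if j = 0 then θ ^ 2 / 3 else 0) := by
    intro j
    by_cases hj : j = k
    · rw [if_pos hj, if_neg (hj ▸ hk), hj]
      nlinarith [sq_nonneg (x k - f k)]
    · rw [if_neg hj]
      by_cases hj0 : j = 0
      · rw [if_pos hj0, hj0, x0, hf]
        simp only [h0]
        nlinarith
      · rw [if_neg hj0]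
        nlinarith [sq_nonneg (3 * x j - f j)]
  have h2 := sum_nonneg fun j (_ : j ∈ univ) => h1 j
  have e1 : ∑ j, f j * x j = α * ∑ j, x j * lam j + β * ∑ j, x j * lam j ^ 2 - θ * ∑ j, x j := by
    simp only [hf, mul_sum, ← sum_add_distrib, ← sum_sub_distrib]
    exact sum_congr rfl fun j _ => by ring
  have e2 : ∑ j, f j ^ 2 = α ^ 2 * pw lam 2 + 2 * α * β * pw lam 3 + β ^ 2 * pw lam 4 - 2 * θ * β * pw lam 2
      - 2 * θ * α * ∑ j, lam j + ∑ _j : Fin (n + 1), θ ^ 2 := by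
    simp only [hf, pw, mul_sum, ← sum_add_distrib, ← sum_sub_distrib]
    exact sum_congr rfl fun j _ => by ring
  rw [tr, sum_const, card_univ, Fintype.card_fin, nsmul_eq_mul] at e2
  simp only [sum_sub_distrib, sum_add_distrib, sum_ite_eq', mem_univ, if_true, ← mul_sum, ← sum_div, e1, e2, xs] at h2
  have e3 : Wk 1 0 lam k x = 3 * ∑ j, x j ^ 2 - 2 * x k ^ 2 := by simp [Wk, mul_sum]
  have e4 : α ^ 2 * g11 n (pw lam 2) (lam k) + 2 * α * β * g12 n (pw lam 2) (pw lam 3) (lam k)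
      + β ^ 2 * g22 n (pw lam 2) (pw lam 4) (lam k) = (α ^ 2 * pw lam 2 + 2 * α * β * pw lam 3 + β ^ 2 * pw lam 4
        - 2 * θ * β * pw lam 2 - 2 * θ * α * 0 + ((n + 1 : ℕ) : ℝ) * θ ^ 2) / 3 + 2 / 3 * f k ^ 2 - θ ^ 2 / 3 := by
    simp only [hf, hθ, g11, g12, g22]
    push_cast
    field_simp
    ring
  rw [e3, e4]
  linarith

theorem Wk_mul {d : ℕ} (c0 : ℝ) (lam : Fin d → ℝ) (k : Fin d) (x : Fin d → ℝ) :
    Wk c0 0 lam k x = c0 * Wk 1 0 lam k x := by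
  simp only [Wk, mul_sub, mul_sum]
  congr 1
  · exact sum_congr rfl fun j _ => by ring
  · ring

/-- the scalar condition: `Q ≥` the Gram bound.  All eigenvalue information is in `om, t3, t4, l` and `E`. -/
def Ans.Sc (s : Ans) (n : ℕ) (R : (Fin 6 → ℝ) → Prop) : Prop :=
  ∀ (lam : Fin (n + 1) → ℝ) (y : Fin 6 → ℝ) (k : Fin (n + 1)), k ≠ 0 → lam 0 = 0 → ∑ i, lam i = 0 → y 0 = pw lam 2 →
    y 4 = pw lam 3 → 0 < y 1 → y 1 ^ 2 ≤ y 2 → y 2 ≤ 1 → y 0 * y 1 ^ 2 ≤ (n + 1) * (1 - y 2) → 0 ≤ y 5 → R y →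
    (∀ i, 0 ≤ y 1 * lam i + (1 - y 2) / 2) →
    0 ≤ s.Φ y ∧ 0 ≤ s.c 0 y ∧ ∃ m : ℝ, 0 ≤ s.G0 n y (pw lam 4) + (y 2 - y 1 ^ 2) * m ∧
      ∀ P v w Q : ℝ, (∀ α β : ℝ, 2 * (α * v + β * w) - (α ^ 2 * g11 n (y 0) (lam k)
          + 2 * α * β * g12 n (y 0) (y 4) (lam k) + β ^ 2 * g22 n (y 0) (pw lam 4) (lam k)) ≤ Q) →
        0 ≤ s.c 0 y * Q + s.Gk y (lam k) P v w - P ^ 2 * m ∧
        s.Φ.gk y (lam k) P v w ^ 2 ≤ 4 * s.Φ y * (s.c 0 y * Q + s.Gk y (lam k) P v w - P ^ 2 * m)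

theorem Ans.dirC_of_sc {s : Ans} {n : ℕ} {R : (Fin 6 → ℝ) → Prop} (hn : 1 ≤ n) (h7 : ∀ y, s.c 7 y = 0)
    (h : s.Sc n R) : s.DirC n R := by
  intro lam y h0 tr y0 y4 h1 h2 h3 h4 h5 hR hC
  have k1 : (⟨1, by omega⟩ : Fin (n + 1)) ≠ 0 := by simp [Fin.ext_iff]
  obtain ⟨hΦ, hc, -⟩ := h lam y _ k1 h0 tr y0 y4 h1 h2 h3 h4 h5 hR hC
  refine ⟨hΦ, fun _ _ _ _ _ _ _ _ _ => by rw [h7]; linarith, fun k hk => ?_⟩
  obtain ⟨-, -, m, hm, hq⟩ := h lam y k hk h0 tr y0 y4 h1 h2 h3 h4 h5 hR hC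
  refine ⟨m, hm, fun P x v w x0 xs hv hw => ?_⟩
  rw [h7, Wk_mul]
  refine hq P v w _ fun α β => ?_
  rw [hv, hw, y0, y4]
  exact gram h0 tr hk x0 xs α β

theorem Ans.intJC_of_sc {s : Ans} {n : ℕ} {R : (Fin 6 → ℝ) → Prop} (hn : 1 ≤ n) (hs : s.Diag) (h7 : ∀ y, s.c 7 y = 0)
    (h : s.Sc n R) : s.IntJC (n + 1) R := Ans.intJC_of_dir hn hs (Ans.dirC_of_sc hn h7 h)

end Crest.Agent.R97
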