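import Crest.Agent.R97.CertB4

/-! CertB5 (helper87): elimination of `T` when `c 7 ≠ 0` (weighted Gram matrix) and the scalar (determinant) form of the
condition along one eigendirection. -/

set_option autoImplicit false
open Finset Filter Topology

namespace Crest.Agent.R97

theorem q3_pd {K1 K2 K3 b1 b2 : ℝ} (h1 : 0 < K1) (hd : 0 < K1 * K3 - K2 ^ 2) (v w P : ℝ) :
    0 ≤ K1 * v ^ 2 + 2 * K2 * v * w + K3 * w ^ 2 + 2 * P * (b1 * v + b2 * w)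
      + (K3 * b1 ^ 2 - 2 * K2 * b1 * b2 + K1 * b2 ^ 2) / (K1 * K3 - K2 ^ 2) * P ^ 2 := by
  obtain ⟨D, hD⟩ : ∃ D, D = K1 * K3 - K2 ^ 2 := ⟨_, rfl⟩
  rw [← hD] at hd ⊢
  have e : K1 * v ^ 2 + 2 * K2 * v * w + K3 * w ^ 2 + 2 * P * (b1 * v + b2 * w)
      + (K3 * b1 ^ 2 - 2 * K2 * b1 * b2 + K1 * b2 ^ 2) / D * P ^ 2
      = ((K1 * (D * v + P * (K3 * b1 - K2 * b2)) + K2 * (D * w + P * (K1 * b2 - K2 * b1))) ^ 2
        + D * (D * w + P * (K1 * b2 - K2 * b1)) ^ 2) / (K1 * D ^ 2) := by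
    field_simp
    rw [hD]
    ring
  rw [e]
  positivity

/-- `tr (Γ M)` -/
def qT (A B C M1 M2 M3 : ℝ) : ℝ := A * M1 + 2 * B * M2 + C * M3
/-- `det (1 + Γ M)` -/
def qD (A B C M1 M2 M3 : ℝ) : ℝ := 1 + qT A B C M1 M2 M3 + (A * C - B ^ 2) * (M1 * M3 - M2 ^ 2)
/-- `b · (Γ + det Γ adj M) b` -/
def qN (A B C M1 M2 M3 b1 b2 : ℝ) : ℝ :=
  A * b1 ^ 2 + 2 * B * b1 * b2 + C * b2 ^ 2 + (A * C - B ^ 2) * (M3 * b1 ^ 2 - 2 * M2 * b1 * b2 + M1 * b2 ^ 2)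

theorem quad_pd {A B C M1 M2 M3 v w Q : ℝ} (b1 b2 P : ℝ) (hA : 0 < A) (hd : 0 < A * C - B ^ 2)
    (hQ : ∀ α β : ℝ, 2 * (α * v + β * w) - (α ^ 2 * A + 2 * α * β * B + β ^ 2 * C) ≤ Q)
    (h1 : 0 < qD A B C M1 M2 M3) (h2 : 0 < 2 + qT A B C M1 M2 M3) :
    0 ≤ Q + (M1 * v ^ 2 + 2 * M2 * v * w + M3 * w ^ 2) + 2 * P * (b1 * v + b2 * w)
      + qN A B C M1 M2 M3 b1 b2 / qD A B C M1 M2 M3 * P ^ 2 := by
  obtain ⟨D, hD⟩ : ∃ D, D = A * C - B ^ 2 := ⟨_, rfl⟩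
  have hd' : 0 < D := hD ▸ hd
  have hC : 0 < C := by nlinarith [sq_nonneg B]
  have e1 : (C / D + M1) * (A / D + M3) - (-B / D + M2) ^ 2 = qD A B C M1 M2 M3 / D := by
    simp only [qD, qT, ← hD]
    field_simp
    rw [hD]
    ring
  have e2 : A * (C / D + M1) + 2 * B * (-B / D + M2) + C * (A / D + M3) = 2 + qT A B C M1 M2 M3 := by
    simp only [qT]
    field_simp
    rw [hD]
    ring
  have k0 : 0 < (C / D + M1) * (A / D + M3) - (-B / D + M2) ^ 2 := by rw [e1]; positivity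
  have k1 : 0 < C / D + M1 := by
    rw [← e2] at h2
    generalize C / D + M1 = K1 at *
    generalize A / D + M3 = K3 at *
    generalize -B / D + M2 = K2 at *
    by_contra hn
    have hn : K1 ≤ 0 := not_lt.1 hn
    have hn' : K1 < 0 := lt_of_le_of_ne hn fun h => by rw [h] at k0; nlinarith [sq_nonneg K2]
    have : 0 < (-K1) * A * (A * K1 + 2 * B * K2 + C * K3) := mul_pos (mul_pos (by linarith) hA) h2
    nlinarith [sq_nonneg (A * K1 + B * K2), mul_pos hd k0, mul_nonneg hd.le (sq_nonneg K2), mul_pos (mul_pos hA hC) k0]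
  have h3 := q3_pd (b1 := b1) (b2 := b2) k1 k0 v w P
  have h4 := hQ ((C * v - B * w) / D) ((A * w - B * v) / D)
  have e3 : 2 * ((C * v - B * w) / D * v + (A * w - B * v) / D * w) - (((C * v - B * w) / D) ^ 2 * A
      + 2 * ((C * v - B * w) / D) * ((A * w - B * v) / D) * B + ((A * w - B * v) / D) ^ 2 * C)
      = C / D * v ^ 2 + 2 * (-B / D) * v * w + A / D * w ^ 2 := by
    field_simp
    rw [hD]
    ring
  have e4 : ((A / D + M3) * b1 ^ 2 - 2 * (-B / D + M2) * b1 * b2 + (C / D + M1) * b2 ^ 2) / (qD A B C M1 M2 M3 / D)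
      = qN A B C M1 M2 M3 b1 b2 / qD A B C M1 M2 M3 := by
    simp only [qN, ← hD]
    field_simp
    ring
  rw [e1, e4] at h3
  rw [e3] at h4
  nlinarith

/-- the determinant criterion, for a positive semidefinite Gram matrix -/
theorem quad_det {A B C M1 M2 M3 v w Q : ℝ} (b1 b2 P : ℝ)
    (hΓ : ∀ α β : ℝ, 0 ≤ α ^ 2 * A + 2 * α * β * B + β ^ 2 * C)
    (hQ : ∀ α β : ℝ, 2 * (α * v + β * w) - (α ^ 2 * A + 2 * α * β * B + β ^ 2 * C) ≤ Q)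
    (h1 : 0 < qD A B C M1 M2 M3) (h2 : 0 < 2 + qT A B C M1 M2 M3) :
    0 ≤ Q + (M1 * v ^ 2 + 2 * M2 * v * w + M3 * w ^ 2) + 2 * P * (b1 * v + b2 * w)
      + qN A B C M1 M2 M3 b1 b2 / qD A B C M1 M2 M3 * P ^ 2 := by
  have hA : 0 ≤ A := by simpa using hΓ 1 0
  have hC : 0 ≤ C := by simpa using hΓ 0 1
  have hB : B ^ 2 ≤ A * C := by
    have := discrim_le_zero (a := A) (b := 2 * B) (c := C) fun x => by nlinarith [hΓ x 1]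
    rw [discrim] at this
    nlinarith
  have cD : Continuous fun e : ℝ => qD (A + e) B (C + e) M1 M2 M3 := by unfold qD qT; fun_prop
  have cT : Continuous fun e : ℝ => 2 + qT (A + e) B (C + e) M1 M2 M3 := by unfold qT; fun_prop
  have cN : Continuous fun e : ℝ => qN (A + e) B (C + e) M1 M2 M3 b1 b2 := by unfold qN; fun_prop
  have tD := (cD.tendsto 0).mono_left (nhdsWithin_le_nhds (s := Set.Ioi 0))
  have tT := (cT.tendsto 0).mono_left (nhdsWithin_le_nhds (s := Set.Ioi 0))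
  have tN := (cN.tendsto 0).mono_left (nhdsWithin_le_nhds (s := Set.Ioi 0))
  simp only [add_zero] at tD tT tN
  refine ge_of_tendsto (((tN.div tD h1.ne').mul_const (P ^ 2)).const_add
    (Q + (M1 * v ^ 2 + 2 * M2 * v * w + M3 * w ^ 2) + 2 * P * (b1 * v + b2 * w))) ?_
  filter_upwards [tD.eventually (lt_mem_nhds h1), tT.eventually (lt_mem_nhds h2), self_mem_nhdsWithin] with e g1 g2 he
  have he : 0 < e := he
  refine quad_pd b1 b2 P (by linarith) (by nlinarith) (fun α β => ?_) g1 g2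
  nlinarith [hQ α β, mul_nonneg he.le (sq_nonneg α), mul_nonneg he.le (sq_nonneg β)]

section gram
variable {m : ℕ} (c0 c7 l : ℝ) (μ : Fin m → ℝ)

/-- weighted moments of the eigenvalues (`l` the eigenvalue of the direction, `μ` the other ones) -/
noncomputable def sk (k : ℕ) : ℝ := l ^ k / (c0 + 2 * c7 * l) + ∑ j, μ j ^ k / (3 * c0 + 2 * c7 * (l + 2 * μ j))
noncomputable def gA : ℝ := sk c0 c7 l μ 2 - sk c0 c7 l μ 1 ^ 2 / sk c0 c7 l μ 0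
noncomputable def gB : ℝ := sk c0 c7 l μ 3 - sk c0 c7 l μ 1 * sk c0 c7 l μ 2 / sk c0 c7 l μ 0
noncomputable def gC : ℝ := sk c0 c7 l μ 4 - sk c0 c7 l μ 2 ^ 2 / sk c0 c7 l μ 0

variable {c0 c7 l μ}

theorem gram_eq (hl : 0 < c0 + 2 * c7 * l) (hμ : ∀ j, 0 < c0 + 2 * c7 * μ j) (α β : ℝ) : ∃ θ : ℝ,
    α ^ 2 * gA c0 c7 l μ + 2 * α * β * gB c0 c7 l μ + β ^ 2 * gC c0 c7 l μ
      = (α * l + β * l ^ 2 - θ) ^ 2 / (c0 + 2 * c7 * l)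
        + ∑ j, (α * μ j + β * μ j ^ 2 - θ) ^ 2 / (3 * c0 + 2 * c7 * (l + 2 * μ j)) := by
  have hw : ∀ j, 0 < 3 * c0 + 2 * c7 * (l + 2 * μ j) := fun j => by linarith [hμ j]
  have h0 : 0 < sk c0 c7 l μ 0 :=
    add_pos_of_pos_of_nonneg (div_pos (by simp) hl) (sum_nonneg fun j _ => (div_pos (by simp) (hw j)).le)
  have e : ∀ θ : ℝ, (α * l + β * l ^ 2 - θ) ^ 2 / (c0 + 2 * c7 * l)
        + ∑ j, (α * μ j + β * μ j ^ 2 - θ) ^ 2 / (3 * c0 + 2 * c7 * (l + 2 * μ j))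
      = α ^ 2 * sk c0 c7 l μ 2 + 2 * α * β * sk c0 c7 l μ 3 + β ^ 2 * sk c0 c7 l μ 4
        - 2 * θ * α * sk c0 c7 l μ 1 - 2 * θ * β * sk c0 c7 l μ 2 + θ ^ 2 * sk c0 c7 l μ 0 := fun θ => by
    have : ∑ j, (α * μ j + β * μ j ^ 2 - θ) ^ 2 / (3 * c0 + 2 * c7 * (l + 2 * μ j))
        = α ^ 2 * ∑ j, μ j ^ 2 / (3 * c0 + 2 * c7 * (l + 2 * μ j))
          + 2 * α * β * ∑ j, μ j ^ 3 / (3 * c0 + 2 * c7 * (l + 2 * μ j))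
          + β ^ 2 * ∑ j, μ j ^ 4 / (3 * c0 + 2 * c7 * (l + 2 * μ j))
          - 2 * θ * α * ∑ j, μ j ^ 1 / (3 * c0 + 2 * c7 * (l + 2 * μ j))
          - 2 * θ * β * ∑ j, μ j ^ 2 / (3 * c0 + 2 * c7 * (l + 2 * μ j))
          + θ ^ 2 * ∑ j, μ j ^ 0 / (3 * c0 + 2 * c7 * (l + 2 * μ j)) := by
      simp only [mul_sum, ← sum_add_distrib, ← sum_sub_distrib]
      exact sum_congr rfl fun j _ => by ring
    rw [this]
    simp only [sk]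
    ring
  refine ⟨(α * sk c0 c7 l μ 1 + β * sk c0 c7 l μ 2) / sk c0 c7 l μ 0, ?_⟩
  rw [e, gA, gB, gC]
  field_simp
  ring

theorem gram_nn (hl : 0 < c0 + 2 * c7 * l) (hμ : ∀ j, 0 < c0 + 2 * c7 * μ j) (α β : ℝ) :
    0 ≤ α ^ 2 * gA c0 c7 l μ + 2 * α * β * gB c0 c7 l μ + β ^ 2 * gC c0 c7 l μ := by
  obtain ⟨θ, e⟩ := gram_eq hl hμ α β
  rw [e]
  exact add_nonneg (by positivity) (sum_nonneg fun j _ => div_nonneg (sq_nonneg _) (by linarith [hμ j]))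

theorem gram_w (hl : 0 < c0 + 2 * c7 * l) (hμ : ∀ j, 0 < c0 + 2 * c7 * μ j) {x0 : ℝ} {x : Fin m → ℝ}
    (xs : x0 + ∑ j, x j = 0) (α β : ℝ) :
    2 * (α * (x0 * l + ∑ j, x j * μ j) + β * (x0 * l ^ 2 + ∑ j, x j * μ j ^ 2))
      - (α ^ 2 * gA c0 c7 l μ + 2 * α * β * gB c0 c7 l μ + β ^ 2 * gC c0 c7 l μ)
      ≤ (c0 + 2 * c7 * l) * x0 ^ 2 + ∑ j, (3 * c0 + 2 * c7 * (l + 2 * μ j)) * x j ^ 2 := by
  obtain ⟨θ, e⟩ := gram_eq hl hμ α β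
  have key : ∀ {ω : ℝ}, 0 < ω → ∀ f z : ℝ, 2 * (f * z) - f ^ 2 / ω ≤ ω * z ^ 2 := fun {ω} h f z => by
    have : ω * z ^ 2 - (2 * (f * z) - f ^ 2 / ω) = (ω * z - f) ^ 2 / ω := by field_simp; ring
    have h2 : 0 ≤ (ω * z - f) ^ 2 / ω := by positivity
    linarith
  have h1 := key hl (α * l + β * l ^ 2 - θ) x0
  have h2 := sum_le_sum fun j (_ : j ∈ univ) =>
    key (ω := 3 * c0 + 2 * c7 * (l + 2 * μ j)) (by linarith [hμ j]) (α * μ j + β * μ j ^ 2 - θ) (x j)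
  have e2 : ∑ j, 2 * ((α * μ j + β * μ j ^ 2 - θ) * x j)
      = 2 * α * ∑ j, x j * μ j + 2 * β * ∑ j, x j * μ j ^ 2 - 2 * θ * ∑ j, x j := by
    simp only [mul_sum, ← sum_add_distrib, ← sum_sub_distrib]
    exact sum_congr rfl fun j _ => by ring
  rw [sum_sub_distrib, e2] at h2
  have e3 : ∑ j, x j = -x0 := by linarith
  rw [e3] at h2
  rw [e]
  linarith
end gram

/-- the admissible data: scalars `y`, eigenvalue `l` of the direction, the other eigenvalues in increasing order -/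
structure Adm {m : ℕ} (R : (Fin 6 → ℝ) → Prop) (y : Fin 6 → ℝ) (l : ℝ) (μ : Fin m → ℝ) : Prop where
  mono : Monotone μ
  tr : l + ∑ j, μ j = 0
  y0 : y 0 = l ^ 2 + ∑ j, μ j ^ 2
  y4 : y 4 = l ^ 3 + ∑ j, μ j ^ 3
  u0 : 0 < y 1
  uS : y 1 ^ 2 ≤ y 2
  S1 : y 2 ≤ 1
  y5 : 0 ≤ y 5
  R : R y
  cl : 0 ≤ y 1 * l + (1 - y 2) / 2
  cμ : ∀ j, 0 ≤ y 1 * μ j + (1 - y 2) / 2

/-- the condition after the elimination of `T` (`n = m + 1`) -/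
def Ans.ScW (s : Ans) (m : ℕ) (R : (Fin 6 → ℝ) → Prop) : Prop :=
  ∀ (y : Fin 6 → ℝ) (l : ℝ) (μ : Fin m → ℝ), Adm R y l μ →
    0 ≤ s.Φ y ∧ 0 < s.c 0 y + 2 * s.c 7 y * l ∧ ((∀ j, 0 < s.c 0 y + 2 * s.c 7 y * μ j) →
      ∃ mm : ℝ, 0 ≤ s.G0 (m + 1) y (l ^ 4 + ∑ j, μ j ^ 4) + (y 2 - y 1 ^ 2) * mm ∧
      ∀ P v w Q : ℝ, (∀ α β : ℝ, 2 * (α * v + β * w) - (α ^ 2 * gA (s.c 0 y) (s.c 7 y) l μ
          + 2 * α * β * gB (s.c 0 y) (s.c 7 y) l μ + β ^ 2 * gC (s.c 0 y) (s.c 7 y) l μ) ≤ Q) →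
        0 ≤ Q + s.Gk y l P v w - P ^ 2 * mm ∧ s.Φ.gk y l P v w ^ 2 ≤ 4 * s.Φ y * (Q + s.Gk y l P v w - P ^ 2 * mm))

theorem exists_enum {m : ℕ} (lam : Fin (m + 2) → ℝ) {k : Fin (m + 2)} (hk : k ≠ 0) : ∃ ι : Fin m → Fin (m + 2),
    Monotone (lam ∘ ι) ∧ (∀ j, ι j ≠ 0 ∧ ι j ≠ k) ∧ ∀ f : Fin (m + 2) → ℝ, ∑ i, f i = f 0 + (f k + ∑ j, f (ι j)) := by
  obtain ⟨k', rfl⟩ := Fin.exists_succ_eq.2 hk
  refine ⟨fun j => (k'.succAbove (Tuple.sort (fun j => lam (k'.succAbove j).succ) j)).succ,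
    Tuple.monotone_sort (fun j => lam (k'.succAbove j).succ), fun j => ⟨Fin.succ_ne_zero _,
      fun h => Fin.succAbove_ne _ _ (Fin.succ_injective _ h)⟩, fun f => ?_⟩
  rw [Fin.sum_univ_succ, Fin.sum_univ_succAbove _ k',
    Equiv.sum_comp (Tuple.sort fun j => lam (k'.succAbove j).succ) fun j => f (k'.succAbove j).succ]

theorem Ans.dirC_of_scW {s : Ans} {m : ℕ} {R : (Fin 6 → ℝ) → Prop} (h : s.ScW m R) : s.DirC (m + 1) R := by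
  intro lam y h0 tr y0 y4 h1 h2 h3 _ h5 hR hC
  have key : ∀ k : Fin (m + 2), k ≠ 0 → ∃ ι : Fin m → Fin (m + 2), Adm R y (lam k) (lam ∘ ι) ∧
      (∀ j, ι j ≠ 0 ∧ ι j ≠ k) ∧ ∀ f : Fin (m + 2) → ℝ, ∑ i, f i = f 0 + (f k + ∑ j, f (ι j)) := fun k hk => by
    obtain ⟨ι, a1, a2, a3⟩ := exists_enum lam hk
    refine ⟨ι, ⟨a1, ?_, ?_, ?_, h1, h2, h3, h5, hR, hC k, fun j => hC _⟩, a2, a3⟩
    · rw [a3, h0, zero_add] at tr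
      exact tr
    · rw [y0, pw, a3, h0]
      simp
    · rw [y4, pw, a3, h0]
      simp
  have he : ∀ k : Fin (m + 2), k ≠ 0 → 0 < s.c 0 y + 2 * s.c 7 y * lam k := fun k hk => by
    obtain ⟨ι, a, -⟩ := key k hk
    exact (h y _ _ a).2.1
  refine ⟨?_, fun i j l hi hj hl _ _ _ => by linarith [he i hi, he j hj, he l hl], fun k hk => ?_⟩
  · obtain ⟨ι, a, -⟩ := key 1 (by simp)
    exact (h y _ _ a).1
  obtain ⟨ι, a, a2, a3⟩ := key k hk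
  have hμ : ∀ j, 0 < s.c 0 y + 2 * s.c 7 y * (lam ∘ ι) j := fun j => he _ (a2 j).1
  obtain ⟨mm, hm, hq⟩ := (h y _ _ a).2.2 hμ
  have e4 : pw lam 4 = lam k ^ 4 + ∑ j, (lam ∘ ι) j ^ 4 := by
    rw [pw, a3, h0]
    simp
  refine ⟨mm, by rw [e4]; exact hm, fun P x v w x0 xs hv hw => hq P v w _ fun α β => ?_⟩
  rw [a3, x0, zero_add] at xs
  have g := gram_w (he k hk) hμ (x := x ∘ ι) xs α β
  rw [hv, hw, Wk, a3, a3, a3, x0]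
  simp only [Function.comp] at g ⊢
  linarith

/-- `P`-coefficient of `gk` -/
noncomputable def Cf.P (c : Cf) (y : Fin 6 → ℝ) (l : ℝ) : ℝ := c.D 1 y + 2 * c.D 2 y * l

section entries
variable (s : Ans) (y : Fin 6 → ℝ) (l : ℝ)
noncomputable def Ans.M1 : ℝ := 2 * (s.c 0).D 0 y - s.Φ.D 0 y ^ 2 / s.Φ y
noncomputable def Ans.M2 : ℝ := (3 * (s.c 0).D 4 y + 2 * (s.c 7).D 0 y) / 2 - 3 / 2 * (s.Φ.D 0 y * s.Φ.D 4 y / s.Φ y)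
noncomputable def Ans.M3 : ℝ := 3 * (s.c 7).D 4 y - 9 / 4 * (s.Φ.D 4 y ^ 2 / s.Φ y)
noncomputable def Ans.b1 : ℝ := (s.c 4 y + s.c 5 y * l + (s.c 0).P y l + 2 * ((s.c 2).D 0 y + l * (s.c 3).D 0 y
  + l ^ 2 * (s.c 4).D 0 y + l ^ 3 * (s.c 5).D 0 y)) / 2 - s.Φ.D 0 y * s.Φ.P y l / s.Φ y / 2
noncomputable def Ans.b2 : ℝ := (s.c 5 y + (s.c 7).P y l + 3 * ((s.c 2).D 4 y + l * (s.c 3).D 4 y
  + l ^ 2 * (s.c 4).D 4 y + l ^ 3 * (s.c 5).D 4 y)) / 2 - 3 / 4 * (s.Φ.D 4 y * s.Φ.P y l / s.Φ y)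
noncomputable def Ans.cc : ℝ := (s.c 2).P y l + l * (s.c 3).P y l + l ^ 2 * (s.c 4).P y l + l ^ 3 * (s.c 5).P y l
  - s.Φ.P y l ^ 2 / s.Φ y / 4
end entries

theorem Ans.Gk_eq (s : Ans) {y : Fin 6 → ℝ} (h : 0 < s.Φ y) (l P v w : ℝ) :
    s.Gk y l P v w - s.Φ.gk y l P v w ^ 2 / (4 * s.Φ y) = (s.M1 y * v ^ 2 + 2 * s.M2 y * v * w + s.M3 y * w ^ 2)
      + 2 * P * (s.b1 y l * v + s.b2 y l * w) + s.cc y l * P ^ 2 := by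
  simp only [Ans.Gk, Cf.gk, Ans.M1, Ans.M2, Ans.M3, Ans.b1, Ans.b2, Ans.cc, Cf.P]
  field_simp
  ring

theorem fin_of_nn {Φ g X : ℝ} (h : 0 < Φ) (h1 : 0 ≤ X - g ^ 2 / (4 * Φ)) : 0 ≤ X ∧ g ^ 2 ≤ 4 * Φ * X := by
  have h2 : 0 ≤ g ^ 2 / (4 * Φ) := by positivity
  refine ⟨by linarith, ?_⟩
  rw [sub_nonneg, div_le_iff₀ (by positivity)] at h1
  linarith

/-- the determinant form for `a ≠ 0` -/
def Ans.ScD (s : Ans) (m : ℕ) (R : (Fin 6 → ℝ) → Prop) : Prop :=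
  ∀ (y : Fin 6 → ℝ) (l : ℝ) (μ : Fin m → ℝ) (A B C : ℝ), Adm R y l μ → 0 < y 0 → A = gA (s.c 0 y) (s.c 7 y) l μ →
    B = gB (s.c 0 y) (s.c 7 y) l μ → C = gC (s.c 0 y) (s.c 7 y) l μ →
    0 < s.Φ y ∧ 0 < s.c 0 y + 2 * s.c 7 y * l ∧ 0 < qD A B C (s.M1 y) (s.M2 y) (s.M3 y) ∧
      0 < 2 + qT A B C (s.M1 y) (s.M2 y) (s.M3 y) ∧
      (y 2 - y 1 ^ 2) * qN A B C (s.M1 y) (s.M2 y) (s.M3 y) (s.b1 y l) (s.b2 y l)
        ≤ (s.G0 (m + 1) y (l ^ 4 + ∑ j, μ j ^ 4) + (y 2 - y 1 ^ 2) * s.cc y l) * qD A B C (s.M1 y) (s.M2 y) (s.M3 y)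

/-- the condition at `a = 0` -/
def Ans.ScZ (s : Ans) (m : ℕ) : Prop :=
  ∀ y : Fin 6 → ℝ, y 0 = 0 → y 4 = 0 → 0 < y 1 → y 1 ^ 2 ≤ y 2 → y 2 ≤ 1 → 0 ≤ y 5 →
    0 ≤ s.Φ y ∧ 0 < s.c 0 y ∧ ∃ mm : ℝ, 0 ≤ s.G0 (m + 1) y 0 + (y 2 - y 1 ^ 2) * mm ∧ mm ≤ (s.c 2).D 1 y ∧
      s.Φ.D 1 y ^ 2 ≤ 4 * s.Φ y * ((s.c 2).D 1 y - mm)

theorem Adm.zero {m : ℕ} {R : (Fin 6 → ℝ) → Prop} {y : Fin 6 → ℝ} {l : ℝ} {μ : Fin m → ℝ} (a : Adm R y l μ)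
    (h : ¬ 0 < y 0) : l = 0 ∧ μ = 0 := by
  have h1 : 0 ≤ ∑ j, μ j ^ 2 := sum_nonneg fun j _ => sq_nonneg _
  have h2 := a.y0
  refine ⟨pow_eq_zero_iff two_ne_zero |>.1 (by nlinarith [sq_nonneg l]), funext fun j => ?_⟩
  have h3 : μ j ^ 2 ≤ ∑ j, μ j ^ 2 := single_le_sum (f := fun j => μ j ^ 2) (fun j _ => sq_nonneg _) (mem_univ j)
  exact pow_eq_zero_iff two_ne_zero |>.1 (by nlinarith [sq_nonneg l, sq_nonneg (μ j)])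

theorem Ans.scW_zero {s : Ans} {m : ℕ} {R : (Fin 6 → ℝ) → Prop} (hz : s.ScZ m) {y : Fin 6 → ℝ}
    (a : Adm R y 0 (0 : Fin m → ℝ)) : 0 ≤ s.Φ y ∧ 0 < s.c 0 y + 2 * s.c 7 y * 0 ∧
      ∃ mm : ℝ, 0 ≤ s.G0 (m + 1) y (0 ^ 4 + ∑ j, (0 : Fin m → ℝ) j ^ 4) + (y 2 - y 1 ^ 2) * mm ∧
      ∀ P v w Q : ℝ, (∀ α β : ℝ, 2 * (α * v + β * w) - (α ^ 2 * gA (s.c 0 y) (s.c 7 y) 0 (0 : Fin m → ℝ)
          + 2 * α * β * gB (s.c 0 y) (s.c 7 y) 0 (0 : Fin m → ℝ) + β ^ 2 * gC (s.c 0 y) (s.c 7 y) 0 (0 : Fin m → ℝ)) ≤ Q) →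
        0 ≤ Q + s.Gk y 0 P v w - P ^ 2 * mm ∧ s.Φ.gk y 0 P v w ^ 2 ≤ 4 * s.Φ y * (Q + s.Gk y 0 P v w - P ^ 2 * mm) := by
  obtain ⟨h1, h2, mm, h3, h4, h5⟩ := hz y (by simpa using a.y0) (by simpa using a.y4) a.u0 a.uS a.S1 a.y5
  refine ⟨h1, by linarith, mm, by simpa using h3, fun P v w Q hQ => ?_⟩
  have hQ' : ∀ α β : ℝ, 2 * (α * v + β * w) ≤ Q := fun α β => by simpa [gA, gB, gC, sk] using hQ α β
  have q0 : 0 ≤ Q := by simpa using hQ' 0 0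
  have hv : v = 0 := by
    by_contra hv
    have := hQ' ((Q + 1) / v) 0
    rw [div_mul_cancel₀ _ hv] at this
    linarith
  have hw : w = 0 := by
    by_contra hw
    have := hQ' 0 ((Q + 1) / w)
    rw [div_mul_cancel₀ _ hw] at this
    linarith
  subst hv hw
  have e1 : s.Gk y 0 P 0 0 = (s.c 2).D 1 y * P ^ 2 := by simp [Ans.Gk, Cf.gk]; ring
  have e2 : s.Φ.gk y 0 P 0 0 = s.Φ.D 1 y * P := by simp [Cf.gk]
  rw [e1, e2]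
  have h6 := mul_nonneg (sub_nonneg.2 h4) (sq_nonneg P)
  have h7 := mul_le_mul_of_nonneg_right h5 (sq_nonneg P)
  exact ⟨by linarith, by nlinarith [mul_nonneg h1 q0]⟩

theorem Ans.scW_of_D {s : Ans} {m : ℕ} {R : (Fin 6 → ℝ) → Prop} (h : s.ScD m R) (hz : s.ScZ m) : s.ScW m R := by
  intro y l μ a
  by_cases h0 : 0 < y 0
  · obtain ⟨h1, h2, h3, h4, h5⟩ := h y l μ _ _ _ a h0 rfl rfl rfl
    refine ⟨h1.le, h2, fun hμ => ⟨s.cc y l - qN (gA (s.c 0 y) (s.c 7 y) l μ) (gB (s.c 0 y) (s.c 7 y) l μ)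
      (gC (s.c 0 y) (s.c 7 y) l μ) (s.M1 y) (s.M2 y) (s.M3 y) (s.b1 y l) (s.b2 y l) /
      qD (gA (s.c 0 y) (s.c 7 y) l μ) (gB (s.c 0 y) (s.c 7 y) l μ) (gC (s.c 0 y) (s.c 7 y) l μ) (s.M1 y) (s.M2 y) (s.M3 y),
      ?_, fun P v w Q hQ => fin_of_nn h1 ?_⟩⟩
    · rw [← div_le_iff₀ h3, mul_div_assoc] at h5
      linarith
    · have h6 := quad_det (s.b1 y l) (s.b2 y l) P (gram_nn h2 hμ) hQ h3 h4
      have h7 := s.Gk_eq h1 l P v w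
      linarith
  · obtain ⟨rfl, rfl⟩ := a.zero h0
    obtain ⟨h1, h2, h3⟩ := Ans.scW_zero hz a
    exact ⟨h1, h2, fun _ => h3⟩

theorem Ans.intJC_of_scW {s : Ans} {m : ℕ} {R : (Fin 6 → ℝ) → Prop} (hs : s.Diag) (h : s.ScW m R) :
    s.IntJC (m + 2) R := Ans.intJC_of_dir (by omega) hs (Ans.dirC_of_scW h)

end Crest.Agent.R97
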