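import Crest.Agent.R97.CertB5

/-! CertB6 (helper87): coefficients of the form `σ ^ e * g (c/σ², uσ, 1-S, t3/σ³)`, `σ = √(ω + c)`, `g` polynomial. -/

set_option autoImplicit false
open Finset

namespace Crest.Agent.R97

/-- a monomial `a r^i z^j p^k t^m` -/
abbrev Mon : Type := ℝ × ℕ × ℕ × ℕ × ℕ

/-- value of a list of monomials -/
def pe : List Mon → ℝ → ℝ → ℝ → ℝ → ℝ
  | [], _, _, _, _ => 0
  | q :: L, r, z, p, t => q.1 * r ^ q.2.1 * z ^ q.2.2.1 * p ^ q.2.2.2.1 * t ^ q.2.2.2.2 + pe L r z p t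
/-- `∂_r` -/
def pr : List Mon → ℝ → ℝ → ℝ → ℝ → ℝ
  | [], _, _, _, _ => 0
  | q :: L, r, z, p, t => q.1 * q.2.1 * r ^ (q.2.1 - 1) * z ^ q.2.2.1 * p ^ q.2.2.2.1 * t ^ q.2.2.2.2 + pr L r z p t
/-- `∂_z` -/
def pz : List Mon → ℝ → ℝ → ℝ → ℝ → ℝ
  | [], _, _, _, _ => 0
  | q :: L, r, z, p, t => q.1 * q.2.2.1 * r ^ q.2.1 * z ^ (q.2.2.1 - 1) * p ^ q.2.2.2.1 * t ^ q.2.2.2.2 + pz L r z p t
/-- `∂_p` -/
def pp : List Mon → ℝ → ℝ → ℝ → ℝ → ℝ
  | [], _, _, _, _ => 0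
  | q :: L, r, z, p, t => q.1 * q.2.2.2.1 * r ^ q.2.1 * z ^ q.2.2.1 * p ^ (q.2.2.2.1 - 1) * t ^ q.2.2.2.2 + pp L r z p t
/-- `∂_t` -/
def pt : List Mon → ℝ → ℝ → ℝ → ℝ → ℝ
  | [], _, _, _, _ => 0
  | q :: L, r, z, p, t => q.1 * q.2.2.2.2 * r ^ q.2.1 * z ^ q.2.2.1 * p ^ q.2.2.2.1 * t ^ (q.2.2.2.2 - 1) + pt L r z p t

theorem pe_deriv (L : List Mon) {R Z P T : ℝ → ℝ} {r' z' p' t' x : ℝ} (hR : HasDerivAt R r' x) (hZ : HasDerivAt Z z' x)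
    (hP : HasDerivAt P p' x) (hT : HasDerivAt T t' x) :
    HasDerivAt (fun x => pe L (R x) (Z x) (P x) (T x)) (pr L (R x) (Z x) (P x) (T x) * r' + pz L (R x) (Z x) (P x) (T x) * z'
      + pp L (R x) (Z x) (P x) (T x) * p' + pt L (R x) (Z x) (P x) (T x) * t') x := by
  induction L with
  | nil => simpa [pe, pr, pz, pp, pt] using hasDerivAt_const x (0 : ℝ)
  | cons q L ih =>
    simp only [pe, pr, pz, pp, pt]
    refine ((((((hR.fun_pow q.2.1).const_mul q.1).fun_mul (hZ.fun_pow q.2.2.1)).fun_mul (hP.fun_pow q.2.2.2.1)).fun_mul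
      (hT.fun_pow q.2.2.2.2)).fun_add ih).congr_deriv ?_
    ring

theorem pe_cd (L : List Mon) {X : Type} [NormedAddCommGroup X] [NormedSpace ℝ X] {R Z P T : X → ℝ} {x : X}
    (hR : ContDiffAt ℝ 1 R x) (hZ : ContDiffAt ℝ 1 Z x) (hP : ContDiffAt ℝ 1 P x) (hT : ContDiffAt ℝ 1 T x) :
    ContDiffAt ℝ 1 (fun x => pe L (R x) (Z x) (P x) (T x)) x := by
  induction L with
  | nil => exact contDiffAt_const
  | cons q L ih =>
    exact ((((contDiffAt_const.mul (hR.pow _)).mul (hZ.pow _)).mul (hP.pow _)).mul (hT.pow _)).add ih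

/-- `g = L0 + (1 - r) L1 + t L2` -/
structure Tb where
  L0 : List Mon
  L1 : List Mon
  L2 : List Mon

namespace Tb
variable (T : Tb) (r z p t : ℝ)
def g : ℝ := pe T.L0 r z p t + (1 - r) * pe T.L1 r z p t + t * pe T.L2 r z p t
def gr : ℝ := pr T.L0 r z p t - pe T.L1 r z p t + (1 - r) * pr T.L1 r z p t + t * pr T.L2 r z p t
def gz : ℝ := pz T.L0 r z p t + (1 - r) * pz T.L1 r z p t + t * pz T.L2 r z p t
def gp : ℝ := pp T.L0 r z p t + (1 - r) * pp T.L1 r z p t + t * pp T.L2 r z p t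
def gt : ℝ := pt T.L0 r z p t + (1 - r) * pt T.L1 r z p t + pe T.L2 r z p t + t * pt T.L2 r z p t
/-- `σ^(2-e) ∂_ω (σ^e g)` -/
noncomputable def go (e : ℝ) : ℝ :=
  e / 2 * T.g r z p t - r * T.gr r z p t + z / 2 * T.gz r z p t - 3 / 2 * t * T.gt r z p t
/-- the parts divided by `1 - r = s²`; `a = t / s²` -/
def gh (a : ℝ) : ℝ := pe T.L1 r z p t + a * pe T.L2 r z p t
def ghz (a : ℝ) : ℝ := pz T.L1 r z p t + a * pz T.L2 r z p t
def ghp (a : ℝ) : ℝ := pp T.L1 r z p t + a * pp T.L2 r z p t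

theorem g_deriv {R Z P U : ℝ → ℝ} {r' z' p' t' x : ℝ} (hR : HasDerivAt R r' x) (hZ : HasDerivAt Z z' x)
    (hP : HasDerivAt P p' x) (hT : HasDerivAt U t' x) :
    HasDerivAt (fun x => T.g (R x) (Z x) (P x) (U x)) (T.gr (R x) (Z x) (P x) (U x) * r' + T.gz (R x) (Z x) (P x) (U x) * z'
      + T.gp (R x) (Z x) (P x) (U x) * p' + T.gt (R x) (Z x) (P x) (U x) * t') x := by
  refine (((pe_deriv T.L0 hR hZ hP hT).fun_add ((hR.const_sub 1).fun_mul (pe_deriv T.L1 hR hZ hP hT))).fun_add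
    (hT.fun_mul (pe_deriv T.L2 hR hZ hP hT))).congr_deriv ?_
  simp only [gr, gz, gp, gt]
  ring
end Tb

/-- `σ = √(ω + c)` -/
noncomputable def sg (c : ℝ) (y : Fin 6 → ℝ) : ℝ := √(y 0 + c)

/-- the coefficient `σ^e g` -/
noncomputable def cf (c e : ℝ) (T : Tb) : Cf := fun y =>
  sg c y ^ e * T.g (c / sg c y ^ 2) (y 1 * sg c y) (1 - y 2) (y 4 / sg c y ^ 3)

section cf
variable {c e : ℝ} {T : Tb} {y : Fin 6 → ℝ}

theorem sg_pos (h : 0 < y 0 + c) : 0 < sg c y := Real.sqrt_pos.2 h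
theorem sg_sq (h : 0 < y 0 + c) : sg c y ^ 2 = y 0 + c := Real.sq_sqrt h.le

theorem cf_cd (h : 0 < y 0 + c) : ContDiffAt ℝ 1 (cf c e T) y := by
  have a : ∀ i : Fin 6, ContDiffAt ℝ 1 (fun y : Fin 6 → ℝ => y i) y := fun i => (contDiff_apply ℝ ℝ i).contDiffAt
  have hs : ContDiffAt ℝ 1 (sg c) y := ((a 0).add contDiffAt_const).sqrt h.ne'
  have h0 := (sg_pos h).ne'
  have hR : ContDiffAt ℝ 1 (fun y => c / sg c y ^ 2) y := contDiffAt_const.div (hs.pow 2) (pow_ne_zero _ h0)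
  have hZ : ContDiffAt ℝ 1 (fun y => y 1 * sg c y) y := (a 1).mul hs
  have hP : ContDiffAt ℝ 1 (fun y : Fin 6 → ℝ => 1 - y 2) y := contDiffAt_const.sub (a 2)
  have hT : ContDiffAt ℝ 1 (fun y => y 4 / sg c y ^ 3) y := (a 4).div (hs.pow 3) (pow_ne_zero _ h0)
  exact (hs.rpow_const_of_ne h0).mul (((pe_cd _ hR hZ hP hT).add ((contDiffAt_const.sub hR).mul
    (pe_cd _ hR hZ hP hT))).add (hT.mul (pe_cd _ hR hZ hP hT)))

theorem cf_D3 : (cf c e T).D 3 y = 0 := by simp [Cf.D, cf, sg]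
theorem cf_D5 : (cf c e T).D 5 y = 0 := by simp [Cf.D, cf, sg]

theorem cf_D1 : (cf c e T).D 1 y
    = sg c y ^ e * sg c y * T.gz (c / sg c y ^ 2) (y 1 * sg c y) (1 - y 2) (y 4 / sg c y ^ 3) := by
  have h := ((T.g_deriv (hasDerivAt_const (y 1) (c / sg c y ^ 2)) ((hasDerivAt_id' (y 1)).mul_const (sg c y))
    (hasDerivAt_const _ (1 - y 2)) (hasDerivAt_const _ (y 4 / sg c y ^ 3))).const_mul (sg c y ^ e)).deriv
  have e1 : (fun t => cf c e T (Function.update y 1 t)) = fun t => sg c y ^ e * T.g (c / sg c y ^ 2) (t * sg c y)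
      (1 - y 2) (y 4 / sg c y ^ 3) := by
    funext t
    simp [cf, sg]
  rw [Cf.D, e1, h]
  ring

theorem cf_D2 : (cf c e T).D 2 y
    = -(sg c y ^ e * T.gp (c / sg c y ^ 2) (y 1 * sg c y) (1 - y 2) (y 4 / sg c y ^ 3)) := by
  have h := ((T.g_deriv (hasDerivAt_const (y 2) (c / sg c y ^ 2)) (hasDerivAt_const _ (y 1 * sg c y))
    ((hasDerivAt_id' (y 2)).const_sub 1) (hasDerivAt_const _ (y 4 / sg c y ^ 3))).const_mul (sg c y ^ e)).deriv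
  have e1 : (fun t => cf c e T (Function.update y 2 t)) = fun t => sg c y ^ e * T.g (c / sg c y ^ 2) (y 1 * sg c y)
      (1 - t) (y 4 / sg c y ^ 3) := by
    funext t
    simp [cf, sg]
  rw [Cf.D, e1, h]
  ring

theorem cf_D4 : (cf c e T).D 4 y
    = sg c y ^ e / sg c y ^ 3 * T.gt (c / sg c y ^ 2) (y 1 * sg c y) (1 - y 2) (y 4 / sg c y ^ 3) := by
  have h := ((T.g_deriv (hasDerivAt_const (y 4) (c / sg c y ^ 2)) (hasDerivAt_const _ (y 1 * sg c y))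
    (hasDerivAt_const _ (1 - y 2)) ((hasDerivAt_id' (y 4)).div_const (sg c y ^ 3))).const_mul (sg c y ^ e)).deriv
  have e1 : (fun t => cf c e T (Function.update y 4 t)) = fun t => sg c y ^ e * T.g (c / sg c y ^ 2) (y 1 * sg c y)
      (1 - y 2) (t / sg c y ^ 3) := by
    funext t
    simp [cf, sg]
  rw [Cf.D, e1, h]
  ring

theorem cf_D0 (h : 0 < y 0 + c) : (cf c e T).D 0 y
    = sg c y ^ e / sg c y ^ 2 * T.go (c / sg c y ^ 2) (y 1 * sg c y) (1 - y 2) (y 4 / sg c y ^ 3) e := by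
  have h0 : √(y 0 + c) ≠ 0 := (sg_pos h).ne'
  have hs : HasDerivAt (fun t => √(t + c)) (1 / (2 * √(y 0 + c))) (y 0) :=
    ((hasDerivAt_id' (y 0)).add_const c).sqrt h.ne'
  have h1 := ((hs.rpow_const (p := e) (Or.inl h0)).fun_mul (T.g_deriv
    ((hasDerivAt_const (y 0) c).fun_div (hs.fun_pow 2) (pow_ne_zero _ h0)) (hs.const_mul (y 1))
    (hasDerivAt_const _ (1 - y 2)) ((hasDerivAt_const (y 0) (y 4)).fun_div (hs.fun_pow 3) (pow_ne_zero _ h0)))).deriv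
  have e1 : (fun t => cf c e T (Function.update y 0 t)) = fun t => √(t + c) ^ e * T.g (c / √(t + c) ^ 2)
      (y 1 * √(t + c)) (1 - y 2) (y 4 / √(t + c) ^ 3) := by
    funext t
    simp [cf, sg]
  rw [Cf.D, e1, h1, Tb.go, sg, Real.rpow_sub_one h0]
  generalize T.g (c / √(y 0 + c) ^ 2) (y 1 * √(y 0 + c)) (1 - y 2) (y 4 / √(y 0 + c) ^ 3) = g0
  generalize T.gr (c / √(y 0 + c) ^ 2) (y 1 * √(y 0 + c)) (1 - y 2) (y 4 / √(y 0 + c) ^ 3) = g1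
  generalize T.gz (c / √(y 0 + c) ^ 2) (y 1 * √(y 0 + c)) (1 - y 2) (y 4 / √(y 0 + c) ^ 3) = g2
  generalize T.gp (c / √(y 0 + c) ^ 2) (y 1 * √(y 0 + c)) (1 - y 2) (y 4 / √(y 0 + c) ^ 3) = g3
  generalize T.gt (c / √(y 0 + c) ^ 2) (y 1 * √(y 0 + c)) (1 - y 2) (y 4 / √(y 0 + c) ^ 3) = g4
  generalize √(y 0 + c) = σ at h0 ⊢
  generalize σ ^ e = W
  push_cast
  field_simp
  ring
end cf

/-- the six tables and the constants; `Φ ~ σ^(2 al)` -/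
structure Tab where
  c : ℝ
  al : ℝ
  Λ : ℝ
  F : Tb
  K : Tb
  D : Tb
  A : Tb
  B : Tb
  C : Tb

/-- the ansatz of class F -/
noncomputable def Tab.ans (N : Tab) : Ans where
  Φ := cf N.c (2 * N.al) N.F
  c := ![cf N.c (2 * N.al - 2) N.K, fun _ => 0, cf N.c (2 * N.al + 1) N.A, cf N.c (2 * N.al) N.B,
    cf N.c (2 * N.al - 1) N.C, fun _ => 0, fun _ => 0, cf N.c (2 * N.al - 3) N.D]
  Λ := N.Λ

theorem Cf.D_zero (i : Fin 6) (y : Fin 6 → ℝ) : Cf.D (fun _ => 0) i y = 0 := by simp [Cf.D]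

theorem Tab.diag (N : Tab) : N.ans.Diag where
  c1 _ := rfl
  c6 _ := rfl
  Φ3 _ := cf_D3
  Φ5 _ := cf_D5
  c3 m y := by fin_cases m <;> first | exact cf_D3 | exact Cf.D_zero _ _
  c5 m y := by fin_cases m <;> first | exact cf_D5 | exact Cf.D_zero _ _

theorem Tab.smΦ (N : Tab) (hc : 0 < N.c) (y : Fin 6 → ℝ) (hy : Dom y) : ContDiffAt ℝ 1 N.ans.Φ y :=
  cf_cd (by linarith [hy.1])

theorem Tab.smc (N : Tab) (hc : 0 < N.c) (m : Fin 8) (y : Fin 6 → ℝ) (hy : Dom y) : ContDiffAt ℝ 1 (N.ans.c m) y := by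
  have h : 0 < y 0 + N.c := by linarith [hy.1]
  fin_cases m <;> first | exact cf_cd h | exact contDiffAt_const

end Crest.Agent.R97
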