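import Crest.Agent.R97.CertB6

/-! CertB7 (helper87): the conditions for class F in the normalised variables `s = |a|/σ`, `z = uσ`, `p = 1 - S`,
`w, ν` = eigenvalues of `a/|a|`, `θ = tr (a/|a|)³`. -/

set_option autoImplicit false
open Finset

namespace Crest.Agent.R97

namespace Tb
variable (T : Tb) (s z p θ : ℝ)
def v : ℝ := T.g (1 - s ^ 2) z p (s ^ 3 * θ)
noncomputable def vo (e : ℝ) : ℝ := T.go (1 - s ^ 2) z p (s ^ 3 * θ) e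
def vt : ℝ := T.gt (1 - s ^ 2) z p (s ^ 3 * θ)
def vz : ℝ := T.gz (1 - s ^ 2) z p (s ^ 3 * θ)
def vp : ℝ := T.gp (1 - s ^ 2) z p (s ^ 3 * θ)
def h : ℝ := T.gh (1 - s ^ 2) z p (s ^ 3 * θ) (s * θ)
def hz : ℝ := T.ghz (1 - s ^ 2) z p (s ^ 3 * θ) (s * θ)
def hp : ℝ := T.ghp (1 - s ^ 2) z p (s ^ 3 * θ) (s * θ)

theorem v_eq : T.v s z p θ = pe T.L0 (1 - s ^ 2) z p (s ^ 3 * θ) + s ^ 2 * T.h s z p θ := by
  simp only [v, g, h, gh]; ring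
theorem vz_eq : T.vz s z p θ = pz T.L0 (1 - s ^ 2) z p (s ^ 3 * θ) + s ^ 2 * T.hz s z p θ := by
  simp only [vz, gz, hz, ghz]; ring
theorem vp_eq : T.vp s z p θ = pp T.L0 (1 - s ^ 2) z p (s ^ 3 * θ) + s ^ 2 * T.hp s z p θ := by
  simp only [vp, gp, hp, ghp]; ring
end Tb

namespace Tab
variable (N : Tab) (s z p θ w : ℝ)
/-- `P`-coefficient of the gradient of `Φ`, divided by `s²` -/
def FP : ℝ := N.F.hz s z p θ - 2 * s * w * N.F.hp s z p θ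
noncomputable def M1 : ℝ := 2 * s ^ 2 * N.K.vo s z p θ (2 * N.al - 2) - N.F.vo s z p θ (2 * N.al) ^ 2 / N.F.h s z p θ
noncomputable def M2 : ℝ := s ^ 3 * (3 * N.K.vt s z p θ + 2 * N.D.vo s z p θ (2 * N.al - 3)) / 2
  - 3 / 2 * s * (N.F.vo s z p θ (2 * N.al) * N.F.vt s z p θ / N.F.h s z p θ)
noncomputable def M3 : ℝ := 3 * s ^ 4 * N.D.vt s z p θ - 9 / 4 * s ^ 2 * (N.F.vt s z p θ ^ 2 / N.F.h s z p θ)
noncomputable def b1 : ℝ := (N.C.v s z p θ + (N.K.vz s z p θ - 2 * s * w * N.K.vp s z p θ)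
  + 2 * (N.A.vo s z p θ (2 * N.al + 1) + s * w * N.B.vo s z p θ (2 * N.al) + (s * w) ^ 2 * N.C.vo s z p θ (2 * N.al - 1))
  - N.F.vo s z p θ (2 * N.al) * N.FP s z p θ w / N.F.h s z p θ) / 2
noncomputable def b2 : ℝ := s * (((N.D.vz s z p θ - 2 * s * w * N.D.vp s z p θ)
  + 3 * (N.A.vt s z p θ + s * w * N.B.vt s z p θ + (s * w) ^ 2 * N.C.vt s z p θ)) / 2
  - 3 / 4 * (N.F.vt s z p θ * N.FP s z p θ w / N.F.h s z p θ))
noncomputable def cc : ℝ := (N.A.hz s z p θ - 2 * s * w * N.A.hp s z p θ) + w * (s * N.B.hz s z p θ - 2 * w * N.B.vp s z p θ)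
  + w ^ 2 * (N.C.vz s z p θ - 2 * s * w * N.C.vp s z p θ) - N.FP s z p θ w ^ 2 / N.F.h s z p θ / 4
noncomputable def G0 (n : ℕ) : ℝ := N.B.v s z p θ + s * θ * N.C.v s z p θ + (1 - s ^ 2) / N.c * (n * N.K.v s z p θ
  - n * z * N.A.h s z p θ - z * N.C.v s z p θ + n * s * θ * N.D.v s z p θ - N.Λ * N.F.h s z p θ)
/-- `S - u²` -/
noncomputable def PP : ℝ := 1 - p - z ^ 2 * (1 - s ^ 2) / N.c

/-- the shape of the tables -/
structure Sh : Prop where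
  c : 0 < N.c
  F : N.F.L0 = []
  A : N.A.L0 = []
  Bz : ∀ r z p t, pz N.B.L0 r z p t = 0
  B0 : ∀ r t, pe N.B.L0 r 0 0 t ≤ 0
end Tab

/-- admissible normalised data -/
structure NAdm {m : ℕ} (c : ℝ) (R' : ℝ → ℝ → Prop) (s z p w : ℝ) (ν : Fin m → ℝ) : Prop where
  mono : Monotone ν
  tr : w + ∑ j, ν j = 0
  nrm : w ^ 2 + ∑ j, ν j ^ 2 = 1
  s0 : 0 ≤ s
  s1 : s ≤ 1
  z0 : 0 ≤ z
  p0 : 0 ≤ p
  p1 : p ≤ 1
  zS : z ^ 2 * (1 - s ^ 2) ≤ c * (1 - p)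
  R : R' ((z * s) ^ 2) p
  cl : 0 ≤ z * s * w + p / 2
  cν : ∀ j, 0 ≤ z * s * ν j + p / 2

/-- the interior condition, normalised -/
def Tab.NW (N : Tab) (m : ℕ) (R' : ℝ → ℝ → Prop) : Prop :=
  ∀ (s z p w θ : ℝ) (ν : Fin m → ℝ), NAdm N.c R' s z p w ν → θ = w ^ 3 + ∑ j, ν j ^ 3 →
    0 < N.F.h s z p θ ∧ 0 < N.K.v s z p θ + 2 * (s * N.D.v s z p θ) * w ∧
    ((∀ j, 0 < N.K.v s z p θ + 2 * (s * N.D.v s z p θ) * ν j) →
      ∃ mm : ℝ, 0 ≤ N.G0 s z p θ (m + 1) + N.PP s z p * mm ∧ ∀ P v v' Q : ℝ,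
        (∀ α β : ℝ, 2 * (α * v + β * v') - (α ^ 2 * gA (N.K.v s z p θ) (s * N.D.v s z p θ) w ν
          + 2 * α * β * gB (N.K.v s z p θ) (s * N.D.v s z p θ) w ν
          + β ^ 2 * gC (N.K.v s z p θ) (s * N.D.v s z p θ) w ν) ≤ Q) →
        0 ≤ Q + (N.M1 s z p θ * v ^ 2 + 2 * N.M2 s z p θ * v * v' + N.M3 s z p θ * v' ^ 2)
          + 2 * P * (N.b1 s z p θ w * v + N.b2 s z p θ w * v') + (N.cc s z p θ w - mm) * P ^ 2)

/-- the side condition `RD`, normalised -/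
def Tab.NR (N : Tab) (m : ℕ) (R' : ℝ → ℝ → Prop) (k : ℝ) : Prop :=
  ∀ (s z p w θ : ℝ) (ν : Fin m → ℝ), NAdm N.c R' s z p w ν → θ = w ^ 3 + ∑ j, ν j ^ 3 →
    N.K.v s z p θ - z * N.A.h s z p θ + s * θ * N.D.v s z p θ ≤ k * N.F.h s z p θ

/-- the boundary condition, normalised (`h = H/|a|`, `q = tr (a/|a|)⁴`) -/
def Tab.NB (N : Tab) (m : ℕ) : Prop :=
  ∀ (s h θ q : ℝ) (ν : Fin m → ℝ), Monotone ν → -h + ∑ j, ν j = 0 → h ^ 2 + ∑ j, ν j ^ 2 = 1 → 0 ≤ s → s ≤ 1 → 0 ≤ h →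
    (∀ j, -h ≤ ν j) → θ = (-h) ^ 3 + ∑ j, ν j ^ 3 → q = h ^ 4 + ∑ j, ν j ^ 4 →
    0 ≤ s * h * N.F.h s 0 0 θ - s * (θ + 2 * h) * N.K.v s 0 0 θ + N.A.h s 0 0 θ - s * h * N.B.h s 0 0 θ
      + h ^ 2 * N.C.v s 0 0 θ + s ^ 2 * (h ^ 2 - q - h * θ) * N.D.v s 0 0 θ

theorem sk_scale {m : ℕ} {κ η K D w : ℝ} (hκ : κ ≠ 0) (hη : η ≠ 0) (ν : Fin m → ℝ) (k : ℕ) :
    sk (κ * K) (κ * D / η) (η * w) (fun j => η * ν j) k = η ^ k / κ * sk K D w ν k := by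
  have e : ∀ x a : ℝ, (η * x) ^ k / (κ * a) = η ^ k / κ * (x ^ k / a) := fun x a => by
    rw [mul_pow, mul_div_mul_comm]
  rw [sk, sk, mul_add, mul_sum, ← e]
  congr 1
  · congr 1
    field_simp
  · refine sum_congr rfl fun j _ => ?_
    rw [← e]
    congr 1
    field_simp

theorem g_scale {m : ℕ} {κ η K D w : ℝ} (hκ : κ ≠ 0) (hη : η ≠ 0) (ν : Fin m → ℝ) :
    gA (κ * K) (κ * D / η) (η * w) (fun j => η * ν j) = η ^ 2 / κ * gA K D w ν ∧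
    gB (κ * K) (κ * D / η) (η * w) (fun j => η * ν j) = η ^ 3 / κ * gB K D w ν ∧
    gC (κ * K) (κ * D / η) (η * w) (fun j => η * ν j) = η ^ 4 / κ * gC K D w ν := by
  simp only [gA, gB, gC, sk_scale hκ hη]
  simp only [div_eq_mul_inv, mul_inv]
  generalize (sk K D w ν 0)⁻¹ = i0
  refine ⟨?_, ?_, ?_⟩ <;> field_simp

/-- the values of a coefficient and of its partial derivatives -/
structure CV (g : Cf) (y : Fin 6 → ℝ) (T : Tb) (σ W e s z p θ : ℝ) : Prop where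
  v : g y = W * T.v s z p θ
  d0 : g.D 0 y = W / σ ^ 2 * T.vo s z p θ e
  d1 : g.D 1 y = W * σ * T.vz s z p θ
  d2 : g.D 2 y = -(W * T.vp s z p θ)
  d4 : g.D 4 y = W / σ ^ 3 * T.vt s z p θ

/-- normalised coordinates of `y` -/
structure Co (c : ℝ) (y : Fin 6 → ℝ) (σ s z p θ : ℝ) : Prop where
  σ0 : 0 < σ
  y0 : y 0 = (σ * s) ^ 2
  cs : c = σ ^ 2 * (1 - s ^ 2)
  y1 : y 1 = z / σ
  y2 : y 2 = 1 - p
  y4 : y 4 = (σ * s) ^ 3 * θ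

theorem Co.cv {c : ℝ} {y : Fin 6 → ℝ} {σ s z p θ : ℝ} (h : Co c y σ s z p θ) (e : ℝ) (T : Tb) {W : ℝ} (hW : σ ^ e = W) :
    CV (cf c e T) y T σ W e s z p θ := by
  have h0 := h.σ0.ne'
  have e0 : y 0 + c = σ ^ 2 := by rw [h.y0, h.cs]; ring
  have e1 : sg c y = σ := by rw [sg, e0, Real.sqrt_sq h.σ0.le]
  have e2 : c / σ ^ 2 = 1 - s ^ 2 := by rw [h.cs]; field_simp
  have e3 : y 1 * σ = z := by rw [h.y1]; field_simp
  have e4 : 1 - y 2 = p := by rw [h.y2]; ring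
  have e5 : y 4 / σ ^ 3 = s ^ 3 * θ := by rw [h.y4]; field_simp
  refine ⟨?_, ?_, ?_, ?_, ?_⟩
  · rw [cf, e1, e2, e3, e4, e5, hW, Tb.v]
  · rw [cf_D0 (by rw [e0]; positivity), e1, e2, e3, e4, e5, hW, Tb.vo]
  · rw [cf_D1, e1, e2, e3, e4, e5, hW, Tb.vz]
  · rw [cf_D2, e1, e2, e3, e4, e5, hW, Tb.vp]
  · rw [cf_D4, e1, e2, e3, e4, e5, hW, Tb.vt]

/-- all six coefficients -/
structure Tab.All (N : Tab) (y : Fin 6 → ℝ) (σ W s z p θ : ℝ) : Prop where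
  W0 : 0 < W
  F : CV N.ans.Φ y N.F σ W (2 * N.al) s z p θ
  K : CV (N.ans.c 0) y N.K σ (W / σ ^ 2) (2 * N.al - 2) s z p θ
  A : CV (N.ans.c 2) y N.A σ (W * σ) (2 * N.al + 1) s z p θ
  B : CV (N.ans.c 3) y N.B σ W (2 * N.al) s z p θ
  C : CV (N.ans.c 4) y N.C σ (W / σ) (2 * N.al - 1) s z p θ
  D : CV (N.ans.c 7) y N.D σ (W / σ ^ 3) (2 * N.al - 3) s z p θ

theorem Co.all {N : Tab} {y : Fin 6 → ℝ} {σ s z p θ : ℝ} (h : Co N.c y σ s z p θ) :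
    N.All y σ (σ ^ (2 * N.al)) s z p θ :=
  ⟨Real.rpow_pos_of_pos h.σ0 _, h.cv _ _ rfl, h.cv _ _ (by rw [Real.rpow_sub h.σ0, Real.rpow_two]),
    h.cv _ _ (Real.rpow_add_one h.σ0.ne' _), h.cv _ _ rfl, h.cv _ _ (Real.rpow_sub_one h.σ0.ne' _),
    h.cv _ _ (by rw [Real.rpow_sub h.σ0, Real.rpow_ofNat])⟩

theorem co_of_pos {c : ℝ} (hc : 0 < c) {y : Fin 6 → ℝ} (h : 0 < y 0) : ∃ σ s : ℝ, 0 < s ∧ s ≤ 1 ∧ √(y 0) = σ * s ∧
    Co c y σ s (y 1 * σ) (1 - y 2) (y 4 / √(y 0) ^ 3) := by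
  have h1 : 0 < y 0 + c := by linarith
  have h2 := sg_pos h1
  have h3 := sg_sq h1
  have h4 := Real.sqrt_pos.2 h
  have h5 := Real.sq_sqrt h.le
  have e : sg c y * (√(y 0) / sg c y) = √(y 0) := by field_simp
  refine ⟨sg c y, √(y 0) / sg c y, by positivity, ?_, e.symm, h2, by rw [e, h5], ?_, by field_simp, by ring, ?_⟩
  · rw [div_le_one h2]
    exact Real.sqrt_le_sqrt (by linarith)
  · rw [div_pow, h5, mul_sub, mul_div_cancel₀ _ (by positivity), h3]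
    ring
  · rw [e]
    field_simp

theorem co_of_zero {c : ℝ} (hc : 0 < c) {y : Fin 6 → ℝ} (h : y 0 = 0) (h4 : y 4 = 0) (θ : ℝ) :
    Co c y (√c) 0 (y 1 * √c) (1 - y 2) θ := by
  have h2 := Real.sqrt_pos.2 hc
  exact ⟨h2, by simp [h], by simp [Real.sq_sqrt hc.le], by field_simp, by ring, by simp [h4]⟩

theorem nadm_of {m : ℕ} {c : ℝ} {R : (Fin 6 → ℝ) → Prop} {R' : ℝ → ℝ → Prop}
    (hR : ∀ y, R y → R' (y 1 ^ 2 * y 0) (1 - y 2)) {y : Fin 6 → ℝ} {σ s z p θ w : ℝ} {ν : Fin m → ℝ}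
    (h : Co c y σ s z p θ) (s0 : 0 < s) (s1 : s ≤ 1) (a : Adm R y (σ * s * w) fun j => σ * s * ν j) :
    NAdm c R' s z p w ν ∧ θ = w ^ 3 + ∑ j, ν j ^ 3 := by
  have h0 := h.σ0
  have hη : 0 < σ * s := by positivity
  have hz : 0 < z := by
    have := a.u0
    rw [h.y1] at this
    exact (div_pos_iff_of_pos_right h0).1 this
  have hS := a.uS
  have e : ∀ x, y 1 * (σ * s * x) + (1 - y 2) / 2 = z * s * x + p / 2 := fun x => by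
    rw [h.y1, h.y2]; field_simp; ring
  have hcs : 0 ≤ 1 - s ^ 2 := by nlinarith
  rw [h.y1, h.y2, div_pow, div_le_iff₀ (by positivity)] at hS
  refine ⟨⟨fun i j hij => le_of_mul_le_mul_left (a.mono hij) hη, ?_, ?_, s0.le, s1, hz.le, by linarith [a.S1, h.y2],
    ?_, ?_, ?_, e w ▸ a.cl, fun j => e (ν j) ▸ a.cμ j⟩, ?_⟩
  · have := a.tr
    rw [← mul_sum, ← mul_add] at this
    exact (mul_eq_zero.1 this).resolve_left hη.ne'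
  · have := a.y0
    simp only [mul_pow (σ * s), ← mul_sum, ← mul_add, h.y0] at this
    exact (mul_left_cancel₀ (pow_ne_zero 2 hη.ne') (this.symm.trans (mul_one _).symm))
  · nlinarith [a.uS, sq_nonneg (y 1), h.y2]
  · rw [h.cs]
    nlinarith [mul_le_mul_of_nonneg_right hS hcs]
  · have := hR y a.R
    rw [h.y1, h.y0, h.y2, sub_sub_cancel] at this
    convert this using 1
    field_simp
  · have := a.y4
    simp only [mul_pow (σ * s), ← mul_sum, ← mul_add, h.y4] at this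
    exact mul_left_cancel₀ (pow_ne_zero 3 hη.ne') this

theorem Adm.norm {m : ℕ} {c : ℝ} (hc : 0 < c) {R : (Fin 6 → ℝ) → Prop} {R' : ℝ → ℝ → Prop}
    (hR : ∀ y, R y → R' (y 1 ^ 2 * y 0) (1 - y 2)) {y : Fin 6 → ℝ} {l : ℝ} {μ : Fin m → ℝ} (a : Adm R y l μ)
    (h0 : 0 < y 0) : ∃ (σ s z p θ w : ℝ) (ν : Fin m → ℝ), 0 < s ∧ Co c y σ s z p θ ∧ l = σ * s * w ∧
      (μ = fun j => σ * s * ν j) ∧ NAdm c R' s z p w ν ∧ θ = w ^ 3 + ∑ j, ν j ^ 3 := by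
  obtain ⟨σ, s, s0, s1, e, h⟩ := co_of_pos hc h0
  have hη : σ * s ≠ 0 := by have := h.σ0; positivity
  have e1 : l = σ * s * (l / (σ * s)) := (mul_div_cancel₀ _ hη).symm
  have e2 : μ = fun j => σ * s * (μ j / (σ * s)) := funext fun j => (mul_div_cancel₀ _ hη).symm
  exact ⟨σ, s, _, _, _, _, _, s0, h, e1, e2, nadm_of hR h s0 s1 (by rw [← e1, ← e2]; exact a)⟩

theorem Tab.scZ {N : Tab} (hN : N.Sh) {m : ℕ}
    (hK : ∀ z p, 0 ≤ z → 0 ≤ p → p ≤ 1 → z ^ 2 ≤ N.c * (1 - p) → 0 < N.K.v 0 z p 0) : N.ans.ScZ m := by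
  intro y y0 y4 u0 uS S1 _
  have h := co_of_zero hN.c y0 y4 0
  have a := h.all
  have hσ := h.σ0
  have hW := a.W0
  have f0 : N.ans.Φ y = 0 := by rw [a.F.v, Tb.v_eq, hN.F]; simp [pe]
  have f1 : N.ans.Φ.D 1 y = 0 := by rw [a.F.d1, Tb.vz_eq, hN.F]; simp [pz]
  have a0 : N.ans.c 2 y = 0 := by rw [a.A.v, Tb.v_eq, hN.A]; simp [pe]
  have a1 : (N.ans.c 2).D 1 y = 0 := by rw [a.A.d1, Tb.vz_eq, hN.A]; simp [pz]
  refine ⟨f0.ge, ?_, 0, ?_, a1.ge, by simp [f0, f1]⟩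
  · rw [a.K.v]
    refine mul_pos (by positivity) (hK _ _ (by positivity) (by linarith) (by nlinarith [sq_nonneg (y 1)]) ?_)
    rw [mul_pow, Real.sq_sqrt hN.c.le]
    nlinarith [hN.c]
  · simp [Ans.G0, f0, a0, y0, y4]

theorem Tab.scW {N : Tab} (hN : N.Sh) {m : ℕ} {R : (Fin 6 → ℝ) → Prop} {R' : ℝ → ℝ → Prop}
    (hR : ∀ y, R y → R' (y 1 ^ 2 * y 0) (1 - y 2)) (h : N.NW m R')
    (hK : ∀ z p, 0 ≤ z → 0 ≤ p → p ≤ 1 → z ^ 2 ≤ N.c * (1 - p) → 0 < N.K.v 0 z p 0) : N.ans.ScW m R := by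
  intro y l μ a
  by_cases h0 : 0 < y 0
  swap
  · obtain ⟨rfl, rfl⟩ := a.zero h0
    obtain ⟨h1, h2, h3⟩ := Ans.scW_zero (Tab.scZ hN hK) a
    exact ⟨h1, h2, fun _ => h3⟩
  obtain ⟨σ, s, z, p, θ, w, ν, s0, co, rfl, rfl, na, hθ⟩ := a.norm hN.c hR h0
  obtain ⟨h1, h2, h3⟩ := h s z p w θ ν na hθ
  have al := co.all
  generalize σ ^ (2 * N.al) = W at al
  have hσ := co.σ0
  have hW := al.W0
  have hc := hN.c
  have eF : N.F.v s z p θ = s ^ 2 * N.F.h s z p θ := by rw [Tb.v_eq, hN.F, pe, zero_add]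
  have eFz : N.F.vz s z p θ = s ^ 2 * N.F.hz s z p θ := by rw [Tb.vz_eq, hN.F, pz, zero_add]
  have eFp : N.F.vp s z p θ = s ^ 2 * N.F.hp s z p θ := by rw [Tb.vp_eq, hN.F, pp, zero_add]
  have eA : N.A.v s z p θ = s ^ 2 * N.A.h s z p θ := by rw [Tb.v_eq, hN.A, pe, zero_add]
  have eAz : N.A.vz s z p θ = s ^ 2 * N.A.hz s z p θ := by rw [Tb.vz_eq, hN.A, pz, zero_add]
  have eAp : N.A.vp s z p θ = s ^ 2 * N.A.hp s z p θ := by rw [Tb.vp_eq, hN.A, pp, zero_add]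
  have eBz : N.B.vz s z p θ = s ^ 2 * N.B.hz s z p θ := by rw [Tb.vz_eq, hN.Bz, zero_add]
  have c5 : N.ans.c 5 = fun _ => 0 := rfl
  have hΦ : 0 < N.ans.Φ y := by rw [al.F.v, eF]; positivity
  have ew : ∀ x, N.ans.c 0 y + 2 * N.ans.c 7 y * (σ * s * x)
      = W / σ ^ 2 * (N.K.v s z p θ + 2 * (s * N.D.v s z p θ) * x) := fun x => by
    rw [al.K.v, al.D.v]; field_simp
  refine ⟨hΦ.le, by rw [ew]; positivity, fun hμ => ?_⟩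
  obtain ⟨mm, g1, g2⟩ := h3 fun j => by
    have := hμ j
    rw [ew] at this
    exact (mul_pos_iff_of_pos_left (by positivity)).1 this
  have hκ : 0 < W * σ ^ 2 * s ^ 2 := by positivity
  have ePP : y 2 - y 1 ^ 2 = N.PP s z p := by
    have : 1 - s ^ 2 = N.c / σ ^ 2 := by rw [co.cs]; field_simp
    rw [Tab.PP, co.y1, co.y2, this]
    field_simp
  have eG : ∀ t4, N.ans.G0 (m + 1) y t4 = W * σ ^ 2 * s ^ 2 * N.G0 s z p θ (m + 1) := fun t4 => by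
    have : (1 - s ^ 2) / N.c = 1 / σ ^ 2 := by rw [div_eq_div_iff hc.ne' (by positivity), co.cs]; ring
    rw [Ans.G0, Tab.G0, this, al.F.v, al.K.v, al.A.v, al.B.v, al.C.v, al.D.v, eF, eA, co.y0, co.y1, co.y4, c5,
      show N.ans.Λ = N.Λ from rfl]
    field_simp
    ring
  have e1 : N.ans.M1 y = W * σ ^ 2 * s ^ 2 / (σ ^ 3 * s ^ 2) ^ 2 * N.M1 s z p θ := by
    rw [Ans.M1, Tab.M1, al.K.d0, al.F.d0, al.F.v, eF]
    field_simp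
  have e2 : N.ans.M2 y = W * σ ^ 2 * s ^ 2 / (σ ^ 3 * s ^ 2 * (σ ^ 4 * s ^ 3)) * N.M2 s z p θ := by
    rw [Ans.M2, Tab.M2, al.K.d4, al.D.d0, al.F.d0, al.F.d4, al.F.v, eF]
    field_simp
  have e3 : N.ans.M3 y = W * σ ^ 2 * s ^ 2 / (σ ^ 4 * s ^ 3) ^ 2 * N.M3 s z p θ := by
    rw [Ans.M3, Tab.M3, al.D.d4, al.F.d4, al.F.v, eF]
    field_simp
  have e4 : N.ans.b1 y (σ * s * w) = W * σ ^ 2 * s ^ 2 / (σ ^ 3 * s ^ 2) * N.b1 s z p θ w := by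
    simp only [Ans.b1, Tab.b1, Tab.FP, Cf.P, al.K.d1, al.K.d2, al.A.d0, al.B.d0, al.C.d0, al.C.v, al.F.d0, al.F.d1,
      al.F.d2, al.F.v, eF, eFz, eFp, c5, Cf.D_zero]
    field_simp
    ring
  have e5 : N.ans.b2 y (σ * s * w) = W * σ ^ 2 * s ^ 2 / (σ ^ 4 * s ^ 3) * N.b2 s z p θ w := by
    simp only [Ans.b2, Tab.b2, Tab.FP, Cf.P, al.D.d1, al.D.d2, al.A.d4, al.B.d4, al.C.d4, al.F.d4, al.F.d1,
      al.F.d2, al.F.v, eF, eFz, eFp, c5, Cf.D_zero]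
    field_simp
    ring
  have e6 : N.ans.cc y (σ * s * w) = W * σ ^ 2 * s ^ 2 * N.cc s z p θ w := by
    simp only [Ans.cc, Tab.cc, Tab.FP, Cf.P, al.A.d1, al.A.d2, al.B.d1, al.B.d2, al.C.d1, al.C.d2, al.F.d1,
      al.F.d2, al.F.v, eF, eFz, eFp, eAz, eAp, eBz, c5, Cf.D_zero]
    field_simp
    ring
  have e7 : N.ans.c 7 y = W / σ ^ 2 * (s * N.D.v s z p θ) / (σ * s) := by rw [al.D.v]; field_simp
  obtain ⟨k1, k2, k3⟩ := g_scale (κ := W / σ ^ 2) (η := σ * s) (K := N.K.v s z p θ) (D := s * N.D.v s z p θ) (w := w)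
    (by positivity) (by positivity) ν
  refine ⟨W * σ ^ 2 * s ^ 2 * mm, ?_, fun P v v' Q hQ => fin_of_nn hΦ ?_⟩
  · rw [eG, ePP]
    nlinarith [mul_nonneg hκ.le g1]
  · rw [al.K.v, e7, k1, k2, k3] at hQ
    have g3 := mul_nonneg hκ.le (g2 P (v / (σ ^ 3 * s ^ 2)) (v' / (σ ^ 4 * s ^ 3)) (Q / (W * σ ^ 2 * s ^ 2)) fun α β => by
      rw [le_div_iff₀ hκ]
      refine le_of_eq_of_le ?_ (hQ (α * (W * σ ^ 2 * s ^ 2) / (σ ^ 3 * s ^ 2)) (β * (W * σ ^ 2 * s ^ 2) / (σ ^ 4 * s ^ 3)))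
      field_simp)
    have g4 := N.ans.Gk_eq hΦ (σ * s * w) P v v'
    rw [e1, e2, e3, e4, e5, e6] at g4
    have : Q + N.ans.Gk y (σ * s * w) P v v' - P ^ 2 * (W * σ ^ 2 * s ^ 2 * mm)
        - N.ans.Φ.gk y (σ * s * w) P v v' ^ 2 / (4 * N.ans.Φ y) = Q - P ^ 2 * (W * σ ^ 2 * s ^ 2 * mm)
          + (N.ans.Gk y (σ * s * w) P v v' - N.ans.Φ.gk y (σ * s * w) P v v' ^ 2 / (4 * N.ans.Φ y)) := by ring
    rw [this, g4]
    refine g3.trans_eq ?_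
    field_simp
    ring

/-- `K > 0` at `a = 0` follows from `NW` (for `m = 4`) -/
theorem Tab.K0_of_NW {N : Tab} {R' : ℝ → ℝ → Prop} (h : N.NW 4 R') (h0 : ∀ p, 0 ≤ p → p ≤ 1 → R' 0 p) :
    ∀ z p, 0 ≤ z → 0 ≤ p → p ≤ 1 → z ^ 2 ≤ N.c * (1 - p) → 0 < N.K.v 0 z p 0 := by
  intro z p z0 p0 p1 hz
  have := (h 0 z p 0 0 ![-1 / 2, -1 / 2, 1 / 2, 1 / 2] ⟨Fin.monotone_iff_le_succ.2 fun i => by
    fin_cases i <;> simp <;> norm_num, by simp [Fin.sum_univ_four]; norm_num, by simp [Fin.sum_univ_four]; norm_num, le_rfl,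
    zero_le_one, z0, p0, p1, by simpa using hz, by simpa using h0 p p0 p1, by simp; linarith,
    fun j => by simp; linarith⟩ (by simp [Fin.sum_univ_four]; norm_num)).2.1
  simpa using this

/-- the determinant form, with any majorant `(A', B', C')` of the Gram matrix -/
def Tab.ND (N : Tab) (m : ℕ) (R' : ℝ → ℝ → Prop) : Prop :=
  ∀ (s z p w θ : ℝ) (ν : Fin m → ℝ), NAdm N.c R' s z p w ν → θ = w ^ 3 + ∑ j, ν j ^ 3 →
    0 < N.F.h s z p θ ∧ 0 < N.K.v s z p θ + 2 * (s * N.D.v s z p θ) * w ∧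
    ((∀ j, 0 < N.K.v s z p θ + 2 * (s * N.D.v s z p θ) * ν j) → ∃ A' B' C' : ℝ,
      (∀ α β : ℝ, α ^ 2 * gA (N.K.v s z p θ) (s * N.D.v s z p θ) w ν
          + 2 * α * β * gB (N.K.v s z p θ) (s * N.D.v s z p θ) w ν
          + β ^ 2 * gC (N.K.v s z p θ) (s * N.D.v s z p θ) w ν ≤ α ^ 2 * A' + 2 * α * β * B' + β ^ 2 * C') ∧
      0 < qD A' B' C' (N.M1 s z p θ) (N.M2 s z p θ) (N.M3 s z p θ) ∧
      0 < 2 + qT A' B' C' (N.M1 s z p θ) (N.M2 s z p θ) (N.M3 s z p θ) ∧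
      N.PP s z p * qN A' B' C' (N.M1 s z p θ) (N.M2 s z p θ) (N.M3 s z p θ) (N.b1 s z p θ w) (N.b2 s z p θ w)
        ≤ (N.G0 s z p θ (m + 1) + N.PP s z p * N.cc s z p θ w) * qD A' B' C' (N.M1 s z p θ) (N.M2 s z p θ) (N.M3 s z p θ))

theorem Tab.NW_of_ND {N : Tab} {m : ℕ} {R' : ℝ → ℝ → Prop} (h : N.ND m R') : N.NW m R' := by
  intro s z p w θ ν a hθ
  obtain ⟨h1, h2, h3⟩ := h s z p w θ ν a hθ
  refine ⟨h1, h2, fun hν => ?_⟩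
  obtain ⟨A', B', C', g1, g2, g3, g4⟩ := h3 hν
  refine ⟨N.cc s z p θ w - qN A' B' C' (N.M1 s z p θ) (N.M2 s z p θ) (N.M3 s z p θ) (N.b1 s z p θ w) (N.b2 s z p θ w)
    / qD A' B' C' (N.M1 s z p θ) (N.M2 s z p θ) (N.M3 s z p θ), ?_, fun P v v' Q hQ => ?_⟩
  · rw [← div_le_iff₀ g2, mul_div_assoc] at g4
    linarith
  · have := quad_det (N.b1 s z p θ w) (N.b2 s z p θ w) P (fun α β => (gram_nn h2 hν α β).trans (g1 α β))
      (fun α β => by linarith [hQ α β, g1 α β]) g2 g3 (v := v) (w := v') (Q := Q)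
    linarith

theorem adm_of_lam {m : ℕ} {R : (Fin 6 → ℝ) → Prop} {lam : Fin (m + 2) → ℝ} {y : Fin 6 → ℝ} (h0 : lam 0 = 0)
    (tr : ∑ i, lam i = 0) (y0 : y 0 = pw lam 2) (y4 : y 4 = pw lam 3) (h1 : 0 < y 1) (h2 : y 1 ^ 2 ≤ y 2) (h3 : y 2 ≤ 1)
    (h5 : 0 ≤ y 5) (hR : R y) (hC : ∀ i, 0 ≤ y 1 * lam i + (1 - y 2) / 2) :
    ∃ (l : ℝ) (μ : Fin m → ℝ), Adm R y l μ := by
  obtain ⟨ι, a1, -, a3⟩ := exists_enum lam (k := 1) (by simp)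
  refine ⟨lam 1, lam ∘ ι, a1, ?_, ?_, ?_, h1, h2, h3, h5, hR, hC _, fun j => hC _⟩
  · rw [a3, h0, zero_add] at tr
    exact tr
  · rw [y0, pw, a3, h0]
    simp
  · rw [y4, pw, a3, h0]
    simp

theorem Tab.zero {N : Tab} (hN : N.Sh) {y : Fin 6 → ℝ} (y0 : y 0 = 0) (y4 : y 4 = 0) :
    N.ans.Φ y = 0 ∧ N.ans.c 2 y = 0 := by
  have a := (co_of_zero hN.c y0 y4 0).all
  exact ⟨by rw [a.F.v, Tb.v_eq, hN.F]; simp [pe], by rw [a.A.v, Tb.v_eq, hN.A]; simp [pe]⟩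

/-- positivity of `Φ` (this is `Ans.PosD`) -/
theorem Tab.posD {N : Tab} (hN : N.Sh) {m : ℕ} {R : (Fin 6 → ℝ) → Prop} {R' : ℝ → ℝ → Prop}
    (hR : ∀ y, R y → R' (y 1 ^ 2 * y 0) (1 - y 2)) (h : N.NW m R') (lam : Fin (m + 1 + 1) → ℝ) (y : Fin 6 → ℝ)
    (h0 : lam 0 = 0) (tr : ∑ i, lam i = 0) (y0 : y 0 = pw lam 2) (y4 : y 4 = pw lam 3) (h1 : 0 < y 1)
    (h2 : y 1 ^ 2 ≤ y 2) (h3 : y 2 ≤ 1) (h5 : 0 ≤ y 5) (hy : R y) (hC : ∀ i, 0 ≤ y 1 * lam i + (1 - y 2) / 2) :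
    0 ≤ N.ans.Φ y ∧ (0 < y 0 → 0 < N.ans.Φ y) := by
  obtain ⟨l, μ, a⟩ := adm_of_lam h0 tr y0 y4 h1 h2 h3 h5 hy hC
  have key : 0 < y 0 → 0 < N.ans.Φ y := fun hp => by
    obtain ⟨σ, s, z, p, θ, w, ν, s0, co, -, -, na, hθ⟩ := a.norm hN.c hR hp
    have g := (h s z p w θ ν na hθ).1
    have hW := co.all.W0
    rw [co.all.F.v, Tb.v_eq, hN.F, pe, zero_add]
    positivity
  refine ⟨?_, key⟩
  by_cases hp : 0 < y 0
  · exact (key hp).le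
  · obtain ⟨rfl, rfl⟩ := a.zero hp
    exact (Tab.zero hN (by simpa using a.y0) (by simpa using a.y4)).1.ge

/-- the side condition (this is `Ans.RD`) -/
theorem Tab.rD {N : Tab} (hN : N.Sh) {m : ℕ} {R : (Fin 6 → ℝ) → Prop} {R' : ℝ → ℝ → Prop}
    (hR : ∀ y, R y → R' (y 1 ^ 2 * y 0) (1 - y 2)) {k : ℝ} (h : N.NR m R' k) (lam : Fin (m + 1 + 1) → ℝ) (y : Fin 6 → ℝ)
    (h0 : lam 0 = 0) (tr : ∑ i, lam i = 0) (y0 : y 0 = pw lam 2) (y4 : y 4 = pw lam 3) (h1 : 0 < y 1)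
    (h2 : y 1 ^ 2 ≤ y 2) (h3 : y 2 ≤ 1) (h5 : 0 ≤ y 5) (hy : R y) (hC : ∀ i, 0 ≤ y 1 * lam i + (1 - y 2) / 2) :
    N.ans.c 0 y * y 0 + N.ans.c 1 y * y 3 - N.ans.c 2 y * y 1 + N.ans.c 6 y * y 5 + N.ans.c 7 y * y 4
      ≤ k * N.ans.Φ y := by
  obtain ⟨l, μ, a⟩ := adm_of_lam h0 tr y0 y4 h1 h2 h3 h5 hy hC
  rw [N.diag.c1, N.diag.c6]
  by_cases hp : 0 < y 0
  · obtain ⟨σ, s, z, p, θ, w, ν, s0, co, -, -, na, hθ⟩ := a.norm hN.c hR hp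
    have al := co.all
    generalize σ ^ (2 * N.al) = W at al
    have hσ := co.σ0
    have g := mul_le_mul_of_nonneg_left (h s z p w θ ν na hθ) (mul_pos al.W0 (pow_pos s0 2)).le
    rw [al.F.v, al.K.v, al.A.v, al.D.v, N.F.v_eq, N.A.v_eq, hN.F, hN.A, pe, co.y0, co.y1, co.y4]
    refine le_of_eq_of_le ?_ (g.trans_eq (by ring))
    field_simp
    ring
  · obtain ⟨rfl, rfl⟩ := a.zero hp
    have e0 : y 0 = 0 := by simpa using a.y0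
    have e4 : y 4 = 0 := by simpa using a.y4
    simp [Tab.zero hN e0 e4, e0, e4]

theorem Tab.bdDC {N : Tab} (hN : N.Sh) {m : ℕ} (h : N.NB m) : N.ans.BdDC (m + 1) := by
  intro lam k H y h0 tr hk hl H0 hC hy
  obtain ⟨ι, a1, -, a3⟩ := exists_enum lam hk
  have y0 : y 0 = pw lam 2 := by rw [hy]; rfl
  have y1 : y 1 = 0 := by rw [hy]; rfl
  have y2 : y 2 = 1 := by rw [hy]; rfl
  have y4 : y 4 = pw lam 3 := by rw [hy]; rfl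
  have ep : ∀ n : ℕ, n ≠ 0 → pw lam n = (-H) ^ n + ∑ j, lam (ι j) ^ n := fun n hn => by
    rw [pw, a3, h0, hl, zero_pow hn, zero_add]
  rw [N.diag.c1, N.diag.c6, show N.ans.c 5 y = 0 from rfl]
  by_cases hp : 0 < y 0
  · obtain ⟨σ, s, s0, s1, e, co⟩ := co_of_pos hN.c hp
    rw [y1, y2, zero_mul, sub_self] at co
    generalize y 4 / √(y 0) ^ 3 = θ at co
    have al := co.all
    generalize σ ^ (2 * N.al) = W at al
    have hσ := co.σ0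
    have hW := al.W0
    have hη : 0 < σ * s := by positivity
    obtain ⟨h', rfl⟩ : ∃ h', H = σ * s * h' := ⟨_, (mul_div_cancel₀ H hη.ne').symm⟩
    obtain ⟨ν, hν⟩ : ∃ ν : Fin m → ℝ, ∀ j, lam (ι j) = σ * s * ν j :=
      ⟨fun j => lam (ι j) / (σ * s), fun j => (mul_div_cancel₀ _ hη.ne').symm⟩
    have ep' : ∀ n : ℕ, n ≠ 0 → pw lam n = (σ * s) ^ n * ((-h') ^ n + ∑ j, ν j ^ n) := fun n hn => by
      rw [ep n hn, ← mul_neg]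
      simp only [hν, mul_pow (σ * s), ← mul_sum, ← mul_add]
    have h'0 : 0 ≤ h' := (mul_nonneg_iff_of_pos_left hη).1 H0
    have t1 : -h' + ∑ j, ν j = 0 := by
      have := ep' 1 one_ne_zero
      simp only [pw, pow_one, tr] at this
      exact (mul_eq_zero.1 this.symm).resolve_left hη.ne'
    have t2 : (-h') ^ 2 + ∑ j, ν j ^ 2 = 1 := by
      have := ep' 2 two_ne_zero
      rw [← y0, co.y0] at this
      exact mul_left_cancel₀ (pow_ne_zero 2 hη.ne') (this.symm.trans (mul_one _).symm)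
    have t3 : θ = (-h') ^ 3 + ∑ j, ν j ^ 3 := by
      have := ep' 3 three_ne_zero
      rw [← y4, co.y4] at this
      exact mul_left_cancel₀ (pow_ne_zero 3 hη.ne') this
    have g := mul_nonneg (show 0 ≤ W * σ * s ^ 2 by positivity) (h s h' θ _ ν (fun i j hij => le_of_mul_le_mul_left
      (by rw [← hν, ← hν]; exact a1 hij) hη) t1 (by rw [← t2]; ring) s0.le s1 h'0 (fun j => le_of_mul_le_mul_left
      (by rw [← hν, mul_neg]; exact hC _) hη) t3 rfl)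
    have g2 := mul_nonneg (mul_nonneg hW.le H0) (neg_nonneg.2 (hN.B0 (1 - s ^ 2) (s ^ 3 * θ)))
    rw [ep' 4 four_ne_zero, ← y0, ← y4, co.y0, co.y4, al.F.v, al.K.v, al.A.v, al.B.v, al.C.v, al.D.v, N.F.v_eq, N.A.v_eq,
      N.B.v_eq, hN.F, hN.A, pe]
    refine (add_nonneg g g2).trans_eq ?_
    field_simp
    ring
  · have h1 : 0 ≤ ∑ j, lam (ι j) ^ 2 := sum_nonneg fun j _ => sq_nonneg _
    have h2 := ep 2 two_ne_zero
    have hz : ∀ i, lam i = 0 := fun i => by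
      have h3 : lam i ^ 2 ≤ pw lam 2 := single_le_sum (f := fun j => lam j ^ 2) (fun j _ => sq_nonneg _) (mem_univ i)
      exact pow_eq_zero_iff two_ne_zero |>.1 (by nlinarith [sq_nonneg (lam i)])
    have e : ∀ n : ℕ, n ≠ 0 → pw lam n = 0 := fun n hn => by simp [pw, hz, hn]
    have eH : H = 0 := by linarith [hz k]
    simp [eH, e, (Tab.zero hN (y0.trans (e 2 two_ne_zero)) (y4.trans (e 3 three_ne_zero))).2]

end Crest.Agent.R97
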