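import Crest.Agent.R97.CertN
import Crest.Agent.R97.CertB5

/-! CertF (helper66): the certificate theorem with positivity of `Φ` only on the admissible jets. -/

set_option autoImplicit false
open MeasureTheory Metric Set Filter Topology
open scoped RealInnerProductSpace NNReal

namespace Crest.Agent.R97

variable {d : ℕ} {u : E d → ℝ} {x : E d}

/-- regularity only -/
structure Ans.Ok1 (s : Ans) : Prop where
  Φ : ∀ y, Dom y → ContDiffAt ℝ 1 s.Φ y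
  c : ∀ m y, Dom y → ContDiffAt ℝ 1 (s.c m) y

/-- positivity of `Φ` on the admissible jets -/
def Ans.PosC (s : Ans) (d : ℕ) (R : (Fin 6 → ℝ) → Prop) : Prop :=
  ∀ (x p : Fin d → ℝ) (a : Fin d → Fin d → ℝ) (T : Fin d → Fin d → Fin d → ℝ), IJ x p a T → Cvx x p a →
    R (sv x p a) → 0 ≤ s.Φ (sv x p a) ∧ (0 < fr a a → 0 < s.Φ (sv x p a))

/-- positivity of `Φ` in terms of the eigenvalues -/
def Ans.PosD (s : Ans) (m : ℕ) (R : (Fin 6 → ℝ) → Prop) : Prop :=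
  ∀ (y : Fin 6 → ℝ) (l : ℝ) (μ : Fin m → ℝ), Adm R y l μ → 0 ≤ s.Φ y ∧ (0 < y 0 → 0 < s.Φ y)

theorem Ans.posD_of_D {s : Ans} {m : ℕ} {R : (Fin 6 → ℝ) → Prop} (h : s.ScD m R) (hz : s.ScZ m) : s.PosD m R :=
  fun y l μ a => ⟨(Ans.scW_of_D h hz y l μ a).1, fun h0 => (h y l μ _ _ _ a h0 rfl rfl rfl).1⟩

theorem Ans.posC_of_D {s : Ans} {m : ℕ} {R : (Fin 6 → ℝ) → Prop} (h : s.PosD m R) : s.PosC (m + 2) R := by
  intro x p a T hj hC hR
  obtain ⟨U, lam, hU, h0, -, ha⟩ := exists_eig hj.x1 hj.as hj.ax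
  have p2 : fr a a = pw lam 2 := by rw [← hU.fr, ha, fr_dg2]
  have p3 : fr a (sqm a) = pw lam 3 := by rw [← hU.fr, ← hU.sqm, ha, fr_dg3]
  have tr : ∑ i, lam i = 0 := by
    have := hU.tr a
    rw [ha, hj.atr] at this
    simpa only [dg_self] using this
  have hlo : ∀ i, 0 ≤ sv x p a 1 * lam i + (1 - sv x p a 2) / 2 := fun i => by
    have h2 := hC (U i)
    rwa [(eig_val hU ha i).1, (eig_val hU ha i).2, mul_one] at h2
  have hcs : dp p x ^ 2 ≤ dp p p := by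
    have h2 : dp p x ^ 2 ≤ dp p p * dp x x := by
      simpa only [dp, sq] using Finset.sum_mul_sq_le_sq_mul_sq Finset.univ p x
    rwa [hj.x1, mul_one] at h2
  obtain ⟨ι, a1, -, a3⟩ := exists_enum lam (k := 1) (by simp)
  refine h (sv x p a) (lam 1) (lam ∘ ι) ⟨a1, ?_, ?_, ?_, hj.pos, hcs, hj.le1, dp_self_nonneg _, hR, hlo 1,
    fun j => hlo _⟩
  · rw [a3, h0, zero_add] at tr
    exact tr
  · change fr a a = _
    rw [p2, pw, a3, h0]
    simp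
  · change fr a (sqm a) = _
    rw [p3, pw, a3, h0]
    simp

theorem pad_PosC (k : ℕ) {s : Ans} {R : (Fin 6 → ℝ) → Prop} (h : s.PosC (d + k) R) : s.PosC d R := by
  intro x p a T hj hC hy
  have h1 := h _ _ _ _ (pad_IJ k hj) (pad_Cvx k hj.le1 hC) (by rwa [pad_sv])
  have h2 : fr (pad2 k a) (pad2 k a) = fr a a := congrFun (pad_sv k x p a) 0
  rwa [pad_sv, h2] at h1

theorem pad_IntJC1 (k : ℕ) {s : Ans} {R : (Fin 6 → ℝ) → Prop} (hs : s.PosC d R) (h : s.IntJC (d + k) R) {c : ℝ}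
    (hR : s.RJC (d + k) R c) {Λ : ℝ} (hΛ : Λ + k * c ≤ s.Λ) : Ans.IntJC { s with Λ := Λ } d R := by
  intro x p a T hj hC hy
  have h1 := h _ _ _ _ (pad_IJ k hj) (pad_Cvx k hj.le1 hC) (by rwa [pad_sv])
  have h2 := hR _ _ _ _ (pad_IJ k hj) (pad_Cvx k hj.le1 hC) (by rwa [pad_sv])
  have h3 := (hs _ _ _ _ hj hC hy).1
  rw [pad_G, pad_gr, pad_dp, pad_sv] at h1
  rw [pad_sv] at h2
  have h4 : s.G x p a T + k * ∑ m, s.c m (sv x p a) * radX (sv x p a) m ≤ Ans.G x p a T { s with Λ := Λ } := by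
    have h5 := mul_le_mul_of_nonneg_left h2 (Nat.cast_nonneg (α := ℝ) k)
    have h6 := mul_le_mul_of_nonneg_right hΛ h3
    simp only [Ans.G]
    nlinarith
  exact ⟨h1.1.trans h4, h1.2.trans (mul_le_mul_of_nonneg_left h4 (by positivity))⟩

theorem cert_of_pt1 (hd : 2 ≤ d) {s : Ans} (hs : s.Ok1) (hΛ : ((d : ℝ) - 2) ^ 2 / 4 < s.Λ)
    (hu : Mn 1 u) (hh : Hom u) (hj : JetsNear u)
    (hp : ∀ x : E d, ‖x‖ = 1 → 0 < u x → 0 ≤ s.Φ (sv x (up u x) (ua u x)) ∧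
      (0 < fr (ua u x) (ua u x) → 0 < s.Φ (sv x (up u x) (ua u x))))
    (hi : ∀ x : E d, ‖x‖ = 1 → 0 < u x → 0 ≤ s.G x (up u x) (ua u x) (uT u x) ∧
      dp (Cf.gr x (up u x) (ua u x) (uT u x) s.Φ) (Cf.gr x (up u x) (ua u x) (uT u x) s.Φ) ≤
        4 * s.Φ (sv x (up u x) (ua u x)) * s.G x (up u x) (ua u x) (uT u x))
    (hb : ∀ ε : ℝ, 0 < ε → ∃ δ : ℝ, 0 < δ ∧ ∀ x : E d, ‖x‖ = 1 → 0 < u x → u x < δ →
      -ε ≤ rho u x * s.Φ (sv x (up u x) (ua u x)) +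
        ∑ m, s.c m (sv x (up u x) (ua u x)) * dp (Xv (up u x) (ua u x) (uT u x) m) (up u x)) :
    ∀ x, 0 < u x → ∀ a b, pd a (pd b u) x = 0 := by
  have hd1 : 1 ≤ d := by omega
  have h : HC u := ⟨hu.lip.continuous, hh, hu.harm⟩
  have hp' : ∀ x : E d, 0 < u x → 0 ≤ s.Φ (uy u x) ∧ (0 < uy u x 0 → 0 < s.Φ (uy u x)) := fun x hx => by
    rw [← h.uy_smul hx (cm_hn h hx).1, uy_one (cm_hn h hx).2]
    exact hp _ (cm_hn h hx).2 (h.smul_pos hx (cm_hn h hx).1)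
  obtain ⟨C0, hC0⟩ := coef_bdd hd1 h hu hj hs.Φ
  choose C hC using fun m => coef_bdd hd1 h hu hj (hs.c m)
  have key := stab_div hd hu hh (Φ := fun z => s.Φ (uy u z)) (W := s.W u) (C := (d + 1) * (|C0| + ∑ m, |C m|)) hΛ
    (fun x hx => (cm_cd hd1 h hu (n := 1) hs.Φ hx).contDiffWithinAt)
    (fun x hx => (cm_cdW hd1 h hu hs.c hx).contDiffWithinAt)
    (fun r hr x hx => by simp only [h.uy_smul hx hr])
    (fun r hr x hx => cm_Wh h s hr hx)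
    (fun x hx => (hp' x hx).1) (fun x h1 hx => ?_) (fun x h1 hx => ?_) fun ε hε => ?_
  · intro x hx a b
    have h0 := key x hx
    have h2 : uy u x 0 ≤ 0 := not_lt.1 fun h' => ((hp' x hx).2 h').ne' h0
    have h3 : fr (ua u x) (ua u x) ≤ 0 := by
      have h4 : 0 < ‖x‖ ^ (2 : ℤ) := zpow_pos (norm_pos_iff.2 (h.ne_zero hx)) _
      exact nonpos_of_mul_nonpos_right h2 h4
    have h5 := Finset.single_le_sum (f := fun j => ua u x a j * ua u x a j) (fun j _ => mul_self_nonneg _)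
      (Finset.mem_univ b)
    have h6 := Finset.single_le_sum (f := fun i => ∑ j, ua u x i j * ua u x i j)
      (fun i _ => Finset.sum_nonneg fun j _ => mul_self_nonneg _) (Finset.mem_univ a)
    exact mul_self_eq_zero.1 (le_antisymm (h5.trans (h6.trans h3)) (mul_self_nonneg _))
  · have h2 : 0 ≤ ∑ m, |C m| := Finset.sum_nonneg fun m _ => abs_nonneg _
    have h3 := abs_nonneg C0
    have h4 := le_abs_self C0
    refine ⟨?_, ca_norm (by positivity) fun l => ?_, ca_norm (by positivity) fun l => ?_⟩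
    · rw [uy_one h1]
      nlinarith [(abs_le.1 (hC0 x h1 hx).1).2, mul_nonneg (Nat.cast_nonneg (α := ℝ) d) (add_nonneg h3 h2)]
    · rw [gradient_apply, cm_gr hd1 h hu hs.Φ h1 hx]
      linarith [(hC0 x h1 hx).2.1 l]
    · rw [cm_W, uy_one h1]
      refine (Finset.abs_sum_le_sum_abs _ _).trans (le_add_of_nonneg_of_le h3 (Finset.sum_le_sum fun m _ => ?_))
      rw [uX_one h1]
      exact ((hC m x h1 hx).2.2 m l).trans (le_abs_self _)
  · rw [cm_G hd1 h hu hs.c h1 hx, norm_gradient_sq, uy_one h1]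
    simp only [cm_gr hd1 h hu hs.Φ h1 hx, sq]
    exact hi x h1 hx
  · obtain ⟨δ, hδ, h2⟩ := hb ε hε
    refine ⟨δ, hδ, fun x h1 hx hxδ => ?_⟩
    rw [cm_Wd s _ h1, uy_one h1, show (gradient u x).ofLp = up u x from funext fun i => gradient_apply u x i]
    exact h2 x h1 hx hxδ

theorem bd_limitC1 (h : HC u) (hu : Mn 1 u) (hj : JetsNear u) (hC : CvxH u) {s : Ans} (hs : s.Ok1) (hb : s.BdJC d)
    {ε : ℝ} (hε : 0 < ε) : ∃ δ : ℝ, 0 < δ ∧ ∀ x : E d, ‖x‖ = 1 → 0 < u x → u x < δ →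
      -ε ≤ rho u x * s.Φ (sv x (up u x) (ua u x)) +
        ∑ m, s.c m (sv x (up u x) (ua u x)) * dp (Xv (up u x) (ua u x) (uT u x) m) (up u x) := by
  by_contra hcon
  push Not at hcon
  obtain ⟨x, x', j, hx, b1, b2, b3, b4, hD, z2⟩ := cm_seq h hu hj hcon
  have b5 := hb x' j b1 b2 b3 b4 (cn_cvxB h hC (fun k => ⟨(hx k).1, (hx k).2.1⟩) z2)
  have c : Continuous fun z : ca5_P d => z.2.2.1 := by fun_prop
  have hr := (c.tendsto _).comp z2
  have t1 := (ca5_sv.tendsto _).comp z2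
  have t2 := (hr.mul ((hs.Φ _ hD).continuousAt.tendsto.comp t1)).add (tendsto_finsetSum Finset.univ fun m _ =>
    ((hs.c m _ hD).continuousAt.tendsto.comp t1).mul (((ca5_Xv m).tendsto _).comp z2))
  have t3 := le_of_tendsto' t2 fun k => (hx k).2.2.le
  exact absurd (b5.trans t3) (not_le.2 (neg_neg_of_pos hε))

theorem cert_of_JC1 (hd : 2 ≤ d) (hd6 : d ≤ 6) {s : Ans} (hs : s.Ok1) (hΛ : ((d : ℝ) - 2) ^ 2 / 4 < s.Λ)
    (hp : s.PosC d R0) (hi : s.IntJC d R0) (hb : s.BdJC d) (hu : Mn 1 u) (hh : Hom u) (hj : JetsNear u)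
    (hC : CvxH u) : ∀ x, 0 < u x → ∀ a b, pd a (pd b u) x = 0 :=
  have h : HC u := ⟨hu.lip.continuous, hh, hu.harm⟩
  have hR := R0_holds hd hd6 hu hh hj hC
  cert_of_pt1 hd hs hΛ hu hh hj
    (fun x h1 hx => hp _ _ _ _ (ij_of (by omega) h hu hx h1) (hC x h1 hx) (hR x h1 hx))
    (fun x h1 hx => hi _ _ _ _ (ij_of (by omega) h hu hx h1) (hC x h1 hx) (hR x h1 hx))
    fun _ hε => bd_limitC1 h hu hj hC hs hb hε

/-- One certificate in dimension 6 gives all dimensions. -/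
theorem cert_of_six1 {s : Ans} (hs : s.Ok1) (hΛ : 4 < s.Λ) (hp : s.PosC 6 R0) (hi : s.IntJC 6 R0) (hb : s.BdJC 6)
    (hR : s.RJC 6 R0 (5 / 4)) (hd : 2 ≤ d) (hd6 : d ≤ 6) {u : E d → ℝ} (hu : Mn 1 u) (hh : Hom u) (hj : JetsNear u)
    (hC : CvxH u) : ∀ x, 0 < u x → ∀ a b, pd a (pd b u) x = 0 := by
  have hok : ∀ Λ, Ans.Ok1 { s with Λ := Λ } := fun Λ => ⟨hs.Φ, hs.c⟩
  interval_cases d
  · exact cert_two hu hh hj
  · exact cert_of_JC1 hd hd6 (hok (s.Λ - 15 / 4)) (by norm_num; linarith) (pad_PosC 3 hp)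
      (pad_IntJC1 3 (pad_PosC 3 hp) hi hR (by norm_num)) (pad_BdJC 3 hb _) hu hh hj hC
  · exact cert_of_JC1 hd hd6 (hok (s.Λ - 5 / 2)) (by norm_num; linarith) (pad_PosC 2 hp)
      (pad_IntJC1 2 (pad_PosC 2 hp) hi hR (by norm_num)) (pad_BdJC 2 hb _) hu hh hj hC
  · exact cert_of_JC1 hd hd6 (hok (s.Λ - 5 / 4)) (by norm_num; linarith) (pad_PosC 1 hp)
      (pad_IntJC1 1 (pad_PosC 1 hp) hi hR (by norm_num)) (pad_BdJC 1 hb _) hu hh hj hC
  · exact cert_of_JC1 hd hd6 hs (by norm_num; linarith) hp hi hb hu hh hj hC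

/-- The final form: scalar conditions in the eigenvalues. -/
theorem cert_of_sc {s : Ans} (hs : s.Ok1) (hD : s.Diag) (hΛ : 4 < s.Λ) (hp : s.PosD 4 R0) (hi : s.ScW 4 R0)
    (hb : s.BdDC 5) (hR : s.RD 5 R0 (5 / 4)) (hd : 2 ≤ d) (hd6 : d ≤ 6) {u : E d → ℝ} (hu : Mn 1 u) (hh : Hom u)
    (hj : JetsNear u) (hC : CvxH u) : ∀ x, 0 < u x → ∀ a b, pd a (pd b u) x = 0 :=
  cert_of_six1 hs hΛ (Ans.posC_of_D hp) (Ans.intJC_of_scW hD hi) (Ans.bdJC_of_D hb) (Ans.rJC_of_D hR) hd hd6 hu hh hj hC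

end Crest.Agent.R97
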