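import Crest.Agent.R97.CertA2
import Crest.Agent.R97.CertA4
import Crest.Agent.R97.CertB4

/-! CertCvx (helper13): `u D²u + (1 - |∇u|²)/2 ≥ 0` by a matrix maximum principle.  Aux prefix `cvx_`. -/

set_option autoImplicit false
open MeasureTheory Metric Set Filter Topology
open scoped RealInnerProductSpace NNReal

namespace Crest.Agent.R97

variable {d : ℕ} {u : E d → ℝ} {x : E d}

/-- the shifted form -/
noncomputable def cvx_M (u : E d → ℝ) (K : ℝ) (v w : Fin d → ℝ) (y : E d) : ℝ :=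
  u y * dp v (mv (ua u y) w) + (K - dp (up u y) (up u y)) / 2 * dp v w

theorem cvx_harm (h : HC u) (v w : Fin d → ℝ) : Harm (fun y => dp v (mv (ua u y) w)) {x | 0 < u x} := by
  have e : (fun y => dp v (mv (ua u y) w)) = fun y => ∑ i, v i * ∑ j, w j * pd i (pd j u) y := by
    funext y
    simp only [dp, mv, ua, mul_comm (w _)]
  rw [e]
  exact gr_harm_sum h.isOpen _ fun i => (gr_harm_sum h.isOpen _ fun j =>
    ((h.harm.pd h.isOpen j).pd h.isOpen i).const_mul h.isOpen _).const_mul h.isOpen _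

theorem cvx_Dh (h : HC u) (hx : 0 < u x) (v w : Fin d → ℝ) (l : Fin d) :
    ca2_D l x (fun y => dp v (mv (ua u y) w)) (tv (uT u x) v w l) := by
  have ha : ∀ i j, ca2_D l x (fun y => ua u y i j) (uT u x l i j) := fun i j =>
    ⟨(h.cd_ua hx i j).differentiableAt (by simp), rfl⟩
  have hc : ∀ c : ℝ, ca2_D l x (fun _ => c) 0 := fun c => ⟨differentiableAt_const _, pd_const _ _ _⟩
  have := ca2_dp (v := fun _ => v) (v' := fun _ => 0) (fun i => hc (v i))
    (ca2_mv (w := fun _ => w) (w' := fun _ => 0) ha fun i => hc (w i))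
  rw [← ca2_tv]
  convert this using 1
  simp [dp, mv]

theorem cvx_DS (h : HC u) (hx : 0 < u x) (l : Fin d) :
    ca2_D l x (fun y => dp (up u y) (up u y)) (2 * mv (ua u x) (up u x) l) := by
  have hp : ∀ i, ca2_D l x (fun y => up u y i) (ua u x l i) := fun i =>
    ⟨(h.cd_up hx i).differentiableAt (by simp), rfl⟩
  have := ca2_dp hp hp
  convert this using 1
  simp only [dp, mv, two_mul, mul_comm (up u x _)]

theorem cvx_S2 (h : HC u) (hx : 0 < u x) : ContDiffAt ℝ 2 (fun y => dp (up u y) (up u y)) x :=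
  ContDiffAt.sum (s := Finset.univ) fun i _ =>
    (ca1_two h (h.harm.pd h.isOpen i) hx).mul (ca1_two h (h.harm.pd h.isOpen i) hx)

theorem cvx_lap_sum {f : Fin d → E d → ℝ} (hf : ∀ i, ContDiffAt ℝ 2 (f i) x) :
    lap (fun y => ∑ i, f i y) x = ∑ i, lap (f i) x := by
  unfold lap
  rw [Finset.sum_comm]
  refine Finset.sum_congr rfl fun l _ => ?_
  have h : pd l (fun y => ∑ i, f i y) =ᶠ[𝓝 x] fun y => ∑ i, pd l (f i) y := by
    filter_upwards [eventually_all.2 fun i => hara_ev (hf i)] with y hy using pd_sum _ (fun i _ => hy i) l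
  rw [(pd_congr h l).self_of_nhds, pd_sum _ fun i _ => hara_d (hf i) l]

theorem cvx_lapS (h : HC u) (hx : 0 < u x) : lap (fun y => dp (up u y) (up u y)) x = 2 * fr (ua u x) (ua u x) := by
  have h2 := fun i => ca1_two h (h.harm.pd h.isOpen i) hx
  have e := cvx_lap_sum (x := x) (f := fun i y => pd i u y * pd i u y) fun i => (h2 i).mul (h2 i)
  refine e.trans ?_
  rw [fr, Finset.sum_comm, Finset.mul_sum]
  refine Finset.sum_congr rfl fun i _ => ?_
  rw [lap_mul (h2 i) (h2 i), (h.harm.pd h.isOpen i).2 x hx]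
  simp [ua]

theorem cvx_M2 (h : HC u) (hx : 0 < u x) (K : ℝ) (v w : Fin d → ℝ) : ContDiffAt ℝ 2 (cvx_M u K v w) x :=
  ((ca1_two h h.harm hx).mul (ca1_two h (cvx_harm h v w) hx)).add
    (((contDiffAt_const.sub (cvx_S2 h hx)).div_const 2).mul contDiffAt_const)

theorem cvx_form (K : ℝ) (v w : Fin d → ℝ) : cvx_M u K v w = fun y =>
    (u y * dp v (mv (ua u y) w) - (dp v w / 2) * dp (up u y) (up u y)) + K / 2 * dp v w := by
  funext y
  rw [cvx_M]
  ring

theorem cvx_pdM (h : HC u) (hx : 0 < u x) (K : ℝ) (v w : Fin d → ℝ) (l : Fin d) : pd l (cvx_M u K v w) x =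
    up u x l * dp v (mv (ua u x) w) + u x * tv (uT u x) v w l - mv (ua u x) (up u x) l * dp v w := by
  have hu : DifferentiableAt ℝ u x := (ca1_two h h.harm hx).differentiableAt (by simp)
  have h1 := cvx_Dh h hx v w l
  have h2 := cvx_DS h hx l
  rw [cvx_form, pd_add ((hu.fun_mul h1.1).fun_sub (h2.1.const_mul _)) (differentiableAt_const _), pd_const,
    pd_sub (hu.fun_mul h1.1) (h2.1.const_mul _), pd_mul hu h1.1, pd_const_mul, h1.2, h2.2, up]
  ring

theorem cvx_lapM (h : HC u) (hx : 0 < u x) (K : ℝ) (v w : Fin d → ℝ) : lap (cvx_M u K v w) x =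
    2 * dp (up u x) (tv (uT u x) v w) - fr (ua u x) (ua u x) * dp v w := by
  have hu := ca1_two h h.harm hx
  have h1 := ca1_two h (cvx_harm h v w) hx
  have h2 := cvx_S2 h hx
  rw [cvx_form, lap_add ((hu.mul h1).sub (contDiffAt_const.mul h2)) contDiffAt_const,
    (harm_const _ univ).2 x (mem_univ _), lap_sub (hu.mul h1) (contDiffAt_const.mul h2), lap_const_mul, cvx_lapS h hx,
    lap_mul hu h1, h.harm.2 x hx, (cvx_harm h v w).2 x hx]
  simp only [fun l => (cvx_Dh h hx v w l).2]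
  simp only [dp, up]
  ring

theorem cvx_expand {a : Fin d → Fin d → ℝ} (as : ∀ i j, a i j = a j i) (v w : Fin d → ℝ) (t : ℝ) :
    dp (fun i => v i + t * w i) (mv a fun i => v i + t * w i) =
      dp v (mv a v) + 2 * t * dp v (mv a w) + t ^ 2 * dp w (mv a w) ∧
    dp (fun i => v i + t * w i) (fun i => v i + t * w i) = dp v v + 2 * t * dp v w + t ^ 2 * dp w w := by
  have h := ca2_symm as w v
  constructor
  · rw [two_mul, add_mul]
    nth_rewrite 2 [← h]
    simp only [dp, mv, Finset.mul_sum, ← Finset.sum_add_distrib]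
    exact Finset.sum_congr rfl fun i _ => Finset.sum_congr rfl fun j _ => by ring
  · simp only [dp, Finset.mul_sum, ← Finset.sum_add_distrib]
    exact Finset.sum_congr rfl fun i _ => by ring

theorem cvx_sym (h : HC u) (hx : 0 < u x) (i j : Fin d) : ua u x i j = ua u x j i :=
  pd_comm (ca1_two h h.harm hx) i j

theorem cvx_Mexp (h : HC u) (hx : 0 < u x) (K : ℝ) (v w : Fin d → ℝ) (t : ℝ) :
    cvx_M u K (fun i => v i + t * w i) (fun i => v i + t * w i) x =
      cvx_M u K v v x + 2 * t * cvx_M u K v w x + t ^ 2 * cvx_M u K w w x := by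
  obtain ⟨h1, h2⟩ := cvx_expand (cvx_sym h hx) v w t
  simp only [cvx_M, h1, h2]
  ring

/-- the touching argument -/
theorem cvx_touch (h : HC u) (hx : 0 < u x) (h1 : ‖x‖ = 1) {K : ℝ} (hM : ∀ y, 0 < u y → ∀ v, 0 ≤ cvx_M u K v v y)
    {e : Fin d → ℝ} (he : dp e e = 1) (h0 : cvx_M u K e e x = 0) : fr (ua u x) (ua u x) ≤ 0 := by
  have hj := h.hj hx h1
  have hU : ∀ᶠ y in 𝓝 x, 0 < u y := h.isOpen.mem_nhds hx
  set p := up u x with hp
  have g1 : ∀ l, pd l (cvx_M u K e e) x = 0 := fun l => by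
    have : IsLocalMin (cvx_M u K e e) x := hU.mono fun y hy => h0 ▸ hM y hy e
    rw [pd, this.fderiv_eq_zero]
    rfl
  set L : E d → ℝ := fun z => 0 + ∑ a, (-(u x)⁻¹ * e a) * (z - x) a with hL
  have L0 : L x = 0 := by simp [hL]
  have L1 : ∀ l, pd l L x = -(u x)⁻¹ * e l := fun l => by rw [hL, gr_pd_aff]
  have L2 : lap L x = 0 := (gr_harm_aff x 0 _ univ).2 x (mem_univ _)
  have L3 : ContDiffAt ℝ 2 L x := by rw [hL]; fun_prop
  have A2 := cvx_M2 h hx K e e
  have B2 := cvx_M2 h hx K e p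
  have C2 := cvx_M2 h hx K p p
  have hmax : IsLocalMax (fun y => (-1 : ℝ) * (cvx_M u K e e y + L y * (2 * cvx_M u K e p y + L y * cvx_M u K p p y))) x := by
    filter_upwards [hU] with y hy
    have := hM y hy fun i => e i + L y * p i
    rw [cvx_Mexp h hy] at this
    rw [L0, h0]
    nlinarith
  have hB : ContDiffAt ℝ 2 (fun y => 2 * cvx_M u K e p y + L y * cvx_M u K p p y) x :=
    (contDiffAt_const.mul B2).add (L3.mul C2)
  have key := lap_nonpos_of_isLocalMax (contDiffAt_const.mul (A2.add (L3.mul hB))) hmax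
  have dB : ∀ l, pd l (fun y => 2 * cvx_M u K e p y + L y * cvx_M u K p p y) x =
      2 * pd l (cvx_M u K e p) x + -(u x)⁻¹ * e l * cvx_M u K p p x := fun l => by
    rw [pd_add ((B2.differentiableAt (by simp)).const_mul 2)
      ((L3.differentiableAt (by simp)).fun_mul (C2.differentiableAt (by simp))), pd_const_mul,
      pd_mul (L3.differentiableAt (by simp)) (C2.differentiableAt (by simp)), L0, L1, zero_mul, add_zero]
  rw [lap_const_mul, lap_add A2 (L3.mul hB), lap_mul L3 hB, L0, L2, cvx_lapM h hx, he] at key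
  simp only [L1, dB, cvx_pdM h hx, ← hp] at key
  -- algebra
  have e1 : ∀ l, u x * tv (uT u x) e e l = mv (ua u x) p l - p l * dp e (mv (ua u x) e) := fun l => by
    have := g1 l
    rw [cvx_pdM h hx, he] at this
    linarith
  have e2 : u x * dp p (tv (uT u x) e e) = dp p (mv (ua u x) p) - dp p p * dp e (mv (ua u x) e) := by
    simp only [dp] at e1 ⊢
    rw [Finset.mul_sum, Finset.sum_mul, ← Finset.sum_sub_distrib]
    exact Finset.sum_congr rfl fun l _ => by rw [mul_left_comm, e1 l]; ring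
  have e3 : dp e (tv (uT u x) e p) = dp p (tv (uT u x) e e) := by
    simp only [dp, tv, Finset.mul_sum]
    rw [Finset.sum_comm]
    conv_rhs => rw [Finset.sum_comm]
    refine Finset.sum_congr rfl fun i _ => ?_
    rw [Finset.sum_comm]
    refine Finset.sum_congr rfl fun j _ => Finset.sum_congr rfl fun l _ => ?_
    rw [hj.T1 l i j, hj.T2 i l j, hj.T1 i j l]
    ring
  have e4 : ∑ l, -(u x)⁻¹ * e l * (2 * (p l * dp e (mv (ua u x) p) + u x * tv (uT u x) e p l -
      mv (ua u x) p l * dp e p) + -(u x)⁻¹ * e l * cvx_M u K p p x) =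
      -(u x)⁻¹ * (2 * (dp e p * dp e (mv (ua u x) p) + u x * dp e (tv (uT u x) e p) - dp e (mv (ua u x) p) * dp e p)
        + -(u x)⁻¹ * dp e e * cvx_M u K p p x) := by
    have q1 : dp e p = ∑ l, e l * p l := rfl
    have q2 : dp e (mv (ua u x) p) = ∑ l, e l * mv (ua u x) p l := rfl
    have q3 : dp e (tv (uT u x) e p) = ∑ l, e l * tv (uT u x) e p l := rfl
    have q4 : dp e e = ∑ l, e l * e l := rfl
    generalize cvx_M u K p p x = c
    nth_rewrite 2 [q1]
    nth_rewrite 3 [q2]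
    rw [q3, q4]
    generalize dp e p = r, dp e (mv (ua u x) p) = s
    simp only [Finset.mul_sum, Finset.sum_mul, ← Finset.sum_add_distrib, ← Finset.sum_sub_distrib]
    exact Finset.sum_congr rfl fun l _ => by ring
  rw [e4, e3, he] at key
  have e5 : cvx_M u K p p x = u x * (u x * dp p (tv (uT u x) e e)) := by
    rw [e2]
    have := h0
    rw [cvx_M, he] at this
    rw [cvx_M, ← hp] at *
    linear_combination (dp p p) * this
  have hu0 := hx.ne'
  have e6 : ∀ r s t : ℝ, -(u x)⁻¹ * (2 * (r * s + u x * t - s * r) + -(u x)⁻¹ * 1 * (u x * (u x * t))) = -t :=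
    fun r s t => by
      field_simp
      ring
  rw [e5, e6] at key
  linarith

theorem cvx_smul (K c : ℝ) (v : Fin d → ℝ) (y : E d) : cvx_M u K (c • v) (c • v) y = c ^ 2 * cvx_M u K v v y := by
  simp only [cvx_M, ca1_dp1, ca1_dp2, ca1_mv2]
  ring

theorem cvx_hom (h : HC u) (hx : 0 < u x) {r : ℝ} (hr : 0 < r) (K : ℝ) (v : Fin d → ℝ) :
    cvx_M u K v v (r • x) = cvx_M u K v v x := by
  have h2 : ua u (r • x) = r⁻¹ • ua u x := funext₂ (h.ua_smul hx hr)
  simp only [cvx_M, h.up_smul hx hr, h2, h.hom r hr, ca1_mv1, ca1_dp2]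
  field_simp

theorem cvx_unit {v : Fin d → ℝ} (hv : v ≠ 0) : ∃ (c : ℝ) (e : Fin d → ℝ), dp e e = 1 ∧ v = c • e := by
  have h0 : 0 < dp v v := (Finset.sum_nonneg fun i _ => mul_self_nonneg (v i)).lt_of_ne fun h1 => hv (funext fun i =>
    mul_self_eq_zero.1 ((Finset.sum_eq_zero_iff_of_nonneg fun i _ => mul_self_nonneg (v i)).1 h1.symm i
      (Finset.mem_univ i)))
  have h1 := Real.sqrt_pos.2 h0
  refine ⟨√(dp v v), (√(dp v v))⁻¹ • v, ?_, by rw [smul_smul, mul_inv_cancel₀ h1.ne', one_smul]⟩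
  rw [ca1_dp1, ca1_dp2, ← mul_assoc, ← mul_inv, Real.mul_self_sqrt h0.le, inv_mul_cancel₀ h0.ne']

theorem cvx_le1 {e : Fin d → ℝ} (he : dp e e = 1) (i : Fin d) : |e i| ≤ 1 := by
  have := Finset.single_le_sum (f := fun j => e j * e j) (fun j _ => mul_self_nonneg _) (Finset.mem_univ i)
  exact abs_le_one_iff_mul_self_le_one.2 (this.trans he.le)

theorem cvx_one (hd : 1 ≤ d) (h : HC u) (hu : Mn 1 u) (hj : JetsNear u) (hx : 0 < u x) (h1 : ‖x‖ = 1)
    {e : Fin d → ℝ} (he : dp e e = 1) : 0 ≤ cvx_M u 1 e e x := by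
  by_contra hneg
  rw [not_le] at hneg
  obtain ⟨M, c, -, hb⟩ := jets_bdd h hj
  set N : ℝ := d * (d * |M|) + 1 with hN
  have hN0 : 0 < N := by positivity
  set δ : ℝ := min (u x) (-cvx_M u 1 e e x / N) with hδ
  have hδ0 : 0 < δ := lt_min hx (div_pos (neg_pos.2 hneg) hN0)
  have hδ1 : δ ≤ u x := min_le_left _ _
  have hKe : IsCompact {v : Fin d → ℝ | dp v v = 1} := by
    refine (isCompact_univ_pi fun _ => isCompact_Icc (a := (-1 : ℝ)) (b := 1)).of_isClosed_subset
      (isClosed_eq (by unfold dp; fun_prop) continuous_const) fun v hv i _ => abs_le.1 (cvx_le1 hv i)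
  have hK : IsCompact ((sphere (0 : E d) 1 ∩ {x | δ ≤ u x}) ×ˢ {v : Fin d → ℝ | dp v v = 1}) :=
    ((isCompact_sphere 0 1).inter_right (isClosed_le continuous_const h.cont)).prod hKe
  have hc : ContinuousOn (fun z : E d × (Fin d → ℝ) => cvx_M u 1 z.2 z.2 z.1)
      ((sphere (0 : E d) 1 ∩ {x | δ ≤ u x}) ×ˢ {v : Fin d → ℝ | dp v v = 1}) := by
    intro z hz
    have hz0 : 0 < u z.1 := hδ0.trans_le hz.1.2
    have c1 : ∀ i, ContinuousAt (fun z : E d × (Fin d → ℝ) => up u z.1 i) z := fun i =>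
      (h.cd_up hz0 i).continuousAt.comp continuousAt_fst
    have c2 : ∀ i j, ContinuousAt (fun z : E d × (Fin d → ℝ) => ua u z.1 i j) z := fun i j =>
      (h.cd_ua hz0 i j).continuousAt.comp continuousAt_fst
    have c3 := h.cont
    refine ContinuousAt.continuousWithinAt ?_
    unfold cvx_M dp mv
    fun_prop
  obtain ⟨⟨x0, e0⟩, ⟨⟨hx0, hδx⟩, he0⟩, hmin⟩ := hK.exists_isMinOn
    ⟨(x, e), ⟨mem_sphere_zero_iff_norm.2 h1, hδ1⟩, he⟩ hc
  have hx1 : ‖x0‖ = 1 := mem_sphere_zero_iff_norm.1 hx0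
  have hx2 : 0 < u x0 := hδ0.trans_le hδx
  set m := cvx_M u 1 e0 e0 x0 with hm
  have hm1 : m ≤ cvx_M u 1 e e x := hmin (a := (x, e)) ⟨⟨mem_sphere_zero_iff_norm.2 h1, hδ1⟩, he⟩
  have sh : ∀ v y, cvx_M u (1 - 2 * m) v v y = cvx_M u 1 v v y - m * dp v v := fun v y => by
    simp only [cvx_M]
    ring
  have all1 : ∀ y : E d, ‖y‖ = 1 → 0 < u y → ∀ v, dp v v = 1 → m ≤ cvx_M u 1 v v y := fun y hy1 hy v hv => by
    by_cases hs : δ ≤ u y
    · exact hmin (a := (y, v)) ⟨⟨mem_sphere_zero_iff_norm.2 hy1, hs⟩, hv⟩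
    · have b1 : |dp v (mv (ua u y) v)| ≤ d * (d * |M|) := by
        refine (Finset.abs_sum_le_sum_abs _ _).trans ((Finset.sum_le_card_nsmul _ _ (d * |M|) fun i _ => ?_).trans_eq
          (by simp))
        rw [abs_mul]
        refine (mul_le_of_le_one_left (abs_nonneg _) (cvx_le1 hv i)).trans
          ((Finset.abs_sum_le_sum_abs _ _).trans ((Finset.sum_le_card_nsmul _ _ |M| fun j _ => ?_).trans_eq (by simp)))
        rw [abs_mul]
        exact (mul_le_of_le_one_right (abs_nonneg _) (cvx_le1 hv j)).trans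
          (((hb y hy1 hy).2.2.1 i j).trans (le_abs_self _))
      have b2 := (ij_of hd h hu hy hy1).le1
      have b3 : u y * N ≤ -cvx_M u 1 e e x :=
        (le_div_iff₀ hN0).1 ((not_le.1 hs).le.trans (min_le_right _ _))
      have b4 := (abs_le.1 b1).1
      rw [cvx_M.eq_1 u 1 v v y, hv]
      nlinarith
  have all : ∀ y, 0 < u y → ∀ v, 0 ≤ cvx_M u (1 - 2 * m) v v y := fun y hy v => by
    by_cases hv : v = 0
    · simp [hv, cvx_M, dp]
    obtain ⟨c, w, hw, rfl⟩ := cvx_unit hv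
    have hn := inv_pos.2 (norm_pos_iff.2 (h.ne_zero hy))
    rw [cvx_smul, ← cvx_hom h hy hn, sh, hw, mul_one]
    exact mul_nonneg (sq_nonneg _) (sub_nonneg.2
      (all1 _ (norm_smul_inv_norm (h.ne_zero hy)) (h.smul_pos hy hn) w hw))
  have h0 := cvx_touch h hx2 hx1 all he0 (by rw [sh, he0, mul_one, sub_self])
  have ha : ∀ a b, ua u x0 a b = 0 := fun a b => by
    have h5 := Finset.single_le_sum (f := fun j => ua u x0 a j * ua u x0 a j) (fun j _ => mul_self_nonneg _)
      (Finset.mem_univ b)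
    have h6 := Finset.single_le_sum (f := fun i => ∑ j, ua u x0 i j * ua u x0 i j)
      (fun i _ => Finset.sum_nonneg fun j _ => mul_self_nonneg _) (Finset.mem_univ a)
    exact mul_self_eq_zero.1 (le_antisymm (h5.trans (h6.trans h0)) (mul_self_nonneg _))
  have b2 := (ij_of hd h hu hx2 hx1).le1
  have b3 : dp e0 (mv (ua u x0) e0) = 0 := by simp [dp, mv, ha]
  rw [cvx_M, b3, he0] at hm
  linarith

/-- `u D²u + (1 - |∇u|²)/2 ≥ 0` -/
theorem cvx_of (hd : 1 ≤ d) (h : HC u) (hu : Mn 1 u) (hj : JetsNear u) (hx : 0 < u x) :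
    Cvx x (up u x) (ua u x) := fun v => by
  rw [h.euler hx]
  change 0 ≤ cvx_M u 1 v v x
  by_cases hv : v = 0
  · simp [hv, cvx_M, dp]
  obtain ⟨c, w, hw, rfl⟩ := cvx_unit hv
  have hn := inv_pos.2 (norm_pos_iff.2 (h.ne_zero hx))
  rw [cvx_smul, ← cvx_hom h hx hn]
  exact mul_nonneg (sq_nonneg _) (cvx_one hd h hu hj (h.smul_pos hx hn) (norm_smul_inv_norm (h.ne_zero hx)) hw)

/-- `D²u + ρ ≥ 0` -/
theorem cvx_rho (hd : 1 ≤ d) (h : HC u) (hu : Mn 1 u) (hj : JetsNear u) (hx : 0 < u x) :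
    CvxB (rho u x) (ua u x) := fun v => by
  have h1 := cvx_of hd h hu hj hx v
  have hp : dp (up u x) (up u x) = ‖gradient u x‖ ^ 2 := by
    rw [norm_gradient_sq]
    simp only [dp, up, sq]
  rw [h.euler hx, hp] at h1
  have h2 := div_nonneg h1 hx.le
  have hu0 := hx.ne'
  refine h2.trans_eq ?_
  rw [rho]
  field_simp

end Crest.Agent.R97
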