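import Crest.Agent.R97.CertN
import Crest.Agent.R97.CertCvx

/-! CertJC (helper23): the analytic half of the certificate, complete.  What remains is algebra in dimension six. -/

set_option autoImplicit false
open MeasureTheory Metric Set Filter Topology
open scoped RealInnerProductSpace NNReal

namespace Crest.Agent.R97

variable {d : ℕ}

theorem cvxH (hd : 1 ≤ d) {u : E d → ℝ} (hu : Mn 1 u) (hh : Hom u) (hj : JetsNear u) : CvxH u :=
  fun _ _ hx => cvx_of hd ⟨hu.lip.continuous, hh, hu.harm⟩ hu hj hx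

theorem certJC (hd : 2 ≤ d) (hd6 : d ≤ 6) : CertJC d R0 :=
  certJC_of hd hd6 fun _ hu hh hj => cvxH (by omega) hu hh hj

/-- one certificate in dimension six, on the domain `Cvx` and `R0`, gives `cert` -/
theorem cert_of_six0 {s : Ans} (hs : s.Ok) (hΛ : 4 < s.Λ) (hi : s.IntJC 6 R0) (hb : s.BdJC 6)
    (hR : s.RJC 6 R0 (5 / 4)) (hd : 2 ≤ d) (hd6 : d ≤ 6) {u : E d → ℝ} (hu : Mn 1 u) (hh : Hom u)
    (hj : JetsNear u) : ∀ x, 0 < u x → ∀ a b, pd a (pd b u) x = 0 :=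
  cert_of_sixC (fun _ h3 h6 => certJC (by omega) h6) hs hΛ hi hb hR hd hd6 hu hh hj

/-- the same with the scalar conditions in the eigenbasis -/
theorem cert_of_dir {s : Ans} (hs : s.Ok) (hΛ : 4 < s.Λ) (hD : s.Diag) (hi : s.DirC 5 R0) (hb : s.BdDC 5)
    (hR : s.RD 5 R0 (5 / 4)) (hd : 2 ≤ d) (hd6 : d ≤ 6) {u : E d → ℝ} (hu : Mn 1 u) (hh : Hom u)
    (hj : JetsNear u) : ∀ x, 0 < u x → ∀ a b, pd a (pd b u) x = 0 :=
  cert_of_six0 hs hΛ (Ans.intJC_of_dir (by norm_num) hD hi) (Ans.bdJC_of_D hb) (Ans.rJC_of_D hR) hd hd6 hu hh hj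

end Crest.Agent.R97
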