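import Crest.Agent.R97.CertB7
import Crest.Agent.R97.CertF
import Crest.Agent.R97.CertJC

/-! CertB8 (helper87): the certificate from the normalised conditions on a table of class F. -/

set_option autoImplicit false

namespace Crest.Agent.R97

/-- `R0` in normalised form: `X = (z s)² = u² |a|²`, `p = 1 - S` -/
def R1 (X p : ℝ) : Prop := X ≤ 5 / 14 * (p * (2 - p))

theorem R1_of (y : Fin 6 → ℝ) (h : R0 y) : R1 (y 1 ^ 2 * y 0) (1 - y 2) := by
  unfold R0 at h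
  unfold R1
  linarith

theorem Tab.posA {N : Tab} (hN : N.Sh) {m : ℕ} {R : (Fin 6 → ℝ) → Prop} {R' : ℝ → ℝ → Prop}
    (hR : ∀ y, R y → R' (y 1 ^ 2 * y 0) (1 - y 2)) (h : N.NW m R') : N.ans.PosD m R := by
  intro y l μ a
  have key : 0 < y 0 → 0 < N.ans.Φ y := fun hp => by
    obtain ⟨σ, s, z, p, θ, w, ν, s0, co, -, -, na, hθ⟩ := a.norm hN.c hR hp
    have g := (h s z p w θ ν na hθ).1
    have hW := co.all.W0
    rw [co.all.F.v, Tb.v_eq, hN.F, pe, zero_add]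
    positivity
  refine ⟨?_, key⟩
  by_cases hp : 0 < y 0
  · exact (key hp).le
  · obtain ⟨rfl, rfl⟩ := a.zero hp
    exact (Tab.zero hN (by simpa using a.y0) (by simpa using a.y4)).1.ge

theorem cert_of_tab {N : Tab} (hN : N.Sh) (hΛ : 4 < N.Λ) (hW : N.NW 4 R1) (hR : N.NR 4 R1 (5 / 4)) (hB : N.NB 4)
    {d : ℕ} (hd : 2 ≤ d) (hd6 : d ≤ 6) {u : E d → ℝ} (hu : Mn 1 u) (hh : Hom u) (hj : JetsNear u) :
    ∀ x, 0 < u x → ∀ a b, pd a (pd b u) x = 0 :=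
  cert_of_sc ⟨N.smΦ hN.c, N.smc hN.c⟩ N.diag hΛ (Tab.posA hN R1_of hW)
    (Tab.scW hN R1_of hW (Tab.K0_of_NW hW fun p p0 p1 => by unfold R1; nlinarith)) (Tab.bdDC hN hB)
    (Tab.rD hN R1_of hR) hd hd6 hu hh hj (cvxH (by omega) hu hh hj)

end Crest.Agent.R97
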