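import Crest.Agent.R97.CertF
import Crest.Agent.R97.CertB7

/-! CertF2 (helper64): the side condition is only needed on the padded spectra. -/

set_option autoImplicit false
open MeasureTheory Metric Set Filter Topology
open scoped RealInnerProductSpace NNReal

namespace Crest.Agent.R97

variable {d : ℕ}

theorem pad_IntJC2 (k : ℕ) {s : Ans} {R : (Fin 6 → ℝ) → Prop} (hs : s.PosC d R) (h : s.IntJC (d + k) R) {c : ℝ}
    (hR : s.RJC d R c) {Λ : ℝ} (hΛ : Λ + k * c ≤ s.Λ) : Ans.IntJC { s with Λ := Λ } d R := by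
  intro x p a T hj hC hy
  have h1 := h _ _ _ _ (pad_IJ k hj) (pad_Cvx k hj.le1 hC) (by rwa [pad_sv])
  have h2 := hR _ _ _ _ hj hC hy
  have h3 := (hs _ _ _ _ hj hC hy).1
  rw [pad_G, pad_gr, pad_dp, pad_sv] at h1
  have h4 : s.G x p a T + k * ∑ m, s.c m (sv x p a) * radX (sv x p a) m ≤ Ans.G x p a T { s with Λ := Λ } := by
    have h5 := mul_le_mul_of_nonneg_left h2 (Nat.cast_nonneg (α := ℝ) k)
    have h6 := mul_le_mul_of_nonneg_right hΛ h3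
    simp only [Ans.G]
    nlinarith
  exact ⟨h1.1.trans h4, h1.2.trans (mul_le_mul_of_nonneg_left h4 (by positivity))⟩

/-- One certificate in dimension 6 gives all dimensions; side conditions in dimensions 5, 4, 3. -/
theorem cert_of_six2 {s : Ans} (hs : s.Ok1) (hΛ : 4 < s.Λ) (hp : s.PosC 6 R0) (hi : s.IntJC 6 R0) (hb : s.BdJC 6)
    (h5 : s.RJC 5 R0 (7 / 4)) (h4 : s.RJC 4 R0 (3 / 2)) (h3 : s.RJC 3 R0 (5 / 4))
    (hd : 2 ≤ d) (hd6 : d ≤ 6) {u : E d → ℝ} (hu : Mn 1 u) (hh : Hom u) (hj : JetsNear u)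
    (hC : CvxH u) : ∀ x, 0 < u x → ∀ a b, pd a (pd b u) x = 0 := by
  have hok : ∀ Λ, Ans.Ok1 { s with Λ := Λ } := fun Λ => ⟨hs.Φ, hs.c⟩
  interval_cases d
  · exact cert_two hu hh hj
  · exact cert_of_JC1 hd hd6 (hok (s.Λ - 15 / 4)) (by norm_num; linarith) (pad_PosC 3 hp)
      (pad_IntJC2 3 (pad_PosC 3 hp) hi h3 (by norm_num)) (pad_BdJC 3 hb _) hu hh hj hC
  · exact cert_of_JC1 hd hd6 (hok (s.Λ - 3)) (by norm_num; linarith) (pad_PosC 2 hp)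
      (pad_IntJC2 2 (pad_PosC 2 hp) hi h4 (by norm_num)) (pad_BdJC 2 hb _) hu hh hj hC
  · exact cert_of_JC1 hd hd6 (hok (s.Λ - 7 / 4)) (by norm_num; linarith) (pad_PosC 1 hp)
      (pad_IntJC2 1 (pad_PosC 1 hp) hi h5 (by norm_num)) (pad_BdJC 1 hb _) hu hh hj hC
  · exact cert_of_JC1 hd hd6 hs (by norm_num; linarith) hp hi hb hu hh hj hC

/-- The final form with the relaxed side conditions. -/
theorem cert_of_sc2 {s : Ans} (hs : s.Ok1) (hD : s.Diag) (hΛ : 4 < s.Λ) (hp : s.PosD 4 R0) (hi : s.ScW 4 R0)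
    (hb : s.BdDC 5) (h5 : s.RD 4 R0 (7 / 4)) (h4 : s.RD 3 R0 (3 / 2)) (h3 : s.RD 2 R0 (5 / 4))
    (hd : 2 ≤ d) (hd6 : d ≤ 6) {u : E d → ℝ} (hu : Mn 1 u) (hh : Hom u)
    (hj : JetsNear u) (hC : CvxH u) : ∀ x, 0 < u x → ∀ a b, pd a (pd b u) x = 0 :=
  cert_of_six2 hs hΛ (Ans.posC_of_D hp) (Ans.intJC_of_scW hD hi) (Ans.bdJC_of_D hb) (Ans.rJC_of_D h5)
    (Ans.rJC_of_D h4) (Ans.rJC_of_D h3) hd hd6 hu hh hj hC

end Crest.Agent.R97
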