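import Crest.Agent.R97.CertB8
import Crest.Agent.R97.CertF2

/-! CertB9 (helper64): the certificate from a table of class F with the relaxed side conditions. -/

set_option autoImplicit false

namespace Crest.Agent.R97

theorem cert_of_tab2 {N : Tab} (hN : N.Sh) (hΛ : 4 < N.Λ) (hW : N.NW 4 R1) (h5 : N.NR 3 R1 (7 / 4))
    (h4 : N.NR 2 R1 (3 / 2)) (h3 : N.NR 1 R1 (5 / 4)) (hB : N.NB 4)
    {d : ℕ} (hd : 2 ≤ d) (hd6 : d ≤ 6) {u : E d → ℝ} (hu : Mn 1 u) (hh : Hom u) (hj : JetsNear u) :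
    ∀ x, 0 < u x → ∀ a b, pd a (pd b u) x = 0 :=
  cert_of_sc2 ⟨N.smΦ hN.c, N.smc hN.c⟩ N.diag hΛ (Tab.posA hN R1_of hW)
    (Tab.scW hN R1_of hW (Tab.K0_of_NW hW fun p p0 p1 => by unfold R1; nlinarith)) (Tab.bdDC hN hB)
    (Tab.rD hN R1_of h5) (Tab.rD hN R1_of h4) (Tab.rD hN R1_of h3) hd hd6 hu hh hj (cvxH (by omega) hu hh hj)

end Crest.Agent.R97
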