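import Crest.Agent.R97.CertP5

/-!
CertP6 (helper51): the 5×5 condition in the chart `(s, z, P, u, th)`.
-/

set_option autoImplicit false

namespace Crest.Agent.R97

/-- a quadratic form in five variables given by its 15 entries -/
def quad5 (e00 e01 e02 e03 e04 e11 e12 e13 e14 e22 e23 e24 e33 e34 e44 x0 x1 x2 x3 x4 : ℝ) : ℝ :=
  e00 * x0 ^ 2 + e11 * x1 ^ 2 + e22 * x2 ^ 2 + e33 * x3 ^ 2 + e44 * x4 ^ 2
    + 2 * (e01 * (x0 * x1) + e02 * (x0 * x2) + e03 * (x0 * x3) + e04 * (x0 * x4) + e12 * (x1 * x2) + e13 * (x1 * x3)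
      + e14 * (x1 * x4) + e23 * (x2 * x3) + e24 * (x2 * x4) + e34 * (x3 * x4))

section shape
variable (l n th : ℝ)
/-- `δ²`; `v = Σ aᵢ xᵢ`, `v' = Σ bᵢ xᵢ`; `θ = tr â³` -/
def sD : ℝ := 2 - 2 * th ^ 2
noncomputable def sA1 : ℝ := 2 * (n * th - 5 / 4 * l)
noncomputable def sA2 : ℝ := -(2 * (n * th + 5 / 4 * l))
def sA3 : ℝ := 2 * (n * sD th)
noncomputable def sB1 : ℝ := 2 * ((n * th - l / 4) ^ 2 - l ^ 2)
noncomputable def sB2 : ℝ := 2 * ((n * th + l / 4) ^ 2 + n ^ 2 * sD th - l ^ 2)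
noncomputable def sB3 : ℝ := -(4 * (n * sD th) * (n * th + l / 4))
noncomputable def sTh : ℝ := l * (15 / 16 * l ^ 2 - 3 * n ^ 2) - 6 * (n ^ 3 * (th * sD th))
end shape

/-- `M(a, b; a', b')` -/
def sM (m1 m2 m3 a b a' b' : ℝ) : ℝ := m1 * (a * a') + m2 * (a * b' + a' * b) + m3 * (b * b')

/-- the form in `(π, xb, x0, x, y)` with abstract table values -/
noncomputable def mat5 (K D F g1 g2 g3 m1 m2 m3 c1 c2 c0 G0 P l n th x0 x1 x2 x3 x4 : ℝ) : ℝ :=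
  quad5 (G0 + P ^ 2 * c0)
    (P * (c1 * sA1 l n th + c2 * sB1 l n th)) (P * (c1 * sA2 l n th + c2 * sB2 l n th))
    (P * (c1 * sA3 n th + c2 * sB3 l n th)) (P * g3)
    (4 * (K + 2 * D * l) + 2 * (3 * K + D * (l + 4 * (n * th)))
      + sM m1 m2 m3 (sA1 l n th) (sB1 l n th) (sA1 l n th) (sB1 l n th))
    (4 * (K + 2 * D * l) + sM m1 m2 m3 (sA1 l n th) (sB1 l n th) (sA2 l n th) (sB2 l n th))
    (sM m1 m2 m3 (sA1 l n th) (sB1 l n th) (sA3 n th) (sB3 l n th))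
    (g1 * sA1 l n th + g2 * sB1 l n th)
    (4 * (K + 2 * D * l) + 2 * (3 * K + D * (l - 4 * (n * th)))
      + sM m1 m2 m3 (sA2 l n th) (sB2 l n th) (sA2 l n th) (sB2 l n th))
    (8 * D * (n * sD th) + sM m1 m2 m3 (sA2 l n th) (sB2 l n th) (sA3 n th) (sB3 l n th))
    (g1 * sA2 l n th + g2 * sB2 l n th)
    (2 * (3 * K + D * (l - 4 * (n * th))) * sD th + sM m1 m2 m3 (sA3 n th) (sB3 l n th) (sA3 n th) (sB3 l n th))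
    (g1 * sA3 n th + g2 * sB3 l n th)
    F x0 x1 x2 x3 x4

/-- the chart domain -/
structure DomC (c zm s z P u th p l n : ℝ) : Prop where
  s0 : 0 ≤ s
  s1 : s ≤ 1
  z0 : 0 ≤ z
  z1 : z ≤ zm
  P0 : 0 ≤ P
  P1 : P ≤ 1
  u0 : -(9 / 20) ≤ u
  u1 : u ≤ 9 / 20
  th0 : -(29 / 50) ≤ th
  th1 : th ≤ 29 / 50
  hp : p = 1 - P ^ 2 - z ^ 2 * (1 - s ^ 2) / c
  hl : l = 4 * u / (1 + 5 * u ^ 2)
  hn : n = (1 - 5 * u ^ 2) / (2 * (1 + 5 * u ^ 2))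
  p0 : 0 ≤ p
  p1 : p ≤ 1
  u5 : 5 * u ^ 2 ≤ 1
  th3 : 3 * th ^ 2 ≤ 1
  n0 : 0 ≤ n
  un : 5 / 4 * l ^ 2 + 4 * n ^ 2 = 1
  r1 : (z * s) ^ 2 ≤ 5 / 14 * (p * (2 - p))
  cl : 0 ≤ z * s * l + p / 2
  cX : 0 ≤ p / 2 + z * s * (n * th - l / 4)
  cY : 0 ≤ p / 2 - z * s * (n * th + l / 4)
  c3 : (z * s) ^ 2 * (n ^ 2 * sD th) ≤ (p / 2 - z * s * (n * th + l / 4)) * (p - z * s * l / 2)

/-- the scalar rows -/
def Tab.Rows (N : Tab) (zm : ℝ) : Prop :=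
  ∀ s z P u th p l n θ K D : ℝ, DomC N.c zm s z P u th p l n → θ = sTh l n th → K = N.K.v s z p θ →
    D = s * N.D.v s z p θ → 0 < K + 2 * D * l ∧ 0 < 3 * K + D * (l + 4 * (n * th)) ∧
      0 < 3 * K + D * (l - 4 * (n * th)) ∧ 16 * D ^ 2 * (n ^ 2 * sD th) < (3 * K + D * (l - 4 * (n * th))) ^ 2

/-- the matrix condition -/
def Tab.Mat (N : Tab) (zm : ℝ) : Prop :=
  ∀ s z P u th p l n θ : ℝ, DomC N.c zm s z P u th p l n → θ = sTh l n th →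
    ∃ ε : ℝ, 0 < ε ∧ ∀ x0 x1 x2 x3 x4 : ℝ, ε * (x1 ^ 2 + x2 ^ 2 + x3 ^ 2 + x4 ^ 2) ≤
      mat5 (N.K.v s z p θ) (s * N.D.v s z p θ) (N.F.h s z p θ) (N.pg1 s z p θ) (N.pg2 s z p θ) (N.pg3 s z p θ l)
        (N.pm1 s z p θ) (N.pm2 s z p θ) (N.pm3 s z p θ) (N.pc1 s z p θ l) (N.pc2 s z p θ l) (N.pc0 s z p θ l)
        (N.G0 s z p θ 5) P l n th x0 x1 x2 x3 x4

theorem form5_eq (K D F g1 g2 g3 m1 m2 m3 c1 c2 c0 G0 P l n th δ x0 xb x2 x y : ℝ) (hδ : δ ^ 2 = sD th) :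
    mat5 K D F g1 g2 g3 m1 m2 m3 c1 c2 c0 G0 P l n th x0 xb x2 x y
      = G0 * x0 ^ 2 + form5 K D F g1 g2 g3 m1 m2 m3 c1 c2 c0 l (n * th) (n * δ) (P * x0) xb x2 (δ * x) y := by
  simp only [mat5, quad5, sM, sA1, sA2, sA3, sB1, sB2, sB3, form5, v5a, v5b, ← hδ]
  ring

theorem form5_P (K D F g1 g2 g3 m1 m2 m3 c1 c2 c0 l t R P xb x0 x1 y : ℝ) :
    form5 K D F g1 g2 g3 m1 m2 m3 c1 c2 c0 l t R P xb x0 x1 y
      = form5 K D F g1 g2 g3 m1 m2 m3 c1 c2 0 l t R 0 xb x0 x1 y + c0 * P ^ 2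
        + 2 * P * ((c1 * v5a l t R 1 0 0 + c2 * v5b l t R 1 0 0) * xb + (c1 * v5a l t R 0 1 0 + c2 * v5b l t R 0 1 0) * x0
          + (c1 * v5a l t R 0 0 1 + c2 * v5b l t R 0 0 1) * x1 + g3 * y) := by
  simp only [form5, v5a, v5b]
  ring

theorem exists_chart {l t R : ℝ} (un : 5 / 4 * l ^ 2 + 4 * t ^ 2 + 2 * R ^ 2 = 1) (R0 : 0 ≤ R) (t0 : -R ≤ 2 * t)
    (t1 : 2 * t ≤ R) : ∃ u th n δ : ℝ, 0 ≤ n ∧ 1 ≤ δ ∧ δ ^ 2 = sD th ∧ t = n * th ∧ R = n * δ ∧ 3 * th ^ 2 ≤ 1 ∧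
      5 * u ^ 2 ≤ 1 ∧ 5 / 4 * l ^ 2 + 4 * n ^ 2 = 1 ∧ l = 4 * u / (1 + 5 * u ^ 2) ∧
      n = (1 - 5 * u ^ 2) / (2 * (1 + 5 * u ^ 2)) := by
  obtain ⟨n, n0, hn⟩ : ∃ n : ℝ, 0 ≤ n ∧ n ^ 2 = t ^ 2 + R ^ 2 / 2 :=
    ⟨_, Real.sqrt_nonneg _, Real.sq_sqrt (by positivity)⟩
  have t2 : 4 * t ^ 2 ≤ R ^ 2 := by nlinarith
  obtain ⟨th, ht, th3⟩ : ∃ th : ℝ, t = n * th ∧ 3 * th ^ 2 ≤ 1 := by
    rcases n0.eq_or_lt with h | h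
    · refine ⟨0, ?_, by norm_num⟩
      rw [← h] at hn
      nlinarith [sq_nonneg R, sq_nonneg t]
    · refine ⟨t / n, by field_simp, ?_⟩
      rw [div_pow, ← mul_div_assoc, div_le_one (by positivity)]
      linarith
  have d0 : 1 ≤ sD th := by rw [sD]; linarith
  obtain ⟨δ, δ0, hδ⟩ : ∃ δ : ℝ, 0 ≤ δ ∧ δ ^ 2 = sD th := ⟨_, Real.sqrt_nonneg _, Real.sq_sqrt (by linarith)⟩
  have δ1 : 1 ≤ δ := by nlinarith
  have hR : R = n * δ := by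
    refine (pow_left_inj₀ R0 (mul_nonneg n0 δ0) two_ne_zero).1 ?_
    rw [mul_pow, hδ, sD]
    rw [ht] at hn
    linarith
  have un' : 5 / 4 * l ^ 2 + 4 * n ^ 2 = 1 := by linarith
  have n1 : 0 < 1 + 2 * n := by linarith
  have e : 1 + 5 * (l / (2 * (1 + 2 * n))) ^ 2 = 2 / (1 + 2 * n) := by
    field_simp
    linear_combination 4 * un'
  refine ⟨l / (2 * (1 + 2 * n)), th, n, δ, n0, δ1, hδ, ht, hR, th3, ?_, un', ?_, ?_⟩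
  · have : 2 / (1 + 2 * n) ≤ 2 := by rw [div_le_iff₀ n1]; linarith
    linarith
  · rw [e]; field_simp; ring
  · have e' : 1 - 5 * (l / (2 * (1 + 2 * n))) ^ 2 = 2 - 2 / (1 + 2 * n) := by linarith
    rw [e', e]; field_simp; ring

theorem Tab.P5_of_mat {N : Tab} {zm : ℝ} (hc : 5 / 7 ≤ N.c) (z0 : 0 ≤ zm) (hz : N.c ≤ zm ^ 2) (hR : N.Rows zm)
    (hM : N.Mat zm) : N.P5 := by
  intro s z p l t R θ K D dom hθ hK hD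
  have c0 : 0 < N.c := by linarith
  obtain ⟨u, th, n, δ, n0, δ1, hδ, rfl, rfl, th3, u5, un, hl, hn⟩ := exists_chart dom.un dom.R0 dom.t0 dom.t1
  have PP0 : 0 ≤ N.PP s z p := by
    have := (div_le_iff₀ c0).2 (dom.zS.trans_eq (mul_comm _ _))
    rw [Tab.PP]; linarith
  obtain ⟨P, P0, hP⟩ : ∃ P : ℝ, 0 ≤ P ∧ P ^ 2 = N.PP s z p := ⟨_, Real.sqrt_nonneg _, Real.sq_sqrt PP0⟩
  have s2 : 0 ≤ 1 - s ^ 2 := by nlinarith [dom.s0, dom.s1]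
  have q0 : 0 ≤ z ^ 2 * (1 - s ^ 2) / N.c := by positivity
  have P1 : P ≤ 1 := by
    have : P ^ 2 ≤ 1 := by rw [hP, Tab.PP]; linarith [dom.p0]
    nlinarith
  have z1 : z ≤ zm := by
    refine (abs_le_of_sq_le_sq' (le_trans ?_ hz) z0).2
    nlinarith [dom.zS, dom.r1, mul_nonneg dom.p0 (sub_nonneg.2 hc), sq_nonneg p]
  have uu := abs_le_of_sq_le_sq' (show u ^ 2 ≤ (9 / 20) ^ 2 by linarith) (by norm_num)
  have tt := abs_le_of_sq_le_sq' (show th ^ 2 ≤ (29 / 50) ^ 2 by linarith) (by norm_num)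
  have e2 : (n * δ) ^ 2 = n ^ 2 * sD th := by rw [mul_pow, hδ]
  have dc : DomC N.c zm s z P u th p l n :=
    ⟨dom.s0, dom.s1, dom.z0, z1, P0, P1, uu.1, uu.2, tt.1, tt.2, by rw [hP, Tab.PP]; ring, hl, hn, dom.p0, dom.p1, u5,
      th3, n0, un, dom.r1, dom.cl, dom.cX, dom.cY, by rw [← e2, ← mul_pow]; exact dom.c3⟩
  have eθ : θ = sTh l n th := by rw [hθ, e2, sTh, sD]; ring
  obtain ⟨k1, k2, k3, k4⟩ := hR s z P u th p l n θ K D dc eθ hK hD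
  obtain ⟨ε, ε0, k5⟩ := hM s z P u th p l n θ dc eθ
  rw [← hK, ← hD] at k5
  simp only [form5_eq _ _ _ _ _ _ _ _ _ _ _ _ _ _ _ _ _ δ _ _ _ _ _ hδ] at k5
  have k6 := abs_lt_of_sq_lt_sq' (show (4 * D * (n * δ)) ^ 2 < (3 * K + D * (l - 4 * (n * th))) ^ 2 by
    rw [mul_pow, mul_pow, e2]; linarith) k3.le
  have δ0 : 0 < δ := by linarith
  have kF : 0 < N.F.h s z p θ := by
    have := k5 0 0 0 0 1
    simp only [form5, v5a, v5b] at this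
    linarith
  refine ⟨kF, k1, k2, by linarith [k6.2], by linarith [k6.1], ?_⟩
  rw [← hP]
  rcases P0.eq_or_lt with h0 | h0
  · subst h0
    have g0 := k5 1 0 0 0 0
    simp only [form5, v5a, v5b] at g0
    generalize N.pc0 s z p θ l = c0' at *
    generalize N.pc1 s z p θ l = c1 at *
    generalize N.pc2 s z p θ l = c2 at *
    obtain ⟨a1, ha1⟩ : ∃ a, a = c1 * v5a l (n * th) (n * δ) 1 0 0 + c2 * v5b l (n * th) (n * δ) 1 0 0 := ⟨_, rfl⟩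
    obtain ⟨a2, ha2⟩ : ∃ a, a = c1 * v5a l (n * th) (n * δ) 0 1 0 + c2 * v5b l (n * th) (n * δ) 0 1 0 := ⟨_, rfl⟩
    obtain ⟨a3, ha3⟩ : ∃ a, a = c1 * v5a l (n * th) (n * δ) 0 0 1 + c2 * v5b l (n * th) (n * δ) 0 0 1 := ⟨_, rfl⟩
    refine ⟨c0' - (a1 ^ 2 + a2 ^ 2 + (a3 * δ) ^ 2 + N.pg3 s z p θ l ^ 2) / ε, by linarith, fun Q xb x0 x1 y => ?_⟩
    have k := k5 0 xb x0 (x1 / δ) y
    rw [mul_div_cancel₀ _ δ0.ne', mul_zero, form5_P] at k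
    rw [form5_P, ← ha1, ← ha2, ← ha3]
    obtain ⟨x, rfl⟩ : ∃ x, x1 = δ * x := ⟨x1 / δ, by field_simp⟩
    rw [mul_div_cancel_left₀ _ δ0.ne'] at k
    generalize N.pg3 s z p θ l = g3 at *
    have : 0 ≤ ((ε * xb + a1 * Q) ^ 2 + (ε * x0 + a2 * Q) ^ 2 + (ε * x + a3 * δ * Q) ^ 2 + (ε * y + g3 * Q) ^ 2) / ε := by
      positivity
    have e : ((ε * xb + a1 * Q) ^ 2 + (ε * x0 + a2 * Q) ^ 2 + (ε * x + a3 * δ * Q) ^ 2 + (ε * y + g3 * Q) ^ 2) / ε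
        = ε * (xb ^ 2 + x0 ^ 2 + x ^ 2 + y ^ 2) + (a1 ^ 2 + a2 ^ 2 + (a3 * δ) ^ 2 + g3 ^ 2) / ε * Q ^ 2
          + 2 * Q * (a1 * xb + a2 * x0 + a3 * (δ * x) + g3 * y) := by
      field_simp
      ring
    linarith
  · refine ⟨-N.G0 s z p θ 5 / P ^ 2, by field_simp; simp, fun Q xb x0 x1 y => ?_⟩
    have k := k5 (Q / P) xb x0 (x1 / δ) y
    rw [mul_div_cancel₀ _ δ0.ne', mul_div_cancel₀ _ h0.ne', form5_P] at k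
    rw [form5_P]
    have : 0 ≤ ε * (xb ^ 2 + x0 ^ 2 + (x1 / δ) ^ 2 + y ^ 2) := by positivity
    have e : N.G0 s z p θ 5 * (Q / P) ^ 2 = -(-N.G0 s z p θ 5 / P ^ 2) * Q ^ 2 := by field_simp
    linarith

theorem Tab.NW_of_mat {N : Tab} {zm : ℝ} (hc : 5 / 7 ≤ N.c) (z0 : 0 ≤ zm) (hz : N.c ≤ zm ^ 2) (hR : N.Rows zm)
    (hM : N.Mat zm) : N.NW 4 R1 := Tab.NW_of_P5 (Tab.P5_of_mat hc z0 hz hR hM)

end Crest.Agent.R97
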