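import Crest.Agent.R97.CertBz
import Crest.Agent.R97.CertP6

/-! CertBw (helper67): the scalar rows `Rows` from one polynomial inequality on a box. -/

set_option autoImplicit false

namespace Crest.Agent.R97

theorem bw_up {a b c d m : ℝ} (h : a + b + c + d = 0) (m0 : 0 ≤ m) (hm : a ^ 2 + b ^ 2 + c ^ 2 + d ^ 2 = 12 * m ^ 2) :
    a ^ 3 + b ^ 3 + c ^ 3 + d ^ 3 ≤ 24 * m ^ 3 := by
  have k : ∀ x y z w : ℝ, x + y + z + w = 0 → x ^ 2 + y ^ 2 + z ^ 2 + w ^ 2 = 12 * m ^ 2 → x ≤ 3 * m := by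
    intro x y z w h1 h2
    have e : x = -(y + z + w) := by linarith
    have h3 : x ^ 2 ≤ (3 * m) ^ 2 := by
      rw [e] at h2 ⊢
      nlinarith [sq_nonneg (y - z), sq_nonneg (y - w), sq_nonneg (z - w)]
    exact (abs_le_of_sq_le_sq' h3 (by positivity)).2
  have ka := mul_nonneg (sub_nonneg.2 (k a b c d h hm)) (sq_nonneg (a + m))
  have kb := mul_nonneg (sub_nonneg.2 (k b a c d (by linarith) (by linarith))) (sq_nonneg (b + m))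
  have kc := mul_nonneg (sub_nonneg.2 (k c a b d (by linarith) (by linarith))) (sq_nonneg (c + m))
  have kd := mul_nonneg (sub_nonneg.2 (k d a b c (by linarith) (by linarith))) (sq_nonneg (d + m))
  have e : (3 * m - a) * (a + m) ^ 2 + (3 * m - b) * (b + m) ^ 2 + (3 * m - c) * (c + m) ^ 2 + (3 * m - d) * (d + m) ^ 2
      = 24 * m ^ 3 - (a ^ 3 + b ^ 3 + c ^ 3 + d ^ 3) := by
    linear_combination (5 * m ^ 2) * h + m * hm
  linarith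

theorem bw_skew {a b c d : ℝ} (h : a + b + c + d = 0) :
    3 * (a ^ 3 + b ^ 3 + c ^ 3 + d ^ 3) ^ 2 ≤ (a ^ 2 + b ^ 2 + c ^ 2 + d ^ 2) ^ 3 := by
  obtain ⟨m, m0, hm⟩ : ∃ m : ℝ, 0 ≤ m ∧ m ^ 2 = (a ^ 2 + b ^ 2 + c ^ 2 + d ^ 2) / 12 :=
    ⟨_, Real.sqrt_nonneg _, Real.sq_sqrt (by positivity)⟩
  have hm' : a ^ 2 + b ^ 2 + c ^ 2 + d ^ 2 = 12 * m ^ 2 := by linarith
  have h1 := bw_up h m0 hm'
  have h2 := bw_up (a := -a) (b := -b) (c := -c) (d := -d) (by linarith) m0 (by linarith [neg_sq a, neg_sq b, neg_sq c, neg_sq d])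
  have h3 : (a ^ 3 + b ^ 3 + c ^ 3 + d ^ 3) ^ 2 ≤ (24 * m ^ 3) ^ 2 := sq_le_sq' (by nlinarith) h1
  rw [hm']
  nlinarith

theorem bw_five {w a b c d : ℝ} (h1 : w + (a + b + c + d) = 0) (h2 : w ^ 2 + (a ^ 2 + b ^ 2 + c ^ 2 + d ^ 2) = 1) :
    3 * (w ^ 3 + (a ^ 3 + b ^ 3 + c ^ 3 + d ^ 3) - w * (15 / 16 * w ^ 2 - 3 * ((1 - 5 / 4 * w ^ 2) / 4))) ^ 2
      ≤ 64 * ((1 - 5 / 4 * w ^ 2) / 4) ^ 3 := by
  have h := bw_skew (a := a + w / 4) (b := b + w / 4) (c := c + w / 4) (d := d + w / 4) (by linarith)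
  have e2 : (a + w / 4) ^ 2 + (b + w / 4) ^ 2 + (c + w / 4) ^ 2 + (d + w / 4) ^ 2 = 1 - 5 / 4 * w ^ 2 := by
    linear_combination h2 + (w / 2) * h1
  have e3 : (a + w / 4) ^ 3 + (b + w / 4) ^ 3 + (c + w / 4) ^ 3 + (d + w / 4) ^ 3
      = w ^ 3 + (a ^ 3 + b ^ 3 + c ^ 3 + d ^ 3) - w * (15 / 16 * w ^ 2 - 3 * ((1 - 5 / 4 * w ^ 2) / 4)) := by
    linear_combination (3 / 4 * w) * h2 + (3 / 16 * w ^ 2) * h1
  rw [e2, e3] at h
  linarith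

theorem Tab.Rows_of_box (N : Tab) (hc : 0 < N.c) (zm : ℝ)
    (h : ∀ s z p w θ : ℝ, 0 ≤ s → s ≤ 1 → 0 ≤ z → z ≤ zm → 0 ≤ p → p ≤ 1 → -(9 / 10) ≤ w → w ≤ 9 / 10 →
      -(671 / 1000) ≤ θ → θ ≤ 671 / 1000 →
      3 * (θ - w * (15 / 16 * w ^ 2 - 3 * ((1 - 5 / 4 * w ^ 2) / 4))) ^ 2 ≤ 64 * ((1 - 5 / 4 * w ^ 2) / 4) ^ 3 →
      (z * s) ^ 2 ≤ 5 / 14 * (p * (2 - p)) → z ^ 2 * (1 - s ^ 2) ≤ N.c * (1 - p) →
      0 < N.K.v s z p θ + 2 * (s * N.D.v s z p θ) * w) : N.Rows zm := by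
  intro s z P u th p l n θ K D a hθ hK hD
  have hS : z ^ 2 * (1 - s ^ 2) ≤ N.c * (1 - p) := by
    have e : z ^ 2 * (1 - s ^ 2) = N.c * (1 - p - P ^ 2) := by rw [a.hp]; field_simp; ring
    rw [e]
    nlinarith [mul_nonneg hc.le (sq_nonneg P)]
  have key : ∀ w b c d e : ℝ, w + (b + c + d + e) = 0 → w ^ 2 + (b ^ 2 + c ^ 2 + d ^ 2 + e ^ 2) = 1 →
      θ = w ^ 3 + (b ^ 3 + c ^ 3 + d ^ 3 + e ^ 3) → 0 < K + 2 * D * w := by
    intro w b c d e h1 h2 h3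
    have t := bz_th h1 h2
    have o := bz_one h1 h2
    have f := bw_five h1 h2
    rw [← h3] at t f
    rw [hK, hD]
    exact h s z p w θ a.s0 a.s1 a.z0 a.z1 a.p0 a.p1 (by linarith [o.1]) (by linarith [o.2]) t.1 t.2 f a.r1 hS
  obtain ⟨R, hR⟩ : ∃ R : ℝ, R ^ 2 = n ^ 2 * sD th :=
    ⟨_, Real.sq_sqrt (mul_nonneg (sq_nonneg _) (by unfold sD; nlinarith [a.th3]))⟩
  have un := a.un
  have hR' : R ^ 2 = n ^ 2 * (2 - 2 * th ^ 2) := hR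
  have e2 : l ^ 2 + ((n * th - l / 4) ^ 2 + (n * th - l / 4) ^ 2 + (-(n * th) - l / 4 + R) ^ 2
      + (-(n * th) - l / 4 - R) ^ 2) = 1 := by linear_combination un + 2 * hR'
  have e3 : θ = l ^ 3 + ((n * th - l / 4) ^ 3 + (n * th - l / 4) ^ 3 + (-(n * th) - l / 4 + R) ^ 3
      + (-(n * th) - l / 4 - R) ^ 3) := by
    rw [hθ]
    unfold sTh sD
    linear_combination (6 * (n * th + l / 4)) * hR'
  have k0 := key l _ _ _ _ (by ring) e2 e3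
  have k1 := key (n * th - l / 4) l (n * th - l / 4) (-(n * th) - l / 4 + R) (-(n * th) - l / 4 - R) (by ring)
    (by linarith) (by linarith)
  have k2 := key (-(n * th) - l / 4 + R) l (n * th - l / 4) (n * th - l / 4) (-(n * th) - l / 4 - R) (by ring)
    (by linarith) (by linarith)
  have k3 := key (-(n * th) - l / 4 - R) l (n * th - l / 4) (n * th - l / 4) (-(n * th) - l / 4 + R) (by ring)
    (by linarith) (by linarith)
  have p1 : 0 < 3 * K + D * (l - 4 * (n * th)) + 4 * D * R := by linarith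
  have p2 : 0 < 3 * K + D * (l - 4 * (n * th)) - 4 * D * R := by linarith
  refine ⟨k0, by linarith, by linarith, ?_⟩
  rw [← hR]
  nlinarith [mul_pos p1 p2]

end Crest.Agent.R97
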