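import Crest.Agent.R97.CertB9

/-! CertBy (helper64): the relaxed side rows from polynomial inequalities in `(s, z, p, θ)`. -/

set_option autoImplicit false
open Finset

namespace Crest.Agent.R97

theorem by_z {c Z s z p : ℝ} (h0 : 5 / 7 ≤ c) (h1 : c ≤ Z ^ 2) (hZ : 0 ≤ Z) (p0 : 0 ≤ p)
    (hR : (z * s) ^ 2 ≤ 5 / 14 * (p * (2 - p))) (hS : z ^ 2 * (1 - s ^ 2) ≤ c * (1 - p)) : z ≤ Z := by
  have h2 : z ^ 2 ≤ Z ^ 2 := by nlinarith [mul_nonneg p0 p0, mul_nonneg p0 (sub_nonneg.2 h0)]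
  exact (abs_le_of_sq_le_sq' h2 hZ).2

theorem by_mom3 {a b c d β : ℝ} (h1 : a + (b + c + d) = 0) (h2 : a ^ 2 + (b ^ 2 + c ^ 2 + d ^ 2) = 1)
    (x y : ℝ) : (x * a + y) * (a - β) ^ 2 + (x * b + y) * (b - β) ^ 2 + (x * c + y) * (c - β) ^ 2
      + (x * d + y) * (d - β) ^ 2 = x * (a ^ 3 + (b ^ 3 + c ^ 3 + d ^ 3) - 2 * β) + y * (1 + 4 * β ^ 2) := by
  linear_combination (x * β ^ 2 - 2 * β * y) * h1 + (y - 2 * β * x) * h2

theorem by_one3 {a b c d : ℝ} (h1 : a + (b + c + d) = 0) (h2 : a ^ 2 + (b ^ 2 + c ^ 2 + d ^ 2) = 1) :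
    -(8661 / 10000) ≤ a ∧ a ≤ 8661 / 10000 := by
  have h3 : a ^ 2 ≤ 3 / 4 := by
    have ee : a = -(b + c + d) := by linarith
    rw [ee] at h2 ⊢
    nlinarith [sq_nonneg (b - c), sq_nonneg (b - d), sq_nonneg (c - d)]
  constructor <;> nlinarith

theorem by_th3 {a b c d : ℝ} (h1 : a + (b + c + d) = 0) (h2 : a ^ 2 + (b ^ 2 + c ^ 2 + d ^ 2) = 1) :
    -(289 / 500) ≤ a ^ 3 + (b ^ 3 + c ^ 3 + d ^ 3) ∧ a ^ 3 + (b ^ 3 + c ^ 3 + d ^ 3) ≤ 289 / 500 := by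
  have ha := by_one3 h1 h2
  have hb := by_one3 (a := b) (b := a) (c := c) (d := d) (by linarith) (by linarith)
  have hc := by_one3 (a := c) (b := a) (c := b) (d := d) (by linarith) (by linarith)
  have hd := by_one3 (a := d) (b := a) (c := b) (d := c) (by linarith) (by linarith)
  have k : ∀ x β t : ℝ, 0 ≤ x * t + 8661 / 10000 → 0 ≤ (x * t + 8661 / 10000) * (t - β) ^ 2 :=
    fun x β t h => mul_nonneg h (sq_nonneg _)
  constructor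
  · have := by_mom3 (β := 2887 / 10000) h1 h2 1 (8661 / 10000)
    linarith [k 1 (2887 / 10000) a (by linarith), k 1 (2887 / 10000) b (by linarith), k 1 (2887 / 10000) c (by linarith),
      k 1 (2887 / 10000) d (by linarith)]
  · have := by_mom3 (β := -(2887 / 10000)) h1 h2 (-1) (8661 / 10000)
    linarith [k (-1) (-(2887 / 10000)) a (by linarith), k (-1) (-(2887 / 10000)) b (by linarith),
      k (-1) (-(2887 / 10000)) c (by linarith), k (-1) (-(2887 / 10000)) d (by linarith)]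

/-- the side row for four eigenvalues -/
theorem Tab.NR3_of_box (N : Tab) {Z : ℝ} (h0 : 5 / 7 ≤ N.c) (hc : N.c ≤ Z ^ 2) (hZ : 0 ≤ Z) (k : ℝ)
    (h : ∀ s z p θ : ℝ, 0 ≤ s → s ≤ 1 → 0 ≤ z → z ≤ Z → 0 ≤ p → p ≤ 1 → -(289 / 500) ≤ θ → θ ≤ 289 / 500 →
      (z * s) ^ 2 ≤ 5 / 14 * (p * (2 - p)) → z ^ 2 * (1 - s ^ 2) ≤ N.c * (1 - p) → (z * s) ^ 2 ≤ 3 * p ^ 2 →
      p / 2 * (z * s) ^ 2 ≤ p ^ 3 / 2 + θ / 3 * (z * s) ^ 3 →
      (∀ β : ℝ, 0 ≤ z * s * (θ - 2 * β) + p / 2 * (1 + 4 * β ^ 2)) →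
      N.K.v s z p θ - z * N.A.h s z p θ + s * θ * N.D.v s z p θ ≤ k * N.F.h s z p θ) :
    N.NR 3 R1 k := by
  intro s z p w θ ν a hθ
  have h1 := a.tr
  have h2 := a.nrm
  rw [Fin.sum_univ_three] at h1 h2 hθ
  have hR : (z * s) ^ 2 ≤ 5 / 14 * (p * (2 - p)) := a.R
  have hS := a.zS
  have x0 := a.cl
  have x1 := a.cν 0
  have x2 := a.cν 1
  have x3 := a.cν 2
  have p0 := a.p0
  have p1 := a.p1
  obtain ⟨t0, t1⟩ := by_th3 h1 h2
  rw [← hθ] at t0 t1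
  generalize ν 0 = b, ν 1 = c, ν 2 = d at h1 h2 hθ x1 x2 x3
  refine h s z p θ a.s0 a.s1 a.z0 (by_z h0 hc hZ p0 hR hS) p0 p1 t0 t1 hR hS ?_ ?_ fun β => ?_
  · generalize z * s = X at *
    have e2 : (X * w + p / 2) * (X * b + p / 2) + (X * w + p / 2) * (X * c + p / 2) + (X * w + p / 2) * (X * d + p / 2)
        + (X * b + p / 2) * (X * c + p / 2) + (X * b + p / 2) * (X * d + p / 2) + (X * c + p / 2) * (X * d + p / 2)
        = 3 / 2 * p ^ 2 - X ^ 2 / 2 := by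
      linear_combination (X ^ 2 / 2 * (w + b + c + d) + 3 / 2 * X * p) * h1 - X ^ 2 / 2 * h2
    linarith [mul_nonneg x0 x1, mul_nonneg x0 x2, mul_nonneg x0 x3, mul_nonneg x1 x2, mul_nonneg x1 x3, mul_nonneg x2 x3]
  · generalize z * s = X at *
    have e3 : (X * w + p / 2) * (X * b + p / 2) * (X * c + p / 2) + (X * w + p / 2) * (X * b + p / 2) * (X * d + p / 2)
        + (X * w + p / 2) * (X * c + p / 2) * (X * d + p / 2) + (X * b + p / 2) * (X * c + p / 2) * (X * d + p / 2)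
        = p ^ 3 / 2 + θ / 3 * X ^ 3 - p / 2 * X ^ 2 := by
      have hw : w = -(b + c + d) := by linarith
      rw [hθ]
      rw [hw] at h2 ⊢
      linear_combination (-(1 / 2) * p * X ^ 2) * h2
    linarith [mul_nonneg (mul_nonneg x0 x1) x2, mul_nonneg (mul_nonneg x0 x1) x3, mul_nonneg (mul_nonneg x0 x2) x3,
      mul_nonneg (mul_nonneg x1 x2) x3]
  · have := by_mom3 (β := β) h1 h2 (z * s) (p / 2)
    rw [← hθ] at this
    linarith [mul_nonneg x0 (sq_nonneg (w - β)), mul_nonneg x1 (sq_nonneg (b - β)), mul_nonneg x2 (sq_nonneg (c - β)),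
      mul_nonneg x3 (sq_nonneg (d - β))]

theorem by_mom2 {a b c β : ℝ} (h1 : a + (b + c) = 0) (h2 : a ^ 2 + (b ^ 2 + c ^ 2) = 1)
    (x y : ℝ) : (x * a + y) * (a - β) ^ 2 + (x * b + y) * (b - β) ^ 2 + (x * c + y) * (c - β) ^ 2
      = x * (a ^ 3 + (b ^ 3 + c ^ 3) - 2 * β) + y * (1 + 3 * β ^ 2) := by
  linear_combination (x * β ^ 2 - 2 * β * y) * h1 + (y - 2 * β * x) * h2

theorem by_one2 {a b c : ℝ} (h1 : a + (b + c) = 0) (h2 : a ^ 2 + (b ^ 2 + c ^ 2) = 1) :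
    -(8165 / 10000) ≤ a ∧ a ≤ 8165 / 10000 := by
  have h3 : a ^ 2 ≤ 2 / 3 := by
    have ee : a = -(b + c) := by linarith
    rw [ee] at h2 ⊢
    nlinarith [sq_nonneg (b - c)]
  constructor <;> nlinarith

theorem by_th2 {a b c : ℝ} (h1 : a + (b + c) = 0) (h2 : a ^ 2 + (b ^ 2 + c ^ 2) = 1) :
    -(409 / 1000) ≤ a ^ 3 + (b ^ 3 + c ^ 3) ∧ a ^ 3 + (b ^ 3 + c ^ 3) ≤ 409 / 1000 := by
  have ha := by_one2 h1 h2
  have hb := by_one2 (a := b) (b := a) (c := c) (by linarith) (by linarith)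
  have hc := by_one2 (a := c) (b := a) (c := b) (by linarith) (by linarith)
  have k : ∀ x β t : ℝ, 0 ≤ x * t + 8165 / 10000 → 0 ≤ (x * t + 8165 / 10000) * (t - β) ^ 2 :=
    fun x β t h => mul_nonneg h (sq_nonneg _)
  constructor
  · have := by_mom2 (β := 4082 / 10000) h1 h2 1 (8165 / 10000)
    linarith [k 1 (4082 / 10000) a (by linarith), k 1 (4082 / 10000) b (by linarith), k 1 (4082 / 10000) c (by linarith)]
  · have := by_mom2 (β := -(4082 / 10000)) h1 h2 (-1) (8165 / 10000)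
    linarith [k (-1) (-(4082 / 10000)) a (by linarith), k (-1) (-(4082 / 10000)) b (by linarith),
      k (-1) (-(4082 / 10000)) c (by linarith)]

/-- the side row for three eigenvalues -/
theorem Tab.NR2_of_box (N : Tab) {Z : ℝ} (h0 : 5 / 7 ≤ N.c) (hc : N.c ≤ Z ^ 2) (hZ : 0 ≤ Z) (k : ℝ)
    (h : ∀ s z p θ : ℝ, 0 ≤ s → s ≤ 1 → 0 ≤ z → z ≤ Z → 0 ≤ p → p ≤ 1 → -(409 / 1000) ≤ θ → θ ≤ 409 / 1000 →
      (z * s) ^ 2 ≤ 5 / 14 * (p * (2 - p)) → z ^ 2 * (1 - s ^ 2) ≤ N.c * (1 - p) → (z * s) ^ 2 ≤ 3 / 2 * p ^ 2 →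
      p / 4 * (z * s) ^ 2 ≤ p ^ 3 / 8 + θ / 3 * (z * s) ^ 3 →
      (∀ β : ℝ, 0 ≤ z * s * (θ - 2 * β) + p / 2 * (1 + 3 * β ^ 2)) →
      N.K.v s z p θ - z * N.A.h s z p θ + s * θ * N.D.v s z p θ ≤ k * N.F.h s z p θ) :
    N.NR 2 R1 k := by
  intro s z p w θ ν a hθ
  have h1 := a.tr
  have h2 := a.nrm
  rw [Fin.sum_univ_two] at h1 h2 hθ
  have hR : (z * s) ^ 2 ≤ 5 / 14 * (p * (2 - p)) := a.R
  have hS := a.zS
  have x0 := a.cl
  have x1 := a.cν 0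
  have x2 := a.cν 1
  have p0 := a.p0
  have p1 := a.p1
  obtain ⟨t0, t1⟩ := by_th2 h1 h2
  rw [← hθ] at t0 t1
  generalize ν 0 = b, ν 1 = c at h1 h2 hθ x1 x2
  refine h s z p θ a.s0 a.s1 a.z0 (by_z h0 hc hZ p0 hR hS) p0 p1 t0 t1 hR hS ?_ ?_ fun β => ?_
  · generalize z * s = X at *
    have e2 : (X * w + p / 2) * (X * b + p / 2) + (X * w + p / 2) * (X * c + p / 2) + (X * b + p / 2) * (X * c + p / 2)
        = 3 / 4 * p ^ 2 - X ^ 2 / 2 := by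
      linear_combination (X ^ 2 / 2 * (w + b + c) + X * p) * h1 - X ^ 2 / 2 * h2
    linarith [mul_nonneg x0 x1, mul_nonneg x0 x2, mul_nonneg x1 x2]
  · generalize z * s = X at *
    have e3 : (X * w + p / 2) * (X * b + p / 2) * (X * c + p / 2) = p ^ 3 / 8 + θ / 3 * X ^ 3 - p / 4 * X ^ 2 := by
      have hw : w = -(b + c) := by linarith
      rw [hθ]
      rw [hw] at h2 ⊢
      linear_combination (-(1 / 4) * p * X ^ 2) * h2
    linarith [mul_nonneg (mul_nonneg x0 x1) x2]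
  · have := by_mom2 (β := β) h1 h2 (z * s) (p / 2)
    rw [← hθ] at this
    linarith [mul_nonneg x0 (sq_nonneg (w - β)), mul_nonneg x1 (sq_nonneg (b - β)), mul_nonneg x2 (sq_nonneg (c - β))]

/-- the side row for two eigenvalues -/
theorem Tab.NR1_of_box (N : Tab) {Z : ℝ} (h0 : 5 / 7 ≤ N.c) (hc : N.c ≤ Z ^ 2) (hZ : 0 ≤ Z) (k : ℝ)
    (h : ∀ s z p : ℝ, 0 ≤ s → s ≤ 1 → 0 ≤ z → z ≤ Z → 0 ≤ p → p ≤ 1 →
      z ^ 2 * (1 - s ^ 2) ≤ N.c * (1 - p) → (z * s) ^ 2 ≤ p ^ 2 / 2 →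
      N.K.v s z p 0 - z * N.A.h s z p 0 ≤ k * N.F.h s z p 0) :
    N.NR 1 R1 k := by
  intro s z p w θ ν a hθ
  have h1 := a.tr
  have h2 := a.nrm
  rw [Fin.sum_univ_one] at h1 h2 hθ
  have hR : (z * s) ^ 2 ≤ 5 / 14 * (p * (2 - p)) := a.R
  have hS := a.zS
  have x0 := a.cl
  have x1 := a.cν 0
  have p0 := a.p0
  generalize ν 0 = b at h1 h2 hθ x1
  have hw : w = -b := by linarith
  have t0 : θ = 0 := by rw [hθ, hw]; ring
  have := h s z p a.s0 a.s1 a.z0 (by_z h0 hc hZ p0 hR hS) p0 a.p1 hS (by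
    generalize z * s = X at *
    have e2 : (X * w + p / 2) * (X * b + p / 2) = p ^ 2 / 4 - X ^ 2 / 2 := by
      linear_combination (X ^ 2 / 2 * (w + b) + X * p / 2) * h1 - X ^ 2 / 2 * h2
    linarith [mul_nonneg x0 x1])
  rw [t0]
  linarith

end Crest.Agent.R97
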