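import Crest.Agent.R97.CertB7

/-! CertBz (helper67): the boundary row `NB` and the side row `NR` from polynomial inequalities on boxes. -/

set_option autoImplicit false
open Finset

namespace Crest.Agent.R97

theorem bz_mom {a b c d e β γ : ℝ} (h1 : a + (b + c + d + e) = 0) (h2 : a ^ 2 + (b ^ 2 + c ^ 2 + d ^ 2 + e ^ 2) = 1)
    (x y : ℝ) : (x * a + y) * (a - β) ^ 2 + (x * b + y) * (b - β) ^ 2 + (x * c + y) * (c - β) ^ 2
      + (x * d + y) * (d - β) ^ 2 + (x * e + y) * (e - β) ^ 2 + γ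
      = x * (a ^ 3 + (b ^ 3 + c ^ 3 + d ^ 3 + e ^ 3) - 2 * β) + y * (1 + 5 * β ^ 2) + γ := by
  linear_combination (x * β ^ 2 - 2 * β * y) * h1 + (y - 2 * β * x) * h2

theorem bz_one {a b c d e : ℝ} (h1 : a + (b + c + d + e) = 0) (h2 : a ^ 2 + (b ^ 2 + c ^ 2 + d ^ 2 + e ^ 2) = 1) :
    -(8945 / 10000) ≤ a ∧ a ≤ 8945 / 10000 := by
  have h3 : a ^ 2 ≤ 4 / 5 := by
    have ee : a = -(b + c + d + e) := by linarith
    rw [ee] at h2 ⊢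
    nlinarith [sq_nonneg (b - c), sq_nonneg (b - d), sq_nonneg (b - e), sq_nonneg (c - d), sq_nonneg (c - e),
      sq_nonneg (d - e)]
  constructor <;> nlinarith

theorem bz_th {a b c d e : ℝ} (h1 : a + (b + c + d + e) = 0) (h2 : a ^ 2 + (b ^ 2 + c ^ 2 + d ^ 2 + e ^ 2) = 1) :
    -(671 / 1000) ≤ a ^ 3 + (b ^ 3 + c ^ 3 + d ^ 3 + e ^ 3) ∧ a ^ 3 + (b ^ 3 + c ^ 3 + d ^ 3 + e ^ 3) ≤ 671 / 1000 := by
  have ha := bz_one h1 h2
  have hb := bz_one (a := b) (b := a) (c := c) (d := d) (e := e) (by linarith) (by linarith)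
  have hc := bz_one (a := c) (b := a) (c := b) (d := d) (e := e) (by linarith) (by linarith)
  have hd := bz_one (a := d) (b := a) (c := b) (d := c) (e := e) (by linarith) (by linarith)
  have he := bz_one (a := e) (b := a) (c := b) (d := c) (e := d) (by linarith) (by linarith)
  have k : ∀ x β t : ℝ, 0 ≤ x * t + 8945 / 10000 → 0 ≤ (x * t + 8945 / 10000) * (t - β) ^ 2 :=
    fun x β t h => mul_nonneg h (sq_nonneg _)
  constructor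
  · have := bz_mom (β := 2236 / 10000) (γ := 0) h1 h2 1 (8945 / 10000)
    linarith [k 1 (2236 / 10000) a (by linarith), k 1 (2236 / 10000) b (by linarith), k 1 (2236 / 10000) c (by linarith),
      k 1 (2236 / 10000) d (by linarith), k 1 (2236 / 10000) e (by linarith)]
  · have := bz_mom (β := -(2236 / 10000)) (γ := 0) h1 h2 (-1) (8945 / 10000)
    linarith [k (-1) (-(2236 / 10000)) a (by linarith), k (-1) (-(2236 / 10000)) b (by linarith),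
      k (-1) (-(2236 / 10000)) c (by linarith), k (-1) (-(2236 / 10000)) d (by linarith),
      k (-1) (-(2236 / 10000)) e (by linarith)]

/-- the side row from an inequality in `(s, z, p, θ)` -/
theorem Tab.NR_of_box (N : Tab) (hc : N.c = 2) (k : ℝ)
    (h : ∀ s z p θ : ℝ, 0 ≤ s → s ≤ 1 → 0 ≤ z → z ≤ 3 / 2 → 0 ≤ p → p ≤ 1 → -(671 / 1000) ≤ θ → θ ≤ 671 / 1000 →
      (z * s) ^ 2 ≤ 5 / 14 * (p * (2 - p)) → z ^ 2 * (1 - s ^ 2) ≤ 2 * (1 - p) → (z * s) ^ 2 ≤ 5 * p ^ 2 →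
      3 / 4 * p * (z * s) ^ 2 ≤ 5 / 4 * p ^ 3 + θ / 3 * (z * s) ^ 3 →
      (∀ β : ℝ, 0 ≤ z * s * (θ - 2 * β) + p / 2 * (1 + 5 * β ^ 2)) →
      N.K.v s z p θ - z * N.A.h s z p θ + s * θ * N.D.v s z p θ ≤ k * N.F.h s z p θ) :
    N.NR 4 (fun X p => X ≤ 5 / 14 * (p * (2 - p))) k := by
  intro s z p w θ ν a hθ
  have h1 := a.tr
  have h2 := a.nrm
  rw [Fin.sum_univ_four] at h1 h2 hθ
  have hR : (z * s) ^ 2 ≤ 5 / 14 * (p * (2 - p)) := a.R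
  have hS := a.zS
  rw [hc] at hS
  have x0 := a.cl
  have x1 := a.cν 0
  have x2 := a.cν 1
  have x3 := a.cν 2
  have x4 := a.cν 3
  have p0 := a.p0
  have p1 := a.p1
  obtain ⟨t0, t1⟩ := bz_th h1 h2
  rw [← hθ] at t0 t1
  generalize ν 0 = b, ν 1 = c, ν 2 = d, ν 3 = e at h1 h2 hθ x1 x2 x3 x4
  refine h s z p θ a.s0 a.s1 a.z0 ?_ p0 p1 t0 t1 hR hS ?_ ?_ fun β => ?_
  · have : z ^ 2 ≤ 2 := by nlinarith [mul_nonneg p0 p0]
    nlinarith [a.z0]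
  · generalize z * s = X at *
    obtain ⟨A, hA⟩ : ∃ A, A = X * w + p / 2 := ⟨_, rfl⟩
    obtain ⟨B, hB⟩ : ∃ B, B = X * b + p / 2 := ⟨_, rfl⟩
    obtain ⟨C, hC⟩ : ∃ C, C = X * c + p / 2 := ⟨_, rfl⟩
    obtain ⟨D, hD⟩ : ∃ D, D = X * d + p / 2 := ⟨_, rfl⟩
    obtain ⟨E, hE⟩ : ∃ E, E = X * e + p / 2 := ⟨_, rfl⟩
    rw [← hA] at x0; rw [← hB] at x1; rw [← hC] at x2; rw [← hD] at x3; rw [← hE] at x4
    have e2 : A * B + A * C + A * D + A * E + B * C + B * D + B * E + C * D + C * E + D * E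
        = 5 / 2 * p ^ 2 - X ^ 2 / 2 := by
      rw [hA, hB, hC, hD, hE]
      linear_combination (X ^ 2 / 2 * (w + b + c + d + e) + 2 * X * p) * h1 - X ^ 2 / 2 * h2
    have : 0 ≤ A * B + A * C + A * D + A * E + B * C + B * D + B * E + C * D + C * E + D * E := by positivity
    linarith
  · generalize z * s = X at *
    obtain ⟨A, hA⟩ : ∃ A, A = X * w + p / 2 := ⟨_, rfl⟩
    obtain ⟨B, hB⟩ : ∃ B, B = X * b + p / 2 := ⟨_, rfl⟩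
    obtain ⟨C, hC⟩ : ∃ C, C = X * c + p / 2 := ⟨_, rfl⟩
    obtain ⟨D, hD⟩ : ∃ D, D = X * d + p / 2 := ⟨_, rfl⟩
    obtain ⟨E, hE⟩ : ∃ E, E = X * e + p / 2 := ⟨_, rfl⟩
    rw [← hA] at x0; rw [← hB] at x1; rw [← hC] at x2; rw [← hD] at x3; rw [← hE] at x4
    have e3 : A * B * C + A * B * D + A * B * E + A * C * D + A * C * E + A * D * E + B * C * D + B * C * E
        + B * D * E + C * D * E = 5 / 4 * p ^ 3 + θ / 3 * X ^ 3 - 3 / 4 * p * X ^ 2 := by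
      have hw : w = -(b + c + d + e) := by linarith
      rw [hA, hB, hC, hD, hE, hθ]
      rw [hw] at h2 ⊢
      linear_combination (-(3 / 4) * p * X ^ 2) * h2
    have : 0 ≤ A * B * C + A * B * D + A * B * E + A * C * D + A * C * E + A * D * E + B * C * D + B * C * E
        + B * D * E + C * D * E := by positivity
    linarith
  · have := bz_mom (β := β) (γ := 0) h1 h2 (z * s) (p / 2)
    rw [← hθ] at this
    linarith [mul_nonneg x0 (sq_nonneg (w - β)), mul_nonneg x1 (sq_nonneg (b - β)), mul_nonneg x2 (sq_nonneg (c - β)),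
      mul_nonneg x3 (sq_nonneg (d - β)), mul_nonneg x4 (sq_nonneg (e - β))]

theorem bz_ex {a T : ℝ} (h0 : 0 ≤ a) (h1 : a ≤ T) : ∃ x, 0 ≤ x ∧ x ≤ 1 ∧ a = T * x := by
  rcases (h0.trans h1).eq_or_lt with h | h
  · exact ⟨0, le_rfl, zero_le_one, by linarith⟩
  · exact ⟨a / T, by positivity, (div_le_one h).2 h1, by field_simp⟩

/-- the polynomial form of the boundary row (`t = s h`, spectrum `h (-1, m1, …, m4)`, divided by `h²`) -/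
def Tab.nbP (N : Tab) (t n θ q : ℝ) : ℝ :=
  t * (n * pe N.F.L1 (1 - t ^ 2 * n) 0 0 (t ^ 3 * θ) + t * θ * pe N.F.L2 (1 - t ^ 2 * n) 0 0 (t ^ 3 * θ))
    - t * (θ + 2 * n) * N.K.g (1 - t ^ 2 * n) 0 0 (t ^ 3 * θ)
    + (n * pe N.A.L1 (1 - t ^ 2 * n) 0 0 (t ^ 3 * θ) + t * θ * pe N.A.L2 (1 - t ^ 2 * n) 0 0 (t ^ 3 * θ))
    - t * (n * pe N.B.L1 (1 - t ^ 2 * n) 0 0 (t ^ 3 * θ) + t * θ * pe N.B.L2 (1 - t ^ 2 * n) 0 0 (t ^ 3 * θ))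
    + N.C.g (1 - t ^ 2 * n) 0 0 (t ^ 3 * θ) + t ^ 2 * (n - q - θ) * N.D.g (1 - t ^ 2 * n) 0 0 (t ^ 3 * θ)

/-- the boundary row from an inequality on the unit cube -/
theorem Tab.NB_of_box (N : Tab)
    (h : ∀ x0 x1 x2 x3 t m1 m2 m3 m4 n θ q : ℝ, 0 ≤ x0 → x0 ≤ 1 → 0 ≤ x1 → x1 ≤ 1 → 0 ≤ x2 → x2 ≤ 1 → 0 ≤ x3 → x3 ≤ 1 →
      t = 9 / 10 * x0 → m1 = 5 / 4 * x1 - 1 → m2 = m1 + 5 / 3 * ((1 - x1) * x2) →
      m3 = m2 + 5 / 2 * ((1 - x1) * (1 - x2) * x3) → m4 = 1 - m1 - m2 - m3 →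
      n = 1 + m1 ^ 2 + m2 ^ 2 + m3 ^ 2 + m4 ^ 2 → θ = m1 ^ 3 + m2 ^ 3 + m3 ^ 3 + m4 ^ 3 - 1 →
      q = 1 + m1 ^ 4 + m2 ^ 4 + m3 ^ 4 + m4 ^ 4 → t ^ 2 * n ≤ 1 → 0 ≤ N.nbP t n θ q) : N.NB 4 := by
  intro s H θ q ν mono h1 h2 s0 s1 H0 hν hθ hq
  rw [Fin.sum_univ_four] at h1 h2 hθ hq
  have m01 : ν 0 ≤ ν 1 := mono (by decide)
  have m12 : ν 1 ≤ ν 2 := mono (by decide)
  have m23 : ν 2 ≤ ν 3 := mono (by decide)
  have l0 := hν 0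
  generalize ν 0 = b, ν 1 = c, ν 2 = d, ν 3 = e at h1 h2 hθ hq m01 m12 m23 l0
  have Hp : 0 < H := by
    rcases H0.eq_or_lt with h0 | h0
    · exfalso
      subst h0
      have hb : b = 0 := by linarith
      have hc : c = 0 := by linarith
      have hd : d = 0 := by linarith
      have he : e = 0 := by linarith
      rw [hb, hc, hd, he] at h2
      norm_num at h2
    · exact h0
  have H1 : H ≤ 8945 / 10000 := by
    have := (bz_one (a := -H) h1 (by rw [neg_sq]; exact h2)).1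
    linarith
  obtain ⟨m1, rfl⟩ : ∃ m, b = H * m := ⟨b / H, by field_simp⟩
  obtain ⟨m2, rfl⟩ : ∃ m, c = H * m := ⟨c / H, by field_simp⟩
  obtain ⟨m3, rfl⟩ : ∃ m, d = H * m := ⟨d / H, by field_simp⟩
  obtain ⟨m4, rfl⟩ : ∃ m, e = H * m := ⟨e / H, by field_simp⟩
  have k01 : m1 ≤ m2 := le_of_mul_le_mul_left m01 Hp
  have k12 : m2 ≤ m3 := le_of_mul_le_mul_left m12 Hp
  have k23 : m3 ≤ m4 := le_of_mul_le_mul_left m23 Hp
  have k0 : -1 ≤ m1 := le_of_mul_le_mul_left (by linarith) Hp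
  have k4 : m4 = 1 - m1 - m2 - m3 := mul_left_cancel₀ Hp.ne' (by linarith)
  obtain ⟨x1, a1, b1, e1⟩ := bz_ex (a := m1 + 1) (T := 5 / 4) (by linarith) (by linarith)
  obtain ⟨x2, a2, b2, e2⟩ := bz_ex (a := m2 - m1) (T := 5 / 3 * (1 - x1)) (by linarith) (by linarith)
  obtain ⟨x3, a3, b3, e3⟩ := bz_ex (a := m3 - m2) (T := 5 / 2 * ((1 - x1) * (1 - x2))) (by linarith) (by nlinarith)
  obtain ⟨x0, a0, b0, e0⟩ := bz_ex (a := s * H) (T := 9 / 10) (by positivity) (by nlinarith)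
  obtain ⟨n, hn⟩ : ∃ n, n = 1 + m1 ^ 2 + m2 ^ 2 + m3 ^ 2 + m4 ^ 2 := ⟨_, rfl⟩
  obtain ⟨θ', hθ'⟩ : ∃ n, n = m1 ^ 3 + m2 ^ 3 + m3 ^ 3 + m4 ^ 3 - 1 := ⟨_, rfl⟩
  obtain ⟨q', hq'⟩ : ∃ n, n = 1 + m1 ^ 4 + m2 ^ 4 + m3 ^ 4 + m4 ^ 4 := ⟨_, rfl⟩
  have f1 : H ^ 2 * n = 1 := by rw [hn]; linarith
  have f2 : θ = H ^ 3 * θ' := by rw [hθ, hθ']; ring
  have f3 : q = H ^ 4 * q' := by rw [hq, hq']; ring
  have f4 : (s * H) ^ 2 * n = s ^ 2 := by linear_combination s ^ 2 * f1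
  have f5 : (s * H) ^ 3 * θ' = s ^ 3 * θ := by rw [f2]; ring
  have key := h x0 x1 x2 x3 (s * H) m1 m2 m3 m4 n θ' q' a0 b0 a1 b1 a2 b2 a3 b3 e0 (by linarith) (by linarith)
    (by linarith) k4 hn hθ' hq' (by rw [f4]; nlinarith)
  have key2 := mul_nonneg (sq_nonneg H) key
  simp only [Tab.nbP, f4, f5] at key2
  simp only [Tb.h, Tb.gh, Tb.v]
  generalize pe N.F.L1 (1 - s ^ 2) 0 0 (s ^ 3 * θ) = F1, pe N.F.L2 (1 - s ^ 2) 0 0 (s ^ 3 * θ) = F2,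
    pe N.A.L1 (1 - s ^ 2) 0 0 (s ^ 3 * θ) = A1, pe N.A.L2 (1 - s ^ 2) 0 0 (s ^ 3 * θ) = A2,
    pe N.B.L1 (1 - s ^ 2) 0 0 (s ^ 3 * θ) = B1, pe N.B.L2 (1 - s ^ 2) 0 0 (s ^ 3 * θ) = B2,
    N.K.g (1 - s ^ 2) 0 0 (s ^ 3 * θ) = K, N.C.g (1 - s ^ 2) 0 0 (s ^ 3 * θ) = C,
    N.D.g (1 - s ^ 2) 0 0 (s ^ 3 * θ) = D at key2 ⊢
  refine key2.trans_eq ?_
  rw [f2, f3]
  linear_combination (s * H * F1 - 2 * s * H * K + A1 - s * H * B1 + s ^ 2 * H ^ 2 * D) * f1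

end Crest.Agent.R97
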