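import Crest.Agent.R97.CertB4

/-!
CertE4 (helper51): elimination of `tr a⁴` in the class with `T(a²)` (idea 1250), `n = 5`.
Direction `l`, the other four eigenvalues have elementary symmetric functions `e1 = -l, e2, e3, e4`.  The Gram matrix of
`1, μ, μ²` in the weights `1 / (w0 + w1 μ)` is `eN / ePi` and decreases in `e4`.
-/

set_option autoImplicit false
open Finset

namespace Crest.Agent.R97

/-- product of the four weights -/
def ePi (w0 w1 e1 e2 e3 f : ℝ) : ℝ := w0 ^ 4 + w0 ^ 3 * w1 * e1 + w0 ^ 2 * w1 ^ 2 * e2 + w0 * w1 ^ 3 * e3 + w1 ^ 4 * f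
/-- power sums -/
def eP2 (e1 e2 : ℝ) : ℝ := e1 ^ 2 - 2 * e2
def eP3 (e1 e2 e3 : ℝ) : ℝ := e1 ^ 3 - 3 * e1 * e2 + 3 * e3
def eP4 (e1 e2 e3 f : ℝ) : ℝ := e1 * eP3 e1 e2 e3 - e2 * eP2 e1 e2 + e3 * e1 - 4 * f
def eP5 (e1 e2 e3 f : ℝ) : ℝ := e1 * eP4 e1 e2 e3 f - e2 * eP3 e1 e2 e3 + e3 * eP2 e1 e2 - f * e1
/-- numerators: `∑ μ^j / (w0 + w1 μ) = eNj / ePi` -/
def eN0 (w0 w1 e1 e2 e3 : ℝ) : ℝ := 4 * w0 ^ 3 + 3 * e1 * w0 ^ 2 * w1 + 2 * e2 * w0 * w1 ^ 2 + e3 * w1 ^ 3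
def eN1 (w0 w1 e1 e2 e3 f : ℝ) : ℝ := e1 * w0 ^ 3 + 2 * e2 * w0 ^ 2 * w1 + 3 * e3 * w0 * w1 ^ 2 + 4 * f * w1 ^ 3
def eN2 (w0 w1 e1 e2 e3 f : ℝ) : ℝ := eP2 e1 e2 * w0 ^ 3 + (e1 * e2 - 3 * e3) * w0 ^ 2 * w1
  + (e1 * e3 - 4 * f) * w0 * w1 ^ 2 + e1 * f * w1 ^ 3
def eN3 (w0 w1 e1 e2 e3 f : ℝ) : ℝ := eP3 e1 e2 e3 * w0 ^ 3 + (e1 * eP3 e1 e2 e3 - eP4 e1 e2 e3 f) * w0 ^ 2 * w1
  + (e3 * eP2 e1 e2 - f * e1) * w0 * w1 ^ 2 + f * eP2 e1 e2 * w1 ^ 3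
def eN4 (w0 w1 e1 e2 e3 f : ℝ) : ℝ := eP4 e1 e2 e3 f * w0 ^ 3 + (e1 * eP4 e1 e2 e3 f - eP5 e1 e2 e3 f) * w0 ^ 2 * w1
  + (e3 * eP3 e1 e2 e3 - f * eP2 e1 e2) * w0 * w1 ^ 2 + f * eP3 e1 e2 e3 * w1 ^ 3
/-- the quadratic form with matrix `eN (i + j)` -/
def eNq (w0 w1 e1 e2 e3 f γ α β : ℝ) : ℝ := γ ^ 2 * eN0 w0 w1 e1 e2 e3 + 2 * γ * α * eN1 w0 w1 e1 e2 e3 f
  + (α ^ 2 + 2 * γ * β) * eN2 w0 w1 e1 e2 e3 f + 2 * α * β * eN3 w0 w1 e1 e2 e3 f + β ^ 2 * eN4 w0 w1 e1 e2 e3 f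

theorem ePi_eq (w0 w1 a b c d : ℝ) :
    ePi w0 w1 (a + b + c + d) (a * b + a * c + a * d + b * c + b * d + c * d)
      (a * b * c + a * b * d + a * c * d + b * c * d) (a * b * c * d)
      = (w0 + w1 * a) * (w0 + w1 * b) * (w0 + w1 * c) * (w0 + w1 * d) := by
  unfold ePi; ring

theorem eNq_eq (w0 w1 a b c d γ α β : ℝ) :
    eNq w0 w1 (a + b + c + d) (a * b + a * c + a * d + b * c + b * d + c * d)
      (a * b * c + a * b * d + a * c * d + b * c * d) (a * b * c * d) γ α β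
      = (γ + α * a + β * a ^ 2) ^ 2 * ((w0 + w1 * b) * (w0 + w1 * c) * (w0 + w1 * d))
        + (γ + α * b + β * b ^ 2) ^ 2 * ((w0 + w1 * a) * (w0 + w1 * c) * (w0 + w1 * d))
        + (γ + α * c + β * c ^ 2) ^ 2 * ((w0 + w1 * a) * (w0 + w1 * b) * (w0 + w1 * d))
        + (γ + α * d + β * d ^ 2) ^ 2 * ((w0 + w1 * a) * (w0 + w1 * b) * (w0 + w1 * c)) := by
  unfold eNq eN0 eN1 eN2 eN3 eN4 eP5 eP4 eP3 eP2; ring

theorem eN0_eq (w0 w1 a b c d : ℝ) :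
    eN0 w0 w1 (a + b + c + d) (a * b + a * c + a * d + b * c + b * d + c * d)
      (a * b * c + a * b * d + a * c * d + b * c * d)
      = (w0 + w1 * b) * (w0 + w1 * c) * (w0 + w1 * d) + (w0 + w1 * a) * (w0 + w1 * c) * (w0 + w1 * d)
        + (w0 + w1 * a) * (w0 + w1 * b) * (w0 + w1 * d) + (w0 + w1 * a) * (w0 + w1 * b) * (w0 + w1 * c) := by
  unfold eN0; ring

theorem eNq_sub (w0 w1 e1 e2 e3 e4 f γ α β : ℝ) :
    eNq w0 w1 e1 e2 e3 f γ α β * ePi w0 w1 e1 e2 e3 e4 - eNq w0 w1 e1 e2 e3 e4 γ α β * ePi w0 w1 e1 e2 e3 f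
      = (e4 - f) * eN0 w0 w1 e1 e2 e3 * (γ * w1 ^ 2 - α * w0 * w1 + β * w0 ^ 2) ^ 2 := by
  unfold eNq ePi eN0 eN1 eN2 eN3 eN4 eP5 eP4 eP3 eP2; ring

theorem e4_one {w x q : ℝ} (hw : 0 < w) : 2 * (q * x) - q ^ 2 / w ≤ w * x ^ 2 := by
  have h : 0 ≤ (w * x - q) ^ 2 / w := by positivity
  have e : (w * x - q) ^ 2 / w = w * x ^ 2 - 2 * (q * x) + q ^ 2 / w := by field_simp; ring
  linarith

/-- the Gram matrix decreases in `e4` -/
theorem e4_gram {w0 w1 a b c d f : ℝ} (ha : 0 < w0 + w1 * a) (hb : 0 < w0 + w1 * b) (hc : 0 < w0 + w1 * c)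
    (hd : 0 < w0 + w1 * d) {e1 e2 e3 : ℝ} (h1 : e1 = a + b + c + d)
    (h2 : e2 = a * b + a * c + a * d + b * c + b * d + c * d)
    (h3 : e3 = a * b * c + a * b * d + a * c * d + b * c * d) (hf : f ≤ a * b * c * d)
    (hP : 0 < ePi w0 w1 e1 e2 e3 f) (γ α β : ℝ) :
    (γ + α * a + β * a ^ 2) ^ 2 / (w0 + w1 * a) + (γ + α * b + β * b ^ 2) ^ 2 / (w0 + w1 * b)
      + (γ + α * c + β * c ^ 2) ^ 2 / (w0 + w1 * c) + (γ + α * d + β * d ^ 2) ^ 2 / (w0 + w1 * d)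
      ≤ eNq w0 w1 e1 e2 e3 f γ α β / ePi w0 w1 e1 e2 e3 f := by
  have hP4 : 0 < ePi w0 w1 e1 e2 e3 (a * b * c * d) := by rw [h1, h2, h3, ePi_eq]; positivity
  have hN : 0 ≤ eN0 w0 w1 e1 e2 e3 := by rw [h1, h2, h3, eN0_eq]; positivity
  have e : (γ + α * a + β * a ^ 2) ^ 2 / (w0 + w1 * a) + (γ + α * b + β * b ^ 2) ^ 2 / (w0 + w1 * b)
      + (γ + α * c + β * c ^ 2) ^ 2 / (w0 + w1 * c) + (γ + α * d + β * d ^ 2) ^ 2 / (w0 + w1 * d)
      = eNq w0 w1 e1 e2 e3 (a * b * c * d) γ α β / ePi w0 w1 e1 e2 e3 (a * b * c * d) := by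
    rw [h1, h2, h3, ePi_eq, eNq_eq]
    generalize γ + α * a + β * a ^ 2 = qa, γ + α * b + β * b ^ 2 = qb, γ + α * c + β * c ^ 2 = qc,
      γ + α * d + β * d ^ 2 = qd, w0 + w1 * a = wa, w0 + w1 * b = wb, w0 + w1 * c = wc, w0 + w1 * d = wd at *
    field_simp
  rw [e, div_le_div_iff₀ hP4 hP, ← sub_nonneg, eNq_sub]
  exact mul_nonneg (mul_nonneg (sub_nonneg.2 hf) hN) (sq_nonneg _)

/-- Cauchy–Schwarz along one direction, five eigenvalues -/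
theorem e4_core {wl w0 w1 l a b c d f xl xa xb xc xd : ℝ} (hl : 0 < wl) (ha : 0 < w0 + w1 * a) (hb : 0 < w0 + w1 * b)
    (hc : 0 < w0 + w1 * c) (hd : 0 < w0 + w1 * d) {e1 e2 e3 : ℝ} (h1 : e1 = a + b + c + d)
    (h2 : e2 = a * b + a * c + a * d + b * c + b * d + c * d)
    (h3 : e3 = a * b * c + a * b * d + a * c * d + b * c * d) (hf : f ≤ a * b * c * d)
    (hP : 0 < ePi w0 w1 e1 e2 e3 f) (xs : xl + xa + xb + xc + xd = 0) (γ α β : ℝ) :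
    2 * (α * (xl * l + xa * a + xb * b + xc * c + xd * d)
        + β * (xl * l ^ 2 + xa * a ^ 2 + xb * b ^ 2 + xc * c ^ 2 + xd * d ^ 2))
      - ((γ + α * l + β * l ^ 2) ^ 2 / wl + eNq w0 w1 e1 e2 e3 f γ α β / ePi w0 w1 e1 e2 e3 f)
      ≤ wl * xl ^ 2 + (w0 + w1 * a) * xa ^ 2 + (w0 + w1 * b) * xb ^ 2 + (w0 + w1 * c) * xc ^ 2
        + (w0 + w1 * d) * xd ^ 2 := by
  have g := e4_gram ha hb hc hd h1 h2 h3 hf hP γ α β
  have k0 := e4_one (x := xl) (q := γ + α * l + β * l ^ 2) hl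
  have k1 := e4_one (x := xa) (q := γ + α * a + β * a ^ 2) ha
  have k2 := e4_one (x := xb) (q := γ + α * b + β * b ^ 2) hb
  have k3 := e4_one (x := xc) (q := γ + α * c + β * c ^ 2) hc
  have k4 := e4_one (x := xd) (q := γ + α * d + β * d ^ 2) hd
  have e : γ * (xl + xa + xb + xc + xd) = 0 := by rw [xs, mul_zero]
  linarith

/-- the middle critical point, sorted case -/
theorem e4_crit_sorted {a b c d : ℝ} (hab : a ≤ b) (hbc : b ≤ c) (hcd : c ≤ d) :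
    ∃ z, b ≤ z ∧ z ≤ c ∧ 0 ≤ (z - a) * (z - b) * (z - c) * (z - d) ∧
      (z - b) * (z - c) * (z - d) + (z - a) * (z - c) * (z - d) + (z - a) * (z - b) * (z - d)
        + (z - a) * (z - b) * (z - c) = 0 ∧
      (z - a) * (z - b) + (z - a) * (z - c) + (z - a) * (z - d) + (z - b) * (z - c) + (z - b) * (z - d)
        + (z - c) * (z - d) ≤ 0 := by
  rcases hbc.eq_or_lt with h | h
  · subst h
    refine ⟨b, le_rfl, le_rfl, by simp, by ring, ?_⟩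
    nlinarith [mul_nonneg (sub_nonneg.2 hab) (sub_nonneg.2 hcd)]
  · obtain ⟨z, hz, h0⟩ := exists_hasDerivAt_eq_zero (f := fun z : ℝ => (z - a) * (z - b) * (z - c) * (z - d))
      (f' := fun z : ℝ => (z - b) * (z - c) * (z - d) + (z - a) * (z - c) * (z - d) + (z - a) * (z - b) * (z - d)
        + (z - a) * (z - b) * (z - c)) h (by fun_prop) (by simp) (fun z _ => by
          have := ((((hasDerivAt_id z).sub_const a).mul ((hasDerivAt_id z).sub_const b)).mul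
            ((hasDerivAt_id z).sub_const c)).mul ((hasDerivAt_id z).sub_const d)
          refine this.congr_deriv ?_
          simp only [id, Pi.mul_apply]
          ring)
    obtain ⟨A, hA⟩ : ∃ A, A = z - a := ⟨_, rfl⟩
    obtain ⟨B, hB⟩ : ∃ B, B = z - b := ⟨_, rfl⟩
    obtain ⟨C, hC⟩ : ∃ C, C = c - z := ⟨_, rfl⟩
    obtain ⟨D, hD⟩ : ∃ D, D = d - z := ⟨_, rfl⟩
    have pA : 0 < A := by rw [hA]; linarith [hz.1]
    have pB : 0 < B := by rw [hB]; linarith [hz.1]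
    have pC : 0 < C := by rw [hC]; linarith [hz.2]
    have pD : 0 < D := by rw [hD]; linarith [hz.2]
    have eC : z - c = -C := by rw [hC]; ring
    have eD : z - d = -D := by rw [hD]; ring
    refine ⟨z, hz.1.le, hz.2.le, ?_, h0, ?_⟩
    · rw [eC, eD, ← hA, ← hB]
      have : 0 < A * B * C * D := by positivity
      linarith
    · rw [eC, eD, ← hA, ← hB] at h0 ⊢
      have hp : 0 < A * B * C * D := by positivity
      have e : 2 * (A * B * C * D) * (A * B + A * -C + A * -D + B * -C + B * -D + -C * -D)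
          = (B * -C * -D + A * -C * -D + A * B * -D + A * B * -C) ^ 2
            - ((B * C * D) ^ 2 + (A * C * D) ^ 2 + (A * B * D) ^ 2 + (A * B * C) ^ 2) := by ring
      rw [h0] at e
      by_contra hn
      have h5 := mul_pos hp (not_le.1 hn)
      have h6 : 0 ≤ (B * C * D) ^ 2 + (A * C * D) ^ 2 + (A * B * D) ^ 2 + (A * B * C) ^ 2 := by positivity
      linarith

/-- statement of the critical point lemma -/
def Crit (a b c d : ℝ) : Prop := ∃ z, (∀ m, m ≤ a → m ≤ b → m ≤ c → m ≤ d → m ≤ z) ∧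
  (∀ m, a ≤ m → b ≤ m → c ≤ m → d ≤ m → z ≤ m) ∧ 0 ≤ (z - a) * (z - b) * (z - c) * (z - d) ∧
      (z - b) * (z - c) * (z - d) + (z - a) * (z - c) * (z - d) + (z - a) * (z - b) * (z - d)
        + (z - a) * (z - b) * (z - c) = 0 ∧
      (z - a) * (z - b) + (z - a) * (z - c) + (z - a) * (z - d) + (z - b) * (z - c) + (z - b) * (z - d)
        + (z - c) * (z - d) ≤ 0

theorem Crit.s1 {a b c d : ℝ} (h : Crit b a c d) : Crit a b c d := by
  obtain ⟨z, h1, h2, h3, h4, h5⟩ := h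
  exact ⟨z, fun m p q r s => h1 m q p r s, fun m p q r s => h2 m q p r s, by linarith, by linarith, by linarith⟩

theorem Crit.s2 {a b c d : ℝ} (h : Crit a c b d) : Crit a b c d := by
  obtain ⟨z, h1, h2, h3, h4, h5⟩ := h
  exact ⟨z, fun m p q r s => h1 m p r q s, fun m p q r s => h2 m p r q s, by linarith, by linarith, by linarith⟩

theorem Crit.s3 {a b c d : ℝ} (h : Crit a b d c) : Crit a b c d := by
  obtain ⟨z, h1, h2, h3, h4, h5⟩ := h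
  exact ⟨z, fun m p q r s => h1 m p q s r, fun m p q r s => h2 m p q s r, by linarith, by linarith, by linarith⟩

theorem crit0 {a b c d : ℝ} (hab : a ≤ b) (hbc : b ≤ c) (hcd : c ≤ d) : Crit a b c d := by
  obtain ⟨z, h1, h2, h3⟩ := e4_crit_sorted hab hbc hcd
  exact ⟨z, fun m _ q _ _ => q.trans h1, fun m _ _ r _ => h2.trans r, h3⟩

theorem crit1 {a b c : ℝ} (d : ℝ) (hab : a ≤ b) (hbc : b ≤ c) : Crit a b c d := by
  rcases le_total c d with h | h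
  · exact crit0 hab hbc h
  rcases le_total b d with h2 | h2
  · exact (crit0 hab h2 h).s3
  rcases le_total a d with h3 | h3
  · exact (crit0 h3 h2 hbc).s2.s3
  · exact (crit0 h3 hab hbc).s1.s2.s3

theorem crit2 {a b : ℝ} (c d : ℝ) (hab : a ≤ b) : Crit a b c d := by
  rcases le_total b c with h | h
  · exact crit1 d hab h
  rcases le_total a c with h2 | h2
  · exact (crit1 d h2 h).s2
  · exact (crit1 d h2 hab).s1.s2

theorem crit (a b c d : ℝ) : Crit a b c d := by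
  rcases le_total a b with h | h
  · exact crit2 c d h
  · exact (crit2 c d h).s1

end Crest.Agent.R97
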