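import Crest.Agent.R97.CertE4
import Crest.Agent.R97.CertB5

/-!
CertE5 (helper51): the determinant condition with a majorant of the Gram matrix (`ScM`) and in centred variables with
`tr a⁴` eliminated (`ScC`): the four other eigenvalues are `-l/4 + ν`, `∑ ν² = 12 n²`, `e3(ν) = 4 n³ (th³ - 3 th)`.
-/

set_option autoImplicit false
open Finset

namespace Crest.Agent.R97

/-- the determinant form with any majorant of the Gram matrix -/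
def Ans.ScM (s : Ans) (m : ℕ) (R : (Fin 6 → ℝ) → Prop) : Prop :=
  ∀ (y : Fin 6 → ℝ) (l : ℝ) (μ : Fin m → ℝ), Adm R y l μ → 0 < y 0 →
    0 < s.Φ y ∧ 0 < s.c 0 y + 2 * s.c 7 y * l ∧ ((∀ j, 0 < s.c 0 y + 2 * s.c 7 y * μ j) → ∃ A B C : ℝ,
      (∀ α β : ℝ, α ^ 2 * gA (s.c 0 y) (s.c 7 y) l μ + 2 * α * β * gB (s.c 0 y) (s.c 7 y) l μ
        + β ^ 2 * gC (s.c 0 y) (s.c 7 y) l μ ≤ α ^ 2 * A + 2 * α * β * B + β ^ 2 * C) ∧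
      0 < qD A B C (s.M1 y) (s.M2 y) (s.M3 y) ∧ 0 < 2 + qT A B C (s.M1 y) (s.M2 y) (s.M3 y) ∧
      (y 2 - y 1 ^ 2) * qN A B C (s.M1 y) (s.M2 y) (s.M3 y) (s.b1 y l) (s.b2 y l)
        ≤ (s.G0 (m + 1) y (l ^ 4 + ∑ j, μ j ^ 4) + (y 2 - y 1 ^ 2) * s.cc y l) * qD A B C (s.M1 y) (s.M2 y) (s.M3 y))

theorem Ans.scW_of_M {s : Ans} {m : ℕ} {R : (Fin 6 → ℝ) → Prop} (h : s.ScM m R) (hz : s.ScZ m) : s.ScW m R := by
  intro y l μ a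
  by_cases h0 : 0 < y 0
  · obtain ⟨h1, h2, h3⟩ := h y l μ a h0
    refine ⟨h1.le, h2, fun hμ => ?_⟩
    obtain ⟨A, B, C, hm, h3, h4, h5⟩ := h3 hμ
    refine ⟨s.cc y l - qN A B C (s.M1 y) (s.M2 y) (s.M3 y) (s.b1 y l) (s.b2 y l) / qD A B C (s.M1 y) (s.M2 y) (s.M3 y),
      ?_, fun P v w Q hQ => fin_of_nn h1 ?_⟩
    · rw [← div_le_iff₀ h3, mul_div_assoc] at h5
      linarith
    · have h6 := quad_det (Q := Q) (v := v) (w := w) (s.b1 y l) (s.b2 y l) P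
        (fun α β => (gram_nn h2 hμ α β).trans (hm α β)) (fun α β => by linarith [hQ α β, hm α β]) h3 h4
      have h7 := s.Gk_eq h1 l P v w
      linarith
  · obtain ⟨rfl, rfl⟩ := a.zero h0
    obtain ⟨h1, h2, h3⟩ := Ans.scW_zero hz a
    exact ⟨h1, h2, fun _ => h3⟩

/-- change of the pair `(v, w)` to `(v, w + κ v)` -/
theorem qT_shift (A B C M1 M2 M3 κ : ℝ) : qT A (B - κ * A) (C - 2 * κ * B + κ ^ 2 * A) M1 M2 M3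
    = qT A B C (M1 - 2 * κ * M2 + κ ^ 2 * M3) (M2 - κ * M3) M3 := by
  unfold qT; ring

theorem qD_shift (A B C M1 M2 M3 κ : ℝ) : qD A (B - κ * A) (C - 2 * κ * B + κ ^ 2 * A) M1 M2 M3
    = qD A B C (M1 - 2 * κ * M2 + κ ^ 2 * M3) (M2 - κ * M3) M3 := by
  unfold qD qT; ring

theorem qN_shift (A B C M1 M2 M3 b1 b2 κ : ℝ) : qN A (B - κ * A) (C - 2 * κ * B + κ ^ 2 * A) M1 M2 M3 b1 b2
    = qN A B C (M1 - 2 * κ * M2 + κ ^ 2 * M3) (M2 - κ * M3) M3 (b1 - κ * b2) b2 := by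
  unfold qN; ring

/-- scaling of the pair `(v, w)` -/
theorem qT_scale (A B C M1 M2 M3 a c : ℝ) : qT (a ^ 2 * A) (a * c * B) (c ^ 2 * C) M1 M2 M3
    = qT A B C (a ^ 2 * M1) (a * c * M2) (c ^ 2 * M3) := by
  unfold qT; ring

theorem qD_scale (A B C M1 M2 M3 a c : ℝ) : qD (a ^ 2 * A) (a * c * B) (c ^ 2 * C) M1 M2 M3
    = qD A B C (a ^ 2 * M1) (a * c * M2) (c ^ 2 * M3) := by
  unfold qD qT; ring

theorem qN_scale (A B C M1 M2 M3 b1 b2 a c : ℝ) : qN (a ^ 2 * A) (a * c * B) (c ^ 2 * C) M1 M2 M3 b1 b2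
    = qN A B C (a ^ 2 * M1) (a * c * M2) (c ^ 2 * M3) (a * b1) (c * b2) := by
  unfold qN; ring

theorem gram_le {m : ℕ} {c0 c7 l : ℝ} {μ : Fin m → ℝ} (hl : 0 < c0 + 2 * c7 * l) (hμ : ∀ j, 0 < c0 + 2 * c7 * μ j)
    (α β θ : ℝ) : α ^ 2 * gA c0 c7 l μ + 2 * α * β * gB c0 c7 l μ + β ^ 2 * gC c0 c7 l μ
      ≤ (α * l + β * l ^ 2 - θ) ^ 2 / (c0 + 2 * c7 * l)
        + ∑ j, (α * μ j + β * μ j ^ 2 - θ) ^ 2 / (3 * c0 + 2 * c7 * (l + 2 * μ j)) := by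
  have hw : ∀ j, 0 < 3 * c0 + 2 * c7 * (l + 2 * μ j) := fun j => by linarith [hμ j]
  have h0 : 0 < sk c0 c7 l μ 0 :=
    add_pos_of_pos_of_nonneg (div_pos (by simp) hl) (sum_nonneg fun j _ => (div_pos (by simp) (hw j)).le)
  have e : (α * l + β * l ^ 2 - θ) ^ 2 / (c0 + 2 * c7 * l)
        + ∑ j, (α * μ j + β * μ j ^ 2 - θ) ^ 2 / (3 * c0 + 2 * c7 * (l + 2 * μ j))
      = α ^ 2 * sk c0 c7 l μ 2 + 2 * α * β * sk c0 c7 l μ 3 + β ^ 2 * sk c0 c7 l μ 4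
        - 2 * θ * α * sk c0 c7 l μ 1 - 2 * θ * β * sk c0 c7 l μ 2 + θ ^ 2 * sk c0 c7 l μ 0 := by
    have : ∑ j, (α * μ j + β * μ j ^ 2 - θ) ^ 2 / (3 * c0 + 2 * c7 * (l + 2 * μ j))
        = α ^ 2 * ∑ j, μ j ^ 2 / (3 * c0 + 2 * c7 * (l + 2 * μ j))
          + 2 * α * β * ∑ j, μ j ^ 3 / (3 * c0 + 2 * c7 * (l + 2 * μ j))
          + β ^ 2 * ∑ j, μ j ^ 4 / (3 * c0 + 2 * c7 * (l + 2 * μ j))
          - 2 * θ * α * ∑ j, μ j ^ 1 / (3 * c0 + 2 * c7 * (l + 2 * μ j))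
          - 2 * θ * β * ∑ j, μ j ^ 2 / (3 * c0 + 2 * c7 * (l + 2 * μ j))
          + θ ^ 2 * ∑ j, μ j ^ 0 / (3 * c0 + 2 * c7 * (l + 2 * μ j)) := by
      simp only [mul_sum, ← sum_add_distrib, ← sum_sub_distrib]
      exact sum_congr rfl fun j _ => by ring
    rw [this]
    simp only [sk]
    ring
  have e2 : α ^ 2 * sk c0 c7 l μ 2 + 2 * α * β * sk c0 c7 l μ 3 + β ^ 2 * sk c0 c7 l μ 4
        - 2 * θ * α * sk c0 c7 l μ 1 - 2 * θ * β * sk c0 c7 l μ 2 + θ ^ 2 * sk c0 c7 l μ 0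
        - (α ^ 2 * gA c0 c7 l μ + 2 * α * β * gB c0 c7 l μ + β ^ 2 * gC c0 c7 l μ)
      = (θ * sk c0 c7 l μ 0 - α * sk c0 c7 l μ 1 - β * sk c0 c7 l μ 2) ^ 2 / sk c0 c7 l μ 0 := by
    rw [gA, gB, gC]
    field_simp
    ring
  have h1 : 0 ≤ (θ * sk c0 c7 l μ 0 - α * sk c0 c7 l μ 1 - β * sk c0 c7 l μ 2) ^ 2 / sk c0 c7 l μ 0 := by positivity
  rw [e]
  linarith

section centred
variable (wl E F L e2 e3 f : ℝ)
/-- centred moments: `L ^ k / wl + ∑ ν ^ k / (E + F ν)` with `e4(ν)` replaced by `f` -/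
noncomputable def ck0 : ℝ := 1 / wl + eN0 E F 0 e2 e3 / ePi E F 0 e2 e3 f
noncomputable def ck1 : ℝ := L / wl + eN1 E F 0 e2 e3 f / ePi E F 0 e2 e3 f
noncomputable def ck2 : ℝ := L ^ 2 / wl + eN2 E F 0 e2 e3 f / ePi E F 0 e2 e3 f
noncomputable def ck3 : ℝ := L ^ 3 / wl + eN3 E F 0 e2 e3 f / ePi E F 0 e2 e3 f
noncomputable def ck4 : ℝ := L ^ 4 / wl + eN4 E F 0 e2 e3 f / ePi E F 0 e2 e3 f
/-- Schur complement of the entry `ck0` -/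
noncomputable def cA : ℝ := ck2 wl E F L e2 e3 f - ck1 wl E F L e2 e3 f ^ 2 / ck0 wl E F e2 e3 f
noncomputable def cB : ℝ := ck3 wl E F L e2 e3 f - ck1 wl E F L e2 e3 f * ck2 wl E F L e2 e3 f / ck0 wl E F e2 e3 f
noncomputable def cC : ℝ := ck4 wl E F L e2 e3 f - ck2 wl E F L e2 e3 f ^ 2 / ck0 wl E F e2 e3 f
end centred

/-- the Gram bound in centred variables -/
theorem gram_c {c0 c7 l f e2 e3 : ℝ} {μ : Fin 4 → ℝ} (hl : 0 < c0 + 2 * c7 * l) (hμ : ∀ j, 0 < c0 + 2 * c7 * μ j)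
    {a b c d : ℝ} (ha : a = μ 0 + l / 4) (hb : b = μ 1 + l / 4) (hc : c = μ 2 + l / 4) (hd : d = μ 3 + l / 4)
    (h1 : 0 = a + b + c + d) (h2 : e2 = a * b + a * c + a * d + b * c + b * d + c * d)
    (h3 : e3 = a * b * c + a * b * d + a * c * d + b * c * d) (hf : f ≤ a * b * c * d)
    (hP : 0 < ePi (3 * c0 + c7 * l) (4 * c7) 0 e2 e3 f) (α β : ℝ) :
    α ^ 2 * gA c0 c7 l μ + 2 * α * β * gB c0 c7 l μ + β ^ 2 * gC c0 c7 l μ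
      ≤ (α - β * (l / 2)) ^ 2 * cA (c0 + 2 * c7 * l) (3 * c0 + c7 * l) (4 * c7) (5 / 4 * l) e2 e3 f
        + 2 * (α - β * (l / 2)) * β * cB (c0 + 2 * c7 * l) (3 * c0 + c7 * l) (4 * c7) (5 / 4 * l) e2 e3 f
        + β ^ 2 * cC (c0 + 2 * c7 * l) (3 * c0 + c7 * l) (4 * c7) (5 / 4 * l) e2 e3 f := by
  obtain ⟨wl, hwl⟩ : ∃ wl, wl = c0 + 2 * c7 * l := ⟨_, rfl⟩
  obtain ⟨E, hE⟩ : ∃ E, E = 3 * c0 + c7 * l := ⟨_, rfl⟩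
  obtain ⟨F, hF⟩ : ∃ F, F = 4 * c7 := ⟨_, rfl⟩
  obtain ⟨L, hL⟩ : ∃ L, L = 5 / 4 * l := ⟨_, rfl⟩
  obtain ⟨α', hα⟩ : ∃ α', α' = α - β * (l / 2) := ⟨_, rfl⟩
  have wa : 3 * c0 + 2 * c7 * (l + 2 * μ 0) = E + F * a := by rw [hE, hF, ha]; ring
  have wb : 3 * c0 + 2 * c7 * (l + 2 * μ 1) = E + F * b := by rw [hE, hF, hb]; ring
  have wc : 3 * c0 + 2 * c7 * (l + 2 * μ 2) = E + F * c := by rw [hE, hF, hc]; ring
  have wd : 3 * c0 + 2 * c7 * (l + 2 * μ 3) = E + F * d := by rw [hE, hF, hd]; ring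
  have pa : 0 < E + F * a := by rw [← wa]; linarith [hμ 0]
  have pb : 0 < E + F * b := by rw [← wb]; linarith [hμ 1]
  have pc : 0 < E + F * c := by rw [← wc]; linarith [hμ 2]
  have pd : 0 < E + F * d := by rw [← wd]; linarith [hμ 3]
  rw [← hE, ← hF] at hP
  rw [← hwl, ← hE, ← hF, ← hL, ← hα]
  have hN : 0 ≤ eN0 E F 0 e2 e3 := by
    have := eN0_eq E F a b c d
    rw [← h1, ← h2, ← h3] at this
    rw [this]; positivity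
  have hw : 0 < wl := hwl ▸ hl
  have h0 : 0 < ck0 wl E F e2 e3 f := by unfold ck0; positivity
  obtain ⟨γ, hγ⟩ : ∃ γ, γ = -(α' * ck1 wl E F L e2 e3 f + β * ck2 wl E F L e2 e3 f) / ck0 wl E F e2 e3 f := ⟨_, rfl⟩
  have g1 := gram_le hl hμ α β (β * l ^ 2 / 16 - α * l / 4 - γ)
  have g2 := e4_gram pa pb pc pd h1 h2 h3 hf hP γ α' β
  have q : ∀ {x z : ℝ}, z = x + l / 4 →
      α * x + β * x ^ 2 - (β * l ^ 2 / 16 - α * l / 4 - γ) = γ + α' * z + β * z ^ 2 := fun h => by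
    rw [h, hα]; ring
  rw [Fin.sum_univ_four, wa, wb, wc, wd, q ha, q hb, q hc, q hd, q (x := l) (z := L) (by rw [hL]; ring), ← hwl] at g1
  have e1 : (γ + α' * L + β * L ^ 2) ^ 2 / wl + eNq E F 0 e2 e3 f γ α' β / ePi E F 0 e2 e3 f
      = γ ^ 2 * ck0 wl E F e2 e3 f + 2 * γ * α' * ck1 wl E F L e2 e3 f + (α' ^ 2 + 2 * γ * β) * ck2 wl E F L e2 e3 f
        + 2 * α' * β * ck3 wl E F L e2 e3 f + β ^ 2 * ck4 wl E F L e2 e3 f := by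
    unfold ck0 ck1 ck2 ck3 ck4 eNq
    ring
  have e2' : γ ^ 2 * ck0 wl E F e2 e3 f + 2 * γ * α' * ck1 wl E F L e2 e3 f
        + (α' ^ 2 + 2 * γ * β) * ck2 wl E F L e2 e3 f + 2 * α' * β * ck3 wl E F L e2 e3 f + β ^ 2 * ck4 wl E F L e2 e3 f
      = α' ^ 2 * cA wl E F L e2 e3 f + 2 * α' * β * cB wl E F L e2 e3 f + β ^ 2 * cC wl E F L e2 e3 f := by
    rw [hγ, cA, cB, cC]
    field_simp
    ring
  linarith

/-- the admissible data in centred variables; `Z = (1 - S) / 2 - u l / 4` -/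
structure AdmC (R : (Fin 6 → ℝ) → Prop) (y : Fin 6 → ℝ) (l n th e3 e4 Z : ℝ) : Prop where
  n0 : 0 ≤ n
  th0 : -1 ≤ th
  th1 : th ≤ 1
  he3 : e3 = 4 * n ^ 3 * (th ^ 3 - 3 * th)
  hZ : Z = (1 - y 2) / 2 - y 1 * l / 4
  y0 : y 0 = 5 / 4 * l ^ 2 + 12 * n ^ 2
  y4 : y 4 = 15 / 16 * l ^ 3 - 9 * l * n ^ 2 + 3 * e3
  u0 : 0 < y 1
  uS : y 1 ^ 2 ≤ y 2
  S1 : y 2 ≤ 1
  y5 : 0 ≤ y 5
  R : R y
  cl : 0 ≤ y 1 * l + (1 - y 2) / 2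
  f1 : n ^ 4 * (3 * th ^ 4 - 6 * th ^ 2) ≤ e4
  cb : 0 ≤ Z + y 1 * n * th
  c2 : y 1 * n ≤ Z
  c3 : 0 ≤ 4 * Z ^ 3 - 12 * (y 1 * n) ^ 2 * Z + y 1 ^ 3 * e3
  c4 : 0 ≤ Z ^ 4 - 6 * (y 1 * n) ^ 2 * Z ^ 2 + y 1 ^ 3 * e3 * Z + y 1 ^ 4 * e4

/-- the determinant condition in centred variables, for the pair `(v, w + (l / 2) v)` -/
def Ans.ScC (s : Ans) (R : (Fin 6 → ℝ) → Prop) : Prop :=
  ∀ (y : Fin 6 → ℝ) (l n th e3 e4 Z : ℝ), AdmC R y l n th e3 e4 Z → 0 < y 0 →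
    0 < s.Φ y ∧ 0 < s.c 0 y + 2 * s.c 7 y * l ∧ ∃ f : ℝ, f ≤ e4 ∧
      0 < ePi (3 * s.c 0 y + s.c 7 y * l) (4 * s.c 7 y) 0 (-6 * n ^ 2) e3 f ∧
      ∀ A B C M1 M2 M3 b1 b2 : ℝ,
        A = cA (s.c 0 y + 2 * s.c 7 y * l) (3 * s.c 0 y + s.c 7 y * l) (4 * s.c 7 y) (5 / 4 * l) (-6 * n ^ 2) e3 f →
        B = cB (s.c 0 y + 2 * s.c 7 y * l) (3 * s.c 0 y + s.c 7 y * l) (4 * s.c 7 y) (5 / 4 * l) (-6 * n ^ 2) e3 f →
        C = cC (s.c 0 y + 2 * s.c 7 y * l) (3 * s.c 0 y + s.c 7 y * l) (4 * s.c 7 y) (5 / 4 * l) (-6 * n ^ 2) e3 f →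
        M1 = s.M1 y - l * s.M2 y + l ^ 2 / 4 * s.M3 y → M2 = s.M2 y - l / 2 * s.M3 y → M3 = s.M3 y →
        b1 = s.b1 y l - l / 2 * s.b2 y l → b2 = s.b2 y l →
        0 < qD A B C M1 M2 M3 ∧ 0 < 2 + qT A B C M1 M2 M3 ∧
        (y 2 - y 1 ^ 2) * qN A B C M1 M2 M3 b1 b2
          ≤ (s.G0 5 y (65 / 64 * l ^ 4 + 9 / 2 * l ^ 2 * n ^ 2 - 3 * l * e3 + 72 * n ^ 4 - 4 * e4)
            + (y 2 - y 1 ^ 2) * s.cc y l) * qD A B C M1 M2 M3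

theorem exists_centred {a b c d : ℝ} (h1 : 0 = a + b + c + d) : ∃ n th : ℝ, 0 ≤ n ∧ -1 ≤ th ∧ th ≤ 1 ∧
    -6 * n ^ 2 = a * b + a * c + a * d + b * c + b * d + c * d ∧
    4 * n ^ 3 * (th ^ 3 - 3 * th) = a * b * c + a * b * d + a * c * d + b * c * d ∧
    n ^ 4 * (3 * th ^ 4 - 6 * th ^ 2) ≤ a * b * c * d ∧ ∀ m, m ≤ a → m ≤ b → m ≤ c → m ≤ d → m ≤ n * th := by
  obtain ⟨z, hz, -, k0, k1, k2⟩ := crit a b c d
  obtain ⟨e2, he2⟩ : ∃ e2, e2 = a * b + a * c + a * d + b * c + b * d + c * d := ⟨_, rfl⟩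
  obtain ⟨e3, he3⟩ : ∃ e3, e3 = a * b * c + a * b * d + a * c * d + b * c * d := ⟨_, rfl⟩
  obtain ⟨e4, he4⟩ : ∃ e4, e4 = a * b * c * d := ⟨_, rfl⟩
  have hd : d = -(a + b + c) := by linarith
  have j0 : 0 ≤ z ^ 4 + e2 * z ^ 2 - e3 * z + e4 := by
    refine k0.trans_eq ?_
    rw [he2, he3, he4, hd]; ring
  have j1 : 4 * z ^ 3 + 2 * e2 * z - e3 = 0 := by
    refine Eq.trans ?_ k1
    rw [he2, he3, hd]; ring
  have j2 : 6 * z ^ 2 + e2 ≤ 0 := by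
    refine le_of_eq_of_le ?_ k2
    rw [he2, hd]; ring
  rw [← he2, ← he3, ← he4]
  obtain ⟨n, n0, hn⟩ : ∃ n : ℝ, 0 ≤ n ∧ n ^ 2 = -e2 / 6 :=
    ⟨Real.sqrt (-e2 / 6), Real.sqrt_nonneg _, Real.sq_sqrt (by nlinarith [sq_nonneg z])⟩
  have hz2 : z ^ 2 ≤ n ^ 2 := by linarith
  obtain ⟨th, t0, t1, ht⟩ : ∃ th : ℝ, -1 ≤ th ∧ th ≤ 1 ∧ z = n * th := by
    have hz3 := abs_le_of_sq_le_sq' hz2 n0
    rcases n0.eq_or_lt with h | h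
    · exact ⟨0, by norm_num, by norm_num, by rw [mul_zero]; linarith [hz3.1, hz3.2]⟩
    · exact ⟨z / n, by rw [le_div_iff₀ h]; linarith [hz3.1], by rw [div_le_iff₀ h]; linarith [hz3.2], by field_simp⟩
  have he : e2 = -6 * n ^ 2 := by linarith
  have h3 : e3 = 4 * n ^ 3 * (th ^ 3 - 3 * th) := by
    rw [ht, he] at j1
    linarith
  refine ⟨n, th, n0, t0, t1, he.symm, h3.symm, ?_, ht ▸ hz⟩
  rw [ht, he, h3] at j0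
  linarith

theorem Ans.scM_of_C {s : Ans} {R : (Fin 6 → ℝ) → Prop} (h : s.ScC R) : s.ScM 4 R := by
  intro y l μ adm h0
  obtain ⟨a, ha⟩ : ∃ a, a = μ 0 + l / 4 := ⟨_, rfl⟩
  obtain ⟨b, hb⟩ : ∃ b, b = μ 1 + l / 4 := ⟨_, rfl⟩
  obtain ⟨c, hc⟩ : ∃ c, c = μ 2 + l / 4 := ⟨_, rfl⟩
  obtain ⟨d, hd⟩ : ∃ d, d = μ 3 + l / 4 := ⟨_, rfl⟩
  have tr := adm.tr
  have y0 := adm.y0
  have y4 := adm.y4
  rw [Fin.sum_univ_four] at tr y0 y4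
  have h1 : 0 = a + b + c + d := by rw [ha, hb, hc, hd]; linarith
  obtain ⟨n, th, n0, t0, t1, h2, h3, h4, h5⟩ := exists_centred h1
  obtain ⟨e3, he3⟩ : ∃ e3, e3 = 4 * n ^ 3 * (th ^ 3 - 3 * th) := ⟨_, rfl⟩
  obtain ⟨Z, hZ⟩ : ∃ Z, Z = (1 - y 2) / 2 - y 1 * l / 4 := ⟨_, rfl⟩
  rw [← he3] at h3
  have ma : μ 0 = a - l / 4 := by rw [ha]; ring
  have mb : μ 1 = b - l / 4 := by rw [hb]; ring
  have mc : μ 2 = c - l / 4 := by rw [hc]; ring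
  have md : μ 3 = d - l / 4 := by rw [hd]; ring
  have hd' : d = -(a + b + c) := by linarith
  have hn : n ^ 2 = -(a * b + a * c + a * d + b * c + b * d + c * d) / 6 := by linarith
  have u0 := adm.u0
  have pa : 0 ≤ Z + y 1 * a := by have := adm.cμ 0; rw [ma] at this; rw [hZ]; linarith
  have pb : 0 ≤ Z + y 1 * b := by have := adm.cμ 1; rw [mb] at this; rw [hZ]; linarith
  have pc : 0 ≤ Z + y 1 * c := by have := adm.cμ 2; rw [mc] at this; rw [hZ]; linarith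
  have pd : 0 ≤ Z + y 1 * d := by have := adm.cμ 3; rw [md] at this; rw [hZ]; linarith
  have Z0 : 0 ≤ Z := by
    have : y 1 * (a + b + c + d) = 0 := by rw [← h1, mul_zero]
    linarith
  have hdiv : ∀ {x : ℝ}, 0 ≤ Z + y 1 * x → -Z / y 1 ≤ x := fun hx => by rw [div_le_iff₀ u0]; linarith
  have adc : AdmC R y l n th e3 (a * b * c * d) Z := by
    refine ⟨n0, t0, t1, he3, hZ, ?_, ?_, u0, adm.uS, adm.S1, adm.y5, adm.R, adm.cl, h4, ?_, ?_, ?_, ?_⟩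
    · rw [y0, ma, mb, mc, md, hn, hd']; ring
    · rw [y4, ma, mb, mc, md, hn, h3, hd']; ring
    · have := h5 _ (hdiv pa) (hdiv pb) (hdiv pc) (hdiv pd)
      rw [div_le_iff₀ u0] at this
      linarith
    · refine abs_le_of_sq_le_sq' ?_ Z0 |>.2
      have e : 6 * (Z ^ 2 - (y 1 * n) ^ 2) = (Z + y 1 * a) * (Z + y 1 * b) + (Z + y 1 * a) * (Z + y 1 * c)
          + (Z + y 1 * a) * (Z + y 1 * d) + (Z + y 1 * b) * (Z + y 1 * c) + (Z + y 1 * b) * (Z + y 1 * d)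
          + (Z + y 1 * c) * (Z + y 1 * d) := by rw [mul_pow, hn, hd']; ring
      have : 0 ≤ 6 * (Z ^ 2 - (y 1 * n) ^ 2) := by rw [e]; positivity
      linarith
    · have e : 4 * Z ^ 3 - 12 * (y 1 * n) ^ 2 * Z + y 1 ^ 3 * e3 = (Z + y 1 * a) * (Z + y 1 * b) * (Z + y 1 * c)
          + (Z + y 1 * a) * (Z + y 1 * b) * (Z + y 1 * d) + (Z + y 1 * a) * (Z + y 1 * c) * (Z + y 1 * d)
          + (Z + y 1 * b) * (Z + y 1 * c) * (Z + y 1 * d) := by rw [mul_pow, hn, h3, hd']; ring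
      rw [e]; positivity
    · have e : Z ^ 4 - 6 * (y 1 * n) ^ 2 * Z ^ 2 + y 1 ^ 3 * e3 * Z + y 1 ^ 4 * (a * b * c * d)
          = (Z + y 1 * a) * (Z + y 1 * b) * (Z + y 1 * c) * (Z + y 1 * d) := by rw [mul_pow, hn, h3, hd']; ring
      rw [e]; positivity
  obtain ⟨k1, k2, f, hf, hP, k3⟩ := h y l n th e3 _ Z adc h0
  refine ⟨k1, k2, fun hμ => ?_⟩
  obtain ⟨k4, k5, k6⟩ := k3 _ _ _ _ _ _ _ _ rfl rfl rfl rfl rfl rfl rfl rfl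
  have g := gram_c k2 hμ ha hb hc hd h1 h2 h3 hf hP
  generalize cA (s.c 0 y + 2 * s.c 7 y * l) (3 * s.c 0 y + s.c 7 y * l) (4 * s.c 7 y) (5 / 4 * l) (-6 * n ^ 2) e3 f
    = A at *
  generalize cB (s.c 0 y + 2 * s.c 7 y * l) (3 * s.c 0 y + s.c 7 y * l) (4 * s.c 7 y) (5 / 4 * l) (-6 * n ^ 2) e3 f
    = B at *
  generalize cC (s.c 0 y + 2 * s.c 7 y * l) (3 * s.c 0 y + s.c 7 y * l) (4 * s.c 7 y) (5 / 4 * l) (-6 * n ^ 2) e3 f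
    = C at *
  have e1 : s.M1 y - l * s.M2 y + l ^ 2 / 4 * s.M3 y = s.M1 y - 2 * (l / 2) * s.M2 y + (l / 2) ^ 2 * s.M3 y := by ring
  have e4 : l ^ 4 + ∑ j, μ j ^ 4
      = 65 / 64 * l ^ 4 + 9 / 2 * l ^ 2 * n ^ 2 - 3 * l * e3 + 72 * n ^ 4 - 4 * (a * b * c * d) := by
    have : n ^ 4 = (n ^ 2) ^ 2 := by ring
    rw [Fin.sum_univ_four, ma, mb, mc, md, this, hn, h3, hd']; ring
  rw [e1, ← qD_shift] at k4
  rw [e1, ← qT_shift] at k5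
  rw [e1, ← qD_shift, ← qN_shift, ← e4] at k6
  exact ⟨_, _, _, fun α β => (g α β).trans_eq (by ring), k4, k5, k6⟩

theorem Ans.intJC_of_scC {s : Ans} {R : (Fin 6 → ℝ) → Prop} (hs : s.Diag) (h : s.ScC R) (hz : s.ScZ 4) :
    s.IntJC 6 R := Ans.intJC_of_scW (m := 4) hs (Ans.scW_of_M (Ans.scM_of_C h) hz)

end Crest.Agent.R97
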