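import Crest.Agent.R97.CertA
import Crest.Agent.R97.CertB2

/-! CertM (helper23): the maximum principle for `P`-functions `Q (y)` on the level of jets (`pmax`, `pmax_strict`), and the
certificate theorem with the interior condition only at the jets of the given cone (`cert_of_pt`, `cert_of_JK`). -/

set_option autoImplicit false
open MeasureTheory Metric Set Filter Topology
open scoped RealInnerProductSpace NNReal

namespace Crest.Agent.R97

variable {d : ℕ} {u : E d → ℝ} {x : E d}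

theorem cm_hn (h : HC u) (hx : 0 < u x) : 0 < ‖x‖⁻¹ ∧ ‖‖x‖⁻¹ • x‖ = 1 :=
  ⟨inv_pos.2 (norm_pos_iff.2 (h.ne_zero hx)), norm_smul_inv_norm (h.ne_zero hx)⟩

theorem cm_dom (hd : 1 ≤ d) (h : HC u) (hu : Mn 1 u) (hx : 0 < u x) : Dom (uy u x) := by
  rw [← h.uy_smul hx (cm_hn h hx).1, uy_one (cm_hn h hx).2]
  exact (ij_of hd h hu (h.smul_pos hx (cm_hn h hx).1) (cm_hn h hx).2).dom

theorem cm_cd (hd : 1 ≤ d) (h : HC u) (hu : Mn 1 u) {c : Cf} {n : ℕ} (hc : ∀ y, Dom y → ContDiffAt ℝ n c y)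
    (hx : 0 < u x) : ContDiffAt ℝ n (fun z => c (uy u z)) x :=
  (hc _ (cm_dom hd h hu hx)).comp x ((h.cd_uy hx).of_le (hara_le n))

theorem cm_gr (hd : 1 ≤ d) (h : HC u) (hu : Mn 1 u) {c : Cf} (hc : ∀ y, Dom y → ContDiffAt ℝ 1 c y)
    (h1 : ‖x‖ = 1) (hx : 0 < u x) (l : Fin d) :
    pd l (fun z => c (uy u z)) x = Cf.gr x (up u x) (ua u x) (uT u x) c l := by
  rw [pd_coef ((h.cd_uy hx).differentiableAt (by simp))
    ((hc _ (cm_dom hd h hu hx)).differentiableAt one_ne_zero), Cf.gr, uy_one h1]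
  exact Finset.sum_congr rfl fun i _ => by rw [h.pd_uy hx h1]

theorem cm_W (s : Ans) (x : E d) (l : Fin d) : s.W u x l = ∑ m, s.c m (uy u x) * uX u x m l := rfl

theorem cm_Wd (s : Ans) (v : E d) (h1 : ‖x‖ = 1) : ⟪s.W u x, v⟫ = ∑ m, s.c m (sv x (up u x) (ua u x)) *
    dp (Xv (up u x) (ua u x) (uT u x) m) v := by
  simp only [ca_inner, dp, cm_W, uy_one h1, uX_one h1, Finset.sum_mul, Finset.mul_sum, mul_assoc]
  exact Finset.sum_comm

theorem cm_cdW (hd : 1 ≤ d) (h : HC u) (hu : Mn 1 u) {s : Ans} (hs : ∀ m y, Dom y → ContDiffAt ℝ 1 (s.c m) y)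
    (hx : 0 < u x) : ContDiffAt ℝ 1 (s.W u) x :=
  contDiffAt_euclidean.2 fun l => ContDiffAt.sum (s := Finset.univ) fun m _ =>
    (cm_cd hd h hu (n := 1) (hs m) hx).mul ((h.cd_uX hx m l).of_le (by simp))

theorem cm_Wh (h : HC u) (s : Ans) {r : ℝ} (hr : 0 < r) (hx : 0 < u x) : s.W u (r • x) = r⁻¹ • s.W u x := by
  ext l
  simp only [cm_W, h.uy_smul hx hr, h.uX_smul hx hr, PiLp.smul_apply, smul_eq_mul, Finset.mul_sum, mul_left_comm]

theorem cm_G (hd : 1 ≤ d) (h : HC u) (hu : Mn 1 u) {s : Ans} (hs : ∀ m y, Dom y → ContDiffAt ℝ 1 (s.c m) y)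
    (h1 : ‖x‖ = 1) (hx : 0 < u x) :
    dv (s.W u) x - ((d : ℝ) - 2) * ⟪s.W u x, x⟫ - s.Λ * s.Φ (uy u x) = s.G x (up u x) (ua u x) (uT u x) := by
  have hc := fun m => cm_cd hd h hu (n := 1) (hs m) hx
  have hX : ∀ m l, ContDiffAt ℝ 1 (fun y => uX u y m l) x := fun m l => (h.cd_uX hx m l).of_le (by simp)
  have e1 : ∀ l, pd l (fun y => s.W u y l) x = ∑ m, (Cf.gr x (up u x) (ua u x) (uT u x) (s.c m) l *
      Xv (up u x) (ua u x) (uT u x) m l + s.c m (sv x (up u x) (ua u x)) * pd l (fun y => uX u y m l) x) := fun l => by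
    simp only [cm_W]
    rw [ca1_pd_sum _ fun m _ => ((hc m).mul (hX m l)).differentiableAt one_ne_zero]
    refine Finset.sum_congr rfl fun m _ => ?_
    rw [ca1_pd_mul ((hc m).differentiableAt one_ne_zero) ((hX m l).differentiableAt one_ne_zero),
      cm_gr hd h hu (hs m) h1 hx, uX_one h1, uy_one h1]
  rw [dv, Ans.G, cm_Wd s x h1, uy_one h1, Finset.sum_congr rfl fun l _ => e1 l, Finset.sum_comm, Finset.mul_sum,
    ← Finset.sum_sub_distrib]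
  congr 1
  refine Finset.sum_congr rfl fun m _ => ?_
  rw [← h.dv_uX hx h1, Finset.sum_add_distrib, ← Finset.mul_sum, dp.eq_1 (Cf.gr _ _ _ _ _)]
  ring

/-- `cert_of_J` with both conditions only at the jets of `u` -/
theorem cert_of_pt0 (hd : 2 ≤ d) {s : Ans} (hs : s.Ok) (hΛ : ((d : ℝ) - 2) ^ 2 / 4 < s.Λ)
    (hu : Mn 1 u) (hh : Hom u) (hj : JetsNear u)
    (hi : ∀ x : E d, ‖x‖ = 1 → 0 < u x → 0 ≤ s.G x (up u x) (ua u x) (uT u x) ∧
      dp (Cf.gr x (up u x) (ua u x) (uT u x) s.Φ) (Cf.gr x (up u x) (ua u x) (uT u x) s.Φ) ≤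
        4 * s.Φ (sv x (up u x) (ua u x)) * s.G x (up u x) (ua u x) (uT u x))
    (hb : ∀ ε : ℝ, 0 < ε → ∃ δ : ℝ, 0 < δ ∧ ∀ x : E d, ‖x‖ = 1 → 0 < u x → u x < δ →
      -ε ≤ rho u x * s.Φ (sv x (up u x) (ua u x)) +
        ∑ m, s.c m (sv x (up u x) (ua u x)) * dp (Xv (up u x) (ua u x) (uT u x) m) (up u x)) :
    ∀ x, 0 < u x → ∀ a b, pd a (pd b u) x = 0 := by
  have hd1 : 1 ≤ d := by omega
  have h : HC u := ⟨hu.lip.continuous, hh, hu.harm⟩
  obtain ⟨C0, hC0⟩ := coef_bdd hd1 h hu hj hs.Φ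
  choose C hC using fun m => coef_bdd hd1 h hu hj (hs.c m)
  have key := stab_div hd hu hh (Φ := fun z => s.Φ (uy u z)) (W := s.W u) (C := (d + 1) * (|C0| + ∑ m, |C m|)) hΛ
    (fun x hx => (cm_cd hd1 h hu (n := 1) hs.Φ hx).contDiffWithinAt)
    (fun x hx => (cm_cdW hd1 h hu hs.c hx).contDiffWithinAt)
    (fun r hr x hx => by simp only [h.uy_smul hx hr])
    (fun r hr x hx => cm_Wh h s hr hx)
    (fun x hx => hs.nn _ (cm_dom hd1 h hu hx)) (fun x h1 hx => ?_) (fun x h1 hx => ?_) fun ε hε => ?_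
  · intro x hx a b
    have h0 := key x hx
    have h2 : uy u x 0 ≤ 0 := not_lt.1 fun h' => (hs.pos _ (cm_dom hd1 h hu hx) h').ne' h0
    have h3 : fr (ua u x) (ua u x) ≤ 0 := by
      have h4 : 0 < ‖x‖ ^ (2 : ℤ) := zpow_pos (norm_pos_iff.2 (h.ne_zero hx)) _
      exact nonpos_of_mul_nonpos_right h2 h4
    have h5 := Finset.single_le_sum (f := fun j => ua u x a j * ua u x a j) (fun j _ => mul_self_nonneg _)
      (Finset.mem_univ b)
    have h6 := Finset.single_le_sum (f := fun i => ∑ j, ua u x i j * ua u x i j)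
      (fun i _ => Finset.sum_nonneg fun j _ => mul_self_nonneg _) (Finset.mem_univ a)
    exact mul_self_eq_zero.1 (le_antisymm (h5.trans (h6.trans h3)) (mul_self_nonneg _))
  · have h2 : 0 ≤ ∑ m, |C m| := Finset.sum_nonneg fun m _ => abs_nonneg _
    have h3 := abs_nonneg C0
    have h4 := le_abs_self C0
    refine ⟨?_, ca_norm (by positivity) fun l => ?_, ca_norm (by positivity) fun l => ?_⟩
    · rw [uy_one h1]
      nlinarith [(abs_le.1 (hC0 x h1 hx).1).2, mul_nonneg (Nat.cast_nonneg (α := ℝ) d) (add_nonneg h3 h2)]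
    · rw [gradient_apply, cm_gr hd1 h hu hs.Φ h1 hx]
      linarith [(hC0 x h1 hx).2.1 l]
    · rw [cm_W, uy_one h1]
      refine (Finset.abs_sum_le_sum_abs _ _).trans (le_add_of_nonneg_of_le h3 (Finset.sum_le_sum fun m _ => ?_))
      rw [uX_one h1]
      exact ((hC m x h1 hx).2.2 m l).trans (le_abs_self _)
  · rw [cm_G hd1 h hu hs.c h1 hx, norm_gradient_sq, uy_one h1]
    simp only [cm_gr hd1 h hu hs.Φ h1 hx, sq]
    exact hi x h1 hx
  · obtain ⟨δ, hδ, h2⟩ := hb ε hε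
    refine ⟨δ, hδ, fun x h1 hx hxδ => ?_⟩
    rw [cm_Wd s _ h1, uy_one h1, show (gradient u x).ofLp = up u x from funext fun i => gradient_apply u x i]
    exact h2 x h1 hx hxδ

/-- `cert_of_J` with the interior condition only at the jets of `u` -/
theorem cert_of_pt (hd : 2 ≤ d) {s : Ans} (hs : s.Ok) (hΛ : ((d : ℝ) - 2) ^ 2 / 4 < s.Λ)
    (hu : Mn 1 u) (hh : Hom u) (hj : JetsNear u)
    (hi : ∀ x : E d, ‖x‖ = 1 → 0 < u x → 0 ≤ s.G x (up u x) (ua u x) (uT u x) ∧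
      dp (Cf.gr x (up u x) (ua u x) (uT u x) s.Φ) (Cf.gr x (up u x) (ua u x) (uT u x) s.Φ) ≤
        4 * s.Φ (sv x (up u x) (ua u x)) * s.G x (up u x) (ua u x) (uT u x))
    (hb : s.BdJ d) : ∀ x, 0 < u x → ∀ a b, pd a (pd b u) x = 0 :=
  cert_of_pt0 hd hs hΛ hu hh hj hi fun _ hε =>
    bd_limit (by omega) ⟨hu.lip.continuous, hh, hu.harm⟩ hu hj hs hb hε

/-- a predicate on jets `(x, p, a, T)` -/
abbrev JP (d : ℕ) : Type :=
  (Fin d → ℝ) → (Fin d → ℝ) → (Fin d → Fin d → ℝ) → (Fin d → Fin d → Fin d → ℝ) → Prop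

/-- the predicate holds at the jets of `u` on the unit sphere -/
def JP.Holds (K : JP d) (u : E d → ℝ) : Prop :=
  ∀ x : E d, ‖x‖ = 1 → 0 < u x → K x (up u x) (ua u x) (uT u x)

/-- interior condition on the jets that satisfy the additional a priori bounds `K` -/
def Ans.IntK (s : Ans) (K : JP d) : Prop :=
  ∀ (x p : Fin d → ℝ) (a : Fin d → Fin d → ℝ) (T : Fin d → Fin d → Fin d → ℝ), IJ x p a T → K x p a T →
    0 ≤ s.G x p a T ∧ dp (Cf.gr x p a T s.Φ) (Cf.gr x p a T s.Φ) ≤ 4 * s.Φ (sv x p a) * s.G x p a T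

theorem cert_of_JK (hd : 2 ≤ d) {s : Ans} (hs : s.Ok) (hΛ : ((d : ℝ) - 2) ^ 2 / 4 < s.Λ) {K : JP d}
    (hi : s.IntK K) (hb : s.BdJ d) (hu : Mn 1 u) (hh : Hom u) (hj : JetsNear u) (hK : K.Holds u) :
    ∀ x, 0 < u x → ∀ a b, pd a (pd b u) x = 0 :=
  cert_of_pt hd hs hΛ hu hh hj (fun x h1 hx =>
    hi _ _ _ _ (ij_of (by omega) ⟨hu.lip.continuous, hh, hu.harm⟩ hu hx h1) (hK x h1 hx)) hb

/-- maximum principle for 0-homogeneous functions on the cone -/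
theorem cm_core (h : HC u) {F : E d → ℝ} (hF : ∀ x, 0 < u x → ContDiffAt ℝ 2 F x)
    (hh : ∀ r : ℝ, 0 < r → ∀ x, 0 < u x → F (r • x) = F x)
    (hb : ∀ ε : ℝ, 0 < ε → ∃ δ : ℝ, 0 < δ ∧ ∀ x, ‖x‖ = 1 → 0 < u x → u x < δ → F x ≤ ε)
    (hi : ∀ x, ‖x‖ = 1 → 0 < u x → 0 < F x → (∀ l, pd l F x = 0) → 0 < lap F x) :
    ∀ x, 0 < u x → F x ≤ 0 := by
  intro x hx
  by_contra hc
  push Not at hc
  obtain ⟨x0, h1, h2, h3⟩ : ∃ x0 : E d, ‖x0‖ = 1 ∧ 0 < u x0 ∧ 0 < F x0 :=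
    ⟨_, (cm_hn h hx).2, h.smul_pos hx (cm_hn h hx).1, by rwa [hh _ (cm_hn h hx).1 x hx]⟩
  obtain ⟨δ, hδ, hδb⟩ := hb (F x0) h3
  have hm : 0 < min δ (u x0) := lt_min hδ h2
  have hK : IsCompact (sphere (0 : E d) 1 ∩ {y | min δ (u x0) ≤ u y}) :=
    (isCompact_sphere _ _).inter_right (isClosed_le continuous_const h.cont)
  have hm0 : x0 ∈ sphere (0 : E d) 1 ∩ {y | min δ (u x0) ≤ u y} :=
    ⟨mem_sphere_zero_iff_norm.2 h1, min_le_right δ (u x0)⟩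
  obtain ⟨x1, hx1, hmax⟩ := hK.exists_isMaxOn ⟨x0, hm0⟩
    (f := F) fun y hy => (hF y (hm.trans_le hy.2)).continuousAt.continuousWithinAt
  have h4 : F x0 ≤ F x1 := hmax hm0
  have h5 : 0 < u x1 := hm.trans_le hx1.2
  have hloc : IsLocalMax F x1 := by
    filter_upwards [h.isOpen.mem_nhds h5] with y hy
    rw [← hh _ (cm_hn h hy).1 y hy]
    by_cases hc : min δ (u x0) ≤ u (‖y‖⁻¹ • y)
    · exact hmax ⟨mem_sphere_zero_iff_norm.2 (cm_hn h hy).2, hc⟩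
    · exact (hδb _ (cm_hn h hy).2 (h.smul_pos hy (cm_hn h hy).1)
        ((not_le.1 hc).trans_le (min_le_left _ _))).trans h4
  have h6 := hi x1 (mem_sphere_zero_iff_norm.1 hx1.1) h5 (h3.trans_le h4) fun l => by
    rw [pd, hloc.fderiv_eq_zero]; rfl
  exact absurd (lap_nonpos_of_isLocalMax (hF x1 h5) hloc) (not_le.2 h6)

/-- limits of jets at the free boundary -/
theorem cm_seq (h : HC u) (hu : Mn 1 u) (hj : JetsNear u) {P : E d → Prop}
    (hcon : ∀ δ : ℝ, 0 < δ → ∃ x : E d, ‖x‖ = 1 ∧ 0 < u x ∧ u x < δ ∧ P x) :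
    ∃ (x : ℕ → E d) (x' : Fin d → ℝ) (j : Jet d), (∀ k, ‖x k‖ = 1 ∧ 0 < u (x k) ∧ P (x k)) ∧ j.IsB ∧ HJ x' j.A j.T ∧
      dp j.w x' = 0 ∧ 0 ≤ j.H ∧ Dom (sv x' j.w j.A) ∧
      Tendsto (fun k => ((x k, up u (x k), rho u (x k), ua u (x k), uT u (x k)) : ca5_P d)) (hyperfilter ℕ)
        (𝓝 (x', j.w, j.H, j.A, j.T)) := by
  obtain ⟨C, hC⟩ := hj
  have key : ∀ k : ℕ, ∃ (x : E d) (j : Jet d), ‖x‖ = 1 ∧ 0 < u x ∧ u x ≤ 1 / ((k : ℝ) + 1) ∧ j.IsB ∧ j.Bdd C ∧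
      j.Near u x (1 / ((k : ℝ) + 1)) ∧ P x := fun k => by
    obtain ⟨δ, hδ, h1⟩ := hC (1 / ((k : ℝ) + 1)) (by positivity)
    obtain ⟨x, h2, h3, h4, h5⟩ := hcon (min δ (1 / ((k : ℝ) + 1))) (by positivity)
    obtain ⟨j, h6, h7, h8⟩ := h1 x h2 h3 (h4.trans_le (min_le_left _ _))
    exact ⟨x, j, h2, h3, h4.le.trans (min_le_right _ _), h6, h7, h8, h5⟩
  choose x j hx1 hx0 hxk hB hC hN hlt using key
  choose x' hx' using fun i => ca5_lim (f := fun k => x k i) (C := 1) fun k =>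
    (PiLp.norm_apply_le (x k) i).trans (hx1 k).le
  choose w' hw' using fun i => ca5_lim (f := fun k => (j k).w i) (C := 1) fun k =>
    (PiLp.norm_apply_le (j k).w i).trans (hB k).w1.le
  obtain ⟨H', hH'⟩ := ca5_lim (f := fun k => (j k).H) fun k => (hC k).1
  choose A' hA' using fun a b => ca5_lim (f := fun k => (j k).A a b) fun k => (hC k).2.1 a b
  choose T' hT' using fun a b c => ca5_lim (f := fun k => (j k).T a b c) fun k => (hC k).2.2 a b c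
  have hr : Tendsto (fun k => rho u (x k)) (hyperfilter ℕ) (𝓝 H') := ca5_near hH' fun k => (hN k).2.2.2
  have z1 : Tendsto (fun k => ((x k, (j k).w, (j k).H, (j k).A, (j k).T) : ca5_P d)) (hyperfilter ℕ)
      (𝓝 (x', w', H', A', T')) :=
    (tendsto_pi_nhds.2 hx').prodMk_nhds ((tendsto_pi_nhds.2 hw').prodMk_nhds (hH'.prodMk_nhds
      ((tendsto_pi_nhds.2 fun a => tendsto_pi_nhds.2 (hA' a)).prodMk_nhds
        (tendsto_pi_nhds.2 fun a => tendsto_pi_nhds.2 fun b => tendsto_pi_nhds.2 (hT' a b)))))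
  have z2 : Tendsto (fun k => ((x k, up u (x k), rho u (x k), ua u (x k), uT u (x k)) : ca5_P d)) (hyperfilter ℕ)
      (𝓝 (x', w', H', A', T')) :=
    (tendsto_pi_nhds.2 hx').prodMk_nhds ((tendsto_pi_nhds.2 fun a => ca5_near (hw' a) fun k => (hN k).1 a).prodMk_nhds
      (hr.prodMk_nhds ((tendsto_pi_nhds.2 fun a => tendsto_pi_nhds.2 fun b =>
        ca5_near (hA' a b) fun k => (hN k).2.1 a b).prodMk_nhds
        (tendsto_pi_nhds.2 fun a => tendsto_pi_nhds.2 fun b => tendsto_pi_nhds.2 fun c =>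
          ca5_near (hT' a b c) fun k => (hN k).2.2.1 a b c))))
  have b1 := ca5_isB hB z1
  have b2 := ca5_hj (fun k => h.hj (hx0 k) (hx1 k)) z2
  have b3 : dp w' x' = 0 := by
    have c : Continuous fun z : ca5_P d => ∑ i, z.2.1 i * z.1 i := by fun_prop
    refine tendsto_nhds_unique ((c.tendsto _).comp z2) ?_
    refine (squeeze_zero (fun k => (hx0 k).le) hxk ca5_zero).congr fun k => (h.euler (hx0 k)).symm
  have b4 : 0 ≤ H' := ge_of_tendsto' hr fun k => by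
    have h1 := norm_gradient_le hu.lip (x k)
    rw [NNReal.coe_one] at h1
    exact div_nonneg (sub_nonneg.2 (pow_le_one₀ (norm_nonneg _) h1)) (by linarith [hx0 k])
  have b6 : dp w' w' = 1 := by
    have h1 := real_inner_self_eq_norm_sq (WithLp.toLp 2 w' : E d)
    rw [ca5_inner, b1.w1, one_pow] at h1
    exact h1
  have hD : Dom (sv x' w' A') :=
    ⟨show 0 ≤ ∑ a, ∑ b, A' a b * A' a b from
      Finset.sum_nonneg fun a _ => Finset.sum_nonneg fun b _ => mul_self_nonneg _, b3.ge,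
      lt_of_lt_of_eq one_pos b6.symm, b6.le,
      show 0 ≤ ∑ a, mv A' w' a * mv A' w' a from Finset.sum_nonneg fun a _ => mul_self_nonneg _⟩
  exact ⟨x, x', _, fun k => ⟨hx1 k, hx0 k, hlt k⟩, b1, b2, b3, b4, hD, z2⟩

/-- values near the free boundary -/
theorem cm_bd (h : HC u) (hu : Mn 1 u) (hj : JetsNear u) {Q : Cf} (hQ : ∀ y, Dom y → ContinuousAt Q y)
    (hb : ∀ (x : Fin d → ℝ) (j : Jet d), j.IsB → HJ x j.A j.T → dp j.w x = 0 → 0 ≤ j.H → Q (sv x j.w j.A) ≤ 0)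
    {ε : ℝ} (hε : 0 < ε) : ∃ δ : ℝ, 0 < δ ∧ ∀ x : E d, ‖x‖ = 1 → 0 < u x → u x < δ →
      Q (sv x (up u x) (ua u x)) ≤ ε := by
  by_contra hcon
  push Not at hcon
  obtain ⟨x, x', j, hx, b1, b2, b3, b4, hD, z2⟩ := cm_seq h hu hj hcon
  have t1 := (ca5_sv.tendsto _).comp z2
  have t3 := ge_of_tendsto' ((hQ _ hD).tendsto.comp t1) fun k => (hx k).2.2.le
  exact absurd (t3.trans (hb x' j b1 b2 b3 b4)) (not_le.2 hε)

/-- the field of `s` is the tangential gradient of `Q`, so that `s.G` is the Laplacian of `Q` -/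
structure Cf.IsGr (Q : Cf) (s : Ans) : Prop where
  cQ : ∀ y, Dom y → ContDiffAt ℝ 2 Q y
  cc : ∀ m y, Dom y → ContDiffAt ℝ 1 (s.c m) y
  Λ0 : s.Λ = 0
  c0 : ∀ y, Dom y → s.c 0 y = 2 * Q.D 0 y
  c1 : ∀ y, Dom y → s.c 1 y = Q.D 3 y
  c2 : ∀ y, Dom y → s.c 2 y = Q.D 1 y
  c3 : ∀ y, Dom y → s.c 3 y = 2 * Q.D 2 y
  c4 : ∀ y, Dom y → s.c 4 y = 2 * Q.D 3 y
  c5 : ∀ y, Dom y → s.c 5 y = 2 * Q.D 5 y
  c6 : ∀ y, Dom y → s.c 6 y = 2 * Q.D 5 y
  c7 : ∀ y, Dom y → s.c 7 y = 3 * Q.D 4 y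

theorem cm_tan {x p : Fin d → ℝ} {a : Fin d → Fin d → ℝ} {T : Fin d → Fin d → Fin d → ℝ} (hj : IJ x p a T)
    {Q : Cf} {s : Ans} (hs : Q.IsGr s) (l : Fin d) :
    Cf.gr x p a T Q l = ∑ m, s.c m (sv x p a) * Xv p a T m l - (∑ m, s.c m (sv x p a) * dp (Xv p a T m) x) * x l := by
  have hD := hj.dom
  have h := hj.toHJ
  simp only [Cf.gr, Fin.sum_univ_six, Fin.sum_univ_eight, hs.c0 _ hD, hs.c1 _ hD, hs.c2 _ hD, hs.c3 _ hD, hs.c4 _ hD,
    hs.c5 _ hD, hs.c6 _ hD, hs.c7 _ hD, gv, Xv, Matrix.cons_val_zero, Matrix.cons_val_one, Matrix.cons_val,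
    ca3_tm_x h, ca3_tv_x h, ca3_mv_x h, ca3_dp_mv h p (mv a p)]
  ring

theorem cm_lap (hd : 1 ≤ d) (h : HC u) (hu : Mn 1 u) {Q : Cf} {s : Ans} (hs : Q.IsGr s) (h1 : ‖x‖ = 1)
    (hx : 0 < u x) : lap (fun z => Q (uy u z)) x = s.G x (up u x) (ua u x) (uT u x) := by
  have hev : ∀ x, 0 < u x → ∀ᶠ y in 𝓝 x, 0 < u y := fun x hx => h.isOpen.mem_nhds hx
  have hQ1 : ∀ y, Dom y → ContDiffAt ℝ 1 Q y := fun y hy => (hs.cQ y hy).of_le (by norm_num)
  obtain ⟨g, hg⟩ : ∃ g : E d → ℝ, g = fun x => ⟪s.W u x, x⟫ / ‖x‖ ^ 2 := ⟨_, rfl⟩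
  have hgx : ∀ x, g x = ⟪s.W u x, x⟫ / ‖x‖ ^ 2 := fun x => by rw [hg]
  have dW := (cm_cdW hd h hu hs.cc hx).differentiableAt one_ne_zero
  have dg : DifferentiableAt ℝ g x := by
    have : ContDiffAt ℝ 1 g x := by
      rw [hg]
      exact ((cm_cdW hd h hu hs.cc hx).inner ℝ contDiffAt_id).div (contDiff_norm_sq ℝ).contDiffAt
        (pow_ne_zero 2 (norm_ne_zero_iff.2 (h.ne_zero hx)))
    exact this.differentiableAt one_ne_zero
  have hgh : ∀ r : ℝ, 0 < r → ∀ x, 0 < u x → g (r • x) = (r ^ 2)⁻¹ * g x := by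
    intro r hr x hx
    have := norm_ne_zero_iff.2 (h.ne_zero hx)
    rw [hgx, hgx, cm_Wh h s hr hx, real_inner_smul_left, real_inner_smul_right, norm_smul,
      Real.norm_of_nonneg hr.le]
    field_simp
  have hg1 : ∀ y : E d, ‖y‖ = 1 → g y = ⟪s.W u y, y⟫ := fun y hy => by rw [hgx, hy]; simp
  have eg : fderiv ℝ g x x = -2 * g x := by
    refine stc_euler dg (φ := fun r => (r ^ 2)⁻¹) ?_ fun r hr => hgh r hr x hx
    exact ((hasDerivAt_pow 2 (1 : ℝ)).fun_inv (by norm_num)).congr_deriv (by norm_num)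
  have e1 : ∀ y : E d, ‖y‖ = 1 → 0 < u y → ∀ l, pd l (fun z => Q (uy u z)) y = (s.W u y - g y • y) l := by
    intro y hy1 hy l
    rw [cm_gr hd h hu hQ1 hy1 hy, cm_tan (ij_of hd h hu hy hy1) hs, hg1 y hy1, cm_Wd s y hy1]
    simp only [PiLp.sub_apply, PiLp.smul_apply, smul_eq_mul, cm_W, uy_one hy1, uX_one hy1]
  have e2 : ∀ y : E d, 0 < u y → ∀ l, pd l (fun z => Q (uy u z)) y = (s.W u y - g y • y) l := by
    intro y hy l
    obtain ⟨hr, hy1⟩ := cm_hn h hy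
    have h2 := e1 _ hy1 (h.smul_pos hy hr) l
    have h3 := stc_scale (F := fun z => Q (uy u z)) (x := y) (r := ‖y‖⁻¹) (a := 1)
      ((hev y hy).mono fun z hz => by simp only [h.uy_smul hz hr, one_mul]) (EuclideanSpace.single l 1)
    rw [one_mul] at h3
    rw [pd] at h2 ⊢
    rw [← h3, h2, cm_Wh h s hr hy, hgh _ hr y hy]
    simp only [PiLp.sub_apply, PiLp.smul_apply, smul_eq_mul]
    have := hr.ne'
    generalize ‖y‖⁻¹ = r at this
    field_simp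
  have e3 : lap (fun z => Q (uy u z)) x = dv (fun y => s.W u y - g y • y) x :=
    Finset.sum_congr rfl fun l _ => (pd_congr ((hev x hx).mono fun y hy => e2 y hy l) l).eq_of_nhds
  rw [e3, stc_dv_rad dW dg, eg, hg1 x h1, ← cm_G hd h hu hs.cc h1 hx, hs.Λ0]
  ring

theorem cm_D_coord (i k : Fin 6) (y : Fin 6 → ℝ) : Cf.D (fun y => y i) k y = if i = k then 1 else 0 := by
  unfold Cf.D
  by_cases hik : i = k
  · subst hik
    simp
  · simp [hik]

/-- the ansatz of `y 1 = u / |x|` -/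
noncomputable def cm_one : Ans := ⟨fun _ => 0, fun m _ => if m = 2 then 1 else 0, 0⟩

theorem cm_one_gr : Cf.IsGr (fun y => y 1) cm_one := by
  refine ⟨fun y _ => by fun_prop, fun m y _ => contDiffAt_const, rfl, ?_, ?_, ?_, ?_, ?_, ?_, ?_, ?_⟩ <;>
    intro y _ <;> simp [cm_one, cm_D_coord]

theorem cm_one_G (x p : Fin d → ℝ) (a : Fin d → Fin d → ℝ) (T : Fin d → Fin d → Fin d → ℝ) :
    cm_one.G x p a T = -((d - 1) * dp p x) := by
  simp [Ans.G, cm_one, Cf.gr, Cf.D, dp, dX]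

theorem pmax_eta (hd : 1 ≤ d) (hu : Mn 1 u) (hh : Hom u) (hj : JetsNear u) {Q : Cf} {s : Ans} (hs : Q.IsGr s)
    (hb : ∀ (x : Fin d → ℝ) (j : Jet d), j.IsB → HJ x j.A j.T → dp j.w x = 0 → 0 ≤ j.H → Q (sv x j.w j.A) ≤ 0)
    {η : ℝ} (hη : 0 ≤ η)
    (hi : ∀ x : E d, ‖x‖ = 1 → 0 < u x → η * u x < Q (sv x (up u x) (ua u x)) →
      (∀ l, Cf.gr x (up u x) (ua u x) (uT u x) Q l = η * (up u x l - u x * x l)) →
      -(η * ((d - 1) * u x)) < s.G x (up u x) (ua u x) (uT u x)) :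
    ∀ x : E d, ‖x‖ = 1 → 0 < u x → Q (sv x (up u x) (ua u x)) ≤ η * u x := by
  have h : HC u := ⟨hu.lip.continuous, hh, hu.harm⟩
  have hQ1 : ∀ y, Dom y → ContDiffAt ℝ 1 Q y := fun y hy => (hs.cQ y hy).of_le (by norm_num)
  have c1 : ∀ x, 0 < u x → ContDiffAt ℝ 2 (fun z => Q (uy u z)) x := fun x hx => cm_cd hd h hu (n := 2) hs.cQ hx
  have c2 : ∀ x, 0 < u x → ContDiffAt ℝ 2 (fun z => uy u z 1) x := fun x hx =>
    cm_cd hd h hu (n := 2) cm_one_gr.cQ hx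
  have e1 : ∀ x : E d, ‖x‖ = 1 → 0 < u x → uy u x 1 = u x := fun x h1 hx => by
    rw [uy_one h1]; exact h.euler hx
  have key := cm_core h (F := fun z => Q (uy u z) - η * uy u z 1)
    (fun x hx => (c1 x hx).sub (contDiffAt_const.mul (c2 x hx)))
    (fun r hr x hx => by simp only [h.uy_smul hx hr]) (fun ε hε => ?_) fun x h1 hx hF hg => ?_
  · intro x h1 hx
    have := key x hx
    rw [e1 x h1 hx, uy_one h1] at this
    linarith
  · obtain ⟨δ, hδ, h2⟩ := cm_bd h hu hj (fun y hy => (hs.cQ y hy).continuousAt) hb hε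
    refine ⟨δ, hδ, fun x h1 hx hxδ => ?_⟩
    have := h2 x h1 hx hxδ
    rw [e1 x h1 hx, uy_one h1]
    linarith [mul_nonneg hη hx.le]
  · rw [e1 x h1 hx, uy_one h1] at hF
    have h3 := hi x h1 hx (by linarith) fun l => by
      have h4 := hg l
      rw [pd_sub ((c1 x hx).differentiableAt two_ne_zero)
        ((contDiffAt_const.mul (c2 x hx)).differentiableAt two_ne_zero), pd_const_mul, cm_gr hd h hu hQ1 h1 hx,
        h.pd_uy hx h1] at h4
      rw [← h.euler hx]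
      exact sub_eq_zero.1 h4
    rw [lap_sub (c1 x hx) (contDiffAt_const.mul (c2 x hx)), lap_const_mul, cm_lap hd h hu hs h1 hx,
      cm_lap hd h hu cm_one_gr h1 hx, cm_one_G, h.euler hx]
    linarith

/-- maximum principle, using only `0 ≤ Δ Q` where `Q > 0` -/
theorem pmax (hd : 2 ≤ d) (hu : Mn 1 u) (hh : Hom u) (hj : JetsNear u) {Q : Cf} {s : Ans} (hs : Q.IsGr s)
    (hb : ∀ (x : Fin d → ℝ) (j : Jet d), j.IsB → HJ x j.A j.T → dp j.w x = 0 → 0 ≤ j.H → Q (sv x j.w j.A) ≤ 0)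
    {K : JP d} (hK : K.Holds u)
    (hi : ∀ x p a T, IJ x p a T → K x p a T → 0 < Q (sv x p a) → 0 ≤ s.G x p a T) :
    JP.Holds (fun x p a _ => Q (sv x p a) ≤ 0) u := by
  have h : HC u := ⟨hu.lip.continuous, hh, hu.harm⟩
  intro x h1 hx
  have hd2 : (2 : ℝ) ≤ d := by exact_mod_cast hd
  refine le_of_forall_pos_le_add fun ε hε => ?_
  have := pmax_eta (by omega) hu hh hj hs hb (η := ε / u x) (by positivity) (fun y hy1 hy h2 _ => ?_) x h1 hx
  · rwa [div_mul_cancel₀ _ hx.ne', ← zero_add ε] at this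
  · have h3 : 0 < ε / u x * u y := by positivity
    have h4 := hi _ _ _ _ (ij_of (by omega) h hu hy hy1) (hK y hy1 hy) (h3.trans h2)
    nlinarith

/-- maximum principle, using `0 < Δ Q` at the critical points with `Q > 0` -/
theorem pmax_strict (hd : 1 ≤ d) (hu : Mn 1 u) (hh : Hom u) (hj : JetsNear u) {Q : Cf} {s : Ans} (hs : Q.IsGr s)
    (hb : ∀ (x : Fin d → ℝ) (j : Jet d), j.IsB → HJ x j.A j.T → dp j.w x = 0 → 0 ≤ j.H → Q (sv x j.w j.A) ≤ 0)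
    {K : JP d} (hK : K.Holds u)
    (hi : ∀ x p a T, IJ x p a T → K x p a T → 0 < Q (sv x p a) → (∀ l, Cf.gr x p a T Q l = 0) → 0 < s.G x p a T) :
    JP.Holds (fun x p a _ => Q (sv x p a) ≤ 0) u := by
  have h : HC u := ⟨hu.lip.continuous, hh, hu.harm⟩
  intro x h1 hx
  have := pmax_eta hd hu hh hj hs hb le_rfl (fun y hy1 hy h2 h3 => ?_) x h1 hx
  · rwa [zero_mul] at this
  · simp only [zero_mul, neg_zero] at h2 h3 ⊢
    exact hi _ _ _ _ (ij_of hd h hu hy hy1) (hK y hy1 hy) h2 h3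

end Crest.Agent.R97
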