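import Crest.Agent.R97.CertPad
import Crest.Agent.R97.CertB4

/-!
CertPad2 (helper57): zero padding for the conditions with a priori constraints (`IntJC`, `BdJC`).
-/

set_option autoImplicit false
open MeasureTheory Metric Set
open scoped RealInnerProductSpace NNReal

namespace Crest.Agent.R97

variable {d : ℕ} (k : ℕ)

theorem pad_form (a : Fin d → Fin d → ℝ) (e : Fin (d + k) → ℝ) :
    dp e (mv (pad2 k a) e) = dp (fun i => e (Fin.castAdd k i)) (mv a fun i => e (Fin.castAdd k i)) := by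
  simp [dp, mv, Fin.sum_univ_add]

theorem pad_len (e : Fin (d + k) → ℝ) :
    dp (fun i => e (Fin.castAdd k i)) (fun i => e (Fin.castAdd k i)) ≤ dp e e := by
  rw [dp, dp, Fin.sum_univ_add]
  exact le_add_of_nonneg_right (Finset.sum_nonneg fun i _ => mul_self_nonneg _)

theorem pad_Cvx {x p : Fin d → ℝ} {a : Fin d → Fin d → ℝ} (h1 : dp p p ≤ 1) (h : Cvx x p a) :
    Cvx (pad k x) (pad k p) (pad2 k a) := by
  intro e
  rw [pad_dp, pad_dp, pad_form]
  have h2 := mul_le_mul_of_nonneg_left (pad_len k e) (show 0 ≤ (1 - dp p p) / 2 by linarith)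
  linarith [h fun i => e (Fin.castAdd k i)]

theorem pad_CvxB {H : ℝ} {a : Fin d → Fin d → ℝ} (h0 : 0 ≤ H) (h : CvxB H a) : CvxB H (pad2 k a) := by
  intro e
  rw [pad_form]
  have h2 := mul_le_mul_of_nonneg_left (pad_len k e) h0
  linarith [h fun i => e (Fin.castAdd k i)]

theorem pad_BdJC {s : Ans} (h : s.BdJC (d + k)) (Λ : ℝ) : Ans.BdJC { s with Λ := Λ } d := by
  intro x j hj hH hx h0 hC
  have := h (pad k x) (j.pad k) (pad_IsB k hj) (pad_HJ k hH) (by simpa [Jet.pad, pad_dp] using hx) h0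
    (pad_CvxB k h0 hC)
  simpa [Jet.pad, pad_sv, pad_Xv, pad_dp] using this

/-- the side condition under the a priori constraints -/
def Ans.RJC (s : Ans) (D : ℕ) (R : (Fin 6 → ℝ) → Prop) (c : ℝ) : Prop :=
  ∀ (x p : Fin D → ℝ) (a : Fin D → Fin D → ℝ) (T : Fin D → Fin D → Fin D → ℝ), IJ x p a T → Cvx x p a →
    R (sv x p a) → ∑ m, s.c m (sv x p a) * radX (sv x p a) m ≤ c * s.Φ (sv x p a)

theorem pad_IntJC {s : Ans} {R : (Fin 6 → ℝ) → Prop} (hs : s.Ok) (h : s.IntJC (d + k) R) {c : ℝ}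
    (hR : s.RJC (d + k) R c) {Λ : ℝ} (hΛ : Λ + k * c ≤ s.Λ) : Ans.IntJC { s with Λ := Λ } d R := by
  intro x p a T hj hC hy
  have h1 := h _ _ _ _ (pad_IJ k hj) (pad_Cvx k hj.le1 hC) (by rwa [pad_sv])
  have h2 := hR _ _ _ _ (pad_IJ k hj) (pad_Cvx k hj.le1 hC) (by rwa [pad_sv])
  have h3 := hs.nn _ hj.dom
  rw [pad_G, pad_gr, pad_dp, pad_sv] at h1
  rw [pad_sv] at h2
  have h4 : s.G x p a T + k * ∑ m, s.c m (sv x p a) * radX (sv x p a) m ≤ Ans.G x p a T { s with Λ := Λ } := by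
    have h5 := mul_le_mul_of_nonneg_left h2 (Nat.cast_nonneg (α := ℝ) k)
    have h6 := mul_le_mul_of_nonneg_right hΛ h3
    simp only [Ans.G]
    nlinarith
  exact ⟨h1.1.trans h4, h1.2.trans (mul_le_mul_of_nonneg_left h4 (by positivity))⟩

/-- the side condition in terms of the eigenvalues (same variables as `DirC`, `Sc`) -/
def Ans.RD (s : Ans) (n : ℕ) (R : (Fin 6 → ℝ) → Prop) (c : ℝ) : Prop :=
  ∀ (lam : Fin (n + 1) → ℝ) (y : Fin 6 → ℝ), lam 0 = 0 → ∑ i, lam i = 0 → y 0 = pw lam 2 → y 4 = pw lam 3 →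
    0 < y 1 → y 1 ^ 2 ≤ y 2 → y 2 ≤ 1 → 0 ≤ y 5 → R y → (∀ i, 0 ≤ y 1 * lam i + (1 - y 2) / 2) →
    s.c 0 y * y 0 + s.c 1 y * y 3 - s.c 2 y * y 1 + s.c 6 y * y 5 + s.c 7 y * y 4 ≤ c * s.Φ y

theorem Ans.rJC_of_D {s : Ans} {n : ℕ} {R : (Fin 6 → ℝ) → Prop} {c : ℝ} (h : s.RD n R c) : s.RJC (n + 1) R c := by
  intro x p a T hj hC hR
  obtain ⟨U, lam, hU, h0, -, ha⟩ := exists_eig hj.x1 hj.as hj.ax
  have p2 : fr a a = pw lam 2 := by rw [← hU.fr, ha, fr_dg2]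
  have p3 : fr a (sqm a) = pw lam 3 := by rw [← hU.fr, ← hU.sqm, ha, fr_dg3]
  have tr : ∑ i, lam i = 0 := by
    have := hU.tr a
    rw [ha, hj.atr] at this
    simpa only [dg_self] using this
  have hlo : ∀ i, 0 ≤ sv x p a 1 * lam i + (1 - sv x p a 2) / 2 := fun i => by
    have h2 := hC (U i)
    rwa [(eig_val hU ha i).1, (eig_val hU ha i).2, mul_one] at h2
  have hcs : dp p x ^ 2 ≤ dp p p := by
    have h2 : dp p x ^ 2 ≤ dp p p * dp x x := by
      simpa only [dp, sq] using Finset.sum_mul_sq_le_sq_mul_sq Finset.univ p x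
    rwa [hj.x1, mul_one] at h2
  have h1 := h lam (sv x p a) h0 tr p2 p3 hj.pos hcs hj.le1 (dp_self_nonneg _) hR hlo
  simp only [Fin.sum_univ_eight, radX, Matrix.cons_val_zero, Matrix.cons_val_one, Matrix.cons_val]
  linarith

/-- what the analytic part gives in dimension `d` -/
def CertJC (d : ℕ) (R : (Fin 6 → ℝ) → Prop) : Prop :=
  ∀ s : Ans, s.Ok → ((d : ℝ) - 2) ^ 2 / 4 < s.Λ → s.IntJC d R → s.BdJC d →
    ∀ u : E d → ℝ, Mn 1 u → Hom u → JetsNear u → ∀ x, 0 < u x → ∀ a b, pd a (pd b u) x = 0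

/-- dimension two needs no certificate -/
theorem cert_two {u : E 2 → ℝ} (hu : Mn 1 u) (hh : Hom u) (hj : JetsNear u) :
    ∀ x, 0 < u x → ∀ a b, pd a (pd b u) x = 0 := by
  refine cert_of_J le_rfl (s := ⟨fun y => y 0, fun _ _ => 0, 1⟩)
    ⟨fun y _ => (contDiff_apply ℝ ℝ (0 : Fin 6)).contDiffAt, fun m y _ => contDiffAt_const, fun y hy => hy.1,
      fun y _ hy => hy⟩ (by norm_num) (fun x p a T h => ?_) (fun x j _ _ _ h0 => ?_) hu hh hj
  · have h0 := pad_two h.toHJ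
    subst h0
    have e : Cf.gr x p 0 T (fun y => y 0) = 0 := by
      funext l
      simp [Cf.gr, Cf.D, Fin.sum_univ_six, gv, tm, fr, Function.update]
    have e0 : Cf.gr x p 0 T (fun _ => 0) = 0 := by
      funext l
      simp [Cf.gr, Cf.D]
    simp [Ans.G, e, e0, dp, sv, fr]
  · simp only [zero_mul, Finset.sum_const_zero, add_zero]
    exact mul_nonneg h0 (show 0 ≤ fr j.A j.A from
      Finset.sum_nonneg fun i _ => Finset.sum_nonneg fun j _ => mul_self_nonneg _)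

/-- One certificate in dimension 6 (with a priori constraints) and the side condition give all dimensions. -/
theorem cert_of_sixC {R : (Fin 6 → ℝ) → Prop} (hJ : ∀ d, 3 ≤ d → d ≤ 6 → CertJC d R) {s : Ans} (hs : s.Ok)
    (hΛ : 4 < s.Λ) (hi : s.IntJC 6 R) (hb : s.BdJC 6) (hR : s.RJC 6 R (5 / 4))
    (hd : 2 ≤ d) (hd6 : d ≤ 6) {u : E d → ℝ} (hu : Mn 1 u) (hh : Hom u) (hj : JetsNear u) :
    ∀ x, 0 < u x → ∀ a b, pd a (pd b u) x = 0 := by
  have hok : ∀ Λ, Ans.Ok { s with Λ := Λ } := fun Λ => ⟨hs.Φ, hs.c, hs.nn, hs.pos⟩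
  interval_cases d
  · exact cert_two hu hh hj
  · exact hJ 3 le_rfl hd6 _ (hok (s.Λ - 15 / 4)) (by norm_num; linarith)
      (pad_IntJC 3 hs hi hR (by norm_num)) (pad_BdJC 3 hb _) u hu hh hj
  · exact hJ 4 (by norm_num) hd6 _ (hok (s.Λ - 5 / 2)) (by norm_num; linarith)
      (pad_IntJC 2 hs hi hR (by norm_num)) (pad_BdJC 2 hb _) u hu hh hj
  · exact hJ 5 (by norm_num) hd6 _ (hok (s.Λ - 5 / 4)) (by norm_num; linarith)
      (pad_IntJC 1 hs hi hR (by norm_num)) (pad_BdJC 1 hb _) u hu hh hj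
  · exact hJ 6 (by norm_num) hd6 _ hs (by norm_num; linarith) hi hb u hu hh hj

end Crest.Agent.R97
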