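import Crest.Agent.R97.CertM
import Crest.Agent.R97.CertPad2

/-! CertN (helper23): the a priori bound `u² |a|² ≤ (5/14) (1 - S²)`, the boundary limit under `CvxB`, and `CertJC`. -/

set_option autoImplicit false
open MeasureTheory Metric Set Filter Topology
open scoped RealInnerProductSpace NNReal

namespace Crest.Agent.R97

variable {d : ℕ} {u : E d → ℝ} {x : E d}

/-- `Cvx` at the jets of `u` -/
def CvxH (u : E d → ℝ) : Prop := ∀ x : E d, ‖x‖ = 1 → 0 < u x → Cvx x (up u x) (ua u x)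

theorem cn_rho (x : E d) : rho u x = (1 - dp (up u x) (up u x)) / (2 * u x) := by
  rw [rho, norm_gradient_sq]
  simp only [dp, up, sq]

theorem cn_cvxB (h : HC u) (hC : CvxH u) {x : ℕ → E d} {x' : Fin d → ℝ} {j : Jet d}
    (hx : ∀ k, ‖x k‖ = 1 ∧ 0 < u (x k))
    (hz : Tendsto (fun k => ((x k, up u (x k), rho u (x k), ua u (x k), uT u (x k)) : ca5_P d)) (hyperfilter ℕ)
      (𝓝 (x', j.w, j.H, j.A, j.T))) : CvxB j.H j.A := by
  intro e
  have c : Continuous fun z : ca5_P d => dp e (mv z.2.2.2.1 e) + z.2.2.1 * dp e e := by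
    unfold dp mv
    fun_prop
  have t : Tendsto (fun k => dp e (mv (ua u (x k)) e) + rho u (x k) * dp e e) (hyperfilter ℕ)
      (𝓝 (dp e (mv j.A e) + j.H * dp e e)) := by
    simpa only [Function.comp_def] using (c.tendsto (x', j.w, j.H, j.A, j.T)).comp hz
  refine ge_of_tendsto' t fun k => ?_
  have h1 := hC _ (hx k).1 (hx k).2 e
  rw [h.euler (hx k).2] at h1
  have h2 := (hx k).2
  refine nonneg_of_mul_nonneg_right (a := u (x k)) (h1.trans_eq ?_) h2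
  rw [cn_rho]
  field_simp

theorem bd_limitC (h : HC u) (hu : Mn 1 u) (hj : JetsNear u) (hC : CvxH u) {s : Ans} (hs : s.Ok) (hb : s.BdJC d)
    {ε : ℝ} (hε : 0 < ε) : ∃ δ : ℝ, 0 < δ ∧ ∀ x : E d, ‖x‖ = 1 → 0 < u x → u x < δ →
      -ε ≤ rho u x * s.Φ (sv x (up u x) (ua u x)) +
        ∑ m, s.c m (sv x (up u x) (ua u x)) * dp (Xv (up u x) (ua u x) (uT u x) m) (up u x) := by
  by_contra hcon
  push Not at hcon
  obtain ⟨x, x', j, hx, b1, b2, b3, b4, hD, z2⟩ := cm_seq h hu hj hcon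
  have b5 := hb x' j b1 b2 b3 b4 (cn_cvxB h hC (fun k => ⟨(hx k).1, (hx k).2.1⟩) z2)
  have c : Continuous fun z : ca5_P d => z.2.2.1 := by fun_prop
  have hr := (c.tendsto _).comp z2
  have t1 := (ca5_sv.tendsto _).comp z2
  have t2 := (hr.mul ((hs.Φ _ hD).continuousAt.tendsto.comp t1)).add (tendsto_finsetSum Finset.univ fun m _ =>
    ((hs.c m _ hD).continuousAt.tendsto.comp t1).mul (((ca5_Xv m).tendsto _).comp z2))
  have t3 := le_of_tendsto' t2 fun k => (hx k).2.2.le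
  exact absurd (b5.trans t3) (not_le.2 (neg_neg_of_pos hε))

/-- the certificate theorem under `Cvx` and any a priori constraint `R` on the scalars -/
theorem cert_of_JC (hd : 2 ≤ d) {R : (Fin 6 → ℝ) → Prop} {s : Ans} (hs : s.Ok) (hΛ : ((d : ℝ) - 2) ^ 2 / 4 < s.Λ)
    (hi : s.IntJC d R) (hb : s.BdJC d) (hu : Mn 1 u) (hh : Hom u) (hj : JetsNear u) (hC : CvxH u)
    (hR : ∀ x : E d, ‖x‖ = 1 → 0 < u x → R (sv x (up u x) (ua u x))) :
    ∀ x, 0 < u x → ∀ a b, pd a (pd b u) x = 0 :=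
  have h : HC u := ⟨hu.lip.continuous, hh, hu.harm⟩
  cert_of_pt0 hd hs hΛ hu hh hj
    (fun x h1 hx => hi _ _ _ _ (ij_of (by omega) h hu hx h1) (hC x h1 hx) (hR x h1 hx))
    fun _ hε => bd_limitC h hu hj hC hs hb hε

/-- eigenvalues of a trace free matrix of size at most five -/
theorem cn_eig {n : ℕ} (hn : n ≤ 5) {lam : Fin (n + 1) → ℝ} {k : Fin (n + 1)} (hk : k ≠ 0) (h0 : lam 0 = 0)
    (tr : ∑ i, lam i = 0) : 5 / 4 * lam k ^ 2 ≤ pw lam 2 := by
  have h1 : ∀ j, 0 ≤ lam j ^ 2 + lam k / 2 * lam j + lam k ^ 2 / 16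
      - (if j = k then 25 / 16 * lam k ^ 2 else 0) - (if j = 0 then lam k ^ 2 / 16 else 0) := by
    intro j
    by_cases hj : j = k
    · rw [if_pos hj, if_neg (hj ▸ hk), hj]
      nlinarith
    · rw [if_neg hj]
      by_cases hj0 : j = 0
      · rw [if_pos hj0, hj0, h0]
        nlinarith
      · rw [if_neg hj0]
        nlinarith [sq_nonneg (lam j + lam k / 4)]
  have h2 := Finset.sum_nonneg fun j (_ : j ∈ Finset.univ) => h1 j
  simp only [Finset.sum_sub_distrib, Finset.sum_add_distrib, Finset.sum_ite_eq', Finset.mem_univ, if_true,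
    ← Finset.mul_sum, tr, Finset.sum_const, Finset.card_univ, Fintype.card_fin, nsmul_eq_mul] at h2
  have h3 : ((n + 1 : ℕ) : ℝ) ≤ 6 := by exact_mod_cast (by omega : n + 1 ≤ 6)
  have h4 := mul_le_mul_of_nonneg_right h3 (show 0 ≤ lam k ^ 2 / 16 by positivity)
  unfold pw
  linarith

/-- the `P`-function -/
noncomputable def cn_Q : Cf := fun y => y 1 ^ 2 * y 0 - 5 / 14 * (1 - y 2 ^ 2)

/-- its gradient field -/
noncomputable def cn_s : Ans :=
  ⟨fun _ => 0, ![fun y => 2 * y 1 ^ 2, fun _ => 0, fun y => 2 * y 1 * y 0, fun y => 10 / 7 * y 2, fun _ => 0,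
    fun _ => 0, fun _ => 0, fun _ => 0], 0⟩

theorem cn_D (c : Cf) (i : Fin 6) (y : Fin 6 → ℝ) {v : ℝ}
    (h : HasDerivAt (fun t => c (Function.update y i t)) v (y i)) : c.D i y = v := h.deriv

theorem cn_D0 (i : Fin 6) (y : Fin 6 → ℝ) : Cf.D (fun _ => 0) i y = 0 := by simp [Cf.D]

theorem cn_gr : cn_Q.IsGr cn_s := by
  refine ⟨fun y _ => by unfold cn_Q; fun_prop, fun m y _ => ?_, rfl, ?_, ?_, ?_, ?_, ?_, ?_, ?_, ?_⟩
  · fin_cases m <;> simp only [cn_s, Fin.reduceFinMk, Matrix.cons_val] <;> fun_prop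
  all_goals
    intro y _
    simp [cn_s, cn_Q, Cf.D, Function.update]
  all_goals ring

theorem cn_diag : cn_s.Diag := by
  refine ⟨fun _ => rfl, fun _ => rfl, cn_D0 _, cn_D0 _, fun m y => ?_, fun m y => ?_⟩ <;>
    fin_cases m <;> simp [cn_s, Cf.D, Function.update]

theorem cn_sc {n : ℕ} (hn : n ≤ 5) : cn_s.Sc n fun _ => True := by
  intro lam y k hk h0 tr y0 _ h1 h2 _ _ _ _ _
  have he := cn_eig hn hk h0 tr
  rw [← y0] at he
  have hom : 0 ≤ y 0 := le_trans (by positivity) he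
  have c0 : cn_s.c 0 y = 2 * y 1 ^ 2 := rfl
  refine ⟨le_rfl, by rw [c0]; positivity, -(10 / 7) * y 0, ?_, fun P v w Q hQ => ⟨?_, ?_⟩⟩
  · have : cn_s.G0 n y (pw lam 4) = 10 / 7 * y 2 * y 0 := by
      simp [Ans.G0, cn_s]
      ring
    rw [this]
    nlinarith [mul_nonneg hom (sq_nonneg (y 1))]
  · have e : cn_s.Gk y (lam k) P v w = 8 * y 1 * P * v + 2 * y 0 * P ^ 2 + 20 / 7 * lam k ^ 2 * P ^ 2 := by
      simp [Ans.Gk, Cf.gk, cn_s, Cf.D, Function.update]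
      ring
    have h3 := mul_le_mul_of_nonneg_left (hQ (-2 * P / y 1) 0) (show 0 ≤ 2 * y 1 ^ 2 by positivity)
    have e2 : 2 * y 1 ^ 2 * (2 * (-2 * P / y 1 * v + 0 * w) - ((-2 * P / y 1) ^ 2 * g11 n (y 0) (lam k)
        + 2 * (-2 * P / y 1) * 0 * g12 n (y 0) (y 4) (lam k) + 0 ^ 2 * g22 n (y 0) (pw lam 4) (lam k)))
        = -8 * y 1 * P * v - 8 * P ^ 2 * g11 n (y 0) (lam k) := by
      field_simp
      ring
    have h4 : (2 * n / (3 * (n + 2)) : ℝ) ≤ 10 / 21 := by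
      have : (n : ℝ) ≤ 5 := by exact_mod_cast hn
      rw [div_le_div_iff₀ (by positivity) (by norm_num)]
      linarith
    have h5 : g11 n (y 0) (lam k) ≤ y 0 / 3 + 10 / 21 * lam k ^ 2 := by
      unfold g11
      linarith [mul_le_mul_of_nonneg_right h4 (sq_nonneg (lam k))]
    rw [e2] at h3
    rw [c0, e]
    nlinarith [mul_le_mul_of_nonneg_left h5 (sq_nonneg P), mul_le_mul_of_nonneg_left he (sq_nonneg P)]
  · simp [Cf.gk, cn_s, Cf.D]

/-- the a priori constraint on the scalars -/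
def R0 (y : Fin 6 → ℝ) : Prop := y 1 ^ 2 * y 0 ≤ 5 / 14 * (1 - y 2 ^ 2)

theorem R0_holds (hd : 2 ≤ d) (hd6 : d ≤ 6) (hu : Mn 1 u) (hh : Hom u) (hj : JetsNear u) (hC : CvxH u) :
    ∀ x : E d, ‖x‖ = 1 → 0 < u x → R0 (sv x (up u x) (ua u x)) := by
  obtain ⟨n, rfl⟩ : ∃ n, d = n + 1 := ⟨d - 1, by omega⟩
  have hi := Ans.intJC_of_sc (by omega) cn_diag (fun _ => rfl) (cn_sc (n := n) (by omega))
  intro x h1 hx
  have := pmax hd hu hh hj cn_gr (fun x j hB _ h2 _ => ?_) (K := fun x p a _ => Cvx x p a) hC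
    (fun x p a T h3 h4 _ => (hi x p a T h3 h4 trivial).1) x h1 hx
  · exact sub_nonpos.1 this
  · rw [(bd_flux hB h2).1]
    simp [cn_Q]

theorem certJC_of (hd : 2 ≤ d) (hd6 : d ≤ 6)
    (hC : ∀ u : E d → ℝ, Mn 1 u → Hom u → JetsNear u → CvxH u) : CertJC d R0 :=
  fun _ hs hΛ hi hb u hu hh hj =>
    cert_of_JC hd hs hΛ hi hb hu hh hj (hC u hu hh hj) (R0_holds hd hd6 hu hh hj (hC u hu hh hj))

end Crest.Agent.R97
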