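import Crest.Agent.R97.CertE5
import Crest.Agent.R97.CertB8

/-!
CertP5 (helper51): the interior condition `NW` follows from the positivity of a 5×5 polynomial form on the spectra
with a double root.
-/

set_option autoImplicit false
open Finset

namespace Crest.Agent.R97

theorem lin_zero {a Q : ℝ} (h : ∀ τ : ℝ, 2 * (τ * a) ≤ Q) : a = 0 := by
  by_contra ha
  have h1 := h ((|Q| + 1) / a)
  rw [div_mul_cancel₀ _ ha] at h1
  linarith [le_abs_self Q, abs_nonneg Q]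

theorem range_of_sup {A B C v w Q : ℝ}
    (h : ∀ α β : ℝ, 2 * (α * v + β * w) - (α ^ 2 * A + 2 * α * β * B + β ^ 2 * C) ≤ Q) :
    ∃ α β : ℝ, v = α * A + β * B ∧ w = α * B + β * C := by
  rcases eq_or_ne (A * C - B ^ 2) 0 with hΔ | hΔ
  · have k1 : A * w - B * v = 0 := lin_zero (Q := Q) fun τ => by
      have := h (-(τ * B)) (τ * A)
      have e : (-(τ * B)) ^ 2 * A + 2 * (-(τ * B)) * (τ * A) * B + (τ * A) ^ 2 * C = τ ^ 2 * A * (A * C - B ^ 2) := by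
        ring
      rw [e, hΔ] at this
      linarith
    rcases eq_or_ne A 0 with hA | hA
    · have hB : B = 0 := by
        rw [hA, zero_mul, zero_sub, neg_eq_zero] at hΔ
        exact pow_eq_zero_iff (two_ne_zero) |>.1 hΔ
      have hv : v = 0 := lin_zero (Q := Q) fun τ => by
        have := h τ 0
        rw [hA] at this
        linarith
      rcases eq_or_ne C 0 with hC | hC
      · have hw : w = 0 := lin_zero (Q := Q) fun τ => by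
          have := h 0 τ
          rw [hC] at this
          linarith
        exact ⟨0, 0, by rw [hv]; ring, by rw [hw]; ring⟩
      · exact ⟨0, w / C, by rw [hv, hB]; ring, by field_simp; ring⟩
    · refine ⟨v / A, 0, by field_simp; ring, ?_⟩
      field_simp
      linarith
  · refine ⟨(C * v - B * w) / (A * C - B ^ 2), (A * w - B * v) / (A * C - B ^ 2), ?_, ?_⟩ <;>
      rw [div_mul_eq_mul_div, div_mul_eq_mul_div, ← add_div, eq_div_iff hΔ] <;> ring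

/-- from the dual bound to a primal point -/
theorem primal_of_dual {wl wb wc wd L a c d v1 v2 Q : ℝ} (hl : 0 < wl) (hb : 0 < wb) (hc : 0 < wc) (hd : 0 < wd)
    (h : ∀ γ α β : ℝ, 2 * (α * v1 + β * v2) - ((γ + α * L + β * L ^ 2) ^ 2 / wl + 2 * ((γ + α * a + β * a ^ 2) ^ 2 / wb)
      + (γ + α * c + β * c ^ 2) ^ 2 / wc + (γ + α * d + β * d ^ 2) ^ 2 / wd) ≤ Q) :
    ∃ xl xb xc xd : ℝ, xl + 2 * xb + xc + xd = 0 ∧ v1 = L * xl + 2 * a * xb + c * xc + d * xd ∧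
      v2 = L ^ 2 * xl + 2 * a ^ 2 * xb + c ^ 2 * xc + d ^ 2 * xd ∧
      wl * xl ^ 2 + 2 * wb * xb ^ 2 + wc * xc ^ 2 + wd * xd ^ 2 ≤ Q := by
  obtain ⟨ul, ul0, el⟩ : ∃ u : ℝ, 0 < u ∧ wl = u⁻¹ := ⟨wl⁻¹, inv_pos.2 hl, (inv_inv _).symm⟩
  obtain ⟨ub, ub0, eb⟩ : ∃ u : ℝ, 0 < u ∧ wb = u⁻¹ := ⟨wb⁻¹, inv_pos.2 hb, (inv_inv _).symm⟩
  obtain ⟨uc, uc0, ec⟩ : ∃ u : ℝ, 0 < u ∧ wc = u⁻¹ := ⟨wc⁻¹, inv_pos.2 hc, (inv_inv _).symm⟩
  obtain ⟨ud, ud0, ed⟩ : ∃ u : ℝ, 0 < u ∧ wd = u⁻¹ := ⟨wd⁻¹, inv_pos.2 hd, (inv_inv _).symm⟩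
  subst el eb ec ed
  simp only [div_inv_eq_mul] at h
  obtain ⟨S0, e0⟩ : ∃ S, S = ul + 2 * ub + uc + ud := ⟨_, rfl⟩
  obtain ⟨S1, e1⟩ : ∃ S, S = L * ul + 2 * a * ub + c * uc + d * ud := ⟨_, rfl⟩
  obtain ⟨S2, e2⟩ : ∃ S, S = L ^ 2 * ul + 2 * a ^ 2 * ub + c ^ 2 * uc + d ^ 2 * ud := ⟨_, rfl⟩
  obtain ⟨S3, e3⟩ : ∃ S, S = L ^ 3 * ul + 2 * a ^ 3 * ub + c ^ 3 * uc + d ^ 3 * ud := ⟨_, rfl⟩
  obtain ⟨S4, e4⟩ : ∃ S, S = L ^ 4 * ul + 2 * a ^ 4 * ub + c ^ 4 * uc + d ^ 4 * ud := ⟨_, rfl⟩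
  have S00 : 0 < S0 := by rw [e0]; positivity
  have q : ∀ γ α β : ℝ, (γ + α * L + β * L ^ 2) ^ 2 * ul + 2 * ((γ + α * a + β * a ^ 2) ^ 2 * ub)
      + (γ + α * c + β * c ^ 2) ^ 2 * uc + (γ + α * d + β * d ^ 2) ^ 2 * ud
      = γ ^ 2 * S0 + 2 * γ * (α * S1 + β * S2) + α ^ 2 * S2 + 2 * α * β * S3 + β ^ 2 * S4 := fun γ α β => by
    rw [e0, e1, e2, e3, e4]; ring
  have h' : ∀ α β : ℝ, 2 * (α * v1 + β * v2) - (α ^ 2 * (S2 - S1 ^ 2 / S0) + 2 * α * β * (S3 - S1 * S2 / S0)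
      + β ^ 2 * (S4 - S2 ^ 2 / S0)) ≤ Q := fun α β => by
    have := h (-(α * S1 + β * S2) / S0) α β
    rw [q] at this
    refine le_of_eq_of_le ?_ this
    field_simp
    ring
  obtain ⟨α, β, k1, k2⟩ := range_of_sup h'
  obtain ⟨γ, hγ⟩ : ∃ γ, γ = -(α * S1 + β * S2) / S0 := ⟨_, rfl⟩
  have g0 : γ * S0 + α * S1 + β * S2 = 0 := by rw [hγ]; field_simp; ring
  have g1 : v1 = γ * S1 + α * S2 + β * S3 := by rw [k1, hγ]; field_simp; ring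
  have g2 : v2 = γ * S2 + α * S3 + β * S4 := by rw [k2, hγ]; field_simp; ring
  refine ⟨(γ + α * L + β * L ^ 2) * ul, (γ + α * a + β * a ^ 2) * ub, (γ + α * c + β * c ^ 2) * uc,
    (γ + α * d + β * d ^ 2) * ud, ?_, ?_, ?_, ?_⟩
  · rw [← g0, e0, e1, e2]; ring
  · rw [g1, e1, e2, e3]; ring
  · rw [g2, e2, e3, e4]; ring
  · have h1 := h γ α β
    have h2 : ul⁻¹ * ((γ + α * L + β * L ^ 2) * ul) ^ 2 + 2 * ub⁻¹ * ((γ + α * a + β * a ^ 2) * ub) ^ 2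
        + uc⁻¹ * ((γ + α * c + β * c ^ 2) * uc) ^ 2 + ud⁻¹ * ((γ + α * d + β * d ^ 2) * ud) ^ 2
        = (γ + α * L + β * L ^ 2) ^ 2 * ul + 2 * ((γ + α * a + β * a ^ 2) ^ 2 * ub)
          + (γ + α * c + β * c ^ 2) ^ 2 * uc + (γ + α * d + β * d ^ 2) ^ 2 * ud := by
      field_simp
    rw [h2]
    rw [q] at h1 ⊢
    have h3 : 2 * (α * v1 + β * v2) = 2 * (γ ^ 2 * S0 + 2 * γ * (α * S1 + β * S2) + α ^ 2 * S2 + 2 * α * β * S3
        + β ^ 2 * S4) := by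
      rw [g1, g2]; linear_combination (-2 * γ) * g0
    linarith

/-- the spectrum with a double root that has the same `e₁, e₂, e₃` and a smaller `e₄` -/
theorem exists_dr {a b c d : ℝ} (h1 : 0 = a + b + c + d) : ∃ t R : ℝ, 0 ≤ R ∧ -R ≤ 2 * t ∧ 2 * t ≤ R ∧
    -(2 * t ^ 2) - R ^ 2 = a * b + a * c + a * d + b * c + b * d + c * d ∧
    -(2 * t * R ^ 2) = a * b * c + a * b * d + a * c * d + b * c * d ∧
    t ^ 2 * (t ^ 2 - R ^ 2) ≤ a * b * c * d ∧ ∀ m, m ≤ a → m ≤ b → m ≤ c → m ≤ d → m ≤ t := by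
  obtain ⟨n, th, n0, t0, t1, h2, h3, h4, h5⟩ := exists_centred h1
  have th2 : th ^ 2 ≤ 1 := by nlinarith
  have r0 : 0 ≤ n ^ 2 * (6 - 2 * th ^ 2) := mul_nonneg (sq_nonneg n) (by linarith)
  obtain ⟨R, R0, hR⟩ : ∃ R : ℝ, 0 ≤ R ∧ R ^ 2 = n ^ 2 * (6 - 2 * th ^ 2) := ⟨_, Real.sqrt_nonneg _, Real.sq_sqrt r0⟩
  have k := abs_le_of_sq_le_sq' (show (2 * (n * th)) ^ 2 ≤ R ^ 2 by
    rw [hR]; nlinarith [mul_nonneg (sq_nonneg n) (sub_nonneg.2 th2)]) R0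
  refine ⟨n * th, R, R0, k.1, k.2, ?_, ?_, ?_, h5⟩
  · rw [← h2, hR]; ring
  · rw [← h3, hR]; ring
  · refine le_of_eq_of_le ?_ h4
    rw [hR]; ring

theorem gram_dr {K D l t R v v' Q : ℝ} {μ : Fin 4 → ℝ} (hl : 0 < K + 2 * D * l) (hμ : ∀ j, 0 < K + 2 * D * μ j)
    {a b c d : ℝ} (ha : a = μ 0 + l / 4) (hb : b = μ 1 + l / 4) (hc : c = μ 2 + l / 4) (hd : d = μ 3 + l / 4)
    (h1 : 0 = a + b + c + d) (h2 : -(2 * t ^ 2) - R ^ 2 = a * b + a * c + a * d + b * c + b * d + c * d)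
    (h3 : -(2 * t * R ^ 2) = a * b * c + a * b * d + a * c * d + b * c * d)
    (hf : t ^ 2 * (t ^ 2 - R ^ 2) ≤ a * b * c * d) (pb' : 0 < 3 * K + D * (l + 4 * t))
    (pc' : 0 < 3 * K + D * (l - 4 * t) - 4 * D * R) (pd' : 0 < 3 * K + D * (l - 4 * t) + 4 * D * R)
    (hQ : ∀ α β : ℝ, 2 * (α * v + β * v') - (α ^ 2 * gA K D l μ + 2 * α * β * gB K D l μ + β ^ 2 * gC K D l μ) ≤ Q) :
    ∃ xb x0 x1 : ℝ, v = 2 * (t - 5 / 4 * l) * xb - 2 * (t + 5 / 4 * l) * x0 + 2 * R * x1 ∧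
      v' = 2 * ((t - l / 4) ^ 2 - l ^ 2) * xb + 2 * ((t + l / 4) ^ 2 + R ^ 2 - l ^ 2) * x0 - 4 * R * (t + l / 4) * x1 ∧
      (K + 2 * D * l) * (2 * xb + 2 * x0) ^ 2 + 2 * (3 * K + D * (l + 4 * t)) * xb ^ 2
        + 2 * (3 * K + D * (l - 4 * t)) * (x0 ^ 2 + x1 ^ 2) + 16 * D * R * x0 * x1 ≤ Q := by
  obtain ⟨E, hE⟩ : ∃ E, E = 3 * K + D * l := ⟨_, rfl⟩
  obtain ⟨F, hF⟩ : ∃ F, F = 4 * D := ⟨_, rfl⟩
  have wa : 3 * K + 2 * D * (l + 2 * μ 0) = E + F * a := by rw [hE, hF, ha]; ring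
  have wb : 3 * K + 2 * D * (l + 2 * μ 1) = E + F * b := by rw [hE, hF, hb]; ring
  have wc : 3 * K + 2 * D * (l + 2 * μ 2) = E + F * c := by rw [hE, hF, hc]; ring
  have wd : 3 * K + 2 * D * (l + 2 * μ 3) = E + F * d := by rw [hE, hF, hd]; ring
  have pa : 0 < E + F * a := by rw [← wa]; linarith [hμ 0]
  have pb : 0 < E + F * b := by rw [← wb]; linarith [hμ 1]
  have pc : 0 < E + F * c := by rw [← wc]; linarith [hμ 2]
  have pd : 0 < E + F * d := by rw [← wd]; linarith [hμ 3]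
  have qb : 0 < E + F * t := by rw [hE, hF]; linarith
  have qc : 0 < E + F * (-t - R) := by rw [hE, hF]; linarith
  have qd : 0 < E + F * (-t + R) := by rw [hE, hF]; linarith
  have s1 : t + t + (-t - R) + (-t + R) = 0 := by ring
  have s2 : t * t + t * (-t - R) + t * (-t + R) + t * (-t - R) + t * (-t + R) + (-t - R) * (-t + R)
      = -(2 * t ^ 2) - R ^ 2 := by ring
  have s3 : t * t * (-t - R) + t * t * (-t + R) + t * (-t - R) * (-t + R) + t * (-t - R) * (-t + R)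
      = -(2 * t * R ^ 2) := by ring
  have s4 : t * t * (-t - R) * (-t + R) = t ^ 2 * (t ^ 2 - R ^ 2) := by ring
  have eP := ePi_eq E F t t (-t - R) (-t + R)
  rw [s1, s2, s3, s4] at eP
  have hP : 0 < ePi E F 0 (-(2 * t ^ 2) - R ^ 2) (-(2 * t * R ^ 2)) (t ^ 2 * (t ^ 2 - R ^ 2)) := by
    rw [eP]; positivity
  obtain ⟨xl, xb, xc, xd, k0, k1, k2, k3⟩ := primal_of_dual (L := 5 / 4 * l) (a := t) (c := -t - R) (d := -t + R)
    (v1 := v) (v2 := v' + l / 2 * v) (Q := Q) hl qb qc qd fun γ α' β => by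
      obtain ⟨α, hα⟩ : ∃ α, α = α' + β * (l / 2) := ⟨_, rfl⟩
      have g1 := gram_le hl hμ α β (β * l ^ 2 / 16 - α * l / 4 - γ)
      have g2 := e4_gram pa pb pc pd h1 h2 h3 hf hP γ α' β
      have q : ∀ {x z : ℝ}, z = x + l / 4 →
          α * x + β * x ^ 2 - (β * l ^ 2 / 16 - α * l / 4 - γ) = γ + α' * z + β * z ^ 2 := fun h => by
        rw [h, hα]; ring
      rw [Fin.sum_univ_four, wa, wb, wc, wd, q ha, q hb, q hc, q hd, q (x := l) (z := 5 / 4 * l) (by ring)] at g1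
      have eN := eNq_eq E F t t (-t - R) (-t + R) γ α' β
      rw [s1, s2, s3, s4] at eN
      have g3 : eNq E F 0 (-(2 * t ^ 2) - R ^ 2) (-(2 * t * R ^ 2)) (t ^ 2 * (t ^ 2 - R ^ 2)) γ α' β
          / ePi E F 0 (-(2 * t ^ 2) - R ^ 2) (-(2 * t * R ^ 2)) (t ^ 2 * (t ^ 2 - R ^ 2))
          = 2 * ((γ + α' * t + β * t ^ 2) ^ 2 / (E + F * t)) + (γ + α' * (-t - R) + β * (-t - R) ^ 2) ^ 2 / (E + F * (-t - R))
            + (γ + α' * (-t + R) + β * (-t + R) ^ 2) ^ 2 / (E + F * (-t + R)) := by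
        rw [eN, eP]
        generalize E + F * t = wb at qb
        generalize E + F * (-t - R) = wc at qc
        generalize E + F * (-t + R) = wd at qd
        field_simp
        ring
      have g4 := hQ α β
      have g5 : α * v + β * v' = α' * v + β * (v' + l / 2 * v) - 2 * (β * (l / 2) * v) + 2 * (β * (l / 2) * v) := by
        rw [hα]; ring
      linarith
  have xl' : xl = -(2 * xb + xc + xd) := by linarith
  refine ⟨xb, (xc + xd) / 2, (xd - xc) / 2, ?_, ?_, ?_⟩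
  · rw [k1, xl']; ring
  · have : v' = (v' + l / 2 * v) - l / 2 * v := by ring
    rw [this, k2, k1, xl']; ring
  · refine le_of_eq_of_le ?_ k3
    rw [xl', hE, hF]; ring

/-- `v = Σ λ x` and `v' = Σ λ² x` for the spectrum `l; -l/4 + t, -l/4 + t, -l/4 - t ∓ R` -/
noncomputable def v5a (l t R xb x0 x1 : ℝ) : ℝ := 2 * (t - 5 / 4 * l) * xb - 2 * (t + 5 / 4 * l) * x0 + 2 * R * x1
noncomputable def v5b (l t R xb x0 x1 : ℝ) : ℝ :=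
  2 * ((t - l / 4) ^ 2 - l ^ 2) * xb + 2 * ((t + l / 4) ^ 2 + R ^ 2 - l ^ 2) * x0 - 4 * R * (t + l / 4) * x1

/-- the 5×5 form in `(P, xb, x0, x1, y)` with abstract entries -/
noncomputable def form5 (K D F g1 g2 g3 m1 m2 m3 c1 c2 c0 l t R P xb x0 x1 y : ℝ) : ℝ :=
  (K + 2 * D * l) * (2 * xb + 2 * x0) ^ 2 + 2 * (3 * K + D * (l + 4 * t)) * xb ^ 2
    + 2 * (3 * K + D * (l - 4 * t)) * (x0 ^ 2 + x1 ^ 2) + 16 * D * R * x0 * x1
    + (m1 * v5a l t R xb x0 x1 ^ 2 + 2 * m2 * v5a l t R xb x0 x1 * v5b l t R xb x0 x1 + m3 * v5b l t R xb x0 x1 ^ 2)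
    + 2 * P * (c1 * v5a l t R xb x0 x1 + c2 * v5b l t R xb x0 x1) + c0 * P ^ 2
    + F * y ^ 2 + 2 * y * (g1 * v5a l t R xb x0 x1 + g2 * v5b l t R xb x0 x1 + g3 * P)

namespace Tab
variable (N : Tab) (s z p θ w : ℝ)
/-- the division-free parts of `M1, …, cc` -/
noncomputable def pg1 : ℝ := N.F.vo s z p θ (2 * N.al)
noncomputable def pg2 : ℝ := 3 / 2 * s * N.F.vt s z p θ
noncomputable def pg3 : ℝ := (N.F.hz s z p θ - 2 * s * w * N.F.hp s z p θ) / 2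
noncomputable def pm1 : ℝ := 2 * s ^ 2 * N.K.vo s z p θ (2 * N.al - 2)
noncomputable def pm2 : ℝ := s ^ 3 * (3 * N.K.vt s z p θ + 2 * N.D.vo s z p θ (2 * N.al - 3)) / 2
noncomputable def pm3 : ℝ := 3 * s ^ 4 * N.D.vt s z p θ
noncomputable def pc1 : ℝ := (N.C.v s z p θ + (N.K.vz s z p θ - 2 * s * w * N.K.vp s z p θ)
  + 2 * (N.A.vo s z p θ (2 * N.al + 1) + s * w * N.B.vo s z p θ (2 * N.al)
    + (s * w) ^ 2 * N.C.vo s z p θ (2 * N.al - 1))) / 2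
noncomputable def pc2 : ℝ := s * (((N.D.vz s z p θ - 2 * s * w * N.D.vp s z p θ)
  + 3 * (N.A.vt s z p θ + s * w * N.B.vt s z p θ + (s * w) ^ 2 * N.C.vt s z p θ)) / 2)
noncomputable def pc0 : ℝ := (N.A.hz s z p θ - 2 * s * w * N.A.hp s z p θ)
  + w * (s * N.B.hz s z p θ - 2 * w * N.B.vp s z p θ) + w ^ 2 * (N.C.vz s z p θ - 2 * s * w * N.C.vp s z p θ)
end Tab

/-- the domain; `X = p / 2 + z s (t - l / 4)`, `Y = p / 2 - z s (t + l / 4)` -/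
structure Dom5 (c s z p l t R : ℝ) : Prop where
  s0 : 0 ≤ s
  s1 : s ≤ 1
  z0 : 0 ≤ z
  p0 : 0 ≤ p
  p1 : p ≤ 1
  un : 5 / 4 * l ^ 2 + 4 * t ^ 2 + 2 * R ^ 2 = 1
  R0 : 0 ≤ R
  t0 : -R ≤ 2 * t
  t1 : 2 * t ≤ R
  zS : z ^ 2 * (1 - s ^ 2) ≤ c * (1 - p)
  r1 : (z * s) ^ 2 ≤ 5 / 14 * (p * (2 - p))
  cl : 0 ≤ z * s * l + p / 2
  cX : 0 ≤ p / 2 + z * s * (t - l / 4)
  cY : 0 ≤ p / 2 - z * s * (t + l / 4)
  c3 : (z * s * R) ^ 2 ≤ (p / 2 - z * s * (t + l / 4)) * (p - z * s * l / 2)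

/-- the 5×5 condition -/
def Tab.P5 (N : Tab) : Prop :=
  ∀ s z p l t R θ K D : ℝ, Dom5 N.c s z p l t R → θ = l * (15 / 16 * l ^ 2 - 3 * t ^ 2 - 3 / 2 * R ^ 2) - 6 * t * R ^ 2 →
    K = N.K.v s z p θ → D = s * N.D.v s z p θ →
    0 < N.F.h s z p θ ∧ 0 < K + 2 * D * l ∧ 0 < 3 * K + D * (l + 4 * t) ∧
    0 < 3 * K + D * (l - 4 * t) - 4 * D * R ∧ 0 < 3 * K + D * (l - 4 * t) + 4 * D * R ∧
    ∃ mm : ℝ, 0 ≤ N.G0 s z p θ 5 + N.PP s z p * mm ∧ ∀ P xb x0 x1 y : ℝ,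
      0 ≤ form5 K D (N.F.h s z p θ) (N.pg1 s z p θ) (N.pg2 s z p θ) (N.pg3 s z p θ l) (N.pm1 s z p θ) (N.pm2 s z p θ)
        (N.pm3 s z p θ) (N.pc1 s z p θ l) (N.pc2 s z p θ l) (N.pc0 s z p θ l - mm) l t R P xb x0 x1 y

theorem dom_XY {X Y r A B C D : ℝ} (pa : 0 ≤ A) (pb : 0 ≤ B) (pc : 0 ≤ C) (pd : 0 ≤ D) (hX : 0 ≤ X)
    (e1 : A + B + C + D = 2 * (X + Y))
    (e2 : A * B + A * C + A * D + B * C + B * D + C * D = X ^ 2 + 4 * X * Y + Y ^ 2 - r ^ 2)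
    (e3 : A * B * C + A * B * D + A * C * D + B * C * D = 2 * (X * (Y * (X + Y) - r ^ 2))) :
    0 ≤ Y ∧ r ^ 2 ≤ Y * (X + Y) := by
  have k1 : 0 ≤ X + Y := by linarith
  have k2 : 0 ≤ X ^ 2 + 4 * X * Y + Y ^ 2 - r ^ 2 := by rw [← e2]; positivity
  have k3 : 0 ≤ X * (Y * (X + Y) - r ^ 2) := by
    have : 0 ≤ A * B * C + A * B * D + A * C * D + B * C * D := by positivity
    linarith
  have k4 : r ^ 2 ≤ Y * (X + Y) := by
    rcases hX.eq_or_lt with h | h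
    · rw [← h] at k2 ⊢
      linarith
    · exact sub_nonneg.1 (nonneg_of_mul_nonneg_right k3 h)
  refine ⟨?_, k4⟩
  by_contra hY
  push Not at hY
  have k5 : X + Y = 0 := by nlinarith [sq_nonneg r]
  have k6 : X = -Y := by linarith
  rw [k6] at k2
  nlinarith [sq_nonneg r]

theorem Tab.NW_of_P5 {N : Tab} (h : N.P5) : N.NW 4 R1 := by
  intro s z p l θ ν adm hθ
  obtain ⟨a, ha⟩ : ∃ a, a = ν 0 + l / 4 := ⟨_, rfl⟩
  obtain ⟨b, hb⟩ : ∃ b, b = ν 1 + l / 4 := ⟨_, rfl⟩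
  obtain ⟨c, hc⟩ : ∃ c, c = ν 2 + l / 4 := ⟨_, rfl⟩
  obtain ⟨d, hd⟩ : ∃ d, d = ν 3 + l / 4 := ⟨_, rfl⟩
  have tr := adm.tr
  have nrm := adm.nrm
  rw [Fin.sum_univ_four] at tr nrm hθ
  have h1 : 0 = a + b + c + d := by rw [ha, hb, hc, hd]; linarith
  obtain ⟨t, R, R0, t0, t1, h2, h3, h4, h5⟩ := exists_dr h1
  have ma : ν 0 = a - l / 4 := by rw [ha]; ring
  have mb : ν 1 = b - l / 4 := by rw [hb]; ring
  have mc : ν 2 = c - l / 4 := by rw [hc]; ring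
  have md : ν 3 = d - l / 4 := by rw [hd]; ring
  have hd' : d = -(a + b + c) := by linarith
  obtain ⟨w, hw⟩ : ∃ w, w = z * s := ⟨_, rfl⟩
  have w0 : 0 ≤ w := hw ▸ mul_nonneg adm.z0 adm.s0
  obtain ⟨Z, hZ⟩ : ∃ Z, Z = p / 2 - w * l / 4 := ⟨_, rfl⟩
  have pa : 0 ≤ Z + w * a := by have := adm.cν 0; rw [ma, ← hw] at this; rw [hZ]; linarith
  have pb : 0 ≤ Z + w * b := by have := adm.cν 1; rw [mb, ← hw] at this; rw [hZ]; linarith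
  have pc : 0 ≤ Z + w * c := by have := adm.cν 2; rw [mc, ← hw] at this; rw [hZ]; linarith
  have pd : 0 ≤ Z + w * d := by have := adm.cν 3; rw [md, ← hw] at this; rw [hZ]; linarith
  have hX : 0 ≤ Z + w * t := by
    rcases w0.eq_or_lt with h0 | h0
    · rw [← h0] at pa ⊢
      linarith
    · have hdiv : ∀ {x : ℝ}, 0 ≤ Z + w * x → -Z / w ≤ x := fun hx => by rw [div_le_iff₀ h0]; linarith
      have := h5 _ (hdiv pa) (hdiv pb) (hdiv pc) (hdiv pd)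
      rw [div_le_iff₀ h0] at this
      linarith
  obtain ⟨hY, h33⟩ := dom_XY (Y := Z - w * t) (r := w * R) pa pb pc pd hX (by linear_combination (-w) * h1)
    (by linear_combination (-3 * Z * w) * h1 - w ^ 2 * h2)
    (by linear_combination (-3 * Z ^ 2 * w) * h1 - 2 * Z * w ^ 2 * h2 - w ^ 3 * h3)
  have dom : Dom5 N.c s z p l t R := by
    refine ⟨adm.s0, adm.s1, adm.z0, adm.p0, adm.p1, ?_, R0, t0, t1, adm.zS, adm.R, adm.cl, ?_, ?_, ?_⟩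
    · rw [ma, mb, mc, md] at nrm
      linear_combination nrm - 2 * h2 + (a + b + c + d - l / 2) * h1
    · rw [← hw]; rw [hZ] at hX; linarith
    · rw [← hw]; rw [hZ] at hY; linarith
    · rw [← hw]; rw [hZ] at h33; linarith
  have eθ : θ = l * (15 / 16 * l ^ 2 - 3 * t ^ 2 - 3 / 2 * R ^ 2) - 6 * t * R ^ 2 := by
    have : R ^ 2 = -(2 * t ^ 2) - (a * b + a * c + a * d + b * c + b * d + c * d) := by linarith
    have e : l * (15 / 16 * l ^ 2 - 3 * t ^ 2 - 3 / 2 * R ^ 2) - 6 * t * R ^ 2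
        = l * (15 / 16 * l ^ 2 + 3 / 2 * (-(2 * t ^ 2) - R ^ 2)) + 3 * -(2 * t * R ^ 2) := by ring
    rw [e, h2, h3, hθ, ma, mb, mc, md, hd']; ring
  obtain ⟨k1, k2, k3, k4, k5, mm, k6, k7⟩ := h s z p l t R θ _ _ dom eθ rfl rfl
  refine ⟨k1, k2, fun hμ => ⟨mm, by exact_mod_cast k6, fun P v v' Q hQ => ?_⟩⟩
  obtain ⟨xb, x0, x1, e1, e2, e3⟩ := gram_dr k2 hμ ha hb hc hd h1 h2 h3 h4 k3 k4 k5 hQ
  have k := k7 P xb x0 x1 (-(N.pg1 s z p θ * v + N.pg2 s z p θ * v' + N.pg3 s z p θ l * P) / N.F.h s z p θ)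
  rw [form5, v5a, v5b, ← e1, ← e2] at k
  have e : N.M1 s z p θ * v ^ 2 + 2 * N.M2 s z p θ * v * v' + N.M3 s z p θ * v' ^ 2
      + 2 * P * (N.b1 s z p θ l * v + N.b2 s z p θ l * v') + (N.cc s z p θ l - mm) * P ^ 2
      = N.pm1 s z p θ * v ^ 2 + 2 * N.pm2 s z p θ * v * v' + N.pm3 s z p θ * v' ^ 2
        + 2 * P * (N.pc1 s z p θ l * v + N.pc2 s z p θ l * v') + (N.pc0 s z p θ l - mm) * P ^ 2
        + N.F.h s z p θ * (-(N.pg1 s z p θ * v + N.pg2 s z p θ * v' + N.pg3 s z p θ l * P) / N.F.h s z p θ) ^ 2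
        + 2 * (-(N.pg1 s z p θ * v + N.pg2 s z p θ * v' + N.pg3 s z p θ l * P) / N.F.h s z p θ)
          * (N.pg1 s z p θ * v + N.pg2 s z p θ * v' + N.pg3 s z p θ l * P) := by
    have := k1.ne'
    simp only [Tab.M1, Tab.M2, Tab.M3, Tab.b1, Tab.b2, Tab.cc, Tab.FP, Tab.pm1, Tab.pm2, Tab.pm3, Tab.pc1, Tab.pc2,
      Tab.pc0, Tab.pg1, Tab.pg2, Tab.pg3]
    field_simp
    ring
  linarith

end Crest.Agent.R97
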