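import Crest.Agent.R97.CertP6

/-!
CertP7 (helper51): variants of the 5×5 condition: a majorant of `P` in the first row, the pure box chart
`z = k y`, `P² = q² (1 - y²)` (`c = k²`), a simple sufficient condition for the scalar rows.
-/

set_option autoImplicit false

namespace Crest.Agent.R97

theorem mat5_P (K D F g1 g2 g3 m1 m2 m3 c1 c2 c0 G0 P l n th x0 x1 x2 x3 x4 : ℝ) :
    mat5 K D F g1 g2 g3 m1 m2 m3 c1 c2 c0 G0 P l n th x0 x1 x2 x3 x4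
      = mat5 K D F g1 g2 g3 m1 m2 m3 c1 c2 0 (G0 + P ^ 2 * c0) 0 l n th x0 x1 x2 x3 x4
        + P * (2 * x0 * ((c1 * sA1 l n th + c2 * sB1 l n th) * x1 + (c1 * sA2 l n th + c2 * sB2 l n th) * x2
          + (c1 * sA3 n th + c2 * sB3 l n th) * x3 + g3 * x4)) := by
  simp only [mat5, quad5]
  ring

theorem mat5_neg (K D F g1 g2 g3 m1 m2 m3 c1 c2 c0 G0 l n th x0 x1 x2 x3 x4 : ℝ) :
    mat5 K D F g1 g2 g3 m1 m2 m3 c1 c2 c0 G0 0 l n th (-x0) x1 x2 x3 x4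
      = mat5 K D F g1 g2 g3 m1 m2 m3 c1 c2 c0 G0 0 l n th x0 x1 x2 x3 x4 := by
  simp only [mat5, quad5]
  ring

/-- the factor `P` of the first row may be replaced by a majorant -/
theorem mat5_maj {K D F g1 g2 g3 m1 m2 m3 c1 c2 c0 G0 P PP Pt l n th ε : ℝ} (hP : P ^ 2 = PP) (hPt : PP ≤ Pt ^ 2)
    (h : ∀ x0 x1 x2 x3 x4 : ℝ, ε * (x1 ^ 2 + x2 ^ 2 + x3 ^ 2 + x4 ^ 2) ≤
      mat5 K D F g1 g2 g3 m1 m2 m3 c1 c2 0 (G0 + PP * c0) Pt l n th x0 x1 x2 x3 x4) (x0 x1 x2 x3 x4 : ℝ) :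
    ε * (x1 ^ 2 + x2 ^ 2 + x3 ^ 2 + x4 ^ 2) ≤ mat5 K D F g1 g2 g3 m1 m2 m3 c1 c2 c0 G0 P l n th x0 x1 x2 x3 x4 := by
  have h1 := h x0 x1 x2 x3 x4
  have h2 := h (-x0) x1 x2 x3 x4
  rw [mat5_P, mul_zero, add_zero] at h1 h2
  rw [mat5_neg] at h2
  rw [mat5_P, hP]
  generalize mat5 K D F g1 g2 g3 m1 m2 m3 c1 c2 0 (G0 + PP * c0) 0 l n th x0 x1 x2 x3 x4 = A at *
  generalize (c1 * sA1 l n th + c2 * sB1 l n th) * x1 + (c1 * sA2 l n th + c2 * sB2 l n th) * x2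
    + (c1 * sA3 n th + c2 * sB3 l n th) * x3 + g3 * x4 = B at *
  have k : |P * (2 * x0 * B)| ≤ |Pt * (2 * x0 * B)| := by
    rw [abs_mul P, abs_mul Pt]
    exact mul_le_mul_of_nonneg_right (sq_le_sq.1 (hP.trans_le hPt)) (abs_nonneg _)
  have k1 := neg_abs_le (P * (2 * x0 * B))
  rcases abs_cases (Pt * (2 * x0 * B)) with ⟨e, _⟩ | ⟨e, _⟩ <;> linarith

/-- the matrix condition with a majorant of `P` -/
def Tab.MatG (N : Tab) (zm : ℝ) : Prop :=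
  ∀ s z P u th p l n θ : ℝ, DomC N.c zm s z P u th p l n → θ = sTh l n th →
    ∃ Pt ε : ℝ, P ^ 2 ≤ Pt ^ 2 ∧ 0 < ε ∧ ∀ x0 x1 x2 x3 x4 : ℝ, ε * (x1 ^ 2 + x2 ^ 2 + x3 ^ 2 + x4 ^ 2) ≤
      mat5 (N.K.v s z p θ) (s * N.D.v s z p θ) (N.F.h s z p θ) (N.pg1 s z p θ) (N.pg2 s z p θ) (N.pg3 s z p θ l)
        (N.pm1 s z p θ) (N.pm2 s z p θ) (N.pm3 s z p θ) (N.pc1 s z p θ l) (N.pc2 s z p θ l) 0
        (N.G0 s z p θ 5 + P ^ 2 * N.pc0 s z p θ l) Pt l n th x0 x1 x2 x3 x4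

theorem Tab.mat_of_G {N : Tab} {zm : ℝ} (h : N.MatG zm) : N.Mat zm := fun s z P u th p l n θ dom hθ => by
  obtain ⟨Pt, ε, h1, h2, h3⟩ := h s z P u th p l n θ dom hθ
  exact ⟨ε, h2, mat5_maj rfl h1 h3⟩

/-- the pure box chart; the last fields are optional hypotheses -/
structure DomB (k s y q u th z p l n : ℝ) : Prop where
  s0 : 0 ≤ s
  s1 : s ≤ 1
  y0 : 0 ≤ y
  y1 : y ≤ 1
  q0 : 0 ≤ q
  q1 : q ≤ 1
  u0 : -(9 / 20) ≤ u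
  u1 : u ≤ 9 / 20
  th0 : -(29 / 50) ≤ th
  th1 : th ≤ 29 / 50
  hz : z = k * y
  hp : p = (1 - y ^ 2) * (1 - q ^ 2) + s ^ 2 * y ^ 2
  hl : l = 4 * u / (1 + 5 * u ^ 2)
  hn : n = (1 - 5 * u ^ 2) / (2 * (1 + 5 * u ^ 2))
  u5 : 5 * u ^ 2 ≤ 1
  th3 : 3 * th ^ 2 ≤ 1
  n0 : 0 ≤ n
  un : 5 / 4 * l ^ 2 + 4 * n ^ 2 = 1
  r1 : (z * s) ^ 2 ≤ 5 / 14 * (p * (2 - p))
  cl : 0 ≤ z * s * l + p / 2
  cX : 0 ≤ p / 2 + z * s * (n * th - l / 4)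
  cY : 0 ≤ p / 2 - z * s * (n * th + l / 4)
  c3 : (z * s) ^ 2 * (n ^ 2 * sD th) ≤ (p / 2 - z * s * (n * th + l / 4)) * (p - z * s * l / 2)

theorem DomC.box {k zm s z P u th p l n : ℝ} (k0 : 0 < k) (hk : 5 / 7 ≤ k ^ 2) (d : DomC (k ^ 2) zm s z P u th p l n) :
    ∃ y q : ℝ, DomB k s y q u th z p l n ∧ P ^ 2 = q ^ 2 * (1 - y ^ 2) := by
  obtain ⟨y, hy⟩ : ∃ y, z = k * y := ⟨z / k, by field_simp⟩
  have y0 : 0 ≤ y := nonneg_of_mul_nonneg_right (hy ▸ d.z0) k0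
  have hp : p = 1 - P ^ 2 - y ^ 2 * (1 - s ^ 2) := by rw [d.hp, hy]; field_simp
  have h1 : (y * s) ^ 2 ≤ p := by
    have h2 := d.r1
    rw [hy] at h2
    refine le_of_mul_le_mul_left ?_ (pow_pos k0 2)
    nlinarith [mul_nonneg d.p0 (sub_nonneg.2 hk), sq_nonneg p]
  have h2 : P ^ 2 ≤ 1 - y ^ 2 := by linarith
  have y2 : 0 ≤ 1 - y ^ 2 := (sq_nonneg P).trans h2
  have y1 : y ≤ 1 := by nlinarith
  obtain ⟨q, q0, q1, hq⟩ : ∃ q : ℝ, 0 ≤ q ∧ q ≤ 1 ∧ P ^ 2 = q ^ 2 * (1 - y ^ 2) := by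
    rcases y2.eq_or_lt with h | h
    · exact ⟨0, le_rfl, zero_le_one, by nlinarith [sq_nonneg P]⟩
    · refine ⟨√(P ^ 2 / (1 - y ^ 2)), Real.sqrt_nonneg _, Real.sqrt_le_one.2 ((div_le_one h).2 h2), ?_⟩
      rw [Real.sq_sqrt (by positivity), div_mul_cancel₀ _ h.ne']
  exact ⟨y, q, ⟨d.s0, d.s1, y0, y1, q0, q1, d.u0, d.u1, d.th0, d.th1, hy, by rw [hp, hq]; ring, d.hl, d.hn, d.u5, d.th3,
    d.n0, d.un, d.r1, d.cl, d.cX, d.cY, d.c3⟩, hq⟩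

/-- the scalar rows on the pure box -/
def Tab.RowsB (N : Tab) (k : ℝ) : Prop :=
  ∀ s y q u th z p l n θ K D : ℝ, DomB k s y q u th z p l n → θ = sTh l n th → K = N.K.v s z p θ →
    D = s * N.D.v s z p θ → 0 < K + 2 * D * l ∧ 0 < 3 * K + D * (l + 4 * (n * th)) ∧
      0 < 3 * K + D * (l - 4 * (n * th)) ∧ 16 * D ^ 2 * (n ^ 2 * sD th) < (3 * K + D * (l - 4 * (n * th))) ^ 2

/-- the matrix condition on the pure box -/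
def Tab.MatB (N : Tab) (k : ℝ) : Prop :=
  ∀ s y q u th z p l n θ : ℝ, DomB k s y q u th z p l n → θ = sTh l n th →
    ∃ Pt ε : ℝ, q ^ 2 * (1 - y ^ 2) ≤ Pt ^ 2 ∧ 0 < ε ∧ ∀ x0 x1 x2 x3 x4 : ℝ, ε * (x1 ^ 2 + x2 ^ 2 + x3 ^ 2 + x4 ^ 2) ≤
      mat5 (N.K.v s z p θ) (s * N.D.v s z p θ) (N.F.h s z p θ) (N.pg1 s z p θ) (N.pg2 s z p θ) (N.pg3 s z p θ l)
        (N.pm1 s z p θ) (N.pm2 s z p θ) (N.pm3 s z p θ) (N.pc1 s z p θ l) (N.pc2 s z p θ l) 0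
        (N.G0 s z p θ 5 + q ^ 2 * (1 - y ^ 2) * N.pc0 s z p θ l) Pt l n th x0 x1 x2 x3 x4

theorem Tab.rows_of_B {N : Tab} {k zm : ℝ} (k0 : 0 < k) (hc : N.c = k ^ 2) (hk : 5 / 7 ≤ k ^ 2) (h : N.RowsB k) :
    N.Rows zm := fun s z P u th p l n θ K D dom hθ hK hD => by
  rw [hc] at dom
  obtain ⟨y, q, d, -⟩ := dom.box k0 hk
  exact h s y q u th z p l n θ K D d hθ hK hD

theorem Tab.mat_of_B {N : Tab} {k zm : ℝ} (k0 : 0 < k) (hc : N.c = k ^ 2) (hk : 5 / 7 ≤ k ^ 2) (h : N.MatB k) :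
    N.Mat zm := Tab.mat_of_G fun s z P u th p l n θ dom hθ => by
  rw [hc] at dom
  obtain ⟨y, q, d, e⟩ := dom.box k0 hk
  rw [e]
  exact h s y q u th z p l n θ d hθ

/-- `y = 2τ/(1+τ²)` makes `√(1 - y²)` rational -/
theorem exists_tau {y : ℝ} (y0 : 0 ≤ y) (y1 : y ≤ 1) : ∃ τ : ℝ, 0 ≤ τ ∧ τ ≤ 1 ∧ y = 2 * τ / (1 + τ ^ 2) ∧
    1 - y ^ 2 = ((1 - τ ^ 2) / (1 + τ ^ 2)) ^ 2 := by
  obtain ⟨w, w0, hw⟩ : ∃ w : ℝ, 0 ≤ w ∧ w ^ 2 = 1 - y ^ 2 := ⟨_, Real.sqrt_nonneg _, Real.sq_sqrt (by nlinarith)⟩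
  have w1 : 0 < 1 + w := by linarith
  have e : 1 + (y / (1 + w)) ^ 2 = 2 / (1 + w) := by
    field_simp
    linear_combination hw
  have e' : 1 - (y / (1 + w)) ^ 2 = 2 - 2 / (1 + w) := by linarith
  refine ⟨y / (1 + w), by positivity, by rw [div_le_one w1]; linarith, ?_, ?_⟩
  · rw [e]; field_simp
  · rw [e, e', ← hw]; field_simp; ring

/-- chart of the pairs (eigenvalue, sum of cubes) -/
theorem exists_eta {μ a b c d : ℝ} (h1 : μ + a + b + c + d = 0) (h2 : μ ^ 2 + a ^ 2 + b ^ 2 + c ^ 2 + d ^ 2 = 1) :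
    ∃ u η n : ℝ, -(9 / 20) ≤ u ∧ u ≤ 9 / 20 ∧ 5 * u ^ 2 ≤ 1 ∧ -(77 / 100) ≤ η ∧ η ≤ 77 / 100 ∧
      μ = 4 * u / (1 + 5 * u ^ 2) ∧ n = (1 - 5 * u ^ 2) / (2 * (1 + 5 * u ^ 2)) ∧
      μ ^ 3 + a ^ 3 + b ^ 3 + c ^ 3 + d ^ 3 = μ * (15 / 16 * μ ^ 2 - 3 * n ^ 2) - 6 * (n ^ 3 * η) := by
  obtain ⟨t, R, R0, t0, t1, k2, k3, -, -⟩ :=
    exists_dr (a := a + μ / 4) (b := b + μ / 4) (c := c + μ / 4) (d := d + μ / 4) (by linarith)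
  have hd : d = -(μ + a + b + c) := by linarith
  have un : 5 / 4 * μ ^ 2 + 4 * t ^ 2 + 2 * R ^ 2 = 1 := by
    rw [hd] at h2 k2
    linear_combination h2 - 2 * k2
  obtain ⟨u, th, n, δ, n0, δ1, hδ, rfl, rfl, th3, u5, un', hl, hn⟩ := exists_chart un R0 t0 t1
  have uu := abs_le_of_sq_le_sq' (show u ^ 2 ≤ (9 / 20) ^ 2 by linarith) (by norm_num)
  have ee := abs_le_of_sq_le_sq' (show (th * sD th) ^ 2 ≤ (77 / 100) ^ 2 by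
    rw [sD]
    nlinarith [mul_nonneg (sq_nonneg (th ^ 2 - 1 / 3)) (show 0 ≤ 4 / 3 - th ^ 2 by linarith)]) (by norm_num)
  refine ⟨u, th * sD th, n, uu.1, uu.2, u5, ee.1, ee.2, hl, hn, ?_⟩
  have e : μ * (15 / 16 * μ ^ 2 - 3 * n ^ 2) - 6 * (n ^ 3 * (th * sD th))
      = μ * (15 / 16 * μ ^ 2 + 3 / 2 * (-(2 * (n * th) ^ 2) - (n * δ) ^ 2)) + 3 * -(2 * (n * th) * (n * δ) ^ 2) := by
    rw [mul_pow n δ, hδ, sD]; ring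
  rw [e, k2, k3, hd]; ring

/-- one row on the domain without the convexity constraints -/
def Tab.Row1 (N : Tab) (zm : ℝ) : Prop :=
  ∀ s z p u η l n θ : ℝ, 0 ≤ s → s ≤ 1 → 0 ≤ z → z ≤ zm → 0 ≤ p → p ≤ 1 → -(9 / 20) ≤ u → u ≤ 9 / 20 →
    -(77 / 100) ≤ η → η ≤ 77 / 100 → 5 * u ^ 2 ≤ 1 → z ^ 2 * (1 - s ^ 2) ≤ N.c * (1 - p) →
    (z * s) ^ 2 ≤ 5 / 14 * (p * (2 - p)) → l = 4 * u / (1 + 5 * u ^ 2) → n = (1 - 5 * u ^ 2) / (2 * (1 + 5 * u ^ 2)) →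
    θ = l * (15 / 16 * l ^ 2 - 3 * n ^ 2) - 6 * (n ^ 3 * η) → 0 < N.K.v s z p θ + 2 * (s * N.D.v s z p θ) * l

theorem Tab.rows_of_one {N : Tab} {zm : ℝ} (hc : 0 < N.c) (h : N.Row1 zm) : N.Rows zm := by
  intro s z P u th p l n θ K D dom hθ hK hD
  have zS : z ^ 2 * (1 - s ^ 2) ≤ N.c * (1 - p) := by
    have : z ^ 2 * (1 - s ^ 2) / N.c ≤ 1 - p := by rw [dom.hp]; linarith [sq_nonneg P]
    rw [div_le_iff₀ hc] at this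
    linarith
  have key : ∀ μ a b c d : ℝ, μ + a + b + c + d = 0 → μ ^ 2 + a ^ 2 + b ^ 2 + c ^ 2 + d ^ 2 = 1 →
      θ = μ ^ 3 + a ^ 3 + b ^ 3 + c ^ 3 + d ^ 3 → 0 < K + 2 * D * μ := fun μ a b c d h1 h2 h3 => by
    obtain ⟨u', η, n', k1, k2, k3, k4, k5, k6, k7, k8⟩ := exists_eta h1 h2
    rw [hK, hD]
    exact h s z p u' η μ n' θ dom.s0 dom.s1 dom.z0 dom.z1 dom.p0 dom.p1 k1 k2 k4 k5 k3 zS dom.r1 k6 k7 (h3.trans k8)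
  have d0 : 0 ≤ sD th := by rw [sD]; linarith [dom.th3]
  obtain ⟨δ, hδ⟩ : ∃ δ : ℝ, δ ^ 2 = sD th := ⟨_, Real.sq_sqrt d0⟩
  obtain ⟨b, hb⟩ : ∃ b, b = -l / 4 + n * th := ⟨_, rfl⟩
  obtain ⟨c, hc'⟩ : ∃ c, c = -l / 4 - n * th - n * δ := ⟨_, rfl⟩
  obtain ⟨d, hd⟩ : ∃ d, d = -l / 4 - n * th + n * δ := ⟨_, rfl⟩
  have hδ' : δ ^ 2 = 2 - 2 * th ^ 2 := hδ
  have e1 : l + b + b + c + d = 0 := by rw [hb, hc', hd]; ring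
  have e2 : l ^ 2 + b ^ 2 + b ^ 2 + c ^ 2 + d ^ 2 = 1 := by
    rw [hb, hc', hd]; linear_combination dom.un + 2 * n ^ 2 * hδ'
  have e3 : θ = l ^ 3 + b ^ 3 + b ^ 3 + c ^ 3 + d ^ 3 := by
    rw [hθ, sTh, sD, hb, hc', hd]; linear_combination (6 * n ^ 3 * th + 3 / 2 * l * n ^ 2) * hδ'
  have kl := key l b b c d e1 e2 e3
  have kb := key b l b c d (by linarith) (by linarith) (by linarith)
  have kc := key c l b b d (by linarith) (by linarith) (by linarith)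
  have kd := key d l b b c (by linarith) (by linarith) (by linarith)
  rw [hb] at kb
  rw [hc'] at kc
  rw [hd] at kd
  have q1 : 0 < 3 * K + D * (l - 4 * (n * th)) - 4 * D * (n * δ) := by linarith
  have q2 : 0 < 3 * K + D * (l - 4 * (n * th)) + 4 * D * (n * δ) := by linarith
  refine ⟨kl, by linarith, by linarith, ?_⟩
  rw [← hδ]
  nlinarith [mul_pos q1 q2]

/-- the certificate from the matrix condition -/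
theorem cert_of_mat {N : Tab} {zm : ℝ} (hN : N.Sh) (hΛ : 4 < N.Λ) (hc : 5 / 7 ≤ N.c) (z0 : 0 ≤ zm) (hz : N.c ≤ zm ^ 2)
    (h1 : N.Row1 zm) (hM : N.Mat zm) (hR : N.NR 4 R1 (5 / 4)) (hB : N.NB 4)
    {d : ℕ} (hd : 2 ≤ d) (hd6 : d ≤ 6) {u : E d → ℝ} (hu : Mn 1 u) (hh : Hom u) (hj : JetsNear u) :
    ∀ x, 0 < u x → ∀ a b, pd a (pd b u) x = 0 :=
  cert_of_tab hN hΛ (Tab.NW_of_mat hc z0 hz (Tab.rows_of_one hN.c h1) hM) hR hB hd hd6 hu hh hj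

end Crest.Agent.R97
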