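import Crest.Agent.R97.CertA

/-!
CertPad (helper57): a certificate in dimension 6 gives all dimensions `2 ≤ d ≤ 6` (zero padding of the jets).
-/

set_option autoImplicit false
open MeasureTheory Metric Set
open scoped RealInnerProductSpace NNReal

namespace Crest.Agent.R97

variable {d : ℕ} (k : ℕ)

/-- zero padding -/
def pad {α : Type} [Zero α] (v : Fin d → α) : Fin (d + k) → α := Fin.append v (0 : Fin k → α)
/-- zero padding of matrices -/
def pad2 (a : Fin d → Fin d → ℝ) : Fin (d + k) → Fin (d + k) → ℝ := pad k fun i => pad k (a i)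
/-- zero padding of 3-tensors -/
def pad3 (T : Fin d → Fin d → Fin d → ℝ) : Fin (d + k) → Fin (d + k) → Fin (d + k) → ℝ := pad k fun i => pad2 k (T i)

@[simp] theorem pad_l {α : Type} [Zero α] (v : Fin d → α) (i : Fin d) : pad k v (Fin.castAdd k i) = v i :=
  Fin.append_left _ _ _
@[simp] theorem pad_r {α : Type} [Zero α] (v : Fin d → α) (i : Fin k) : pad k v (Fin.natAdd d i) = 0 :=
  Fin.append_right _ _ _
@[simp] theorem pad2_l (a : Fin d → Fin d → ℝ) (i : Fin d) : pad2 k a (Fin.castAdd k i) = pad k (a i) := pad_l _ _ _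
@[simp] theorem pad2_r (a : Fin d → Fin d → ℝ) (i : Fin k) : pad2 k a (Fin.natAdd d i) = 0 := pad_r _ _ _
@[simp] theorem pad3_l (T : Fin d → Fin d → Fin d → ℝ) (i : Fin d) : pad3 k T (Fin.castAdd k i) = pad2 k (T i) :=
  pad_l _ _ _
@[simp] theorem pad3_r (T : Fin d → Fin d → Fin d → ℝ) (i : Fin k) : pad3 k T (Fin.natAdd d i) = 0 := pad_r _ _ _

variable (x p v w : Fin d → ℝ) (a b : Fin d → Fin d → ℝ) (T : Fin d → Fin d → Fin d → ℝ)

theorem pad_dp : dp (pad k v) (pad k w) = dp v w := by simp [dp, Fin.sum_univ_add]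

theorem pad_mv : mv (pad2 k a) (pad k v) = pad k (mv a v) := by
  funext l
  refine Fin.addCases (fun l => ?_) (fun l => ?_) l <;> simp [mv, Fin.sum_univ_add]

theorem pad_sqm : sqm (pad2 k a) = pad2 k (sqm a) := by
  funext i j
  refine Fin.addCases (fun i => ?_) (fun i => ?_) i <;> refine Fin.addCases (fun j => ?_) (fun j => ?_) j <;>
    simp [sqm, Fin.sum_univ_add]

theorem pad_fr : fr (pad2 k a) (pad2 k b) = fr a b := by simp [fr, Fin.sum_univ_add]

theorem pad_tm : tm (pad3 k T) (pad2 k b) = pad k (tm T b) := by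
  funext l
  refine Fin.addCases (fun l => ?_) (fun l => ?_) l <;> simp [tm, Fin.sum_univ_add]

theorem pad_tv : tv (pad3 k T) (pad k v) (pad k w) = pad k (tv T v w) := by
  funext l
  refine Fin.addCases (fun l => ?_) (fun l => ?_) l <;> simp [tv, Fin.sum_univ_add]

theorem pad_sv : sv (pad k x) (pad k p) (pad2 k a) = sv x p a := by
  simp only [sv, pad_fr, pad_dp, pad_mv, pad_sqm]

theorem pad_gv (i : Fin 6) : gv (pad k x) (pad k p) (pad2 k a) (pad3 k T) i = pad k (gv x p a T i) := by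
  funext l
  refine Fin.addCases (fun l => ?_) (fun l => ?_) l <;> fin_cases i <;>
    simp [gv, pad_fr, pad_dp, pad_mv, pad_sqm, pad_tm, pad_tv]

theorem pad_Xv (m : Fin 8) : Xv (pad k p) (pad2 k a) (pad3 k T) m = pad k (Xv p a T m) := by
  fin_cases m <;> simp [Xv, pad_mv, pad_sqm, pad_tm, pad_tv]

theorem pad_gr (c : Cf) : Cf.gr (pad k x) (pad k p) (pad2 k a) (pad3 k T) c = pad k (Cf.gr x p a T c) := by
  funext l
  refine Fin.addCases (fun l => ?_) (fun l => ?_) l <;> simp [Cf.gr, pad_sv, pad_gv]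

/-- minus the radial components of the fields -/
def radX (y : Fin 6 → ℝ) : Fin 8 → ℝ := ![y 0, y 3, -y 1, 0, 0, 0, y 5, y 4]

theorem pad_dX (m : Fin 8) :
    dX (pad k x) (pad k p) (pad2 k a) (pad3 k T) m = dX x p a T m + k * radX (sv x p a) m := by
  have e1 : (∑ i, ∑ j, ∑ l, pad3 k T i j l ^ 2) = ∑ i, ∑ j, ∑ l, T i j l ^ 2 := by simp [Fin.sum_univ_add]
  have e2 : (∑ i, ∑ j, (∑ l, pad3 k T i j l * pad k p l) ^ 2) = ∑ i, ∑ j, (∑ l, T i j l * p l) ^ 2 := by
    simp [Fin.sum_univ_add]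
  have e3 : (∑ l, ∑ i, ∑ j, ∑ q, pad3 k T l i j * pad3 k T l i q * pad2 k a q j) =
      ∑ l, ∑ i, ∑ j, ∑ q, T l i j * T l i q * a q j := by simp [Fin.sum_univ_add]
  fin_cases m <;> simp [dX, radX, sv, e1, e2, e3, pad_fr, pad_dp, pad_mv, pad_sqm, pad_tm] <;> ring

theorem pad_G (s : Ans) : s.G (pad k x) (pad k p) (pad2 k a) (pad3 k T) =
    s.G x p a T + k * ∑ m, s.c m (sv x p a) * radX (sv x p a) m := by
  simp only [Ans.G, pad_sv, pad_dX, pad_gr, pad_Xv, pad_dp, Finset.mul_sum, Finset.sum_add_distrib, mul_add]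
  have : ∀ m, s.c m (sv x p a) * (k * radX (sv x p a) m) = k * (s.c m (sv x p a) * radX (sv x p a) m) := fun m => by ring
  simp only [this]
  ring

variable {x p a T}

theorem pad_HJ (h : HJ x a T) : HJ (pad k x) (pad2 k a) (pad3 k T) where
  x1 := by rw [pad_dp, h.x1]
  as i j := by
    refine Fin.addCases (fun i => ?_) (fun i => ?_) i <;> refine Fin.addCases (fun j => ?_) (fun j => ?_) j <;>
      simp [h.as]
  atr := by simp [Fin.sum_univ_add, h.atr]
  ax i := by
    rw [pad_mv]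
    refine Fin.addCases (fun i => ?_) (fun i => ?_) i <;> simp [h.ax]
  T1 i j l := by
    refine Fin.addCases (fun i => ?_) (fun i => ?_) i <;> refine Fin.addCases (fun j => ?_) (fun j => ?_) j <;>
      refine Fin.addCases (fun l => ?_) (fun l => ?_) l <;> simp
    exact h.T1 _ _ _
  T2 i j l := by
    refine Fin.addCases (fun i => ?_) (fun i => ?_) i <;> refine Fin.addCases (fun j => ?_) (fun j => ?_) j <;>
      refine Fin.addCases (fun l => ?_) (fun l => ?_) l <;> simp
    exact h.T2 _ _ _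
  Ttr l := by
    refine Fin.addCases (fun l => ?_) (fun l => ?_) l <;> simp [Fin.sum_univ_add, h.Ttr]
  Tx i j := by
    refine Fin.addCases (fun i => ?_) (fun i => ?_) i <;> refine Fin.addCases (fun j => ?_) (fun j => ?_) j <;>
      simp [Fin.sum_univ_add, h.Tx]

theorem pad_IJ (h : IJ x p a T) : IJ (pad k x) (pad k p) (pad2 k a) (pad3 k T) where
  toHJ := pad_HJ k h.toHJ
  pos := by rw [pad_dp]; exact h.pos
  le1 := by rw [pad_dp]; exact h.le1
  hb := by
    rw [pad_fr, pad_dp, pad_dp]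
    have h1 := h.hb
    have h2 := mul_nonneg (Nat.cast_nonneg (α := ℝ) k) (sub_nonneg.2 h.le1)
    push_cast
    linarith
  hd e he := by
    set e' : Fin d → ℝ := fun i => e (Fin.castAdd k i) with he'
    have e1 : mv (pad2 k a) e = pad k (mv a e') := by
      funext l
      refine Fin.addCases (fun l => ?_) (fun l => ?_) l <;> simp [mv, Fin.sum_univ_add, he']
    have e2 : dp (pad k p) e = dp p e' := by simp [dp, Fin.sum_univ_add, he']
    rw [e1, e2, pad_dp, pad_dp]
    have h0 : 0 ≤ dp e' e' := Finset.sum_nonneg fun i _ => mul_self_nonneg _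
    have h1 : dp e' e' ≤ 1 := by
      rw [← he, dp, dp, Fin.sum_univ_add]
      exact le_add_of_nonneg_right (Finset.sum_nonneg fun i _ => mul_self_nonneg _)
    have hcs : dp p e' ^ 2 ≤ dp p p * dp e' e' := by
      simpa only [dp, sq] using Finset.sum_mul_sq_le_sq_mul_sq Finset.univ p e'
    have hpp : 0 ≤ dp p p := Finset.sum_nonneg fun i _ => mul_self_nonneg _
    have hd0 : (0 : ℝ) ≤ d := Nat.cast_nonneg d
    have hk0 : (0 : ℝ) ≤ k := Nat.cast_nonneg k
    have hc : dp p e' ≤ 1 := by nlinarith [h.le1]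
    push_cast
    rcases h0.eq_or_lt with h2 | h2
    · have h3 : ∀ i, e' i = 0 := fun i => mul_self_eq_zero.1
        ((Finset.sum_eq_zero_iff_of_nonneg fun i _ => mul_self_nonneg _).1 h2.symm i (Finset.mem_univ i))
      have h4 : dp (mv a e') (mv a e') = 0 := by simp [dp, mv, h3]
      rw [h4, Real.sqrt_zero, zero_mul]
      exact mul_nonneg (by linarith) (by linarith)
    · set t := √(dp e' e') with ht
      have ht0 : 0 < t := Real.sqrt_pos.2 h2
      have ht1 : t ≤ 1 := Real.sqrt_le_one.2 h1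
      have ht2 : t * t = dp e' e' := Real.mul_self_sqrt h0
      have h3 := h.hd (fun i => t⁻¹ * e' i) (by
        have : dp (fun i => t⁻¹ * e' i) (fun i => t⁻¹ * e' i) = t⁻¹ * t⁻¹ * dp e' e' := by
          simp only [dp, Finset.mul_sum]
          exact Finset.sum_congr rfl fun i _ => by ring
        rw [this, ← ht2]
        field_simp)
      have h4 : dp (mv a fun i => t⁻¹ * e' i) (mv a fun i => t⁻¹ * e' i) = t⁻¹ ^ 2 * dp (mv a e') (mv a e') := by
        have : (mv a fun i => t⁻¹ * e' i) = fun l => t⁻¹ * mv a e' l := by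
          funext l
          simp only [mv, Finset.mul_sum]
          exact Finset.sum_congr rfl fun i _ => by ring
        rw [this]
        simp only [dp, Finset.mul_sum]
        exact Finset.sum_congr rfl fun i _ => by ring
      have h5 : dp p (fun i => t⁻¹ * e' i) = t⁻¹ * dp p e' := by
        simp only [dp, Finset.mul_sum]
        exact Finset.sum_congr rfl fun i _ => by ring
      rw [h4, h5, Real.sqrt_mul (sq_nonneg _), Real.sqrt_sq (inv_pos.2 ht0).le] at h3
      have h6 := mul_le_mul_of_nonneg_left h3 ht0.le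
      have e3 : t * (t⁻¹ * √(dp (mv a e') (mv a e')) * dp p x) = √(dp (mv a e') (mv a e')) * dp p x := by field_simp
      have e4 : t * (d * (1 - t⁻¹ * dp p e')) = d * (t - dp p e') := by field_simp
      rw [e3, e4] at h6
      nlinarith [mul_nonneg hd0 (sub_nonneg.2 ht1), mul_nonneg hk0 (sub_nonneg.2 hc)]

/-- padded boundary jet -/
def Jet.pad (j : Jet d) : Jet (d + k) := ⟨WithLp.toLp 2 (R97.pad k j.w), j.H, pad2 k j.A, pad3 k j.T⟩

theorem pad_IsB {j : Jet d} (h : j.IsB) : (j.pad k).IsB where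
  w1 := by
    have h1 := h.w1
    rw [EuclideanSpace.norm_eq, Real.sqrt_eq_one] at h1 ⊢
    simpa [Jet.pad, Fin.sum_univ_add] using h1
  Asym i j := by
    refine Fin.addCases (fun i => ?_) (fun i => ?_) i <;> refine Fin.addCases (fun j => ?_) (fun j => ?_) j <;>
      simp [Jet.pad]
    exact h.Asym _ _
  Atr := by simp [Jet.pad, Fin.sum_univ_add, h.Atr]
  Aw i := by
    refine Fin.addCases (fun i => ?_) (fun i => ?_) i <;> simp [Jet.pad, Fin.sum_univ_add]
    simpa using h.Aw _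
  Tsym1 i j l := by
    refine Fin.addCases (fun i => ?_) (fun i => ?_) i <;> refine Fin.addCases (fun j => ?_) (fun j => ?_) j <;>
      refine Fin.addCases (fun l => ?_) (fun l => ?_) l <;> simp [Jet.pad]
    exact h.Tsym1 _ _ _
  Tsym2 i j l := by
    refine Fin.addCases (fun i => ?_) (fun i => ?_) i <;> refine Fin.addCases (fun j => ?_) (fun j => ?_) j <;>
      refine Fin.addCases (fun l => ?_) (fun l => ?_) l <;> simp [Jet.pad]
    exact h.Tsym2 _ _ _
  Ttr l := by
    refine Fin.addCases (fun l => ?_) (fun l => ?_) l <;> simp [Jet.pad, Fin.sum_univ_add, h.Ttr]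
  Tw v v' hv hv' := by
    have e : ∀ z : E (d + k), ⟪(j.pad k).w, z⟫ = ⟪j.w, (WithLp.toLp 2 fun i => z (Fin.castAdd k i) : E d)⟫ := fun z => by
      simp [Jet.pad, PiLp.inner_apply, Fin.sum_univ_add]
    rw [e] at hv hv'
    simpa [Jet.pad, Fin.sum_univ_add] using h.Tw _ _ hv hv'

theorem pad_BdJ {s : Ans} (h : s.BdJ (d + k)) (Λ : ℝ) : Ans.BdJ { s with Λ := Λ } d := by
  intro x j hj hH hx h0
  have := h (pad k x) (j.pad k) (pad_IsB k hj) (pad_HJ k hH) (by simpa [Jet.pad, pad_dp] using hx) h0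
  simpa [Jet.pad, pad_sv, pad_Xv, pad_dp] using this

/-- the side condition -/
def Ans.RJ (s : Ans) (D : ℕ) (c : ℝ) : Prop :=
  ∀ (x p : Fin D → ℝ) (a : Fin D → Fin D → ℝ) (T : Fin D → Fin D → Fin D → ℝ), IJ x p a T →
    ∑ m, s.c m (sv x p a) * radX (sv x p a) m ≤ c * s.Φ (sv x p a)

theorem pad_IntJ {s : Ans} (hs : s.Ok) (h : s.IntJ (d + k)) {c : ℝ} (hR : s.RJ (d + k) c) {Λ : ℝ}
    (hΛ : Λ + k * c ≤ s.Λ) : Ans.IntJ { s with Λ := Λ } d := by
  intro x p a T hj
  have h1 := h _ _ _ _ (pad_IJ k hj)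
  have h2 := hR _ _ _ _ (pad_IJ k hj)
  have h3 := hs.nn _ hj.dom
  rw [pad_G, pad_gr, pad_dp, pad_sv] at h1
  rw [pad_sv] at h2
  have h4 : s.G x p a T + k * ∑ m, s.c m (sv x p a) * radX (sv x p a) m ≤ Ans.G x p a T { s with Λ := Λ } := by
    have h5 := mul_le_mul_of_nonneg_left h2 (Nat.cast_nonneg (α := ℝ) k)
    have h6 := mul_le_mul_of_nonneg_right hΛ h3
    simp only [Ans.G]
    nlinarith
  exact ⟨h1.1.trans h4, h1.2.trans (mul_le_mul_of_nonneg_left h4 (by positivity))⟩

theorem pad_two {x : Fin 2 → ℝ} {a : Fin 2 → Fin 2 → ℝ} {T : Fin 2 → Fin 2 → Fin 2 → ℝ} (h : HJ x a T) : a = 0 := by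
  have h1 := h.x1
  have h2 := h.as 1 0
  have h3 := h.atr
  have h4 := h.ax 0
  have h5 := h.ax 1
  simp only [dp, mv, Fin.sum_univ_two] at h1 h3 h4 h5
  have e1 : a 1 1 = -a 0 0 := by linarith
  rw [h2, e1] at h5
  have e2 : a 0 0 = 0 := by linear_combination x 0 * h4 - x 1 * h5 - a 0 0 * h1
  have e3 : a 0 1 = 0 := by linear_combination x 1 * h4 + x 0 * h5 - a 0 1 * h1
  funext i j
  fin_cases i <;> fin_cases j <;> simp [h2, e1, e2, e3]

/-- One certificate in dimension 6 and the side condition give the theorem in all dimensions. -/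
theorem cert_of_six {s : Ans} (hs : s.Ok) (hΛ : 4 < s.Λ) (hi : s.IntJ 6) (hb : s.BdJ 6) (hR : s.RJ 6 (5 / 4))
    (hd : 2 ≤ d) (hd6 : d ≤ 6) {u : E d → ℝ} (hu : Mn 1 u) (hh : Hom u) (hj : JetsNear u) :
    ∀ x, 0 < u x → ∀ a b, pd a (pd b u) x = 0 := by
  have hok : ∀ Λ, Ans.Ok { s with Λ := Λ } := fun Λ => ⟨hs.Φ, hs.c, hs.nn, hs.pos⟩
  interval_cases d
  · refine cert_of_J le_rfl (s := ⟨fun y => y 0, fun _ _ => 0, 1⟩)
      ⟨fun y _ => (contDiff_apply ℝ ℝ (0 : Fin 6)).contDiffAt, fun m y _ => contDiffAt_const, fun y hy => hy.1, fun y _ hy => hy⟩ (by norm_num)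
      (fun x p a T h => ?_) (fun x j _ _ _ h0 => ?_) hu hh hj
    · have h0 := pad_two h.toHJ
      subst h0
      have e : Cf.gr x p 0 T (fun y => y 0) = 0 := by
        funext l
        simp [Cf.gr, Cf.D, Fin.sum_univ_six, gv, tm, fr, Function.update]
      have e0 : Cf.gr x p 0 T (fun _ => 0) = 0 := by
        funext l
        simp [Cf.gr, Cf.D]
      simp [Ans.G, e, e0, dp, sv, fr]
    · simp only [zero_mul, Finset.sum_const_zero, add_zero]
      exact mul_nonneg h0 (show 0 ≤ fr j.A j.A from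
        Finset.sum_nonneg fun i _ => Finset.sum_nonneg fun j _ => mul_self_nonneg _)
  · exact cert_of_J hd (hok (s.Λ - 15 / 4)) (by norm_num; linarith)
      (pad_IntJ 3 hs hi hR (by norm_num)) (pad_BdJ 3 hb _) hu hh hj
  · exact cert_of_J hd (hok (s.Λ - 5 / 2)) (by norm_num; linarith)
      (pad_IntJ 2 hs hi hR (by norm_num)) (pad_BdJ 2 hb _) hu hh hj
  · exact cert_of_J hd (hok (s.Λ - 5 / 4)) (by norm_num; linarith)
      (pad_IntJ 1 hs hi hR (by norm_num)) (pad_BdJ 1 hb _) hu hh hj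
  · exact cert_of_J hd hs (by norm_num; linarith) hi hb hu hh hj

end Crest.Agent.R97
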