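import Crest.Agent.R97.CertB7
import Crest.Agent.Lib.BSp.Poly

/-! CertT3 (helper96): integer tables of class F. -/

set_option autoImplicit false

namespace Crest.Agent.R97
open Crest.Agent.BSp

/-- monomials `a r^i z^j p^k`, `a` in units of `10⁻⁴` -/
abbrev IL : Type := List (ℤ × ℕ × ℕ × ℕ)

noncomputable def toMon (m : ℕ) : IL → List Mon
  | [] => []
  | q :: L => ((q.1 : ℝ) / 10000, q.2.1, q.2.2.1, q.2.2.2, m) :: toMon m L

def pv : IL → ℝ → ℝ → ℝ → ℝ
  | [], _, _, _ => 0
  | q :: L, r, z, p => q.1 * r ^ q.2.1 * z ^ q.2.2.1 * p ^ q.2.2.2 + pv L r z p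

def dR : IL → IL
  | [] => []
  | q :: L => (q.1 * q.2.1, q.2.1 - 1, q.2.2.1, q.2.2.2) :: dR L
def dZ : IL → IL
  | [] => []
  | q :: L => (q.1 * q.2.2.1, q.2.1, q.2.2.1 - 1, q.2.2.2) :: dZ L
def dP : IL → IL
  | [] => []
  | q :: L => (q.1 * q.2.2.2, q.2.1, q.2.2.1, q.2.2.2 - 1) :: dP L

section
variable (L L' : IL) (r z p t : ℝ) (m : ℕ)
theorem pe_mon : pe (toMon m L) r z p t = pv L r z p / 10000 * t ^ m := by
  induction L with
  | nil => simp [toMon, pe, pv]
  | cons q L ih => simp only [toMon, pe, pv, ih]; ring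
theorem pr_mon : pr (toMon m L) r z p t = pv (dR L) r z p / 10000 * t ^ m := by
  induction L with
  | nil => simp [toMon, pr, pv, dR]
  | cons q L ih => simp only [toMon, pr, pv, dR, ih]; push_cast; ring
theorem pz_mon : pz (toMon m L) r z p t = pv (dZ L) r z p / 10000 * t ^ m := by
  induction L with
  | nil => simp [toMon, pz, pv, dZ]
  | cons q L ih => simp only [toMon, pz, pv, dZ, ih]; push_cast; ring
theorem pp_mon : pp (toMon m L) r z p t = pv (dP L) r z p / 10000 * t ^ m := by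
  induction L with
  | nil => simp [toMon, pp, pv, dP]
  | cons q L ih => simp only [toMon, pp, pv, dP, ih]; push_cast; ring
theorem pt_mon : pt (toMon m L) r z p t = pv L r z p / 10000 * (m * t ^ (m - 1)) := by
  induction L with
  | nil => simp [toMon, pt, pv]
  | cons q L ih => simp only [toMon, pt, pv, ih]; ring
end

section
variable (L L' : List Mon) (r z p t : ℝ)
theorem pe_app : pe (L ++ L') r z p t = pe L r z p t + pe L' r z p t := by
  induction L with
  | nil => simp [pe]
  | cons q L ih => simp only [List.cons_append, pe, ih]; ring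
theorem pr_app : pr (L ++ L') r z p t = pr L r z p t + pr L' r z p t := by
  induction L with
  | nil => simp [pr]
  | cons q L ih => simp only [List.cons_append, pr, ih]; ring
theorem pz_app : pz (L ++ L') r z p t = pz L r z p t + pz L' r z p t := by
  induction L with
  | nil => simp [pz]
  | cons q L ih => simp only [List.cons_append, pz, ih]; ring
theorem pp_app : pp (L ++ L') r z p t = pp L r z p t + pp L' r z p t := by
  induction L with
  | nil => simp [pp]
  | cons q L ih => simp only [List.cons_append, pp, ih]; ring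
theorem pt_app : pt (L ++ L') r z p t = pt L r z p t + pt L' r z p t := by
  induction L with
  | nil => simp [pt]
  | cons q L ih => simp only [List.cons_append, pt, ih]; ring
end

/-- an integer table: `c = cn / cd`, `al = an / ad`, `Λ = Ln / wq`; `F = F0 + τ F1`, `A = (1 - r) A1 + τ A2`,
`B = B0 + (1 - r) B1 + τ B2`, … -/
structure IT where
  cn : ℕ
  cd : ℕ
  an : ℤ
  ad : ℕ
  Ln : ℤ
  wq : ℕ
  F0 : IL
  F1 : IL
  K0 : IL
  K1 : IL
  D0 : IL
  D1 : IL
  A1 : IL
  A2 : IL
  B0 : IL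
  B1 : IL
  B2 : IL
  C0 : IL
  C1 : IL

noncomputable def IT.tab (I : IT) : Tab where
  c := I.cn / I.cd
  al := I.an / I.ad
  Λ := I.Ln / I.wq
  F := ⟨[], toMon 0 I.F0 ++ toMon 1 I.F1, []⟩
  K := ⟨toMon 0 I.K0, [], toMon 0 I.K1⟩
  D := ⟨toMon 0 I.D0, [], toMon 0 I.D1⟩
  A := ⟨[], toMon 0 I.A1, toMon 0 I.A2⟩
  B := ⟨toMon 0 I.B0, toMon 0 I.B1, toMon 0 I.B2⟩
  C := ⟨toMon 0 I.C0, [], toMon 0 I.C1⟩

theorem pv_dZ_zero {L : IL} (h : (L.all fun q => q.2.2.1 == 0) = true) (r z p : ℝ) : pv (dZ L) r z p = 0 := by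
  induction L with
  | nil => rfl
  | cons q L ih =>
    rw [List.all_cons, Bool.and_eq_true, beq_iff_eq] at h
    simp [dZ, pv, h.1, ih h.2]

theorem pv_p0 {L : IL} (h : (L.all fun q => 0 < q.2.2.2) = true) (r z : ℝ) : pv L r z 0 = 0 := by
  induction L with
  | nil => rfl
  | cons q L ih =>
    rw [List.all_cons, Bool.and_eq_true, decide_eq_true_eq] at h
    simp [pv, h.1.ne', ih h.2]

/-- the shape test -/
def IT.sh (I : IT) : Bool :=
  decide (0 < I.cn) && decide (0 < I.cd) && (I.B0.all fun q => q.2.2.1 == 0) && I.B0.all fun q => 0 < q.2.2.2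

theorem IT.sh_s {I : IT} (h : I.sh = true) : I.tab.Sh := by
  simp only [IT.sh, Bool.and_eq_true, decide_eq_true_eq] at h
  obtain ⟨⟨⟨h1, h2⟩, h3⟩, h4⟩ := h
  refine ⟨by simp only [IT.tab]; positivity, rfl, rfl, fun r z p t => ?_, fun r t => ?_⟩
  · simp only [IT.tab, pz_mon, pv_dZ_zero h3]; simp
  · simp only [IT.tab, pe_mon, pv_p0 h4]; simp

/-- substitution of polynomials for `r, z, w p`; the result is multiplied by `w ^ d` -/
def sub3 (r z ph w : P3) (d : ℕ) : IL → P3
  | [] => []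
  | q :: L => A3.a (A3.m (A3.m (A3.c q.1) (A3.m (A3.pw r q.2.1) (A3.pw z q.2.2.1)))
      (A3.m (A3.pw w (d - q.2.2.2)) (A3.pw ph q.2.2.2))) (sub3 r z ph w d L)

def IL.le (d : ℕ) (L : IL) : Bool := L.all fun q => q.2.2.2 ≤ d

theorem sub3_ev {x y z : ℝ} {R Z H W : P3} {d : ℕ} {p : ℝ} (hp : ev3 x y z H = ev3 x y z W * p) {L : IL}
    (h : L.le d = true) : ev3 x y z (sub3 R Z H W d L) = ev3 x y z W ^ d * pv L (ev3 x y z R) (ev3 x y z Z) p := by
  have o := A3_ok x y z
  induction L with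
  | nil => simp [sub3, pv, ev3, hv]
  | cons q L ih =>
    rw [IL.le, List.all_cons, Bool.and_eq_true, decide_eq_true_eq] at h
    obtain ⟨e, he⟩ := Nat.exists_eq_add_of_le h.1
    simp only [sub3, o.a, o.m, o.c, o.pw, ih h.2, pv, hp]
    rw [show d - q.2.2.2 = e by omega]
    generalize pv L _ _ p = X
    rw [he]
    ring

theorem IL.le_dR {d : ℕ} {L : IL} (h : L.le d = true) : (dR L).le d = true := by
  induction L with
  | nil => rfl
  | cons q L ih =>
    rw [IL.le, List.all_cons, Bool.and_eq_true] at h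
    rw [dR, IL.le, List.all_cons, Bool.and_eq_true]
    exact ⟨h.1, ih h.2⟩
theorem IL.le_dZ {d : ℕ} {L : IL} (h : L.le d = true) : (dZ L).le d = true := by
  induction L with
  | nil => rfl
  | cons q L ih =>
    rw [IL.le, List.all_cons, Bool.and_eq_true] at h
    rw [dZ, IL.le, List.all_cons, Bool.and_eq_true]
    exact ⟨h.1, ih h.2⟩
theorem IL.le_dP {d : ℕ} {L : IL} (h : L.le d = true) : (dP L).le d = true := by
  induction L with
  | nil => rfl
  | cons q L ih =>
    rw [IL.le, List.all_cons, Bool.and_eq_true, decide_eq_true_eq] at h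
    rw [dP, IL.le, List.all_cons, Bool.and_eq_true, decide_eq_true_eq]
    exact ⟨(Nat.sub_le _ _).trans h.1, ih h.2⟩

end Crest.Agent.R97
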