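import Crest.Agent.R97.Har

set_option autoImplicit false
open MeasureTheory Metric Set Filter Topology
open scoped RealInnerProductSpace NNReal

namespace Crest.Agent.R97

variable {d : ℕ}

/-! Cmp: comparison with strict sub/supersolutions (calibration), nondegeneracy. -/

theorem cmp_grad_add {u h : E d → ℝ} {x : E d} (hu : DifferentiableAt ℝ u x) (hh : DifferentiableAt ℝ h x) (σ : ℝ) :
    gradient (fun y => u y + σ * h y) x = gradient u x + σ • gradient h x := by
  ext i
  rw [PiLp.add_apply, PiLp.smul_apply, gradient_apply, gradient_apply, gradient_apply,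
    pd_add hu (hh.const_mul σ), pd_const_mul, smul_eq_mul]

theorem cmp_grad_min {u : E d → ℝ} {x : E d} (h0 : ∀ y, 0 ≤ u y) (hx : u x = 0) : gradient u x = 0 := by
  have h : IsLocalMin u x := Eventually.of_forall fun y => hx ▸ h0 y
  simp [gradient, h.fderiv_eq_zero]

theorem cmp_ind {K : ℝ≥0} {f : E d → ℝ} (hf : LipschitzWith K f) {D : Set (E d)}
    (h0 : ∀ z ∈ frontier D, f z = 0) : LipschitzWith K (D.indicator f) := by
  have key : ∀ x ∈ D, ∀ y ∉ D, |f x| ≤ K * dist x y := fun x hx y hy => by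
    obtain ⟨z, hz, e⟩ := exists_mem_frontier_infDist_compl_eq_dist hx (fun h => hy (h ▸ mem_univ y))
    have h1 := hf.dist_le_mul x z
    rw [h0 z hz, Real.dist_eq, sub_zero, ← e] at h1
    exact h1.trans (mul_le_mul_of_nonneg_left (infDist_le_dist_of_mem hy) K.coe_nonneg)
  refine LipschitzWith.of_dist_le_mul fun x y => ?_
  by_cases hx : x ∈ D <;> by_cases hy : y ∈ D
  · rw [indicator_of_mem hx, indicator_of_mem hy]
    exact hf.dist_le_mul x y
  · rw [indicator_of_mem hx, indicator_of_notMem hy, Real.dist_eq, sub_zero]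
    exact key x hx y hy
  · rw [indicator_of_notMem hx, indicator_of_mem hy, Real.dist_eq, zero_sub, abs_neg, dist_comm]
    exact key y hy x hx
  · rw [indicator_of_notMem hx, indicator_of_notMem hy, dist_self]
    positivity

theorem cmp_ext {D U : Set (E d)} (hb : Bornology.IsBounded D) (hU : IsOpen U) (hDU : closure D ⊆ U)
    {V : E d → ℝ} (hV : ContDiffOn ℝ 2 V U) : ∃ (W : E d → ℝ) (K : ℝ≥0), LipschitzWith K W ∧
      ∀ x ∈ closure D, V x = W x := by
  have h1 : LocallyLipschitzOn (closure D) V := fun x hx => by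
    obtain ⟨K, t, ht, h⟩ := ((hV.contDiffAt (hU.mem_nhds (hDU hx))).of_le one_le_two).exists_lipschitzOnWith
    exact ⟨K, t, mem_nhdsWithin_of_mem_nhds ht, h⟩
  obtain ⟨K, hK⟩ := h1.exists_lipschitzOnWith_of_compact hb.isCompact_closure
  obtain ⟨W, hW, e⟩ := hK.extend_real
  exact ⟨W, K, hW, e⟩

theorem cmp_zero (hd : 1 ≤ d) {K : ℝ≥0} {h : E d → ℝ} (hh : LipschitzWith K h) {D : Set (E d)}
    (hb : Bornology.IsBounded D) (h0 : ∀ x, x ∉ D → h x = 0) (hn : ∀ x, 0 ≤ h x)
    (hg : ∀ᵐ x, x ∈ closure D → gradient h x = 0) (x : E d) : h x = 0 := by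
  have h1 := int_by_parts hh hb isOpen_univ (subset_univ _) h0 (X := fun y => y) contDiff_id.contDiffOn
  have hm : MeasurableSet (closure D) := isClosed_closure.measurableSet
  have e : ∀ y : E d, dv (fun y => y) y = d := fun y => by simp [dv, pd_coord]
  have h2 : ∫ y in closure D, (⟪y, gradient h y⟫ + h y * dv (fun y => y) y) = ∫ y in closure D, h y * d :=
    setIntegral_congr_ae hm (hg.mono fun y hy hy' => by rw [hy hy', inner_zero_right, zero_add, e])
  have hd' : (d : ℝ) ≠ 0 := by exact_mod_cast (by omega : d ≠ 0)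
  rw [h2, integral_mul_const, mul_eq_zero, or_iff_left hd',
    setIntegral_eq_zero_iff_of_nonneg_ae (Eventually.of_forall hn)
      (hh.continuous.continuousOn.integrableOn_compact hb.isCompact_closure)] at h1
  have h3 : h =ᵐ[volume] fun _ => 0 := by
    filter_upwards [(ae_restrict_iff' hm).1 h1] with y hy
    by_cases hy' : y ∈ closure D
    · exact hy hy'
    · exact h0 y fun h => hy' (subset_closure h)
  exact congrFun ((hh.continuous.ae_eq_iff_eq volume continuous_const).1 h3) x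

theorem cmp_core {L : ℝ≥0} {u : E d → ℝ} (hd : 1 ≤ d) (hu : Mn L u) {D U : Set (E d)}
    (hb : Bornology.IsBounded D) (hU : IsOpen U) (hDU : closure D ⊆ U) {V : E d → ℝ} (hV : ContDiffOn ℝ 2 V U)
    {K : ℝ≥0} {h : E d → ℝ} (hh : LipschitzWith K h) (h0 : ∀ x, x ∉ D → h x = 0) (hn : ∀ x, 0 ≤ h x) (σ : ℝ)
    (hw : ∀ x, 0 ≤ u x + σ * h x)
    (H : ∀ x, 0 < h x → DifferentiableAt ℝ u x → DifferentiableAt ℝ h x → ∃ a, 0 < a ∧
      min a (‖gradient h x‖ ^ 2) ≤ jd u x - jd (fun y => u y + σ * h y) x +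
        2 * σ * (⟪gradient V x, gradient h x⟫ + h x * lap V x)) (x : E d) : h x = 0 := by
  have hm : MeasurableSet (closure D) := isClosed_closure.measurableSet
  have hc := hb.isCompact_closure
  have hX : ContDiffOn ℝ 1 (gradient V) U := contDiffOn_euclidean.2 fun i => by
    simp only [gradient_apply]
    exact contDiffOn_pd hU hV le_rfl i
  have hdv : dv (gradient V) = lap V := by
    funext y
    simp only [dv, lap, gradient_apply]
  have hwl : LipschitzWith (L + ‖σ‖₊ * K) fun y => u y + σ * h y :=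
    hu.lip.add ((lipschitzWith_smul σ).comp hh)
  have i0 := int_by_parts hh hb hU hDU h0 hX
  rw [hdv] at i0
  have i1 := hu.min' hb.closure hm hwl hw fun y hy => by
    rw [h0 y fun h => hy (subset_closure h), mul_zero, add_zero]
  have j1 := integrableOn_jd hu.lip hb.closure
  have j2 := integrableOn_jd hwl hb.closure
  have j3 : IntegrableOn (fun y => ⟪gradient V y, gradient h y⟫ + h y * lap V y) (closure D) := by
    refine Integrable.add ?_ ((hh.continuous.continuousOn.mul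
      ((continuousOn_lap hU hV).mono hDU)).integrableOn_compact hc)
    obtain ⟨C, hC⟩ := hc.exists_bound_of_continuousOn (hX.continuousOn.mono hDU)
    refine Measure.integrableOn_of_bounded (M := C * K) hc.measure_lt_top.ne
      ((measurable_gradient V).inner (measurable_gradient h)).aestronglyMeasurable
      ((ae_restrict_iff' hm).2 (Eventually.of_forall fun y hy => (norm_inner_le_norm _ _).trans ?_))
    exact mul_le_mul (hC y hy) (norm_gradient_le hh y) (norm_nonneg _) ((norm_nonneg _).trans (hC y hy))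
  have key : ∀ᵐ y, ∃ a, 0 < a ∧ min a (‖gradient h y‖ ^ 2) ≤ jd u y - jd (fun y => u y + σ * h y) y +
      2 * σ * (⟪gradient V y, gradient h y⟫ + h y * lap V y) := by
    filter_upwards [hu.lip.ae_differentiableAt, hh.ae_differentiableAt] with y a1 a2
    rcases (hn y).eq_or_lt with e | e
    · refine ⟨1, one_pos, (min_le_right _ _).trans (le_of_eq ?_)⟩
      have g0 := cmp_grad_min hn e.symm
      simp only [jd, cmp_grad_add a1 a2, g0, ← e]
      simp
    · exact H y e a1 a2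
  have nn : 0 ≤ᵐ[volume.restrict (closure D)] fun y => jd u y - jd (fun y => u y + σ * h y) y +
      2 * σ * (⟪gradient V y, gradient h y⟫ + h y * lap V y) :=
    ae_restrict_of_ae (key.mono fun y ⟨a, ha, hy⟩ => (le_min ha.le (sq_nonneg _)).trans hy)
  have ji := (j1.sub j2).add (j3.const_mul (2 * σ))
  have z0 : ∫ y in closure D, (jd u y - jd (fun y => u y + σ * h y) y +
      2 * σ * (⟪gradient V y, gradient h y⟫ + h y * lap V y)) = 0 := by
    refine le_antisymm ?_ (integral_nonneg_of_ae nn)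
    have j4 : IntegrableOn (fun y => jd u y - jd (fun y => u y + σ * h y) y) (closure D) := j1.sub j2
    rw [integral_add j4 (j3.const_mul _), integral_sub j1 j2, integral_const_mul, i0]
    unfold J at i1
    linarith
  have z1 := (ae_restrict_iff' hm).1 ((setIntegral_eq_zero_iff_of_nonneg_ae nn ji).1 z0)
  refine cmp_zero hd hh hb h0 hn ?_ x
  filter_upwards [key, z1] with y ⟨a, ha, hy⟩ hz hy'
  have h1 : min a (‖gradient h y‖ ^ 2) ≤ 0 := hy.trans (hz hy').le
  rcases min_le_iff.1 h1 with h2 | h2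
  · exact absurd h2 (not_le.2 ha)
  · exact norm_eq_zero.1 (pow_eq_zero_iff two_ne_zero |>.1 (le_antisymm h2 (sq_nonneg _)))

theorem Mn.cmp_sub {L : ℝ≥0} {u : E d → ℝ} (hd : 1 ≤ d) (hu : Mn L u) {D U : Set (E d)} (hD : IsOpen D)
    (hb : Bornology.IsBounded D) (hU : IsOpen U) (hDU : closure D ⊆ U) {V : E d → ℝ} (hV : ContDiffOn ℝ 2 V U)
    (hl : ∀ x ∈ D, u x < V x → 0 ≤ lap V x) (hg : ∀ x ∈ D, u x = 0 → 0 < V x → 1 < ‖gradient V x‖)
    (hf : ∀ x ∈ frontier D, V x ≤ u x) : ∀ x ∈ D, V x ≤ u x := by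
  obtain ⟨W, K, hW, e⟩ := cmp_ext hb hU hDU hV
  have hl1 : LipschitzWith (K + L) fun x => max (W x - u x) 0 := (hW.sub hu.lip).max_const 0
  have hh := cmp_ind hl1 (D := D) fun z hz =>
    max_eq_right (by rw [← e z (frontier_subset_closure hz)]; exact sub_nonpos.2 (hf z hz))
  have hn : ∀ x, 0 ≤ D.indicator (fun x => max (W x - u x) 0) x := fun x =>
    indicator_nonneg (fun y _ => le_max_right _ _) x
  have key := cmp_core hd hu hb hU hDU hV hh (fun x hx => indicator_of_notMem hx _) hn 1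
    (fun x => add_nonneg (hu.nn x) (by rw [one_mul]; exact hn x)) fun x hx a1 a2 => ?_
  · intro x hx
    have := key x
    rw [indicator_of_mem hx, ← e x (subset_closure hx)] at this
    exact sub_nonpos.1 (max_eq_right_iff.1 this)
  have hxD : x ∈ D := by
    by_contra h
    rw [indicator_of_notMem h] at hx
    exact lt_irrefl _ hx
  have hpos : 0 < W x - u x := by
    rw [indicator_of_mem hxD] at hx
    exact (lt_max_iff.1 hx).resolve_right (lt_irrefl _)
  have ev : (fun y => u y + 1 * D.indicator (fun x => max (W x - u x) 0) y) =ᶠ[𝓝 x] V := by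
    filter_upwards [hD.mem_nhds hxD, (hW.continuous.sub hu.lip.continuous).continuousAt.eventually
      (lt_mem_nhds hpos)] with y hy hy'
    rw [indicator_of_mem hy, max_eq_left (show 0 ≤ W y - u y from le_of_lt hy'), e y (subset_closure hy)]
    ring
  have g1 := cmp_grad_add a1 a2 1
  rw [ev.gradient_eq, one_smul] at g1
  have hlt : u x < V x := by rw [e x (subset_closure hxD)]; linarith
  have l1 := mul_nonneg hx.le (hl x hxD hlt)
  have jw : jd (fun y => u y + 1 * D.indicator (fun x => max (W x - u x) 0) y) x = ‖gradient V x‖ ^ 2 + 1 := by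
    rw [jd, ev.gradient_eq, if_pos (((hu.nn x).trans_lt hlt).trans_eq ev.self_of_nhds.symm)]
  rw [jw, jd]
  generalize gradient (D.indicator fun x => max (W x - u x) 0) x = q at g1 ⊢
  rcases (hu.nn x).eq_or_lt with h0 | h0
  · have g0 := cmp_grad_min hu.nn h0.symm
    have g2 := hg x hxD h0.symm (h0.trans_lt hlt)
    rw [g0, zero_add] at g1
    refine ⟨‖gradient V x‖ ^ 2 - 1, by nlinarith, (min_le_left _ _).trans ?_⟩
    rw [g0, if_neg (by rw [← h0]; exact lt_irrefl _), ← g1, real_inner_self_eq_norm_sq, norm_zero]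
    linarith
  · refine ⟨1, one_pos, (min_le_right _ _).trans ?_⟩
    rw [if_pos h0, g1, norm_add_sq_real, inner_add_left, real_inner_self_eq_norm_sq]
    linarith

theorem Mn.cmp_sup {L : ℝ≥0} {u : E d → ℝ} (hd : 1 ≤ d) (hu : Mn L u) {D U : Set (E d)} (hD : IsOpen D)
    (hb : Bornology.IsBounded D) (hU : IsOpen U) (hDU : closure D ⊆ U) {V : E d → ℝ} (hV : ContDiffOn ℝ 2 V U)
    (hl : ∀ x ∈ D, 0 < V x → V x < u x → lap V x ≤ 0)
    (hg : ∀ x ∈ D, 0 < u x → V x ≤ 0 → ‖gradient V x‖ ^ 2 + 2 * u x * lap V x < 1)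
    (hf : ∀ x ∈ frontier D, u x ≤ max (V x) 0) : ∀ x ∈ D, u x ≤ max (V x) 0 := by
  obtain ⟨W, K, hW, e⟩ := cmp_ext hb hU hDU hV
  have hl0 : LipschitzWith (L + K) fun x => u x - max (W x) 0 := hu.lip.sub (hW.max_const 0)
  have hl1 : LipschitzWith (L + K) fun x => max (u x - max (W x) 0) 0 := hl0.max_const 0
  have hh := cmp_ind hl1 (D := D) fun z hz =>
    max_eq_right (by rw [← e z (frontier_subset_closure hz)]; exact sub_nonpos.2 (hf z hz))
  have hn : ∀ x, 0 ≤ D.indicator (fun x => max (u x - max (W x) 0) 0) x := fun x =>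
    indicator_nonneg (fun y _ => le_max_right _ _) x
  have hw : ∀ x, 0 ≤ u x + -1 * D.indicator (fun x => max (u x - max (W x) 0) 0) x := fun x => by
    have : D.indicator (fun x => max (u x - max (W x) 0) 0) x ≤ u x :=
      indicator_apply_le' (fun _ => max_le (sub_le_self _ (le_max_right _ _)) (hu.nn x)) fun _ => hu.nn x
    linarith
  have key := cmp_core hd hu hb hU hDU hV hh (fun x hx => indicator_of_notMem hx _) hn (-1) hw
    fun x hx a1 a2 => ?_
  · intro x hx
    have := key x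
    rw [indicator_of_mem hx, ← e x (subset_closure hx)] at this
    exact sub_nonpos.1 (max_eq_right_iff.1 this)
  have hxD : x ∈ D := by
    by_contra h
    rw [indicator_of_notMem h] at hx
    exact lt_irrefl _ hx
  have hpos : 0 < u x - max (W x) 0 := by
    rw [indicator_of_mem hxD] at hx
    exact (lt_max_iff.1 hx).resolve_right (lt_irrefl _)
  have ex := e x (subset_closure hxD)
  have u0 : 0 < u x := by linarith [le_max_right (W x) 0]
  have g1 := cmp_grad_add a1 a2 (-1)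
  rw [neg_one_smul] at g1
  rcases lt_or_ge 0 (V x) with h0 | h0
  · have ev : (fun y => u y + -1 * D.indicator (fun x => max (u x - max (W x) 0) 0) y) =ᶠ[𝓝 x] V := by
      filter_upwards [hD.mem_nhds hxD, hl0.continuous.continuousAt.eventually (lt_mem_nhds hpos),
        hW.continuous.continuousAt.eventually (lt_mem_nhds (ex ▸ h0))] with y hy hy' hy''
      rw [indicator_of_mem hy, max_eq_left (le_of_lt hy'), max_eq_left (le_of_lt hy''), e y (subset_closure hy)]
      ring
    have l1 := mul_nonpos_of_nonneg_of_nonpos hx.le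
      (hl x hxD h0 (by rw [ex]; linarith [le_max_left (W x) 0]))
    rw [ev.gradient_eq] at g1
    have g2 := eq_add_of_add_neg_eq g1.symm
    refine ⟨1, one_pos, (min_le_right _ _).trans ?_⟩
    rw [jd, jd, ev.gradient_eq, if_pos (h0.trans_eq ev.self_of_nhds.symm), if_pos u0, g2, norm_add_sq_real]
    linarith
  · have hx' : D.indicator (fun x => max (u x - max (W x) 0) 0) x = u x := by
      rw [indicator_of_mem hxD, max_eq_left hpos.le, max_eq_right (ex ▸ h0), sub_zero]
    have w0 : u x + -1 * D.indicator (fun x => max (u x - max (W x) 0) 0) x = 0 := by rw [hx']; ring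
    have g0 := cmp_grad_min hw w0
    have g2 := hg x hxD u0 h0
    rw [g0] at g1
    have g3 := add_neg_eq_zero.1 g1.symm
    refine ⟨1 - (‖gradient V x‖ ^ 2 + 2 * u x * lap V x), by linarith, (min_le_left _ _).trans ?_⟩
    have g4 := sq_nonneg ‖gradient V x - gradient u x‖
    rw [norm_sub_sq_real] at g4
    rw [jd, jd, g0, w0, if_pos u0, if_neg (lt_irrefl _), ← g3, hx', norm_zero]
    linarith

theorem cmp_pd_gauss (a : ℝ) (i : Fin d) (y : E d) :
    pd i (fun y : E d => Real.exp (-a * ‖y‖ ^ 2)) y = Real.exp (-a * ‖y‖ ^ 2) * (-2 * a * y i) := by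
  have h1 : DifferentiableAt ℝ (fun y : E d => -a * ‖y‖ ^ 2) y :=
    ((contDiff_norm_sq ℝ (n := 1)).differentiable one_ne_zero y).const_mul _
  have h2 := pd_norm_sq (0 : E d) i y
  simp only [sub_zero, PiLp.zero_apply] at h2
  have h3 : pd i (fun y : E d => -a * ‖y‖ ^ 2) y = -2 * a * y i := by rw [pd_const_mul, h2]; ring
  rw [← h3]
  unfold pd
  rw [h1.hasFDerivAt.exp.fderiv, _root_.smul_apply, smul_eq_mul]

theorem cmp_gauss_smooth (a : ℝ) : ContDiff ℝ 2 fun y : E d => Real.exp (-a * ‖y‖ ^ 2) :=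
  (contDiff_const.mul (contDiff_norm_sq ℝ)).exp

theorem cmp_lap_gauss (a : ℝ) (y : E d) : lap (fun y : E d => Real.exp (-a * ‖y‖ ^ 2)) y =
    Real.exp (-a * ‖y‖ ^ 2) * (4 * a ^ 2 * ‖y‖ ^ 2 - 2 * a * d) := by
  have h1 : ∀ i : Fin d, pd i (pd i fun y : E d => Real.exp (-a * ‖y‖ ^ 2)) y =
      Real.exp (-a * ‖y‖ ^ 2) * (4 * a ^ 2 * y i ^ 2 - 2 * a) := fun i => by
    rw [funext (cmp_pd_gauss a i), pd_mul ((cmp_gauss_smooth a).differentiable two_ne_zero y) (by fun_prop),
      cmp_pd_gauss, pd_const_mul, pd_coord, if_pos rfl]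
    ring
  simp only [lap, h1]
  rw [← Finset.mul_sum, Finset.sum_sub_distrib, ← Finset.mul_sum, EuclideanSpace.real_norm_sq_eq y]
  simp only [Finset.sum_const, Finset.card_univ, Fintype.card_fin, nsmul_eq_mul]
  ring

theorem cmp_nondeg (hd : 1 ≤ d) : ∃ c : ℝ, 0 < c ∧ ∀ (L : ℝ≥0) (u : E d → ℝ), Mn L u →
    (∀ y ∈ closedBall (0 : E d) 1, u y ≤ c) → ∀ y ∈ ball (0 : E d) (1 / 2), u y = 0 := by
  have hd' : (1 : ℝ) ≤ d := by exact_mod_cast hd
  obtain ⟨a, ha⟩ : ∃ a : ℝ, a = 2 * d := ⟨_, rfl⟩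
  obtain ⟨τ, hτ⟩ : ∃ τ : ℝ, τ = 1 / (5 * d) := ⟨_, rfl⟩
  have τ0 : 0 < τ := by rw [hτ]; positivity
  have τ1 : τ * d = 1 / 5 := by rw [hτ]; field_simp
  have a0 : 0 < a := by linarith
  have m0 : 0 < Real.exp (-a * (1 / 4)) - Real.exp (-a * 1) := sub_pos.2 (Real.exp_lt_exp.2 (by linarith))
  have m1 : Real.exp (-a * (1 / 4)) - Real.exp (-a * 1) ≤ 1 := by
    have := Real.exp_le_one_iff.2 (show -a * (1 / 4) ≤ 0 by linarith)
    linarith [Real.exp_pos (-a * 1)]
  refine ⟨τ * (Real.exp (-a * (1 / 4)) - Real.exp (-a * 1)), mul_pos τ0 m0, fun L u hu hc y hy => ?_⟩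
  have sm := cmp_gauss_smooth (d := d) a
  have hlap : ∀ x : E d, lap (fun y : E d => τ * (Real.exp (-a * (1 / 4)) - Real.exp (-a * ‖y‖ ^ 2))) x =
      4 * d ^ 2 * τ * (Real.exp (-a * ‖x‖ ^ 2) * (1 - 4 * ‖x‖ ^ 2)) := fun x => by
    rw [lap_const_mul, lap_sub contDiffAt_const sm.contDiffAt, cmp_lap_gauss,
      (harm_const _ univ).2 x (mem_univ x), ha]
    ring
  have hgr : ∀ x : E d, ‖gradient (fun y : E d => τ * (Real.exp (-a * (1 / 4)) - Real.exp (-a * ‖y‖ ^ 2))) x‖ ^ 2 =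
      16 * (τ * d) ^ 2 * (Real.exp (-a * ‖x‖ ^ 2) ^ 2 * ‖x‖ ^ 2) := fun x => by
    rw [norm_gradient_sq, EuclideanSpace.real_norm_sq_eq x, Finset.mul_sum, Finset.mul_sum,
      ← EuclideanSpace.real_norm_sq_eq x]
    refine Finset.sum_congr rfl fun i _ => ?_
    rw [pd_const_mul, pd_sub (differentiableAt_const _) (sm.differentiable two_ne_zero x), pd_const,
      cmp_pd_gauss, ha]
    ring
  have main := hu.cmp_sup hd (D := ball 0 1) isOpen_ball isBounded_ball isOpen_univ (subset_univ _)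
    (V := fun y : E d => τ * (Real.exp (-a * (1 / 4)) - Real.exp (-a * ‖y‖ ^ 2)))
    (contDiff_const.mul (contDiff_const.sub sm)).contDiffOn (fun x _ h1 _ => ?_) (fun x hx h1 _ => ?_)
    (fun x hx => ?_) y (ball_subset_ball (by norm_num) hy)
  · refine le_antisymm (main.trans (max_le ?_ le_rfl)) (hu.nn y)
    have h1 : ‖y‖ < 1 / 2 := mem_ball_zero_iff.1 hy
    have h2 : ‖y‖ ^ 2 ≤ 1 / 4 := by nlinarith [norm_nonneg y]
    exact mul_nonpos_of_nonneg_of_nonpos τ0.le (sub_nonpos.2 (Real.exp_le_exp.2 (by nlinarith)))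
  · have h2 := Real.exp_lt_exp.1 (sub_pos.1 ((mul_pos_iff_of_pos_left τ0).1 h1))
    have h3 : 1 - 4 * ‖x‖ ^ 2 ≤ 0 := by nlinarith
    rw [hlap]
    exact mul_nonpos_of_nonneg_of_nonpos (by positivity)
      (mul_nonpos_of_nonneg_of_nonpos (Real.exp_pos _).le h3)
  · have h2 : ‖x‖ < 1 := mem_ball_zero_iff.1 hx
    have h3 : ‖x‖ ^ 2 ≤ 1 := by nlinarith [norm_nonneg x]
    have e0 := Real.exp_pos (-a * ‖x‖ ^ 2)
    have e1 : Real.exp (-a * ‖x‖ ^ 2) ≤ 1 := Real.exp_le_one_iff.2 (by nlinarith [sq_nonneg ‖x‖])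
    have b1 : Real.exp (-a * ‖x‖ ^ 2) ^ 2 * ‖x‖ ^ 2 ≤ 1 :=
      mul_le_one₀ (pow_le_one₀ e0.le e1) (sq_nonneg _) h3
    have b2 : Real.exp (-a * ‖x‖ ^ 2) * (1 - 4 * ‖x‖ ^ 2) ≤ 1 := by nlinarith [sq_nonneg ‖x‖]
    have b3 : u x ≤ τ := (hc x (ball_subset_closedBall hx)).trans (mul_le_of_le_one_right τ0.le m1)
    have b4 : u x * (Real.exp (-a * ‖x‖ ^ 2) * (1 - 4 * ‖x‖ ^ 2)) ≤ τ :=
      (mul_le_of_le_one_right h1.le b2).trans b3
    have b5 := mul_le_mul_of_nonneg_left b4 (show 0 ≤ 8 * (d : ℝ) ^ 2 * τ by positivity)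
    have b6 : 8 * (d : ℝ) ^ 2 * τ * τ = 8 * (τ * d) ^ 2 := by ring
    rw [hlap, hgr]
    rw [τ1] at b6 ⊢
    linarith
  · rw [frontier_ball _ one_ne_zero] at hx
    have h1 : ‖x‖ = 1 := mem_sphere_zero_iff_norm.1 hx
    refine le_max_of_le_left ?_
    rw [h1, one_pow]
    exact hc x (sphere_subset_closedBall hx)

/-- nondegeneracy -/
theorem nondeg (hd : 1 ≤ d) : ∃ c : ℝ, 0 < c ∧ ∀ (L : ℝ≥0) (u : E d → ℝ), Mn L u → ∀ (z : E d) (r : ℝ), 0 < r →
    (∀ y ∈ closedBall z r, u y ≤ c * r) → ∀ y ∈ ball z (r / 2), u y = 0 := by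
  obtain ⟨c, hc, H⟩ := cmp_nondeg hd
  refine ⟨c, hc, fun L u hu z r hr h y hy => ?_⟩
  have h1 := H L _ (hu.bl z hr) (fun x hx => ?_) (r⁻¹ • (y - z)) ?_
  · rw [bl, smul_inv_smul₀ hr.ne', add_sub_cancel, div_eq_zero_iff, or_iff_left hr.ne'] at h1
    exact h1
  · rw [bl, div_le_iff₀ hr]
    refine h _ ?_
    rw [mem_closedBall, dist_eq_norm, add_sub_cancel_left, norm_smul, Real.norm_of_nonneg hr.le]
    exact mul_le_of_le_one_right hr.le (mem_closedBall_zero_iff.1 hx)
  · rw [mem_ball_zero_iff, norm_smul, norm_inv, Real.norm_of_nonneg hr.le, inv_mul_lt_iff₀ hr, ← dist_eq_norm]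
    have := mem_ball.1 hy
    linarith

end Crest.Agent.R97
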