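import Crest.Agent.R97.Cmp

set_option autoImplicit false
open MeasureTheory Metric Set Filter Topology
open scoped RealInnerProductSpace NNReal

namespace Crest.Agent.R97

variable {d : ℕ}

/-! Cpt: compactness of `Mn`. -/

theorem exists_subseq {L : ℝ≥0} {F : ℕ → E d → ℝ} (hF : ∀ k, LipschitzWith L (F k)) (h0 : ∀ k, F k 0 = 0) :
    ∃ (φ : ℕ → ℕ) (f : E d → ℝ), StrictMono φ ∧
      ∀ R : ℝ, TendstoUniformlyOn (fun k => F (φ k)) f atTop (closedBall 0 R) := by
  set S : Set C(E d, ℝ) := {g | LipschitzWith L g ∧ g 0 = 0} with hS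
  have h1 : ContinuousMap.toFun '' S = {g : E d → ℝ | LipschitzWith L g ∧ g 0 = 0} := by
    ext g
    constructor
    · rintro ⟨g, hg, rfl⟩
      exact hg
    · intro hg
      exact ⟨⟨g, hg.1.continuous⟩, hg, rfl⟩
  have h2 : IsCompact (ContinuousMap.toFun '' S) := by
    rw [h1]
    refine (isCompact_univ_pi fun x : E d => isCompact_closedBall (0 : ℝ) (L * ‖x‖)).of_isClosed_subset
      ((isClosed_setOfPred_lipschitzWith L).inter (isClosed_eq (continuous_apply 0) continuous_const)) ?_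
    rintro g ⟨hg, hg0⟩ x -
    have := hg.dist_le_mul x 0
    rwa [hg0, dist_zero_right x] at this
  have h3 : Equicontinuous ((↑) : S → E d → ℝ) :=
    (LipschitzWith.uniformEquicontinuous (fun g : S => (g : E d → ℝ)) L fun g => g.2.1).equicontinuous
  obtain ⟨f, -, φ, hφ, hf⟩ := (ArzelaAscoli.isCompact_of_equicontinuous S h2 h3).tendsto_subseq
    (x := fun k => ⟨F k, (hF k).continuous⟩) fun k => ⟨hF k, h0 k⟩
  exact ⟨φ, f, hφ, fun R =>
    ContinuousMap.tendsto_iff_forall_isCompact_tendstoUniformlyOn.1 hf _ (isCompact_closedBall 0 R)⟩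

theorem cpt_unif {F : ℕ → E d → ℝ} {f : E d → ℝ}
    (h : ∀ R : ℝ, TendstoUniformlyOn F f atTop (closedBall 0 R)) (x : E d) (r : ℝ) :
    TendstoUniformlyOn F f atTop (closedBall x r) :=
  (h (‖x‖ + r)).mono (closedBall_subset_closedBall' (by rw [dist_zero_right]; linarith))

theorem cpt_pt {F : ℕ → E d → ℝ} {f : E d → ℝ}
    (h : ∀ R : ℝ, TendstoUniformlyOn F f atTop (closedBall 0 R)) (x : E d) :
    Tendsto (fun k => F k x) atTop (𝓝 (f x)) :=
  (cpt_unif h x 0).tendsto_at (mem_closedBall_self le_rfl)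

theorem cpt_lip {L : ℝ≥0} {F : ℕ → E d → ℝ} (hF : ∀ k, LipschitzWith L (F k)) {f : E d → ℝ}
    (h : ∀ R : ℝ, TendstoUniformlyOn F f atTop (closedBall 0 R)) : LipschitzWith L f :=
  LipschitzWith.of_dist_le_mul fun x y =>
    le_of_tendsto' ((cpt_pt h x).dist (cpt_pt h y)) fun k => (hF k).dist_le_mul x y

/-- nondegeneracy along a convergent sequence -/
theorem cpt_nondeg (hd : 1 ≤ d) : ∃ c : ℝ, 0 < c ∧ ∀ {L : ℝ≥0} {F : ℕ → E d → ℝ}, (∀ k, Mn L (F k)) →
    ∀ {f : E d → ℝ}, (∀ R : ℝ, TendstoUniformlyOn F f atTop (closedBall 0 R)) → ∀ (z : E d) (r : ℝ), 0 < r →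
      (∀ y ∈ closedBall z r, f y ≤ c * r) → ∀ᶠ k in atTop, ∀ y ∈ ball z (r / 2), F k y = 0 := by
  obtain ⟨c, hc, H⟩ := nondeg hd
  refine ⟨c / 2, by positivity, fun {L F} hF {f} h z r hr hf => ?_⟩
  filter_upwards [Metric.tendstoUniformlyOn_iff.1 (cpt_unif h z r) (c / 2 * r) (by positivity)] with k hk
  refine H L (F k) (hF k) z r hr fun y hy => ?_
  have h1 := hk y hy
  rw [Real.dist_eq, abs_lt] at h1
  linarith [hf y hy, h1.1]

theorem cpt_ae (hd : 1 ≤ d) {L : ℝ≥0} {F : ℕ → E d → ℝ} (hF : ∀ k, Mn L (F k)) {f : E d → ℝ}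
    (h : ∀ R : ℝ, TendstoUniformlyOn F f atTop (closedBall 0 R)) :
    ∀ᵐ x, Tendsto (fun k => gradient (F k) x) atTop (𝓝 (gradient f x)) ∧
      ∀ᶠ k in atTop, (0 < F k x ↔ 0 < f x) := by
  obtain ⟨c, hc, H⟩ := cpt_nondeg hd
  have hl := cpt_lip (fun k => (hF k).lip) h
  have hn : ∀ x, 0 ≤ f x := fun x => ge_of_tendsto' (cpt_pt h x) fun k => (hF k).nn x
  filter_upwards [hl.ae_differentiableAt (μ := volume)] with x hx
  rcases (hn x).eq_or_lt with h0 | h0
  · have hmin : IsLocalMin f x := Eventually.of_forall fun y => by rw [← h0]; exact hn y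
    have hD : HasFDerivAt f (0 : E d →L[ℝ] ℝ) x := hmin.fderiv_eq_zero ▸ hx.hasFDerivAt
    have h1 := (hasFDerivAt_iff_isLittleO.1 hD).def hc
    obtain ⟨ρ, hρ, h2⟩ := Metric.eventually_nhds_iff_ball.1 h1
    have h3 := H hF h x (ρ / 2) (by positivity) fun y hy => by
      have h4 := h2 y (closedBall_subset_ball (by linarith) hy)
      rw [mem_closedBall, dist_eq_norm] at hy
      simp only [← h0, sub_zero, zero_apply, Real.norm_eq_abs] at h4
      exact (le_abs_self _).trans (h4.trans (mul_le_mul_of_nonneg_left hy hc.le))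
    have h5 : gradient f x = 0 := by simp [gradient, hD.fderiv]
    refine ⟨tendsto_const_nhds.congr' (h3.mono fun k hk => ?_), h3.mono fun k hk => ?_⟩
    · have h6 : F k =ᶠ[𝓝 x] fun _ => 0 :=
        eventually_of_mem (ball_mem_nhds x (by positivity)) hk
      show gradient f x = gradient (F k) x
      rw [h5, h6.gradient_eq, gradient_fun_const]
    · rw [hk x (mem_ball_self (by positivity)), ← h0]
  · have h1 : ∀ᶠ y in 𝓝 x, f x / 2 < f y := hl.continuous.continuousAt.eventually (lt_mem_nhds (by linarith))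
    obtain ⟨ρ, hρ, h2⟩ := Metric.eventually_nhds_iff_ball.1 h1
    have h3 : TendstoUniformlyOn F f atTop (ball x ρ) := (cpt_unif h x ρ).mono ball_subset_closedBall
    have h4 : ∀ᶠ k in atTop, ∀ y ∈ ball x ρ, 0 < F k y := by
      filter_upwards [Metric.tendstoUniformlyOn_iff.1 h3 (f x / 2) (by linarith)] with k hk y hy
      have h5 := hk y hy
      rw [Real.dist_eq, abs_lt] at h5
      linarith [h2 y hy, h5.2]
    exact ⟨(tendsto_gradient hρ (h4.mono fun k hk => (hF k).harm.mono hk) h3).2,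
      h4.mono fun k hk => iff_of_true (hk x (mem_ball_self hρ)) h0⟩

theorem cpt_jd_nonneg (u : E d → ℝ) (x : E d) : 0 ≤ jd u x := by
  unfold jd
  split_ifs <;> positivity

theorem cpt_jd_le {K : ℝ≥0} {u : E d → ℝ} (hu : LipschitzWith K u) (x : E d) : jd u x ≤ (K : ℝ) ^ 2 + 1 := by
  unfold jd
  have := pow_le_pow_left₀ (norm_nonneg _) (norm_gradient_le hu x) 2
  split_ifs <;> linarith

theorem cpt_J (hd : 1 ≤ d) {L : ℝ≥0} {F : ℕ → E d → ℝ} (hF : ∀ k, Mn L (F k)) {f : E d → ℝ}
    (h : ∀ R : ℝ, TendstoUniformlyOn F f atTop (closedBall 0 R)) {B : Set (E d)} (hB : Bornology.IsBounded B) :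
    Tendsto (fun k => J (F k) B) atTop (𝓝 (J f B)) := by
  refine tendsto_integral_of_dominated_convergence (fun _ => (L : ℝ) ^ 2 + 1)
    (fun k => (integrableOn_jd (hF k).lip hB).aestronglyMeasurable) (integrableOn_const hB.measure_lt_top.ne)
    (fun k => ae_of_all _ fun x => ?_) (ae_restrict_of_ae ((cpt_ae hd hF h).mono fun x hx => ?_))
  · rw [Real.norm_of_nonneg (cpt_jd_nonneg _ _)]
    exact cpt_jd_le (hF k).lip x
  · refine (hx.1.norm.pow 2).add (tendsto_const_nhds.congr' (hx.2.mono fun k hk => ?_))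
    simp only [hk]

theorem cpt_min (hd : 1 ≤ d) {L : ℝ≥0} {F : ℕ → E d → ℝ} (hF : ∀ k, Mn L (F k)) {f : E d → ℝ}
    (h : ∀ R : ℝ, TendstoUniformlyOn F f atTop (closedBall 0 R)) (c : E d) {r : ℝ} (hr : 0 < r) {v : E d → ℝ}
    {K : ℝ≥0} (hv : LipschitzWith K v) (hv0 : ∀ x, 0 ≤ v x) (he : ∀ x, x ∉ ball c r → v x = f x) :
    J f (ball c r) ≤ J v (ball c r) := by
  have hl := cpt_lip (fun k => (hF k).lip) h
  have hn : ∀ x, 0 ≤ f x := fun x => ge_of_tendsto' (cpt_pt h x) fun k => (hF k).nn x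
  have hL := L.coe_nonneg
  obtain ⟨ρ, K1, hρl, hρ⟩ : ∃ (ρ : E d → ℝ) (K1 : ℝ≥0), LipschitzWith K1 ρ ∧
      ∀ x, ρ x = (4 * L + 1) * max (dist x c - r) 0 := by
    refine ⟨_, 4 * L + 1, LipschitzWith.of_dist_le_mul fun x y => ?_, fun x => rfl⟩
    rw [Real.dist_eq, ← mul_sub, abs_mul, abs_of_nonneg (by positivity)]
    push_cast
    refine mul_le_mul_of_nonneg_left ((abs_max_sub_max_le_abs _ _ _).trans ?_) (by positivity)
    rw [sub_sub_sub_cancel_right]
    exact abs_dist_sub_le x y c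
  have hρ0 : ∀ x, 0 ≤ ρ x := fun x => by rw [hρ]; positivity
  obtain ⟨K2, hw⟩ : ∃ K2 : ℝ≥0, ∀ k, LipschitzWith K2 fun x => v x + max (min (F k x - f x) (ρ x)) (-ρ x) :=
    ⟨_, fun k => hv.add ((((hF k).lip.sub hl).min hρl).max hρl.neg)⟩
  have vol : ∀ t, 0 < t → volume.real (ball c t) = t ^ d * volume.real (ball (0 : E d) 1) := fun t ht => by
    rw [measureReal_def, Measure.addHaar_ball_of_pos _ _ ht, ENNReal.toReal_mul,
      ENNReal.toReal_ofReal (by positivity), finrank_euclideanSpace_fin, ← measureReal_def]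
  have key : ∀ δ, 0 < δ → δ ≤ 1 → J f (ball c r) ≤ J v (ball c r)
      + ((K2 : ℝ) ^ 2 + 1) * (((r + δ) ^ d - r ^ d) * volume.real (ball (0 : E d) 1)) := by
    intro δ hδ hδ1
    refine le_of_tendsto (cpt_J hd hF h isBounded_ball) ?_
    filter_upwards [Metric.tendstoUniformlyOn_iff.1 (cpt_unif h c (2 * r + 2)) δ hδ] with k hk
    have hs : ball c r ⊆ ball c (r + δ) := ball_subset_ball (by linarith)
    have m1 := (hF k).min c (r + δ) (by linarith) _ K2 (hw k) (fun x => ?_) (fun x hx => ?_)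
    · have m2 : J (F k) (ball c r) ≤ J (F k) (ball c (r + δ)) :=
        setIntegral_mono_set (integrableOn_jd (hF k).lip isBounded_ball) (ae_of_all _ (cpt_jd_nonneg _))
          hs.eventuallyLE
      have i1 := integrableOn_jd (hw k) (isBounded_ball (x := c) (r := r + δ))
      have m3 := setIntegral_sdiff measurableSet_ball i1 hs
      have m4 := setIntegral_mono_on (i1.mono_set (sdiff_subset (t := ball c r)))
        (integrableOn_const ((measure_mono sdiff_subset).trans_lt measure_ball_lt_top).ne)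
        (measurableSet_ball.diff measurableSet_ball) fun x _ => cpt_jd_le (hw k) x
      rw [setIntegral_const, measureReal_sdiff hs measurableSet_ball measure_ball_lt_top.ne, vol _ hr,
        vol _ (by linarith), smul_eq_mul] at m4
      have m5 : ∫ x in ball c r, jd (fun x => v x + max (min (F k x - f x) (ρ x)) (-ρ x)) x = J v (ball c r) := by
        refine setIntegral_congr_fun measurableSet_ball fun x hx => ?_
        have e : (fun x => v x + max (min (F k x - f x) (ρ x)) (-ρ x)) =ᶠ[𝓝 x] v := by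
          filter_upwards [isOpen_ball.mem_nhds hx] with y hy
          have : ρ y = 0 := by rw [hρ, max_eq_right (by linarith [mem_ball.1 hy]), mul_zero]
          rw [this, neg_zero, max_eq_right (min_le_right _ _), add_zero]
        have e2 : v x + max (min (F k x - f x) (ρ x)) (-ρ x) = v x := e.eq_of_nhds
        unfold jd
        rw [e.gradient_eq]
        simp only [e2]
      unfold J at m1 m2 m5 ⊢
      linarith
    · by_cases hx : x ∈ ball c r
      · have : ρ x = 0 := by rw [hρ, max_eq_right (by linarith [mem_ball.1 hx]), mul_zero]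
        simp only [this, neg_zero]
        exact add_nonneg (hv0 x) (le_max_right _ _)
      · have h1 : -f x ≤ min (F k x - f x) (ρ x) := le_min (by linarith [(hF k).nn x]) (by linarith [hn x, hρ0 x])
        simp only [he x hx]
        linarith [le_max_left (min (F k x - f x) (ρ x)) (-ρ x)]
    · rw [mem_ball, not_lt] at hx
      have h1 : |F k x - f x| ≤ ρ x := by
        rw [hρ, max_eq_left (by linarith)]
        by_cases h2 : dist x c ≤ 2 * r + 2
        · have h3 := hk x h2
          rw [dist_comm, Real.dist_eq] at h3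
          nlinarith
        · have h3 := hk c (mem_closedBall_self (by linarith))
          have h4 := (hF k).lip.dist_le_mul x c
          have h5 := hl.dist_le_mul x c
          rw [Real.dist_eq, abs_lt] at h3
          rw [Real.dist_eq, abs_le] at h4 h5
          rw [not_le] at h2
          have h6 : L * (2 * r) ≤ L * dist x c := mul_le_mul_of_nonneg_left (by linarith) hL
          rw [abs_le]
          constructor <;> nlinarith [h3.1, h3.2, h4.1, h4.2, h5.1, h5.2]
      rw [abs_le] at h1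
      simp only [he x (by rw [mem_ball, not_lt]; linarith), min_eq_left h1.2, max_eq_left h1.1]
      ring
  have hc : Tendsto (fun δ : ℝ => J v (ball c r)
      + ((K2 : ℝ) ^ 2 + 1) * (((r + δ) ^ d - r ^ d) * volume.real (ball (0 : E d) 1))) (𝓝[>] 0)
      (𝓝 (J v (ball c r))) := by
    refine Tendsto.mono_left (Continuous.tendsto' (by fun_prop) 0 _ ?_) nhdsWithin_le_nhds
    simp
  refine ge_of_tendsto hc ?_
  filter_upwards [Ioc_mem_nhdsGT (zero_lt_one' ℝ)] with δ hδ
  exact key δ hδ.1 hδ.2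

theorem Mn.limit (hd : 1 ≤ d) {L : ℝ≥0} {F : ℕ → E d → ℝ} (hF : ∀ k, Mn L (F k)) {f : E d → ℝ}
    (h : ∀ R : ℝ, TendstoUniformlyOn F f atTop (closedBall 0 R)) :
    Mn L f ∧ (∀ᵐ x, Tendsto (fun k => gradient (F k) x) atTop (𝓝 (gradient f x)) ∧
        ∀ᶠ k in atTop, (0 < F k x ↔ 0 < f x)) ∧
      (∀ R : ℝ, Tendsto (fun k => J (F k) (ball 0 R)) atTop (𝓝 (J f (ball 0 R)))) ∧
      ((∀ k, FB (F k) 0) → FB f 0) := by
  refine ⟨⟨cpt_lip (fun k => (hF k).lip) h, fun x => ge_of_tendsto' (cpt_pt h x) fun k => (hF k).nn x,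
    fun c r hr v K hv hv0 he => cpt_min hd hF h c hr hv hv0 he⟩, cpt_ae hd hF h,
    fun R => cpt_J hd hF h isBounded_ball, fun hb => ⟨?_, ?_⟩⟩
  · exact tendsto_nhds_unique (cpt_pt h 0) (tendsto_const_nhds.congr fun k => (hb k).1.symm)
  · obtain ⟨c, hc, H⟩ := cpt_nondeg hd
    rw [Metric.mem_closure_iff]
    intro ε hε
    by_contra hn
    push Not at hn
    obtain ⟨k, hk⟩ := (H hF h 0 (ε / 2) (by positivity) fun y hy => by
      by_contra h1
      have h2 : 0 < c * (ε / 2) := by positivity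
      have h3 := hn y (show 0 < f y by linarith [not_le.1 h1])
      rw [dist_comm] at h3
      linarith [mem_closedBall.1 hy]).exists
    obtain ⟨y, hy, h1⟩ := Metric.mem_closure_iff.1 (hb k).2 (ε / 2 / 2) (by positivity)
    exact (ne_of_gt hy) (hk y (mem_ball'.2 h1))

end Crest.Agent.R97
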