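import Crest.Agent.R97.Cpt

/-! Cyl_P (helper12): a minimiser which does not depend on the first coordinate is a minimiser in one dimension less. -/

set_option autoImplicit false
open MeasureTheory Metric Set Filter Topology
open scoped RealInnerProductSpace NNReal

namespace Crest.Agent.R97

variable {d : ℕ}

/-- forget the first coordinate -/
noncomputable def cylP : E (d + 1) →L[ℝ] E d :=
  LinearMap.toContinuousLinearMap
    { toFun := fun x => WithLp.toLp 2 fun j => x j.succ
      map_add' := fun _ _ => rfl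
      map_smul' := fun _ _ => rfl }

/-- first coordinate zero -/
noncomputable def cylI : E d →L[ℝ] E (d + 1) :=
  LinearMap.toContinuousLinearMap
    { toFun := fun y => WithLp.toLp 2 (Fin.cons 0 fun j => y j)
      map_add' := fun x y => by
        ext i
        refine Fin.cases ?_ (fun j => ?_) i <;> simp
      map_smul' := fun c y => by
        ext i
        refine Fin.cases ?_ (fun j => ?_) i <;> simp }

theorem cylP_apply (x : E (d + 1)) (j : Fin d) : cylP x j = x j.succ := rfl
theorem cylI_zero (y : E d) : cylI y 0 = 0 := rfl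
theorem cylI_succ (y : E d) (j : Fin d) : cylI y j.succ = y j := rfl
theorem cylP_cylI (y : E d) : cylP (cylI y) = y := rfl

theorem cyl_dec (x : E (d + 1)) : cylI (cylP x) + x 0 • EuclideanSpace.single 0 1 = x := by
  ext i
  refine Fin.cases ?_ (fun j => ?_) i
  · simp [cylI_zero]
  · simp [cylI_succ, cylP_apply]

theorem cyl_norm_sq (x : E (d + 1)) : ‖x‖ ^ 2 = x 0 ^ 2 + ‖cylP x‖ ^ 2 := by
  simp only [EuclideanSpace.real_norm_sq_eq, Fin.sum_univ_succ, cylP_apply]

theorem norm_cylI (y : E d) : ‖cylI y‖ = ‖y‖ := by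
  have := cyl_norm_sq (cylI y)
  rw [cylI_zero, cylP_cylI] at this
  exact (pow_left_inj₀ (norm_nonneg _) (norm_nonneg _) two_ne_zero).1 (by linarith)

theorem norm_cylP (x : E (d + 1)) : ‖cylP x‖ ≤ ‖x‖ :=
  le_of_pow_le_pow_left₀ two_ne_zero (norm_nonneg _) (by linarith [cyl_norm_sq x, sq_nonneg (x 0)])

theorem inner_cylI (x : E (d + 1)) (y : E d) : ⟪x, cylI y⟫ = ⟪cylP x, y⟫ := by
  simp only [PiLp.inner_apply, Fin.sum_univ_succ, cylI_zero, cylI_succ, cylP_apply]
  simp

theorem cyl_jd (f : E d → ℝ) (x : E (d + 1)) : jd (fun y => f (cylP y)) x = jd f (cylP x) := by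
  unfold jd
  congr 1
  by_cases hf : DifferentiableAt ℝ f (cylP x)
  · have h : HasFDerivAt (fun y => f (cylP y)) ((fderiv ℝ f (cylP x)).comp cylP) x :=
      hf.hasFDerivAt.comp x cylP.hasFDerivAt
    have e0 : cylP (EuclideanSpace.single (0 : Fin (d + 1)) (1 : ℝ)) = 0 := by
      ext j
      simp [cylP_apply]
    have e1 : ∀ i : Fin d, cylP (EuclideanSpace.single i.succ (1 : ℝ)) = EuclideanSpace.single i 1 := fun i => by
      ext j
      simp [cylP_apply, PiLp.single_apply]
    rw [norm_gradient_sq, norm_gradient_sq, Fin.sum_univ_succ]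
    simp only [pd, h.fderiv, ContinuousLinearMap.comp_apply, e0, e1, map_zero]
    simp
  · have hg : ¬DifferentiableAt ℝ (fun y => f (cylP y)) x := fun h => hf (by
      have k : DifferentiableAt ℝ (fun z : E d => cylI z + x 0 • (EuclideanSpace.single 0 1 : E (d + 1))) (cylP x) :=
        cylI.differentiableAt.add_const _
      have h' : DifferentiableAt ℝ (fun y => f (cylP y)) (cylI (cylP x) + x 0 • EuclideanSpace.single 0 1) := by
        rwa [cyl_dec]
      have e0 : cylP (EuclideanSpace.single (0 : Fin (d + 1)) (1 : ℝ)) = 0 := by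
        ext j
        simp [cylP_apply]
      simpa [Function.comp_def, cylP_cylI, e0] using h'.comp (cylP x) k)
    rw [gradient_eq_zero_of_not_differentiableAt hf, gradient_eq_zero_of_not_differentiableAt hg, norm_zero, norm_zero]

/-- the cylinder `(-T, T) × B` -/
def cylS (T : ℝ) (B : Set (E d)) : Set (E (d + 1)) := {x | x 0 ∈ Ioo (-T) T ∧ cylP x ∈ B}

theorem cyl_int (G : E d → ℝ) {T : ℝ} (hT : 0 ≤ T) (B : Set (E d)) :
    ∫ x in cylS T B, G (cylP x) = 2 * T * ∫ y in B, G y := by
  let Φ : E (d + 1) ≃ᵐ ℝ × E d := ((MeasurableEquiv.toLp 2 (Fin (d + 1) → ℝ)).symm.trans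
    (MeasurableEquiv.piFinSuccAbove (fun _ => ℝ) 0)).trans
      ((MeasurableEquiv.refl ℝ).prodCongr (MeasurableEquiv.toLp 2 (Fin d → ℝ)))
  have hΦ : MeasurePreserving Φ volume (volume.prod volume) :=
    ((MeasurePreserving.id (volume : Measure ℝ)).prod (PiLp.volume_preserving_toLp (Fin d))).comp
      ((volume_preserving_piFinSuccAbove (fun _ : Fin (d + 1) => ℝ) 0).comp (PiLp.volume_preserving_ofLp _))
  have h := hΦ.setIntegral_preimage_emb Φ.measurableEmbedding (fun z => G z.2) (Ioo (-T) T ×ˢ B)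
  rw [← Measure.prod_restrict, integral_fun_snd, measureReal_restrict_apply_univ, Real.volume_real_Ioo_of_le (by linarith),
    smul_eq_mul] at h
  rw [show 2 * T = T - -T by ring, ← h]
  rfl

theorem cylS_open (T : ℝ) {B : Set (E d)} (hB : IsOpen B) : IsOpen (cylS T B) :=
  (isOpen_Ioo.preimage (by fun_prop : Continuous fun x : E (d + 1) => x 0)).inter (hB.preimage cylP.continuous)

theorem cylS_bdd (T : ℝ) (c : E d) (r : ℝ) : Bornology.IsBounded (cylS T (ball c r)) := by
  refine (isBounded_closedBall (x := (0 : E (d + 1))) (r := T + (‖c‖ + r))).subset fun x hx => ?_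
  have h1 : |x 0| ≤ T := (abs_lt.2 hx.1).le
  have h2 : ‖cylP x‖ ≤ ‖c‖ + r := by
    have := mem_ball_iff_norm.1 hx.2
    linarith [norm_sub_norm_le (cylP x) c]
  rw [mem_closedBall_zero_iff, ← cyl_dec x]
  refine (norm_add_le _ _).trans ?_
  rw [norm_cylI, norm_smul, Real.norm_eq_abs]
  simp only [PiLp.norm_single, norm_one, mul_one]
  linarith

theorem cyl_lip {K : ℝ≥0} {f : E d → ℝ} (hf : LipschitzWith K f) : LipschitzWith K fun x : E (d + 1) => f (cylP x) :=
  LipschitzWith.of_dist_le_mul fun x y => (hf.dist_le_mul _ _).trans (mul_le_mul_of_nonneg_left (by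
    rw [dist_eq_norm, dist_eq_norm, ← map_sub]
    exact norm_cylP _) K.2)

theorem cyl_Mn {L : ℝ≥0} {w : E d → ℝ} (hu : Mn L fun x : E (d + 1) => w (cylP x)) : Mn L w := by
  have hw : LipschitzWith L w := LipschitzWith.of_dist_le_mul fun x y => by
    have := hu.lip.dist_le_mul (cylI x) (cylI y)
    rwa [cylP_cylI, cylP_cylI, dist_eq_norm (cylI x), ← map_sub, norm_cylI, ← dist_eq_norm] at this
  have w0 : ∀ y, 0 ≤ w y := fun y => hu.nn (cylI y)
  refine ⟨hw, w0, fun c r _ v K hv v0 he => ?_⟩
  have hg : LipschitzWith (K + L) fun y => v y - w y := hv.sub hw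
  obtain ⟨M, hM⟩ : ∃ M : ℝ≥0, ∀ y, |v y - w y| ≤ M := by
    obtain ⟨M, hM⟩ := (isCompact_closedBall c r).exists_bound_of_continuousOn hg.continuous.continuousOn
    refine ⟨⟨max M 0, le_max_right _ _⟩, fun y => ?_⟩
    by_cases hy : y ∈ ball c r
    · exact (hM y (ball_subset_closedBall hy)).trans (le_max_left _ _)
    · rw [he y hy, sub_self, abs_zero]
      exact le_max_right _ _
  obtain ⟨C, hC⟩ : ∃ C : ℝ, C = ((L + (M + (K + L)) : ℝ≥0) : ℝ) ^ 2 + 1 := ⟨_, rfl⟩
  have key : ∀ T : ℝ, 0 < T → 2 * T * (J w (ball c r) - J v (ball c r)) ≤ 2 * ∫ _y in ball c r, C := by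
    intro T hT
    obtain ⟨η, hη⟩ : ∃ η : E (d + 1) → ℝ, η = fun x => min (max (T + 1 - |x 0|) 0) 1 := ⟨_, rfl⟩
    have η0 : ∀ x, 0 ≤ η x := fun x => by rw [hη]; exact le_min (le_max_right _ _) zero_le_one
    have η1 : ∀ x, η x ≤ 1 := fun x => by rw [hη]; exact min_le_right _ _
    have ηl : ∀ x y, |η x - η y| ≤ dist x y := fun x y => by
      rw [hη]
      refine (abs_min_sub_min_le_max _ _ _ _).trans ?_
      rw [sub_self, abs_zero, max_eq_left (abs_nonneg _)]
      refine (abs_max_sub_max_le_abs _ _ _).trans ?_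
      rw [show T + 1 - |x 0| - (T + 1 - |y 0|) = |y 0| - |x 0| by ring, dist_comm]
      exact (abs_abs_sub_abs_le_abs_sub _ _).trans (PiLp.dist_apply_le y x 0)
    obtain ⟨V, hV⟩ : ∃ V : E (d + 1) → ℝ, V = fun x => w (cylP x) + η x * (v (cylP x) - w (cylP x)) := ⟨_, rfl⟩
    have lV : LipschitzWith (L + (M + (K + L))) V := by
      rw [hV]
      refine (cyl_lip hw).add (LipschitzWith.of_dist_le_mul fun x y => ?_)
      have a1 := (cyl_lip hg).dist_le_mul x y
      rw [Real.dist_eq] at a1 ⊢
      rw [show η x * (v (cylP x) - w (cylP x)) - η y * (v (cylP y) - w (cylP y)) =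
        (η x - η y) * (v (cylP x) - w (cylP x)) + η y * ((v (cylP x) - w (cylP x)) - (v (cylP y) - w (cylP y))) by ring]
      refine (abs_add_le _ _).trans ?_
      rw [abs_mul, abs_mul, abs_of_nonneg (η0 y)]
      have a2 := mul_le_mul (ηl x y) (hM (cylP x)) (abs_nonneg _) dist_nonneg
      have a3 := mul_le_mul (η1 y) a1 (abs_nonneg _) zero_le_one
      push_cast at a3 ⊢
      linarith
    have V0 : ∀ x, 0 ≤ V x := fun x => by
      have := mul_nonneg (η0 x) (v0 (cylP x))
      have := mul_nonneg (sub_nonneg.2 (η1 x)) (w0 (cylP x))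
      simp only [hV]
      linarith
    have o1 := cylS_open T (isOpen_ball (x := c) (ε := r))
    have o2 := cylS_open (T + 1) (isOpen_ball (x := c) (ε := r))
    have b2 := cylS_bdd (T + 1) c r
    have h1 := hu.min' b2 o2.measurableSet lV V0 fun x hx => by
      by_cases h : cylP x ∈ ball c r
      · have : T + 1 ≤ |x 0| := by
          by_contra hc
          exact hx ⟨abs_lt.1 (not_le.1 hc), h⟩
        simp only [hV, hη, max_eq_right (sub_nonpos.2 this), min_eq_left zero_le_one, zero_mul, add_zero]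
      · simp only [hV, he _ h, sub_self, mul_zero, add_zero]
    have e1 : J (fun x : E (d + 1) => w (cylP x)) (cylS (T + 1) (ball c r)) = 2 * (T + 1) * J w (ball c r) := by
      simp only [J, cyl_jd]
      exact cyl_int _ (by linarith) _
    have iC : IntegrableOn (fun _ : E (d + 1) => C) (cylS (T + 1) (ball c r)) :=
      integrableOn_const b2.measure_lt_top.ne
    have iV := integrableOn_jd lV b2
    have sub : cylS T (ball c r) ⊆ cylS (T + 1) (ball c r) := fun x hx =>
      ⟨⟨by linarith [hx.1.1], by linarith [hx.1.2]⟩, hx.2⟩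
    have h2 : ∫ x in cylS T (ball c r), (C - jd V x) ≤ ∫ x in cylS (T + 1) (ball c r), (C - jd V x) :=
      setIntegral_mono_set (iC.sub iV) (Eventually.of_forall fun x => sub_nonneg.2 (hC ▸ cpt_jd_le lV x))
        sub.eventuallyLE
    have e2 : ∫ x in cylS T (ball c r), (C - jd V x) = 2 * T * ∫ y in ball c r, (C - jd v y) := by
      rw [← cyl_int (fun y => C - jd v y) hT.le]
      refine setIntegral_congr_fun o1.measurableSet fun x hx => ?_
      have ev : V =ᶠ[𝓝 x] fun y => v (cylP y) := by
        filter_upwards [o1.mem_nhds hx] with y hy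
        have : 1 ≤ T + 1 - |y 0| := by linarith [abs_lt.2 hy.1]
        simp only [hV, hη, min_eq_right (le_max_of_le_left this)]
        ring
      simp only [← cyl_jd]
      simp only [jd, ev.gradient_eq, ev.eq_of_nhds]
    have e3 := cyl_int (fun _ : E d => C) (by linarith : 0 ≤ T + 1) (ball c r)
    have iB : IntegrableOn (fun _ : E d => C) (ball c r) := integrableOn_const measure_ball_lt_top.ne
    rw [e2, integral_sub iC iV, e3, integral_sub iB (integrableOn_jd hv isBounded_ball)] at h2
    have h3 : 0 ≤ J w (ball c r) := integral_nonneg fun x => cpt_jd_nonneg w x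
    rw [e1] at h1
    unfold J at *
    linarith
  by_contra hc
  push Not at hc
  have p : 0 < J w (ball c r) - J v (ball c r) := sub_pos.2 hc
  have := key ((|∫ _y in ball c r, C| + 1) / (J w (ball c r) - J v (ball c r))) (by positivity)
  rw [mul_assoc, div_mul_cancel₀ _ p.ne'] at this
  linarith [le_abs_self (∫ _y in ball c r, C)]

end Crest.Agent.R97
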