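import Crest.Agent.R97.Cyl_1
import Crest.Agent.R97.Cyl_P

set_option autoImplicit false
open MeasureTheory Metric Set Filter Topology
open scoped RealInnerProductSpace NNReal

namespace Crest.Agent.R97

variable {d : ℕ}

/-! Cyl: dimension reduction, dimension one, vanishing Hessian. -/

theorem flat_one : Flat 1 := cyl1_flat

/-- a cone invariant along a direction is flat -/
theorem flat_of_inv (hd : 1 ≤ d) (hF : Flat d) {L : ℝ≥0} {u : E (d + 1) → ℝ} (hu : Mn L u) (hh : Hom u)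
    (hp : ∃ x, 0 < u x) {e : E (d + 1)} (he : e ≠ 0) (hinv : ∀ x (t : ℝ), u (x + t • e) = u x) :
    ∃ e : E (d + 1), ‖e‖ = 1 ∧ ∀ x, u x = max ⟪x, e⟫ 0 := by
  obtain ⟨R, hR⟩ : ∃ R : E (d + 1) ≃ₗᵢ[ℝ] E (d + 1), R (‖e‖ • EuclideanSpace.single 0 1) = e :=
    ⟨_, Submodule.reflection_sub (by simp [norm_smul])⟩
  have n0 : ‖e‖ ≠ 0 := norm_ne_zero_iff.2 he
  have key : ∀ x, u (R x) = u (R (cylI (cylP x))) := fun x => by
    rw [← hinv (R (cylI (cylP x))) (x 0 / ‖e‖)]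
    congr 1
    conv_lhs => rw [← cyl_dec x]
    rw [map_add, ← hR, ← map_smul, smul_smul, hR, div_mul_cancel₀ _ n0]
  have hw : Mn L fun y : E d => u (R (cylI y)) := by
    refine cyl_Mn ?_
    simp only [← key]
    exact hu.rot R
  obtain ⟨x0, hx0⟩ := hp
  obtain ⟨e', h1, h2⟩ := hF L _ hw (fun r hr y => by simp only [map_smul, hh r hr])
    ⟨cylP (R.symm x0), by simpa only [← key, R.apply_symm_apply] using hx0⟩
  refine ⟨R (cylI e'), by rw [R.norm_map, norm_cylI, h1], fun x => ?_⟩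
  have := h2 (cylP (R.symm x))
  simp only [← key, R.apply_symm_apply] at this
  rw [this, ← inner_cylI, ← R.inner_map_map, R.apply_symm_apply]

theorem cyl_loc {L : ℝ≥0} {u : E d → ℝ} (hu : Mn L u) (h0 : ∀ x, 0 < u x → ∀ a b, pd a (pd b u) x = 0)
    {y : E d} (hy : 0 < u y) : ∀ᶠ z in 𝓝 y, 0 < u z ∧ gradient u z = gradient u y := by
  have ho : IsOpen {x | 0 < u x} := isOpen_lt continuous_const hu.lip.continuous
  obtain ⟨r, hr, hs⟩ := Metric.isOpen_iff.1 ho y hy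
  filter_upwards [ball_mem_nhds y hr] with z hz
  refine ⟨hs hz, ?_⟩
  ext b
  rw [gradient_apply, gradient_apply]
  refine isOpen_ball.is_const_of_fderiv_eq_zero (𝕜 := ℝ) (convex_ball y r).isPreconnected
    (fun x hx => (hara_d (hara_2 ho hu.harm (hs hx)) b).differentiableWithinAt) (fun x hx => ?_) hz (mem_ball_self hr)
  ext v
  rw [fderiv_eq_sum_pd]
  simp [h0 x (hs hx)]

theorem cyl_half {L : ℝ≥0} {u : E d → ℝ} (hu : Mn L u) (hh : Hom u)
    (h0 : ∀ x, 0 < u x → ∀ a b, pd a (pd b u) x = 0) {x : E d} (hx : 0 < u x) :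
    ⟪gradient u x, x⟫ = u x ∧ ∀ y, 0 < ⟪gradient u x, y⟫ → u y = ⟪gradient u x, y⟫ := by
  have ho : IsOpen {x | 0 < u x} := isOpen_lt continuous_const hu.lip.continuous
  have eu : ∀ y, 0 < u y → ⟪gradient u y, y⟫ = u y := fun y hy =>
    gr_euler hh ((hara_2 ho hu.harm hy).differentiableAt two_ne_zero)
  refine ⟨eu x hx, ?_⟩
  have eS : {y | 0 < u y ∧ gradient u y = gradient u x} ⊆ {y | u y = ⟪gradient u x, y⟫} := fun y hy => by
    rw [mem_ofPred_eq, ← hy.2, eu y hy.1]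
  have oS : IsOpen {y | 0 < u y ∧ gradient u y = gradient u x} := isOpen_iff_mem_nhds.2 fun y hy => by
    filter_upwards [cyl_loc hu h0 hy.1] with z hz using ⟨hz.1, hz.2.trans hy.2⟩
  have cv : Convex ℝ {y : E d | 0 < ⟪gradient u x, y⟫} :=
    convex_halfSpace_gt (innerSL ℝ (gradient u x)).toLinearMap.isLinear 0
  refine fun y hy => eS (cv.isPreconnected.subset_of_closure_inter_subset oS
    ⟨x, by rw [mem_ofPred_eq, eu x hx]; exact hx, hx, rfl⟩ (fun z hz => ?_) hy)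
  have z1 : u z = ⟪gradient u x, z⟫ :=
    closure_minimal eS (isClosed_eq hu.lip.continuous (by fun_prop)) hz.1
  have z2 : 0 < u z := z1 ▸ hz.2
  obtain ⟨w, hw1, hw2⟩ := mem_closure_iff_nhds.1 hz.1 _ (cyl_loc hu h0 z2)
  exact ⟨z2, hw1.2.symm.trans hw2.2⟩

theorem cyl_perp (hd : 1 ≤ d) (p : E (d + 1)) : ∃ e : E (d + 1), e ≠ 0 ∧ ⟪p, e⟫ = 0 := by
  have h : LinearMap.ker (innerSL ℝ p).toLinearMap ≠ ⊥ :=
    LinearMap.ker_ne_bot_of_finrank_lt (by simp; omega)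
  obtain ⟨e, h1, h2⟩ := Submodule.exists_mem_ne_zero_of_ne_bot h
  exact ⟨e, h2, h1⟩

theorem flat_of_hess (hd : 1 ≤ d) (hF : Flat d) {L : ℝ≥0} {u : E (d + 1) → ℝ} (hu : Mn L u) (hh : Hom u)
    (hp : ∃ x, 0 < u x) (h0 : ∀ x, 0 < u x → ∀ a b, pd a (pd b u) x = 0) :
    ∃ e : E (d + 1), ‖e‖ = 1 ∧ ∀ x, u x = max ⟪x, e⟫ 0 := by
  obtain ⟨x0, hx0⟩ := hp
  obtain ⟨e, he, hpe⟩ := cyl_perp hd (gradient u x0)
  obtain ⟨p1, p2⟩ := cyl_half hu hh h0 hx0
  have line : ∀ s : ℝ, u (x0 + s • e) = u x0 := fun s => by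
    have : ⟪gradient u x0, x0 + s • e⟫ = u x0 := by rw [inner_add_right, inner_smul_right, hpe, p1]; ring
    rw [p2 _ (this ▸ hx0), this]
  have step : ∀ x (t : ℝ), 0 < u x → u (x + t • e) = u x := fun x t hx => by
    obtain ⟨q1, q2⟩ := cyl_half hu hh h0 hx
    have qe : ⟪gradient u x, e⟫ = 0 := by
      by_contra hc
      have : ⟪gradient u x, x0 + ((u x0 + 1 - ⟪gradient u x, x0⟫) / ⟪gradient u x, e⟫) • e⟫ = u x0 + 1 := by
        rw [inner_add_right, inner_smul_right, div_mul_cancel₀ _ hc]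
        ring
      have h2 := q2 _ (this ▸ (by linarith : 0 < u x0 + 1))
      rw [this, line] at h2
      linarith
    have : ⟪gradient u x, x + t • e⟫ = u x := by rw [inner_add_right, inner_smul_right, qe, q1]; ring
    rw [q2 _ (this ▸ hx), this]
  refine flat_of_inv hd hF hu hh ⟨x0, hx0⟩ he fun x t => ?_
  rcases (hu.nn x).eq_or_lt with h | h
  · rcases (hu.nn (x + t • e)).eq_or_lt with h' | h'
    · rw [← h, ← h']
    · rw [← step _ (-t) h', neg_smul, add_neg_cancel_right]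
  · exact step x t h

end Crest.Agent.R97
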