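import Crest.Agent.R97.Cmp
import Crest.Agent.R97.Gr

/-! Cyl_1 (helper12): dimension one, by comparison with affine functions. -/

set_option autoImplicit false
open MeasureTheory Metric Set Filter Topology
open scoped RealInnerProductSpace NNReal

namespace Crest.Agent.R97

theorem cyl1_norm (x : E 1) : ‖x‖ = |x 0| := by
  rw [EuclideanSpace.norm_eq]
  simp [Real.sqrt_sq_eq_abs]

theorem cyl1_val {u : E 1 → ℝ} (hh : Hom u) {σ : ℝ} (hσ : σ = 1 ∨ σ = -1) {x : E 1} (hx : 0 ≤ σ * x 0) :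
    u x = σ * x 0 * u (EuclideanSpace.single 0 σ) := by
  have e : x = (σ * x 0) • (EuclideanSpace.single 0 σ : E 1) := by
    ext i
    rw [Subsingleton.elim i 0]
    rcases hσ with rfl | rfl <;> simp
  rcases hx.eq_or_lt with h | h
  · rw [← h, zero_smul] at e
    rw [← h, zero_mul, e, gr_zero hh]
  · rw [← hh _ h, ← e]

theorem cyl1_aff (c s : ℝ) : ∃ V : E 1 → ℝ, (∀ x, V x = c + s * x 0) ∧ ContDiffOn ℝ 2 V univ ∧ (∀ x, lap V x = 0) ∧
    ∀ x, ‖gradient V x‖ = |s| := by
  have h := gr_harm_aff (0 : E 1) c (fun _ => s) univ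
  refine ⟨_, fun x => by simp, h.1.of_le gr_two, fun x => h.2 x (mem_univ x), fun x => ?_⟩
  rw [cyl1_norm, gradient_apply, gr_pd_aff]

theorem cyl1_le {L : ℝ≥0} {u : E 1 → ℝ} (hu : Mn L u) (hh : Hom u) {σ : ℝ} (hσ : σ = 1 ∨ σ = -1) :
    u (EuclideanSpace.single 0 σ) ≤ 1 := by
  by_contra hc
  push Not at hc
  set a := u (EuclideanSpace.single 0 σ) with ha
  obtain ⟨V, V1, V2, V3, V4⟩ := cyl1_aff ((a - 1) / 2) ((a + 1) / 2 * σ)
  have s1 : |(a + 1) / 2 * σ| = (a + 1) / 2 := by
    rw [abs_mul, abs_of_pos (by linarith : 0 < (a + 1) / 2)]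
    rcases hσ with rfl | rfl <;> simp
  have key := hu.cmp_sub le_rfl (D := ball 0 1) isOpen_ball isBounded_ball isOpen_univ (subset_univ _) V2
    (fun x _ _ => (V3 x).ge) (fun x _ _ _ => by rw [V4, s1]; linarith) (fun x hx => ?_) 0 (mem_ball_self one_pos)
  · rw [V1, gr_zero hh] at key
    simp only [PiLp.zero_apply, mul_zero, add_zero] at key
    linarith
  have h1 : |x 0| = 1 := by rw [← cyl1_norm]; simpa using frontier_ball_subset_sphere hx
  have h2 : σ * x 0 = 1 ∨ σ * x 0 = -1 := by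
    rcases hσ with rfl | rfl <;> rcases eq_or_eq_neg_of_abs_eq h1 with h | h <;> simp [h]
  rw [V1, mul_assoc]
  rcases h2 with h | h
  · rw [cyl1_val hh hσ (by linarith), h]
    linarith
  · rw [h]
    linarith [hu.nn x]

theorem cyl1_ge {L : ℝ≥0} {u : E 1 → ℝ} (hu : Mn L u) (hh : Hom u) {σ : ℝ} (hσ : σ = 1 ∨ σ = -1)
    (h0 : 0 < u (EuclideanSpace.single 0 σ)) : 1 ≤ u (EuclideanSpace.single 0 σ) := by
  by_contra hc
  push Not at hc
  set a := u (EuclideanSpace.single 0 σ) with ha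
  obtain ⟨V, V1, V2, V3, V4⟩ := cyl1_aff ((a - 1) / 2) ((a + 1) / 2 * σ)
  have s1 : |(a + 1) / 2 * σ| = (a + 1) / 2 := by
    rw [abs_mul, abs_of_pos (by linarith : 0 < (a + 1) / 2)]
    rcases hσ with rfl | rfl <;> simp
  have s2 : σ * σ = 1 := by rcases hσ with rfl | rfl <;> norm_num
  have dist1 : ∀ x : E 1, dist x (EuclideanSpace.single 0 (σ / 2)) = |σ * x 0 - 1 / 2| := fun x => by
    rw [dist_eq_norm, cyl1_norm]
    rcases hσ with rfl | rfl
    · simp
    · rw [← abs_neg]
      congr 1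
      simp
      ring
  have key := hu.cmp_sup le_rfl (D := ball (EuclideanSpace.single 0 (σ / 2)) (1 / 2)) isOpen_ball isBounded_ball
    isOpen_univ (subset_univ _) V2 (fun x _ _ _ => (V3 x).le)
    (fun x _ _ _ => by rw [V4, s1, V3]; nlinarith) (fun x hx => ?_)
    (EuclideanSpace.single 0 (σ * ((1 - a) / 2))) ?_
  · have e : σ * (EuclideanSpace.single 0 (σ * ((1 - a) / 2)) : E 1) 0 = (1 - a) / 2 := by
      simp only [PiLp.single_apply, if_true]
      rw [← mul_assoc, s2, one_mul]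
    rw [V1, mul_assoc, e, cyl1_val hh hσ (by rw [e]; linarith), e, max_eq_right (by nlinarith)] at key
    nlinarith
  · have h1 : |σ * x 0 - 1 / 2| = 1 / 2 := by rw [← dist1]; exact frontier_ball_subset_sphere hx
    rcases eq_or_eq_neg_of_abs_eq h1 with h | h
    · have h' : σ * x 0 = 1 := by linarith
      rw [V1, mul_assoc, cyl1_val hh hσ (by linarith), h']
      exact le_max_of_le_left (by linarith)
    · have h' : σ * x 0 = 0 := by linarith
      rw [cyl1_val hh hσ h'.ge, h', zero_mul]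
      exact le_max_right _ _
  · rw [mem_ball, dist1]
    simp only [PiLp.single_apply, if_true]
    rw [← mul_assoc, s2, one_mul, abs_lt]
    constructor <;> linarith

theorem cyl1_not {L : ℝ≥0} {u : E 1 → ℝ} (hu : Mn L u) (h : ∀ x, u x = ‖x‖) : False := by
  have key := hu.min 0 1 one_pos (fun x => max ‖x‖ 1) 1 (lipschitzWith_one_norm.max_const 1)
    (fun x => le_max_of_le_right zero_le_one) (fun x hx => by
      rw [h, max_eq_left]
      simpa using hx)
  have e1 : J (fun x : E 1 => max ‖x‖ 1) (ball 0 1) = ∫ _x in ball (0 : E 1) 1, (1 : ℝ) := by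
    refine setIntegral_congr_fun measurableSet_ball fun x hx => ?_
    have ev : (fun x : E 1 => max ‖x‖ 1) =ᶠ[𝓝 x] fun _ => 1 := by
      filter_upwards [isOpen_ball.mem_nhds hx] with y hy
      exact max_eq_right (mem_ball_zero_iff.1 hy).le
    have : (0 : ℝ) < max ‖x‖ 1 := lt_max_of_lt_right one_pos
    simp only [jd, ev.gradient_eq, this, if_true]
    simp
  have e2 : J u (ball 0 1) = ∫ _x in ball (0 : E 1) 1, (2 : ℝ) := by
    refine integral_congr_ae (ae_restrict_of_ae ?_)
    filter_upwards [Measure.ae_ne volume (0 : E 1)] with x hx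
    have x0 : x 0 ≠ 0 := by
      rw [← abs_pos, ← cyl1_norm]
      exact norm_pos_iff.2 hx
    have c0 : Continuous fun y : E 1 => y 0 := by fun_prop
    have hg : ‖gradient u x‖ = 1 := by
      rcases lt_or_gt_of_ne x0 with l | l
      · obtain ⟨V, V1, -, -, V4⟩ := cyl1_aff 0 (-1)
        have ev : u =ᶠ[𝓝 x] V := by
          filter_upwards [c0.continuousAt.eventually_lt continuousAt_const l] with y hy
          rw [h, V1, cyl1_norm, abs_of_neg hy]
          ring
        rw [ev.gradient_eq, V4]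
        simp
      · obtain ⟨V, V1, -, -, V4⟩ := cyl1_aff 0 1
        have ev : u =ᶠ[𝓝 x] V := by
          filter_upwards [continuousAt_const.eventually_lt c0.continuousAt l] with y hy
          rw [h, V1, cyl1_norm, abs_of_pos hy]
          ring
        rw [ev.gradient_eq, V4]
        simp
    have : 0 < u x := by rw [h]; exact norm_pos_iff.2 hx
    simp only [jd, hg, this, if_true]
    norm_num
  rw [e1, e2, setIntegral_const, setIntegral_const, smul_eq_mul, smul_eq_mul] at key
  have : 0 < volume.real (ball (0 : E 1) 1) :=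
    ENNReal.toReal_pos (measure_ball_pos _ _ one_pos).ne' measure_ball_lt_top.ne
  linarith

theorem cyl1_fin {u : E 1 → ℝ} (hh : Hom u) {σ : ℝ} (hσ : σ = 1 ∨ σ = -1)
    (h1 : u (EuclideanSpace.single 0 σ) = 1) (h2 : u (EuclideanSpace.single 0 (-σ)) = 0) :
    ∃ e : E 1, ‖e‖ = 1 ∧ ∀ x, u x = max ⟪x, e⟫ 0 := by
  refine ⟨EuclideanSpace.single 0 σ, by rcases hσ with rfl | rfl <;> simp, fun x => ?_⟩
  have e : ⟪x, (EuclideanSpace.single 0 σ : E 1)⟫ = σ * x 0 := by
    rw [EuclideanSpace.inner_single_right]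
    simp
  rw [e]
  rcases le_total 0 (σ * x 0) with h | h
  · rw [cyl1_val hh hσ h, h1, mul_one, max_eq_left h]
  · have hσ' : -σ = 1 ∨ -σ = -1 := by rcases hσ with rfl | rfl <;> simp
    rw [cyl1_val hh hσ' (by linarith), h2, mul_zero, max_eq_right h]

theorem cyl1_flat : Flat 1 := by
  intro L u hu hh hp
  have z : ∀ {σ : ℝ}, (σ = 1 ∨ σ = -1) → u (EuclideanSpace.single 0 σ) = 0 ∨ u (EuclideanSpace.single 0 σ) = 1 :=
    fun hσ => (hu.nn _).eq_or_lt.imp Eq.symm fun h => le_antisymm (cyl1_le hu hh hσ) (cyl1_ge hu hh hσ h)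
  have p : ∀ x : E 1, 0 ≤ x 0 → u x = x 0 * u (EuclideanSpace.single 0 1) := fun x hx => by
    simpa using cyl1_val hh (Or.inl rfl) (x := x) (by simpa using hx)
  have m : ∀ x : E 1, x 0 ≤ 0 → u x = -x 0 * u (EuclideanSpace.single 0 (-1)) := fun x hx => by
    simpa using cyl1_val hh (Or.inr rfl) (x := x) (by simpa using hx)
  rcases z (Or.inl rfl) with a | a <;> rcases z (Or.inr rfl) with b | b
  · obtain ⟨x, hx⟩ := hp
    rcases le_total 0 (x 0) with h | h
    · rw [p x h, a, mul_zero] at hx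
      exact absurd hx (lt_irrefl _)
    · rw [m x h, b, mul_zero] at hx
      exact absurd hx (lt_irrefl _)
  · exact cyl1_fin hh (Or.inr rfl) b (by simpa using a)
  · exact cyl1_fin hh (Or.inl rfl) a b
  · refine (cyl1_not hu fun x => ?_).elim
    rw [cyl1_norm]
    rcases le_total 0 (x 0) with h | h
    · rw [p x h, a, mul_one, abs_of_nonneg h]
    · rw [m x h, b, mul_one, abs_of_nonpos h]

end Crest.Agent.R97
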