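import Mathlib
import Crest.Prelude.Def_OnePhase

/-! Definitions for S0128 (one-phase cones are flat in dimension ≤ 6). FROZEN: do not edit. -/

set_option autoImplicit false
open MeasureTheory Metric Set
open scoped RealInnerProductSpace NNReal

namespace Crest.Agent.R97

abbrev E (d : ℕ) := EuclideanSpace ℝ (Fin d)

variable {d : ℕ}

/-- energy density -/
noncomputable def jd (u : E d → ℝ) (x : E d) : ℝ :=
  ‖gradient u x‖ ^ 2 + (if 0 < u x then 1 else 0)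

/-- one-phase energy on a set -/
noncomputable def J (u : E d → ℝ) (B : Set (E d)) : ℝ := ∫ x in B, jd u x

/-- Lipschitz global minimisers among Lipschitz competitors -/
structure Mn (L : ℝ≥0) (u : E d → ℝ) : Prop where
  lip : LipschitzWith L u
  nn : ∀ x, 0 ≤ u x
  min : ∀ (c : E d) (r : ℝ), 0 < r → ∀ (v : E d → ℝ) (K : ℝ≥0), LipschitzWith K v →
    (∀ x, 0 ≤ v x) → (∀ x, x ∉ ball c r → v x = u x) → J u (ball c r) ≤ J v (ball c r)

def Hom (u : E d → ℝ) : Prop := ∀ r : ℝ, 0 < r → ∀ x, u (r • x) = r * u x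

/-- the theorem in dimension `d` for the Lipschitz class -/
def Flat (d : ℕ) : Prop :=
  ∀ (L : ℝ≥0) (u : E d → ℝ), Mn L u → Hom u → (∃ x, 0 < u x) →
    ∃ e : E d, ‖e‖ = 1 ∧ ∀ x, u x = max ⟪x, e⟫ 0

/-- free boundary point -/
def FB (u : E d → ℝ) (z : E d) : Prop := u z = 0 ∧ z ∈ closure {x | 0 < u x}

/-- blow-up `u (z + r y) / r` -/
noncomputable def bl (u : E d → ℝ) (z : E d) (r : ℝ) (y : E d) : ℝ := u (z + r • y) / r

/-- partial derivative -/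
noncomputable def pd (i : Fin d) (f : E d → ℝ) (x : E d) : ℝ :=
  fderiv ℝ f x (EuclideanSpace.single i 1)

/-- Laplacian in coordinates -/
noncomputable def lap (f : E d → ℝ) (x : E d) : ℝ := ∑ i, pd i (pd i f) x

/-- divergence in coordinates -/
noncomputable def dv (W : E d → E d) (x : E d) : ℝ := ∑ i, pd i (fun y => W y i) x

/-- smooth and harmonic on the (open) set `U` -/
def Harm (f : E d → ℝ) (U : Set (E d)) : Prop :=
  ContDiffOn ℝ (⊤ : ℕ∞) f U ∧ ∀ x ∈ U, lap f x = 0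

/-- `(1 - |∇u|²) / (2u)`; tends to the mean curvature at the free boundary -/
noncomputable def rho (u : E d → ℝ) (x : E d) : ℝ := (1 - ‖gradient u x‖ ^ 2) / (2 * u x)

/-- third-order jets -/
structure Jet (d : ℕ) where
  w : E d
  H : ℝ
  A : Fin d → Fin d → ℝ
  T : Fin d → Fin d → Fin d → ℝ

/-- the cubic polynomial of a jet -/
noncomputable def Jet.P (j : Jet d) (y : E d) : ℝ :=
  ⟪j.w, y⟫ + (∑ a, ∑ b, j.A a b * y a * y b) / 2 + (∑ a, ∑ b, ∑ c, j.T a b c * y a * y b * y c) / 6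

/-- jets of smooth solutions at a free boundary point -/
structure Jet.IsB (j : Jet d) : Prop where
  w1 : ‖j.w‖ = 1
  Asym : ∀ a b, j.A a b = j.A b a
  Atr : ∑ a, j.A a a = 0
  Aw : ∀ a, ∑ b, j.A a b * j.w b = - j.H * j.w a
  Tsym1 : ∀ a b c, j.T a b c = j.T b a c
  Tsym2 : ∀ a b c, j.T a b c = j.T a c b
  Ttr : ∀ c, ∑ a, j.T a a c = 0
  Tw : ∀ v v' : E d, ⟪j.w, v⟫ = 0 → ⟪j.w, v'⟫ = 0 →
    ∑ a, ∑ b, ∑ c, j.T a b c * j.w a * v b * v' c
      = - ∑ b, ∑ c, ((∑ a, j.A b a * j.A a c) + j.H * j.A b c) * v b * v' c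

def Jet.Bdd (j : Jet d) (C : ℝ) : Prop :=
  |j.H| ≤ C ∧ (∀ a b, |j.A a b| ≤ C) ∧ ∀ a b c, |j.T a b c| ≤ C

/-- the jet of `u` at `x` is `ε`-close to `j` -/
def Jet.Near (j : Jet d) (u : E d → ℝ) (x : E d) (ε : ℝ) : Prop :=
  (∀ a, |pd a u x - j.w a| ≤ ε) ∧ (∀ a b, |pd a (pd b u) x - j.A a b| ≤ ε) ∧
    (∀ a b c, |pd a (pd b (pd c u)) x - j.T a b c| ≤ ε) ∧ |rho u x - j.H| ≤ ε

/-- `(f - ε)₊ ≤ u ≤ (f + ε)₊` on `S` -/
def Trap (u f : E d → ℝ) (ε : ℝ) (S : Set (E d)) : Prop :=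
  ∀ y ∈ S, max (f y - ε) 0 ≤ u y ∧ u y ≤ max (f y + ε) 0

/-- near the free boundary (on the unit sphere) the jets are close to bounded boundary jets -/
def JetsNear (u : E d → ℝ) : Prop :=
  ∃ C : ℝ, ∀ ε : ℝ, 0 < ε → ∃ δ : ℝ, 0 < δ ∧ ∀ x : E d, ‖x‖ = 1 → 0 < u x → u x < δ →
    ∃ j : Jet d, j.IsB ∧ j.Bdd C ∧ j.Near u x ε

end Crest.Agent.R97
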