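import Crest.Agent.R97.Wei
import Crest.Agent.R97.Cyl

set_option autoImplicit false
open MeasureTheory Metric Set Filter Topology
open scoped RealInnerProductSpace NNReal

namespace Crest.Agent.R97

variable {d : ℕ}

/-! Fl0: flatness at some scale at every free boundary point away from the vertex. -/

/-- blow-up limits of a cone at `z` are invariant along `z` -/
theorem fl0_inv {L : ℝ≥0} {u : E d → ℝ} (hu : Mn L u) (hh : Hom u) (z : E d) {r : ℕ → ℝ} (hr : ∀ k, 0 < r k)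
    (hr0 : Tendsto r atTop (𝓝 0)) {f : E d → ℝ}
    (h : ∀ R : ℝ, TendstoUniformlyOn (fun k => bl u z (r k)) f atTop (closedBall 0 R)) (x : E d) (t : ℝ) :
    f (x + t • z) = f x := by
  have h1 : Tendsto (fun k => 1 + r k * t) atTop (𝓝 1) := by
    simpa using (hr0.mul_const t).const_add 1
  have h2 : Tendsto (fun k => (1 + r k * t)⁻¹ • x) atTop (𝓝 x) := by
    simpa using (h1.inv₀ one_ne_zero).smul_const x
  have h3 : Tendsto (fun k => bl u z (r k) ((1 + r k * t)⁻¹ • x)) atTop (𝓝 (f x)) := by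
    have h4 : Tendsto (fun k => (L : ℝ) * dist ((1 + r k * t)⁻¹ • x) x) atTop (𝓝 0) := by
      simpa using (tendsto_iff_dist_tendsto_zero.1 h2).const_mul (L : ℝ)
    refine (cpt_pt h x).congr_dist (squeeze_zero (fun _ => dist_nonneg) (fun k => ?_) h4)
    rw [dist_comm]
    exact (hu.bl z (hr k)).lip.dist_le_mul _ _
  have h5 := h1.mul h3
  rw [one_mul] at h5
  refine tendsto_nhds_unique (cpt_pt h (x + t • z)) (h5.congr' ?_)
  filter_upwards [h1.eventually (lt_mem_nhds zero_lt_one)] with k hk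
  have e : z + r k • (x + t • z) = (1 + r k * t) • (z + r k • (1 + r k * t)⁻¹ • x) := by
    rw [smul_add, smul_add, smul_comm (1 + r k * t) (r k), smul_inv_smul₀ hk.ne', add_smul, one_smul, smul_smul]
    abel
  unfold bl
  rw [e, hh _ hk, mul_div_assoc]

theorem flat_scale (hd : 1 ≤ d) (hF : Flat d) {L : ℝ≥0} {u : E (d + 1) → ℝ} (hu : Mn L u) (hh : Hom u)
    {z : E (d + 1)} (hz0 : z ≠ 0) (hz : FB u z) {ε : ℝ} (hε : 0 < ε) :
    ∃ (r : ℝ) (e : E (d + 1)), 0 < r ∧ r ≤ ε ∧ ‖e‖ = 1 ∧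
      Trap (bl u z r) (fun y => ⟪e, y⟫) ε (closedBall 0 1) := by
  have hd1 : 1 ≤ d + 1 := by omega
  obtain ⟨r, hr, hrε, hr0⟩ : ∃ r : ℕ → ℝ, (∀ k, 0 < r k) ∧ (∀ k, r k ≤ ε) ∧ Tendsto r atTop (𝓝 0) := by
    refine ⟨fun k => ε * (1 / ((k : ℝ) + 1)), fun k => by positivity, fun k => ?_, ?_⟩
    · refine mul_le_of_le_one_right hε.le ?_
      rw [div_le_one (by positivity)]
      linarith [(Nat.cast_nonneg k : (0 : ℝ) ≤ k)]
    · simpa using (tendsto_one_div_add_atTop_nhds_zero_nat (𝕜 := ℝ)).const_mul ε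
  obtain ⟨φ, f, hφ, h⟩ := exists_subseq (F := fun k => bl u z (r k)) (fun k => (hu.bl z (hr k)).lip)
    fun k => (hz.bl (hr k)).1
  have hr0' : Tendsto (fun k => r (φ k)) atTop (𝓝 0) := hr0.comp hφ.tendsto_atTop
  have hM : ∀ k, Mn L (bl u z (r (φ k))) := fun k => hu.bl z (hr _)
  obtain ⟨hf, -, -, hb⟩ := Mn.limit hd1 hM h
  obtain ⟨x0, hx0, -⟩ := Metric.mem_closure_iff.1 (hb fun k => hz.bl (hr _)).2 1 one_pos
  obtain ⟨e, he, hfe⟩ := flat_of_inv hd hF hf (blowup_hom hd1 hu hz.1 (fun k => hr (φ k)) hr0' h) ⟨x0, hx0⟩ hz0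
    (fl0_inv hu hh z (fun k => hr (φ k)) hr0' h)
  obtain ⟨c, hc, H⟩ := nondeg hd1
  obtain ⟨k, hk⟩ := (Metric.tendstoUniformlyOn_iff.1 (h (1 + ε / 2)) (min (ε / 2) (c * (ε / 2)))
    (by positivity)).exists
  refine ⟨r (φ k), e, hr _, hrε _, he, fun y hy => ?_⟩
  have h1 := hk y (closedBall_subset_closedBall (by linarith) hy)
  rw [Real.dist_eq, abs_lt, hfe, real_inner_comm] at h1
  have h2 := min_le_left (ε / 2) (c * (ε / 2))
  have h3 := le_max_left ⟪e, y⟫ 0
  refine ⟨max_le (by linarith [h1.2]) ((hM k).nn y), ?_⟩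
  by_cases h4 : -(ε / 2) ≤ ⟪e, y⟫
  · refine le_max_of_le_left ?_
    rcases le_total ⟪e, y⟫ 0 with h5 | h5
    · rw [max_eq_right h5] at h1
      linarith [h1.1]
    · rw [max_eq_left h5] at h1
      linarith [h1.1]
  · refine le_max_of_le_right (le_of_eq (H L _ (hM k) y (ε / 2) (by positivity) (fun w hw => ?_) y
      (mem_ball_self (by positivity))))
    have h5 := hk w (by
      rw [mem_closedBall] at hy hw ⊢
      linarith [dist_triangle w y 0])
    have h6 : ⟪w, e⟫ ≤ 0 := by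
      have h7 : ⟪w - y, e⟫ ≤ ‖w - y‖ * ‖e‖ := real_inner_le_norm _ _
      rw [inner_sub_left, he, mul_one, real_inner_comm e y] at h7
      rw [mem_closedBall, dist_eq_norm] at hw
      linarith [not_le.1 h4]
    rw [Real.dist_eq, abs_lt, hfe, max_eq_right h6] at h5
    linarith [h5.1, min_le_right (ε / 2) (c * (ε / 2))]

end Crest.Agent.R97
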