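import Crest.Agent.R97.Defs

/-! R97/Har_A (part of Har, sub-lead helper5; keep the statements; aux names `hara_*`): calculus of `pd`, `lap`, `Harm`.
Hints: `Filter.EventuallyEq.fderiv`, `ContDiffAt.fderiv_right`, `ContDiffAt.eventually`, `ContDiffAt.isSymmSndFDerivAt`
(see R219/MeanK for the global versions). -/

set_option autoImplicit false
open MeasureTheory Metric Set Filter Topology
open scoped RealInnerProductSpace NNReal

namespace Crest.Agent.R97

variable {d : ℕ}

theorem Harm.mono {f : E d → ℝ} {U V : Set (E d)} (h : Harm f U) (hV : V ⊆ U) : Harm f V :=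
  ⟨h.1.mono hV, fun x hx => h.2 x (hV hx)⟩

theorem pd_congr {f g : E d → ℝ} {x : E d} (h : f =ᶠ[𝓝 x] g) (i : Fin d) : pd i f =ᶠ[𝓝 x] pd i g := by
  filter_upwards [h.fderiv (𝕜 := ℝ)] with y hy
  simp only [pd, hy]

theorem lap_congr {f g : E d → ℝ} {x : E d} (h : f =ᶠ[𝓝 x] g) : lap f x = lap g x := by
  unfold lap
  exact Finset.sum_congr rfl fun i _ => (pd_congr (pd_congr h i) i).self_of_nhds

theorem Harm.congr {f g : E d → ℝ} {U : Set (E d)} (hU : IsOpen U) (hf : Harm f U) (h : ∀ x ∈ U, g x = f x) :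
    Harm g U := by
  refine ⟨hf.1.congr h, fun x hx => ?_⟩
  rw [← hf.2 x hx]
  refine lap_congr ?_
  filter_upwards [hU.mem_nhds hx] with y hy using h y hy

theorem contDiffAt_pd {m n : WithTop ℕ∞} {f : E d → ℝ} {x : E d} (hf : ContDiffAt ℝ n f x) (hmn : m + 1 ≤ n)
    (i : Fin d) : ContDiffAt ℝ m (pd i f) x := by
  exact (hf.fderiv_right hmn).clm_apply contDiffAt_const

theorem contDiffOn_pd {m n : WithTop ℕ∞} {f : E d → ℝ} {U : Set (E d)} (hU : IsOpen U) (hf : ContDiffOn ℝ n f U)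
    (hmn : m + 1 ≤ n) (i : Fin d) : ContDiffOn ℝ m (pd i f) U := by
  exact fun x hx => (contDiffAt_pd (hf.contDiffAt (hU.mem_nhds hx)) hmn i).contDiffWithinAt

theorem contDiff_pd {m n : WithTop ℕ∞} {f : E d → ℝ} (hf : ContDiff ℝ n f) (hmn : m + 1 ≤ n) (i : Fin d) :
    ContDiff ℝ m (pd i f) := by
  exact contDiff_iff_contDiffAt.2 fun x => contDiffAt_pd hf.contDiffAt hmn i

theorem contDiff_lap {f : E d → ℝ} (hf : ContDiff ℝ (⊤ : ℕ∞) f) : ContDiff ℝ (⊤ : ℕ∞) (lap f) := by
  have h : ((⊤ : ℕ∞) : WithTop ℕ∞) + 1 ≤ (⊤ : ℕ∞) := le_rfl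
  exact ContDiff.sum fun i _ => contDiff_pd (contDiff_pd hf h i) h i

theorem continuousOn_lap {f : E d → ℝ} {U : Set (E d)} (hU : IsOpen U) (hf : ContDiffOn ℝ 2 f U) :
    ContinuousOn (lap f) U := by
  refine continuousOn_finsetSum _ fun i _ => ?_
  have h1 : ContDiffOn ℝ 1 (pd i f) U := contDiffOn_pd hU hf (by norm_num) i
  have h2 : ContDiffOn ℝ 0 (pd i (pd i f)) U := contDiffOn_pd hU h1 (by norm_num) i
  exact h2.continuousOn

theorem tsupport_pd (f : E d → ℝ) (i : Fin d) : tsupport (pd i f) ⊆ tsupport f := by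
  refine le_trans (closure_mono fun x hx => ?_) (tsupport_fderiv_subset ℝ (f := f))
  intro h
  exact hx (by simp [pd, h])

theorem tsupport_lap (f : E d → ℝ) : tsupport (lap f) ⊆ tsupport f := by
  refine closure_minimal (fun x hx => ?_) (isClosed_tsupport f)
  by_contra h
  refine hx (Finset.sum_eq_zero fun i _ => ?_)
  by_contra h2
  exact h (tsupport_pd f i (tsupport_pd _ i (subset_tsupport _ h2)))

theorem fderiv_eq_sum_pd (f : E d → ℝ) (x v : E d) : fderiv ℝ f x v = ∑ i, v i * pd i f x := by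
  have h : v = ∑ i, v i • EuclideanSpace.single i (1 : ℝ) := by
    ext j
    simp [Finset.sum_apply, Pi.single_apply]
  conv_lhs => rw [h]
  simp [pd, map_sum]

theorem pd_const (c : ℝ) (i : Fin d) (x : E d) : pd i (fun _ => c) x = 0 := by
  simp [pd]

theorem pd_coord (i j : Fin d) (x : E d) : pd i (fun y => y j) x = if i = j then 1 else 0 := by
  have h : HasFDerivAt (fun y : E d => y j) (EuclideanSpace.proj j : E d →L[ℝ] ℝ) x :=
    (EuclideanSpace.proj j : E d →L[ℝ] ℝ).hasFDerivAt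
  rw [pd, h.fderiv]
  simp [eq_comm]

theorem pd_add {f g : E d → ℝ} {x : E d} (hf : DifferentiableAt ℝ f x) (hg : DifferentiableAt ℝ g x) (i : Fin d) :
    pd i (fun y => f y + g y) x = pd i f x + pd i g x := by
  simp only [pd]
  rw [fderiv_fun_add hf hg]
  rfl

theorem pd_sub {f g : E d → ℝ} {x : E d} (hf : DifferentiableAt ℝ f x) (hg : DifferentiableAt ℝ g x) (i : Fin d) :
    pd i (fun y => f y - g y) x = pd i f x - pd i g x := by
  simp only [pd]
  rw [fderiv_fun_sub hf hg]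
  rfl

theorem pd_mul {f g : E d → ℝ} {x : E d} (hf : DifferentiableAt ℝ f x) (hg : DifferentiableAt ℝ g x) (i : Fin d) :
    pd i (fun y => f y * g y) x = pd i f x * g x + f x * pd i g x := by
  simp only [pd]
  rw [fderiv_fun_mul hf hg]
  simp
  ring

/-- no differentiability needed (`fderiv_const_smul_field`) -/
theorem pd_const_mul (c : ℝ) (f : E d → ℝ) (i : Fin d) (x : E d) : pd i (fun y => c * f y) x = c * pd i f x := by
  have h := congrFun (fderiv_const_smul_field (𝕜 := ℝ) (f := f) c) x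
  have h2 : (fun y => c * f y) = c • f := rfl
  simp only [pd]
  rw [h2, h]
  rfl

theorem pd_sum {ι : Type*} (s : Finset ι) {f : ι → E d → ℝ} {x : E d} (hf : ∀ a ∈ s, DifferentiableAt ℝ (f a) x)
    (i : Fin d) : pd i (fun y => ∑ a ∈ s, f a y) x = ∑ a ∈ s, pd i (f a) x := by
  simp only [pd]
  rw [fderiv_fun_sum hf]
  simp

/-- no differentiability needed (`fderiv_comp_smul`, `fderiv_comp_add_left`) -/
theorem pd_shift (f : E d → ℝ) (z : E d) (c : ℝ) (i : Fin d) (y : E d) :
    pd i (fun y => f (z + c • y)) y = c * pd i f (z + c • y) := by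
  have h1 := fderiv_comp_smul (𝕜 := ℝ) (f := fun w => f (z + w)) (x := y) c
  have h2 := fderiv_comp_add_left (𝕜 := ℝ) (f := f) (x := c • y) z
  simp only [pd]
  rw [h1, h2]
  rfl

theorem lap_shift (f : E d → ℝ) (z : E d) (c : ℝ) (y : E d) :
    lap (fun y => f (z + c • y)) y = c ^ 2 * lap f (z + c • y) := by
  unfold lap
  rw [Finset.mul_sum]
  refine Finset.sum_congr rfl fun i _ => ?_
  have h : pd i (fun y => f (z + c • y)) = fun y => c * pd i f (z + c • y) := funext (pd_shift f z c i)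
  rw [h, pd_const_mul, pd_shift]
  ring

theorem hara_ev {f : E d → ℝ} {x : E d} (hf : ContDiffAt ℝ 2 f x) : ∀ᶠ y in 𝓝 x, DifferentiableAt ℝ f y := by
  filter_upwards [hf.eventually (by simp)] with y hy using hy.differentiableAt (by norm_num)

theorem hara_d {f : E d → ℝ} {x : E d} (hf : ContDiffAt ℝ 2 f x) (i : Fin d) : DifferentiableAt ℝ (pd i f) x :=
  (contDiffAt_pd (m := 1) hf (by norm_num) i).differentiableAt (by norm_num)

theorem lap_add {f g : E d → ℝ} {x : E d} (hf : ContDiffAt ℝ 2 f x) (hg : ContDiffAt ℝ 2 g x) :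
    lap (fun y => f y + g y) x = lap f x + lap g x := by
  unfold lap
  rw [← Finset.sum_add_distrib]
  refine Finset.sum_congr rfl fun i _ => ?_
  have h : pd i (fun y => f y + g y) =ᶠ[𝓝 x] fun y => pd i f y + pd i g y := by
    filter_upwards [hara_ev hf, hara_ev hg] with y h1 h2 using pd_add h1 h2 i
  rw [(pd_congr h i).self_of_nhds, pd_add (hara_d hf i) (hara_d hg i)]

theorem lap_sub {f g : E d → ℝ} {x : E d} (hf : ContDiffAt ℝ 2 f x) (hg : ContDiffAt ℝ 2 g x) :
    lap (fun y => f y - g y) x = lap f x - lap g x := by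
  unfold lap
  rw [← Finset.sum_sub_distrib]
  refine Finset.sum_congr rfl fun i _ => ?_
  have h : pd i (fun y => f y - g y) =ᶠ[𝓝 x] fun y => pd i f y - pd i g y := by
    filter_upwards [hara_ev hf, hara_ev hg] with y h1 h2 using pd_sub h1 h2 i
  rw [(pd_congr h i).self_of_nhds, pd_sub (hara_d hf i) (hara_d hg i)]

theorem lap_const_mul (c : ℝ) (f : E d → ℝ) (x : E d) : lap (fun y => c * f y) x = c * lap f x := by
  unfold lap
  rw [Finset.mul_sum]
  refine Finset.sum_congr rfl fun i _ => ?_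
  have h : pd i (fun y => c * f y) = fun y => c * pd i f y := funext (pd_const_mul c f i)
  rw [h, pd_const_mul]

theorem lap_mul {f g : E d → ℝ} {x : E d} (hf : ContDiffAt ℝ 2 f x) (hg : ContDiffAt ℝ 2 g x) :
    lap (fun y => f y * g y) x = lap f x * g x + 2 * ∑ i, pd i f x * pd i g x + f x * lap g x := by
  unfold lap
  rw [Finset.sum_mul, Finset.mul_sum, Finset.mul_sum, ← Finset.sum_add_distrib, ← Finset.sum_add_distrib]
  refine Finset.sum_congr rfl fun i _ => ?_
  have h : pd i (fun y => f y * g y) =ᶠ[𝓝 x] fun y => pd i f y * g y + f y * pd i g y := by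
    filter_upwards [hara_ev hf, hara_ev hg] with y h1 h2 using pd_mul h1 h2 i
  have hf1 := (hara_ev hf).self_of_nhds
  have hg1 := (hara_ev hg).self_of_nhds
  rw [(pd_congr h i).self_of_nhds, pd_add ((hara_d hf i).fun_mul hg1) (hf1.fun_mul (hara_d hg i)),
    pd_mul (hara_d hf i) hg1, pd_mul hf1 (hara_d hg i)]
  ring

theorem pd_norm_sq (c : E d) (i : Fin d) (x : E d) : pd i (fun y => ‖y - c‖ ^ 2) x = 2 * (x i - c i) := by
  have h := ((hasFDerivAt_id (𝕜 := ℝ) x).sub_const c).norm_sq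
  simp only [id] at h
  rw [pd, h.fderiv]
  simp [EuclideanSpace.inner_single_right]

theorem lap_norm_sq (c x : E d) : lap (fun y => ‖y - c‖ ^ 2) x = 2 * d := by
  unfold lap
  have h : ∀ i : Fin d, pd i (pd i fun y => ‖y - c‖ ^ 2) x = 2 := by
    intro i
    have h1 : pd i (fun y => ‖y - c‖ ^ 2) = fun y => 2 * (y i - c i) := funext (pd_norm_sq c i)
    have h2 : DifferentiableAt ℝ (fun y : E d => y i) x := (EuclideanSpace.proj i : E d →L[ℝ] ℝ).differentiableAt
    rw [h1, pd_const_mul, pd_sub h2 (differentiableAt_const _), pd_coord, pd_const]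
    simp
  simp [h, mul_comm]

theorem pd_comm {f : E d → ℝ} {x : E d} (hf : ContDiffAt ℝ 2 f x) (i j : Fin d) :
    pd i (pd j f) x = pd j (pd i f) x := by
  have hd : DifferentiableAt ℝ (fderiv ℝ f) x :=
    (hf.fderiv_right (m := 1) (by norm_num)).differentiableAt (by norm_num)
  have key : ∀ a b : Fin d, pd a (pd b f) x
      = fderiv ℝ (fderiv ℝ f) x (EuclideanSpace.single a 1) (EuclideanSpace.single b 1) := by
    intro a b
    have h : pd b f = fun y => fderiv ℝ f y (EuclideanSpace.single b 1) := rfl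
    rw [pd, h, fderiv_clm_apply hd (differentiableAt_const _)]
    simp
  rw [key, key]
  exact (hf.isSymmSndFDerivAt (by simp)).eq _ _

theorem hara_le (n : ℕ) : (n : WithTop ℕ∞) ≤ (⊤ : ℕ∞) := by exact_mod_cast le_top

theorem hara_2 {f : E d → ℝ} {U : Set (E d)} (hU : IsOpen U) (hf : Harm f U) {x : E d} (hx : x ∈ U) :
    ContDiffAt ℝ 2 f x :=
  (hf.1.contDiffAt (hU.mem_nhds hx)).of_le (hara_le 2)

theorem Harm.add {f g : E d → ℝ} {U : Set (E d)} (hU : IsOpen U) (hf : Harm f U) (hg : Harm g U) :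
    Harm (fun x => f x + g x) U := by
  refine ⟨hf.1.add hg.1, fun x hx => ?_⟩
  rw [lap_add (hara_2 hU hf hx) (hara_2 hU hg hx), hf.2 x hx, hg.2 x hx, add_zero]

theorem Harm.sub {f g : E d → ℝ} {U : Set (E d)} (hU : IsOpen U) (hf : Harm f U) (hg : Harm g U) :
    Harm (fun x => f x - g x) U := by
  refine ⟨hf.1.sub hg.1, fun x hx => ?_⟩
  rw [lap_sub (hara_2 hU hf hx) (hara_2 hU hg hx), hf.2 x hx, hg.2 x hx, sub_zero]

theorem Harm.const_mul {f : E d → ℝ} {U : Set (E d)} (hU : IsOpen U) (hf : Harm f U) (c : ℝ) :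
    Harm (fun x => c * f x) U := by
  have _ := hU
  refine ⟨contDiffOn_const.mul hf.1, fun x hx => ?_⟩
  rw [lap_const_mul, hf.2 x hx, mul_zero]

theorem harm_const (c : ℝ) (U : Set (E d)) : Harm (fun _ => c) U := by
  refine ⟨contDiffOn_const, fun x _ => Finset.sum_eq_zero fun i _ => ?_⟩
  have h : pd i (fun _ : E d => c) = fun _ => 0 := funext (pd_const c i)
  rw [h, pd_const]

theorem Harm.sum {ι : Type*} (s : Finset ι) {f : ι → E d → ℝ} {U : Set (E d)} (hU : IsOpen U)
    (hf : ∀ a ∈ s, Harm (f a) U) : Harm (fun x => ∑ a ∈ s, f a x) U := by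
  classical
  induction s using Finset.induction_on with
  | empty => simpa using harm_const 0 U
  | insert a s ha ih =>
    simp only [Finset.sum_insert ha]
    exact (hf a (Finset.mem_insert_self _ _)).add hU (ih fun b hb => hf b (Finset.mem_insert_of_mem hb))

theorem Harm.pd {f : E d → ℝ} {U : Set (E d)} (hU : IsOpen U) (hf : Harm f U) (i : Fin d) :
    Harm (pd i f) U := by
  have htop : ((⊤ : ℕ∞) : WithTop ℕ∞) + 1 ≤ (⊤ : ℕ∞) := le_rfl
  have hs : ∀ j, ContDiffOn ℝ (⊤ : ℕ∞) (Crest.Agent.R97.pd j f) U := fun j => contDiffOn_pd hU hf.1 htop j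
  refine ⟨hs i, fun x hx => ?_⟩
  have h1 : ∀ j, Crest.Agent.R97.pd j (Crest.Agent.R97.pd j (Crest.Agent.R97.pd i f)) x
      = Crest.Agent.R97.pd i (Crest.Agent.R97.pd j (Crest.Agent.R97.pd j f)) x := by
    intro j
    have h2 : Crest.Agent.R97.pd j (Crest.Agent.R97.pd i f) =ᶠ[𝓝 x] Crest.Agent.R97.pd i (Crest.Agent.R97.pd j f) := by
      filter_upwards [hU.mem_nhds hx] with y hy using pd_comm (hara_2 hU hf hy) j i
    rw [(pd_congr h2 j).self_of_nhds]
    exact pd_comm (((hs j).contDiffAt (hU.mem_nhds hx)).of_le (hara_le 2)) j i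
  unfold lap
  simp only [h1]
  rw [← pd_sum Finset.univ fun j _ => hara_d (((hs j).contDiffAt (hU.mem_nhds hx)).of_le (hara_le 2)) j]
  have h3 : (fun y => ∑ j, Crest.Agent.R97.pd j (Crest.Agent.R97.pd j f) y) =ᶠ[𝓝 x] fun _ => 0 := by
    filter_upwards [hU.mem_nhds hx] with y hy using hf.2 y hy
  rw [(pd_congr h3 i).self_of_nhds, pd_const]

theorem Harm.shift {f : E d → ℝ} {U : Set (E d)} (hf : Harm f U) (z : E d) (c : ℝ) :
    Harm (fun y => f (z + c • y)) ((fun y => z + c • y) ⁻¹' U) := by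
  refine ⟨hf.1.comp (contDiff_const.add (contDiff_id.const_smul c)).contDiffOn fun y hy => hy, fun y hy => ?_⟩
  rw [lap_shift, hf.2 _ hy, mul_zero]

/-- rescaling to the unit ball -/
theorem Harm.unit {f : E d → ℝ} {x : E d} {r : ℝ} (hr : 0 < r) (hf : Harm f (ball x r)) :
    Harm (fun y => f (x + r • y)) (ball 0 1) := by
  refine (hf.shift x r).mono fun y hy => ?_
  rw [mem_ball_zero_iff] at hy
  simp only [mem_preimage, mem_ball, dist_eq_norm, add_sub_cancel_left, norm_smul, Real.norm_eq_abs, abs_of_pos hr]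
  nlinarith

end Crest.Agent.R97
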