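import Crest.Agent.R97.Har_M

/-! R97/Har_D (part of Har, sub-lead helper5; keep the statement; aux names `hard_*`): approximate Dirichlet problem.
Polynomials: `R230.Pol`, `R230.ev`, `R230.lap`, `R230.nsq` (R230/Defs, R230/Poly; they want `[NeZero d]`); `pd i (ev P) = ev (pderiv i P)`,
`lap (ev P) = ev (R230.lap P)`, `ev P` is smooth.  Stone–Weierstrass on the compact sphere (subalgebra of `C(sphere 0 r, ℝ)` given by the
restrictions of polynomials, `ContinuousMap.exists_mem_subalgebra_near_continuous_of_separatesPoints`; see `R230.exists_poly_near`) gives `p`.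
On `V = MvPolynomial.restrictTotalDegree (Fin d) ℝ N` (finite dimensional, `N = p.totalDegree`) the linear map
`q ↦ lap ((nsq - C r²) * q)` maps `V` to `V` and is injective (`max_principle` for `± (nsq - r²) q` on `ball 0 r`: it vanishes on the ball, so
`q` vanishes on an open set / after scaling everywhere, `MvPolynomial.funext`), hence surjective; `h = p - (nsq - r²) q` with `lap (..) = lap p`.
Alternative for surjectivity without the maximum principle: induction on the degree with `lap (nsq^k W) = c • nsq^(k-1) W`. -/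

set_option autoImplicit false
open MeasureTheory Metric Set Filter Topology
open scoped RealInnerProductSpace NNReal

namespace Crest.Agent.R97

variable {d : ℕ}

section poly

open MvPolynomial

/-- a polynomial as a function -/
noncomputable def hard_ev (P : MvPolynomial (Fin d) ℝ) (x : E d) : ℝ := eval (fun i => x i) P

theorem hard_smooth (P : MvPolynomial (Fin d) ℝ) : ContDiff ℝ (⊤ : ℕ∞) (hard_ev P) := by
  induction P using MvPolynomial.induction_on with
  | C c =>
    rw [show hard_ev (C c : MvPolynomial (Fin d) ℝ) = fun _ => c from funext fun x => by simp [hard_ev]]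
    exact contDiff_const
  | add P Q hP hQ =>
    rw [show hard_ev (P + Q) = fun x => hard_ev P x + hard_ev Q x from funext fun x => by simp [hard_ev]]
    exact hP.add hQ
  | mul_X P i hP =>
    rw [show hard_ev (P * X i) = fun x => hard_ev P x * x i from funext fun x => by simp [hard_ev]]
    exact hP.mul (by fun_prop)

theorem hard_pd (i : Fin d) (P : MvPolynomial (Fin d) ℝ) : pd i (hard_ev P) = hard_ev (pderiv i P) := by
  have hd : ∀ (Q : MvPolynomial (Fin d) ℝ) (x : E d), DifferentiableAt ℝ (hard_ev Q) x := fun Q x =>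
    (hard_smooth Q).differentiable (by simp) x
  funext x
  induction P using MvPolynomial.induction_on with
  | C c =>
    rw [show hard_ev (C c : MvPolynomial (Fin d) ℝ) = fun _ => c from funext fun x => by simp [hard_ev],
      pd_const]
    simp [hard_ev]
  | add P Q hP hQ =>
    rw [show hard_ev (P + Q) = fun x => hard_ev P x + hard_ev Q x from funext fun x => by simp [hard_ev],
      pd_add (hd P x) (hd Q x), hP, hQ]
    simp [hard_ev]
  | mul_X P j hP =>
    rw [show hard_ev (P * X j) = fun x => hard_ev P x * x j from funext fun x => by simp [hard_ev],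
      pd_mul (hd P x) (by fun_prop), hP, pd_coord, pderiv_mul]
    by_cases h : i = j
    · subst h
      simp [hard_ev]
    · simp [hard_ev, pderiv_X_of_ne (Ne.symm h), h]

/-- the Laplacian on polynomials -/
noncomputable def hard_lap (d : ℕ) : MvPolynomial (Fin d) ℝ →ₗ[ℝ] MvPolynomial (Fin d) ℝ :=
  ∑ i, (pderiv i).toLinearMap ∘ₗ (pderiv i).toLinearMap

theorem hard_lap_apply (P : MvPolynomial (Fin d) ℝ) : hard_lap d P = ∑ i, pderiv i (pderiv i P) := by
  simp [hard_lap, LinearMap.sum_apply]

theorem hard_lap_ev (P : MvPolynomial (Fin d) ℝ) (x : E d) : lap (hard_ev P) x = hard_ev (hard_lap d P) x := by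
  unfold lap
  simp only [hard_pd]
  simp [hard_lap_apply, hard_ev]

theorem hard_deg_pd (i : Fin d) {P : MvPolynomial (Fin d) ℝ} {N : ℕ} (h : P.totalDegree ≤ N + 1) :
    (pderiv i P).totalDegree ≤ N := by
  rw [P.as_sum, map_sum]
  refine totalDegree_finsetSum_le fun s hs => ?_
  rw [pderiv_monomial]
  by_cases h0 : s i = 0
  · simp [h0]
  · refine (totalDegree_monomial_le _ _).trans ?_
    have h1 : s.degree ≤ N + 1 := (le_totalDegree hs).trans h
    have h2 : s = (s - Finsupp.single i 1) + Finsupp.single i 1 :=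
      (tsub_add_cancel_of_le (Finsupp.single_le_iff.2 (Nat.one_le_iff_ne_zero.2 h0))).symm
    rw [h2, map_add, Finsupp.degree_single] at h1
    exact Nat.le_of_add_le_add_right h1

theorem hard_deg_lap {P : MvPolynomial (Fin d) ℝ} {N : ℕ} (h : P.totalDegree ≤ N + 2) :
    (hard_lap d P).totalDegree ≤ N := by
  rw [hard_lap_apply]
  exact totalDegree_finsetSum_le fun i _ => hard_deg_pd i (hard_deg_pd i h)

/-- `|x|² - r²` -/
noncomputable def hard_q (d : ℕ) (r : ℝ) : MvPolynomial (Fin d) ℝ := ∑ i, X i ^ 2 - C (r ^ 2)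

theorem hard_q_ev (r : ℝ) (x : E d) : hard_ev (hard_q d r) x = ‖x‖ ^ 2 - r ^ 2 := by
  simp [hard_ev, hard_q, EuclideanSpace.real_norm_sq_eq]

theorem hard_deg_q (r : ℝ) : (hard_q d r).totalDegree ≤ 2 := by
  refine (totalDegree_sub _ _).trans (max_le (totalDegree_finsetSum_le fun i _ => ?_)
    ((totalDegree_C _).le.trans (Nat.zero_le _)))
  exact (totalDegree_X_pow i 2).le

theorem hard_inj (hd : 1 ≤ d) {r : ℝ} (hr : 0 < r) {P : MvPolynomial (Fin d) ℝ}
    (h : hard_lap d (hard_q d r * P) = 0) : P = 0 := by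
  have key : ∀ Q : MvPolynomial (Fin d) ℝ, hard_lap d (hard_q d r * Q) = 0 →
      ∀ x ∈ ball (0 : E d) r, hard_ev (hard_q d r * Q) x ≤ 0 := fun Q hQ => by
    have hs := hard_smooth (hard_q d r * Q)
    refine max_principle hd isOpen_ball isBounded_ball hs.continuous.continuousOn
      (hs.of_le (WithTop.coe_le_coe.2 (le_top : (2 : ℕ∞) ≤ ⊤))).contDiffOn (fun x _ => ?_) fun x hx => ?_
    · rw [hard_lap_ev, hQ]
      simp [hard_ev]
    · rw [frontier_ball _ hr.ne', mem_sphere_zero_iff_norm] at hx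
      have := hard_q_ev r x
      rw [hx, sub_self] at this
      unfold hard_ev at this ⊢
      rw [map_mul, this, zero_mul]
  have h1 : ∀ x ∈ ball (0 : E d) r, hard_ev P x = 0 := fun x hx => by
    have h2 := key P h x hx
    have h3 := key (-P) (by rw [mul_neg, map_neg, h, neg_zero]) x hx
    have h4 := hard_q_ev r x
    have h5 : ‖x‖ ^ 2 < r ^ 2 := pow_lt_pow_left₀ (mem_ball_zero_iff.1 hx) (norm_nonneg _) two_ne_zero
    unfold hard_ev at h2 h3 h4 ⊢
    rw [mul_neg, map_neg] at h3
    rw [map_mul, h4] at h2 h3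
    exact (mul_eq_zero.1 (le_antisymm h2 (by linarith))).resolve_left (by linarith)
  have hd0 : (0 : ℝ) < d := by exact_mod_cast hd
  have hd1 : (1 : ℝ) ≤ d := by exact_mod_cast hd
  refine MvPolynomial.funext_set (fun _ => Ioo 0 (r / (2 * d))) (fun _ => Ioo_infinite (by positivity))
    fun x hx => ?_
  have h2 := h1 (WithLp.toLp 2 x) (by
    rw [mem_ball_zero_iff]
    refine lt_of_pow_lt_pow_left₀ 2 hr.le ?_
    rw [EuclideanSpace.real_norm_sq_eq]
    calc ∑ i, x i ^ 2 ≤ ∑ _i : Fin d, (r / (2 * d)) ^ 2 := Finset.sum_le_sum fun i _ =>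
          pow_le_pow_left₀ (hx i trivial).1.le (hx i trivial).2.le 2
      _ = r ^ 2 / (4 * d) := by
          simp only [Finset.sum_const, Finset.card_univ, Fintype.card_fin, nsmul_eq_mul]
          field_simp
          ring
      _ < r ^ 2 := div_lt_self (by positivity) (by linarith))
  simpa [hard_ev] using h2

theorem hard_solve (hd : 1 ≤ d) {r : ℝ} (hr : 0 < r) (P : MvPolynomial (Fin d) ℝ) :
    ∃ Q, hard_lap d (hard_q d r * Q) = hard_lap d P := by
  let V := restrictTotalDegree (Fin d) ℝ P.totalDegree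
  let T : MvPolynomial (Fin d) ℝ →ₗ[ℝ] MvPolynomial (Fin d) ℝ := hard_lap d ∘ₗ LinearMap.mulLeft ℝ (hard_q d r)
  have hT : ∀ Q ∈ V, T Q ∈ V := fun Q hQ => by
    rw [mem_restrictTotalDegree] at hQ ⊢
    refine hard_deg_lap ((totalDegree_mul _ _).trans ?_)
    have := hard_deg_q (d := d) r
    omega
  have h1 : Function.Injective (T.restrict hT) := by
    rw [injective_iff_map_eq_zero]
    intro Q hQ
    exact Subtype.ext (hard_inj hd hr (congrArg Subtype.val hQ))
  obtain ⟨Q, hQ⟩ := LinearMap.surjective_of_injective h1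
    ⟨hard_lap d P, (mem_restrictTotalDegree _ _ _).2 (hard_deg_lap (Nat.le_add_right _ _))⟩
  exact ⟨Q, congrArg Subtype.val hQ⟩

theorem hard_approx {K : Set (E d)} (hK : IsCompact K) {g : E d → ℝ} (hg : ContinuousOn g K) {δ : ℝ}
    (hδ : 0 < δ) : ∃ P : MvPolynomial (Fin d) ℝ, ∀ x ∈ K, |hard_ev P x - g x| ≤ δ := by
  have : CompactSpace K := isCompact_iff_compactSpace.1 hK
  let c : Fin d → C(K, ℝ) := fun i => ⟨fun x => x.1 i, by fun_prop⟩
  have he : ∀ (P : MvPolynomial (Fin d) ℝ) (x : K), aeval c P x = hard_ev P x := fun P x => by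
    induction P using MvPolynomial.induction_on with
    | C a => simp [hard_ev]
    | add P Q hP hQ => simp [hard_ev, hP, hQ]
    | mul_X P i hP => simp [hard_ev, hP, c]
  have hs : (aeval c : MvPolynomial (Fin d) ℝ →ₐ[ℝ] C(K, ℝ)).range.SeparatesPoints := by
    intro x y hxy
    have : ∃ i, x.1 i ≠ y.1 i := by
      by_contra h
      push Not at h
      exact hxy (Subtype.ext (PiLp.ext h))
    obtain ⟨i, hi⟩ := this
    exact ⟨_, ⟨c i, ⟨X i, by simp⟩, rfl⟩, hi⟩
  obtain ⟨⟨_, P, rfl⟩, h⟩ := ContinuousMap.exists_mem_subalgebra_near_continuous_of_separatesPoints _ hs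
    (fun x : K => g x) (continuousOn_iff_continuous_domRestrict.1 hg) δ hδ
  refine ⟨P, fun x hx => ?_⟩
  have h1 := h ⟨x, hx⟩
  rw [← he P ⟨x, hx⟩]
  exact h1.le

end poly

/-- approximate Dirichlet problem on a ball by entire harmonic functions (polynomials) -/
theorem dirichlet (hd : 1 ≤ d) {g : E d → ℝ} {r : ℝ} (hr : 0 < r) (hg : ContinuousOn g (sphere 0 r)) {δ : ℝ}
    (hδ : 0 < δ) : ∃ h : E d → ℝ, Harm h univ ∧ ∀ x ∈ sphere (0 : E d) r, |h x - g x| ≤ δ := by
  obtain ⟨P, hP⟩ := hard_approx (isCompact_sphere (0 : E d) r) hg hδ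
  obtain ⟨Q, hQ⟩ := hard_solve hd hr P
  refine ⟨hard_ev (P - hard_q d r * Q), ⟨(hard_smooth _).contDiffOn, fun x _ => ?_⟩, fun x hx => ?_⟩
  · rw [hard_lap_ev, map_sub, hQ, sub_self]
    simp [hard_ev]
  · have h1 := hard_q_ev r x
    rw [mem_sphere_zero_iff_norm.1 hx, sub_self] at h1
    have h2 := hP x hx
    unfold hard_ev at h1 h2 ⊢
    rwa [map_sub, map_mul, h1, zero_mul, sub_zero]

end Crest.Agent.R97
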