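import Crest.Agent.R97.Har_S

/-! R97/Har_W (part of Har, sub-lead helper5; aux names `harw_*`): Weyl's lemma. -/

set_option autoImplicit false
open MeasureTheory Metric Set Filter Topology
open scoped RealInnerProductSpace NNReal

namespace Crest.Agent.R97

variable {d : ℕ}

/-- convolution with a test function -/
noncomputable def cv (g φ : E d → ℝ) (x : E d) : ℝ := ∫ w, g w * φ (x - w)

theorem cv_smooth {g φ : E d → ℝ} (hg : LocallyIntegrable g) (hφ : ContDiff ℝ (⊤ : ℕ∞) φ)
    (hc : HasCompactSupport φ) : ContDiff ℝ (⊤ : ℕ∞) (cv g φ) :=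
  hc.contDiff_convolution_right (ContinuousLinearMap.mul ℝ ℝ) hg hφ

theorem cv_int {g φ : E d → ℝ} (hg : LocallyIntegrable g) (hφ : Continuous φ)
    (hc : HasCompactSupport φ) (x : E d) : Integrable fun w => g w * φ (x - w) :=
  hc.convolutionExists_right (ContinuousLinearMap.mul ℝ ℝ) hg hφ x

theorem cv_pd {g φ : E d → ℝ} (hg : LocallyIntegrable g) (hφ : ContDiff ℝ 1 φ)
    (hc : HasCompactSupport φ) (i : Fin d) : pd i (cv g φ) = cv g (pd i φ) := by
  funext x
  have h1 : fderiv ℝ (cv g φ) x = _ :=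
    (hc.hasFDerivAt_convolution_right (ContinuousLinearMap.mul ℝ ℝ) hg hφ x).fderiv
  unfold pd
  rw [h1, convolution_precompR_apply _ hg (hc.fderiv ℝ) (hφ.continuous_fderiv one_ne_zero)]
  rfl

theorem cv_lap {g φ : E d → ℝ} (hg : LocallyIntegrable g) (hφ : ContDiff ℝ 2 φ)
    (hc : HasCompactSupport φ) : lap (cv g φ) = cv g (lap φ) := by
  funext x
  have p1 : ∀ i, ContDiff ℝ 1 (pd i φ) := fun i => contDiff_pd hφ (by norm_num) i
  unfold lap
  simp only [cv_pd hg (hφ.of_le (by norm_num)) hc, cv_pd hg (p1 _) (hari_hcs hc _)]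
  unfold cv
  simp only [Finset.mul_sum]
  rw [integral_finsetSum _ fun i _ => cv_int hg (contDiff_pd (m := 0) (p1 i) (by simp) i).continuous
    (hari_hcs (hari_hcs hc i) i) x]

theorem harw_harm {f g φ : E d → ℝ} {U : Set (E d)}
    (h : ∀ φ : E d → ℝ, ContDiff ℝ (⊤ : ℕ∞) φ → HasCompactSupport φ → tsupport φ ⊆ U →
      ∫ x, f x * lap φ x = 0) (hg : Continuous g) {x0 : E d} {ρ : ℝ} (hU : closedBall x0 (3 * ρ) ⊆ U)
    (he : ∀ x ∈ closedBall x0 (3 * ρ), g x = f x) (hφ : ContDiff ℝ (⊤ : ℕ∞) φ)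
    (hs : tsupport φ ⊆ closedBall 0 ρ) : Harm (cv g φ) (ball x0 (2 * ρ)) := by
  have hc : HasCompactSupport φ :=
    (isCompact_closedBall (0 : E d) ρ).of_isClosed_subset (isClosed_tsupport _) hs
  refine ⟨(cv_smooth hg.locallyIntegrable hφ hc).contDiffOn, fun x hx => ?_⟩
  have h1 : tsupport (fun w => φ (x + (-1 : ℝ) • w)) ⊆ closedBall x0 (3 * ρ) := by
    refine closure_minimal (fun w hw => ?_) isClosed_closedBall
    have h2 := hs (subset_tsupport _ hw)
    rw [mem_closedBall_zero_iff, neg_one_smul, ← sub_eq_add_neg, ← dist_eq_norm] at h2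
    rw [mem_ball] at hx
    rw [mem_closedBall]
    linarith [dist_triangle_left w x0 x]
  have h3 := h (fun w => φ (x + (-1 : ℝ) • w)) (hφ.comp (contDiff_const.add (contDiff_id.const_smul _)))
    ((isCompact_closedBall _ _).of_isClosed_subset (isClosed_tsupport _) h1) (h1.trans hU)
  rw [cv_lap hg.locallyIntegrable (hφ.of_le (WithTop.coe_le_coe.2 le_top)) hc, ← h3]
  refine integral_congr_ae (.of_forall fun w => ?_)
  have h4 : lap (fun w => φ (x + (-1 : ℝ) • w)) w = lap φ (x - w) := by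
    rw [lap_shift, neg_one_smul, ← sub_eq_add_neg]
    simp
  simp only
  rw [← h4]
  by_cases hw : w ∈ closedBall x0 (3 * ρ)
  · rw [he w hw]
  · rw [image_eq_zero_of_notMem_tsupport fun h5 => hw (h1 (tsupport_lap _ h5)), mul_zero, mul_zero]

/-- Weyl's lemma for continuous functions -/
theorem weyl {f : E d → ℝ} {U : Set (E d)} (hU : IsOpen U) (hf : ContinuousOn f U)
    (h : ∀ φ : E d → ℝ, ContDiff ℝ (⊤ : ℕ∞) φ → HasCompactSupport φ → tsupport φ ⊆ U →
      ∫ x, f x * lap φ x = 0) : Harm f U := by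
  suffices H : ∀ x0 ∈ U, ∃ ρ > 0, Harm f (ball x0 ρ) by
    refine ⟨fun x hx => ?_, fun x hx => ?_⟩
    · obtain ⟨ρ, hρ, h1⟩ := H x hx
      exact (h1.1.contDiffAt (ball_mem_nhds x hρ)).contDiffWithinAt
    · obtain ⟨ρ, hρ, h1⟩ := H x hx
      exact h1.2 x (mem_ball_self hρ)
  intro x0 hx0
  obtain ⟨R, hR, hRU⟩ := nhds_basis_closedBall.mem_iff.1 (hU.mem_nhds hx0)
  obtain ⟨ρ, rfl⟩ : ∃ ρ, R = 4 * ρ := ⟨R / 4, by ring⟩
  have hρ : 0 < ρ := by linarith
  let χ : ContDiffBump x0 := ⟨3 * ρ, 4 * ρ, by positivity, by linarith⟩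
  have hχ : tsupport χ ⊆ U := χ.tsupport_eq ▸ hRU
  have hg : Continuous fun x => f x * χ x :=
    (hf.mul χ.continuous.continuousOn).continuous_of_tsupport_subset hU (tsupport_mul_subset_right.trans hχ)
  have he : ∀ x ∈ closedBall x0 (3 * ρ), f x * χ x = f x := fun x hx => by
    rw [χ.one_of_mem_closedBall hx, mul_one]
  obtain ⟨K, hK⟩ := hg.bounded_above_of_compact_support χ.hasCompactSupport.mul_left
  obtain ⟨g, hg, hK, he⟩ : ∃ g : E d → ℝ, Continuous g ∧ (∀ x, ‖g x‖ ≤ K) ∧
    ∀ x ∈ closedBall x0 (3 * ρ), g x = f x := ⟨_, hg, hK, he⟩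
  have hU3 : closedBall x0 (3 * ρ) ⊆ U := (closedBall_subset_closedBall (by linarith)).trans hRU
  obtain ⟨m, hm, hm0, hms, hmd, hm1⟩ := exists_ker d (half_pos hρ)
  have hk := harw_harm h hg hU3 he hmd ((tsupport_ker hms).trans (closedBall_subset_closedBall (by linarith)))
  let φ : ℕ → ContDiffBump (0 : E d) := fun n =>
    ⟨ρ / (n + 1) / 2, ρ / (n + 1), by positivity, half_lt_self (by positivity)⟩
  have hφ0 : Tendsto (fun n => (φ n).rOut) atTop (𝓝 0) := by
    simpa [φ, div_eq_mul_inv] using tendsto_one_div_add_atTop_nhds_zero_nat.const_mul ρ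
  have hF : ∀ n, Harm (cv g ((φ n).normed volume)) (ball x0 (2 * ρ)) := fun n =>
    harw_harm h hg hU3 he (φ n).contDiff_normed (by
      rw [(φ n).tsupport_normed_eq]
      exact closedBall_subset_closedBall (div_le_self hρ.le (by linarith [n.cast_nonneg (α := ℝ)])))
  have hlim : ∀ z, Tendsto (fun n => cv g ((φ n).normed volume) z) atTop (𝓝 (g z)) := fun z => by
    refine (ContDiffBump.convolution_tendsto_right_of_continuous (μ := volume) hφ0 hg z).congr fun n => ?_
    rw [convolution_lsmul_swap]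
    simp only [cv, smul_eq_mul, mul_comm]
  have hbd : ∀ n z, ‖cv g ((φ n).normed volume) z‖ ≤ K := fun n z => by
    have h1 : ∫ w, K * (φ n).normed volume (z - w) = K := by
      rw [integral_const_mul, integral_sub_left_eq_self ((φ n).normed volume), (φ n).integral_normed, mul_one]
    rw [← h1]
    refine norm_integral_le_of_norm_le (((φ n).integrable_normed.comp_sub_left z).const_mul K)
      (.of_forall fun w => ?_)
    rw [norm_mul, Real.norm_of_nonneg ((φ n).nonneg_normed _)]
    exact mul_le_mul_of_nonneg_right (hK w) ((φ n).nonneg_normed _)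
  refine ⟨ρ, hρ, (hk.mono (ball_subset_ball (by linarith))).congr isOpen_ball fun x hx => ?_⟩
  have hb : ball x ρ ⊆ ball x0 (2 * ρ) := ball_subset_ball' (by linarith [mem_ball.1 hx])
  have h1 : Tendsto (fun n => ∫ y : E d, cv g ((φ n).normed volume) (x + y) * m ‖y‖) atTop
      (𝓝 (∫ y : E d, g (x + y) * m ‖y‖)) := by
    refine tendsto_integral_of_dominated_convergence (fun y => K * m ‖y‖) (fun n => ?_)
      ((hmd.continuous.integrable_of_hasCompactSupport (hasCompactSupport_ker hms)).const_mul K)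
      (fun n => .of_forall fun y => ?_) (.of_forall fun y => (hlim _).mul_const _)
    · exact (((cv_smooth hg.locallyIntegrable (φ n).contDiff_normed (φ n).hasCompactSupport_normed).continuous.comp
        (continuous_const.add continuous_id)).mul hmd.continuous).aestronglyMeasurable
    · rw [norm_mul, Real.norm_of_nonneg (hm0 _)]
      exact mul_le_mul_of_nonneg_right (hbd n _) (hm0 _)
  simp only [fun n => ((hF n).mono hb).mean hm hm0 (half_lt_self hρ) hms, hm1, mul_one] at h1
  rw [← he x (ball_subset_closedBall (ball_subset_ball (by linarith) hx)), tendsto_nhds_unique (hlim x) h1, cv,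
    ← integral_add_left_eq_self (fun w => g w * m ‖x - w‖) x]
  simp

end Crest.Agent.R97
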