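import Crest.Agent.R97.Bas
import Crest.Agent.R97.Har_W

/-! R97/Har_E (part of Har, sub-lead helper5; keep the statement; aux names `hare_*`): Euler–Lagrange equation.
`φ` a test function in `U = {u > 0}`; `u ≥ m > 0` on the compact `tsupport φ`; for `|t|` small `v = u + t φ` is Lipschitz
(`ContDiff.lipschitzWith_of_hasCompactSupport`), `≥ 0`, `0 < v x ↔ 0 < u x`, `v = u` off a ball.  A.e. `∇v = ∇u + t ∇φ`
(`LipschitzWith.ae_differentiableAt`), so `0 ≤ 2 t ∫ ⟪∇u, ∇φ⟫ + t² ∫ ‖∇φ‖²` for small `|t|` (`integrableOn_jd`, `norm_gradient_le`,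
`measurable_gradient`), hence `∫ ∑ i, pd i u * pd i φ = 0`.  `LipschitzWith.integral_lineDeriv_mul_eq` with `g = pd i φ` gives
`∫ u * lap φ = 0`; `weyl`. -/

set_option autoImplicit false
open MeasureTheory Metric Set Filter Topology
open scoped RealInnerProductSpace NNReal

namespace Crest.Agent.R97

variable {d : ℕ}

theorem hare_quad {A B δ : ℝ} (hδ : 0 < δ) (h : ∀ t, |t| < δ → 0 ≤ 2 * t * A + t ^ 2 * B) : A = 0 := by
  have h1 : IsLocalMin (fun t : ℝ => 2 * t * A + t ^ 2 * B) 0 := by
    filter_upwards [ball_mem_nhds (0 : ℝ) hδ] with t ht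
    have := h t (by simpa using ht)
    simpa using this
  have h2 : HasDerivAt (fun t : ℝ => 2 * t * A + t ^ 2 * B) (2 * 1 * A + (2 : ℕ) * 0 ^ (2 - 1) * B) 0 :=
    (((hasDerivAt_id (0 : ℝ)).const_mul 2).mul_const A).add ((hasDerivAt_pow 2 (0 : ℝ)).mul_const B)
  have h3 := h1.hasDerivAt_eq_zero h2
  simpa using h3

theorem hare_cs {φ : E d → ℝ} (hc : HasCompactSupport φ) (i : Fin d) : HasCompactSupport (pd i φ) :=
  hc.isCompact.of_isClosed_subset (isClosed_tsupport _) (tsupport_pd φ i)

theorem hare_int {L : ℝ≥0} {u g : E d → ℝ} (hu : LipschitzWith L u) (hg : Continuous g) (hc : HasCompactSupport g)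
    (i : Fin d) : Integrable fun x => pd i u x * g x := by
  refine (hg.integrable_of_hasCompactSupport hc).bdd_mul (c := L)
    (measurable_fderiv_apply_const ℝ u _).aestronglyMeasurable (ae_of_all _ fun x => ?_)
  refine ((fderiv ℝ u x).le_opNorm _).trans ?_
  rw [EuclideanSpace.norm_single, norm_one, mul_one]
  exact norm_fderiv_le_of_lipschitz ℝ hu

theorem hare_ibp {L : ℝ≥0} {u g : E d → ℝ} (hu : LipschitzWith L u) (hg : ContDiff ℝ (⊤ : ℕ∞) g)
    (hc : HasCompactSupport g) (i : Fin d) : ∫ x, u x * pd i g x = -∫ x, pd i u x * g x := by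
  obtain ⟨K, hK⟩ := hg.lipschitzWith_of_hasCompactSupport hc (by simp)
  have h := hu.integral_lineDeriv_mul_eq (μ := volume) hK hc (EuclideanSpace.single i 1)
  have h1 : ∫ x, lineDeriv ℝ u x (EuclideanSpace.single i 1) * g x = ∫ x, pd i u x * g x := by
    refine integral_congr_ae ?_
    filter_upwards [hu.ae_differentiableAt (μ := volume)] with x hx
    rw [hx.lineDeriv_eq_fderiv, pd]
  have h2 : ∫ x, lineDeriv ℝ g x (-EuclideanSpace.single i 1) * u x = -∫ x, u x * pd i g x := by
    rw [← integral_neg]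
    refine integral_congr_ae (ae_of_all _ fun x => ?_)
    beta_reduce
    rw [(hg.differentiable (by simp) x).lineDeriv_eq_fderiv, map_neg, pd]
    ring
  rw [← h1, h, h2, neg_neg]

theorem hare_small {u φ : E d → ℝ} (hu : Continuous u) (h0 : ∀ x, 0 ≤ u x) (hφ : Continuous φ)
    (hc : HasCompactSupport φ) (hs : tsupport φ ⊆ {x | 0 < u x}) :
    ∃ δ > (0 : ℝ), ∀ t, |t| < δ → ∀ x, 0 ≤ u x + t * φ x ∧ (0 < u x + t * φ x ↔ 0 < u x) := by
  obtain ⟨m, hm, hmu⟩ := hc.isCompact.exists_forall_le' hu.continuousOn (a := 0) fun x hx => hs hx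
  obtain ⟨M, hM⟩ := hc.exists_bound_of_continuous hφ
  have hM0 : 0 ≤ M := (norm_nonneg _).trans (hM 0)
  refine ⟨m / (M + 1), by positivity, fun t ht x => ?_⟩
  by_cases hx : x ∈ tsupport φ
  · have h1 : |t * φ x| ≤ |t| * M := by
      rw [abs_mul]; exact mul_le_mul_of_nonneg_left (hM x) (abs_nonneg _)
    have h2 := (lt_div_iff₀ (by positivity)).1 ht
    have h3 := hmu x hx
    have h4 := (abs_le.1 h1).1
    have h5 := abs_nonneg t
    have h6 : 0 < u x + t * φ x := by nlinarith
    exact ⟨h6.le, iff_of_true h6 (hs hx)⟩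
  · rw [image_eq_zero_of_notMem_tsupport hx, mul_zero, add_zero]
    exact ⟨h0 x, Iff.rfl⟩

/-- minimisers are harmonic where positive -/
theorem Mn.harm {L : ℝ≥0} {u : E d → ℝ} (hu : Mn L u) : Harm u {x | 0 < u x} := by
  have hcu := hu.lip.continuous
  refine weyl (isOpen_lt continuous_const hcu) hcu.continuousOn fun φ hφ hc hs => ?_
  have hp : ∀ i, ContDiff ℝ (⊤ : ℕ∞) (pd i φ) := fun i => contDiff_pd hφ (by simp) i
  have ia : Integrable fun x => ∑ i, pd i u x * pd i φ x :=
    integrable_finsetSum _ fun i _ => hare_int hu.lip (hp i).continuous (hare_cs hc i) i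
  have ib : Integrable fun x => ∑ i, pd i φ x * pd i φ x :=
    integrable_finsetSum _ fun i _ =>
      ((hp i).continuous.mul (hp i).continuous).integrable_of_hasCompactSupport (hare_cs hc i).mul_left
  obtain ⟨δ, hδ, hsm⟩ := hare_small hcu hu.nn hφ.continuous hc hs
  obtain ⟨R, hR, hRs⟩ := hc.isCompact.isBounded.subset_ball_lt 0 0
  obtain ⟨K, hK⟩ := hφ.lipschitzWith_of_hasCompactSupport hc (by simp)
  have hA : ∫ x, ∑ i, pd i u x * pd i φ x = 0 := by
    refine hare_quad (B := ∫ x, ∑ i, pd i φ x * pd i φ x) hδ fun t ht => ?_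
    have hl : LipschitzWith (L + ‖t‖₊ * K) (fun x => u x + t * φ x) :=
      hu.lip.add ((lipschitzWith_smul t).comp hK)
    have hmin := hu.min 0 R hR _ _ hl (fun x => (hsm t ht x).1) fun x hx => by
      rw [image_eq_zero_of_notMem_tsupport fun h => hx (hRs h), mul_zero, add_zero]
    have ic : Integrable fun x => 2 * t * (∑ i, pd i u x * pd i φ x) + t ^ 2 * ∑ i, pd i φ x * pd i φ x :=
      (ia.const_mul _).add (ib.const_mul _)
    have e1 : J (fun x => u x + t * φ x) (ball 0 R) = ∫ x in ball 0 R, (jd u x +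
        (2 * t * (∑ i, pd i u x * pd i φ x) + t ^ 2 * ∑ i, pd i φ x * pd i φ x)) := by
      refine integral_congr_ae (ae_restrict_of_ae ?_)
      filter_upwards [hu.lip.ae_differentiableAt (μ := volume)] with x hx
      have hd : DifferentiableAt ℝ (fun y => t * φ y) x := (hφ.differentiable (by simp) x).const_mul t
      have e : ∀ i, pd i (fun y => u y + t * φ y) x ^ 2 =
          pd i u x ^ 2 + (2 * t * (pd i u x * pd i φ x) + t ^ 2 * (pd i φ x * pd i φ x)) := fun i => by
        rw [pd_add hx hd, pd_const_mul]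
        ring
      simp only [jd, norm_gradient_sq, e, (hsm t ht x).2, Finset.sum_add_distrib, ← Finset.mul_sum]
      ring
    rw [e1, integral_add (integrableOn_jd hu.lip isBounded_ball) ic.integrableOn,
      setIntegral_eq_integral_of_forall_compl_eq_zero (s := ball 0 R) (f := fun x =>
        2 * t * (∑ i, pd i u x * pd i φ x) + t ^ 2 * ∑ i, pd i φ x * pd i φ x) fun x hx => by
        have : ∀ i, pd i φ x = 0 := fun i =>
          image_eq_zero_of_notMem_tsupport fun h => hx (hRs (tsupport_pd φ i h))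
        simp [this],
      integral_add (ia.const_mul _) (ib.const_mul _), integral_const_mul, integral_const_mul] at hmin
    unfold J at hmin
    linarith
  have i2 : ∀ i, Integrable fun x => u x * pd i (pd i φ) x := fun i =>
    (hcu.mul (contDiff_pd (m := (⊤ : ℕ∞)) (hp i) (by simp) i).continuous).integrable_of_hasCompactSupport
      (hare_cs (hare_cs hc i) i).mul_left
  rw [integral_finsetSum _ fun i _ => hare_int hu.lip (hp i).continuous (hare_cs hc i) i] at hA
  simp only [lap, Finset.mul_sum]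
  rw [integral_finsetSum _ fun i _ => i2 i, Finset.sum_congr rfl fun i _ => hare_ibp hu.lip (hp i) (hare_cs hc i) i,
    Finset.sum_neg_distrib, hA, neg_zero]

end Crest.Agent.R97
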