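import Crest.Agent.R97.Har_S

/-! R97/Har_G (part of Har, sub-lead helper5; keep the statements; aux names `harg_*`): gradient bound.
Reduce to the unit ball (`Harm.unit`, `pd_shift`).  There `pd i f` is harmonic (`Harm.pd`), so with `m` from `exists_ker d (1/2)`
`pd i f 0 = ∫ pd i f y * m ‖y‖ = -∫ f y * pd i (m ‖·‖) y` (`Harm.mean`, `ibp_pd`); `C = 1 + ∑ i, ∫ |pd i (m ‖·‖)|`. -/

set_option autoImplicit false
open MeasureTheory Metric Set Filter Topology
open scoped RealInnerProductSpace NNReal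

namespace Crest.Agent.R97

variable {d : ℕ}

/-- interior gradient bound (iterate it with `Harm.pd` for higher derivatives) -/
theorem grad_bound (d : ℕ) : ∃ C : ℝ, 0 < C ∧ ∀ (f : E d → ℝ) (x : E d) (r M : ℝ), 0 < r → Harm f (ball x r) →
    (∀ y ∈ ball x r, |f y| ≤ M) → ∀ i, |pd i f x| ≤ C * M / r := by
  obtain ⟨m, hm, hm0, hs, hsm, h1⟩ := exists_ker d (ρ := 1 / 2) (by norm_num)
  have hc := hasCompactSupport_ker (d := d) hs
  have hts : tsupport (fun y : E d => m ‖y‖) ⊆ ball 0 1 :=
    (tsupport_ker hs).trans (closedBall_subset_ball (by norm_num))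
  have hnn : ∀ i : Fin d, 0 ≤ ∫ y : E d, |pd i (fun y : E d => m ‖y‖) y| := fun i =>
    integral_nonneg fun _ => abs_nonneg _
  have hS := Finset.sum_nonneg fun i (_ : i ∈ Finset.univ) => hnn i
  refine ⟨1 + ∑ i, ∫ y : E d, |pd i (fun y : E d => m ‖y‖) y|, by linarith, fun f x r M hr hf hM i => ?_⟩
  have hM0 : 0 ≤ M := (abs_nonneg _).trans (hM x (mem_ball_self hr))
  have hg := hf.unit hr
  have e1 := (hg.pd isOpen_ball i).mean hm hm0 (r' := 1 / 2) (by norm_num) hs
  simp only [zero_add] at e1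
  rw [h1, mul_one] at e1
  have e2 := ibp_pd isOpen_ball (hg.1.of_le (by exact_mod_cast le_top)) (hsm.of_le (by exact_mod_cast le_top))
    hc hts i
  rw [e1, pd_shift, smul_zero, add_zero] at e2
  have hcp : Continuous (pd i fun y : E d => m ‖y‖) :=
    (contDiff_pd (m := 0) hsm (by exact_mod_cast le_top) i).continuous
  have hcs : HasCompactSupport (pd i fun y : E d => m ‖y‖) :=
    hc.of_isClosed_subset (isClosed_tsupport _) (tsupport_pd _ i)
  have e3 : ‖∫ y : E d, f (x + r • y) * pd i (fun y : E d => m ‖y‖) y‖ ≤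
      ∫ y : E d, M * |pd i (fun y : E d => m ‖y‖) y| := by
    refine norm_integral_le_of_norm_le ((hcp.integrable_of_hasCompactSupport hcs).abs.const_mul M)
      (Eventually.of_forall fun y => ?_)
    rw [Real.norm_eq_abs, abs_mul]
    by_cases hy : y ∈ ball (0 : E d) 1
    · refine mul_le_mul_of_nonneg_right (hM _ ?_) (abs_nonneg _)
      rw [mem_ball_zero_iff] at hy
      rw [mem_ball, dist_eq_norm, add_sub_cancel_left, norm_smul, Real.norm_of_nonneg hr.le]
      nlinarith
    · rw [image_eq_zero_of_notMem_tsupport fun h => hy (hts (tsupport_pd _ i h))]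
      simp
  rw [e2, integral_const_mul, norm_neg, Real.norm_eq_abs, abs_mul, abs_of_pos hr] at e3
  have e4 := Finset.single_le_sum (fun i (_ : i ∈ Finset.univ) => hnn i) (Finset.mem_univ i)
  rw [le_div_iff₀ hr]
  nlinarith [mul_le_mul_of_nonneg_left e4 hM0]

end Crest.Agent.R97
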