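import Crest.Agent.R97.Har_S

/-! R97/Har_H (part of Har, sub-lead helper5; keep the statements; aux names `harh_*`): Harnack, strong maximum principle.
One step on the unit ball: `p, q ∈ ball 0 (1/2)`, `‖p - q‖ ≤ 1/8`, `m₁` from `exists_ker d (1/8)`, `m₁ ≤ K`, `m₂ t = K * max 0 (min 1 (3 - 8 t))`;
`f p = ∫ f (p + y) m₁ ‖y‖ = ∫ f (q + y) m₁ ‖q + y - p‖ ≤ ∫ f (q + y) m₂ ‖y‖ = f q ∫ m₂` (`Harm.mean` on `ball p (1/2)`, `ball q (1/2)`,
`integral_add_left_eq_self`, `integrable_mul_test`).  Chain of four steps `k/4 • y`; rescale with `Harm.unit`.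
strong_max: `g = f x - f ≥ 0` is harmonic; `{g = 0}` is open (harnack) and closed in the ball, which is preconnected. -/

set_option autoImplicit false
open MeasureTheory Metric Set Filter Topology
open scoped RealInnerProductSpace NNReal

namespace Crest.Agent.R97

variable {d : ℕ}

theorem harh_step (d : ℕ) : ∃ C : ℝ, 0 < C ∧ ∀ f : E d → ℝ, Harm f (ball 0 1) →
    (∀ y ∈ ball (0 : E d) 1, 0 ≤ f y) → ∀ p ∈ ball (0 : E d) (1 / 2), ∀ q ∈ ball (0 : E d) (1 / 2),
      ‖q - p‖ ≤ 1 / 4 → f p ≤ C * f q := by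
  obtain ⟨m₁, c1, n1, s1, -, i1⟩ := exists_ker d (ρ := 1 / 8) (by norm_num)
  obtain ⟨K, hK⟩ := (c1.comp (continuous_norm (E := E d))).bounded_above_of_compact_support
    (hasCompactSupport_ker s1)
  have hK' : ∀ y : E d, m₁ ‖y‖ ≤ K := fun y => (le_abs_self _).trans (hK y)
  have hK0 : 0 ≤ K := (n1 _).trans (hK' 0)
  set m₂ : ℝ → ℝ := fun t => K * max 0 (min 1 (7 - 16 * t)) with hm₂
  have c2 : Continuous m₂ := by rw [hm₂]; fun_prop
  have n2 : ∀ t, 0 ≤ m₂ t := fun t => mul_nonneg hK0 (le_max_left _ _)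
  have s2 : ∀ t, 7 / 16 ≤ t → m₂ t = 0 := fun t ht => by
    simp only [hm₂]
    rw [max_eq_left (min_le_of_right_le (by linarith)), mul_zero]
  have e2 : ∀ t, t ≤ 3 / 8 → m₂ t = K := fun t ht => by
    simp only [hm₂]
    rw [min_eq_left (by linarith), max_eq_right zero_le_one, mul_one]
  have i2 : 0 ≤ ∫ y : E d, m₂ ‖y‖ := integral_nonneg fun y => n2 _
  refine ⟨(∫ y : E d, m₂ ‖y‖) + 1, by linarith, fun f hf h0 p hp q hq hpq => ?_⟩
  have hsub : ∀ z ∈ ball (0 : E d) (1 / 2), ball z (1 / 2) ⊆ ball (0 : E d) 1 := fun z hz =>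
    ball_subset_ball' (by linarith [mem_ball.1 hz])
  have hin : ∀ y : E d, ‖y‖ < 1 / 2 → q + y ∈ ball (0 : E d) 1 := fun y hy =>
    hsub q hq (by rwa [mem_ball, dist_eq_norm, add_sub_cancel_left])
  have a1 := (hf.mono (hsub p hp)).mean c1 n1 (by norm_num : (1 / 8 : ℝ) < 1 / 2) s1
  have a2 := (hf.mono (hsub q hq)).mean c2 n2 (by norm_num : (7 / 16 : ℝ) < 1 / 2) s2
  rw [i1, mul_one, ← integral_add_right_eq_self (fun w : E d => f (p + w) * m₁ ‖w‖) (q - p)] at a1
  have hz : ∀ y : E d, 3 / 8 ≤ ‖y‖ → m₁ ‖y + (q - p)‖ = 0 := fun y hy => by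
    refine s1 _ ?_
    have := norm_sub_le (y + (q - p)) (q - p)
    rw [add_sub_cancel_right] at this
    linarith
  have he : ∀ y : E d, p + (y + (q - p)) = q + y := fun y => by abel
  have hint : Integrable fun y : E d => f (q + y) * m₂ ‖y‖ := by
    refine integrable_mul_test (U := ball 0 (1 / 2)) isOpen_ball ?_ (c2.comp continuous_norm)
      (hasCompactSupport_ker s2) ((tsupport_ker s2).trans (closedBall_subset_ball (by norm_num)))
    exact hf.1.continuousOn.comp (by fun_prop) fun y hy => hin y (mem_ball_zero_iff.1 hy)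
  have a3 : ∫ y : E d, f (p + (y + (q - p))) * m₁ ‖y + (q - p)‖ ≤ ∫ y : E d, f (q + y) * m₂ ‖y‖ := by
    refine integral_mono_of_nonneg (.of_forall fun y => ?_) hint (.of_forall fun y => ?_)
    · simp only [he, Pi.zero_apply]
      rcases le_total ‖y‖ (3 / 8) with h | h
      · exact mul_nonneg (h0 _ (hin y (by linarith))) (n1 _)
      · rw [hz y h, mul_zero]
    · simp only [he]
      rcases le_total ‖y‖ (3 / 8) with h | h
      · rw [e2 _ h]
        exact mul_le_mul_of_nonneg_left (hK' _) (h0 _ (hin y (by linarith)))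
      · rw [hz y h, mul_zero]
        rcases le_total ‖y‖ (7 / 16) with h' | h'
        · exact mul_nonneg (h0 _ (hin y (by linarith))) (n2 _)
        · rw [s2 _ h', mul_zero]
  have a4 : 0 ≤ f q := h0 q (ball_subset_ball (by norm_num) hq)
  rw [a1, a2] at a3
  nlinarith

theorem harnack (d : ℕ) : ∃ C : ℝ, 0 < C ∧ ∀ (f : E d → ℝ) (x : E d) (r : ℝ), 0 < r → Harm f (ball x r) →
    (∀ y ∈ ball x r, 0 ≤ f y) → ∀ y ∈ ball x (r / 2), f x ≤ C * f y ∧ f y ≤ C * f x := by
  obtain ⟨C, hC, h⟩ := harh_step d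
  refine ⟨C * C, mul_pos hC hC, fun f x r hr hf h0 y hy => ?_⟩
  have hg := h (fun w => f (x + r • w)) (hf.unit hr) (fun w hw => h0 _ (by
    rw [mem_ball, dist_eq_norm, add_sub_cancel_left, norm_smul, Real.norm_of_nonneg hr.le]
    have := mem_ball_zero_iff.1 hw
    nlinarith))
  set w : E d := r⁻¹ • (y - x) with hw
  have hn : ‖w‖ < 1 / 2 := by
    rw [hw, norm_smul, norm_inv, Real.norm_of_nonneg hr.le, inv_mul_lt_iff₀ hr, ← dist_eq_norm]
    linarith [mem_ball.1 hy]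
  have hy' : x + r • w = y := by
    rw [hw, smul_smul, mul_inv_cancel₀ hr.ne', one_smul, add_sub_cancel]
  have hh : ‖(1 / 2 : ℝ) • w‖ ≤ 1 / 4 := by
    rw [norm_smul, Real.norm_of_nonneg (by norm_num)]
    linarith
  have m0 : (0 : E d) ∈ ball (0 : E d) (1 / 2) := mem_ball_self (by norm_num)
  have m1 : (1 / 2 : ℝ) • w ∈ ball (0 : E d) (1 / 2) := mem_ball_zero_iff.2 (by linarith)
  have m2 : w ∈ ball (0 : E d) (1 / 2) := mem_ball_zero_iff.2 hn
  have e : w - (1 / 2 : ℝ) • w = (1 / 2 : ℝ) • w := by module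
  have a1 := hg _ m0 _ m1 (by rwa [sub_zero])
  have a2 := hg _ m1 _ m2 (by rwa [e])
  have a3 := hg _ m2 _ m1 (by rwa [norm_sub_rev, e])
  have a4 := hg _ m1 _ m0 (by rwa [norm_sub_rev, sub_zero])
  simp only [smul_zero, add_zero, hy'] at a1 a2 a3 a4
  constructor
  · rw [mul_assoc]
    exact a1.trans (mul_le_mul_of_nonneg_left a2 hC.le)
  · rw [mul_assoc]
    exact a3.trans (mul_le_mul_of_nonneg_left a4 hC.le)

/-- strong maximum principle (local form) -/
theorem strong_max {f : E d → ℝ} {x : E d} {r : ℝ} (hf : Harm f (ball x r))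
    (hM : ∀ y ∈ ball x r, f y ≤ f x) : ∀ y ∈ ball x r, f y = f x := by
  obtain ⟨C, hC, h⟩ := harnack d
  have hg : Harm (fun y => f x - f y) (ball x r) := (harm_const (f x) _).sub isOpen_ball hf
  intro y hy
  have hx : x ∈ ball x r := mem_ball_self (pos_of_mem_ball hy)
  have hc : ContinuousOn f (ball x r) := hf.1.continuousOn
  have ho1 : IsOpen {z | z ∈ ball x r ∧ f z = f x} := by
    rw [Metric.isOpen_iff]
    rintro z ⟨hz, hz'⟩
    obtain ⟨ε, hε, hb⟩ := Metric.isOpen_iff.1 isOpen_ball z hz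
    refine ⟨ε / 2, half_pos hε, fun w hw => ?_⟩
    have hw' : w ∈ ball x r := hb (ball_subset_ball (half_le_self hε.le) hw)
    have := (h _ z ε hε (hg.mono hb) (fun u hu => sub_nonneg.2 (hM u (hb hu))) w hw).2
    rw [hz', sub_self, mul_zero] at this
    exact ⟨hw', le_antisymm (hM w hw') (by linarith)⟩
  have ho2 : IsOpen (ball x r ∩ f ⁻¹' {f x}ᶜ) :=
    hc.isOpen_inter_preimage isOpen_ball isOpen_compl_singleton
  have := (convex_ball x r).isPreconnected.subset_left_of_subset_union ho1 ho2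
    (Set.disjoint_left.2 fun z h1 h2 => h2.2 h1.2)
    (fun z hz => by
      by_cases h1 : f z = f x
      · exact Or.inl ⟨hz, h1⟩
      · exact Or.inr ⟨hz, h1⟩) ⟨x, hx, hx, rfl⟩
  exact (this hy).2

end Crest.Agent.R97
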