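import Crest.Agent.R97.Har_A

/-! R97/Har_I (part of Har, sub-lead helper5; aux names `hari_*`): integration by parts, kernels. -/

set_option autoImplicit false
open MeasureTheory Metric Set Filter Topology
open scoped RealInnerProductSpace NNReal

namespace Crest.Agent.R97

variable {d : ℕ}

/-- a function continuous on `U` times a continuous function with compact support in `U` -/
theorem integrable_mul_test {f φ : E d → ℝ} {U : Set (E d)} (hU : IsOpen U) (hf : ContinuousOn f U)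
    (hφ : Continuous φ) (hc : HasCompactSupport φ) (hs : tsupport φ ⊆ U) : Integrable fun x => f x * φ x := by
  have hs' : tsupport (fun x => f x * φ x) ⊆ U := (tsupport_mul_subset_right).trans hs
  exact ((hf.mul hφ.continuousOn).continuous_of_tsupport_subset hU hs').integrable_of_hasCompactSupport
    hc.mul_left

theorem hari_hcs {φ : E d → ℝ} (hc : HasCompactSupport φ) (i : Fin d) : HasCompactSupport (pd i φ) :=
  hc.of_isClosed_subset (isClosed_tsupport _) (tsupport_pd φ i)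

theorem ibp_pd {f φ : E d → ℝ} {U : Set (E d)} (hU : IsOpen U) (hf : ContDiffOn ℝ 1 f U)
    (hφ : ContDiff ℝ 1 φ) (hc : HasCompactSupport φ) (hs : tsupport φ ⊆ U) (i : Fin d) :
    ∫ x, f x * pd i φ x = -∫ x, pd i f x * φ x := by
  have h1 : ContinuousOn (pd i f) U := (contDiffOn_pd (m := 0) hU hf (by simp) i).continuousOn
  have h2 : Continuous (pd i φ) := (contDiff_pd (m := 0) hφ (by simp) i).continuous
  exact integral_mul_fderiv_eq_neg_fderiv_mul_of_integrable
    (integrable_mul_test hU h1 hφ.continuous hc hs)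
    (integrable_mul_test hU hf.continuousOn h2 (hari_hcs hc i) ((tsupport_pd φ i).trans hs))
    (integrable_mul_test hU hf.continuousOn hφ.continuous hc hs)
    (fun x hx => (hf.contDiffAt (hU.mem_nhds (hs hx))).differentiableAt one_ne_zero)
    (fun x _ => hφ.differentiable one_ne_zero x)

theorem green {f φ : E d → ℝ} {U : Set (E d)} (hU : IsOpen U) (hf : ContDiffOn ℝ 2 f U)
    (hφ : ContDiff ℝ 2 φ) (hc : HasCompactSupport φ) (hs : tsupport φ ⊆ U) :
    ∫ x, f x * lap φ x = ∫ x, lap f x * φ x := by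
  have h21 : (1 : WithTop ℕ∞) + 1 ≤ 2 := by norm_num
  have h12 : (1 : WithTop ℕ∞) ≤ 2 := by norm_num
  have f1 : ∀ i, ContDiffOn ℝ 1 (pd i f) U := fun i => contDiffOn_pd hU hf h21 i
  have p1 : ∀ i, ContDiff ℝ 1 (pd i φ) := fun i => contDiff_pd hφ h21 i
  unfold lap
  simp only [Finset.mul_sum, Finset.sum_mul]
  rw [integral_finsetSum _ fun i _ => integrable_mul_test hU hf.continuousOn
      (contDiff_pd (m := 0) (p1 i) (by simp) i).continuous (hari_hcs (hari_hcs hc i) i)
      ((tsupport_pd _ i).trans ((tsupport_pd φ i).trans hs)),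
    integral_finsetSum _ fun i _ => integrable_mul_test hU
      (contDiffOn_pd (m := 0) hU (f1 i) (by simp) i).continuousOn hφ.continuous hc hs]
  refine Finset.sum_congr rfl fun i _ => ?_
  rw [ibp_pd hU (hf.of_le h12) (p1 i) (hari_hcs hc i) ((tsupport_pd φ i).trans hs) i,
    ibp_pd hU (f1 i) (hφ.of_le h12) hc hs i, neg_neg]

theorem Harm.weak {f φ : E d → ℝ} {U : Set (E d)} (hU : IsOpen U) (hf : Harm f U)
    (hφ : ContDiff ℝ 2 φ) (hc : HasCompactSupport φ) (hs : tsupport φ ⊆ U) : ∫ x, f x * lap φ x = 0 := by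
  rw [green hU (hf.1.of_le (WithTop.coe_le_coe.2 le_top)) hφ hc hs]
  refine integral_eq_zero_of_ae (.of_forall fun x => ?_)
  by_cases hx : x ∈ U
  · simp [hf.2 x hx]
  · simp [image_eq_zero_of_notMem_tsupport fun h => hx (hs h)]

/-- a smooth radial probability kernel supported in the ball of radius `ρ` -/
theorem exists_ker (d : ℕ) {ρ : ℝ} (hρ : 0 < ρ) : ∃ m : ℝ → ℝ, Continuous m ∧ (∀ t, 0 ≤ m t) ∧
    (∀ t, ρ ≤ t → m t = 0) ∧ ContDiff ℝ (⊤ : ℕ∞) (fun y : E d => m ‖y‖) ∧ ∫ y : E d, m ‖y‖ = 1 := by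
  have h1 : ContDiff ℝ (⊤ : ℕ∞) fun y : E d => expNegInvGlue (ρ ^ 2 - ‖y‖ ^ 2) :=
    expNegInvGlue.contDiff.comp (contDiff_const.sub (contDiff_norm_sq ℝ))
  have h2 : ∀ t, ρ ≤ t → expNegInvGlue (ρ ^ 2 - t ^ 2) = 0 := fun t ht =>
    expNegInvGlue.zero_of_nonpos (by nlinarith)
  have h3 : 0 < ∫ y : E d, expNegInvGlue (ρ ^ 2 - ‖y‖ ^ 2) := by
    refine h1.continuous.integral_pos_of_hasCompactSupport_nonneg_nonzero (x := 0) ?_
      (fun _ => expNegInvGlue.nonneg _) (expNegInvGlue.pos_of_pos (by simpa using pow_pos hρ 2)).ne'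
    refine HasCompactSupport.intro (isCompact_closedBall (0 : E d) ρ) fun y hy => h2 _ ?_
    rw [mem_closedBall_zero_iff, not_le] at hy
    exact hy.le
  refine ⟨fun t => (∫ y : E d, expNegInvGlue (ρ ^ 2 - ‖y‖ ^ 2))⁻¹ * expNegInvGlue (ρ ^ 2 - t ^ 2), ?_,
    fun t => mul_nonneg (inv_nonneg.2 h3.le) (expNegInvGlue.nonneg _), fun t ht => by simp only [h2 t ht, mul_zero],
    contDiff_const.mul h1, ?_⟩
  · exact continuous_const.mul ((expNegInvGlue.contDiff (n := 0)).continuous.comp (by fun_prop))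
  · rw [integral_const_mul]
    exact inv_mul_cancel₀ h3.ne'

theorem tsupport_ker {m : ℝ → ℝ} {ρ : ℝ} (hs : ∀ t, ρ ≤ t → m t = 0) :
    tsupport (fun y : E d => m ‖y‖) ⊆ closedBall 0 ρ := by
  refine closure_minimal (fun y hy => ?_) isClosed_closedBall
  rw [mem_closedBall_zero_iff]
  by_contra h
  exact hy (hs _ (not_le.1 h).le)

theorem hasCompactSupport_ker {m : ℝ → ℝ} {ρ : ℝ} (hs : ∀ t, ρ ≤ t → m t = 0) :
    HasCompactSupport (fun y : E d => m ‖y‖) := by
  exact (isCompact_closedBall (0 : E d) ρ).of_isClosed_subset (isClosed_tsupport _) (tsupport_ker hs)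

end Crest.Agent.R97
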