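import Crest.Agent.R97.Bas
import Crest.Agent.R97.Har_W
import Crest.Agent.R97.Har_G

/-! R97/Har_L (part of Har, sub-lead helper5; keep the statement; aux names `harl_*`): limits.
`f` is continuous on the ball (`TendstoUniformlyOn.continuousOn`); `∫ F k * lap φ = 0` eventually (`Harm.weak`) and
`|∫ (F k - f) * lap φ| ≤ ε ∫ |lap φ|` (`integrable_mul_test`, `tsupport_lap`), so `weyl` applies.  Then `grad_bound` for `F k - f`
(`Harm.sub`, `pd_sub`) and convergence of each coordinate (`gradient_apply`, `PiLp.tendsto..`/`EuclideanSpace.norm_eq`). -/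

set_option autoImplicit false
open MeasureTheory Metric Set Filter Topology
open scoped RealInnerProductSpace NNReal

namespace Crest.Agent.R97

variable {d : ℕ}

/-- gradients of locally uniformly convergent harmonic functions converge -/
theorem tendsto_gradient {F : ℕ → E d → ℝ} {f : E d → ℝ} {x : E d} {r : ℝ} (hr : 0 < r)
    (hF : ∀ᶠ k in atTop, Harm (F k) (ball x r)) (h : TendstoUniformlyOn F f atTop (ball x r)) :
    Harm f (ball x r) ∧ Tendsto (fun k => gradient (F k) x) atTop (𝓝 (gradient f x)) := by
  have hc : ContinuousOn f (ball x r) := h.continuousOn (hF.mono fun k hk => hk.1.continuousOn).frequently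
  have hu := Metric.tendstoUniformlyOn_iff.1 h
  have hf : Harm f (ball x r) := by
    refine weyl isOpen_ball hc fun φ hφ hφc hφs => ?_
    have h1 : Continuous (lap φ) := (contDiff_lap hφ).continuous
    have h2 : HasCompactSupport (lap φ) := hφc.of_isClosed_subset (isClosed_tsupport _) (tsupport_lap φ)
    have h3 : tsupport (lap φ) ⊆ ball x r := (tsupport_lap φ).trans hφs
    have h4 : Integrable fun y => |lap φ y| := (h1.integrable_of_hasCompactSupport h2).abs
    have h5 : 0 ≤ ∫ y, |lap φ y| := integral_nonneg fun _ => abs_nonneg _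
    refine abs_nonpos_iff.1 (le_of_forall_pos_le_add fun ε hε => ?_)
    have hε' : 0 < ε / (1 + ∫ y, |lap φ y|) := by positivity
    obtain ⟨k, hk, hk'⟩ := (hF.and (hu _ hε')).exists
    have h6 := hk.weak isOpen_ball (hφ.of_le (WithTop.coe_le_coe.2 le_top)) hφc hφs
    have i1 := integrable_mul_test isOpen_ball hc h1 h2 h3
    have i2 := integrable_mul_test isOpen_ball hk.1.continuousOn h1 h2 h3
    rw [zero_add, ← sub_zero (∫ y, f y * lap φ y), ← h6, ← integral_sub i1 i2]
    rw [← Real.norm_eq_abs]
    refine (norm_integral_le_of_norm_le (h4.const_mul (ε / (1 + ∫ y, |lap φ y|))) (.of_forall fun y => ?_)).trans ?_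
    · by_cases hy : y ∈ ball x r
      · rw [← sub_mul, norm_mul]
        exact mul_le_mul_of_nonneg_right (hk' y hy).le (abs_nonneg _)
      · simp [image_eq_zero_of_notMem_tsupport fun h7 => hy (h3 h7)]
    · rw [integral_const_mul, div_mul_eq_mul_div, div_le_iff₀ (by positivity)]
      nlinarith
  refine ⟨hf, ?_⟩
  obtain ⟨C, hC, hb⟩ := grad_bound d
  have key : ∀ i, Tendsto (fun k => pd i (F k) x) atTop (𝓝 (pd i f x)) := fun i => by
    refine Metric.tendsto_nhds.2 fun ε hε => ?_
    filter_upwards [hF, hu (ε * r / (2 * C)) (by positivity)] with k hk hk'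
    have h1 := hb _ x r (ε * r / (2 * C)) hr (hk.sub isOpen_ball hf)
      (fun y hy => by rw [abs_sub_comm]; exact (hk' y hy).le) i
    have hx := ball_mem_nhds x hr
    rw [pd_sub ((hk.1.contDiffAt hx).differentiableAt (by simp)) ((hf.1.contDiffAt hx).differentiableAt (by simp)),
      show C * (ε * r / (2 * C)) / r = ε / 2 by field_simp] at h1
    exact h1.trans_lt (half_lt_self hε)
  have e : ∀ g : E d → ℝ, gradient g x = WithLp.toLp 2 fun i => pd i g x := fun g => by
    ext i
    exact gradient_apply g x i
  simp only [e]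
  exact ((PiLp.continuous_toLp 2 _).tendsto _).comp (tendsto_pi_nhds.2 key)

end Crest.Agent.R97
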