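import Crest.Agent.R97.Har_A

/-! R97/Har_M (part of Har, sub-lead helper5; keep the statements; aux names `harm_*`): weak maximum principle.
At an interior local maximum of a `C²` function `g`, `t ↦ g (x + t • e_i)` has a local maximum at `0`, so `pd i (pd i g) x ≤ 0`
(otherwise `isLocalMin_of_deriv_deriv_pos`, or: `pd i g (x + t e_i) > 0` for small `t > 0` and the mean value theorem).
Apply it to `f + ε ‖y‖²` on the compact `closure D` (`lap_add`, `lap_const_mul`, `lap_norm_sq`), `closure D = D ∪ frontier D`, `ε → 0`. -/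

set_option autoImplicit false
open MeasureTheory Metric Set Filter Topology
open scoped RealInnerProductSpace NNReal

namespace Crest.Agent.R97

variable {d : ℕ}

theorem harm_line {g : E d → ℝ} {x : E d} (i : Fin d) {t : ℝ}
    (hg : DifferentiableAt ℝ g (x + t • EuclideanSpace.single i 1)) :
    HasDerivAt (fun t : ℝ => g (x + t • EuclideanSpace.single i 1)) (pd i g (x + t • EuclideanSpace.single i 1)) t := by
  have := hg.hasFDerivAt.comp_hasDerivAt t (((hasDerivAt_id t).smul_const (EuclideanSpace.single i (1 : ℝ))).const_add x)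
  rwa [one_smul] at this

theorem lap_nonpos_of_isLocalMax {g : E d → ℝ} {x : E d} (hg : ContDiffAt ℝ 2 g x) (h : IsLocalMax g x) :
    lap g x ≤ 0 := by
  refine Finset.sum_nonpos fun i _ => le_of_not_gt fun hp => ?_
  have hc : Tendsto (fun t : ℝ => x + t • EuclideanSpace.single i (1 : ℝ)) (𝓝 0) (𝓝 x) :=
    Continuous.tendsto' (by fun_prop) _ _ (by simp)
  have h1 : deriv (fun t : ℝ => g (x + t • EuclideanSpace.single i 1)) =ᶠ[𝓝 0]
      fun t => pd i g (x + t • EuclideanSpace.single i 1) :=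
    (hc.eventually (hg.eventually (by simp))).mono fun t ht => (harm_line i (ht.differentiableAt (by simp))).deriv
  have h2 := (harm_line (g := pd i g) (x := x) (t := 0) i
    (by simpa using (contDiffAt_pd (m := 1) hg (by norm_num) i).differentiableAt (by simp))).deriv
  rw [← h1.deriv_eq, zero_smul, add_zero] at h2
  have h3 : IsLocalMax (fun t : ℝ => g (x + t • EuclideanSpace.single i 1)) 0 :=
    (hc.eventually h).mono fun t ht => by simpa using ht
  have h4 := isLocalMin_of_deriv_deriv_pos (h2 ▸ hp) h3.deriv_eq_zero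
    (harm_line (x := x) (t := 0) i (by simpa using hg.differentiableAt (by simp))).continuousAt
  have h5 : (fun t : ℝ => g (x + t • EuclideanSpace.single i 1)) =ᶠ[𝓝 0]
      fun _ => g (x + (0 : ℝ) • EuclideanSpace.single i 1) := (h3.and h4).mono fun t ht => le_antisymm ht.1 ht.2
  rw [h5.deriv.deriv_eq] at h2
  simp [← h2] at hp

/-- weak maximum principle -/
theorem max_principle (hd : 1 ≤ d) {f : E d → ℝ} {D : Set (E d)} (hD : IsOpen D) (hb : Bornology.IsBounded D)
    (hc : ContinuousOn f (closure D)) (hf : ContDiffOn ℝ 2 f D) (hl : ∀ x ∈ D, 0 ≤ lap f x) {M : ℝ}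
    (hM : ∀ x ∈ frontier D, f x ≤ M) : ∀ x ∈ D, f x ≤ M := by
  intro x hx
  obtain ⟨R, hR0, hR⟩ := hb.closure.exists_pos_norm_le
  refine le_of_forall_pos_le_add fun ε hε => ?_
  have hε' : 0 < ε / R ^ 2 := by positivity
  obtain ⟨z, hz, hmax⟩ := hb.isCompact_closure.exists_isMaxOn (f := fun y => f y + ε / R ^ 2 * ‖y - 0‖ ^ 2)
    ⟨x, subset_closure hx⟩ (hc.add (by fun_prop))
  have h1 : z ∈ frontier D := by
    rw [hD.frontier_eq]
    refine ⟨hz, fun hzD => ?_⟩
    have a1 := hf.contDiffAt (hD.mem_nhds hzD)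
    have a2 : ContDiffAt ℝ 2 (fun y : E d => ε / R ^ 2 * ‖y - 0‖ ^ 2) z :=
      contDiffAt_const.mul ((contDiffAt_id.sub contDiffAt_const).norm_sq ℝ)
    have a3 := lap_nonpos_of_isLocalMax (a1.add a2)
      (hmax.isLocalMax (mem_of_superset (hD.mem_nhds hzD) subset_closure))
    rw [lap_add a1 a2, lap_const_mul, lap_norm_sq] at a3
    have a4 : (0 : ℝ) < d := by exact_mod_cast hd
    linarith [hl z hzD, mul_pos hε' (mul_pos two_pos a4)]
  have h2 : f x + ε / R ^ 2 * ‖x - 0‖ ^ 2 ≤ f z + ε / R ^ 2 * ‖z - 0‖ ^ 2 := hmax (subset_closure hx)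
  have h3 : ε / R ^ 2 * ‖z - 0‖ ^ 2 ≤ ε := by
    rw [sub_zero, div_mul_eq_mul_div, div_le_iff₀ (by positivity)]
    exact mul_le_mul_of_nonneg_left (pow_le_pow_left₀ (norm_nonneg _) (hR z hz) 2) hε.le
  linarith [hM z h1, mul_nonneg hε'.le (sq_nonneg ‖x - 0‖)]

end Crest.Agent.R97
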