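import Crest.Agent.R97.Har_A

/-! R97/Har_R (part of Har, sub-lead helper5; keep the statements; aux names `harr_*`): rotations, cubic jets.
rot: `pd i (pd j f) x = fderiv (fderiv f) x e_i e_j =: B e_i e_j`; the second derivative of `f ∘ R` is `B (R ·) (R ·)`, and
`∑ B (v i) (v i)` is the same for every orthonormal basis (`InnerProductSpace.laplacian_eq_iteratedFDeriv_orthonormalBasis`
with `(EuclideanSpace.basisFun _ _).map R`, or expand `R e_i` in coordinates).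
harm_P: `pd_sum`, `pd_mul`, `pd_coord`; `pd k P y = w k + ∑ A k b y b + ½ ∑∑ T k b c y b y c`. -/

set_option autoImplicit false
open MeasureTheory Metric Set Filter Topology
open scoped RealInnerProductSpace NNReal

namespace Crest.Agent.R97

variable {d : ℕ}

theorem harr_lap {f : E d → ℝ} {x : E d} (hf : ContDiffAt ℝ 2 f x) (v : OrthonormalBasis (Fin d) ℝ (E d)) :
    lap f x = ∑ i, iteratedFDeriv ℝ 2 f x ![v i, v i] := by
  rw [← congrFun (InnerProductSpace.laplacian_eq_iteratedFDeriv_orthonormalBasis f v) x,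
    InnerProductSpace.laplacian_eq_iteratedFDeriv_orthonormalBasis f (EuclideanSpace.basisFun (Fin d) ℝ)]
  refine Finset.sum_congr rfl fun i _ => ?_
  have h1 := ((hf.fderiv_right (m := 1) (by norm_num)).differentiableAt one_ne_zero).hasFDerivAt.clm_apply
    (hasFDerivAt_const (EuclideanSpace.single i (1 : ℝ)) x)
  rw [iteratedFDeriv_two_apply]
  unfold pd
  rw [h1.fderiv]
  simp

theorem harr_c (i : Fin d) (y : E d) : HasFDerivAt (fun y : E d => y i) (EuclideanSpace.proj i : E d →L[ℝ] ℝ) y :=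
  (EuclideanSpace.proj i : E d →L[ℝ] ℝ).hasFDerivAt

theorem harr_1 (A : Fin d → ℝ) (y : E d) : ∃ D : E d →L[ℝ] ℝ, HasFDerivAt (fun y : E d => ∑ a, A a * y a) D y ∧
    ∀ k, D (EuclideanSpace.single k 1) = A k :=
  ⟨_, HasFDerivAt.fun_sum fun a _ => (harr_c a y).const_mul (A a), fun k => by simp⟩

theorem harr_2 (A : Fin d → Fin d → ℝ) (hA : ∀ a b, A a b = A b a) (y : E d) :
    ∃ D : E d →L[ℝ] ℝ, HasFDerivAt (fun y : E d => (∑ a, ∑ b, A a b * y a * y b) / 2) D y ∧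
      ∀ k, D (EuclideanSpace.single k 1) = ∑ b, A k b * y b := by
  refine ⟨_, (HasFDerivAt.fun_sum fun a _ => HasFDerivAt.fun_sum fun b _ =>
    ((harr_c a y).const_mul (A a b)).fun_mul (harr_c b y)).mul_const (2 : ℝ)⁻¹, fun k => ?_⟩
  simp [Finset.sum_add_distrib, hA _ k, mul_comm]
  ring

theorem harr_3 (T : Fin d → Fin d → Fin d → ℝ) (h1 : ∀ a b c, T a b c = T b a c) (h2 : ∀ a b c, T a b c = T a c b)
    (y : E d) : ∃ D : E d →L[ℝ] ℝ, HasFDerivAt (fun y : E d => (∑ a, ∑ b, ∑ c, T a b c * y a * y b * y c) / 6) D y ∧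
      ∀ k, D (EuclideanSpace.single k 1) = (∑ b, ∑ c, T k b c * y b * y c) / 2 := by
  refine ⟨_, (HasFDerivAt.fun_sum fun a _ => HasFDerivAt.fun_sum fun b _ => HasFDerivAt.fun_sum fun c _ =>
    (((harr_c a y).const_mul (T a b c)).fun_mul (harr_c b y)).fun_mul (harr_c c y)).mul_const (6 : ℝ)⁻¹, fun k => ?_⟩
  have e1 : ∀ a b, T a b k = T k a b := fun a b => by rw [h2, h1]
  simp [Finset.sum_add_distrib, e1, h1 _ k, mul_comm, mul_left_comm]
  ring

theorem lap_rot {f : E d → ℝ} (R : E d ≃ₗᵢ[ℝ] E d) {x : E d} (hf : ContDiffAt ℝ 2 f (R x)) :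
    lap (fun x => f (R x)) x = lap f (R x) := by
  have h1 := R.toContinuousLinearEquiv.iteratedFDerivWithin_comp_right f uniqueDiffOn_univ (mem_univ (R x)) 2
  simp only [preimage_univ, iteratedFDerivWithin_univ] at h1
  rw [harr_lap hf ((EuclideanSpace.basisFun (Fin d) ℝ).map R),
    harr_lap (f := fun x => f (R x)) (hf.comp x R.toContinuousLinearEquiv.contDiff.contDiffAt) (EuclideanSpace.basisFun (Fin d) ℝ)]
  refine Finset.sum_congr rfl fun i _ => congr($h1 _).trans ?_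
  rw [ContinuousMultilinearMap.compContinuousLinearMap_apply]
  congr 1
  funext k
  fin_cases k <;> rfl

theorem Harm.rot {f : E d → ℝ} {U : Set (E d)} (hU : IsOpen U) (hf : Harm f U) (R : E d ≃ₗᵢ[ℝ] E d) :
    Harm (fun x => f (R x)) (R ⁻¹' U) := by
  refine ⟨hf.1.comp R.toContinuousLinearEquiv.contDiff.contDiffOn fun _ h => h, fun x hx => ?_⟩
  rw [lap_rot R ((hf.1.contDiffAt (hU.mem_nhds hx)).of_le (WithTop.coe_le_coe.2 le_top)), hf.2 _ hx]

theorem Jet.contDiff_P (j : Jet d) : ContDiff ℝ (⊤ : ℕ∞) j.P := by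
  unfold Jet.P
  have : ContDiff ℝ (⊤ : ℕ∞) fun y : E d => ⟪j.w, y⟫ := contDiff_const.inner ℝ contDiff_id
  fun_prop

theorem Jet.pd_P {j : Jet d} (hAs : ∀ a b, j.A a b = j.A b a)
    (h1 : ∀ a b c, j.T a b c = j.T b a c) (h2 : ∀ a b c, j.T a b c = j.T a c b) (k : Fin d) (y : E d) :
    pd k j.P y = j.w k + ∑ b, j.A k b * y b + (∑ b, ∑ c, j.T k b c * y b * y c) / 2 := by
  obtain ⟨D2, h3, h4⟩ := harr_2 j.A hAs y
  obtain ⟨D3, h5, h6⟩ := harr_3 j.T h1 h2 y
  have h7 : HasFDerivAt j.P _ y := ((innerSL ℝ j.w).hasFDerivAt.add h3).add h5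
  rw [pd, h7.fderiv]
  simp [h4, h6, EuclideanSpace.inner_single_right]

theorem Jet.pd_pd_P {j : Jet d} (hAs : ∀ a b, j.A a b = j.A b a)
    (h1 : ∀ a b c, j.T a b c = j.T b a c) (h2 : ∀ a b c, j.T a b c = j.T a c b) (k l : Fin d) (y : E d) :
    pd k (pd l j.P) y = j.A k l + ∑ c, j.T k l c * y c := by
  obtain ⟨D1, h3, h4⟩ := harr_1 (j.A l) y
  obtain ⟨D2, h5, h6⟩ := harr_2 (j.T l) (h2 l) y
  rw [funext (Jet.pd_P hAs h1 h2 l), pd, ((h3.const_add (j.w l)).fun_add h5).fderiv]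
  simp [h4, h6, hAs l k, h1 l k]

theorem Jet.pd_pd_pd_P {j : Jet d} (hAs : ∀ a b, j.A a b = j.A b a)
    (h1 : ∀ a b c, j.T a b c = j.T b a c) (h2 : ∀ a b c, j.T a b c = j.T a c b) (k l m : Fin d) (y : E d) :
    pd k (pd l (pd m j.P)) y = j.T k l m := by
  obtain ⟨D1, h3, h4⟩ := harr_1 (j.T l m) y
  rw [funext (Jet.pd_pd_P hAs h1 h2 l m), pd, (h3.const_add (j.A l m)).fderiv, h4, h2, h1]

theorem Jet.harm_P {j : Jet d} (hA : ∑ a, j.A a a = 0) (hAs : ∀ a b, j.A a b = j.A b a)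
    (h1 : ∀ a b c, j.T a b c = j.T b a c) (h2 : ∀ a b c, j.T a b c = j.T a c b)
    (hT : ∀ c, ∑ a, j.T a a c = 0) : Harm j.P univ := by
  refine ⟨j.contDiff_P.contDiffOn, fun x _ => ?_⟩
  simp only [lap, Jet.pd_pd_P hAs h1 h2, Finset.sum_add_distrib, hA, zero_add]
  rw [Finset.sum_comm]
  simp [← Finset.sum_mul, hT]

end Crest.Agent.R97
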