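import Crest.Agent.R97.Har_I

/-! R97/Har_S (part of Har, sub-lead helper5; aux names `hars_*`): mean value (in)equalities. -/

set_option autoImplicit false
open MeasureTheory Metric Set Filter Topology
open scoped RealInnerProductSpace NNReal

namespace Crest.Agent.R97

variable {d : ℕ}

/-- the potential of a radial weight: `∇ψ = - y m ‖y‖` -/
theorem hars_pot {m : ℝ → ℝ} (hm : Continuous m) (hm0 : ∀ t, 0 ≤ m t) {ρ : ℝ} (hρ : 0 < ρ)
    (hs : ∀ t, ρ ≤ t → m t = 0) : ∃ ψ : E d → ℝ, ContDiff ℝ 1 ψ ∧ (∀ y, 0 ≤ ψ y) ∧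
      tsupport ψ ⊆ closedBall 0 ρ ∧ ∀ i y, pd i ψ y = -(y i * m ‖y‖) := by
  have hc : Continuous fun u => m (Real.sqrt u) := hm.comp Real.continuous_sqrt
  have hd : ∀ s, HasDerivAt (fun s => ∫ u in s..ρ ^ 2, m (Real.sqrt u)) (-m (Real.sqrt s)) s := fun s =>
    intervalIntegral.integral_hasDerivAt_left (hc.intervalIntegrable _ _)
      (hc.stronglyMeasurableAtFilter _ _) hc.continuousAt
  have h1 : ContDiff ℝ 1 fun s => ∫ u in s..ρ ^ 2, m (Real.sqrt u) := by
    refine contDiff_one_iff_deriv.2 ⟨fun s => (hd s).differentiableAt, ?_⟩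
    rw [show (deriv fun s => ∫ u in s..ρ ^ 2, m (Real.sqrt u)) = fun s => -m (Real.sqrt s) from
      funext fun s => (hd s).deriv]
    exact hc.neg
  have h0 : ∀ t, ρ ≤ t → 1 / 2 * ∫ u in (t ^ 2)..ρ ^ 2, m (Real.sqrt u) = 0 := by
    intro t ht
    rw [intervalIntegral.integral_congr (g := fun _ => (0 : ℝ)), intervalIntegral.integral_zero, mul_zero]
    intro u hu
    rw [Set.uIcc_of_ge (by nlinarith)] at hu
    exact hs _ (Real.le_sqrt_of_sq_le hu.1)
  refine ⟨fun y => 1 / 2 * ∫ u in (‖y‖ ^ 2)..ρ ^ 2, m (Real.sqrt u),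
    contDiff_const.mul (h1.comp (contDiff_norm_sq ℝ)), fun y => ?_,
    tsupport_ker (m := fun t => 1 / 2 * ∫ u in (t ^ 2)..ρ ^ 2, m (Real.sqrt u)) h0, fun i y => ?_⟩
  · rcases le_total ‖y‖ ρ with h | h
    · exact mul_nonneg (by norm_num) (intervalIntegral.integral_nonneg
        (pow_le_pow_left₀ (norm_nonneg _) h 2) fun u _ => hm0 _)
    · exact (h0 _ h).ge
  · have h2 := ((hd (‖y‖ ^ 2)).comp_hasFDerivAt y (hasStrictFDerivAt_norm_sq y).hasFDerivAt).const_mul (1 / 2)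
    have h3 : fderiv ℝ (fun y : E d => 1 / 2 * ∫ u in (‖y‖ ^ 2)..ρ ^ 2, m (Real.sqrt u)) y = _ := h2.fderiv
    unfold pd
    rw [h3]
    simp [EuclideanSpace.inner_single_right]
    ring

theorem hars_deriv {g : E d → ℝ} {r : ℝ} (hg : ContDiffOn ℝ 2 g (ball 0 r)) (hl : ∀ y ∈ ball 0 r, 0 ≤ lap g y)
    {m : ℝ → ℝ} (hm : Continuous m) (hm0 : ∀ t, 0 ≤ m t) {ρ : ℝ} (hρ : 0 < ρ)
    (hs : ∀ t, ρ ≤ t → m t = 0) {t : ℝ} (ht : 0 ≤ t) (htr : t * ρ < r) :
    0 ≤ ∫ y : E d, fderiv ℝ g (t • y) y * m ‖y‖ := by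
  obtain ⟨ψ, hψ, hψ0, hψs, hψd⟩ := hars_pot (d := d) hm hm0 hρ hs
  have hU : IsOpen ((fun y : E d => t • y) ⁻¹' ball 0 r) := isOpen_ball.preimage (by fun_prop)
  have hsub : closedBall (0 : E d) ρ ⊆ (fun y : E d => t • y) ⁻¹' ball 0 r := fun y hy => by
    rw [mem_closedBall_zero_iff] at hy
    rw [mem_preimage, mem_ball_zero_iff, norm_smul, Real.norm_of_nonneg ht]
    exact (mul_le_mul_of_nonneg_left hy ht).trans_lt htr
  have hcs : HasCompactSupport ψ :=
    (isCompact_closedBall (0 : E d) ρ).of_isClosed_subset (isClosed_tsupport _) hψs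
  have g1 : ∀ i, ContDiffOn ℝ 1 (pd i g) (ball 0 r) := fun i => contDiffOn_pd isOpen_ball hg (by norm_num) i
  have g2 : ∀ i, ContDiffOn ℝ 1 (fun y : E d => pd i g (t • y)) ((fun y : E d => t • y) ⁻¹' ball 0 r) :=
    fun i => (g1 i).comp (contDiff_id.const_smul t).contDiffOn fun y hy => hy
  have e1 : ∀ y : E d, fderiv ℝ g (t • y) y * m ‖y‖ = -∑ i, pd i g (t • y) * pd i ψ y := by
    intro y
    rw [fderiv_eq_sum_pd, Finset.sum_mul, ← Finset.sum_neg_distrib]
    refine Finset.sum_congr rfl fun i _ => ?_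
    rw [hψd]
    ring
  have e2 : ∀ i (y : E d), pd i (fun y : E d => pd i g (t • y)) y = t * pd i (pd i g) (t • y) := by
    intro i y
    simpa using pd_shift (pd i g) 0 t i y
  simp only [e1]
  rw [integral_neg, integral_finsetSum _ fun i _ => integrable_mul_test hU (g2 i).continuousOn
    (contDiff_pd (m := 0) hψ (by simp) i).continuous (hari_hcs hcs i)
    ((tsupport_pd ψ i).trans (hψs.trans hsub))]
  simp only [ibp_pd hU (g2 _) hψ hcs (hψs.trans hsub), Finset.sum_neg_distrib, neg_neg]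
  rw [← integral_finsetSum _ fun i _ => integrable_mul_test hU
    (contDiffOn_pd (m := 0) hU (g2 i) (by simp) i).continuousOn hψ.continuous hcs (hψs.trans hsub)]
  refine integral_nonneg fun y => ?_
  simp only [e2, ← Finset.sum_mul, ← Finset.mul_sum]
  by_cases hy : y ∈ tsupport ψ
  · exact mul_nonneg (mul_nonneg ht (hl _ (hsub (hψs hy)))) (hψ0 y)
  · simp [image_eq_zero_of_notMem_tsupport hy]

theorem hars_zero {g : E d → ℝ} {r : ℝ} (hg : ContDiffOn ℝ 2 g (ball 0 r)) (hl : ∀ y ∈ ball 0 r, 0 ≤ lap g y)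
    {m : ℝ → ℝ} (hm : Continuous m) (hm0 : ∀ t, 0 ≤ m t) {ρ : ℝ} (hρ : 0 < ρ) (hr : ρ < r)
    (hs : ∀ t, ρ ≤ t → m t = 0) : g 0 * ∫ y : E d, m ‖y‖ ≤ ∫ y : E d, g y * m ‖y‖ := by
  obtain ⟨R, hR1, hR2⟩ := exists_between hr
  have hmc : Continuous fun y : E d => m ‖y‖ := hm.comp continuous_norm
  have hcs := hasCompactSupport_ker (d := d) hs
  have hD : ContinuousOn (fderiv ℝ g) (ball 0 r) := hg.continuousOn_fderiv_of_isOpen isOpen_ball (by norm_num)
  obtain ⟨K, hK⟩ := (isCompact_closedBall (0 : E d) R).exists_bound_of_continuousOn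
    (hD.mono (closedBall_subset_ball hR2))
  have hin : ∀ t ∈ ball (0 : ℝ) (R / ρ), ∀ y : E d, ‖y‖ ≤ ρ → t • y ∈ closedBall (0 : E d) R := by
    intro t ht y hy
    rw [mem_ball_zero_iff, lt_div_iff₀ hρ] at ht
    rw [mem_closedBall_zero_iff, norm_smul]
    exact (mul_le_mul_of_nonneg_left hy (norm_nonneg _)).trans ht.le
  have hU : ∀ t : ℝ, IsOpen ((fun y : E d => t • y) ⁻¹' ball 0 r) := fun t => isOpen_ball.preimage (by fun_prop)
  have hsub : ∀ t ∈ ball (0 : ℝ) (R / ρ), tsupport (fun y : E d => m ‖y‖) ⊆ (fun y : E d => t • y) ⁻¹' ball 0 r :=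
    fun t ht y hy => by
      have h1 : y ∈ closedBall (0 : E d) ρ := tsupport_ker (d := d) hs hy
      have h2 : t • y ∈ ball (0 : E d) r := closedBall_subset_ball hR2 (hin t ht y (mem_closedBall_zero_iff.1 h1))
      exact h2
  have hI : ∀ t ∈ ball (0 : ℝ) (R / ρ), Integrable fun y : E d => g (t • y) * m ‖y‖ := fun t ht =>
    integrable_mul_test (hU t) (hg.continuousOn.comp (by fun_prop) fun y hy => hy) hmc hcs (hsub t ht)
  have hI' : ∀ t ∈ ball (0 : ℝ) (R / ρ), Integrable fun y : E d => fderiv ℝ g (t • y) y * m ‖y‖ := fun t ht =>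
    integrable_mul_test (hU t) ((hD.comp (f := fun y : E d => t • y) (by fun_prop) fun y hy => hy).clm_apply
      continuousOn_id) hmc hcs
      (hsub t ht)
  have hder : ∀ t ∈ ball (0 : ℝ) (R / ρ), HasDerivAt (fun t : ℝ => ∫ y : E d, g (t • y) * m ‖y‖)
      (∫ y : E d, fderiv ℝ g (t • y) y * m ‖y‖) t := by
    intro t ht
    refine (hasDerivAt_integral_of_dominated_loc_of_deriv_le (bound := fun y : E d => K * ρ * m ‖y‖)
      (F' := fun (t : ℝ) (y : E d) => fderiv ℝ g (t • y) y * m ‖y‖) (isOpen_ball.mem_nhds ht)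
      (by filter_upwards [isOpen_ball.mem_nhds ht] with s hs' using (hI s hs').aestronglyMeasurable)
      (hI t ht) (hI' t ht).aestronglyMeasurable (.of_forall fun y s hs' => ?_)
      ((hmc.integrable_of_hasCompactSupport hcs).const_mul _) (.of_forall fun y s hs' => ?_)).2
    · rcases le_total ‖y‖ ρ with h | h
      · rw [norm_mul, Real.norm_of_nonneg (hm0 _)]
        refine mul_le_mul_of_nonneg_right (((fderiv ℝ g (s • y)).le_opNorm y).trans ?_) (hm0 _)
        exact mul_le_mul (hK _ (hin s hs' y h)) h (norm_nonneg _) ((norm_nonneg _).trans (hK _ (hin s hs' y h)))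
      · simp [hs _ h]
    · rcases le_total ‖y‖ ρ with h | h
      · have h1 : DifferentiableAt ℝ g (s • y) := (hg.contDiffAt
          (isOpen_ball.mem_nhds (closedBall_subset_ball hR2 (hin s hs' y h)))).differentiableAt (by norm_num)
        have h2 := h1.hasFDerivAt.comp_hasDerivAt s ((hasDerivAt_id s).smul_const y)
        simpa using h2.mul_const (m ‖y‖)
      · simpa [hs _ h] using hasDerivAt_const s (0 : ℝ)
  have h1R : 1 < R / ρ := (one_lt_div hρ).2 hR1
  have hIcc : ∀ t ∈ Icc (0 : ℝ) 1, t ∈ ball (0 : ℝ) (R / ρ) := fun t ht => by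
    rw [mem_ball_zero_iff, Real.norm_of_nonneg ht.1]
    exact ht.2.trans_lt h1R
  obtain ⟨c, hc, he⟩ := exists_hasDerivAt_eq_slope _ _ zero_lt_one
    (fun t ht => (hder t (hIcc t ht)).continuousAt.continuousWithinAt)
    (fun t ht => hder t (hIcc t (Ioo_subset_Icc_self ht)))
  have h2 := hars_deriv hg hl hm hm0 hρ hs hc.1.le (by nlinarith [hc.2])
  rw [he] at h2
  simp only [one_smul, zero_smul, integral_const_mul, sub_zero, div_one] at h2
  linarith

/-- sub-mean value inequality against any radial weight -/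
theorem submean {f : E d → ℝ} {x : E d} {r : ℝ} (hf : ContDiffOn ℝ 2 f (ball x r))
    (hl : ∀ y ∈ ball x r, 0 ≤ lap f y) {m : ℝ → ℝ} (hm : Continuous m) (hm0 : ∀ t, 0 ≤ m t) {r' : ℝ}
    (hr : r' < r) (hs : ∀ t, r' ≤ t → m t = 0) :
    f x * ∫ y : E d, m ‖y‖ ≤ ∫ y : E d, f (x + y) * m ‖y‖ := by
  rcases le_or_gt r' 0 with h | h
  · simp [fun y : E d => hs ‖y‖ (h.trans (norm_nonneg y))]
  have hmem : ∀ y ∈ ball (0 : E d) r, x + y ∈ ball x r := fun y hy => by simpa using hy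
  have := hars_zero (g := fun y => f (x + y)) (r := r)
    (hf.comp (contDiff_const.add contDiff_id).contDiffOn hmem)
    (fun y hy => by
      have e := lap_shift f x 1 y
      simp only [one_smul, one_pow, one_mul] at e
      rw [e]
      exact hl _ (hmem y hy)) hm hm0 h hr hs
  simpa using this

/-- mean value property against any radial weight -/
theorem Harm.mean {f : E d → ℝ} {x : E d} {r : ℝ} (hf : Harm f (ball x r)) {m : ℝ → ℝ} (hm : Continuous m)
    (hm0 : ∀ t, 0 ≤ m t) {r' : ℝ} (hr : r' < r) (hs : ∀ t, r' ≤ t → m t = 0) :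
    ∫ y : E d, f (x + y) * m ‖y‖ = f x * ∫ y : E d, m ‖y‖ := by
  have h2 : ∀ {g : E d → ℝ}, Harm g (ball x r) → g x * ∫ y : E d, m ‖y‖ ≤ ∫ y : E d, g (x + y) * m ‖y‖ :=
    fun hg => submean (hg.1.of_le (WithTop.coe_le_coe.2 le_top)) (fun y hy => (hg.2 y hy).ge) hm hm0 hr hs
  have h3 := h2 (hf.const_mul isOpen_ball (-1))
  simp only [neg_mul, one_mul, integral_neg] at h3
  linarith [h2 hf]

end Crest.Agent.R97
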