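import Crest.Agent.R97.Bas
import Crest.Agent.R97.Har_G

/-! R97/Har_T (part of Har, sub-lead helper5; keep the statement; aux names `hart_*`): Taylor expansion.
Fix `y`.  `D h z = ∑ a, y a * pd a h z` is harmonic with `h` (`Harm.sum`, `Harm.const_mul`, `Harm.pd`), and `grad_bound` on balls of radius
`r/8` gives `|D h| ≤ d ‖y‖ C M' / (r/8)` on `ball 0 (s - r/8)` if `|h| ≤ M'` on `ball 0 s`; four steps from `s = r` (the last one at points
`‖z‖ ≤ r/2`).  `t ↦ h (t • y)` has derivative `D h (t • y)` (`fderiv_eq_sum_pd`).  With `g_k t = D^k f (t • y)`: `|g_3 t - g_3 0| ≤ K`,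
`|g_2 t - g_2 0 - t g_3 0| ≤ K`, ... on `[0,1]` by the mean value inequality four times
(`norm_image_sub_le_of_norm_deriv_le_segment_01'` / `Convex.norm_image_sub_le_of_norm_hasDerivWithin_le`).
`D^k f 0` is the `k`-th term of `Jet.P` (`pd_sum`, `pd_const_mul`, `gradient_apply`). -/

set_option autoImplicit false
open MeasureTheory Metric Set Filter Topology
open scoped RealInnerProductSpace NNReal

namespace Crest.Agent.R97

variable {d : ℕ}

/-- directional derivative in coordinates -/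
noncomputable def hart_D (y : E d) (h : E d → ℝ) (z : E d) : ℝ := ∑ a, y a * pd a h z

theorem hart_diff {h : E d → ℝ} {U : Set (E d)} (hU : IsOpen U) (hh : Harm h U) {z : E d} (hz : z ∈ U) :
    DifferentiableAt ℝ h z :=
  (hh.1.contDiffAt (hU.mem_nhds hz)).differentiableAt (by simp)

theorem hart_harm (y : E d) {h : E d → ℝ} {U : Set (E d)} (hU : IsOpen U) (hh : Harm h U) :
    Harm (hart_D y h) U :=
  Harm.sum Finset.univ hU fun a _ => (hh.pd hU a).const_mul hU (y a)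

theorem hart_pd_sum (y : E d) {g : Fin d → E d → ℝ} {z : E d} (hg : ∀ b, DifferentiableAt ℝ (g b) z)
    (a : Fin d) : pd a (fun w => ∑ b, y b * g b w) z = ∑ b, y b * pd a (g b) z := by
  rw [pd_sum Finset.univ (f := fun b w => y b * g b w) fun b _ => (hg b).const_mul (y b)]
  exact Finset.sum_congr rfl fun b _ => pd_const_mul _ _ _ _

theorem hart_pdD (y : E d) {h : E d → ℝ} {U : Set (E d)} (hU : IsOpen U) (hh : Harm h U) {z : E d}
    (hz : z ∈ U) (a : Fin d) : pd a (hart_D y h) z = ∑ b, y b * pd a (pd b h) z :=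
  hart_pd_sum y (fun b => hart_diff hU (hh.pd hU b) hz) a

theorem hart_pdpdD (y : E d) {h : E d → ℝ} {U : Set (E d)} (hU : IsOpen U) (hh : Harm h U) {z : E d}
    (hz : z ∈ U) (a b : Fin d) : pd a (pd b (hart_D y h)) z = ∑ c, y c * pd a (pd b (pd c h)) z := by
  have e : pd b (hart_D y h) =ᶠ[𝓝 z] fun w => ∑ c, y c * pd b (pd c h) w := by
    filter_upwards [hU.mem_nhds hz] with w hw using hart_pdD y hU hh hw b
  rw [(pd_congr e a).eq_of_nhds]
  exact hart_pd_sum y (fun c => hart_diff hU ((hh.pd hU c).pd hU b) hz) a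

theorem hart_deriv (y : E d) {h : E d → ℝ} {t : ℝ} (hh : DifferentiableAt ℝ h (t • y)) :
    HasDerivAt (fun s : ℝ => h (s • y)) (hart_D y h (t • y)) t := by
  have h1 : HasDerivAt (fun s : ℝ => s • y) y t := by
    simpa using (hasDerivAt_id t).smul_const y
  have h2 := hh.hasFDerivAt.comp_hasDerivAt t h1
  rw [fderiv_eq_sum_pd] at h2
  exact h2

theorem hart_step {C : ℝ} (hC : ∀ (f : E d → ℝ) (x : E d) (r M : ℝ), 0 < r → Harm f (ball x r) →
    (∀ y ∈ ball x r, |f y| ≤ M) → ∀ i, |pd i f x| ≤ C * M / r) (y : E d) {h : E d → ℝ} {r s ρ M : ℝ}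
    (hh : Harm h (ball 0 r)) (hs : s ≤ r) (hρ : 0 < ρ) (hb : ∀ z ∈ ball (0 : E d) s, |h z| ≤ M)
    (z : E d) (hz : ‖z‖ ≤ s - ρ) : |hart_D y h z| ≤ (d * C * ‖y‖ / ρ) * M := by
  have hsub : ball z ρ ⊆ ball (0 : E d) s := ball_subset_ball' (by rw [dist_zero_right]; linarith)
  have h1 := hC h z ρ M hρ (hh.mono (hsub.trans (ball_subset_ball hs))) fun w hw => hb w (hsub hw)
  calc |hart_D y h z| ≤ ∑ a, |y a * pd a h z| := Finset.abs_sum_le_sum_abs _ _
    _ ≤ ∑ _a : Fin d, ‖y‖ * (C * M / ρ) := by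
        refine Finset.sum_le_sum fun a _ => ?_
        rw [abs_mul]
        exact mul_le_mul (by simpa using PiLp.norm_apply_le y a) (h1 a) (abs_nonneg _) (norm_nonneg _)
    _ = (d * C * ‖y‖ / ρ) * M := by
        rw [Finset.sum_const, Finset.card_univ, Fintype.card_fin, nsmul_eq_mul]; ring

theorem hart_mvt {φ φ' : ℝ → ℝ} {K : ℝ} (hK : 0 ≤ K) (h : ∀ t ∈ Icc (0 : ℝ) 1, HasDerivAt φ (φ' t) t)
    (hb : ∀ t ∈ Icc (0 : ℝ) 1, |φ' t| ≤ K) (h0 : φ 0 = 0) : ∀ t ∈ Icc (0 : ℝ) 1, |φ t| ≤ K := by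
  intro t ht
  have := Convex.norm_image_sub_le_of_norm_hasDerivWithin_le (f := φ) (f' := φ') (C := K)
    (fun x hx => (h x hx).hasDerivWithinAt) hb (convex_Icc 0 1) (left_mem_Icc.2 zero_le_one) ht
  rw [h0, sub_zero, sub_zero, Real.norm_eq_abs, Real.norm_eq_abs, abs_of_nonneg ht.1] at this
  exact this.trans (mul_le_of_le_one_right hK ht.2)

theorem hart_1d {g0 g1 g2 g3 g4 : ℝ → ℝ} {K : ℝ} (hK : 0 ≤ K)
    (h0 : ∀ t ∈ Icc (0 : ℝ) 1, HasDerivAt g0 (g1 t) t) (h1 : ∀ t ∈ Icc (0 : ℝ) 1, HasDerivAt g1 (g2 t) t)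
    (h2 : ∀ t ∈ Icc (0 : ℝ) 1, HasDerivAt g2 (g3 t) t) (h3 : ∀ t ∈ Icc (0 : ℝ) 1, HasDerivAt g3 (g4 t) t)
    (hb : ∀ t ∈ Icc (0 : ℝ) 1, |g4 t| ≤ K) :
    |g0 1 - g0 0 - (g1 0 + g2 0 / 2 + g3 0 / 6)| ≤ K := by
  have a3 := hart_mvt (φ := fun t => g3 t - g3 0) hK (fun t ht => (h3 t ht).sub_const _) hb (by simp)
  have a2 := hart_mvt (φ := fun t => g2 t - g2 0 - t * g3 0) (φ' := fun t => g3 t - g3 0) hK
    (fun t ht => by
      have := ((h2 t ht).sub_const (g2 0)).fun_sub ((hasDerivAt_id' t).mul_const (g3 0))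
      exact this.congr_deriv (by ring)) a3 (by simp)
  have a1 := hart_mvt (φ := fun t => g1 t - g1 0 - t * g2 0 - t ^ 2 / 2 * g3 0)
    (φ' := fun t => g2 t - g2 0 - t * g3 0) hK
    (fun t ht => by
      have := (((h1 t ht).sub_const (g1 0)).fun_sub ((hasDerivAt_id' t).mul_const (g2 0))).fun_sub
        (((hasDerivAt_pow 2 t).div_const 2).mul_const (g3 0))
      exact this.congr_deriv (by norm_num)) a2 (by simp)
  have a0 := hart_mvt (φ := fun t => g0 t - g0 0 - t * g1 0 - t ^ 2 / 2 * g2 0 - t ^ 3 / 6 * g3 0)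
    (φ' := fun t => g1 t - g1 0 - t * g2 0 - t ^ 2 / 2 * g3 0) hK
    (fun t ht => by
      have := ((((h0 t ht).sub_const (g0 0)).fun_sub ((hasDerivAt_id' t).mul_const (g1 0))).fun_sub
        (((hasDerivAt_pow 2 t).div_const 2).mul_const (g2 0))).fun_sub
        (((hasDerivAt_pow 3 t).div_const 6).mul_const (g3 0))
      exact this.congr_deriv (by push_cast; ring)) a1 (by simp) 1 (right_mem_Icc.2 zero_le_one)
  convert a0 using 2
  ring

/-- cubic Taylor expansion with a universal remainder -/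
theorem taylor3 (d : ℕ) : ∃ C : ℝ, 0 < C ∧ ∀ (f : E d → ℝ) (r M : ℝ), 0 < r → Harm f (ball 0 r) →
    (∀ y ∈ ball (0 : E d) r, |f y| ≤ M) → ∀ y : E d, ‖y‖ ≤ r / 2 →
      |f y - f 0 - Jet.P ⟨gradient f 0, 0, fun a b => pd a (pd b f) 0, fun a b c => pd a (pd b (pd c f)) 0⟩ y|
        ≤ C * M * (‖y‖ / r) ^ 4 := by
  obtain ⟨C, hC0, hC⟩ := grad_bound d
  refine ⟨(8 * d * C) ^ 4 + 1, by positivity, fun f r M hr hf hb y hy => ?_⟩
  have h0 : (0 : E d) ∈ ball (0 : E d) r := mem_ball_self hr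
  have hM : 0 ≤ M := (abs_nonneg _).trans (hb 0 h0)
  have hU : IsOpen (ball (0 : E d) r) := isOpen_ball
  have hf1 := hart_harm y hU hf
  have hf2 := hart_harm y hU hf1
  have hf3 := hart_harm y hU hf2
  set k : ℝ := d * C * ‖y‖ / (r / 8) with hk
  have hk0 : 0 ≤ k := by positivity
  have hρ : 0 < r / 8 := by positivity
  have b1 := hart_step hC y hf le_rfl hρ hb
  have b2 := hart_step hC y hf1 (s := r - r / 8) (by linarith) hρ
    fun z hz => b1 z (mem_ball_zero_iff.1 hz).le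
  have b3 := hart_step hC y hf2 (s := r - r / 8 - r / 8) (by linarith) hρ
    fun z hz => b2 z (mem_ball_zero_iff.1 hz).le
  have b4 := hart_step hC y hf3 (s := r - r / 8 - r / 8 - r / 8) (by linarith) hρ
    fun z hz => b3 z (mem_ball_zero_iff.1 hz).le
  have hn : ∀ t ∈ Icc (0 : ℝ) 1, ‖t • y‖ ≤ r / 2 := fun t ht => by
    rw [norm_smul, Real.norm_eq_abs, abs_of_nonneg ht.1]
    exact (mul_le_of_le_one_left (norm_nonneg _) ht.2).trans hy
  have hm : ∀ t ∈ Icc (0 : ℝ) 1, t • y ∈ ball (0 : E d) r := fun t ht =>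
    mem_ball_zero_iff.2 (by linarith [hn t ht])
  have key := hart_1d (K := k * (k * (k * (k * M)))) (by positivity)
    (fun t ht => hart_deriv y (hart_diff hU hf (hm t ht)))
    (fun t ht => hart_deriv y (hart_diff hU hf1 (hm t ht)))
    (fun t ht => hart_deriv y (hart_diff hU hf2 (hm t ht)))
    (fun t ht => hart_deriv y (hart_diff hU hf3 (hm t ht)))
    (fun t ht => b4 _ (by linarith [hn t ht]))
  simp only [one_smul, zero_smul] at key
  have e1 : hart_D y f 0 = ⟪gradient f 0, y⟫ := by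
    rw [PiLp.inner_apply]
    refine Finset.sum_congr rfl fun a _ => ?_
    rw [gradient_apply]
    simp
  have e2 : hart_D y (hart_D y f) 0 = ∑ a, ∑ b, pd a (pd b f) 0 * y a * y b := by
    refine Finset.sum_congr rfl fun a _ => ?_
    rw [hart_pdD y hU hf h0, Finset.mul_sum]
    exact Finset.sum_congr rfl fun b _ => by ring
  have e3 : hart_D y (hart_D y (hart_D y f)) 0 =
      ∑ a, ∑ b, ∑ c, pd a (pd b (pd c f)) 0 * y a * y b * y c := by
    refine Finset.sum_congr rfl fun a _ => ?_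
    rw [hart_pdD y hU hf1 h0, Finset.mul_sum]
    refine Finset.sum_congr rfl fun b _ => ?_
    rw [hart_pdpdD y hU hf h0, Finset.mul_sum, Finset.mul_sum]
    exact Finset.sum_congr rfl fun c _ => by ring
  rw [e1, e2, e3] at key
  refine le_trans key ?_
  have ek : k = 8 * d * C * (‖y‖ / r) := by rw [hk]; field_simp
  have : 0 ≤ M * (‖y‖ / r) ^ 4 := by positivity
  calc k * (k * (k * (k * M))) = (8 * d * C) ^ 4 * (M * (‖y‖ / r) ^ 4) := by rw [ek]; ring
    _ ≤ ((8 * d * C) ^ 4 + 1) * (M * (‖y‖ / r) ^ 4) := by nlinarith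
    _ = _ := by ring

end Crest.Agent.R97
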