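import Crest.Agent.R97.ImpUD

/-! R97/ImpUL (part of Imp, sub-lead helper95; keep the statements; aux names `impul_*`): rescaling and limits of jets.
lim: one lemma for a complete normed group: `‖x (k+1) - x k‖ ≤ c * r ^ k`, `0 ≤ r ≤ 1/2` gives a limit `a` with `‖a - x k‖ ≤ 2 c r ^ k`
(`cauchySeq_of_le_geometric`, `cauchySeq_tendsto_of_complete`, `dist_le_of_le_geometric_of_tendsto`); apply it to `w`, `H` and each entry
(`choose`), `r = σ^5, σ^3, σ`.  All fields of `IsB` are closed conditions (`tendsto_nhds_unique`, `tendsto_finset_sum`); for `Tw` apply it to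
`v - ⟪w_k, v⟫ • w_k`, which tends to `v`. -/

set_option autoImplicit false
open MeasureTheory Metric Set Filter Topology
open scoped RealInnerProductSpace NNReal

namespace Crest.Agent.R97

variable {d : ℕ}

theorem impul_lim {X : Type} [NormedAddCommGroup X] [CompleteSpace X] {x : ℕ → X} {c σ : ℝ} (m : ℕ) (hm : m ≠ 0)
    (h0 : 0 ≤ σ) (h1 : σ ≤ 1 / 2) (h : ∀ k, ‖x (k + 1) - x k‖ ≤ c * σ ^ (m * k)) :
    ∃ a, Tendsto x atTop (𝓝 a) ∧ ∀ k, ‖a - x k‖ ≤ 2 * c * σ ^ (m * k) := by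
  have hc : 0 ≤ c := by simpa using (norm_nonneg _).trans (h 0)
  have r1 : σ ^ m ≤ 1 / 2 := (pow_le_of_le_one h0 (by linarith) hm).trans h1
  have hd : ∀ k, dist (x k) (x (k + 1)) ≤ c * (σ ^ m) ^ k := fun k => by
    rw [dist_comm, dist_eq_norm, ← pow_mul]
    exact h k
  obtain ⟨a, ha⟩ := cauchySeq_tendsto_of_complete (cauchySeq_of_le_geometric _ c (by linarith) hd)
  refine ⟨a, ha, fun k => ?_⟩
  have h2 := dist_le_of_le_geometric_of_tendsto _ c (by linarith) hd ha k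
  rw [dist_comm, dist_eq_norm, ← pow_mul] at h2
  refine h2.trans ((div_le_iff₀ (by linarith)).2 ?_)
  have : 0 ≤ c * σ ^ (m * k) := by positivity
  nlinarith

theorem impul_abs {x y r β : ℝ} (hr : 0 < r) (h : |x - r * y| ≤ β) : |r⁻¹ * x - y| ≤ β / r := by
  have e : r⁻¹ * x - y = (x - r * y) / r := by field_simp
  rw [e, abs_div, abs_of_pos hr]
  exact div_le_div_of_nonneg_right h hr.le

theorem Jet.sc_P (j : Jet d) {r : ℝ} (hr : r ≠ 0) (y : E d) : (j.sc r).P y = j.P (r • y) / r := by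
  rw [Jet.P_eq, Jet.P_eq]
  simp only [Jet.sc, f2_mul, f3_mul, f2_smul₁, f2_smul₂, f3_smul₁, f3_smul₂, f3_smul₃, real_inner_smul_right]
  field_simp

theorem Jet.IsB.sc {j : Jet d} (h : j.IsB) (r : ℝ) : (j.sc r).IsB := by
  refine ⟨h.w1, fun a b => ?_, ?_, fun a => ?_, fun a b c => ?_, fun a b c => ?_, fun c => ?_, fun v v' hv hv' => ?_⟩
  · exact congrArg (r * ·) (h.Asym a b)
  · simp only [Jet.sc, ← Finset.mul_sum, h.Atr, mul_zero]
  · simp only [Jet.sc, mul_assoc, ← Finset.mul_sum, h.Aw]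
    ring
  · exact congrArg (r ^ 2 * ·) (h.Tsym1 a b c)
  · exact congrArg (r ^ 2 * ·) (h.Tsym2 a b c)
  · simp only [Jet.sc, ← Finset.mul_sum, h.Ttr, mul_zero]
  · change f3 (fun a b c => r ^ 2 * j.T a b c) j.w v v' = -f2 (umm (fun a b => r * j.A a b) (r * j.H)) v v'
    have e : umm (fun a b => r * j.A a b) (r * j.H) = fun a b => r ^ 2 * umm j.A j.H a b := by
      funext a b
      simp only [umm, mul_add, Finset.mul_sum]
      congr 1
      · exact Finset.sum_congr rfl fun _ _ => by ring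
      · ring
    rw [e, f3_mul, f2_mul, h.tw hv hv', mul_neg]

theorem Jet.Bd.sc {j : Jet d} {a b r : ℝ} (h : j.Bd a b) (hr : 0 ≤ r) : (j.sc r).Bd (r * a) (r ^ 2 * b) := by
  have e : ∀ {t x s : ℝ}, 0 ≤ t → |x| ≤ s → |t * x| ≤ t * s := fun ht hx => by
    rw [abs_mul, abs_of_nonneg ht]
    exact mul_le_mul_of_nonneg_left hx ht
  exact ⟨e hr h.H, fun p q => e hr (h.A p q), fun p q s => e (sq_nonneg r) (h.T p q s)⟩

theorem Jet.Close.sc_inv {j j' : Jet d} {α β γ r : ℝ} (hr : 0 < r) (h : j'.Close (j.sc r) α β γ) :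
    (j'.sc r⁻¹).Close j α (β / r) (γ / r ^ 2) := by
  refine ⟨h.w, impul_abs hr h.H, fun a b => impul_abs hr (h.A a b), fun a b c => ?_⟩
  have := impul_abs (pow_pos hr 2) (h.T a b c)
  rwa [← inv_pow] at this

theorem Trap.to_bl {u : E d → ℝ} {j : Jet d} {ε r : ℝ} (hr : 0 < r) (h : Trap u j.P ε (closedBall 0 r)) :
    Trap (bl u 0 r) (j.sc r).P (ε / r) (closedBall 0 1) := by
  intro y hy
  have hy' : r • y ∈ closedBall (0 : E d) r := by
    rw [mem_closedBall_zero_iff] at hy ⊢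
    rw [norm_smul, Real.norm_of_nonneg hr.le]
    exact mul_le_of_le_one_right hr.le hy
  obtain ⟨h1, h2⟩ := h _ hy'
  rw [Jet.sc_P j hr.ne', bl, zero_add, ← sub_div, ← add_div, ← zero_div r, max_div_div_right hr.le,
    max_div_div_right hr.le]
  exact ⟨div_le_div_of_nonneg_right h1 hr.le, div_le_div_of_nonneg_right h2 hr.le⟩

theorem Trap.of_bl {u : E d → ℝ} {j : Jet d} {ε r t : ℝ} (hr : 0 < r) (h : Trap (bl u 0 r) j.P ε (closedBall 0 t)) :
    Trap u (j.sc r⁻¹).P (r * ε) (closedBall 0 (r * t)) := by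
  intro y hy
  have hy' : r⁻¹ • y ∈ closedBall (0 : E d) t := by
    rw [mem_closedBall_zero_iff] at hy ⊢
    rw [norm_smul, Real.norm_of_nonneg (inv_nonneg.2 hr.le), inv_mul_le_iff₀ hr]
    exact hy
  obtain ⟨h1, h2⟩ := h _ hy'
  rw [bl, zero_add, smul_inv_smul₀ hr.ne'] at h1 h2
  rw [le_div_iff₀ hr, max_mul_of_nonneg _ _ hr.le, zero_mul] at h1
  rw [div_le_iff₀ hr, max_mul_of_nonneg _ _ hr.le, zero_mul] at h2
  rw [Jet.sc_P j (inv_ne_zero hr.ne'), div_inv_eq_mul, mul_comm r ε, ← sub_mul, ← add_mul]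
  exact ⟨h1, h2⟩

theorem Jet.lim {J : ℕ → Jet d} {c σ : ℝ} (hσ0 : 0 ≤ σ) (hσ : σ ≤ 1 / 2) (hB : ∀ k, (J k).IsB)
    (h : ∀ k, (J (k + 1)).Close (J k) (c * σ ^ (5 * k)) (c * σ ^ (3 * k)) (c * σ ^ k)) :
    ∃ j : Jet d, j.IsB ∧ ∀ k, j.Close (J k) (2 * c * σ ^ (5 * k)) (2 * c * σ ^ (3 * k)) (2 * c * σ ^ k) := by
  obtain ⟨w, w1, w2⟩ := impul_lim (x := fun k => (J k).w) 5 (by norm_num) hσ0 hσ fun k => (h k).w
  obtain ⟨H, H1, H2⟩ := impul_lim (x := fun k => (J k).H) 3 (by norm_num) hσ0 hσ fun k => (h k).H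
  choose A A1 A2 using fun a b => impul_lim (x := fun k => (J k).A a b) 3 (by norm_num) hσ0 hσ fun k => (h k).A a b
  choose T T1 T2 using fun a b e => impul_lim (x := fun k => (J k).T a b e) (c := c) 1 (by norm_num) hσ0 hσ
    fun k => by simpa only [one_mul, Real.norm_eq_abs] using (h k).T a b e
  have co : ∀ {x : ℕ → E d} {y : E d}, Tendsto x atTop (𝓝 y) → ∀ a, Tendsto (fun k => x k a) atTop (𝓝 (y a)) :=
    fun hx a => ((EuclideanSpace.proj a : E d →L[ℝ] ℝ).continuous.tendsto _).comp hx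
  have uq : ∀ {f g : ℕ → ℝ} {a b : ℝ}, Tendsto f atTop (𝓝 a) → Tendsto g atTop (𝓝 b) → (∀ k, f k = g k) → a = b :=
    fun hf hg e => tendsto_nhds_unique (hf.congr e) hg
  refine ⟨⟨w, H, A, T⟩, ⟨uq w1.norm tendsto_const_nhds fun k => (hB k).w1,
    fun a b => uq (A1 a b) (A1 b a) fun k => (hB k).Asym a b,
    uq (tendsto_finsetSum _ fun a _ => A1 a a) tendsto_const_nhds fun k => (hB k).Atr,
    fun a => uq (tendsto_finsetSum _ fun b _ => (A1 a b).mul (co w1 b)) (H1.neg.mul (co w1 a)) fun k => (hB k).Aw a,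
    fun a b e => uq (T1 a b e) (T1 b a e) fun k => (hB k).Tsym1 a b e,
    fun a b e => uq (T1 a b e) (T1 a e b) fun k => (hB k).Tsym2 a b e,
    fun e => uq (tendsto_finsetSum _ fun a _ => T1 a a e) tendsto_const_nhds fun k => (hB k).Ttr e,
    fun v v' hv hv' => ?_⟩, fun k => ⟨w2 k, H2 k, fun a b => A2 a b k, fun a b e => ?_⟩⟩
  · have pr : ∀ v : E d, ⟪w, v⟫ = 0 → Tendsto (fun k => v - ⟪(J k).w, v⟫ • (J k).w) atTop (𝓝 v) := fun v hv => by
      have := (tendsto_const_nhds (x := v)).sub ((w1.inner (𝕜 := ℝ) (tendsto_const_nhds (x := v))).smul w1)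
      rwa [hv, zero_smul, sub_zero] at this
    have pe : ∀ (v : E d) k, ⟪(J k).w, v - ⟪(J k).w, v⟫ • (J k).w⟫ = 0 := fun v k => by
      rw [inner_sub_right, real_inner_smul_right, real_inner_self_eq_norm_sq, (hB k).w1]
      ring
    exact uq (tendsto_finsetSum _ fun a _ => tendsto_finsetSum _ fun b _ => tendsto_finsetSum _ fun e _ =>
        (((T1 a b e).mul (co w1 a)).mul (co (pr v hv) b)).mul (co (pr v' hv') e))
      (tendsto_finsetSum _ fun b _ => tendsto_finsetSum _ fun e _ =>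
        (((tendsto_finsetSum _ fun a _ => (A1 b a).mul (A1 a e)).add (H1.mul (A1 b e))).mul
          (co (pr v hv) b)).mul (co (pr v' hv') e)).neg
      fun k => (hB k).Tw _ _ (pe v k) (pe v' k)
  · simpa only [one_mul, Real.norm_eq_abs] using T2 a b e k

end Crest.Agent.R97
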