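import Crest.Agent.R97.ImpUR

/-! R97/ImpUU (part of Imp, sub-lead helper95; keep the statements; aux names `impuu_*`): the update of a boundary jet.
`N = ‖w + ε q.w‖`, `N² = 1 + ε²‖q.w‖²` (`q.w ⊥ w`), `1 ≤ N ≤ 1 + ε²‖q.w‖²`, `‖q.w‖ ≤ d C`; `w' = N⁻¹ • (w + ε q.w)`,
`‖w' - (w + ε q.w)‖ = N - 1 ≤ ε² (dC)²`, `κ = ‖w' - w‖ ≤ ε (dC + (dC)²)`.
pre: `j₁ = ⟨w', H - ε f2 B w w, A + ε B, T + ε S⟩` (`B = q.A`, `S = q.T`).  `Aw`: `(A + εB) w + H₁ w = ε (B w - B(w,w) w) = 0`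
(`(B w) a = f2 B w e_a`, split `e_a = (e_a - w a • w) + w a • w`, `EvJet.Ae`), then replace `w` by `w'` (cost `O(s κ)`).
`Tw`: for `v, v' ⊥ w'` put `v₀ = v - ⟪w,v⟫ • w`, `|⟪w,v⟫| = |⟪w - w',v⟫| ≤ κ‖v‖`; `f3 T₁ w v₀ v₀' + f2 (umm A H) v₀ v₀' = 0` (`IsB.tw`, `EvJet.Te`);
telescope one argument at a time (`f3_le`, `f2_le`; entries of `T₁`, `A₁`, `H₁` are `O(s)`, entries of `umm A₁ H₁ - umm A H` are `O(s ε)`,
entries of `umm A H` are `O(s)`).  upd: `Jet.retr` with `B` large, `Jet.P_sub_le` against `⟨w + ε q.w, 0, A + ε B, T + ε S⟩`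
whose polynomial is `j.P + ε q.P` (`f2_add`, `f2_mul`, ...). -/

set_option autoImplicit false
open MeasureTheory Metric Set Filter Topology
open scoped RealInnerProductSpace NNReal

namespace Crest.Agent.R97

variable {d : ℕ}

theorem impuu_w {w u : E d} {D ε : ℝ} (hw : ‖w‖ = 1) (hwu : ⟪w, u⟫ = 0) (hu : ‖u‖ ≤ D) (hε : 0 < ε) (hε1 : ε ≤ 1) :
    ∃ w' : E d, ‖w'‖ = 1 ∧ ‖w' - (w + ε • u)‖ ≤ ε ^ 2 * D ^ 2 ∧ ‖w' - w‖ ≤ ε * (D + D ^ 2) := by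
  have hN2 : ‖w + ε • u‖ ^ 2 = 1 + ε ^ 2 * ‖u‖ ^ 2 := by
    rw [norm_add_sq_real, real_inner_smul_right, hwu, hw, norm_smul, Real.norm_eq_abs, mul_pow, sq_abs]
    ring
  obtain ⟨N, hN⟩ : ∃ N, N = ‖w + ε • u‖ := ⟨_, rfl⟩
  rw [← hN] at hN2
  have hN0 : 0 ≤ N := hN ▸ norm_nonneg _
  have hu0 := norm_nonneg u
  have hx : 0 ≤ ε ^ 2 * ‖u‖ ^ 2 := by positivity
  have hN1 : 1 ≤ N := by nlinarith
  have hD : ε ^ 2 * ‖u‖ ^ 2 ≤ ε ^ 2 * D ^ 2 := by gcongr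
  have h1 : ‖N⁻¹ • (w + ε • u) - (w + ε • u)‖ ≤ ε ^ 2 * D ^ 2 := by
    have e : N⁻¹ • (w + ε • u) - (w + ε • u) = (N⁻¹ - 1) • (w + ε • u) := by rw [sub_smul, one_smul]
    have e2 : |N⁻¹ - 1| * N = N - 1 := by
      rw [abs_of_nonpos (by linarith [inv_le_one_of_one_le₀ hN1])]
      field_simp
      ring
    rw [e, norm_smul, Real.norm_eq_abs, ← hN, e2]
    nlinarith
  refine ⟨N⁻¹ • (w + ε • u), ?_, h1, ?_⟩
  · rw [norm_smul, ← hN, Real.norm_eq_abs, abs_of_nonneg (inv_nonneg.2 hN0)]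
    field_simp
  · have h2 : ‖w + ε • u - w‖ ≤ ε * D := by
      rw [add_sub_cancel_left, norm_smul, Real.norm_eq_abs, abs_of_pos hε]
      gcongr
    have h3 : ε ^ 2 * D ^ 2 ≤ ε * D ^ 2 := by
      have : ε ^ 2 ≤ ε := by nlinarith
      gcongr
    linarith [norm_sub_le_norm_sub_add_norm_sub (N⁻¹ • (w + ε • u)) (w + ε • u) w]

theorem impuu_split {w w' v : E d} {κ : ℝ} (hw : ‖w‖ = 1) (hκ : ‖w' - w‖ ≤ κ) (hv : ⟪w', v⟫ = 0) :
    ∃ v₀ : E d, ⟪w, v₀⟫ = 0 ∧ ‖v₀‖ ≤ 2 * ‖v‖ ∧ ‖v - v₀‖ ≤ κ * ‖v‖ := by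
  have h1 : |⟪w, v⟫| ≤ κ * ‖v‖ := by
    have e : ⟪w' - w, v⟫ = -⟪w, v⟫ := by rw [inner_sub_left, hv, zero_sub]
    rw [← abs_neg, ← e]
    exact (abs_real_inner_le_norm _ _).trans (by gcongr)
  have h2 : ‖⟪w, v⟫ • w‖ = |⟪w, v⟫| := by rw [norm_smul, hw, mul_one, Real.norm_eq_abs]
  refine ⟨v - ⟪w, v⟫ • w, ?_, ?_, ?_⟩
  · rw [inner_sub_right, real_inner_smul_right, real_inner_self_eq_norm_sq, hw]
    ring
  · linarith [norm_sub_le v (⟪w, v⟫ • w), abs_inner_le hw v]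
  · rw [sub_sub_cancel, h2]
    exact h1

theorem impuu_Tw {w w' : E d} {T : Fin d → Fin d → Fin d → ℝ} {M M₁ : Fin d → Fin d → ℝ} {τ μ ν κ : ℝ}
    (hw : ‖w‖ = 1) (hκ : ‖w' - w‖ ≤ κ) (hτ : 0 ≤ τ) (hμ : 0 ≤ μ) (hT : ∀ a b c, |T a b c| ≤ τ)
    (hM : ∀ a b, |M a b| ≤ μ) (hMM : ∀ a b, |M₁ a b - M a b| ≤ ν)
    (h0 : ∀ v v' : E d, ⟪w, v⟫ = 0 → ⟪w, v'⟫ = 0 → f3 T w v v' + f2 M v v' = 0)
    (v v' : E d) (hv : ⟪w', v⟫ = 0) (hv' : ⟪w', v'⟫ = 0) :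
    |f3 T w' v v' + f2 M₁ v v'| ≤ (4 * d ^ 3 * τ * κ + d ^ 2 * ν + 3 * d ^ 2 * μ * κ) * ‖v‖ * ‖v'‖ := by
  obtain ⟨v₀, h1, h2, h3⟩ := impuu_split hw hκ hv
  obtain ⟨v₀', h1', -, h3'⟩ := impuu_split hw hκ hv'
  have hκ0 : 0 ≤ κ := (norm_nonneg _).trans hκ
  have b1 : |f3 T (w' - w) v v'| ≤ d ^ 3 * τ * κ * ‖v‖ * ‖v'‖ := (f3_le hT _ _ _).trans (by gcongr)
  have b2 : |f3 T w (v - v₀) v'| ≤ d ^ 3 * τ * 1 * (κ * ‖v‖) * ‖v'‖ :=
    (f3_le hT _ _ _).trans (by rw [hw]; gcongr)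
  have b3 : |f3 T w v₀ (v' - v₀')| ≤ d ^ 3 * τ * 1 * (2 * ‖v‖) * (κ * ‖v'‖) :=
    (f3_le hT _ _ _).trans (by rw [hw]; gcongr)
  have b4 : |f2 (fun a b => M₁ a b - M a b) v v'| ≤ d ^ 2 * ν * ‖v‖ * ‖v'‖ := f2_le hMM _ _
  have b5 : |f2 M (v - v₀) v'| ≤ d ^ 2 * μ * (κ * ‖v‖) * ‖v'‖ := (f2_le hM _ _).trans (by gcongr)
  have b6 : |f2 M v₀ (v' - v₀')| ≤ d ^ 2 * μ * (2 * ‖v‖) * (κ * ‖v'‖) := (f2_le hM _ _).trans (by gcongr)
  have e0 := h0 v₀ v₀' h1 h1'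
  rw [f3_sub₁] at b1
  rw [f3_sub₂] at b2
  rw [f3_sub₃] at b3
  rw [f2_sub] at b4
  rw [f2_sub₁] at b5
  rw [f2_sub₂] at b6
  rw [abs_le] at *
  constructor <;> linarith [b1.1, b1.2, b2.1, b2.2, b3.1, b3.2, b4.1, b4.2, b5.1, b5.2, b6.1, b6.2]

theorem impuu_mul {x y x₁ y₁ a b c e : ℝ} (h1 : |x₁ - x| ≤ a) (h2 : |y₁| ≤ b) (h3 : |x| ≤ c) (h4 : |y₁ - y| ≤ e) :
    |x₁ * y₁ - x * y| ≤ a * b + c * e := by
  have e1 : x₁ * y₁ - x * y = (x₁ - x) * y₁ + x * (y₁ - y) := by ring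
  rw [e1]
  refine (abs_add_le _ _).trans (add_le_add ?_ ?_) <;> rw [abs_mul]
  · exact mul_le_mul h1 h2 (abs_nonneg _) ((abs_nonneg _).trans h1)
  · exact mul_le_mul h3 h4 (abs_nonneg _) ((abs_nonneg _).trans h3)

theorem impuu_Bw {w : E d} {q : Jet d} {C : ℝ} (hw : ‖w‖ = 1) (hq : EvJet w q C) (a : Fin d) :
    ∑ b, q.A a b * w b = f2 q.A w w * w a := by
  have h1 : ⟪w, EuclideanSpace.single a (1 : ℝ) - w a • w⟫ = 0 := by
    rw [inner_sub_right, real_inner_smul_right, real_inner_self_eq_norm_sq, hw, inner_eq_sum]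
    simp
  have h2 : f2 q.A w (EuclideanSpace.single a (1 : ℝ) - w a • w) = 0 := hq.Ae _ h1
  rw [f2_sub₂, f2_smul₂, f2_comm _ _ _ hq.Asym, f2_single₁] at h2
  linarith

theorem impuu_pre (d : ℕ) {C : ℝ} (hC : 1 ≤ C) : ∃ K : ℝ, 1 ≤ K ∧ ∀ (j q : Jet d) (ε s : ℝ), j.IsB → EvJet j.w q C →
    j.Bd s s → 0 < ε → ε ≤ s → s ≤ 1 → ∃ (w : E d) (H : ℝ), ‖w - (j.w + ε • q.w)‖ ≤ K * s * ε ∧ ‖w - j.w‖ ≤ K * ε ∧
      |H - j.H| ≤ K * ε ∧
      Jet.Pre ⟨w, H, fun a b => j.A a b + ε * q.A a b, fun a b c => j.T a b c + ε * q.T a b c⟩ (K * s * ε) := by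
  obtain ⟨k, hk⟩ : ∃ k : ℝ, k = d * C + (d * C) ^ 2 := ⟨_, rfl⟩
  obtain ⟨m, hm⟩ : ∃ m : ℝ, m = d * (C * (1 + C) + C) + (d ^ 2 * C * (1 + C) + C) := ⟨_, rfl⟩
  have hC0 : 0 ≤ C := by linarith
  have hk0 : 0 ≤ k := by rw [hk]; positivity
  have hm0 : 0 ≤ m := by rw [hm]; positivity
  have p1 : 0 ≤ ((d : ℝ) * C) ^ 2 := by positivity
  have p2 : 0 ≤ (d : ℝ) ^ 2 * C := by positivity
  have p3 : 0 ≤ ((d : ℝ) * (1 + C) + (1 + d ^ 2 * C)) * k := by positivity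
  have p4 : 0 ≤ 4 * (d : ℝ) ^ 3 * (1 + C) * k + d ^ 2 * m + 3 * d ^ 2 * (d + 1) * k := by positivity
  obtain ⟨K, hK⟩ : ∃ K : ℝ, K = 1 + (d * C) ^ 2 + k + d ^ 2 * C + (d * (1 + C) + (1 + d ^ 2 * C)) * k +
    (4 * (d : ℝ) ^ 3 * (1 + C) * k + d ^ 2 * m + 3 * d ^ 2 * (d + 1) * k) := ⟨_, rfl⟩
  refine ⟨K, by linarith, fun j q ε s hj hq hb hε hεs hs => ?_⟩
  have hs0 : 0 < s := hε.trans_le hεs
  obtain ⟨w', hw1, hw2, hw3⟩ := impuu_w hj.w1 hq.we (norm_le_of_apply hC0 hq.bw) hε (hεs.trans hs)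
  rw [← hk] at hw3
  have hBw : |f2 q.A j.w j.w| ≤ d ^ 2 * C := by simpa [hj.w1] using f2_le hq.bA j.w j.w
  have hH : |j.H - ε * f2 q.A j.w j.w - j.H| ≤ ε * (d ^ 2 * C) := by
    rw [sub_sub_cancel_left, abs_neg, abs_mul, abs_of_pos hε]
    gcongr
  have hH1 : |j.H - ε * f2 q.A j.w j.w| ≤ s * (1 + d ^ 2 * C) := by
    have : ε * (d ^ 2 * C) ≤ s * (d ^ 2 * C) := by gcongr
    linarith [abs_sub_abs_le_abs_sub (j.H - ε * f2 q.A j.w j.w) j.H, hb.H]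
  have hd : ∀ {x y : ℝ}, |y| ≤ C → |x + ε * y - x| ≤ ε * C := fun {x y} hy => by
    rw [add_sub_cancel_left, abs_mul, abs_of_pos hε]
    gcongr
  have hd1 : ∀ {x y : ℝ}, |x| ≤ s → |y| ≤ C → |x + ε * y| ≤ s * (1 + C) := fun {x y} hx hy => by
    have : ε * C ≤ s * C := by gcongr
    linarith [abs_sub_abs_le_abs_sub (x + ε * y) x, hd (x := x) hy]
  have hsε : 0 < s * ε := by positivity
  have fin : ∀ {x : ℝ}, x ≤ K → x * (s * ε) ≤ K * s * ε := fun {x} hx => by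
    rw [mul_assoc]
    gcongr
  refine ⟨w', j.H - ε * f2 q.A j.w j.w, hw2.trans ?_, hw3.trans ?_, hH.trans ?_, hw1, fun a b => ?_, ?_, fun a => ?_,
    fun a b c => ?_, fun a b c => ?_, fun c => ?_, fun v v' hv hv' => ?_⟩
  · refine le_trans ?_ (fin (x := (d * C) ^ 2) (by linarith))
    rw [mul_comm, sq ε]
    gcongr
  · rw [mul_comm]
    gcongr
    linarith
  · rw [mul_comm]
    gcongr
    linarith
  · dsimp only
    rw [hj.Asym, hq.Asym]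
  · dsimp only
    rw [Finset.sum_add_distrib, ← Finset.mul_sum, hj.Atr, hq.Atr]
    simp
  · dsimp only
    have e : ∑ b, (j.A a b + ε * q.A a b) * w' b + (j.H - ε * f2 q.A j.w j.w) * w' a =
        ∑ b, (j.A a b + ε * q.A a b) * (w' - j.w) b + (j.H - ε * f2 q.A j.w j.w) * (w' - j.w) a := by
      have e1 : ∑ b, (j.A a b + ε * q.A a b) * j.w b = -j.H * j.w a + ε * (f2 q.A j.w j.w * j.w a) := by
        rw [← hj.Aw, ← impuu_Bw hj.w1 hq, Finset.mul_sum, ← Finset.sum_add_distrib]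
        exact Finset.sum_congr rfl fun b _ => by ring
      simp only [PiLp.sub_apply, mul_sub, Finset.sum_sub_distrib, e1]
      ring
    have hc : ∀ b, |(w' - j.w) b| ≤ ε * k := fun b => (abs_apply_le _ b).trans hw3
    have b1 : |∑ b, (j.A a b + ε * q.A a b) * (w' - j.w) b| ≤ d * (s * (1 + C) * (ε * k)) :=
      sum_abs_le fun b => by
        rw [abs_mul]
        exact mul_le_mul (hd1 (hb.A a b) (hq.bA a b)) (hc b) (abs_nonneg _) (by positivity)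
    have b2 : |(j.H - ε * f2 q.A j.w j.w) * (w' - j.w) a| ≤ s * (1 + d ^ 2 * C) * (ε * k) := by
      rw [abs_mul]
      exact mul_le_mul hH1 (hc a) (abs_nonneg _) (by positivity)
    rw [e]
    refine ((abs_add_le _ _).trans (add_le_add b1 b2)).trans
      (le_trans (le_of_eq ?_) (fin (x := (d * (1 + C) + (1 + d ^ 2 * C)) * k) (by linarith)))
    ring
  · dsimp only
    rw [hj.Tsym1, hq.Tsym1]
  · dsimp only
    rw [hj.Tsym2, hq.Tsym2]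
  · dsimp only
    rw [Finset.sum_add_distrib, ← Finset.mul_sum, hj.Ttr, hq.Ttr]
    simp
  · dsimp only at hv hv' ⊢
    have hM : ∀ a b, |umm j.A j.H a b| ≤ (d + 1) * s := fun a b => by
      have q1 : ∀ {x y : ℝ}, |x| ≤ s → |y| ≤ s → |x * y| ≤ s := fun {x y} hx hy => by
        rw [abs_mul]
        exact (mul_le_mul hx (hy.trans hs) (abs_nonneg _) hs0.le).trans_eq (mul_one _)
      have b1 : |∑ c, j.A a c * j.A c b| ≤ d * s := sum_abs_le fun c => q1 (hb.A a c) (hb.A c b)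
      have b2 := q1 hb.H (hb.A a b)
      exact ((abs_add_le _ _).trans (add_le_add b1 b2)).trans_eq (by ring)
    have hMM : ∀ a b, |umm (fun a b => j.A a b + ε * q.A a b) (j.H - ε * f2 q.A j.w j.w) a b - umm j.A j.H a b| ≤
        s * ε * m := fun a b => by
      have b1 : |∑ c, ((j.A a c + ε * q.A a c) * (j.A c b + ε * q.A c b) - j.A a c * j.A c b)| ≤
          d * (ε * C * (s * (1 + C)) + s * (ε * C)) :=
        sum_abs_le fun c => impuu_mul (hd (hq.bA a c)) (hd1 (hb.A c b) (hq.bA c b)) (hb.A a c) (hd (hq.bA c b))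
      have b2 := impuu_mul hH (hd1 (hb.A a b) (hq.bA a b)) hb.H (hd (x := j.A a b) (hq.bA a b))
      refine (le_of_eq ?_).trans (((abs_add_le _ _).trans (add_le_add b1 b2)).trans_eq (by rw [hm]; ring))
      simp only [umm, Finset.sum_sub_distrib]
      congr 1
      ring
    have h := impuu_Tw hj.w1 hw3 (by positivity) (by positivity) (fun a b c => hd1 (hb.T a b c) (hq.bT a b c)) hM hMM
      (fun x y hx hy => by
        have h1 : f3 q.T j.w x y = 0 := hq.Te x y hx hy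
        rw [f3_add, f3_mul, hj.tw hx hy, h1]
        ring) v v' hv hv'
    refine h.trans ?_
    gcongr
    refine le_trans (le_of_eq ?_)
      (fin (x := 4 * (d : ℝ) ^ 3 * (1 + C) * k + d ^ 2 * m + 3 * d ^ 2 * (d + 1) * k) (by linarith))
    ring

theorem Jet.upd (d : ℕ) {C : ℝ} (hC : 1 ≤ C) : ∃ K : ℝ, 1 ≤ K ∧ ∀ (j q : Jet d) (ε s : ℝ), j.IsB → EvJet j.w q C →
    j.Bd s s → 0 < ε → ε ≤ s → s ≤ 1 → ∃ j' : Jet d, j'.IsB ∧ j'.Close j (K * ε) (K * ε) (K * ε) ∧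
      ∀ y : E d, ‖y‖ ≤ 1 → |j'.P y - (j.P y + ε * q.P y)| ≤ K * s * ε := by
  obtain ⟨K, hK, h1⟩ := impuu_pre d hC
  obtain ⟨L, hL, h2⟩ := Jet.retr d (1 + K + C)
  have hK0 : 0 ≤ K := by linarith
  have hC0 : 0 ≤ C := by linarith
  have p1 : 0 ≤ L * K := by positivity
  have p2 : 0 ≤ (d : ℝ) ^ 2 * (L * K) := by positivity
  have p3 : 0 ≤ (d : ℝ) ^ 3 * (L * K) := by positivity
  refine ⟨K + C + L * K + d ^ 2 * (L * K) + d ^ 3 * (L * K), by linarith, fun j q ε s hj hq hb hε hεs hs => ?_⟩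
  have hs0 : 0 < s := hε.trans_le hεs
  have hε1 : ε ≤ 1 := hεs.trans hs
  obtain ⟨w, H, hw1, hw2, hH, hp⟩ := h1 j q ε s hj hq hb hε hεs hs
  have hd : ∀ {x y : ℝ}, |y| ≤ C → |x + ε * y - x| ≤ (K + C) * ε := fun {x y} hy => by
    rw [add_sub_cancel_left, abs_mul, abs_of_pos hε, mul_comm]
    gcongr
    linarith
  have hc : Jet.Close ⟨w, H, fun a b => j.A a b + ε * q.A a b, fun a b c => j.T a b c + ε * q.T a b c⟩ j (K * ε)
      ((K + C) * ε) ((K + C) * ε) :=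
    ⟨hw2, hH.trans (by gcongr; linarith), fun a b => hd (hq.bA a b), fun a b c => hd (hq.bT a b c)⟩
  have e1 : (K + C) * ε ≤ K + C := mul_le_of_le_one_right (by positivity) hε1
  have e2 : K * s * ε ≤ K * ε := by
    have : K * s ≤ K := mul_le_of_le_one_right hK0 hs
    gcongr
  have e3 : K * ε ≤ K := mul_le_of_le_one_right hK0 hε1
  obtain ⟨j', hj', hc'⟩ := h2 _ (K * s * ε) hp ((hc.bd hb).mono (by linarith) (by linarith)) (by positivity)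
    (by linarith)
  have e4 : L * (K * s * ε) ≤ L * K * ε := by
    rw [mul_assoc L]
    gcongr
  have q2 : 0 ≤ (d : ℝ) ^ 2 * (L * K) * ε := by positivity
  have q3 : 0 ≤ (d : ℝ) ^ 3 * (L * K) * ε := by positivity
  have q4 : 0 ≤ L * K * ε := by positivity
  have q5 : 0 ≤ C * ε := by positivity
  refine ⟨j', hj', (hc'.trans hc).mono (by linarith) (by linarith) (by linarith), fun y hy => ?_⟩
  have hw : j'.w = w := sub_eq_zero.1 (norm_le_zero_iff.1 hc'.w)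
  have h := Jet.P_sub_le (j := j') (j' := ⟨j.w + ε • q.w, 0, fun a b => j.A a b + ε * q.A a b,
    fun a b c => j.T a b c + ε * q.T a b c⟩) (hw ▸ hw1) hc'.A hc'.T (by positivity) (by positivity) hy
  have e : Jet.P ⟨j.w + ε • q.w, 0, fun a b => j.A a b + ε * q.A a b, fun a b c => j.T a b c + ε * q.T a b c⟩ y =
      j.P y + ε * q.P y := by
    simp only [Jet.P_eq, inner_add_left, real_inner_smul_left, f2_add, f2_mul, f3_add, f3_mul]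
    ring
  rw [e] at h
  have q6 : 0 ≤ (C + L * K) * s * ε := by positivity
  linarith

end Crest.Agent.R97
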