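import Crest.Agent.R97.ImpUA
import Crest.Agent.R97.ImpUU
import Crest.Agent.R97.ImpUL

/-! R97/ImpUS (helper95): one step of the improvement of flatness and the iteration. -/

set_option autoImplicit false
open MeasureTheory Metric Set Filter Topology
open scoped RealInnerProductSpace NNReal

namespace Crest.Agent.R97

variable {d : ℕ}

theorem imp_step (h : LinStmt d) : ∃ σ η K : ℝ, 0 < σ ∧ σ ≤ 1 / 2 ∧ 0 < η ∧ 1 ≤ K ∧ ∀ (L : ℝ≥0) (u : E d → ℝ) (j : Jet d)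
    (ε a b : ℝ), Mn L u → FB u 0 → j.IsB → j.Bd a b → 0 ≤ b → 0 < ε → ε ≤ η → a ≤ η → b ≤ η → (a + b) * b ≤ η * ε →
      Trap u j.P ε (closedBall 0 1) → ∃ j' : Jet d, j'.IsB ∧ j'.Close j (K * ε) (K * ε) (K * ε) ∧
        Trap u j'.P (ε * σ ^ 7) (closedBall 0 (σ ^ 2)) := by
  obtain ⟨C, hC1, hC⟩ := h
  obtain ⟨K₁, hK₁, hA⟩ := Jet.adm d
  obtain ⟨K, hK, hU⟩ := Jet.upd d hC1
  obtain ⟨σ, hσ0, hσC⟩ : ∃ σ : ℝ, 0 < σ ∧ C * σ = 1 / 4 := ⟨1 / (4 * C), by positivity, by field_simp⟩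
  have hσ : σ ≤ 1 / 4 := by nlinarith
  obtain ⟨η₀, hη₀, hL⟩ := hC (σ ^ 7 / 4) (by positivity)
  obtain ⟨η, hη, h1, h2, h3⟩ : ∃ η : ℝ, 0 < η ∧ K₁ * (2 * η) ≤ η₀ ∧ K * η ≤ σ ^ 7 / 4 ∧ η ≤ 1 := by
    refine ⟨min (min (η₀ / (2 * K₁)) (σ ^ 7 / 4 / K)) 1, by positivity, ?_, ?_, min_le_right _ _⟩
    · rw [← mul_assoc, mul_comm K₁, ← le_div_iff₀' (by positivity)]
      exact (min_le_left _ _).trans (min_le_left _ _)
    · rw [← le_div_iff₀' (by positivity)]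
      exact (min_le_left _ _).trans (min_le_right _ _)
  refine ⟨σ, η, K, hσ0, by linarith, hη, hK, fun L u j ε a b hu hF hj hb hb0 hε hεη ha hbη hab hT => ?_⟩
  have h4 : IAdm j.w j.P η₀ ε := by
    refine hA j a b ε η₀ hj hb hb0 hε (le_trans (by gcongr; linarith) h1) ?_
    calc K₁ * ((a + b) * b) ≤ K₁ * (2 * η * ε) :=
          mul_le_mul_of_nonneg_left (by nlinarith [mul_pos hη hε]) (by linarith)
      _ = K₁ * (2 * η) * ε := by ring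
      _ ≤ _ := by gcongr
  obtain ⟨q, hq, hT'⟩ := hL L u hu hF j.w j.P ε hj.w1 hε (by nlinarith) h4 hT
  obtain ⟨j', hj', hc, hP⟩ := hU j q ε η hj hq (hb.mono ha hbη) hε hεη h3
  refine ⟨j', hj', hc, (hT' (σ ^ 2) (by positivity) (by nlinarith)).mono subset_rfl
    (fun y hy => hP y ((mem_closedBall_zero_iff.1 hy).trans (by nlinarith))) ?_⟩
  have h5 : C * (σ ^ 2) ^ 4 = σ ^ 7 / 4 := by
    rw [show C * (σ ^ 2) ^ 4 = C * σ * σ ^ 7 by ring, hσC]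
    ring
  have h6 : 0 < ε * σ ^ 7 := by positivity
  rw [h5]
  nlinarith

theorem improve_of (h : LinStmt d) : ∃ ε₀ C : ℝ, 0 < ε₀ ∧ 0 < C ∧ ∀ (L : ℝ≥0) (u : E d → ℝ), Mn L u → FB u 0 →
    ∀ e : E d, ‖e‖ = 1 → Trap u (fun y => ⟪e, y⟫) ε₀ (closedBall 0 1) →
      ∃ j : Jet d, j.IsB ∧ j.Bdd C ∧ ∀ t : ℝ, 0 < t → t ≤ 1 →
        Trap u j.P (C * t ^ 3 * Real.sqrt t) (closedBall 0 t) := by
  obtain ⟨σ, η, K, hσ0, hσ, hη, hK, hS⟩ := imp_step h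
  obtain ⟨ε₀, hε₀, he⟩ : ∃ ε₀ : ℝ, 0 < ε₀ ∧ 8 * K ^ 2 * ε₀ = η := ⟨η / (8 * K ^ 2), by positivity, by field_simp⟩
  obtain ⟨c, hc⟩ : ∃ c : ℝ, c = K * ε₀ := ⟨_, rfl⟩
  have hc0 : 0 < c := by rw [hc]; positivity
  have hcη : 2 * c ≤ η := by rw [hc, ← he]; nlinarith [mul_pos (show 0 < K by linarith) hε₀]
  have hεη : ε₀ ≤ η := by nlinarith
  obtain ⟨C₁, hC₁⟩ : ∃ C₁ : ℝ, C₁ = ε₀ + 2 * c * (1 + d ^ 2 + d ^ 3) := ⟨_, rfl⟩
  have hC0 : 0 < C₁ := by rw [hC₁]; positivity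
  refine ⟨ε₀, C₁ / σ ^ 7 + 2 * c, hε₀, by positivity, fun L u hu hF e he1 hT => ?_⟩
  let j0 : Jet d := ⟨e, 0, fun _ _ => 0, fun _ _ _ => 0⟩
  let I : ℕ → Jet d → Prop := fun k j => j.IsB ∧ j.Bd (2 * c - 2 * c * (1 / 2) ^ k) (2 * c - 2 * c * (1 / 2) ^ k) ∧
    Trap u j.P (ε₀ * (σ ^ k) ^ 7) (closedBall 0 ((σ ^ k) ^ 2))
  have hb0 : j0.Bd 0 0 := ⟨by simp [j0], by simp [j0], by simp [j0]⟩
  have h0 : I 0 j0 := by
    refine ⟨⟨he1, by simp [j0], by simp [j0], by simp [j0], by simp [j0], by simp [j0], by simp [j0], by simp [j0]⟩,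
      hb0.mono (by simp) (by simp), ?_⟩
    have : j0.P = fun y => ⟪e, y⟫ := by funext y; simp [j0, Jet.P]
    simpa [this] using hT
  have step : ∀ k j, I k j → ∃ j', I (k + 1) j' ∧ j'.Close j (c * σ ^ (5 * k)) (c * σ ^ (3 * k)) (c * σ ^ k) := by
    rintro k j ⟨h1, h2, h3⟩
    have hx2 : σ ^ k ≤ (1 / 2) ^ k := pow_le_pow_left₀ hσ0.le hσ k
    rw [pow_mul', pow_mul']
    simp only [I, pow_succ σ k, pow_succ (1 / 2 : ℝ) k]
    have hx0 : 0 < σ ^ k := by positivity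
    have hx1 : σ ^ k ≤ 1 := pow_le_one₀ hσ0.le (by linarith)
    generalize σ ^ k = x at *
    have hr : 0 < x ^ 2 := by positivity
    have hz : 0 ≤ 2 * c * (1 / 2) ^ k := by positivity
    have p2 : x ^ 2 ≤ 1 := pow_le_one₀ hx0.le hx1
    have p3 : x ^ 3 ≤ x := by nlinarith
    have p4 : (x ^ 2) ^ 2 ≤ x ^ 2 := by nlinarith
    have p5 : x ^ 5 ≤ 1 := pow_le_one₀ hx0.le hx1
    have h4 := h3.to_bl hr
    rw [show ε₀ * x ^ 7 / x ^ 2 = ε₀ * x ^ 5 by field_simp] at h4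
    obtain ⟨j', h5, h6, h7⟩ := hS L _ _ (ε₀ * x ^ 5) _ _ (hu.bl 0 hr) (hF.bl hr) (h1.sc _)
      ((h2.mono (sub_le_self _ hz) (sub_le_self _ hz)).sc hr.le) (by positivity) (by positivity) (by nlinarith)
      (by nlinarith) (by nlinarith) (by
        calc (x ^ 2 * (2 * c) + (x ^ 2) ^ 2 * (2 * c)) * ((x ^ 2) ^ 2 * (2 * c))
            ≤ (x ^ 2 * (2 * c) + x ^ 2 * (2 * c)) * ((x ^ 2) ^ 2 * (2 * c)) := by gcongr
          _ = η * (ε₀ * x ^ 5) * x := by rw [hc, ← he]; ring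
          _ ≤ η * (ε₀ * x ^ 5) * 1 := by gcongr
          _ = _ := mul_one _) h4
    have h8 : (j'.sc (x ^ 2)⁻¹).Close j (c * x ^ 5) (c * x ^ 3) (c * x) :=
      (h6.sc_inv hr).mono (by rw [hc]; linarith) (le_of_eq (by rw [hc]; field_simp)) (le_of_eq (by rw [hc]; field_simp))
    refine ⟨_, ⟨h5.sc _, (h8.bd h2).mono (by nlinarith) (by nlinarith), ?_⟩, h8⟩
    rw [mul_pow x σ 2]
    exact (h7.of_bl hr).mono subset_rfl (t := 0) (by simp) (le_of_eq (by ring))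
  have : Nonempty (Jet d) := ⟨j0⟩
  choose! f hf using step
  let J : ℕ → Jet d := fun k => Nat.rec j0 f k
  have hJ : ∀ k, I k (J k) := fun k => by
    induction k with
    | zero => exact h0
    | succ k ih => exact (hf k _ ih).1
  obtain ⟨j, hj, hcl⟩ := Jet.lim (J := J) hσ0.le hσ (fun k => (hJ k).1) fun k => (hf k _ (hJ k)).2
  have hb : j.Bd (C₁ / σ ^ 7 + 2 * c) (C₁ / σ ^ 7 + 2 * c) :=
    ((hcl 0).bd hb0).mono (by simp; positivity) (by simp; positivity)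
  refine ⟨j, hj, ⟨hb.H, hb.A, hb.T⟩, fun t ht ht1 => ?_⟩
  have hs0 : 0 < √t := Real.sqrt_pos.2 ht
  obtain ⟨k, h1, h2⟩ := exists_nat_pow_near_of_lt_one hs0 (Real.sqrt_le_one.2 ht1) hσ0 (by linarith)
  have h3 := hcl k
  have h4 := (hJ k).2.2
  rw [pow_mul', pow_mul'] at h3
  rw [pow_succ] at h1
  have hx0 : 0 < σ ^ k := by positivity
  generalize σ ^ k = x at *
  have h5 : t ≤ x ^ 2 := by rw [← Real.sq_sqrt ht.le]; gcongr
  refine h4.mono (closedBall_subset_closedBall h5) (fun y hy => Jet.P_sub_le h3.w h3.A h3.T (by positivity) (by positivity)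
    ((mem_closedBall_zero_iff.1 hy).trans h5)) ?_
  have h6 : t ^ 3 * √t = √t ^ 7 := by
    conv_lhs => rw [← Real.sq_sqrt ht.le]
    rw [Real.sqrt_sq hs0.le]
    ring
  calc _ = C₁ / σ ^ 7 * (x * σ) ^ 7 := by rw [hC₁]; field_simp
    _ ≤ (C₁ / σ ^ 7 + 2 * c) * √t ^ 7 := by gcongr; linarith
    _ = _ := by rw [mul_assoc, h6]

end Crest.Agent.R97
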