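import Crest.Agent.R97.ImpL
import Crest.Agent.R97.ImpUS

set_option autoImplicit false
open MeasureTheory Metric Set Filter Topology
open scoped RealInnerProductSpace NNReal

namespace Crest.Agent.R97

variable {d : ℕ}

/-! Imp: improvement of flatness up to third order. -/

theorem improve (hd : 1 ≤ d) : ∃ ε₀ C : ℝ, 0 < ε₀ ∧ 0 < C ∧ ∀ (L : ℝ≥0) (u : E d → ℝ), Mn L u → FB u 0 →
    ∀ e : E d, ‖e‖ = 1 → Trap u (fun y => ⟪e, y⟫) ε₀ (closedBall 0 1) →
      ∃ j : Jet d, j.IsB ∧ j.Bdd C ∧ ∀ t : ℝ, 0 < t → t ≤ 1 →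
        Trap u j.P (C * t ^ 3 * Real.sqrt t) (closedBall 0 t) :=
  improve_of (lin hd)

end Crest.Agent.R97
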