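import Crest.Agent.R97.ImpG

/-! ImpC: comparison with the perturbed approximate solutions.  Prefix `ic_`. -/

set_option autoImplicit false
open MeasureTheory Metric Set Filter Topology
open scoped RealInnerProductSpace NNReal

namespace Crest.Agent.R97

variable {d : ℕ}

theorem ic_harm {P H : E d → ℝ} (hP : Harm P univ) (hH : Harm H univ) (e : E d) (ε σ : ℝ) :
    Harm (fun y => P y + ε * (H y + σ * ⟪e, y⟫)) univ :=
  hP.add isOpen_univ ((hH.add isOpen_univ ((harm_inner e univ).const_mul isOpen_univ σ)).const_mul isOpen_univ ε)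

theorem ic_diff {P : E d → ℝ} (hP : Harm P univ) (x : E d) : DifferentiableAt ℝ P x :=
  (hara_2 isOpen_univ hP (mem_univ x)).differentiableAt (by norm_num)

theorem ic_grad {P H : E d → ℝ} (hP : Harm P univ) (hH : Harm H univ) (e : E d) (ε σ : ℝ) (x : E d) :
    gradient (fun y => P y + ε * (H y + σ * ⟪e, y⟫)) x = gradient P x + ε • (gradient H x + σ • e) := by
  have h1 := (ic_diff hP x).hasFDerivAt
  have h2 := (ic_diff hH x).hasFDerivAt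
  have h3 := (ic_diff (harm_inner e univ) x).hasFDerivAt
  have h4 : HasFDerivAt (fun y => P y + ε * (H y + σ * ⟪e, y⟫)) _ x := h1.add ((h2.add (h3.const_mul σ)).const_mul ε)
  refine ext_inner_right ℝ fun v => ?_
  have h5 := inner_gradient (fun y : E d => ⟪e, y⟫) x v
  rw [gradient_inner] at h5
  rw [inner_gradient, h4.fderiv, inner_add_left, real_inner_smul_left, inner_add_left, real_inner_smul_left,
    inner_gradient, inner_gradient, h5]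
  simp [mul_add]

theorem ic_est {a g e : E d} {η M σ : ℝ} (he : ‖e‖ = 1) (ha : ‖a - e‖ ≤ η) (hg : ‖g‖ ≤ M)
    (hge : |⟪g, e⟫| ≤ M * (2 * η)) :
    ‖g + σ • e‖ ≤ M + |σ| ∧ |⟪a, g + σ • e⟫ - σ| ≤ M * (2 * η) + η * (M + |σ|) := by
  have h1 : ‖g + σ • e‖ ≤ M + |σ| := by
    refine (norm_add_le _ _).trans ?_
    rw [norm_smul, he, mul_one, Real.norm_eq_abs]
    linarith
  refine ⟨h1, ?_⟩
  have h2 : ⟪a, g + σ • e⟫ - σ = ⟪g, e⟫ + ⟪a - e, g + σ • e⟫ := by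
    rw [inner_sub_left, inner_add_right e, real_inner_smul_right, real_inner_self_eq_norm_sq, he, real_inner_comm e g]
    ring
  rw [h2]
  refine (abs_add_le _ _).trans (add_le_add hge ((abs_real_inner_le_norm _ _).trans ?_))
  exact mul_le_mul ha h1 (norm_nonneg _) ((norm_nonneg _).trans ha)

theorem ic_sq (a G : E d) (ε : ℝ) : ‖a + ε • G‖ ^ 2 = ‖a‖ ^ 2 + 2 * ε * ⟪a, G⟫ + ε ^ 2 * ‖G‖ ^ 2 := by
  rw [norm_add_sq_real, real_inner_smul_right, norm_smul, mul_pow, Real.norm_eq_abs, sq_abs]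
  ring

theorem ic_front {y : E d} (hy : y ∈ frontier (ball (0 : E d) (1 / 2))) : ‖y‖ = 1 / 2 := by
  rw [frontier_ball _ (by norm_num)] at hy
  simpa using hy

theorem ic_near {e : E d} {P : E d → ℝ} {η ε M : ℝ} (h : IAdm e P η ε) (hε : ε ≤ η) (hM : 0 < M) {x : E d}
    (hx : x ∈ closedBall (0 : E d) 1) (hP : |P x| ≤ ε) : M * |⟪e, x⟫| ≤ M * (2 * η) := by
  refine mul_le_mul_of_nonneg_left ?_ hM.le
  have h1 := abs_le.1 (h.near x hx)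
  have h2 := abs_le.1 hP
  exact abs_le.2 ⟨by linarith, by linarith⟩

/-- `Mn.cmp_sub` on `D = ball 0 (1/2)`, `U = univ`, `V = P + ε (H + δ ⟪e,·⟫)`, which is harmonic.  If `u x = 0 < V x` then
`P x ≤ ε` (trap) and `P x > -ε`, so `|‖∇P‖² - 1| ≤ η ε`, `|⟪e,x⟫| ≤ ε + η ≤ 2η` (`IAdm.near`), and with `G = ∇H + δ e`:
`‖∇P + ε G‖² ≥ ‖∇P‖² + 2 ε ⟪∇P, G⟫`, `⟪∇P, G⟫ = ⟪e, G⟫ + ⟪∇P - e, G⟫ ≥ δ - 2 M η - η (M + δ)`.  Take `η (1 + 6M + 2δ) ≤ δ`. -/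
theorem imp_sub (hd : 1 ≤ d) {δ M : ℝ} (hδ : 0 < δ) (hM : 0 < M) : ∃ η : ℝ, 0 < η ∧
    ∀ (L : ℝ≥0) (u : E d → ℝ) (e : E d) (P H : E d → ℝ) (ε : ℝ), Mn L u → ‖e‖ = 1 → 0 < ε → ε ≤ η →
      IAdm e P η ε → Trap u P ε (closedBall 0 1) → Harm H univ →
      (∀ y ∈ closedBall (0 : E d) (1 / 2), H y + δ * ⟪e, y⟫ ≤ 1 ∧ ‖gradient H y‖ ≤ M ∧
        |⟪gradient H y, e⟫| ≤ M * |⟪e, y⟫|) →
      (∀ y : E d, ‖y‖ = 1 / 2 → P y + ε * (H y + δ * ⟪e, y⟫) ≤ u y) →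
      ∀ y ∈ ball (0 : E d) (1 / 2), P y + ε * (H y + δ * ⟪e, y⟫) ≤ u y := by
  have hK : 0 < 1 + 6 * M + 2 * δ := by positivity
  refine ⟨δ / (1 + 6 * M + 2 * δ), by positivity, fun L u e P H ε hu he ε0 εη hA hT hH hb hf => ?_⟩
  set η := δ / (1 + 6 * M + 2 * δ) with hη
  have hη1 : η * (1 + 6 * M + 2 * δ) = δ := div_mul_cancel₀ _ hK.ne'
  have hV := ic_harm hA.harm hH e ε δ
  refine hu.cmp_sub hd isOpen_ball isBounded_ball isOpen_univ (subset_univ _) (hV.1.of_le (hara_le 2))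
    (fun x _ _ => (hV.2 x (mem_univ x)).ge) (fun x hx h0 hpos => ?_) fun x hx => hf x (ic_front hx)
  have hx2 : x ∈ closedBall (0 : E d) (1 / 2) := ball_subset_closedBall hx
  have hx1 : x ∈ closedBall (0 : E d) 1 := closedBall_subset_closedBall (by norm_num) hx2
  obtain ⟨b1, b2, b3⟩ := hb x hx2
  have hP : |P x| ≤ ε := by
    have t1 := (le_max_left _ _).trans (hT x hx1).1
    have t2 := mul_le_mul_of_nonneg_left b1 ε0.le
    exact abs_le.2 ⟨by linarith, by linarith⟩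
  obtain ⟨-, e2⟩ := ic_est (σ := δ) he (hA.grad x hx1) b2 (b3.trans (ic_near hA εη hM hx1 hP))
  rw [abs_of_pos hδ] at e2
  have e3 := (abs_le.1 e2).1
  have e4 := (abs_le.1 (hA.fb x hx1 hP)).1
  rw [ic_grad hA.harm hH]
  refine lt_of_pow_lt_pow_left₀ 2 (norm_nonneg _) ?_
  rw [ic_sq]
  have e5 : δ ≤ 2 * ⟪gradient P x, gradient H x + δ • e⟫ - η := by nlinarith
  have e6 := mul_le_mul_of_nonneg_left e5 ε0.le
  have e7 : 0 ≤ ε ^ 2 * ‖gradient H x + δ • e‖ ^ 2 := by positivity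
  nlinarith [mul_pos ε0 hδ]

/-- the mirror image with `Mn.cmp_sup`, `V = P + ε (H - δ ⟪e,·⟫)`, `lap V = 0`: if `V x ≤ 0 < u x` then `|P x| ≤ ε` and
`‖∇P + ε G‖² ≤ 1 + η ε + 2 ε (-δ + 2 M η + η (M + δ)) + ε η (M + δ)² < 1`. -/
theorem imp_sup (hd : 1 ≤ d) {δ M : ℝ} (hδ : 0 < δ) (hM : 0 < M) : ∃ η : ℝ, 0 < η ∧
    ∀ (L : ℝ≥0) (u : E d → ℝ) (e : E d) (P H : E d → ℝ) (ε : ℝ), Mn L u → ‖e‖ = 1 → 0 < ε → ε ≤ η →
      IAdm e P η ε → Trap u P ε (closedBall 0 1) → Harm H univ →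
      (∀ y ∈ closedBall (0 : E d) (1 / 2), -1 ≤ H y - δ * ⟪e, y⟫ ∧ ‖gradient H y‖ ≤ M ∧
        |⟪gradient H y, e⟫| ≤ M * |⟪e, y⟫|) →
      (∀ y : E d, ‖y‖ = 1 / 2 → u y ≤ max (P y + ε * (H y - δ * ⟪e, y⟫)) 0) →
      ∀ y ∈ ball (0 : E d) (1 / 2), u y ≤ max (P y + ε * (H y - δ * ⟪e, y⟫)) 0 := by
  have hK : 0 < 1 + 6 * M + 2 * δ + (M + δ) ^ 2 := by positivity
  refine ⟨δ / (1 + 6 * M + 2 * δ + (M + δ) ^ 2), by positivity,
    fun L u e P H ε hu he ε0 εη hA hT hH hb hf => ?_⟩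
  set η := δ / (1 + 6 * M + 2 * δ + (M + δ) ^ 2) with hη
  have hη1 : η * (1 + 6 * M + 2 * δ + (M + δ) ^ 2) = δ := div_mul_cancel₀ _ hK.ne'
  have hs : ∀ y, H y - δ * ⟪e, y⟫ = H y + -δ * ⟪e, y⟫ := fun y => by ring
  simp only [hs] at hb hf ⊢
  have hV := ic_harm hA.harm hH e ε (-δ)
  refine hu.cmp_sup hd isOpen_ball isBounded_ball isOpen_univ (subset_univ _) (hV.1.of_le (hara_le 2))
    (fun x _ _ _ => (hV.2 x (mem_univ x)).le) (fun x hx h0 hneg => ?_) fun x hx => hf x (ic_front hx)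
  have hx2 : x ∈ closedBall (0 : E d) (1 / 2) := ball_subset_closedBall hx
  have hx1 : x ∈ closedBall (0 : E d) 1 := closedBall_subset_closedBall (by norm_num) hx2
  obtain ⟨b1, b2, b3⟩ := hb x hx2
  have hP : |P x| ≤ ε := by
    have t1 := (lt_max_iff.1 (h0.trans_le (hT x hx1).2)).resolve_right (lt_irrefl _)
    have t2 := mul_le_mul_of_nonneg_left b1 ε0.le
    exact abs_le.2 ⟨by linarith, by linarith⟩
  obtain ⟨e1, e2⟩ := ic_est (σ := -δ) he (hA.grad x hx1) b2 (b3.trans (ic_near hA εη hM hx1 hP))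
  rw [abs_neg, abs_of_pos hδ] at e1 e2
  have e3 := (abs_le.1 e2).2
  have e4 := (abs_le.1 (hA.fb x hx1 hP)).2
  rw [ic_grad hA.harm hH, hV.2 x (mem_univ x), ic_sq]
  have e5 : ε * ‖gradient H x + -δ • e‖ ^ 2 ≤ η * (M + δ) ^ 2 :=
    mul_le_mul εη (pow_le_pow_left₀ (norm_nonneg _) e1 2) (by positivity) (ε0.le.trans εη)
  have e6 : 2 * ⟪gradient P x, gradient H x + -δ • e⟫ + η + ε * ‖gradient H x + -δ • e‖ ^ 2 ≤ -δ := by nlinarith
  have e7 := mul_le_mul_of_nonneg_left e6 ε0.le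
  nlinarith [mul_pos ε0 hδ]

end Crest.Agent.R97
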