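import Crest.Agent.R97.Cmp

/-! ImpD (helper22): definitions for the improvement of flatness.  FROZEN: ask helper22 before editing. -/

set_option autoImplicit false
open MeasureTheory Metric Set Filter Topology
open scoped RealInnerProductSpace NNReal

namespace Crest.Agent.R97

variable {d : ℕ}

/-- reflection in the hyperplane orthogonal to the unit vector `e` -/
noncomputable def rf (e y : E d) : E d := y - (2 * ⟪e, y⟫) • e

/-- even with respect to the hyperplane orthogonal to `e` -/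
def Ev (e : E d) (f : E d → ℝ) : Prop := ∀ y, f (rf e y) = f y

/-- approximate solutions on the unit ball -/
structure IAdm (e : E d) (P : E d → ℝ) (η ε : ℝ) : Prop where
  harm : Harm P univ
  zero : P 0 = 0
  grad : ∀ y ∈ closedBall (0 : E d) 1, ‖gradient P y - e‖ ≤ η
  fb : ∀ y ∈ closedBall (0 : E d) 1, |P y| ≤ ε → |‖gradient P y‖ ^ 2 - 1| ≤ η * ε

/-- cubic jets of even harmonic functions, all coefficients bounded by `C` (the field `H` is not used) -/
structure EvJet (e : E d) (q : Jet d) (C : ℝ) : Prop where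
  bw : ∀ a, |q.w a| ≤ C
  bA : ∀ a b, |q.A a b| ≤ C
  bT : ∀ a b c, |q.T a b c| ≤ C
  Asym : ∀ a b, q.A a b = q.A b a
  Atr : ∑ a, q.A a a = 0
  Tsym1 : ∀ a b c, q.T a b c = q.T b a c
  Tsym2 : ∀ a b c, q.T a b c = q.T a c b
  Ttr : ∀ c, ∑ a, q.T a a c = 0
  we : ⟪e, q.w⟫ = 0
  Ae : ∀ v : E d, ⟪e, v⟫ = 0 → ∑ a, ∑ b, q.A a b * e a * v b = 0
  Te : ∀ v v' : E d, ⟪e, v⟫ = 0 → ⟪e, v'⟫ = 0 → ∑ a, ∑ b, ∑ c, q.T a b c * e a * v b * v' c = 0

/-- the linearisation lemma (proved in `R97/ImpL`, theorem `lin`) -/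
def LinStmt (d : ℕ) : Prop := ∃ C : ℝ, 1 ≤ C ∧ ∀ δ : ℝ, 0 < δ → ∃ η : ℝ, 0 < η ∧
  ∀ (L : ℝ≥0) (u : E d → ℝ), Mn L u → FB u 0 → ∀ (e : E d) (P : E d → ℝ) (ε : ℝ), ‖e‖ = 1 → 0 < ε → ε ≤ η →
    IAdm e P η ε → Trap u P ε (closedBall 0 1) →
    ∃ q : Jet d, EvJet e q C ∧ ∀ ρ : ℝ, 0 < ρ → ρ ≤ 1 / 8 →
      Trap u (fun y => P y + ε * q.P y) (ε * (δ + C * ρ ^ 4)) (closedBall 0 ρ)

theorem inner_rf {e : E d} (he : ‖e‖ = 1) (y : E d) : ⟪e, rf e y⟫ = -⟪e, y⟫ := by
  rw [rf, inner_sub_right, real_inner_smul_right, real_inner_self_eq_norm_sq, he]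
  ring

theorem rf_rf {e : E d} (he : ‖e‖ = 1) (y : E d) : rf e (rf e y) = y := by
  rw [rf, inner_rf he, rf, sub_sub, ← add_smul]
  simp

theorem norm_rf {e : E d} (he : ‖e‖ = 1) (y : E d) : ‖rf e y‖ = ‖y‖ := by
  have h : ‖rf e y‖ ^ 2 = ‖y‖ ^ 2 := by
    rw [rf, norm_sub_sq_real, real_inner_smul_right, norm_smul, he, mul_one, Real.norm_eq_abs, sq_abs,
      real_inner_comm]
    ring
  exact (pow_left_inj₀ (norm_nonneg _) (norm_nonneg _) two_ne_zero).1 h

theorem rf_add (e y z : E d) : rf e (y + z) = rf e y + rf e z := by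
  simp only [rf, inner_add_right, mul_add, add_smul]
  abel

theorem rf_smul (e : E d) (c : ℝ) (y : E d) : rf e (c • y) = c • rf e y := by
  simp only [rf, real_inner_smul_right, smul_sub, smul_smul]
  congr 2
  ring

theorem rf_self {e : E d} (he : ‖e‖ = 1) : rf e e = -e := by
  rw [rf, real_inner_self_eq_norm_sq, he, one_pow, mul_one, two_smul]
  abel

theorem rf_perp {e v : E d} (h : ⟪e, v⟫ = 0) : rf e v = v := by simp [rf, h]

theorem norm_sub_rf {e : E d} (he : ‖e‖ = 1) (y : E d) : ‖y - rf e y‖ = 2 * |⟪e, y⟫| := by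
  rw [rf, sub_sub_cancel, norm_smul, he, mul_one, Real.norm_eq_abs, abs_mul, abs_two]

/-- the reflection as a linear isometry -/
noncomputable def rfI {e : E d} (he : ‖e‖ = 1) : E d ≃ₗᵢ[ℝ] E d where
  toFun := rf e
  invFun := rf e
  map_add' := rf_add e
  map_smul' := rf_smul e
  left_inv := rf_rf he
  right_inv := rf_rf he
  norm_map' := norm_rf he

theorem rfI_apply {e : E d} (he : ‖e‖ = 1) (y : E d) : rfI he y = rf e y := rfl

theorem abs_inner_le {e : E d} (he : ‖e‖ = 1) (y : E d) : |⟪e, y⟫| ≤ ‖y‖ := by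
  simpa [he] using abs_real_inner_le_norm e y

theorem Harm.rf {f : E d → ℝ} (hf : Harm f univ) {e : E d} (he : ‖e‖ = 1) : Harm (fun y => f (rf e y)) univ :=
  Harm.rot isOpen_univ hf (rfI he)

theorem IAdm.mono {e : E d} {P : E d → ℝ} {η η' ε : ℝ} (h : IAdm e P η ε) (hη : η ≤ η') (hε : 0 ≤ ε) :
    IAdm e P η' ε :=
  ⟨h.harm, h.zero, fun y hy => (h.grad y hy).trans hη,
    fun y hy h1 => (h.fb y hy h1).trans (mul_le_mul_of_nonneg_right hη hε)⟩

end Crest.Agent.R97
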