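import Crest.Agent.R97.ImpG

/-! ImpDir: even Dirichlet problem with a modulus of continuity at the boundary.  Prefix `id_`. -/

set_option autoImplicit false
open MeasureTheory Metric Set Filter Topology
open scoped RealInnerProductSpace NNReal

namespace Crest.Agent.R97

variable {d : ℕ}

theorem id_max (hd : 1 ≤ d) {f : E d → ℝ} (hf : Harm f univ) {r : ℝ} (hr : 0 < r) {M : ℝ}
    (hM : ∀ y : E d, ‖y‖ = r → f y ≤ M) (y : E d) (hy : ‖y‖ < r) : f y ≤ M := by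
  refine max_principle hd (D := ball 0 r) isOpen_ball isBounded_ball
    (hf.1.continuousOn.mono (subset_univ _))
    ((hf.1.of_le (WithTop.coe_le_coe.2 (le_top : (2 : ℕ∞) ≤ ⊤))).mono (subset_univ _))
    (fun x _ => (hf.2 x (mem_univ _)).ge) (fun x hx => hM x ?_) y (mem_ball_zero_iff.2 hy)
  rw [frontier_ball _ hr.ne'] at hx
  exact mem_sphere_zero_iff_norm.1 hx

theorem id_side (hd : 1 ≤ d) {f : E d → ℝ} (hf : Harm f univ) {r : ℝ} (hr : 0 < r) {x0 : E d}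
    (h0 : ‖x0‖ = r) {c K : ℝ} (hM : ∀ y : E d, ‖y‖ = r → f y ≤ c + K * ‖y - x0‖ ^ 2) (y : E d)
    (hy : ‖y‖ < r) : f y ≤ c + K * (2 * r ^ 2 - 2 * ⟪x0, y⟫) := by
  have h1 := hf.add isOpen_univ ((harm_inner x0 univ).const_mul isOpen_univ (2 * K))
  have := id_max hd h1 hr (M := c + K * (2 * r ^ 2)) (fun z hz => by
    have h2 := hM z hz
    rw [norm_sub_sq_real, hz, h0, real_inner_comm] at h2
    linarith) y hy
  linarith

/-- Put `δ' = δ/4`, `K = Λ²/(4δ')`, `τ ≤ 1/8` with `2 K τ ≤ δ'`, `Λ τ ≤ δ'`, `r = 1/2 + τ`.  `dirichlet` gives `h0` with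
`|h0 - g| ≤ δ'` on the sphere of radius `r`; `h = (h0 + h0 ∘ rf e)/2` (`Harm.rf`) is even and has the same property.
`max_principle` for `± h` on `ball 0 r` (`frontier_ball`) gives `|h| ≤ 1 + δ'`.  For `x0` on the sphere and `y` on the sphere:
`|g y - g x0| ≤ Λ ‖y - x0‖ ≤ δ' + K ‖y - x0‖²` and `‖y - x0‖² = 2 r² - 2 ⟪x0, y⟫`; `max_principle` for the harmonic functions
`± h y + 2 K ⟪x0, y⟫` (`harm_inner`) gives `|h y - g x0| ≤ 2 δ' + K (2 r² - 2 ⟪x0, y⟫)` in the ball.  For `1/2 ≤ ‖y‖ < r` take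
`x0 = (r/‖y‖) • y`: `2 r² - 2 r ‖y‖ ≤ 2 r τ ≤ 2 τ`, `‖y - x0‖ ≤ τ`. -/
theorem imp_dir (hd : 1 ≤ d) {Λ δ : ℝ} (hΛ : 0 < Λ) (hδ : 0 < δ) : ∃ τ : ℝ, 0 < τ ∧ τ ≤ 1 / 8 ∧
    ∀ (e : E d) (g : E d → ℝ), ‖e‖ = 1 → Ev e g → (∀ y ∈ closedBall (0 : E d) (5 / 8), |g y| ≤ 1) →
      (∀ y ∈ closedBall (0 : E d) (5 / 8), ∀ z ∈ closedBall (0 : E d) (5 / 8), |g y - g z| ≤ Λ * ‖y - z‖) →
      ∃ h : E d → ℝ, Harm h univ ∧ Ev e h ∧ (∀ y ∈ ball (0 : E d) (1 / 2 + τ), |h y| ≤ 1 + δ) ∧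
        ∀ y : E d, 1 / 2 ≤ ‖y‖ → ‖y‖ < 1 / 2 + τ → |h y - g y| ≤ δ := by
  set K : ℝ := Λ ^ 2 / δ with hK
  have hK0 : 0 < K := by positivity
  obtain ⟨τ, hτ, t1, t2, t3⟩ : ∃ τ : ℝ, 0 < τ ∧ τ ≤ 1 / 8 ∧ 2 * K * τ ≤ δ / 4 ∧ Λ * τ ≤ δ / 4 := by
    refine ⟨min (1 / 8) (min (δ / 4 / (2 * K)) (δ / 4 / Λ)), by positivity, min_le_left _ _, ?_, ?_⟩
    · exact (le_div_iff₀' (by positivity)).1 ((min_le_right _ _).trans (min_le_left _ _))
    · exact (le_div_iff₀' hΛ).1 ((min_le_right _ _).trans (min_le_right _ _))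
  refine ⟨τ, hτ, t1, fun e g he hg hb hl => ?_⟩
  set r : ℝ := 1 / 2 + τ with hr
  have hr0 : 0 < r := by positivity
  have hr1 : r ≤ 5 / 8 := by linarith
  have hm : ∀ y : E d, ‖y‖ ≤ r → y ∈ closedBall (0 : E d) (5 / 8) := fun y hy =>
    mem_closedBall_zero_iff.2 (hy.trans hr1)
  have hc : ContinuousOn g (sphere 0 r) := by
    have : LipschitzOnWith ⟨Λ, hΛ.le⟩ g (sphere 0 r) :=
      LipschitzOnWith.of_dist_le_mul fun y hy z hz => by
        rw [Real.dist_eq, dist_eq_norm]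
        exact hl y (hm y (mem_sphere_zero_iff_norm.1 hy).le) z (hm z (mem_sphere_zero_iff_norm.1 hz).le)
    exact this.continuousOn
  obtain ⟨h0, hh0, ha⟩ := dirichlet hd hr0 hc (δ := δ / 4) (by positivity)
  set h : E d → ℝ := fun y => 1 / 2 * (h0 y + h0 (rf e y)) with hh
  have hH : Harm h univ := (hh0.add isOpen_univ (hh0.rf he)).const_mul isOpen_univ _
  have hH' : Harm (fun y => -1 * h y) univ := hH.const_mul isOpen_univ _
  have hs : ∀ y : E d, ‖y‖ = r → |h y - g y| ≤ δ / 4 := by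
    intro y hy
    have a1 := abs_le.1 (ha y (mem_sphere_zero_iff_norm.2 hy))
    have a2 := abs_le.1 (ha (rf e y) (mem_sphere_zero_iff_norm.2 ((norm_rf he y).trans hy)))
    rw [hg y] at a2
    simp only [hh]
    rw [abs_le]
    constructor <;> linarith [a1.1, a1.2, a2.1, a2.2]
  refine ⟨h, hH, fun y => ?_, fun y hy => ?_, fun y y1 y2 => ?_⟩
  · simp only [hh, rf_rf he]
    ring
  · have hy' := mem_ball_zero_iff.1 hy
    have a1 := id_max hd hH hr0 (M := 1 + δ) (fun z hz => by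
      linarith [(abs_le.1 (hs z hz)).2, (abs_le.1 (hb z (hm z hz.le))).2]) y hy'
    have a2 := id_max hd hH' hr0 (M := 1 + δ) (fun z hz => by
      linarith [(abs_le.1 (hs z hz)).1, (abs_le.1 (hb z (hm z hz.le))).1]) y hy'
    rw [abs_le]
    constructor <;> linarith
  · have hy0 : 0 < ‖y‖ := by linarith
    set x0 : E d := (r / ‖y‖) • y with hx0
    have n0 : ‖x0‖ = r := by
      rw [hx0, norm_smul, Real.norm_of_nonneg (by positivity), div_mul_cancel₀ _ hy0.ne']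
    have i0 : ⟪x0, y⟫ = r * ‖y‖ := by
      rw [hx0, real_inner_smul_left, real_inner_self_eq_norm_sq]
      field_simp
    have n1 : ‖y - x0‖ ≤ τ := by
      have : ‖y - x0‖ ^ 2 = (r - ‖y‖) ^ 2 := by
        rw [norm_sub_sq_real, n0, real_inner_comm, i0]
        ring
      rw [(pow_left_inj₀ (norm_nonneg _) (by linarith) two_ne_zero).1 this]
      linarith
    have hq : ∀ z : E d, ‖z‖ = r → |g z - g x0| ≤ δ / 4 + K * ‖z - x0‖ ^ 2 := by
      intro z hz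
      refine (hl z (hm z hz.le) x0 (hm x0 n0.le)).trans ?_
      have e1 : K * ‖z - x0‖ ^ 2 = (Λ * ‖z - x0‖) ^ 2 / δ := by rw [hK]; ring
      rw [e1, ← sub_le_iff_le_add', le_div_iff₀ hδ]
      nlinarith [sq_nonneg (Λ * ‖z - x0‖ - δ / 2)]
    have a1 := id_side hd hH hr0 n0 (c := g x0 + δ / 2) (K := K) (fun z hz => by
      linarith [(abs_le.1 (hs z hz)).2, (abs_le.1 (hq z hz)).2]) y y2
    have a2 := id_side hd hH' hr0 n0 (c := -g x0 + δ / 2) (K := K) (fun z hz => by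
      linarith [(abs_le.1 (hs z hz)).1, (abs_le.1 (hq z hz)).1]) y y2
    have a3 := abs_le.1 ((hl y (hm y y2.le) x0 (hm x0 n0.le)).trans
      ((mul_le_mul_of_nonneg_left n1 hΛ.le).trans t3))
    have a4 : 2 * r ^ 2 - 2 * ⟪x0, y⟫ ≤ 2 * τ := by
      rw [i0]
      nlinarith
    have a5 := mul_le_mul_of_nonneg_left a4 hK0.le
    rw [abs_le]
    constructor <;> linarith [a3.1, a3.2]

end Crest.Agent.R97
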