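import Crest.Agent.R97.ImpD

/-! ImpG: gradient bounds.  Keep the statements; auxiliary lemmas get the prefix `ig_`. -/

set_option autoImplicit false
open MeasureTheory Metric Set Filter Topology
open scoped RealInnerProductSpace NNReal

namespace Crest.Agent.R97

variable {d : ℕ}

/-- linear functions are harmonic (`Jet.harm_P` with `A = T = 0`, or directly) -/
theorem harm_inner (e : E d) (U : Set (E d)) : Harm (fun y => ⟪e, y⟫) U := by
  have hd : ∀ x : E d, HasFDerivAt (fun y : E d => ⟪e, y⟫) (innerSL ℝ e) x := fun x => (innerSL ℝ e).hasFDerivAt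
  refine ⟨((innerSL ℝ e).contDiff (n := (⊤ : ℕ∞))).contDiffOn, fun x _ => Finset.sum_eq_zero fun i _ => ?_⟩
  have h : pd i (fun y : E d => ⟪e, y⟫) = fun _ => innerSL ℝ e (EuclideanSpace.single i 1) := by
    funext y
    rw [pd, (hd y).fderiv]
  rw [h, pd_const]

theorem gradient_inner (e y : E d) : gradient (fun y : E d => ⟪e, y⟫) y = e := by
  have hd : HasFDerivAt (fun y : E d => ⟪e, y⟫) (innerSL ℝ e) y := (innerSL ℝ e).hasFDerivAt
  refine ext_inner_right ℝ fun v => ?_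
  rw [gradient, InnerProductSpace.toDual_symm_apply, hd.fderiv]
  rfl

theorem inner_gradient (f : E d → ℝ) (y v : E d) : ⟪gradient f y, v⟫ = fderiv ℝ f y v := by
  rw [gradient, InnerProductSpace.toDual_symm_apply]

/-- `grad_bound` and `norm_gradient_sq` -/
theorem imp_grad (d : ℕ) : ∃ C : ℝ, 0 < C ∧ ∀ (f : E d → ℝ) (x : E d) (r M : ℝ), 0 < r → Harm f (ball x r) →
    (∀ y ∈ ball x r, |f y| ≤ M) → ‖gradient f x‖ ≤ C * M / r := by
  obtain ⟨C, hC, hb⟩ := grad_bound d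
  refine ⟨(d + 1) * C, by positivity, fun f x r M hr hf hM => ?_⟩
  have hM0 : 0 ≤ M := (abs_nonneg _).trans (hM x (mem_ball_self hr))
  have h1 := hb f x r M hr hf hM
  have hK : 0 ≤ C * M / r := by positivity
  have e : ((d : ℝ) + 1) * C * M / r = (d + 1) * (C * M / r) := by ring
  rw [e]
  refine (abs_le_of_sq_le_sq' ?_ (by positivity)).2
  rw [norm_gradient_sq]
  have h4 : ∑ i, pd i f x ^ 2 ≤ ∑ _i : Fin d, (C * M / r) ^ 2 := Finset.sum_le_sum fun i _ => by
    rw [← sq_abs]; exact pow_le_pow_left₀ (abs_nonneg _) (h1 i) 2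
  rw [Finset.sum_const, Finset.card_univ, Fintype.card_fin, nsmul_eq_mul] at h4
  refine h4.trans ?_
  rw [mul_pow]
  have h5 : (0 : ℝ) ≤ d := Nat.cast_nonneg d
  exact mul_le_mul_of_nonneg_right (by nlinarith) (sq_nonneg _)

theorem ig_norm_gradient (f : E d → ℝ) (y : E d) : ‖gradient f y‖ = ‖fderiv ℝ f y‖ := by
  rw [gradient, LinearIsometryEquiv.norm_map]

/-- `imp_grad` at each point of `S` and `Convex.norm_image_sub_le_of_norm_fderiv_le` -/
theorem imp_lip (d : ℕ) : ∃ C : ℝ, 0 < C ∧ ∀ (f : E d → ℝ) (U S : Set (E d)) (r M : ℝ), 0 < r → Convex ℝ S →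
    Harm f U → (∀ y ∈ U, |f y| ≤ M) → (∀ x ∈ S, ball x r ⊆ U) →
    ∀ y ∈ S, ∀ z ∈ S, |f y - f z| ≤ C * M / r * ‖y - z‖ := by
  obtain ⟨C, hC, hb⟩ := imp_grad d
  refine ⟨C, hC, fun f U S r M hr hS hf hM hsub y hy z hz => ?_⟩
  have hdiff : ∀ x ∈ S, DifferentiableAt ℝ f x := fun x hx =>
    hart_diff isOpen_ball (hf.mono (hsub x hx)) (mem_ball_self hr)
  have hbd : ∀ x ∈ S, ‖fderiv ℝ f x‖ ≤ C * M / r := fun x hx => by
    rw [← ig_norm_gradient]
    exact hb f x r M hr (hf.mono (hsub x hx)) fun w hw => hM w (hsub x hx hw)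
  exact hS.norm_image_sub_le_of_norm_fderiv_le hdiff hbd hz hy

/-- `φ y = ⟪∇f y, e⟫ = ∑ e i * pd i f y` is harmonic on the ball, bounded by `C B/(τ/2)` on `ball 0 (1/2 + τ/2)`
(`imp_grad`), hence Lipschitz on `closedBall 0 (1/2)` (`imp_lip`, `r = τ/2`).  Differentiating `f ∘ rfI = f` in the direction
`e` (`rf_self`) gives `φ (rf e y) = -φ y`, so `2 |φ y| = |φ y - φ (rf e y)| ≤ Lip * 2 |⟪e, y⟫|` (`norm_sub_rf`). -/
theorem imp_even_grad (d : ℕ) {τ B : ℝ} (hτ : 0 < τ) (hB : 0 < B) : ∃ M : ℝ, 0 < M ∧ ∀ (e : E d) (f : E d → ℝ),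
    ‖e‖ = 1 → Harm f (ball 0 (1 / 2 + τ)) → Ev e f → (∀ y ∈ ball (0 : E d) (1 / 2 + τ), |f y| ≤ B) →
    ∀ y ∈ closedBall (0 : E d) (1 / 2), ‖gradient f y‖ ≤ M ∧ |⟪gradient f y, e⟫| ≤ M * |⟪e, y⟫| := by
  obtain ⟨C, hC, hb⟩ := imp_grad d
  obtain ⟨C', hC', hl⟩ := imp_lip d
  have hτ2 : 0 < τ / 2 := by linarith
  have hK : 0 < C * B / (τ / 2) := by positivity
  have hL : 0 < C' * (C * B / (τ / 2)) / (τ / 2) := by positivity
  refine ⟨C * B / (τ / 2) + C' * (C * B / (τ / 2)) / (τ / 2), by positivity, fun e f he hf hev hB' y hy => ?_⟩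
  have hsub : ∀ x ∈ ball (0 : E d) (1 / 2 + τ / 2), ball x (τ / 2) ⊆ ball (0 : E d) (1 / 2 + τ) := fun x hx =>
    ball_subset_ball' (by have := mem_ball.1 hx; linarith)
  have hg : ∀ x ∈ ball (0 : E d) (1 / 2 + τ / 2), ‖gradient f x‖ ≤ C * B / (τ / 2) := fun x hx =>
    hb f x (τ / 2) B hτ2 (hf.mono (hsub x hx)) fun w hw => hB' w (hsub x hx hw)
  have hD : ∀ x, hart_D e f x = ⟪gradient f x, e⟫ := fun x => by
    rw [inner_gradient, fderiv_eq_sum_pd, hart_D]
  have hφ : Harm (hart_D e f) (ball 0 (1 / 2 + τ / 2)) :=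
    (hart_harm e isOpen_ball hf).mono (ball_subset_ball (by linarith))
  have hφb : ∀ x ∈ ball (0 : E d) (1 / 2 + τ / 2), |hart_D e f x| ≤ C * B / (τ / 2) := fun x hx => by
    rw [hD]
    refine (abs_real_inner_le_norm _ _).trans ?_
    rw [he, mul_one]
    exact hg x hx
  have hy' : rf e y ∈ closedBall (0 : E d) (1 / 2) := by
    rw [mem_closedBall_zero_iff, norm_rf he]
    exact mem_closedBall_zero_iff.1 hy
  have h1 := hl (hart_D e f) _ (closedBall 0 (1 / 2)) (τ / 2) _ hτ2 (convex_closedBall _ _) hφ hφb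
    (fun x hx => ball_subset_ball' (by have := mem_closedBall.1 hx; linarith)) y hy (rf e y) hy'
  have hodd : hart_D e f (rf e y) = -hart_D e f y := by
    have hd : DifferentiableAt ℝ f (rf e y) :=
      hart_diff isOpen_ball hf (closedBall_subset_ball (by linarith) hy')
    have h2 : HasFDerivAt (fun w => f (rf e w))
        ((fderiv ℝ f (rf e y)).comp ((rfI he).toContinuousLinearEquiv : E d →L[ℝ] E d)) y :=
      HasFDerivAt.comp y (f := fun w => rf e w) hd.hasFDerivAt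
        ((rfI he).toContinuousLinearEquiv : E d →L[ℝ] E d).hasFDerivAt
    have h3 : (fun w => f (rf e w)) = f := funext hev
    rw [h3] at h2
    rw [hD, hD, inner_gradient, inner_gradient, h2.fderiv]
    show fderiv ℝ f (rf e y) e = -fderiv ℝ f (rf e y) (rf e e)
    rw [rf_self he, map_neg, neg_neg]
  have hyb : y ∈ ball (0 : E d) (1 / 2 + τ / 2) := closedBall_subset_ball (by linarith) hy
  refine ⟨(hg y hyb).trans (by linarith), ?_⟩
  rw [hodd, sub_neg_eq_add, ← two_mul, abs_mul, abs_two, norm_sub_rf he, hD] at h1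
  have h4 : 0 ≤ C * B / (τ / 2) * |⟪e, y⟫| := mul_nonneg hK.le (abs_nonneg _)
  rw [add_mul]
  linarith

/-- mean value inequality for `P - ⟪e, ·⟫` on the unit ball -/
theorem IAdm.near {e : E d} {P : E d → ℝ} {η ε : ℝ} (h : IAdm e P η ε) :
    ∀ y ∈ closedBall (0 : E d) 1, |P y - ⟪e, y⟫| ≤ η := by
  intro y hy
  have hd : ∀ x : E d, HasFDerivAt (fun w : E d => P w - ⟪e, w⟫) (fderiv ℝ P x - innerSL ℝ e) x := fun x =>
    (hart_diff isOpen_univ h.harm (mem_univ x)).hasFDerivAt.sub (innerSL ℝ e).hasFDerivAt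
  have hbd : ∀ x ∈ closedBall (0 : E d) 1, ‖fderiv ℝ P x - innerSL ℝ e‖ ≤ η := fun x hx => by
    have hη : 0 ≤ η := (norm_nonneg _).trans (h.grad x hx)
    refine ContinuousLinearMap.opNorm_le_bound _ hη fun v => ?_
    have e1 : (fderiv ℝ P x - innerSL ℝ e) v = ⟪gradient P x - e, v⟫ := by
      rw [inner_sub_left, inner_gradient]
      rfl
    rw [e1, Real.norm_eq_abs]
    exact (abs_real_inner_le_norm _ _).trans (mul_le_mul_of_nonneg_right (h.grad x hx) (norm_nonneg _))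
  have h1 := (convex_closedBall (0 : E d) 1).norm_image_sub_le_of_norm_hasFDerivWithin_le
    (fun x _ => (hd x).hasFDerivWithinAt) hbd (mem_closedBall_self zero_le_one) hy
  have hη : 0 ≤ η := (norm_nonneg _).trans (h.grad y hy)
  rw [h.zero, inner_zero_right, sub_zero, sub_zero, sub_zero, Real.norm_eq_abs] at h1
  exact h1.trans (mul_le_of_le_one_right hη (mem_closedBall_zero_iff.1 hy))

end Crest.Agent.R97
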