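import Crest.Agent.R97.ImpD

/-! ImpS: thin strips have small harmonic measure.  Prefix `is_`. -/

set_option autoImplicit false
open MeasureTheory Metric Set Filter Topology
open scoped RealInnerProductSpace NNReal

namespace Crest.Agent.R97

variable {d : ℕ}

theorem is_meas (e : E d) (s : ℝ) : MeasurableSet {y : E d | ‖y‖ ≤ 1 ∧ |⟪e, y⟫| ≤ s} :=
  ((isClosed_le continuous_norm continuous_const).inter
    (isClosed_le (f := fun y : E d => |⟪e, y⟫|) (by fun_prop) continuous_const)).measurableSet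

/-- For `N` with `4^d ≤ δ N` and `s = 1/(3N)` the translates of the set by `(3 s i) • e`, `i < N`, are pairwise disjoint
and lie in `closedBall 0 2`, whose volume is `4^d` times the volume of `ball 0 (1/2)` (`Measure.addHaar_closedBall`,
`Measure.addHaar_ball`).  (Alternative: rotate by `reflection_sub` and use that a hyperplane is null.) -/
theorem imp_strip (hd : 1 ≤ d) {δ : ℝ} (hδ : 0 < δ) : ∃ s : ℝ, 0 < s ∧ ∀ e : E d, ‖e‖ = 1 →
    (volume {y : E d | ‖y‖ ≤ 1 ∧ |⟪e, y⟫| ≤ s}).toReal ≤ δ * (volume (ball (0 : E d) (1 / 2))).toReal := by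
  obtain ⟨N, hN⟩ := exists_nat_gt (4 ^ d / δ)
  have N0 : (0 : ℝ) < N := lt_trans (by positivity) hN
  refine ⟨1 / (3 * N), by positivity, fun e he => ?_⟩
  set S := {y : E d | ‖y‖ ≤ 1 ∧ |⟪e, y⟫| ≤ 1 / (3 * N)} with hS
  set T : ℕ → Set (E d) := fun i => (fun y => y + -(((i : ℝ) / N) • e)) ⁻¹' S with hT
  have hm : ∀ i, MeasurableSet (T i) := fun i => (is_meas e _).preimage (by fun_prop)
  have hin : ∀ (i : ℕ) y, ⟪e, y + -(((i : ℝ) / N) • e)⟫ = ⟪e, y⟫ - i / N := fun i y => by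
    rw [inner_add_right, inner_neg_right, real_inner_smul_right, real_inner_self_eq_norm_sq, he]
    ring
  have key : ∀ i j : ℕ, i < j → Disjoint (T i) (T j) := fun i j hij => by
    refine Set.disjoint_left.2 fun y h1 h2 => ?_
    have a1 := abs_le.1 h1.2
    have a2 := abs_le.1 h2.2
    rw [hin] at a1 a2
    have a3 : ((i : ℝ) + 1) / N ≤ j / N := div_le_div_of_nonneg_right (by exact_mod_cast hij) N0.le
    have a4 : 1 / (3 * (N : ℝ)) = 1 / N / 3 := by field_simp
    have a5 : 0 < 1 / (N : ℝ) := by positivity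
    rw [add_div] at a3
    linarith [a1.2, a2.1]
  have hd' : (↑(Finset.range N) : Set ℕ).PairwiseDisjoint T := fun i _ j _ hij => by
    rcases lt_or_gt_of_ne hij with h | h
    · exact key i j h
    · exact (key j i h).symm
  have hsub : ⋃ i ∈ Finset.range N, T i ⊆ closedBall 0 2 := by
    refine iUnion₂_subset fun i hi y hy => ?_
    have a1 : ‖((i : ℝ) / N) • e‖ ≤ 1 := by
      rw [norm_smul, he, mul_one, Real.norm_of_nonneg (by positivity), div_le_one N0]
      exact_mod_cast (Finset.mem_range.1 hi).le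
    have a2 := norm_sub_norm_le y (((i : ℝ) / N) • e)
    rw [mem_closedBall_zero_iff]
    rw [sub_eq_add_neg y] at a2
    linarith [hy.1]
  have h1 := measure_mono (μ := volume) hsub
  rw [measure_biUnion_finset hd' fun i _ => hm i] at h1
  simp only [hT, measure_preimage_add_right, Finset.sum_const, Finset.card_range, nsmul_eq_mul] at h1
  have h2 := ENNReal.toReal_mono measure_closedBall_lt_top.ne h1
  rw [Measure.addHaar_closedBall _ _ (by norm_num), ENNReal.toReal_mul, ENNReal.toReal_mul,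
    ENNReal.toReal_ofReal (by positivity), ENNReal.toReal_natCast, finrank_euclideanSpace_fin] at h2
  rw [Measure.addHaar_ball_of_pos _ _ (by norm_num), ENNReal.toReal_mul, ENNReal.toReal_ofReal (by positivity),
    finrank_euclideanSpace_fin]
  refine le_of_mul_le_mul_left (h2.trans ?_) N0
  have h3 : (2 : ℝ) ^ d = 4 ^ d * (1 / 2) ^ d := by
    rw [← mul_pow]
    norm_num
  have h4 : (4 : ℝ) ^ d ≤ N * δ := ((div_lt_iff₀ hδ).1 hN).le
  rw [h3, mul_assoc, ← mul_assoc (N : ℝ)]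
  exact mul_le_mul_of_nonneg_right h4 (by positivity)

/-- the profile -/
noncomputable def isM (a t : ℝ) : ℝ := max 0 (min 1 ((1 - t) / (1 - a)))

theorem is_cont (a : ℝ) : Continuous (isM a) := by
  unfold isM
  fun_prop

theorem is_nn (a t : ℝ) : 0 ≤ isM a t := le_max_left _ _

theorem is_le (a t : ℝ) : isM a t ≤ 1 := max_le zero_le_one (min_le_left _ _)

theorem is_anti {a s t : ℝ} (ha : a < 1) (h : s ≤ t) : isM a t ≤ isM a s :=
  max_le_max le_rfl (min_le_min le_rfl (div_le_div_of_nonneg_right (by linarith) (by linarith)))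

theorem is_one {a t : ℝ} (ha : a < 1) (h : t ≤ a) : isM a t = 1 := by
  rw [isM, min_eq_left ((one_le_div (by linarith)).2 (by linarith)), max_eq_right zero_le_one]

theorem is_zero {a t : ℝ} (ha : a < 1) (h : 1 ≤ t) : isM a t = 0 :=
  max_eq_left ((min_le_right _ _).trans (div_nonpos_of_nonpos_of_nonneg (by linarith) (by linarith)))

theorem is_int {a ρ : ℝ} (ha : a < 1) (hρ : 0 < ρ) : Integrable fun y : E d => isM a (‖y‖ / ρ) :=
  ((is_cont a).comp (continuous_norm.div_const ρ)).integrable_of_hasCompactSupport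
    (hasCompactSupport_ker (m := fun t => isM a (t / ρ)) (ρ := ρ) fun t ht => is_zero ha ((one_le_div hρ).2 ht))

theorem is_scale {g : E d → ℝ} (hg : ∀ ρ : ℝ, 0 < ρ → ∀ y, g (ρ • y) = g y) (m : ℝ → ℝ) {ρ : ℝ} (hρ : 0 < ρ) :
    ∫ y, g y * m (‖y‖ / ρ) = ρ ^ d * ∫ y, g y * m ‖y‖ := by
  have h := Measure.integral_comp_inv_smul_of_nonneg volume (fun y : E d => g y * m ‖y‖) hρ.le
  rw [finrank_euclideanSpace_fin, smul_eq_mul] at h
  rw [← h]
  refine integral_congr_ae (ae_of_all _ fun y => ?_)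
  simp only [hg _ (inv_pos.2 hρ), norm_smul, norm_inv, Real.norm_of_nonneg hρ.le, div_eq_inv_mul]

/-- Let `s0` be given by `imp_strip`, `s = s0/2`, `Ψ` the indicator of the cone `|⟪e,y⟫| ≤ s0 ‖y‖` (invariant under
dilations), so `f ≤ b + Ψ` on the shell.  Choose `r' = 1/2 + τ/2`, `a < 1` with `a² r' ≥ 1/2` (e.g. `a = 1 - τ/4`), the continuous
nonincreasing profile `m1 t = max 0 (min 1 ((1 - t)/(1 - a)))` (`= 1` for `t ≤ a`, `= 0` for `t ≥ 1`) and the weight
`m t = m1 (|t|/r') - m1 (|t|/(a r')) ≥ 0`, which vanishes for `|t| ≤ a² r'` and for `t ≥ r'`.  By scaling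
(`Measure.integral_comp_smul` / `integral_comp_inv_smul_of_nonneg`) `∫ Ψ m(‖y‖) = (r'^d - (a r')^d) ∫ Ψ m1(‖y‖)` and
`∫ m(‖y‖) = (r'^d - (a r')^d) ∫ m1(‖y‖)`; `∫ Ψ m1 ≤ vol {‖y‖ ≤ 1, |⟪e,y⟫| ≤ s0}`, `∫ m1 ≥ vol (ball 0 (1/2))`.  Conclude with
`submean`.  (Any other proof is fine.) -/
theorem imp_shell (hd : 1 ≤ d) {δ : ℝ} (hδ : 0 < δ) : ∃ s : ℝ, 0 < s ∧ ∀ (e : E d) (τ b : ℝ) (f : E d → ℝ),
    ‖e‖ = 1 → 0 < τ → τ ≤ 1 / 8 → Harm f (ball 0 (1 / 2 + τ)) →
    (∀ y : E d, 1 / 2 ≤ ‖y‖ → ‖y‖ < 1 / 2 + τ → f y ≤ b + 1 ∧ (s < |⟪e, y⟫| → f y ≤ b)) → f 0 ≤ b + δ := by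
  obtain ⟨s, hs, hS⟩ := imp_strip hd hδ
  refine ⟨s / 2, half_pos hs, fun e τ b f he hτ hτ' hf hb => ?_⟩
  set a : ℝ := 1 - τ / 4 with ha
  set r : ℝ := 1 / 2 + τ / 2 with hr
  have a1 : a < 1 := by linarith
  have a0 : 0 < a := by linarith
  have r0 : 0 < r := by linarith
  have ar : 0 < a * r := mul_pos a0 r0
  have ar' : a * r < r := mul_lt_of_lt_one_left r0 a1
  set C : Set (E d) := {y | |⟪e, y⟫| ≤ s * ‖y‖} with hC
  have mC : MeasurableSet C := (isClosed_le (by fun_prop) (by fun_prop)).measurableSet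
  set Ψ : E d → ℝ := C.indicator fun _ => 1 with hΨ
  have Ψs : ∀ ρ : ℝ, 0 < ρ → ∀ y, Ψ (ρ • y) = Ψ y := fun ρ hρ y => by
    have : ρ • y ∈ C ↔ y ∈ C := by
      simp only [hC, mem_ofPred_eq, real_inner_smul_right, abs_mul, norm_smul, Real.norm_eq_abs, abs_of_pos hρ]
      rw [mul_left_comm, mul_le_mul_iff_right₀ hρ]
    by_cases hy : y ∈ C
    · simp only [hΨ, indicator_of_mem hy, indicator_of_mem (this.2 hy)]
    · simp only [hΨ, indicator_of_notMem hy, indicator_of_notMem (mt this.1 hy)]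
  have iΨ : ∀ {g : E d → ℝ}, Integrable g → Integrable fun y => Ψ y * g y := fun {g} hg => by
    refine (hg.indicator mC).congr (ae_of_all _ fun y => ?_)
    by_cases hy : y ∈ C <;> simp [hΨ, hy]
  set m : ℝ → ℝ := fun t => isM a (|t| / r) - isM a (|t| / (a * r)) with hm
  have mc : Continuous m :=
    ((is_cont a).comp (continuous_abs.div_const _)).sub ((is_cont a).comp (continuous_abs.div_const _))
  have m0 : ∀ t, 0 ≤ m t := fun t =>
    sub_nonneg.2 (is_anti a1 (div_le_div_of_nonneg_left (abs_nonneg t) ar ar'.le))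
  have mz : ∀ t, r ≤ t → m t = 0 := fun t ht => by
    have h1 := le_abs_self t
    simp only [hm]
    rw [is_zero a1 ((one_le_div r0).2 (by linarith)), is_zero a1 ((one_le_div ar).2 (by linarith)), sub_zero]
  have mz' : ∀ y : E d, ‖y‖ < 1 / 2 → m ‖y‖ = 0 := fun y hy => by
    have h1 : 1 / 2 ≤ a * (a * r) := by
      rw [ha, hr]
      nlinarith [mul_pos hτ hτ, mul_pos (mul_pos hτ hτ) hτ]
    have h2 : a * (a * r) ≤ a * r := mul_le_of_le_one_left ar.le a1.le
    simp only [hm, abs_norm]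
    rw [is_one a1 ((div_le_iff₀ r0).2 (by linarith)), is_one a1 ((div_le_iff₀ ar).2 (by linarith)), sub_self]
  have i1 := is_int (d := d) a1 r0
  have i2 := is_int (d := d) a1 ar
  have i3 : Integrable fun y : E d => isM a ‖y‖ := by simpa using is_int (d := d) a1 one_pos
  have im : Integrable fun y : E d => m ‖y‖ := by
    simp only [hm, abs_norm]
    exact i1.sub i2
  have c0 : 0 < r ^ d - (a * r) ^ d := sub_pos.2 (pow_lt_pow_left₀ ar' ar.le (by omega))
  have e1 : ∫ y : E d, m ‖y‖ = (r ^ d - (a * r) ^ d) * ∫ y : E d, isM a ‖y‖ := by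
    have h1 := is_scale (d := d) (g := fun _ => 1) (fun _ _ _ => rfl) (isM a) r0
    have h2 := is_scale (d := d) (g := fun _ => 1) (fun _ _ _ => rfl) (isM a) ar
    simp only [one_mul] at h1 h2
    simp only [hm, abs_norm]
    rw [integral_sub i1 i2, h1, h2, sub_mul (r ^ d)]
  have e2 : ∫ y : E d, Ψ y * m ‖y‖ = (r ^ d - (a * r) ^ d) * ∫ y : E d, Ψ y * isM a ‖y‖ := by
    simp only [hm, abs_norm, mul_sub]
    rw [integral_sub (iΨ i1) (iΨ i2), is_scale Ψs (isM a) r0, is_scale Ψs (isM a) ar, sub_mul (r ^ d)]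
  have e3 : ∫ y : E d, Ψ y * isM a ‖y‖ ≤ (volume {y : E d | ‖y‖ ≤ 1 ∧ |⟪e, y⟫| ≤ s}).toReal := by
    rw [← measureReal_def, ← integral_indicator_one (is_meas e s)]
    refine integral_mono (iΨ i3) ((integrable_indicator_iff (is_meas e s)).2 (integrableOn_const ?_)) fun y => ?_
    · exact ((measure_mono fun y hy => mem_closedBall_zero_iff.2 hy.1).trans_lt measure_closedBall_lt_top).ne
    · by_cases hy : y ∈ {y : E d | ‖y‖ ≤ 1 ∧ |⟪e, y⟫| ≤ s}
      · rw [indicator_of_mem hy]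
        exact mul_le_one₀ (indicator_le_self' (fun _ _ => zero_le_one) y) (is_nn _ _) (is_le _ _)
      · rw [indicator_of_notMem hy]
        by_cases h1 : ‖y‖ ≤ 1
        · have : y ∉ C := fun h => hy ⟨h1, le_trans h (mul_le_of_le_one_right hs.le h1)⟩
          simp [hΨ, this]
        · simp [is_zero a1 (not_le.1 h1).le]
  have e4 : (volume (ball (0 : E d) (1 / 2))).toReal ≤ ∫ y : E d, isM a ‖y‖ := by
    rw [← measureReal_def, ← integral_indicator_one measurableSet_ball]
    refine integral_mono ((integrable_indicator_iff measurableSet_ball).2 (integrableOn_const measure_ball_lt_top.ne))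
      i3 fun y => ?_
    by_cases hy : y ∈ ball (0 : E d) (1 / 2)
    · rw [indicator_of_mem hy]
      exact (is_one a1 (by linarith [mem_ball_zero_iff.1 hy])).ge
    · rw [indicator_of_notMem hy]
      exact is_nn _ _
  have e5 : 0 < (volume (ball (0 : E d) (1 / 2))).toReal :=
    ENNReal.toReal_pos (measure_ball_pos _ _ (by norm_num)).ne' measure_ball_lt_top.ne
  have e6 := submean (x := 0) (hf.1.of_le (hara_le 2)) (fun y hy => (hf.2 y hy).ge) mc m0 (by linarith : r < 1 / 2 + τ) mz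
  simp only [zero_add] at e6
  have e7 : ∫ y : E d, f y * m ‖y‖ ≤ ∫ y : E d, (b * m ‖y‖ + Ψ y * m ‖y‖) := by
    refine integral_mono (integrable_mul_test isOpen_ball hf.1.continuousOn (mc.comp continuous_norm)
      (hasCompactSupport_ker mz) ((tsupport_ker mz).trans (closedBall_subset_ball (by linarith))))
      ((im.const_mul b).add (iΨ im)) fun y => ?_
    beta_reduce
    rw [← add_mul]
    rcases lt_or_ge ‖y‖ (1 / 2) with h1 | h1
    · rw [mz' y h1, mul_zero, mul_zero]
    rcases le_or_gt r ‖y‖ with h2 | h2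
    · rw [mz _ h2, mul_zero, mul_zero]
    refine mul_le_mul_of_nonneg_right ?_ (m0 _)
    obtain ⟨h3, h4⟩ := hb y h1 (by linarith)
    by_cases hy : y ∈ C
    · simpa only [hΨ, indicator_of_mem hy] using h3
    · simp only [hΨ, indicator_of_notMem hy, add_zero]
      refine h4 (lt_of_le_of_lt ?_ (not_le.1 hy))
      nlinarith
  rw [integral_add (im.const_mul b) (iΨ im), integral_const_mul, e2] at e7
  have e8 := mul_le_mul_of_nonneg_left (e3.trans ((hS e he).trans (mul_le_mul_of_nonneg_left e4 hδ.le))) c0.le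
  have e9 : 0 < ∫ y : E d, m ‖y‖ := by
    rw [e1]
    exact mul_pos c0 (e5.trans_le e4)
  refine le_of_mul_le_mul_right ?_ e9
  rw [mul_left_comm, ← e1] at e8
  linarith

end Crest.Agent.R97
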