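import Crest.Agent.R97.ImpDir
import Crest.Agent.R97.ImpS

/-! ImpK: the corner barrier.  Prefix `ik_`. -/

set_option autoImplicit false
open MeasureTheory Metric Set Filter Topology
open scoped RealInnerProductSpace NNReal

namespace Crest.Agent.R97

variable {d : ℕ}

theorem ik_clip (a b : ℝ) : |max 0 (min 1 a) - max 0 (min 1 b)| ≤ |a - b| := by
  have h1 := le_abs_self (a - b)
  have h2 := neg_abs_le (a - b)
  have h3 := abs_nonneg (a - b)
  rw [abs_le]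
  simp only [max_def, min_def]
  split_ifs <;> constructor <;> linarith

/-- `C` from `harnack`, `δ' = min (1/2) (δ/(3C))`, `s` from `imp_shell δ'`, `σ = min (1/8) (s/2)`,
`g y = max 0 (min 1 (2 - |⟪e,y⟫|/σ))` (even, `1/σ`-Lipschitz, values in `[0,1]`, `= 1` for `|⟪e,y⟫| ≤ σ`, `= 0` for `≥ 2σ`),
`τ, h` from `imp_dir (1/σ) δ'`, `k = h + δ'`.  On the shell `g ≤ k ≤ g + 2δ'`.  `k ≥ 0` on the sphere of radius `1/2`, hence inside
(`max_principle` for `-k`); `imp_shell` with `b = 2δ'` gives `k 0 ≤ 3δ'`; `harnack` on `ball 0 (1/2)`. -/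
theorem imp_bar (hd : 1 ≤ d) {δ : ℝ} (hδ : 0 < δ) : ∃ σ τ : ℝ, 0 < σ ∧ σ ≤ 1 / 8 ∧ 0 < τ ∧ τ ≤ 1 / 8 ∧
    ∀ e : E d, ‖e‖ = 1 → ∃ k : E d → ℝ, Harm k univ ∧ Ev e k ∧ (∀ y ∈ ball (0 : E d) (1 / 2 + τ), |k y| ≤ 3) ∧
      (∀ y ∈ closedBall (0 : E d) (1 / 2), 0 ≤ k y) ∧ (∀ y : E d, ‖y‖ = 1 / 2 → |⟪e, y⟫| ≤ σ → 1 ≤ k y) ∧
      ∀ y ∈ ball (0 : E d) (1 / 4), k y ≤ δ := by
  obtain ⟨C, hC, hH⟩ := harnack d
  obtain ⟨δ', hδ', h1, h2⟩ : ∃ δ' : ℝ, 0 < δ' ∧ δ' ≤ 1 / 2 ∧ C * (3 * δ') ≤ δ := by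
    refine ⟨min (1 / 2) (δ / (3 * C)), lt_min (by norm_num) (by positivity), min_le_left _ _, ?_⟩
    have := (le_div_iff₀ (by positivity)).1 (min_le_right (1 / 2) (δ / (3 * C)))
    linarith
  obtain ⟨s, hs, hS⟩ := imp_shell hd hδ'
  obtain ⟨σ, hσ, h3, h4⟩ : ∃ σ : ℝ, 0 < σ ∧ σ ≤ 1 / 8 ∧ 2 * σ ≤ s :=
    ⟨min (1 / 8) (s / 2), lt_min (by norm_num) (by positivity), min_le_left _ _,
      by linarith [min_le_right (1 / 8) (s / 2)]⟩
  obtain ⟨τ, hτ, hτ', hD⟩ := imp_dir hd (Λ := 1 / σ) (by positivity) hδ'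
  refine ⟨σ, τ, hσ, h3, hτ, hτ', fun e he => ?_⟩
  have g0 : ∀ y : E d, 0 ≤ max 0 (min 1 (2 - |⟪e, y⟫| / σ)) := fun y => le_max_left _ _
  have g1 : ∀ y : E d, max 0 (min 1 (2 - |⟪e, y⟫| / σ)) ≤ 1 := fun y => max_le zero_le_one (min_le_left _ _)
  obtain ⟨h, hh, hev, hb, hg⟩ := hD e (fun y => max 0 (min 1 (2 - |⟪e, y⟫| / σ))) he
    (fun y => by simp only [inner_rf he, abs_neg]) (fun y _ => abs_le.2 ⟨by linarith [g0 y], g1 y⟩)
    (fun y _ z _ => by
      refine (ik_clip _ _).trans ?_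
      rw [sub_sub_sub_cancel_left, ← sub_div, abs_div, abs_of_pos hσ, abs_sub_comm, one_div_mul_eq_div]
      refine div_le_div_of_nonneg_right ((abs_abs_sub_abs_le_abs_sub _ _).trans ?_) hσ.le
      rw [← inner_sub_right]
      exact abs_inner_le he _)
  have hk : Harm (fun y => h y + δ') univ := hh.add isOpen_univ (harm_const δ' _)
  have hsph : ∀ y : E d, ‖y‖ = 1 / 2 → max 0 (min 1 (2 - |⟪e, y⟫| / σ)) ≤ h y + δ' := fun y hy => by
    linarith [(abs_le.1 (hg y hy.ge (by linarith))).1]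
  have hin : ∀ y ∈ ball (0 : E d) (1 / 2), 0 ≤ h y + δ' := by
    have hn := hk.const_mul isOpen_univ (-1)
    intro y hy
    have := max_principle hd isOpen_ball isBounded_ball (hn.1.continuousOn.mono (subset_univ _))
      ((hn.1.of_le (hara_le 2)).mono (subset_univ _)) (fun x _ => (hn.2 x (mem_univ x)).ge) (M := 0)
      (fun x hx => by
        rw [frontier_ball _ (by norm_num), mem_sphere_zero_iff_norm] at hx
        linarith [hsph x hx, g0 x]) y hy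
    linarith
  refine ⟨fun y => h y + δ', hk, fun y => by simp only [hev y], fun y hy => ?_, fun y hy => ?_,
    fun y hy hy' => ?_, fun y hy => ?_⟩
  · have := abs_le.1 (hb y hy)
    exact abs_le.2 ⟨by linarith, by linarith⟩
  · rcases (mem_closedBall_zero_iff.1 hy).eq_or_lt with h5 | h5
    · exact (g0 y).trans (hsph y h5)
    · exact hin y (mem_ball_zero_iff.2 h5)
  · refine le_trans (le_max_of_le_right (le_min le_rfl ?_)) (hsph y hy)
    have := (div_le_one hσ).2 hy'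
    linarith
  · have h5 := hS e τ (2 * δ') _ he hτ hτ' (hk.mono (subset_univ _)) fun z hz hz' => by
      have h6 := (abs_le.1 (hg z hz hz')).2
      refine ⟨by linarith [g1 z], fun h7 => ?_⟩
      have h8 : 2 ≤ |⟪e, z⟫| / σ := (le_div_iff₀ hσ).2 (by linarith)
      rw [max_eq_left (min_le_of_right_le (by linarith))] at h6
      linarith
    have h6 := (hH _ 0 (1 / 2) (by norm_num) (hk.mono (subset_univ _)) hin y
      (by rwa [show (1 / 2 / 2 : ℝ) = 1 / 4 by norm_num])).2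
    have h7 := mul_le_mul_of_nonneg_left h5 hC.le
    linarith

end Crest.Agent.R97
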