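import Crest.Agent.R97.ImpG

/-! ImpT: the cubic Taylor jet of an even harmonic function.  Prefix `it_`. -/

set_option autoImplicit false
open MeasureTheory Metric Set Filter Topology
open scoped RealInnerProductSpace NNReal

namespace Crest.Agent.R97

variable {d : ℕ}

theorem it_D_eq (v : E d) (f : E d → ℝ) (z : E d) : hart_D v f z = fderiv ℝ f z v :=
  (fderiv_eq_sum_pd f z v).symm

theorem it_par {e : E d} (he : ‖e‖ = 1) {s : ℝ} {f : E d → ℝ} (hf : Harm f univ)
    (hs : ∀ y, f (rf e y) = s * f y) (v y : E d) : hart_D (rf e v) f (rf e y) = s * hart_D v f y := by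
  have hd : ∀ z, DifferentiableAt ℝ f z := fun z => hart_diff isOpen_univ hf (mem_univ z)
  have h1 : HasFDerivAt (fun z => f (rf e z))
      ((fderiv ℝ f (rf e y)).comp ((rfI he).toContinuousLinearEquiv : E d →L[ℝ] E d)) y :=
    (hd (rf e y)).hasFDerivAt.comp y
      ((rfI he).toContinuousLinearEquiv : E d →L[ℝ] E d).hasFDerivAt
  have h2 : HasFDerivAt (fun z => f (rf e z)) (s • fderiv ℝ f y) y := by
    rw [funext hs]
    exact (hd y).hasFDerivAt.const_mul s
  have h3 := congrArg (fun L : E d →L[ℝ] ℝ => L v) (h1.unique h2)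
  rw [it_D_eq, it_D_eq]
  exact h3

theorem it_par_perp {e : E d} (he : ‖e‖ = 1) {f : E d → ℝ} (hf : Harm f univ) (hs : Ev e f) {v : E d}
    (hv : ⟪e, v⟫ = 0) : Ev e (hart_D v f) := by
  intro y
  have := it_par he (s := 1) hf (fun y => by rw [one_mul]; exact hs y) v y
  rwa [rf_perp hv, one_mul] at this

theorem it_par_self {e : E d} (he : ‖e‖ = 1) {f : E d → ℝ} (hf : Harm f univ) (hs : Ev e f) :
    hart_D e f 0 = 0 := by
  have h := it_par he (s := 1) hf (fun y => by rw [one_mul]; exact hs y) e 0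
  have h0 : rf e 0 = 0 := rf_perp (inner_zero_right e)
  rw [rf_self he, h0, one_mul, it_D_eq, it_D_eq, map_neg] at h
  rw [it_D_eq]
  linarith

theorem it_step {C : ℝ} (hC : ∀ (f : E d → ℝ) (x : E d) (r M : ℝ), 0 < r → Harm f (ball x r) →
    (∀ y ∈ ball x r, |f y| ≤ M) → ∀ i, |pd i f x| ≤ C * M / r) {h : E d → ℝ} {s M : ℝ}
    (hh : Harm h univ) (hb : ∀ z ∈ ball (0 : E d) s, |h z| ≤ M) (i : Fin d) :
    ∀ z ∈ ball (0 : E d) (s - 1 / 8), |pd i h z| ≤ 8 * C * M := by
  intro z hz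
  have hz' := mem_ball_zero_iff.1 hz
  have hsub : ball z (1 / 8) ⊆ ball (0 : E d) s := ball_subset_ball' (by rw [dist_zero_right]; linarith)
  have h1 := hC h z (1 / 8) M (by norm_num) (hh.mono (subset_univ _)) (fun w hw => hb w (hsub hw)) i
  calc _ ≤ _ := h1
    _ = _ := by ring

/-- `q` is the jet of `taylor3` (`r = 1/2`, `M = 2`).  Bounds: `grad_bound` three times on shrinking balls (`Harm.pd`,
`gradient_apply`).  Symmetry: `pd_comm`, `pd_congr`; traces: `lap h = 0`, `lap (pd c h) = 0`.  Parity: `q.P y - q.P (rf e y) = O(‖y‖⁴)`,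
so for fixed `y` the cubic polynomial `t ↦ q.P (t • y) - q.P (t • rf e y)` (no constant term) is `O(t⁴)` and its three coefficients vanish:
each homogeneous part is even.  Degree 1: `y = e`.  Degree 2: `y = v + e`, `rf e y = v - e`.  Degree 3: `y = v + e` gives
`3 T(e,v,v) + T(e,e,e) = 0` for all `v ⊥ e` (`v = 0` included), then polarise.  (Alternative: differentiate `h ∘ rfI = h`.) -/
theorem imp_taylor (d : ℕ) : ∃ C : ℝ, 1 ≤ C ∧ ∀ (e : E d) (h : E d → ℝ), ‖e‖ = 1 → Harm h univ → Ev e h →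
    (∀ y ∈ ball (0 : E d) (1 / 2), |h y| ≤ 2) →
    ∃ q : Jet d, EvJet e q C ∧ ∀ y : E d, ‖y‖ ≤ 1 / 4 → |h y - h 0 - q.P y| ≤ C * ‖y‖ ^ 4 := by
  obtain ⟨C, hC0, hC⟩ := grad_bound d
  obtain ⟨K, hK0, hK⟩ := taylor3 d
  have p1 : 0 ≤ 8 * C * 2 := by positivity
  have p2 : 0 ≤ 8 * C * (8 * C * 2) := by positivity
  have p3 : 0 ≤ 8 * C * (8 * C * (8 * C * 2)) := by positivity
  refine ⟨1 + 8 * C * 2 + 8 * C * (8 * C * 2) + 8 * C * (8 * C * (8 * C * 2)) + 32 * K, by linarith, ?_⟩
  intro e h he hh hev hb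
  have hU : IsOpen (univ : Set (E d)) := isOpen_univ
  have b1 := fun c => it_step hC hh hb c
  have b2 := fun b c => it_step hC (hh.pd hU c) (b1 c) b
  have b3 := fun a b c => it_step hC ((hh.pd hU c).pd hU b) (b2 b c) a
  have c2 : ∀ {f : E d → ℝ}, Harm f univ → ∀ x, ContDiffAt ℝ 2 f x := fun hf x => hara_2 hU hf (mem_univ x)
  refine ⟨⟨gradient h 0, 0, fun a b => pd a (pd b h) 0, fun a b c => pd a (pd b (pd c h)) 0⟩,
    ⟨fun a => ?_, fun a b => ?_, fun a b c => ?_, fun a b => pd_comm (c2 hh 0) a b, hh.2 0 (mem_univ _),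
      fun a b c => pd_comm (c2 (hh.pd hU c) 0) a b, fun a b c => ?_,
      fun c => (hh.pd hU c).2 0 (mem_univ _), ?_, fun v hv => ?_, fun v v' hv hv' => ?_⟩, fun y hy => ?_⟩
  · have := b1 a 0 (mem_ball_self (by norm_num))
    show |gradient h 0 a| ≤ _
    rw [gradient_apply]
    linarith
  · have := b2 a b 0 (mem_ball_self (by norm_num))
    show |pd a (pd b h) 0| ≤ _
    linarith
  · have := b3 a b c 0 (mem_ball_self (by norm_num))
    show |pd a (pd b (pd c h)) 0| ≤ _
    linarith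
  · show pd a (pd b (pd c h)) 0 = pd a (pd c (pd b h)) 0
    rw [show pd b (pd c h) = pd c (pd b h) from funext fun x => pd_comm (c2 hh x) b c]
  · have := it_par_self he hh hev
    show ⟪e, gradient h 0⟫ = 0
    rw [← this, PiLp.inner_apply]
    refine Finset.sum_congr rfl fun a _ => ?_
    rw [gradient_apply]
    simp [mul_comm]
  · have := it_par_self he (hart_harm v hU hh) (it_par_perp he hh hev hv)
    show ∑ a, ∑ b, pd a (pd b h) 0 * e a * v b = 0
    rw [← this]
    refine Finset.sum_congr rfl fun a _ => ?_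
    rw [hart_pdD v hU hh (mem_univ _), Finset.mul_sum]
    exact Finset.sum_congr rfl fun b _ => by ring
  · have h1 := hart_harm v' hU hh
    have := it_par_self he (hart_harm v hU h1) (it_par_perp he h1 (it_par_perp he hh hev hv') hv)
    show ∑ a, ∑ b, ∑ c, pd a (pd b (pd c h)) 0 * e a * v b * v' c = 0
    rw [← this]
    refine Finset.sum_congr rfl fun a _ => ?_
    rw [hart_pdD v hU h1 (mem_univ _), Finset.mul_sum]
    refine Finset.sum_congr rfl fun b _ => ?_
    rw [hart_pdpdD v' hU hh (mem_univ _), Finset.mul_sum, Finset.mul_sum]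
    exact Finset.sum_congr rfl fun c _ => by ring
  · have h1 := hK h (1 / 2) 2 (by norm_num) (hh.mono (subset_univ _)) hb y (by linarith)
    have h2 : 0 ≤ ‖y‖ ^ 4 := by positivity
    calc _ ≤ _ := h1
      _ = 32 * K * ‖y‖ ^ 4 := by ring
      _ ≤ _ := mul_le_mul_of_nonneg_right (by linarith) h2

end Crest.Agent.R97
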