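import Crest.Agent.R97.ImpK
import Crest.Agent.R97.ImpT
import Crest.Agent.R97.ImpC

/-! ImpL (helper22): the linearisation lemma. -/

set_option autoImplicit false
open MeasureTheory Metric Set Filter Topology
open scoped RealInnerProductSpace NNReal

namespace Crest.Agent.R97

variable {d : ℕ}

/-- folding onto the half space `⟪e, y⟫ ≥ s` -/
noncomputable def il_fold (e : E d) (s : ℝ) (y : E d) : E d := y + (max |⟪e, y⟫| s - ⟪e, y⟫) • e

theorem il_inner {e : E d} (he : ‖e‖ = 1) (s : ℝ) (y : E d) : ⟪e, il_fold e s y⟫ = max |⟪e, y⟫| s := by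
  rw [il_fold, inner_add_right, real_inner_smul_right, real_inner_self_eq_norm_sq, he]
  ring

theorem il_rf {e : E d} (he : ‖e‖ = 1) (s : ℝ) (y : E d) : il_fold e s (rf e y) = il_fold e s y := by
  rw [il_fold, il_fold, inner_rf he, abs_neg, rf, sub_eq_add_neg, add_assoc, ← neg_smul, ← add_smul]
  congr 2
  ring

theorem il_norm {e : E d} (he : ‖e‖ = 1) {s : ℝ} (hs : 0 ≤ s) (y : E d) :
    ‖il_fold e s y‖ ^ 2 ≤ ‖y‖ ^ 2 + s ^ 2 := by
  rw [il_fold, norm_add_sq_real, real_inner_smul_right, norm_smul, he, mul_one, Real.norm_eq_abs, sq_abs,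
    real_inner_comm e y]
  have h : max |⟪e, y⟫| s ^ 2 ≤ ⟪e, y⟫ ^ 2 + s ^ 2 := by
    rcases max_cases |⟪e, y⟫| s with h | h
    · rw [h.1, sq_abs]
      nlinarith
    · rw [h.1]
      nlinarith [sq_nonneg ⟪e, y⟫]
  nlinarith

theorem il_lip {e : E d} (he : ‖e‖ = 1) (s : ℝ) (y z : E d) :
    ‖il_fold e s y - il_fold e s z‖ ≤ 3 * ‖y - z‖ := by
  have e1 : il_fold e s y - il_fold e s z =
      (y - z) + ((max |⟪e, y⟫| s - max |⟪e, z⟫| s) - ⟪e, y - z⟫) • e := by
    simp only [il_fold, inner_sub_right, sub_smul]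
    abel
  have h1 := abs_inner_le he (y - z)
  have h2 : |max |⟪e, y⟫| s - max |⟪e, z⟫| s| ≤ ‖y - z‖ := by
    refine (abs_max_sub_max_le_abs _ _ _).trans ((abs_abs_sub_abs_le_abs_sub _ _).trans ?_)
    rwa [← inner_sub_right]
  rw [e1]
  refine (norm_add_le _ _).trans ?_
  rw [norm_smul, he, mul_one, Real.norm_eq_abs]
  have := abs_sub (max |⟪e, y⟫| s - max |⟪e, z⟫| s) ⟪e, y - z⟫
  linarith

theorem il_self {e : E d} {s : ℝ} (hs : 0 ≤ s) {y : E d} (h : s ≤ ⟪e, y⟫) : il_fold e s y = y := by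
  rw [il_fold, abs_of_nonneg (hs.trans h), max_eq_left h, sub_self, zero_smul, add_zero]

/-- the boundary data -/
theorem il_data (d : ℕ) {σ : ℝ} (hσ : 0 < σ) (hσ1 : σ ≤ 1 / 8) : ∃ Λ : ℝ, 0 < Λ ∧
    ∀ (L : ℝ≥0) (u : E d → ℝ) (e : E d) (P : E d → ℝ) (η ε : ℝ), Mn L u → ‖e‖ = 1 → 0 < ε → ε + η ≤ σ / 4 →
      IAdm e P η ε → Trap u P ε (closedBall 0 1) → ∃ g : E d → ℝ, Ev e g ∧
      (∀ y ∈ closedBall (0 : E d) (5 / 8), |g y| ≤ 1) ∧
      (∀ y ∈ closedBall (0 : E d) (5 / 8), ∀ z ∈ closedBall (0 : E d) (5 / 8), |g y - g z| ≤ Λ * ‖y - z‖) ∧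
      ∀ y : E d, σ / 2 ≤ ⟪e, y⟫ → u y = P y + ε * g y := by
  obtain ⟨C, hC, hl⟩ := imp_lip d
  refine ⟨C * 1 / (σ / 4) * 3, by positivity, fun L u e P η ε hu he hε hs hA hT => ?_⟩
  set U : Set (E d) := ball 0 1 ∩ {y | σ / 4 < ⟪e, y⟫} with hU
  set S : Set (E d) := closedBall 0 (3 / 4) ∩ {y | σ / 2 ≤ ⟪e, y⟫} with hS
  have hUo : IsOpen U := isOpen_ball.inter (isOpen_lt continuous_const (continuous_const.inner continuous_id))
  have hP : ∀ y ∈ U, ε < P y := fun y hy => by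
    have h1 := (abs_le.1 (hA.near y (ball_subset_closedBall hy.1))).1
    have h2 : σ / 4 < ⟪e, y⟫ := hy.2
    linarith
  have hup : ∀ y ∈ U, P y - ε ≤ u y ∧ u y ≤ P y + ε := fun y hy => by
    have h1 := hT y (ball_subset_closedBall hy.1)
    have h2 := hP y hy
    exact ⟨(le_max_left _ _).trans h1.1, h1.2.trans (max_le le_rfl (by linarith))⟩
  have hw : Harm (fun y => ε⁻¹ * (u y - P y)) U := by
    refine Harm.const_mul hUo (Harm.sub hUo (hu.harm.mono fun y hy => ?_) (hA.harm.mono (subset_univ _))) _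
    have h1 := hP y hy
    have h2 := (hup y hy).1
    show 0 < u y
    linarith
  have hb : ∀ y ∈ U, |ε⁻¹ * (u y - P y)| ≤ 1 := fun y hy => by
    have h1 := hup y hy
    rw [abs_mul, abs_of_pos (inv_pos.2 hε), inv_mul_le_iff₀ hε, mul_one, abs_le]
    constructor <;> linarith [h1.1, h1.2]
  have hSc : Convex ℝ S := (convex_closedBall _ _).inter
    (convex_halfSpace_ge (f := fun y : E d => ⟪e, y⟫) ⟨inner_add_right e, fun c y => real_inner_smul_right e y c⟩ _)
  have hSU : ∀ x ∈ S, ball x (σ / 4) ⊆ U := fun x hx y hy => by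
    have h1 : ‖y - x‖ < σ / 4 := mem_ball_iff_norm.1 hy
    have h2 : ‖x‖ ≤ 3 / 4 := mem_closedBall_zero_iff.1 hx.1
    have h3 : σ / 2 ≤ ⟪e, x⟫ := hx.2
    have h4 := (abs_le.1 (abs_inner_le he (y - x))).1
    rw [inner_sub_right] at h4
    have h5 := norm_le_norm_add_norm_sub' y x
    refine ⟨mem_ball_zero_iff.2 (by linarith), ?_⟩
    show σ / 4 < ⟪e, y⟫
    linarith
  have hf : ∀ y ∈ closedBall (0 : E d) (5 / 8), il_fold e (σ / 2) y ∈ S := fun y hy => by
    have h1 : ‖y‖ ≤ 5 / 8 := mem_closedBall_zero_iff.1 hy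
    have h2 := il_norm he (half_pos hσ).le y
    refine ⟨mem_closedBall_zero_iff.2 ?_, ?_⟩
    · refine (pow_le_pow_iff_left₀ (norm_nonneg _) (by norm_num) two_ne_zero).1 ?_
      nlinarith [norm_nonneg y]
    · show σ / 2 ≤ ⟪e, il_fold e (σ / 2) y⟫
      rw [il_inner he]
      exact le_max_right _ _
  refine ⟨fun y => ε⁻¹ * (u (il_fold e (σ / 2) y) - P (il_fold e (σ / 2) y)), fun y => ?_, fun y hy => ?_,
    fun y hy z hz => ?_, fun y hy => ?_⟩
  · simp only [il_rf he]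
  · exact hb _ (hSU _ (hf y hy) (mem_ball_self (by positivity)))
  · refine (hl _ U S (σ / 4) 1 (by positivity) hSc hw hb hSU _ (hf y hy) _ (hf z hz)).trans ?_
    rw [mul_assoc (C * 1 / (σ / 4))]
    exact mul_le_mul_of_nonneg_left (il_lip he _ _ _) (by positivity)
  · simp only [il_self (half_pos hσ).le hy]
    field_simp
    ring

theorem il_core (hd : 1 ≤ d) {δ : ℝ} (hδ : 0 < δ) (hδ1 : δ ≤ 1 / 4) : ∃ η : ℝ, 0 < η ∧
    ∀ (L : ℝ≥0) (u : E d → ℝ) (e : E d) (P : E d → ℝ) (ε : ℝ), Mn L u → ‖e‖ = 1 → 0 < ε → ε ≤ η →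
      IAdm e P η ε → Trap u P ε (closedBall 0 1) → ∃ h : E d → ℝ, Harm h univ ∧ Ev e h ∧
      (∀ y ∈ ball (0 : E d) (1 / 2), |h y| ≤ 2) ∧
      Trap u (fun y => P y + ε * h y) (5 * δ * ε) (ball 0 (1 / 4)) := by
  obtain ⟨σ, τ1, hσ, hσ1, hτ1, -, hk⟩ := imp_bar hd hδ
  obtain ⟨Λ, hΛ, hg⟩ := il_data d hσ hσ1
  obtain ⟨τ2, hτ2, -, hh⟩ := imp_dir hd hΛ hδ
  obtain ⟨M, hM, hm⟩ := imp_even_grad d (lt_min hτ1 hτ2) (show (0 : ℝ) < 8 by norm_num)
  obtain ⟨η1, hη1, hlo⟩ := imp_sub hd hδ hM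
  obtain ⟨η2, hη2, hhi⟩ := imp_sup hd hδ hM
  refine ⟨min (min η1 η2) (σ / 8), lt_min (lt_min hη1 hη2) (by positivity), fun L u e P ε hu he hε hεη hA hT => ?_⟩
  set η := min (min η1 η2) (σ / 8) with hη
  have e1 : η ≤ η1 := (min_le_left _ _).trans (min_le_left _ _)
  have e2 : η ≤ η2 := (min_le_left _ _).trans (min_le_right _ _)
  have e3 : η ≤ σ / 8 := min_le_right _ _
  obtain ⟨k, k1, k2, k3, k4, k5, k6⟩ := hk e he
  obtain ⟨g, g1, g2, g3, g4⟩ := hg L u e P η ε hu he hε (by linarith) hA hT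
  obtain ⟨h, h1, h2, h3, h4⟩ := hh e g he g1 g2 g3
  have hb : ∀ y ∈ closedBall (0 : E d) (1 / 2), |h y| ≤ 1 + δ := fun y hy =>
    h3 y (closedBall_subset_ball (by linarith) hy)
  have hin : ∀ y ∈ closedBall (0 : E d) (1 / 2), |δ * ⟪e, y⟫| ≤ δ / 2 := fun y hy => by
    have := (abs_inner_le he y).trans (mem_closedBall_zero_iff.1 hy)
    rw [abs_mul, abs_of_pos hδ]
    nlinarith
  have hH : ∀ c : ℝ, |c| = 1 → Harm (fun y => h y + c * (2 * k y + 2 * δ)) univ ∧
      ∀ y ∈ closedBall (0 : E d) (1 / 2), ‖gradient (fun y => h y + c * (2 * k y + 2 * δ)) y‖ ≤ M ∧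
        |⟪gradient (fun y => h y + c * (2 * k y + 2 * δ)) y, e⟫| ≤ M * |⟪e, y⟫| := by
    intro c hc
    have a1 : Harm (fun y => h y + c * (2 * k y + 2 * δ)) univ :=
      h1.add isOpen_univ (Harm.const_mul isOpen_univ
        ((k1.const_mul isOpen_univ 2).add isOpen_univ (harm_const _ _)) c)
    refine ⟨a1, hm e _ he (a1.mono (subset_univ _)) (fun y => by simp only [h2 y, k2 y]) fun y hy => ?_⟩
    have b1 := h3 y (ball_subset_ball (by linarith [min_le_right τ1 τ2]) hy)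
    have b2 := abs_le.1 (k3 y (ball_subset_ball (by linarith [min_le_left τ1 τ2]) hy))
    have b3 : |2 * k y + 2 * δ| ≤ 6 + 2 * δ := abs_le.2 ⟨by linarith, by linarith⟩
    refine (abs_add_le _ _).trans ?_
    rw [abs_mul, hc]
    linarith
  have hsph : ∀ y : E d, ‖y‖ = 1 / 2 → y ∈ closedBall (0 : E d) (1 / 2) ∧ y ∈ closedBall (0 : E d) 1 ∧
      |h y - g y| ≤ δ := fun y hy =>
    ⟨mem_closedBall_zero_iff.2 hy.le, mem_closedBall_zero_iff.2 (by linarith), h4 y hy.ge (by linarith)⟩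
  have lo := hlo L u e P _ ε hu he hε (hεη.trans e1) (hA.mono e1 hε.le) hT (hH (-1) (by simp)).1
    (fun y hy => ⟨by linarith [abs_le.1 (hb y hy), abs_le.1 (hin y hy), k4 y hy], (hH (-1) (by simp)).2 y hy⟩)
    (fun y hy => by
      obtain ⟨s1, s2, s3⟩ := hsph y hy
      have t1 := abs_le.1 (hb y s1)
      have t2 := abs_le.1 (hin y s1)
      have t3 := k4 y s1
      have t4 := abs_le.1 s3
      rcases le_or_gt |⟪e, y⟫| σ with c | c
      · have t5 := k5 y hy c
        have t6 := (le_max_left _ _).trans (hT y s2).1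
        nlinarith
      · rcases lt_abs.1 c with c | c
        · rw [g4 y (by linarith)]
          nlinarith
        · have t5 := abs_le.1 (hA.near y s2)
          have t6 := hu.nn y
          nlinarith)
  have hi := hhi L u e P _ ε hu he hε (hεη.trans e2) (hA.mono e2 hε.le) hT (hH 1 (by simp)).1
    (fun y hy => ⟨by linarith [abs_le.1 (hb y hy), abs_le.1 (hin y hy), k4 y hy], (hH 1 (by simp)).2 y hy⟩)
    (fun y hy => by
      obtain ⟨s1, s2, s3⟩ := hsph y hy
      have t1 := abs_le.1 (hb y s1)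
      have t2 := abs_le.1 (hin y s1)
      have t3 := k4 y s1
      have t4 := abs_le.1 s3
      rcases le_or_gt |⟪e, y⟫| σ with c | c
      · have t5 := k5 y hy c
        exact (hT y s2).2.trans (max_le_max (by nlinarith) le_rfl)
      · rcases lt_abs.1 c with c | c
        · rw [g4 y (by linarith)]
          exact le_max_of_le_left (by nlinarith)
        · have t5 := abs_le.1 (hA.near y s2)
          exact (hT y s2).2.trans (max_le (le_max_of_le_right (by linarith)) (le_max_right _ _)))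
  refine ⟨h, h1, h2, fun y hy => (hb y (ball_subset_closedBall hy)).trans (by linarith), fun y hy => ?_⟩
  have s1 : y ∈ ball (0 : E d) (1 / 2) := ball_subset_ball (by norm_num) hy
  have t1 := abs_le.1 (hin y (ball_subset_closedBall s1))
  have t2 := k6 y hy
  exact ⟨max_le (le_trans (by nlinarith) (lo y s1)) (hu.nn y), (hi y s1).trans (max_le_max (by nlinarith) le_rfl)⟩

theorem lin (hd : 1 ≤ d) : LinStmt d := by
  obtain ⟨C, hC, ht⟩ := imp_taylor d
  refine ⟨C, hC, fun δ hδ => ?_⟩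
  obtain ⟨η, hη, hc⟩ := il_core hd (δ := min (δ / 10) (1 / 4)) (lt_min (by positivity) (by norm_num))
    (min_le_right _ _)
  refine ⟨η, hη, fun L u hu hF e P ε he hε hεη hA hT => ?_⟩
  obtain ⟨h, h1, h2, h3, h4⟩ := hc L u e P ε hu he hε hεη hA hT
  obtain ⟨q, q1, q2⟩ := ht e h he h1 h2 h3
  have hδ' : 5 * min (δ / 10) (1 / 4) * ε ≤ δ / 2 * ε :=
    mul_le_mul_of_nonneg_right (by linarith [min_le_left (δ / 10) (1 / 4)]) hε.le
  set a := 5 * min (δ / 10) (1 / 4) * ε with ha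
  have z1 : ε * h 0 ≤ a := by
    have := (le_max_left _ _).trans (h4 0 (mem_ball_self (by norm_num))).1
    simp only [hF.1, hA.zero] at this
    linarith
  have z2 : -a ≤ ε * h 0 := by
    have c1 : Continuous fun y => P y + ε * h y + a :=
      ((continuousOn_univ.1 hA.harm.1.continuousOn).add
        (continuous_const.mul (continuousOn_univ.1 h1.1.continuousOn))).add continuous_const
    have c2 : (0 : E d) ∈ closure (ball (0 : E d) (1 / 4) ∩ {x | 0 < u x}) :=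
      isOpen_ball.inter_closure ⟨mem_ball_self (by norm_num), hF.2⟩
    have c3 : (0 : E d) ∈ {y | 0 ≤ P y + ε * h y + a} := by
      refine closure_minimal (fun y hy => ?_) (isClosed_le continuous_const c1) c2
      have t1 : 0 < u y := hy.2
      have t2 := t1.trans_le (h4 y hy.1).2
      exact ((lt_max_iff.1 t2).resolve_right (lt_irrefl _)).le
    have c4 : 0 ≤ P 0 + ε * h 0 + a := c3
    rw [hA.zero] at c4
    linarith
  refine ⟨q, q1, fun ρ hρ hρ1 y hy => ?_⟩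
  have y1 : ‖y‖ ≤ ρ := mem_closedBall_zero_iff.1 hy
  have t1 := h4 y (mem_ball_zero_iff.2 (by linarith))
  have t2 := abs_le.1 ((q2 y (by linarith)).trans
    (mul_le_mul_of_nonneg_left (pow_le_pow_left₀ (norm_nonneg _) y1 4) (by linarith)))
  exact ⟨(max_le_max (by nlinarith) le_rfl).trans t1.1, t1.2.trans (max_le_max (by nlinarith) le_rfl)⟩

end Crest.Agent.R97
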