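import Crest.Agent.R97.ImpUD

/-! R97/ImpUA (part of Imp, sub-lead helper95; keep the statements; aux names `impua_*`): boundary jets are admissible.
`pd k j.P y = w k + (A y) k + T(k,y,y)/2` is `Jet.pd_P` (Har_R), `gradient_apply`, `norm_gradient_sq` (Bas_A), `Jet.harm_P`.
Use the forms `f2`, `f3` of ImpUD (`f2_le`, `f3_le`, linearity, `sum_abs_le`, `norm_le_of_apply`).
Identity: with `p k = ∑ b, A k b y b`, `q k = ∑ b c, T k b c y b y c`: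
`|∇P|² - 1 = 2 f2 A w y + f3 T w y y + ∑ p² + ∑ p q + ∑ q²/4`, `f2 A w y = -H s` (`s = ⟪w,y⟫`), `∑ p k ^ 2 + H f2 A y y = f2 (umm A H) y y`,
`umm A H` is symmetric and kills `w`, so `f2 (umm A H) y y = f2 (umm A H) v v = -f3 T w v v` for `v = y - s • w` (`Jet.IsB.tw`);
`f3 T w y y = f3 T w v v + 2 s f3 T w w v + s² f3 T w w w`; `2 H P = 2 H s + H f2 A y y + H f3 T y y y / 3`.  Hence
`|∇P|² - 1 + 2 H P = 2 s T(w,w,v) + s² T(w,w,w) + H T(y,y,y)/3 + ∑ p q + ∑ q²/4`, and `|s| ≤ |P| + d² a + d³ b`, `|s| ≤ 1`, `‖v‖ ≤ 2`. -/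

set_option autoImplicit false
open MeasureTheory Metric Set Filter Topology
open scoped RealInnerProductSpace NNReal

namespace Crest.Agent.R97

variable {d : ℕ}

theorem impua_p {A : Fin d → Fin d → ℝ} {a : ℝ} (h : ∀ k b, |A k b| ≤ a) {y : E d} (hy : ‖y‖ ≤ 1) (k : Fin d) :
    |∑ b, A k b * y b| ≤ d * a :=
  sum_abs_le fun b => by
    rw [abs_mul]
    exact (mul_le_mul (h k b) ((abs_apply_le y b).trans hy) (abs_nonneg _) ((abs_nonneg _).trans (h k b))).trans_eq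
      (mul_one a)

theorem impua_f2 {A : Fin d → Fin d → ℝ} {a : ℝ} (h : ∀ k b, |A k b| ≤ a) (ha : 0 ≤ a) {y : E d} (hy : ‖y‖ ≤ 1) :
    |f2 A y y| ≤ d ^ 2 * a := by
  refine (f2_le h y y).trans ?_
  have h1 : ‖y‖ * ‖y‖ ≤ 1 := mul_le_one₀ hy (norm_nonneg _) hy
  rw [mul_assoc]
  exact mul_le_of_le_one_right (by positivity) h1

theorem impua_left (A : Fin d → Fin d → ℝ) (y z : E d) : f2 A y z = ∑ k, y k * ∑ b, A k b * z b := by
  simp only [f2, Finset.mul_sum]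
  exact Finset.sum_congr rfl fun a _ => Finset.sum_congr rfl fun b _ => by ring

theorem impua_left3 (T : Fin d → Fin d → Fin d → ℝ) (x y : E d) :
    f3 T x y y = ∑ k, x k * ∑ b, ∑ c, T k b c * y b * y c := by
  simp only [f3, Finset.mul_sum]
  exact Finset.sum_congr rfl fun a _ => Finset.sum_congr rfl fun b _ => Finset.sum_congr rfl fun c _ => by ring

theorem impua_mm {A : Fin d → Fin d → ℝ} (hA : ∀ a b, A a b = A b a) (H : ℝ) (y z : E d) :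
    f2 (umm A H) y z = ∑ k, (∑ b, A k b * y b) * (∑ c, A k c * z c) + H * f2 A y z := by
  have e : umm A H = fun b c => (∑ a, A b a * A a c) + H * A b c := rfl
  rw [e, f2_add, f2_mul]
  congr 1
  simp only [f2, Finset.sum_mul, Finset.mul_sum]
  rw [Finset.sum_comm]
  conv_rhs => rw [Finset.sum_comm]
  refine Finset.sum_congr rfl fun c _ => ?_
  rw [Finset.sum_comm]
  exact Finset.sum_congr rfl fun k _ => Finset.sum_congr rfl fun b _ => by rw [hA b k]; ring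

theorem impua_grad {j : Jet d} (hj : j.IsB) {a b : ℝ} (hb : j.Bd a b) (hb0 : 0 ≤ b) {y : E d} (hy : ‖y‖ ≤ 1) :
    ‖gradient j.P y - j.w‖ ≤ d * (d * a + d ^ 2 * b) := by
  have ha : 0 ≤ a := (abs_nonneg _).trans hb.H
  refine norm_le_of_apply (by positivity) fun k => ?_
  rw [PiLp.sub_apply, gradient_apply, Jet.pd_P hj.Asym hj.Tsym1 hj.Tsym2]
  have h1 := abs_le.1 (impua_p hb.A hy k)
  have h2 : |∑ b, ∑ c, j.T k b c * y b * y c| ≤ d ^ 2 * b := impua_f2 (hb.T k) hb0 hy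
  have h3 := abs_le.1 h2
  have h4 : 0 ≤ (d : ℝ) ^ 2 * b := by positivity
  exact abs_le.2 ⟨by linarith [h1.1, h3.1], by linarith [h1.2, h3.2]⟩

theorem impua_id {j : Jet d} (hj : j.IsB) (y : E d) :
    ‖gradient j.P y‖ ^ 2 - 1 + 2 * j.H * j.P y =
      2 * ⟪j.w, y⟫ * f3 j.T j.w j.w (y - ⟪j.w, y⟫ • j.w) + ⟪j.w, y⟫ ^ 2 * f3 j.T j.w j.w j.w + j.H * f3 j.T y y y / 3 +
        ∑ k, (∑ b, j.A k b * y b) * (∑ b, ∑ c, j.T k b c * y b * y c) + (∑ k, (∑ b, ∑ c, j.T k b c * y b * y c) ^ 2) / 4 := by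
  obtain ⟨s, hs⟩ : ∃ s, s = ⟪j.w, y⟫ := ⟨_, rfl⟩
  have hw : ⟪j.w, j.w⟫ = 1 := by rw [real_inner_self_eq_norm_sq, hj.w1, one_pow]
  have hAw : ∀ z : E d, f2 j.A z j.w = -j.H * ⟪j.w, z⟫ := fun z => by
    rw [impua_left, inner_eq_sum, Finset.mul_sum]
    exact Finset.sum_congr rfl fun k _ => by rw [hj.Aw]; ring
  have hm : ∀ z : E d, f2 (umm j.A j.H) z j.w = 0 := fun z => by
    have e : ∑ k, (∑ b, j.A k b * z b) * (∑ c, j.A k c * j.w c) = -j.H * f2 j.A j.w z := by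
      rw [impua_left, Finset.mul_sum]
      exact Finset.sum_congr rfl fun k _ => by rw [hj.Aw]; ring
    rw [impua_mm hj.Asym, e, f2_comm _ _ _ hj.Asym]
    ring
  have hm' : ∀ z : E d, f2 (umm j.A j.H) j.w z = 0 := fun z => by
    have e : ∑ k, (∑ c, j.A k c * j.w c) * (∑ b, j.A k b * z b) = -j.H * f2 j.A j.w z := by
      rw [impua_left, Finset.mul_sum]
      exact Finset.sum_congr rfl fun k _ => by rw [hj.Aw]; ring
    rw [impua_mm hj.Asym, e]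
    ring
  have hv : ⟪j.w, y - s • j.w⟫ = 0 := by rw [inner_sub_right, real_inner_smul_right, hw, hs]; ring
  have h1 := hj.tw hv hv
  rw [f2_sub₁, f2_sub₂, f2_smul₂, f2_smul₁, hm, hm', impua_mm hj.Asym] at h1
  have h2 : f3 j.T j.w y y = f3 j.T j.w (y - s • j.w) (y - s • j.w) + 2 * s * f3 j.T j.w j.w (y - s • j.w) +
      s ^ 2 * f3 j.T j.w j.w j.w := by
    simp only [f3_sub₂, f3_sub₃, f3_smul₂, f3_smul₃]
    rw [f3_comm₂ j.T j.w y j.w hj.Tsym2]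
    ring
  have h3 : f2 j.A j.w y = -j.H * s := by rw [f2_comm _ _ _ hj.Asym, hAw, hs]
  have h4 : ‖gradient j.P y‖ ^ 2 = ⟪j.w, j.w⟫ + 2 * f2 j.A j.w y + f3 j.T j.w y y +
      ∑ k, (∑ b, j.A k b * y b) * (∑ b, j.A k b * y b) +
      ∑ k, (∑ b, j.A k b * y b) * (∑ b, ∑ c, j.T k b c * y b * y c) +
      (∑ k, (∑ b, ∑ c, j.T k b c * y b * y c) ^ 2) / 4 := by
    rw [norm_gradient_sq, inner_eq_sum, impua_left, impua_left3, Finset.mul_sum, Finset.sum_div]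
    simp only [← Finset.sum_add_distrib]
    refine Finset.sum_congr rfl fun k _ => ?_
    rw [Jet.pd_P hj.Asym hj.Tsym1 hj.Tsym2]
    ring
  rw [h4, Jet.P_eq, ← hs, hw, h2, h1, h3]
  ring

theorem impua_arith {c a b ε η s X : ℝ} (hc : 0 ≤ c) (ha : 0 ≤ a) (hb : 0 ≤ b) (hε : 0 < ε)
    (h1 : (4 + 2 * c ^ 2 + 14 * c ^ 3 + 2 * c ^ 4 + 12 * c ^ 5 + 10 * c ^ 6) * (a + b) ≤ η)
    (h2 : (4 + 2 * c ^ 2 + 14 * c ^ 3 + 2 * c ^ 4 + 12 * c ^ 5 + 10 * c ^ 6) * ((a + b) * b) ≤ η * ε)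
    (hs : s ≤ ε + c ^ 2 * a + c ^ 3 * b)
    (hX : X ≤ 2 * a * ε + 5 * (c ^ 3 * b) * s + c ^ 3 * b * a + c * (c * a * (c ^ 2 * b)) + c * (c ^ 2 * b) ^ 2) :
    X ≤ η * ε := by
  have h3 := mul_le_mul_of_nonneg_left hs (show 0 ≤ 5 * (c ^ 3 * b) by positivity)
  have h4 := mul_le_mul_of_nonneg_right h1 hε.le
  have h5 : 0 ≤ ((2 * c ^ 2 + 14 * c ^ 3 + 2 * c ^ 4 + 12 * c ^ 5 + 10 * c ^ 6) * a +
      (4 + 2 * c ^ 2 + 4 * c ^ 3 + 2 * c ^ 4 + 12 * c ^ 5 + 10 * c ^ 6) * b) * ε := by positivity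
  have h6 : 0 ≤ (4 + 2 * c ^ 2 + 12 * c ^ 3 + 2 * c ^ 5 + 10 * c ^ 6) * (a * b) +
      (4 + 2 * c ^ 2 + 14 * c ^ 3 + 2 * c ^ 4 + 10 * c ^ 5) * b ^ 2 := by positivity
  nlinarith

/-- boundary jets with small coefficients are admissible -/
theorem Jet.adm (d : ℕ) : ∃ K : ℝ, 1 ≤ K ∧ ∀ (j : Jet d) (a b ε η : ℝ), j.IsB → j.Bd a b → 0 ≤ b → 0 < ε →
    K * (a + b) ≤ η → K * ((a + b) * b) ≤ η * ε → IAdm j.w j.P η ε := by
  have hc : (0 : ℝ) ≤ d := Nat.cast_nonneg d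
  refine ⟨4 + 2 * d ^ 2 + 14 * d ^ 3 + 2 * d ^ 4 + 12 * d ^ 5 + 10 * d ^ 6, ?_, fun j a b ε η hj hb hb0 hε h1 h2 => ?_⟩
  · have : (0 : ℝ) ≤ 2 * d ^ 2 + 14 * d ^ 3 + 2 * d ^ 4 + 12 * d ^ 5 + 10 * d ^ 6 := by positivity
    linarith
  have ha : 0 ≤ a := (abs_nonneg _).trans hb.H
  refine ⟨Jet.harm_P hj.Atr hj.Asym hj.Tsym1 hj.Tsym2 hj.Ttr, by simp [Jet.P], fun y hy => ?_, fun y hy hP => ?_⟩
  · refine (impua_grad hj hb hb0 (mem_closedBall_zero_iff.1 hy)).trans (le_trans ?_ h1)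
    have : (0 : ℝ) ≤ (4 + d ^ 2 + 14 * d ^ 3 + 2 * d ^ 4 + 12 * d ^ 5 + 10 * d ^ 6) * a +
      (4 + 2 * d ^ 2 + 13 * d ^ 3 + 2 * d ^ 4 + 12 * d ^ 5 + 10 * d ^ 6) * b := by positivity
    linarith
  · have hy1 := mem_closedBall_zero_iff.1 hy
    have hid := impua_id hj y
    obtain ⟨s, hs⟩ : ∃ s, s = ⟪j.w, y⟫ := ⟨_, rfl⟩
    have hs1 : |s| ≤ 1 := by rw [hs]; exact (abs_inner_le hj.w1 y).trans hy1
    have hD : (0 : ℝ) ≤ d ^ 3 * b := by positivity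
    have hv : ‖y - s • j.w‖ ≤ 2 := by
      refine (norm_sub_le _ _).trans ?_
      rw [norm_smul, hj.w1, mul_one, Real.norm_eq_abs]
      linarith
    have t1 : |f3 j.T j.w j.w (y - s • j.w)| ≤ d ^ 3 * b * 2 := by
      have := f3_le hb.T j.w j.w (y - s • j.w)
      rw [hj.w1, mul_one, mul_one] at this
      exact this.trans (mul_le_mul_of_nonneg_left hv hD)
    have t2 : |f3 j.T j.w j.w j.w| ≤ d ^ 3 * b := by
      have := f3_le hb.T j.w j.w j.w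
      rwa [hj.w1, mul_one, mul_one, mul_one] at this
    have t3 : |f3 j.T y y y| ≤ d ^ 3 * b := by
      refine (f3_le hb.T y y y).trans ?_
      rw [mul_assoc, mul_assoc]
      exact mul_le_of_le_one_right hD
        (mul_le_one₀ hy1 (by positivity) (mul_le_one₀ hy1 (norm_nonneg _) hy1))
    have t4 := impua_f2 hb.A ha hy1
    have q : ∀ k, |∑ b, ∑ c, j.T k b c * y b * y c| ≤ d ^ 2 * b := fun k => impua_f2 (hb.T k) hb0 hy1
    have t5 : |∑ k, (∑ b, j.A k b * y b) * (∑ b, ∑ c, j.T k b c * y b * y c)| ≤ d * (d * a * (d ^ 2 * b)) :=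
      sum_abs_le fun k => by
        rw [abs_mul]
        exact mul_le_mul (impua_p hb.A hy1 k) (q k) (abs_nonneg _) (by positivity)
    have t6 : |∑ k, (∑ b, ∑ c, j.T k b c * y b * y c) ^ 2| ≤ d * (d ^ 2 * b) ^ 2 :=
      sum_abs_le fun k => by
        rw [abs_pow]
        exact pow_le_pow_left₀ (abs_nonneg _) (q k) 2
    have hsb : |s| ≤ ε + d ^ 2 * a + d ^ 3 * b := by
      rw [Jet.P_eq, ← hs] at hP
      have a1 := abs_le.1 hP
      have a2 := abs_le.1 t3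
      have a3 := abs_le.1 t4
      have a4 : (0 : ℝ) ≤ d ^ 2 * a := by positivity
      exact abs_le.2 ⟨by linarith [a1.1, a2.2, a3.2], by linarith [a1.2, a2.1, a3.1]⟩
    rw [← hs] at hid
    refine impua_arith hc ha hb0 hε h1 h2 hsb ?_
    have u1 : |2 * j.H * j.P y| ≤ 2 * a * ε := by
      rw [abs_mul, abs_mul, abs_two]
      exact mul_le_mul (by linarith [hb.H]) hP (abs_nonneg _) (by positivity)
    have u2 : |2 * s * f3 j.T j.w j.w (y - s • j.w)| ≤ 4 * (d ^ 3 * b) * |s| := by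
      rw [abs_mul, abs_mul, abs_two]
      calc _ ≤ 2 * |s| * (d ^ 3 * b * 2) := mul_le_mul_of_nonneg_left t1 (by positivity)
        _ = _ := by ring
    have u3 : |s ^ 2 * f3 j.T j.w j.w j.w| ≤ d ^ 3 * b * |s| := by
      rw [abs_mul, abs_pow, mul_comm]
      exact mul_le_mul t2 (by nlinarith [abs_nonneg s]) (by positivity) hD
    have u4 : |j.H * f3 j.T y y y| ≤ d ^ 3 * b * a := by
      rw [abs_mul, mul_comm]
      exact mul_le_mul t3 hb.H (abs_nonneg _) hD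
    have v1 := abs_le.1 u1
    have v2 := abs_le.1 u2
    have v3 := abs_le.1 u3
    have v4 := abs_le.1 u4
    have v5 := abs_le.1 t5
    have v6 := abs_le.1 t6
    have w4 := (abs_nonneg _).trans u4
    have w6 := (abs_nonneg _).trans t6
    exact abs_le.2 ⟨by linarith [v1.2, v2.1, v3.1, v4.1, v5.1, v6.1], by linarith [v1.1, v2.2, v3.2, v4.2, v5.2, v6.2]⟩

end Crest.Agent.R97
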