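import Crest.Agent.R97.ImpD

/-! R97/ImpUD (helper95): forms, closeness of jets, approximate boundary jets, rescaled jets. -/

set_option autoImplicit false
open MeasureTheory Metric Set Filter Topology
open scoped RealInnerProductSpace NNReal

namespace Crest.Agent.R97

variable {d : ℕ}

/-- bilinear form of a matrix -/
noncomputable def f2 (A : Fin d → Fin d → ℝ) (x y : E d) : ℝ := ∑ a, ∑ b, A a b * x a * y b

/-- trilinear form of a tensor -/
noncomputable def f3 (T : Fin d → Fin d → Fin d → ℝ) (x y z : E d) : ℝ := ∑ a, ∑ b, ∑ c, T a b c * x a * y b * z c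

/-- the matrix `A² + H A` -/
noncomputable def umm (A : Fin d → Fin d → ℝ) (H : ℝ) : Fin d → Fin d → ℝ :=
  fun b c => (∑ a, A b a * A a c) + H * A b c

/-- closeness of jets -/
structure Jet.Close (j j' : Jet d) (α β γ : ℝ) : Prop where
  w : ‖j.w - j'.w‖ ≤ α
  H : |j.H - j'.H| ≤ β
  A : ∀ a b, |j.A a b - j'.A a b| ≤ β
  T : ∀ a b c, |j.T a b c - j'.T a b c| ≤ γ

/-- separate bounds for the second and third order parts -/
structure Jet.Bd (j : Jet d) (α β : ℝ) : Prop where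
  H : |j.H| ≤ α
  A : ∀ a b, |j.A a b| ≤ α
  T : ∀ a b c, |j.T a b c| ≤ β

/-- approximate boundary jets -/
structure Jet.Pre (j : Jet d) (α : ℝ) : Prop where
  w1 : ‖j.w‖ = 1
  Asym : ∀ a b, j.A a b = j.A b a
  Atr : ∑ a, j.A a a = 0
  Aw : ∀ a, |∑ b, j.A a b * j.w b + j.H * j.w a| ≤ α
  Tsym1 : ∀ a b c, j.T a b c = j.T b a c
  Tsym2 : ∀ a b c, j.T a b c = j.T a c b
  Ttr : ∀ c, ∑ a, j.T a a c = 0
  Tw : ∀ v v' : E d, ⟪j.w, v⟫ = 0 → ⟪j.w, v'⟫ = 0 → |f3 j.T j.w v v' + f2 (umm j.A j.H) v v'| ≤ α * ‖v‖ * ‖v'‖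

/-- the jet of the blow-up at scale `r` -/
noncomputable def Jet.sc (j : Jet d) (r : ℝ) : Jet d :=
  ⟨j.w, r * j.H, fun a b => r * j.A a b, fun a b c => r ^ 2 * j.T a b c⟩

theorem Jet.P_eq (j : Jet d) (y : E d) : j.P y = ⟪j.w, y⟫ + f2 j.A y y / 2 + f3 j.T y y y / 6 := rfl

theorem Jet.IsB.tw {j : Jet d} (h : j.IsB) {v v' : E d} (hv : ⟪j.w, v⟫ = 0) (hv' : ⟪j.w, v'⟫ = 0) :
    f3 j.T j.w v v' = -f2 (umm j.A j.H) v v' := h.Tw v v' hv hv'

theorem inner_eq_sum (x y : E d) : ⟪x, y⟫ = ∑ a, x a * y a := by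
  simp [PiLp.inner_apply, mul_comm]

theorem abs_apply_le (x : E d) (a : Fin d) : |x a| ≤ ‖x‖ := PiLp.norm_apply_le x a

theorem norm_le_of_apply {x : E d} {α : ℝ} (hα : 0 ≤ α) (h : ∀ a, |x a| ≤ α) : ‖x‖ ≤ d * α := by
  refine (pow_le_pow_iff_left₀ (norm_nonneg _) (by positivity) two_ne_zero).1 ?_
  rw [EuclideanSpace.norm_sq_eq]
  calc ∑ a, ‖x a‖ ^ 2 ≤ ∑ _a : Fin d, α ^ 2 := Finset.sum_le_sum fun a _ => pow_le_pow_left₀ (norm_nonneg _) (h a) 2
    _ = d * α ^ 2 := by simp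
    _ ≤ d ^ 2 * α ^ 2 := by gcongr; exact_mod_cast Nat.le_self_pow two_ne_zero d
    _ = _ := by ring

theorem sum_abs_le {f : Fin d → ℝ} {α : ℝ} (h : ∀ a, |f a| ≤ α) : |∑ a, f a| ≤ d * α :=
  (Finset.abs_sum_le_sum_abs _ _).trans ((Finset.sum_le_sum fun a _ => h a).trans (by simp))

theorem f2_le {A : Fin d → Fin d → ℝ} {α : ℝ} (h : ∀ a b, |A a b| ≤ α) (x y : E d) :
    |f2 A x y| ≤ d ^ 2 * α * ‖x‖ * ‖y‖ := by
  refine (sum_abs_le fun a => sum_abs_le (α := α * ‖x‖ * ‖y‖) fun b => ?_).trans_eq (by ring)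
  have := (abs_nonneg _).trans (h a b)
  rw [abs_mul, abs_mul]
  gcongr
  exacts [h a b, abs_apply_le x a, abs_apply_le y b]

theorem f3_le {T : Fin d → Fin d → Fin d → ℝ} {α : ℝ} (h : ∀ a b c, |T a b c| ≤ α) (x y z : E d) :
    |f3 T x y z| ≤ d ^ 3 * α * ‖x‖ * ‖y‖ * ‖z‖ := by
  refine (sum_abs_le fun a => sum_abs_le fun b => sum_abs_le (α := α * ‖x‖ * ‖y‖ * ‖z‖) fun c => ?_).trans_eq (by ring)
  have := (abs_nonneg _).trans (h a b c)
  rw [abs_mul, abs_mul, abs_mul]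
  gcongr
  exacts [h a b c, abs_apply_le x a, abs_apply_le y b, abs_apply_le z c]

section lin
variable (A B : Fin d → Fin d → ℝ) (T S : Fin d → Fin d → Fin d → ℝ) (x x' y z : E d) (t : ℝ)

theorem f2_add₁ : f2 A (x + x') y = f2 A x y + f2 A x' y := by simp [f2, mul_add, add_mul, Finset.sum_add_distrib]
theorem f2_add₂ : f2 A y (x + x') = f2 A y x + f2 A y x' := by simp [f2, mul_add, Finset.sum_add_distrib]
theorem f2_sub₁ : f2 A (x - x') y = f2 A x y - f2 A x' y := by simp [f2, mul_sub, sub_mul]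
theorem f2_sub₂ : f2 A y (x - x') = f2 A y x - f2 A y x' := by simp [f2, mul_sub]
theorem f2_smul₁ : f2 A (t • x) y = t * f2 A x y := by simp [f2, Finset.mul_sum, mul_assoc, mul_left_comm]
theorem f2_smul₂ : f2 A y (t • x) = t * f2 A y x := by simp [f2, Finset.mul_sum, mul_left_comm]
theorem f2_single (a b : Fin d) : f2 A (EuclideanSpace.single a 1) (EuclideanSpace.single b 1) = A a b := by simp [f2]
theorem f2_single₁ (a : Fin d) : f2 A (EuclideanSpace.single a 1) y = ∑ b, A a b * y b := by simp [f2]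
theorem f2_add : f2 (fun a b => A a b + B a b) x y = f2 A x y + f2 B x y := by
  simp [f2, add_mul, Finset.sum_add_distrib]
theorem f2_sub : f2 (fun a b => A a b - B a b) x y = f2 A x y - f2 B x y := by simp [f2, sub_mul]
theorem f2_mul : f2 (fun a b => t * A a b) x y = t * f2 A x y := by simp [f2, Finset.mul_sum, mul_assoc]
theorem f2_comm (h : ∀ a b, A a b = A b a) : f2 A x y = f2 A y x := by
  unfold f2
  rw [Finset.sum_comm]
  exact Finset.sum_congr rfl fun a _ => Finset.sum_congr rfl fun b _ => by rw [h]; ring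
theorem f3_add₁ : f3 T (x + x') y z = f3 T x y z + f3 T x' y z := by simp [f3, mul_add, add_mul, Finset.sum_add_distrib]
theorem f3_add₂ : f3 T y (x + x') z = f3 T y x z + f3 T y x' z := by simp [f3, mul_add, add_mul, Finset.sum_add_distrib]
theorem f3_add₃ : f3 T y z (x + x') = f3 T y z x + f3 T y z x' := by simp [f3, mul_add, Finset.sum_add_distrib]
theorem f3_sub₁ : f3 T (x - x') y z = f3 T x y z - f3 T x' y z := by simp [f3, mul_sub, sub_mul]
theorem f3_sub₂ : f3 T y (x - x') z = f3 T y x z - f3 T y x' z := by simp [f3, mul_sub, sub_mul]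
theorem f3_sub₃ : f3 T y z (x - x') = f3 T y z x - f3 T y z x' := by simp [f3, mul_sub]
theorem f3_smul₁ : f3 T (t • x) y z = t * f3 T x y z := by simp [f3, Finset.mul_sum, mul_assoc, mul_left_comm]
theorem f3_smul₂ : f3 T y (t • x) z = t * f3 T y x z := by simp [f3, Finset.mul_sum, mul_assoc, mul_left_comm]
theorem f3_smul₃ : f3 T y z (t • x) = t * f3 T y z x := by simp [f3, Finset.mul_sum, mul_left_comm]
theorem f3_add : f3 (fun a b c => T a b c + S a b c) x y z = f3 T x y z + f3 S x y z := by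
  simp [f3, add_mul, Finset.sum_add_distrib]
theorem f3_sub : f3 (fun a b c => T a b c - S a b c) x y z = f3 T x y z - f3 S x y z := by simp [f3, sub_mul]
theorem f3_mul : f3 (fun a b c => t * T a b c) x y z = t * f3 T x y z := by simp [f3, Finset.mul_sum, mul_assoc]
theorem f3_comm₁ (h : ∀ a b c, T a b c = T b a c) : f3 T x y z = f3 T y x z := by
  unfold f3
  rw [Finset.sum_comm]
  exact Finset.sum_congr rfl fun a _ => Finset.sum_congr rfl fun b _ => Finset.sum_congr rfl fun c _ => by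
    rw [h]; ring
theorem f3_comm₂ (h : ∀ a b c, T a b c = T a c b) : f3 T x y z = f3 T x z y := by
  unfold f3
  refine Finset.sum_congr rfl fun a _ => ?_
  rw [Finset.sum_comm]
  exact Finset.sum_congr rfl fun b _ => Finset.sum_congr rfl fun c _ => by rw [h]; ring

end lin

theorem Jet.Close.mono {j j' : Jet d} {α β γ α' β' γ' : ℝ} (h : j.Close j' α β γ) (h1 : α ≤ α') (h2 : β ≤ β')
    (h3 : γ ≤ γ') : j.Close j' α' β' γ' :=
  ⟨h.w.trans h1, h.H.trans h2, fun a b => (h.A a b).trans h2, fun a b c => (h.T a b c).trans h3⟩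

theorem Jet.Close.trans {j j' j'' : Jet d} {α β γ α' β' γ' : ℝ} (h : j.Close j' α β γ) (h' : j'.Close j'' α' β' γ') :
    j.Close j'' (α + α') (β + β') (γ + γ') :=
  ⟨(norm_sub_le_norm_sub_add_norm_sub _ _ _).trans (add_le_add h.w h'.w), (abs_sub_le _ _ _).trans (add_le_add h.H h'.H),
    fun a b => (abs_sub_le _ _ _).trans (add_le_add (h.A a b) (h'.A a b)),
    fun a b c => (abs_sub_le _ _ _).trans (add_le_add (h.T a b c) (h'.T a b c))⟩

theorem Jet.Close.bd {j j' : Jet d} {α β γ a b : ℝ} (h : j.Close j' α β γ) (h' : j'.Bd a b) : j.Bd (a + β) (b + γ) := by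
  have e : ∀ {x y s t : ℝ}, |x - y| ≤ t → |y| ≤ s → |x| ≤ s + t := fun {x y s t} h1 h2 => by
    linarith [abs_sub_abs_le_abs_sub x y]
  exact ⟨e h.H h'.H, fun p q => e (h.A p q) (h'.A p q), fun p q r => e (h.T p q r) (h'.T p q r)⟩

theorem Jet.Bd.mono {j : Jet d} {a b a' b' : ℝ} (h : j.Bd a b) (h1 : a ≤ a') (h2 : b ≤ b') : j.Bd a' b' :=
  ⟨h.H.trans h1, fun p q => (h.A p q).trans h1, fun p q r => (h.T p q r).trans h2⟩

/-- the polynomials of close jets are close (the field `H` is not used) -/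
theorem Jet.P_sub_le {j j' : Jet d} {α β γ r : ℝ} (hw : ‖j.w - j'.w‖ ≤ α) (hA : ∀ a b, |j.A a b - j'.A a b| ≤ β)
    (hT : ∀ a b c, |j.T a b c - j'.T a b c| ≤ γ) (hβ : 0 ≤ β) (hγ : 0 ≤ γ) {y : E d} (hy : ‖y‖ ≤ r) :
    |j.P y - j'.P y| ≤ α * r + d ^ 2 * β * r ^ 2 + d ^ 3 * γ * r ^ 3 := by
  have h1 : |⟪j.w - j'.w, y⟫| ≤ α * r :=
    (abs_real_inner_le_norm _ _).trans (mul_le_mul hw hy (norm_nonneg _) ((norm_nonneg _).trans hw))
  have hr := (norm_nonneg _).trans hy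
  have h2 : |f2 (fun a b => j.A a b - j'.A a b) y y| ≤ d ^ 2 * β * r * r := (f2_le hA y y).trans (by gcongr)
  have h3 : |f3 (fun a b c => j.T a b c - j'.T a b c) y y y| ≤ d ^ 3 * γ * r * r * r := (f3_le hT y y y).trans (by gcongr)
  rw [inner_sub_left] at h1
  rw [f2_sub] at h2
  rw [f3_sub] at h3
  rw [Jet.P_eq, Jet.P_eq, abs_le] at *
  have h4 : 0 ≤ (d : ℝ) ^ 2 * β * r * r := by positivity
  have h5 : 0 ≤ (d : ℝ) ^ 3 * γ * r * r * r := by positivity
  constructor <;> nlinarith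

theorem Trap.mono {u f g : E d → ℝ} {ε ε' t : ℝ} {S S' : Set (E d)} (h : Trap u f ε S) (hS : S' ⊆ S)
    (hg : ∀ y ∈ S', |g y - f y| ≤ t) (he : ε + t ≤ ε') : Trap u g ε' S' := fun y hy => by
  obtain ⟨h1, h2⟩ := abs_le.1 (hg y hy)
  exact ⟨(max_le_max (by linarith) le_rfl).trans (h y (hS hy)).1, (h y (hS hy)).2.trans (max_le_max (by linarith) le_rfl)⟩

end Crest.Agent.R97
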