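import Crest.Agent.R97.ImpUD

/-! R97/ImpUR (part of Imp, sub-lead helper95; keep the statement; aux names `impur_*`): an approximate boundary jet is close to a
boundary jet with the same `w`.  `H' = -f2 A w w`; `r a = ∑ b, A a b w b + H w a`, `H' - H = -∑ w a r a`, so `|H' - H| ≤ d α`;
`p a = ∑ b, A a b w b + H' w a = r a + (H' - H) w a`, `∑ p a w a = 0`; `A' a b = A a b - p a w b - w a p b` (symmetric, trace free,
`A' w = -H' w`).  `M' = umm A' H'` is symmetric, kills `w`, `|M' - umm A H| ≤ K₁ α` entrywise.  `Π x = x - ⟪w,x⟫ • w`, `‖Π x‖ ≤ ‖x‖` (or `2‖x‖`),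
`D a b = -M' a b - f3 T w (Π e_a) (Π e_b)`: symmetric, `∑ b, D a b w b = 0`, `f2 D v v' = -f2 M' v v' - f3 T w (Π v) (Π v')`,
`D a b = -f2 (M' - M) (Π e_a) (Π e_b) - (f3 T w (Π e_a) (Π e_b) + f2 M (Π e_a) (Π e_b))` is `O(α)` (`Pre.Tw`).
`T' a b c = T a b c + w a D b c + w b D a c + w c D a b - (∑ D e e) w a w b w c`.
Suggested split: (1) the `A` step giving a `Pre` jet with exact `Aw`; (2) the `T` step. -/

set_option autoImplicit false
open MeasureTheory Metric Set Filter Topology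
open scoped RealInnerProductSpace NNReal

namespace Crest.Agent.R97

variable {d : ℕ}

theorem impur_f2 (p q : Fin d → ℝ) (x y : E d) : f2 (fun a b => p a * q b) x y = (∑ a, p a * x a) * ∑ b, q b * y b := by
  rw [f2, Finset.sum_mul_sum]
  exact Finset.sum_congr rfl fun a _ => Finset.sum_congr rfl fun b _ => by ring

theorem impur_f3c (p : Fin d → ℝ) (D : Fin d → Fin d → ℝ) (x y z : E d) :
    f3 (fun a b c => p c * D a b) x y z = (∑ c, p c * z c) * f2 D x y := by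
  simp only [f3, f2, Finset.mul_sum, Finset.sum_mul]
  exact Finset.sum_congr rfl fun a _ => Finset.sum_congr rfl fun b _ => Finset.sum_congr rfl fun c _ => by ring

theorem impur_f3b (p : Fin d → ℝ) (D : Fin d → Fin d → ℝ) (x y z : E d) :
    f3 (fun a b c => p b * D a c) x y z = (∑ b, p b * y b) * f2 D x z := by
  rw [← impur_f3c, f3, f3]
  refine Finset.sum_congr rfl fun a _ => ?_
  rw [Finset.sum_comm]
  exact Finset.sum_congr rfl fun b _ => Finset.sum_congr rfl fun c _ => by ring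

theorem impur_f3a (p : Fin d → ℝ) (D : Fin d → Fin d → ℝ) (x y z : E d) :
    f3 (fun a b c => p a * D b c) x y z = (∑ a, p a * x a) * f2 D y z := by
  rw [← impur_f3b, f3, f3, Finset.sum_comm]
  exact Finset.sum_congr rfl fun a _ => Finset.sum_congr rfl fun b _ => Finset.sum_congr rfl fun c _ => by ring

theorem impur_f3w (T : Fin d → Fin d → Fin d → ℝ) (x y z : E d) :
    f2 (fun b c => ∑ a, T a b c * x a) y z = f3 T x y z := by
  simp only [f3, f2, Finset.sum_mul]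
  rw [Finset.sum_comm (γ := Fin d) (f := fun a b => ∑ c, T a b c * x a * y b * z c)]
  exact Finset.sum_congr rfl fun b _ => Finset.sum_comm

theorem impur_ww {w : E d} (hw : ‖w‖ = 1) : ∑ a, w a * w a = 1 := by
  rw [← inner_eq_sum, real_inner_self_eq_norm_sq, hw, one_pow]

theorem impur_proj (N : Fin d → Fin d → ℝ) (hs : ∀ a b, N a b = N b a) {w : E d} (hw : ‖w‖ = 1) {α : ℝ} (hα : 0 ≤ α)
    (h : ∀ v v' : E d, ⟪w, v⟫ = 0 → ⟪w, v'⟫ = 0 → |f2 N v v'| ≤ α * ‖v‖ * ‖v'‖) :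
    ∃ D : Fin d → Fin d → ℝ, (∀ a b, D a b = D b a) ∧ (∀ a, ∑ b, D a b * w b = 0) ∧ (∀ a b, |D a b| ≤ α) ∧
      ∀ v v' : E d, ⟪w, v⟫ = 0 → ⟪w, v'⟫ = 0 → f2 D v v' = f2 N v v' := by
  have ww := impur_ww hw
  obtain ⟨n, hn⟩ : ∃ n : Fin d → ℝ, ∀ a, n a = ∑ b, N a b * w b := ⟨_, fun _ => rfl⟩
  obtain ⟨ν, hν⟩ : ∃ ν : ℝ, ν = ∑ a, n a * w a := ⟨_, rfl⟩
  refine ⟨fun a b => N a b - n a * w b - w a * n b + (ν * w a) * w b, fun a b => by simp only [hs a b]; ring, fun a => ?_,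
    fun a b => ?_, fun v v' hv hv' => ?_⟩
  · simp only [add_mul, sub_mul, Finset.sum_add_distrib, Finset.sum_sub_distrib, mul_assoc, ← Finset.mul_sum, ww, ← hn,
      ← hν]
    ring
  · have e0 : ∀ a : Fin d, ⟪w, EuclideanSpace.single a (1 : ℝ)⟫ = w a := fun a => by
      simp [EuclideanSpace.inner_single_right]
    have e1 : ∀ a : Fin d, ⟪w, EuclideanSpace.single a (1 : ℝ) - w a • w⟫ = 0 := fun a => by
      rw [inner_sub_right, real_inner_smul_right, real_inner_self_eq_norm_sq, hw, e0]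
      ring
    have e2 : ∀ a : Fin d, ‖EuclideanSpace.single a (1 : ℝ) - w a • w‖ ≤ 1 := fun a => by
      refine abs_le_of_sq_le_sq' ?_ zero_le_one |>.2
      rw [norm_sub_sq_real, real_inner_smul_right, real_inner_comm, e0, norm_smul, hw, mul_one, Real.norm_eq_abs, sq_abs,
        PiLp.norm_single, norm_one]
      nlinarith [sq_nonneg (w a)]
    have e3 : f2 N w w = ν := by
      rw [hν, f2]
      refine Finset.sum_congr rfl fun a _ => ?_
      rw [hn, Finset.sum_mul]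
      exact Finset.sum_congr rfl fun b _ => by ring
    have e4 := h _ _ (e1 a) (e1 b)
    rw [f2_sub₁, f2_sub₂, f2_sub₂, f2_smul₁, f2_smul₁, f2_smul₂, f2_smul₂, f2_single, f2_comm N w _ hs, f2_single₁,
      f2_single₁, ← hn, ← hn, e3] at e4
    refine (le_of_eq ?_).trans (e4.trans ?_)
    · congr 1
      ring
    · rw [mul_assoc]
      exact mul_le_of_le_one_right hα (mul_le_one₀ (e2 a) (norm_nonneg _) (e2 b))
  · rw [inner_eq_sum] at hv hv'
    rw [f2_add, f2_sub, f2_sub, impur_f2, impur_f2, impur_f2, hv, hv']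
    ring

theorem impur_T {j : Jet d} {α : ℝ} (h : j.Pre α) (hα : 0 ≤ α) (hA : ∀ a, ∑ b, j.A a b * j.w b = -j.H * j.w a) :
    ∃ T', Jet.IsB ⟨j.w, j.H, j.A, T'⟩ ∧ ∀ a b c, |T' a b c - j.T a b c| ≤ (3 + d) * α := by
  have ww := impur_ww h.w1
  have w1 : ∀ a, |j.w a| ≤ 1 := fun a => (abs_apply_le _ a).trans h.w1.le
  obtain ⟨D, Ds, Dw, Db, Df⟩ := impur_proj (fun b c => ∑ a, j.T a b c * j.w a + umm j.A j.H b c) (fun b c => by
    rw [umm, umm, h.Asym b c]
    congr 1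
    · exact Finset.sum_congr rfl fun a _ => by rw [h.Tsym2]
    · congr 1
      exact Finset.sum_congr rfl fun a _ => by rw [h.Asym b a, h.Asym a c, mul_comm]) h.w1 hα fun v v' hv hv' => by
    rw [f2_add, impur_f3w]
    exact h.Tw v v' hv hv'
  refine ⟨fun a b c => j.T a b c - j.w a * D b c - j.w b * D a c - j.w c * D a b +
    j.w a * (((∑ e, D e e) * j.w b) * j.w c), ⟨h.w1, h.Asym, h.Atr, hA, fun a b c => ?_, fun a b c => ?_, fun c => ?_,
      fun v v' hv hv' => ?_⟩, fun a b c => ?_⟩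
  · simp only
    rw [h.Tsym1 a b c, Ds a b]
    ring
  · simp only
    rw [h.Tsym2 a b c, Ds b c]
    ring
  · have e1 : ∑ a, j.w a * D a c = 0 := (Finset.sum_congr rfl fun a _ => by rw [Ds, mul_comm]).trans (Dw c)
    have e2 : ∑ a, j.w a * (((∑ e, D e e) * j.w a) * j.w c) = (∑ e, D e e) * j.w c := by
      rw [← mul_one (_ * j.w c), ← ww, Finset.mul_sum]
      exact Finset.sum_congr rfl fun a _ => by ring
    simp only [Finset.sum_add_distrib, Finset.sum_sub_distrib, h.Ttr, e1, e2, ← Finset.mul_sum]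
    ring
  · have e1 := Df v v' hv hv'
    rw [f2_add, impur_f3w] at e1
    change f3 _ j.w v v' = -f2 (umm j.A j.H) v v'
    rw [inner_eq_sum] at hv hv'
    rw [f3_add, f3_sub, f3_sub, f3_sub, impur_f3a, impur_f3b, impur_f3c, impur_f3a, impur_f2, ww, hv, hv', e1]
    ring
  · have m : ∀ {x y s : ℝ}, |x| ≤ 1 → |y| ≤ s → |x * y| ≤ s := fun {x y s} hx hy => by
      rw [abs_mul]
      exact (mul_le_of_le_one_left (abs_nonneg _) hx).trans hy
    have e1 := abs_le.1 (m (w1 a) (Db b c))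
    have e2 := abs_le.1 (m (w1 b) (Db a c))
    have e3 := abs_le.1 (m (w1 c) (Db a b))
    have e4 := abs_le.1 (m (w1 a) (m (w1 c) (m (w1 b) (sum_abs_le fun e => Db e e))))
    rw [abs_le]
    constructor <;> nlinarith [e1.1, e1.2, e2.1, e2.2, e3.1, e3.2, e4.1, e4.2]

theorem impur_A {j : Jet d} {α : ℝ} (h : j.Pre α) :
    ∃ (H' : ℝ) (A' : Fin d → Fin d → ℝ), (∀ a b, A' a b = A' b a) ∧ ∑ a, A' a a = 0 ∧ (∀ a, ∑ b, A' a b * j.w b = -H' * j.w a) ∧
      |H' - j.H| ≤ d * α ∧ ∀ a b, |A' a b - j.A a b| ≤ 2 * (α + d * α) := by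
  have ww := impur_ww h.w1
  have w1 : ∀ a, |j.w a| ≤ 1 := fun a => (abs_apply_le _ a).trans h.w1.le
  have m : ∀ {x y s : ℝ}, |x| ≤ 1 → |y| ≤ s → |y * x| ≤ s := fun {x y s} hx hy => by
    rw [abs_mul]
    exact (mul_le_of_le_one_right (abs_nonneg _) hx).trans hy
  obtain ⟨r, hr⟩ : ∃ r : Fin d → ℝ, ∀ a, r a = ∑ b, j.A a b * j.w b + j.H * j.w a := ⟨_, fun _ => rfl⟩
  have rb : ∀ a, |r a| ≤ α := fun a => (hr a).symm ▸ h.Aw a
  obtain ⟨t, ht⟩ : ∃ t : ℝ, t = ∑ a, r a * j.w a := ⟨_, rfl⟩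
  have tb : |t| ≤ d * α := ht ▸ sum_abs_le fun a => m (w1 a) (rb a)
  have pb : ∀ a, |r a - t * j.w a| ≤ α + d * α := fun a => (abs_sub _ _).trans (add_le_add (rb a) (m (w1 a) tb))
  have pw : ∑ a, (r a - t * j.w a) * j.w a = 0 := by
    simp only [sub_mul, Finset.sum_sub_distrib, mul_assoc, ← Finset.mul_sum, ww, ← ht]
    ring
  refine ⟨j.H - t, fun a b => j.A a b - (r a - t * j.w a) * j.w b - (r b - t * j.w b) * j.w a,
    fun a b => by simp only [h.Asym a b]; ring, ?_, fun a => ?_, by rwa [sub_sub_cancel_left, abs_neg], fun a b => ?_⟩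
  · simp only [Finset.sum_sub_distrib, h.Atr, pw]
    ring
  · have e : ∀ b, (j.A a b - (r a - t * j.w a) * j.w b - (r b - t * j.w b) * j.w a) * j.w b =
        j.A a b * j.w b - (r a - t * j.w a) * (j.w b * j.w b) - j.w a * ((r b - t * j.w b) * j.w b) := fun b => by ring
    simp only [e, Finset.sum_sub_distrib, ← Finset.mul_sum, ww, pw]
    rw [hr a]
    ring
  · have e1 := abs_le.1 (m (w1 b) (pb a))
    have e2 := abs_le.1 (m (w1 a) (pb b))
    rw [abs_le]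
    constructor <;> linarith [e1.1, e1.2, e2.1, e2.2]

theorem impur_mul {x y x' y' B β : ℝ} (hx : |x| ≤ B) (hy : |y| ≤ B) (hx' : |x' - x| ≤ β) (hy' : |y' - y| ≤ β) :
    |x' * y' - x * y| ≤ β * (2 * B + β) := by
  have hβ := (abs_nonneg _).trans hx'
  have hB := (abs_nonneg _).trans hx
  have e : x' * y' - x * y = (x' - x) * (y' - y) + (x' - x) * y + x * (y' - y) := by ring
  rw [e]
  refine (abs_add_three _ _ _).trans ?_
  rw [abs_mul, abs_mul, abs_mul]
  have a1 := mul_le_mul hx' hy' (abs_nonneg _) hβ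
  have a2 := mul_le_mul hx' hy (abs_nonneg _) hβ
  have a3 := mul_le_mul hx hy' (abs_nonneg _) hB
  linarith

theorem Jet.retr (d : ℕ) (B : ℝ) : ∃ K : ℝ, 1 ≤ K ∧ ∀ (j : Jet d) (α : ℝ), j.Pre α → j.Bd B B → 0 ≤ α → α ≤ B →
    ∃ j' : Jet d, j'.IsB ∧ j'.Close j 0 (K * α) (K * α) := by
  obtain ⟨k, hk⟩ : ∃ k : ℝ, k = 2 * (1 + d) := ⟨_, rfl⟩
  have d0 : (0 : ℝ) ≤ d := Nat.cast_nonneg d
  have k0 : 0 ≤ k := by rw [hk]; positivity
  obtain ⟨m, hm⟩ : ∃ m : ℝ, m = (d + 1) * (k * (2 * |B| + k * |B|)) := ⟨_, rfl⟩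
  have m0 : 0 ≤ m := by rw [hm]; positivity
  have n0 : 0 ≤ (3 + d : ℝ) * (1 + d ^ 2 * m) := by positivity
  refine ⟨1 + k + (3 + d) * (1 + d ^ 2 * m), by linarith, fun j α h hB hα hαB => ?_⟩
  obtain ⟨H', A', s1, s2, s3, s4, s5⟩ := impur_A h
  have B0 : 0 ≤ B := hα.trans hαB
  have a1 : |H' - j.H| ≤ k * α := s4.trans (by rw [hk]; nlinarith)
  have a2 : ∀ a b, |A' a b - j.A a b| ≤ k * α := fun a b => (s5 a b).trans_eq (by rw [hk]; ring)
  have a3 : k * α * (2 * B + k * α) ≤ k * (2 * |B| + k * |B|) * α := by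
    rw [abs_of_nonneg B0, mul_right_comm]
    gcongr
  have a4 : ∀ a b, |umm A' H' a b - umm j.A j.H a b| ≤ m * α := fun a b => by
    have b1 := abs_le.1 (sum_abs_le fun c => (impur_mul (hB.A a c) (hB.A c b) (a2 a c) (a2 c b)).trans a3)
    have b2 := abs_le.1 ((impur_mul hB.H (hB.A a b) a1 (a2 a b)).trans a3)
    rw [Finset.sum_sub_distrib] at b1
    rw [umm, umm, hm, abs_le]
    constructor <;> linarith [b1.1, b1.2, b2.1, b2.2]
  have hp : Jet.Pre ⟨j.w, H', A', j.T⟩ ((1 + d ^ 2 * m) * α) :=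
    ⟨h.w1, s1, s2, fun a => by
      simp only
      rw [s3 a, neg_mul, neg_add_cancel, abs_zero]
      positivity, h.Tsym1, h.Tsym2, h.Ttr, fun v v' hv hv' => by
      have b1 := abs_le.1 (h.Tw v v' hv hv')
      have b2 := abs_le.1 (f2_le a4 v v')
      rw [f2_sub] at b2
      rw [abs_le]
      constructor <;> simp only <;> linarith [b1.1, b1.2, b2.1, b2.2]⟩
  obtain ⟨T', t1, t2⟩ := impur_T hp (by positivity) s3
  have c1 : k * α ≤ (1 + k + (3 + d) * (1 + d ^ 2 * m)) * α := by nlinarith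
  refine ⟨_, t1, by simp, a1.trans c1, fun a b => (a2 a b).trans c1, fun a b c => (t2 a b c).trans ?_⟩
  nlinarith

end Crest.Agent.R97
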