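import Crest.Agent.R97.Har

set_option autoImplicit false
open MeasureTheory Metric Set Filter Topology
open scoped RealInnerProductSpace NNReal

namespace Crest.Agent.R97

variable {d : ℕ}

/-! Jet_A (helper24): the local estimate at a point whose nearest zero is the origin. -/

theorem jeta_s1 {A : Fin d → ℝ} {C s : ℝ} {y : E d} (hA : ∀ b, |A b| ≤ C) (hy : ‖y‖ ≤ s) :
    |∑ b, A b * y b| ≤ d * C * s := by
  refine (Finset.abs_sum_le_sum_abs _ _).trans ?_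
  calc ∑ b, |A b * y b| ≤ ∑ _b : Fin d, C * s := Finset.sum_le_sum fun b _ => by
        rw [abs_mul]
        exact mul_le_mul (hA b) ((PiLp.norm_apply_le y b).trans hy) (abs_nonneg _) ((abs_nonneg _).trans (hA b))
    _ = _ := by simp [mul_assoc]

theorem jeta_s2 {A : Fin d → Fin d → ℝ} {C s : ℝ} {y : E d} (hA : ∀ a b, |A a b| ≤ C) (hy : ‖y‖ ≤ s) :
    |∑ a, ∑ b, A a b * y a * y b| ≤ d ^ 2 * C * s ^ 2 := by
  have h1 : ∑ a, ∑ b, A a b * y a * y b = ∑ a, (∑ b, A a b * y b) * y a :=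
    Finset.sum_congr rfl fun a _ => by
      rw [Finset.sum_mul]; exact Finset.sum_congr rfl fun b _ => by ring
  rw [h1]
  exact (jeta_s1 (fun a => jeta_s1 (hA a) hy) hy).trans_eq (by ring)

theorem jeta_s3 {T : Fin d → Fin d → Fin d → ℝ} {C s : ℝ} {y : E d} (hT : ∀ a b c, |T a b c| ≤ C) (hy : ‖y‖ ≤ s) :
    |∑ a, ∑ b, ∑ c, T a b c * y a * y b * y c| ≤ d ^ 3 * C * s ^ 3 := by
  have h1 : ∑ a, ∑ b, ∑ c, T a b c * y a * y b * y c = ∑ a, (∑ b, ∑ c, T a b c * y b * y c) * y a :=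
    Finset.sum_congr rfl fun a _ => by
      rw [Finset.sum_mul]
      refine Finset.sum_congr rfl fun b _ => ?_
      rw [Finset.sum_mul]; exact Finset.sum_congr rfl fun c _ => by ring
  rw [h1]
  exact (jeta_s1 (fun a => jeta_s2 (hT a) hy) hy).trans_eq (by ring)

theorem jeta_P {j : Jet d} {C s : ℝ} (hj : j.Bdd C) {y : E d} (hy : ‖y‖ ≤ s) (hs : s ≤ 1) :
    |j.P y - ⟪j.w, y⟫| ≤ (d ^ 2 + d ^ 3) * C * s ^ 2 := by
  have h2 := jeta_s2 hj.2.1 hy
  have h3 := jeta_s3 hj.2.2 hy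
  have hC : 0 ≤ C := (abs_nonneg _).trans hj.1
  have hs0 : 0 ≤ s := (norm_nonneg _).trans hy
  have h4 : (d : ℝ) ^ 3 * C * s ^ 3 ≤ d ^ 3 * C * s ^ 2 :=
    mul_le_mul_of_nonneg_left (pow_le_pow_of_le_one hs0 hs (by norm_num)) (by positivity)
  have h5 : 0 ≤ (d : ℝ) ^ 3 * C * s ^ 2 := by positivity
  have h6 : 0 ≤ (d : ℝ) ^ 2 * C * s ^ 2 := by positivity
  unfold Jet.P
  rw [abs_le] at h2 h3 ⊢
  constructor <;> nlinarith [h2.1, h2.2, h3.1, h3.2]

theorem jeta_step {C₁ : ℝ} (hC : ∀ (f : E d → ℝ) (x : E d) (r M : ℝ), 0 < r → Harm f (ball x r) →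
    (∀ y ∈ ball x r, |f y| ≤ M) → ∀ i, |pd i f x| ≤ C₁ * M / r) {f g : E d → ℝ} {y : E d} {R M : ℝ} (hR : 0 < R)
    (hf : Harm f (ball y R)) (hg : Harm g (ball y R)) (h : ∀ p ∈ ball y R, |f p - g p| ≤ M) (i : Fin d) :
    ∀ p ∈ ball y (R / 2), |pd i f p - pd i g p| ≤ C₁ * M / (R / 2) := by
  intro p hp
  have hs : ball p (R / 2) ⊆ ball y R := ball_subset_ball' (by rw [mem_ball] at hp; linarith)
  have hp' : p ∈ ball y R := hs (mem_ball_self (by linarith))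
  rw [← pd_sub (hart_diff isOpen_ball hf hp') (hart_diff isOpen_ball hg hp')]
  exact hC _ p _ M (by linarith) ((hf.sub isOpen_ball hg).mono hs) (fun q hq => h q (hs hq)) i

/-- the algebra behind `rho ≈ H` -/
theorem jeta_rho {j : Jet d} (hB : j.IsB) {C K s V : ℝ} (hj : j.Bdd C) {y : E d} (hy : ‖y‖ ≤ s) (hs : s ≤ 1)
    (hK : 0 ≤ K) {q : Fin d → ℝ} (hq : ∀ a, |q a - (j.w a + ∑ b, j.A a b * y b)| ≤ K * s ^ 2)
    (hV : |V - ⟪j.w, y⟫| ≤ K * s ^ 2) :
    |1 - ∑ a, q a ^ 2 - 2 * j.H * V| ≤ (d * (2 * K + (d * C + K) ^ 2) + 2 * C * K) * s ^ 2 := by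
  have hC : 0 ≤ C := (abs_nonneg _).trans hj.1
  have hs0 : 0 ≤ s := (norm_nonneg _).trans hy
  have h1 : ∑ a, j.w a ^ 2 = 1 := by rw [← EuclideanSpace.real_norm_sq_eq, hB.w1]; norm_num
  have h2 : ∑ a, j.w a * ∑ b, j.A a b * y b = -j.H * ⟪j.w, y⟫ := by
    simp only [Finset.mul_sum]
    rw [Finset.sum_comm, PiLp.inner_apply, Finset.mul_sum]
    refine Finset.sum_congr rfl fun b _ => ?_
    have h3 : ∑ a, j.w a * (j.A a b * y b) = (∑ a, j.A b a * j.w a) * y b := by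
      rw [Finset.sum_mul]; exact Finset.sum_congr rfl fun a _ => by rw [hB.Asym a b]; ring
    rw [h3, hB.Aw]
    simp only [RCLike.inner_apply, conj_trivial]
    ring
  have h3 : 1 - ∑ a, q a ^ 2 - 2 * j.H * V =
      -(∑ a, (2 * j.w a * (q a - (j.w a + ∑ b, j.A a b * y b)) + (q a - j.w a) ^ 2)) -
        2 * j.H * (V - ⟪j.w, y⟫) := by
    have h4 : ∑ a, (2 * j.w a * (q a - (j.w a + ∑ b, j.A a b * y b)) + (q a - j.w a) ^ 2) =
        ∑ a, q a ^ 2 - ∑ a, j.w a ^ 2 - 2 * ∑ a, j.w a * ∑ b, j.A a b * y b := by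
      rw [Finset.mul_sum, ← Finset.sum_sub_distrib, ← Finset.sum_sub_distrib]
      exact Finset.sum_congr rfl fun a _ => by ring
    rw [h4, h1, h2]; ring
  have h5 : ∀ a, |2 * j.w a * (q a - (j.w a + ∑ b, j.A a b * y b)) + (q a - j.w a) ^ 2| ≤
      (2 * K + (d * C + K) ^ 2) * s ^ 2 := by
    intro a
    have e1 : |j.w a| ≤ 1 := (PiLp.norm_apply_le j.w a).trans_eq hB.w1
    have e2 := jeta_s1 (hj.2.1 a) hy
    have e3 : |q a - j.w a| ≤ (d * C + K) * s := by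
      have e4 : K * s ^ 2 ≤ K * s := mul_le_mul_of_nonneg_left (by nlinarith) hK
      have e5 := hq a
      rw [abs_le] at e2 e5 ⊢
      constructor <;> nlinarith [e2.1, e2.2, e5.1, e5.2]
    have e4 : (q a - j.w a) ^ 2 ≤ ((d * C + K) * s) ^ 2 := by
      rw [← sq_abs]; exact pow_le_pow_left₀ (abs_nonneg _) e3 2
    have e5 : |2 * j.w a * (q a - (j.w a + ∑ b, j.A a b * y b))| ≤ 2 * 1 * (K * s ^ 2) := by
      rw [abs_mul, abs_mul, abs_two]
      exact mul_le_mul (by linarith) (hq a) (abs_nonneg _) (by norm_num)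
    refine (abs_add_le _ _).trans ?_
    rw [abs_of_nonneg (sq_nonneg (q a - j.w a))]
    calc _ ≤ 2 * 1 * (K * s ^ 2) + ((d * C + K) * s) ^ 2 := add_le_add e5 e4
      _ = _ := by ring
  have h6 : |∑ a, (2 * j.w a * (q a - (j.w a + ∑ b, j.A a b * y b)) + (q a - j.w a) ^ 2)| ≤
      d * ((2 * K + (d * C + K) ^ 2) * s ^ 2) := by
    refine (Finset.abs_sum_le_sum_abs _ _).trans ((Finset.sum_le_sum fun a _ => h5 a).trans_eq ?_)
    simp
  have h7 : |2 * j.H * (V - ⟪j.w, y⟫)| ≤ 2 * C * (K * s ^ 2) := by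
    rw [abs_mul, abs_mul, abs_two]
    exact mul_le_mul (by linarith [hj.1]) hV (abs_nonneg _) (by positivity)
  rw [h3]
  refine (abs_sub _ _).trans ?_
  rw [abs_neg]
  linarith

theorem jeta_loc (d : ℕ) {C : ℝ} (hC : 0 < C) : ∃ K : ℝ, 0 < K ∧ ∀ (v : E d → ℝ) (j : Jet d) (y : E d), y ≠ 0 →
    K * ‖y‖ ≤ 1 → Harm v (ball y ‖y‖) → (∀ p ∈ ball y ‖y‖, 0 < v p) → j.IsB → j.Bdd C →
    (∀ t : ℝ, 0 < t → t ≤ 1 → Trap v j.P (C * t ^ 3 * Real.sqrt t) (closedBall 0 t)) →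
    j.Near v y (K * Real.sqrt ‖y‖) := by
  obtain ⟨C₁, hC₁, hG⟩ := grad_bound d
  set K₁ : ℝ := (d ^ 2 + d ^ 3) * C + 16 * C * (1 + 2 * C₁) with hK₁
  have hK₁0 : 0 ≤ K₁ := by positivity
  set K₂ : ℝ := d * (2 * K₁ + (d * C + K₁) ^ 2) + 2 * C * K₁ with hK₂
  have hK₂0 : 0 ≤ K₂ := by positivity
  set K : ℝ := 2 + 40 * K₁ + 2 * K₂ + d * C + 16 * C * (8 * C₁ ^ 2) + 16 * C * (64 * C₁ ^ 3) with hK
  have p1 : 0 ≤ (d : ℝ) * C := by positivity
  have p2 : 0 ≤ 16 * C * (8 * C₁ ^ 2) := by positivity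
  have p3 : 0 ≤ 16 * C * (64 * C₁ ^ 3) := by positivity
  refine ⟨K, by positivity, fun v j y hy0 hKy hv hpos hB hj hT => ?_⟩
  set s := ‖y‖ with hs
  have hs0 : 0 < s := norm_pos_iff.2 hy0
  have hs2 : 2 * s ≤ 1 := (mul_le_mul_of_nonneg_right (by linarith) hs0.le).trans hKy
  have hs3 : 40 * K₁ * s ≤ 1 := (mul_le_mul_of_nonneg_right (by linarith) hs0.le).trans hKy
  have hs1 : s ≤ 1 := by linarith
  set σ := Real.sqrt s with hσ
  have hσ0 : 0 < σ := Real.sqrt_pos.2 hs0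
  have hσ1 : σ ≤ 1 := Real.sqrt_le_one.2 hs1
  have hsσ : s ≤ σ := by
    have := Real.mul_self_sqrt hs0.le
    nlinarith
  have hP := Jet.harm_P hB.Atr hB.Asym hB.Tsym1 hB.Tsym2 hB.Ttr
  have hin : ∀ p ∈ ball y s, ‖p‖ ≤ 2 * s := fun p hp => by
    have := norm_le_insert' p y
    rw [mem_ball_iff_norm] at hp
    linarith
  have h0 : ∀ p ∈ ball y s, |v p - j.P p| ≤ 16 * C * σ * s ^ 3 := by
    intro p hp
    have h1 := hT (2 * s) (by linarith) hs2 p (mem_closedBall_zero_iff.2 (hin p hp))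
    have h2 : Real.sqrt (2 * s) ≤ 2 * σ := by
      rw [Real.sqrt_le_left (by positivity), mul_pow, Real.sq_sqrt hs0.le]; linarith
    have h3 : C * (2 * s) ^ 3 * Real.sqrt (2 * s) ≤ 16 * C * σ * s ^ 3 :=
      (mul_le_mul_of_nonneg_left h2 (by positivity)).trans_eq (by ring)
    have h4 := (le_max_left _ _).trans h1.1
    have h5 := (le_max_iff.1 h1.2).resolve_right (not_le.2 (hpos p hp))
    rw [abs_le]; constructor <;> linarith
  have hPs : ∀ r, Harm j.P (ball y r) := fun r => hP.mono (subset_univ _)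
  have b2 : ball y (s / 2) ⊆ ball y s := ball_subset_ball (by linarith)
  have b4 : ball y (s / 2 / 2) ⊆ ball y s := ball_subset_ball (by linarith)
  have h1 := fun a => jeta_step hG hs0 hv (hPs s) h0 a
  have h2 := fun a b => jeta_step hG (half_pos hs0) ((hv.pd isOpen_ball b).mono b2) ((hPs _).pd isOpen_ball b) (h1 b) a
  have h3 := fun a b c => jeta_step hG (half_pos (half_pos hs0))
    (((hv.pd isOpen_ball c).pd isOpen_ball b).mono b4) (((hPs _).pd isOpen_ball c).pd isOpen_ball b) (h2 b c) a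
  have g1 : ∀ a, |pd a v y - (j.w a + ∑ b, j.A a b * y b)| ≤ K₁ * s ^ 2 := by
    intro a
    have e1 := h1 a y (mem_ball_self (by positivity))
    rw [Jet.pd_P hB.Asym hB.Tsym1 hB.Tsym2] at e1
    have e2 : C₁ * (16 * C * σ * s ^ 3) / (s / 2) = 16 * C * (2 * C₁) * s ^ 2 * σ := by field_simp
    have e3 : 16 * C * (2 * C₁) * s ^ 2 * σ ≤ 16 * C * (2 * C₁) * s ^ 2 :=
      mul_le_of_le_one_right (by positivity) hσ1
    have e4 := jeta_s2 (hj.2.2 a) (le_refl ‖y‖)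
    have e5 : 0 ≤ (d : ℝ) ^ 2 * C * s ^ 2 := by positivity
    have e6 : 0 ≤ (d : ℝ) ^ 3 * C * s ^ 2 := by positivity
    have e7 : 0 ≤ 16 * C * s ^ 2 := by positivity
    rw [e2] at e1
    rw [← hs] at e4
    rw [abs_le] at e1 e4 ⊢
    rw [hK₁]
    constructor <;> nlinarith [e1.1, e1.2, e4.1, e4.2]
  have g0 : ∀ (p : E d) (t : ℝ), p ∈ ball y s → ‖p‖ ≤ t → s ≤ t → t ≤ 1 → |v p - ⟪j.w, p⟫| ≤ K₁ * t ^ 2 := by
    intro p t hp hpt hst ht
    have e1 := h0 p hp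
    have e2 := jeta_P hj hpt ht
    have e3 : 16 * C * σ * s ^ 3 ≤ 16 * C * t ^ 2 := by
      have : σ * s ^ 3 ≤ t ^ 2 := by
        calc σ * s ^ 3 ≤ 1 * s ^ 2 := mul_le_mul hσ1 (pow_le_pow_of_le_one hs0.le hs1 (by norm_num))
              (by positivity) zero_le_one
          _ ≤ t ^ 2 := by rw [one_mul]; exact pow_le_pow_left₀ hs0.le hst 2
      rw [mul_assoc]; exact mul_le_mul_of_nonneg_left this (by positivity)
    have e4 : 0 ≤ 16 * C * (2 * C₁) * t ^ 2 := by positivity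
    rw [abs_le] at e1 e2 ⊢
    rw [hK₁]
    constructor <;> nlinarith [e1.1, e1.2, e2.1, e2.2]
  have gy := g0 y s (mem_ball_self hs0) le_rfl le_rfl hs1
  have hlow : s / 4 ≤ v y := by
    have e1 : y - (s / 2) • j.w ∈ ball y s := by
      rw [mem_ball_iff_norm, sub_sub_cancel_left, norm_neg, norm_smul, hB.w1, Real.norm_of_nonneg (by positivity)]
      linarith
    have e2 := g0 _ (2 * s) e1 (hin _ e1) (by linarith) hs2
    rw [inner_sub_right, real_inner_smul_right, real_inner_self_eq_norm_sq, hB.w1] at e2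
    have e3 := hpos _ e1
    have e4 : 40 * K₁ * s * s ≤ 1 * s := mul_le_mul_of_nonneg_right hs3 hs0.le
    rw [abs_le] at e2 gy
    nlinarith [e2.2, gy.1]
  have hKσ : ∀ c : ℝ, c ≤ K → c * σ ≤ K * σ := fun c hc => mul_le_mul_of_nonneg_right hc hσ0.le
  refine ⟨fun a => ?_, fun a b => ?_, fun a b c => ?_, ?_⟩
  · have e1 := g1 a
    have e2 := jeta_s1 (hj.2.1 a) (le_refl ‖y‖)
    rw [← hs] at e2
    have e3 : K₁ * s ^ 2 ≤ K₁ * σ := mul_le_mul_of_nonneg_left (by nlinarith) hK₁0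
    have e4 : d * C * s ≤ d * C * σ := mul_le_mul_of_nonneg_left hsσ p1
    have e5 := hKσ (K₁ + d * C) (by linarith)
    rw [abs_le] at e1 e2 ⊢
    constructor <;> linarith [e1.1, e1.2, e2.1, e2.2]
  · have e1 := h2 a b y (mem_ball_self (by positivity))
    rw [Jet.pd_pd_P hB.Asym hB.Tsym1 hB.Tsym2] at e1
    have e2 : C₁ * (C₁ * (16 * C * σ * s ^ 3) / (s / 2)) / (s / 2 / 2) = 16 * C * (8 * C₁ ^ 2) * σ * s := by
      field_simp; ring
    have e3 : 16 * C * (8 * C₁ ^ 2) * σ * s ≤ 16 * C * (8 * C₁ ^ 2) * σ :=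
      mul_le_of_le_one_right (by positivity) hs1
    have e4 := jeta_s1 (hj.2.2 a b) (le_refl ‖y‖)
    rw [← hs] at e4
    have e5 : d * C * s ≤ d * C * σ := mul_le_mul_of_nonneg_left hsσ p1
    have e6 := hKσ (16 * C * (8 * C₁ ^ 2) + d * C) (by linarith)
    rw [e2] at e1
    rw [abs_le] at e1 e4 ⊢
    constructor <;> linarith [e1.1, e1.2, e4.1, e4.2]
  · have e1 := h3 a b c y (mem_ball_self (by positivity))
    rw [Jet.pd_pd_pd_P hB.Asym hB.Tsym1 hB.Tsym2] at e1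
    have e2 : C₁ * (C₁ * (C₁ * (16 * C * σ * s ^ 3) / (s / 2)) / (s / 2 / 2)) / (s / 2 / 2 / 2) =
        16 * C * (64 * C₁ ^ 3) * σ := by
      field_simp; ring
    rw [e2] at e1
    exact e1.trans (hKσ _ (by linarith))
  · have e1 := jeta_rho hB hj (le_refl ‖y‖) hs1 hK₁0 g1 gy
    rw [← hs, ← hK₂, ← norm_gradient_sq] at e1
    have e2 : 0 < v y := by linarith
    have e3 : rho v y - j.H = (1 - ‖gradient v y‖ ^ 2 - 2 * j.H * v y) / (2 * v y) := by
      unfold rho; field_simp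
    rw [e3, abs_div, abs_of_pos (by linarith : 0 < 2 * v y), div_le_iff₀ (by linarith)]
    have e4 := hKσ (2 * K₂) (by linarith)
    calc _ ≤ K₂ * s ^ 2 := e1
      _ = 2 * K₂ * s * (2 * (s / 4)) := by ring
      _ ≤ K * σ * (2 * v y) := by
        refine mul_le_mul ((mul_le_mul_of_nonneg_left hsσ (by positivity)).trans e4) (by linarith) (by positivity)
          (by positivity)

end Crest.Agent.R97
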