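import Crest.Agent.R97.Fl0
import Crest.Agent.R97.Imp
import Crest.Agent.R97.Jet_A

set_option autoImplicit false
open MeasureTheory Metric Set Filter Topology
open scoped RealInnerProductSpace NNReal

namespace Crest.Agent.R97

variable {d : ℕ}

/-! Jet: behaviour of the jets near the free boundary; the gradient bound. -/

theorem Jet.sc_isB {j : Jet d} (hB : j.IsB) (c : ℝ) : (j.sc c).IsB := by
  refine ⟨hB.w1, fun a b => ?_, ?_, fun a => ?_, fun a b e => ?_, fun a b e => ?_, fun e => ?_,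
    fun v v' hv hv' => ?_⟩ <;> simp only [Jet.sc]
  · rw [hB.Asym]
  · rw [← Finset.mul_sum, hB.Atr, mul_zero]
  · simp only [mul_assoc]
    rw [← Finset.mul_sum, hB.Aw]; ring
  · rw [hB.Tsym1]
  · rw [hB.Tsym2]
  · rw [← Finset.mul_sum, hB.Ttr, mul_zero]
  · have h1 : ∑ a, ∑ b, ∑ e, c ^ 2 * j.T a b e * j.w a * v b * v' e =
        c ^ 2 * ∑ a, ∑ b, ∑ e, j.T a b e * j.w a * v b * v' e := by
      simp only [Finset.mul_sum, mul_assoc]
    have h2 : ∑ b, ∑ e, ((∑ a, c * j.A b a * (c * j.A a e)) + c * j.H * (c * j.A b e)) * v b * v' e =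
        c ^ 2 * ∑ b, ∑ e, ((∑ a, j.A b a * j.A a e) + j.H * j.A b e) * v b * v' e := by
      rw [Finset.mul_sum]
      refine Finset.sum_congr rfl fun b _ => ?_
      rw [Finset.mul_sum]
      refine Finset.sum_congr rfl fun e _ => ?_
      have h3 : ∑ a, c * j.A b a * (c * j.A a e) = c ^ 2 * ∑ a, j.A b a * j.A a e := by
        rw [Finset.mul_sum]; exact Finset.sum_congr rfl fun a _ => by ring
      rw [h3]; ring
    rw [h1, h2, hB.Tw v v' hv hv']; ring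

theorem Jet.sc_bdd {j : Jet d} {C c M : ℝ} (hj : j.Bdd C) (hc : 1 ≤ c) (hM : c ≤ M) : (j.sc c).Bdd (M ^ 2 * C) := by
  have h0 : 0 ≤ c := by linarith
  have h1 : c ^ 2 ≤ M ^ 2 := pow_le_pow_left₀ h0 hM 2
  have h2 : c ≤ M ^ 2 := by nlinarith
  have key : ∀ a x : ℝ, 0 ≤ a → a ≤ M ^ 2 → |x| ≤ C → |a * x| ≤ M ^ 2 * C := fun a x ha haM hx => by
    rw [abs_mul, abs_of_nonneg ha]
    exact mul_le_mul haM hx (abs_nonneg _) (by positivity)
  exact ⟨key _ _ h0 h2 hj.1, fun a b => key _ _ h0 h2 (hj.2.1 a b),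
    fun a b e => key _ _ (by positivity) h1 (hj.2.2 a b e)⟩

theorem jet_pd_bl (u : E d → ℝ) (z : E d) {r : ℝ} (hr : 0 < r) (i : Fin d) :
    pd i (bl u z r) = fun y => pd i u (z + r • y) := by
  funext y
  have h : bl u z r = fun y => r⁻¹ * u (z + r • y) := funext fun y => by rw [bl, div_eq_inv_mul]
  rw [h, pd_const_mul, pd_shift, inv_mul_cancel_left₀ hr.ne']

theorem jet_near_bl {j : Jet d} {u : E d → ℝ} {z y : E d} {r M ε : ℝ} (hr : 0 < r) (hr1 : r ≤ 1) (hM : r⁻¹ ≤ M)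
    (h : j.Near (bl u z r) y ε) : (j.sc r⁻¹).Near u (z + r • y) (M ^ 2 * ε) := by
  obtain ⟨h1, h2, h3, h4⟩ := h
  have hc : 1 ≤ r⁻¹ := (one_le_inv₀ hr).2 hr1
  have h0 : 0 ≤ r⁻¹ := by linarith
  have m2 : r⁻¹ ^ 2 ≤ M ^ 2 := pow_le_pow_left₀ h0 hM 2
  have m1 : r⁻¹ ≤ M ^ 2 := by nlinarith
  have key : ∀ a x : ℝ, 0 ≤ a → a ≤ M ^ 2 → |x| ≤ ε → |a * x| ≤ M ^ 2 * ε := fun a x ha haM hx => by
    rw [abs_mul, abs_of_nonneg ha]
    exact mul_le_mul haM hx (abs_nonneg _) (by positivity)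
  have p2 : ∀ a b, pd a (pd b (bl u z r)) = fun y => r * pd a (pd b u) (z + r • y) := fun a b =>
    funext fun y => by rw [jet_pd_bl u z hr, pd_shift]
  refine ⟨fun a => ?_, fun a b => ?_, fun a b c => ?_, ?_⟩
  · have e := key 1 _ zero_le_one (hc.trans m1) (h1 a)
    rwa [one_mul, jet_pd_bl u z hr] at e
  · have e := key _ _ h0 m1 (h2 a b)
    rwa [p2, mul_sub, inv_mul_cancel_left₀ hr.ne'] at e
  · have e := key _ _ (by positivity) m2 (h3 a b c)
    rw [p2, pd_const_mul, pd_shift, mul_sub] at e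
    have e2 : ∀ X : ℝ, r⁻¹ ^ 2 * (r * (r * X)) = X := fun X => by field_simp
    rwa [e2] at e
  · have e := key _ _ h0 m1 h4
    have e2 : rho (bl u z r) y = r * rho u (z + r • y) := by
      unfold rho
      rw [norm_gradient_sq, norm_gradient_sq]
      simp only [jet_pd_bl u z hr]
      rw [bl, ← mul_div_assoc, div_div_eq_mul_div, mul_div_assoc', mul_comm r]
    rwa [e2, mul_sub, inv_mul_cancel_left₀ hr.ne'] at e

/-- a flat scale bounded below, uniformly on the free boundary away from the vertex -/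
theorem jet_unif (hd : 1 ≤ d) (hF : Flat d) {L : ℝ≥0} {u : E (d + 1) → ℝ} (hu : Mn L u) (hh : Hom u) {ε₀ : ℝ}
    (hε : 0 < ε₀) : ∃ r0 : ℝ, 0 < r0 ∧ ∀ z ∈ {z : E (d + 1) | FB u z ∧ 1 / 2 ≤ ‖z‖ ∧ ‖z‖ ≤ 2},
      ∃ (r : ℝ) (e : E (d + 1)), r0 ≤ r ∧ r ≤ 1 ∧ ‖e‖ = 1 ∧ Trap (bl u z r) (fun y => ⟪e, y⟫) ε₀ (closedBall 0 1) := by
  have hK : IsCompact {z : E (d + 1) | FB u z ∧ 1 / 2 ≤ ‖z‖ ∧ ‖z‖ ≤ 2} := by
    refine (isCompact_closedBall (0 : E (d + 1)) 2).of_isClosed_subset ?_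
      fun z hz => mem_closedBall_zero_iff.2 hz.2.2
    exact ((isClosed_eq hu.lip.continuous continuous_const).inter isClosed_closure).inter
      ((isClosed_le continuous_const continuous_norm).inter (isClosed_le continuous_norm continuous_const))
  refine hK.induction_on (p := fun s => ∃ r0 : ℝ, 0 < r0 ∧ ∀ z ∈ s, ∃ (r : ℝ) (e : E (d + 1)), r0 ≤ r ∧ r ≤ 1 ∧
    ‖e‖ = 1 ∧ Trap (bl u z r) (fun y => ⟪e, y⟫) ε₀ (closedBall 0 1)) ⟨1, one_pos, fun z hz => hz.elim⟩ ?_ ?_ ?_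
  · rintro s t hst ⟨r0, h0, h⟩
    exact ⟨r0, h0, fun z hz => h z (hst hz)⟩
  · rintro s t ⟨r1, h1, hs⟩ ⟨r2, h2, ht⟩
    refine ⟨min r1 r2, lt_min h1 h2, fun z hz => ?_⟩
    rcases hz with hz | hz
    · obtain ⟨r, e, h3, h4⟩ := hs z hz
      exact ⟨r, e, (min_le_left _ _).trans h3, h4⟩
    · obtain ⟨r, e, h3, h4⟩ := ht z hz
      exact ⟨r, e, (min_le_right _ _).trans h3, h4⟩
  · rintro z ⟨hz, hz1, -⟩
    have hz0 : z ≠ 0 := norm_pos_iff.1 (by linarith)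
    obtain ⟨η, hη, hη1, hη2⟩ : ∃ η : ℝ, 0 < η ∧ η ≤ ε₀ / 4 ∧ η ≤ 1 / 2 :=
      ⟨min (ε₀ / 4) (1 / 2), by positivity, min_le_left _ _, min_le_right _ _⟩
    obtain ⟨r, e, hr, hrη, he, hT⟩ := flat_scale hd hF hu hh hz0 hz hη
    refine ⟨ball z (η * r), mem_nhdsWithin_of_mem_nhds (ball_mem_nhds _ (by positivity)), r / 2, half_pos hr,
      fun z' hz' => ⟨r / 2, e, le_rfl, by linarith, he, fun y hy => ?_⟩⟩
    have h1 : ‖r⁻¹ • (z' - z)‖ ≤ η := by
      rw [norm_smul, Real.norm_of_nonneg (by positivity), inv_mul_le_iff₀ hr, mul_comm]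
      exact (mem_ball_iff_norm.1 hz').le
    have h2 : r⁻¹ • (z' - z) + (1 / 2 : ℝ) • y ∈ closedBall (0 : E (d + 1)) 1 := by
      rw [mem_closedBall_zero_iff] at hy ⊢
      refine (norm_add_le _ _).trans ?_
      rw [norm_smul (1 / 2 : ℝ), Real.norm_of_nonneg (by norm_num)]
      linarith
    have h3 : bl u z' (r / 2) y = 2 * bl u z r (r⁻¹ • (z' - z) + (1 / 2 : ℝ) • y) := by
      unfold bl
      rw [smul_add, smul_inv_smul₀ hr.ne', smul_smul, ← add_assoc, add_sub_cancel, mul_one_div]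
      field_simp
    have h4 := abs_real_inner_le_norm e (r⁻¹ • (z' - z))
    rw [he, one_mul, abs_le] at h4
    have h5 := hT _ h2
    simp only [inner_add_right e, real_inner_smul_right e y] at h5
    rw [h3]
    refine ⟨max_le ?_ ?_, ?_⟩
    · linarith [(le_max_left _ _).trans h5.1, h4.1]
    · linarith [(le_max_right _ _).trans h5.1]
    · rcases le_max_iff.1 h5.2 with h6 | h6
      · exact le_max_of_le_left (by linarith [h4.2])
      · exact le_max_of_le_right (by linarith)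

theorem jets_near (hd : 1 ≤ d) (hF : Flat d) {L : ℝ≥0} {u : E (d + 1) → ℝ} (hu : Mn L u) (hh : Hom u) :
    JetsNear u := by
  obtain ⟨ε₀, C, hε₀, hC, hI⟩ := improve (d := d + 1) (by omega)
  obtain ⟨r0, hr0, hU⟩ := jet_unif hd hF hu hh hε₀
  obtain ⟨K, hK, hL⟩ := jeta_loc (d + 1) hC
  refine ⟨r0⁻¹ ^ 2 * C, fun ε hε => ?_⟩
  obtain ⟨ρ, ⟨h1, h2, h3⟩, hρ⟩ : ∃ ρ : ℝ, (ρ < 1 / 2 ∧ K * (ρ / r0) < 1 ∧
      r0⁻¹ ^ 2 * (K * Real.sqrt (ρ / r0)) < ε) ∧ 0 < ρ := by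
    refine (Filter.Eventually.and (Filter.Eventually.filter_mono nhdsWithin_le_nhds ?_)
      (self_mem_nhdsWithin (a := (0 : ℝ)) (s := Ioi 0))).exists
    refine (gt_mem_nhds (by norm_num)).and (Filter.Eventually.and ?_ ?_)
    · exact (by fun_prop : Continuous fun ρ : ℝ => K * (ρ / r0)).continuousAt.eventually_lt continuousAt_const
        (by simp)
    · exact (by fun_prop : Continuous fun ρ : ℝ => r0⁻¹ ^ 2 * (K * Real.sqrt (ρ / r0))).continuousAt.eventually_lt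
        continuousAt_const (by simpa using hε)
  have hZ : IsClosed {x | u x = 0} := isClosed_eq hu.lip.continuous continuous_const
  have hne : {x | u x = 0}.Nonempty := ⟨0, by
    have := hh 2 two_pos 0
    rw [smul_zero] at this
    show u 0 = 0
    linarith⟩
  have hS : IsCompact (sphere (0 : E (d + 1)) 1 ∩ {x | ρ ≤ infDist x {x | u x = 0}}) :=
    (isCompact_sphere _ _).inter_right (isClosed_le continuous_const (continuous_infDist_pt _))
  obtain ⟨δ, hδ, hδS⟩ := hS.exists_forall_le' hu.lip.continuous.continuousOn (a := 0) fun x hx =>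
    (hu.nn x).lt_of_ne' fun h0 => by
      have h4 : ρ ≤ infDist x {x | u x = 0} := hx.2
      rw [infDist_zero_of_mem (show x ∈ {x | u x = 0} from h0)] at h4
      linarith
  refine ⟨δ, hδ, fun x hx hx0 hxδ => ?_⟩
  have hlt : infDist x {x | u x = 0} < ρ :=
    not_le.1 fun h4 => not_le.2 hxδ (hδS x ⟨mem_sphere_zero_iff_norm.2 hx, h4⟩)
  obtain ⟨z, hz, hdz⟩ := hZ.exists_infDist_eq_dist hne x
  have hxz : x ≠ z := fun h4 => hx0.ne' (h4 ▸ hz)
  have hball : ball x (dist x z) ⊆ {x | 0 < u x} := fun p hp =>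
    (hu.nn p).lt_of_ne' (notMem_of_dist_lt_infDist (s := {x | u x = 0}) (by rw [hdz]; exact mem_ball'.1 hp))
  have hFB : FB u z := ⟨hz, closure_mono hball (by
    rw [closure_ball _ (dist_pos.2 hxz).ne']
    exact mem_closedBall'.2 le_rfl)⟩
  rw [hdz, dist_eq_norm] at hlt
  have h5 := abs_norm_sub_norm_le x z
  rw [hx, abs_le] at h5
  obtain ⟨r, e, hr1, hr2, he, hT⟩ := hU z ⟨hFB, by linarith [h5.2], by linarith [h5.1]⟩
  have hr : 0 < r := hr0.trans_le hr1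
  obtain ⟨j, hB, hj, hTj⟩ := hI L _ (hu.bl z hr) (hFB.bl hr) e he hT
  have hy : z + r • r⁻¹ • (x - z) = x := by rw [smul_inv_smul₀ hr.ne', add_sub_cancel]
  have hyn : ‖r⁻¹ • (x - z)‖ = ‖x - z‖ / r := by
    rw [norm_smul, Real.norm_of_nonneg (by positivity), div_eq_inv_mul]
  have hyle : ‖r⁻¹ • (x - z)‖ ≤ ρ / r0 := by
    rw [hyn]; exact div_le_div₀ hρ.le hlt.le hr0 hr1
  have hpos : ∀ p ∈ ball (r⁻¹ • (x - z)) ‖r⁻¹ • (x - z)‖, 0 < bl u z r p := fun p hp => by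
    refine div_pos (hball ?_) hr
    rw [mem_ball_iff_norm, hyn, lt_div_iff₀' hr] at hp
    have h6 : z + r • p - x = r • (p - r⁻¹ • (x - z)) := by
      rw [smul_sub, smul_inv_smul₀ hr.ne']; abel
    rwa [mem_ball_iff_norm, h6, norm_smul, Real.norm_of_nonneg hr.le, dist_eq_norm]
  have hN := hL _ j _ (smul_ne_zero (inv_pos.2 hr).ne' (sub_ne_zero.2 hxz))
    ((mul_le_mul_of_nonneg_left hyle hK.le).trans h2.le) ((hu.bl z hr).harm.mono hpos) hpos hB hj hTj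
  have hM : r⁻¹ ≤ r0⁻¹ := inv_anti₀ hr0 hr1
  have hN2 := jet_near_bl hr hr2 hM hN
  rw [hy] at hN2
  have h7 : r0⁻¹ ^ 2 * (K * Real.sqrt ‖r⁻¹ • (x - z)‖) ≤ ε :=
    (mul_le_mul_of_nonneg_left (mul_le_mul_of_nonneg_left (Real.sqrt_le_sqrt hyle) hK.le) (by positivity)).trans h3.le
  exact ⟨j.sc r⁻¹, Jet.sc_isB hB _, Jet.sc_bdd hj ((one_le_inv₀ hr).2 hr2) hM, fun a => (hN2.1 a).trans h7,
    fun a b => (hN2.2.1 a b).trans h7, fun a b c => (hN2.2.2.1 a b c).trans h7, hN2.2.2.2.trans h7⟩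

end Crest.Agent.R97
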