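import Crest.Agent.R97.CertBy
import Crest.Agent.R97.NRw1
import Crest.Agent.R97.NRw2
import Crest.Agent.R97.NRw3

/-! generated (helper64): the three relaxed side rows for the table -/

set_option autoImplicit false
set_option maxRecDepth 100000
set_option linter.all false

namespace Crest.Agent.R97.NRw

open Crest.Agent.Bern

noncomputable def Fp (r z p t : ℝ) : ℝ := (((((((3299 / 5000 : ℝ) * r) + (((609 / 2500 : ℝ) * z) + (((5691 / 2500 : ℝ) * p) + (-2321 / 1250 : ℝ)))) * r) + (((((-17821 / 10000 : ℝ) * z) + (((15693 / 10000 : ℝ) * p) + (211 / 2500 : ℝ))) * z) + (((((-244 / 625 : ℝ) * p) + (1269 / 2000 : ℝ)) * p) + (-6641 / 10000 : ℝ)))) * t) + (((((((5063 / 5000 : ℝ) * r) + (((9 / 16 : ℝ) * z) + (((4253 / 5000 : ℝ) * p) + (-2767 / 2500 : ℝ)))) * r) + (((((-3 / 625 : ℝ) * z) + (((-2763 / 1250 : ℝ) * p) + (-5487 / 10000 : ℝ))) * z) +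 (((((-943 / 1250 : ℝ) * p) + (3 / 2 : ℝ)) * p) + (107 / 1250 : ℝ)))) * r) + (((((((5879 / 2500 : ℝ) * z) + (((-12347 / 10000 : ℝ) * p) + (-10513 / 10000 : ℝ))) * z) + (((((-6081 / 2500 : ℝ) * p) + (4881 / 2500 : ℝ)) * p) + (3829 / 10000 : ℝ))) * z) + (((((((179 / 250 : ℝ) * p) + (-289 / 1250 : ℝ)) * p) + (-1071 / 5000 : ℝ)) * p) + (1 : ℝ)))))

noncomputable def Kp (r z p t : ℝ) : ℝ := (((((((1087 / 10000 : ℝ) * r) + (((-14061 / 10000 : ℝ) * z) + (((409 / 500 : ℝ) * p) + (-2271 / 5000 : ℝ)))) * r) + (((((3389 / 10000 : ℝ) * z) + (((-47 / 80 : ℝ) * p) + (-401 / 10000 : ℝ))) * z) + (((((497 / 5000 : ℝ) * p) + (2111 / 10000 : ℝ)) * p) + (-471 / 1000 : ℝ)))) * t) + (((((((9593 / 10000 : ℝ) * r) + (((2231 / 5000 : ℝ) * z) + (((3 / 2 : ℝ) * p) + (-3 / 2 : ℝ)))) * r) + (((((553 / 2000 : ℝ) * z) + (((3 : ℝ) * p) + (-4119 / 10000 : ℝ))) * z) + (((((-519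 / 500 : ℝ) * p) + (7633 / 10000 : ℝ)) * p) + (329 / 400 : ℝ)))) * r) + (((((((20953 / 10000 : ℝ) * z) + (((21853 / 10000 : ℝ) * p) + (-3677 / 5000 : ℝ))) * z) + (((((-24279 / 10000 : ℝ) * p) + (133 / 200 : ℝ)) * p) + (2721 / 5000 : ℝ))) * z) + (((((((471 / 625 : ℝ) * p) + (403 / 1250 : ℝ)) * p) + (-41 / 1000 : ℝ)) * p) + (5099 / 10000 : ℝ)))))

noncomputable def Dp (r z p t : ℝ) : ℝ := (((((((249 / 625 : ℝ) * r) + (((9449 / 10000 : ℝ) * z) + (((721 / 2000 : ℝ) * p) + (-2887 / 5000 : ℝ)))) * r) + (((((-5243 / 5000 : ℝ) * z) + (((12829 / 10000 : ℝ) * p) + (91 / 2500 : ℝ))) * z) + (((((-4401 / 10000 : ℝ) * p) + (-463 / 2000 : ℝ)) * p) + (4187 / 10000 : ℝ)))) * t) + (((((((173 / 400 : ℝ) * r) + (((2549 / 2500 : ℝ) * z) + (((-579 / 625 : ℝ) * p) + (194 / 625 : ℝ)))) * r) + (((((263 / 5000 : ℝ) * z) + (((3401 / 5000 : ℝ) * p) + (1519 / 2000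 : ℝ))) * z) + (((((-119 / 1250 : ℝ) * p) + (3 / 2 : ℝ)) * p) + (-2009 / 2500 : ℝ)))) * r) + (((((((-519 / 1250 : ℝ) * z) + (((-18241 / 10000 : ℝ) * p) + (-3317 / 5000 : ℝ))) * z) + (((((403 / 625 : ℝ) * p) + (29999 / 10000 : ℝ)) * p) + (-4639 / 10000 : ℝ))) * z) + (((((((3241 / 5000 : ℝ) * p) + (-10433 / 10000 : ℝ)) * p) + (5431 / 10000 : ℝ)) * p) + (-13 / 1250 : ℝ)))))

noncomputable def A1p (r z p t : ℝ) : ℝ := (((((((-1241 / 2500 : ℝ) * r) + (((-11609 / 10000 : ℝ) * z) + (((3 / 2 : ℝ) * p) + (1599 / 5000 : ℝ)))) * r) + (((((-1021 / 5000 : ℝ) * z) + (((3 : ℝ) * p) + (293 / 1250 : ℝ))) * z) + (((((8123 / 10000 : ℝ) * p) + (3 / 2 : ℝ)) * p) + (967 / 10000 : ℝ)))) * r) + (((((((-3991 / 10000 : ℝ) * z) + (((-4171 / 10000 : ℝ) * p) + (267 / 2500 : ℝ))) * z) + (((((5877 / 5000 : ℝ) * p) + (17407 / 10000 : ℝ)) * p) + (10563 / 10000 : ℝ))) *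 z) + (((((((9631 / 10000 : ℝ) * p) + (-3 / 2 : ℝ)) * p) + (-817 / 2000 : ℝ)) * p) + (63 / 625 : ℝ))))

noncomputable def A2p (r z p t : ℝ) : ℝ := (((((15461 / 10000 : ℝ) * r) + (((2513 / 1250 : ℝ) * z) + (((3 : ℝ) * p) + (-6457 / 5000 : ℝ)))) * r) + (((((-14913 / 5000 : ℝ) * z) + (((6 : ℝ) * p) + (-4723 / 10000 : ℝ))) * z) + (((((-12831 / 10000 : ℝ) * p) + (1783 / 10000 : ℝ)) * p) + (3711 / 10000 : ℝ))))

/-- the table values -/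
structure Is (N : Tab) : Prop where
  c : N.c = (1 : ℝ)
  F : ∀ s z p θ, N.F.h s z p θ = Fp (1 - s ^ 2) z p (s ^ 3 * θ)
  K : ∀ s z p θ, N.K.v s z p θ = Kp (1 - s ^ 2) z p (s ^ 3 * θ)
  D : ∀ s z p θ, N.D.v s z p θ = Dp (1 - s ^ 2) z p (s ^ 3 * θ)
  A : ∀ s z p θ, N.A.h s z p θ = A1p (1 - s ^ 2) z p (s ^ 3 * θ) + s * θ * A2p (1 - s ^ 2) z p (s ^ 3 * θ)

theorem in01 {a b c d : ℝ} (a0 : 0 ≤ a) (a1 : a ≤ 1) (b0 : 0 ≤ b) (b1 : b ≤ 1) (c0 : 0 ≤ c) (c1 : c ≤ 1) (d0 : 0 ≤ d)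
    (d1 : d ≤ 1) : ∃ x : ℕ → ℝ, In01 x ∧ x 0 = a ∧ x 1 = b ∧ x 2 = c ∧ x 3 = d :=
  ⟨fun i => match i with | 0 => a | 1 => b | 2 => c | _ => d, fun j => by
    match j with
    | 0 => exact ⟨a0, a1⟩
    | 1 => exact ⟨b0, b1⟩
    | 2 => exact ⟨c0, c1⟩
    | _ + 3 => exact ⟨d0, d1⟩, rfl, rfl, rfl, rfl⟩

theorem nr3 {N : Tab} (h : Is N) : N.NR 3 R1 (7 / 4) := by
  refine N.NR3_of_box (Z := (1 : ℝ)) (by rw [h.c]; norm_num) (by rw [h.c]; norm_num) (by norm_num) _ ?_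
  intro s z p θ s0 s1 z0 z1 p0 p1 t0 t1 hR hS e2 e3 _
  rw [h.c] at hS
  obtain ⟨x, hx, x0, x1, x2, x3⟩ := in01 (b := z * (1 : ℝ)) (d := (θ + (289 / 500 : ℝ)) * (250 / 289 : ℝ)) s0 s1
    (by positivity) (by linarith) p0 p1 (by linarith) (by linarith)
  have ez : NRw3.z_r x = z := by rw [NRw3.z_r, x1]; ring
  have et : NRw3.th_r x = θ := by rw [NRw3.th_r, x3]; ring
  have er : NRw3.r_r x = 1 - s ^ 2 := by rw [NRw3.r_r, x0]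
  have eu : NRw3.tau_r x = s ^ 3 * θ := by rw [NRw3.tau_r, x0, et]
  have eX : NRw3.X_r x = z * s := by rw [NRw3.X_r, x0, ez]
  have k := NRw3.final x hx (by rw [NRw3.top1_r, eX, x2]; linarith) (by rw [NRw3.top2_r, ez, er, x2]; linarith)
    (by rw [NRw3.top3_r, eX, x2]; linarith) (by rw [NRw3.top4_r, eX, x2, et]; linarith)
  have eF : NRw3.F_r x = Fp (1 - s ^ 2) z p (s ^ 3 * θ) := by rw [← er, ← eu, ← ez, ← x2]; rfl
  have eK : NRw3.K_r x = Kp (1 - s ^ 2) z p (s ^ 3 * θ) := by rw [← er, ← eu, ← ez, ← x2]; rfl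
  have eD : NRw3.D_r x = Dp (1 - s ^ 2) z p (s ^ 3 * θ) := by rw [← er, ← eu, ← ez, ← x2]; rfl
  have e1 : NRw3.A1_r x = A1p (1 - s ^ 2) z p (s ^ 3 * θ) := by rw [← er, ← eu, ← ez, ← x2]; rfl
  have e2 : NRw3.A2_r x = A2p (1 - s ^ 2) z p (s ^ 3 * θ) := by rw [← er, ← eu, ← ez, ← x2]; rfl
  rw [NRw3.top0_r, eF, eK, eD, e1, e2, ez, et, x0] at k
  rw [h.F, h.K, h.D, h.A]
  linarith

theorem nr2 {N : Tab} (h : Is N) : N.NR 2 R1 (3 / 2) := by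
  refine N.NR2_of_box (Z := (1 : ℝ)) (by rw [h.c]; norm_num) (by rw [h.c]; norm_num) (by norm_num) _ ?_
  intro s z p θ s0 s1 z0 z1 p0 p1 t0 t1 hR hS e2 e3 _
  rw [h.c] at hS
  obtain ⟨x, hx, x0, x1, x2, x3⟩ := in01 (b := z * (1 : ℝ)) (d := (θ + (409 / 1000 : ℝ)) * (500 / 409 : ℝ)) s0 s1
    (by positivity) (by linarith) p0 p1 (by linarith) (by linarith)
  have ez : NRw2.z_r x = z := by rw [NRw2.z_r, x1]; ring
  have et : NRw2.th_r x = θ := by rw [NRw2.th_r, x3]; ring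
  have er : NRw2.r_r x = 1 - s ^ 2 := by rw [NRw2.r_r, x0]
  have eu : NRw2.tau_r x = s ^ 3 * θ := by rw [NRw2.tau_r, x0, et]
  have eX : NRw2.X_r x = z * s := by rw [NRw2.X_r, x0, ez]
  have k := NRw2.final x hx (by rw [NRw2.top1_r, eX, x2]; linarith) (by rw [NRw2.top2_r, ez, er, x2]; linarith)
    (by rw [NRw2.top3_r, eX, x2]; linarith) (by rw [NRw2.top4_r, eX, x2, et]; linarith)
  have eF : NRw2.F_r x = Fp (1 - s ^ 2) z p (s ^ 3 * θ) := by rw [← er, ← eu, ← ez, ← x2]; rfl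
  have eK : NRw2.K_r x = Kp (1 - s ^ 2) z p (s ^ 3 * θ) := by rw [← er, ← eu, ← ez, ← x2]; rfl
  have eD : NRw2.D_r x = Dp (1 - s ^ 2) z p (s ^ 3 * θ) := by rw [← er, ← eu, ← ez, ← x2]; rfl
  have e1 : NRw2.A1_r x = A1p (1 - s ^ 2) z p (s ^ 3 * θ) := by rw [← er, ← eu, ← ez, ← x2]; rfl
  have e2 : NRw2.A2_r x = A2p (1 - s ^ 2) z p (s ^ 3 * θ) := by rw [← er, ← eu, ← ez, ← x2]; rfl
  rw [NRw2.top0_r, eF, eK, eD, e1, e2, ez, et, x0] at k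
  rw [h.F, h.K, h.D, h.A]
  linarith

theorem nr1 {N : Tab} (h : Is N) : N.NR 1 R1 (5 / 4) := by
  refine N.NR1_of_box (Z := (1 : ℝ)) (by rw [h.c]; norm_num) (by rw [h.c]; norm_num) (by norm_num) _ ?_
  intro s z p s0 s1 z0 z1 p0 p1 hS e2
  rw [h.c] at hS
  obtain ⟨x, hx, x0, x1, x2, -⟩ := in01 (b := z * (1 : ℝ)) (d := 0) s0 s1
    (by positivity) (by linarith) p0 p1 le_rfl zero_le_one
  have ez : NRw1.z_r x = z := by rw [NRw1.z_r, x1]; ring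
  have er : NRw1.r_r x = 1 - s ^ 2 := by rw [NRw1.r_r, x0]
  have eX : NRw1.X_r x = z * s := by rw [NRw1.X_r, x0, ez]
  have k := NRw1.final x hx (by rw [NRw1.top1_r, ez, er, x2]; linarith) (by rw [NRw1.top2_r, eX, x2]; linarith)
  have eF : NRw1.F_r x = Fp (1 - s ^ 2) z p 0 := by rw [← er, ← ez, ← x2, NRw1.F_r, Fp, mul_zero, zero_add]
  have eK : NRw1.K_r x = Kp (1 - s ^ 2) z p 0 := by rw [← er, ← ez, ← x2, NRw1.K_r, Kp, mul_zero, zero_add]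
  have e1 : NRw1.A1_r x = A1p (1 - s ^ 2) z p 0 := by rw [← er, ← ez, ← x2]; rfl
  rw [NRw1.top0_r, eF, eK, e1, ez] at k
  rw [h.F, h.K, h.A, mul_zero, mul_zero, zero_mul, add_zero]
  linarith

end Crest.Agent.R97.NRw
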