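import Crest.Agent.R97.NRw1D

set_option autoImplicit false
set_option maxRecDepth 100000
set_option Elab.async false
set_option linter.all false

namespace Crest.Agent.R97.NRw1

open Crest.Agent.Bern

theorem c0 : Good 64 44 [6, 4, 3] 3 (sub 64 [6, 4, 3] 3 R []) :=
  good_of_go (wb := 17) (by decide) (by decide) (by decide) 10 _
    0x70003fc0000000b0007f8000000012000ff200000003c0015e000000050003fc000000080007f908000000016000ff00000002c001fe000000058003fc00000000a0007f800000014000ff02000000028001fe200000000000007c4000000000000f9000000012000ff0000000000003e20000000000007c804000000080007f80000011800fff2000000020001fe0000003f003ffc88000000070007f88000000000001f12 (by decide +kernel)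

end Crest.Agent.R97.NRw1
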