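import Crest.Agent.R97.NRw2D

set_option autoImplicit false
set_option maxRecDepth 100000
set_option Elab.async false
set_option linter.all false

namespace Crest.Agent.R97.NRw2

open Crest.Agent.Bern

theorem c0 : Good 64 44 [8, 4, 3, 2] 5 (sub 64 [8, 4, 3, 2] 5 R []) :=
  good_of_go (wb := 17) (by decide) (by decide) (by decide) 10 _
    0x400000007800040019e000000000000000000001f000080000001e00000005f80034000000f60000003ffc800000000000600000001fe2000000000000000000001f2000000000000200000000780024000000ed0000003ffc800000000000680000001fe200000000000200000000ff2031000000000001600000007f80000000000000000000007c000000000000000000003e02000000000000000000001f2 (by decide +kernel)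

end Crest.Agent.R97.NRw2
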