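import Crest.Agent.R97.NRw3D

set_option autoImplicit false
set_option maxRecDepth 100000
set_option Elab.async false
set_option linter.all false

namespace Crest.Agent.R97.NRw3

open Crest.Agent.Bern

theorem c0 : Good 64 44 [8, 4, 3, 2] 5 (sub 64 [8, 4, 3, 2] 5 R []) :=
  good_of_go (wb := 17) (by decide) (by decide) (by decide) 6 _
    0x7800040011e00000000003fc000000adf1000000000001400000007f9000000000000e00000003fc0000000000000000000003e400000000000100000000ff1 (by decide +kernel)

end Crest.Agent.R97.NRw3
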