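import Crest.Agent.R97.BzBW1
import Crest.Agent.R97.BzWW1
import Crest.Agent.R97.CertBw
import Crest.Agent.R97.NRw

/-! the boundary row and the scalar rows of the table `coef_W1` (generated, helper67) -/

set_option autoImplicit false
set_option linter.all false

namespace Crest.Agent.R97

/-- the boundary row of the table as a polynomial -/
noncomputable def nbW (t n θ q r τ : ℝ) : ℝ :=
  (((((((t * n) * (((((((3299 / 5000 : ℝ) * r) + (-2321 / 1250 : ℝ)) * r) + (-6641 / 10000 : ℝ)) * τ) + (((((((5063 / 5000 : ℝ) * r) + (-2767 / 2500 : ℝ)) * r) + (107 / 1250 : ℝ)) * r) + (1 : ℝ)))) - ((t * (θ + ((2 : ℝ) * n))) * (((((((1087 / 10000 : ℝ) * r) + (-2271 / 5000 : ℝ)) * r) + (-471 / 1000 : ℝ)) * τ) + (((((((9593 / 10000 : ℝ) * r) + (-3 / 2 : ℝ)) * r) + (329 / 400 : ℝ)) * r) + (5099 / 10000 : ℝ))))) + ((n * (((((((-1241 / 2500 : ℝ) * r) + (1599 / 5000 : ℝ)) * r) + (967 / 10000 : ℝ)) * r) + (63 / 625 : ℝ))) + ((t * θ) *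 (((((15461 / 10000 : ℝ) * r) + (-6457 / 5000 : ℝ)) * r) + (3711 / 10000 : ℝ))))) - (t * ((n * (((((((-786 / 625 : ℝ) * r) + (3 / 2 : ℝ)) * r) + (-737 / 1250 : ℝ)) * r) + (301 / 5000 : ℝ))) + ((t * θ) * (((((19027 / 10000 : ℝ) * r) + (-2887 / 2000 : ℝ)) * r) + (1043 / 10000 : ℝ)))))) + (((((((-6021 / 2500 : ℝ) * r) + (4703 / 2000 : ℝ)) * r) + (-51 / 400 : ℝ)) * τ) + (((((((5663 / 10000 : ℝ) * r) + (-3 / 2 : ℝ)) * r) + (5293 / 5000 : ℝ)) * r) + (-811 / 10000 : ℝ)))) + (((t ^ 2) * ((n - q) - θ)) * (((((((249 / 625 : ℝ) * r) + (-2887 / 5000 : ℝ)) * r) + (4187 / 10000 : ℝ)) * τ) + (((((((173 / 400 : ℝ) * r) + (194 / 625 : ℝ)) * r) + (-2009 / 2500 : ℝ)) * r) + (-13 / 1250 : ℝ)))))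

open BzBW1 in
theorem nb_W1 {N : Tab} (hN : ∀ t n θ q : ℝ, N.nbP t n θ q = nbW t n θ q (1 - t ^ 2 * n) (t ^ 3 * θ)) : N.NB 4 := by
  refine Tab.NB_of_box N fun x0 x1 x2 x3 t0 n1 n2 n3 n4 n θ q0 a0 b0 a1 b1 a2 b2 a3 b3 e0 e1 e2 e3 e4 e5 e6 e7 h0 => ?_
  obtain ⟨x, hx⟩ : ∃ x : ℕ → ℝ, x = fun i => if i = 0 then x0 else if i = 1 then x1 else if i = 2 then x2
      else if i = 3 then x3 else 0 := ⟨_, rfl⟩
  have hx01 : Bern.In01 x := by
    intro i
    rw [hx]
    dsimp only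
    split_ifs <;> constructor <;> linarith
  have y0 : x 0 = x0 := by simp [hx]
  have y1 : x 1 = x1 := by simp [hx]
  have y2 : x 2 = x2 := by simp [hx]
  have y3 : x 3 = x3 := by simp [hx]
  have kt : t_r x = t0 := by simp only [t_r, y0, y1, y2, y3]; linarith
  have km1 : m1_r x = n1 := by simp only [m1_r, kt, y0, y1, y2, y3]; linarith
  have km2 : m2_r x = n2 := by simp only [m2_r, kt, km1, y0, y1, y2, y3]; linarith
  have km3 : m3_r x = n3 := by simp only [m3_r, kt, km1, km2, y0, y1, y2, y3]; linarith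
  have km4 : m4_r x = n4 := by simp only [m4_r, kt, km1, km2, km3, y0, y1, y2, y3]; linarith
  have kNN : NN_r x = n := by simp only [NN_r, kt, km1, km2, km3, km4, y0, y1, y2, y3]; linarith
  have kth : th_r x = θ := by simp only [th_r, kt, km1, km2, km3, km4, kNN, y0, y1, y2, y3]; linarith
  have kq : q_r x = q0 := by simp only [q_r, kt, km1, km2, km3, km4, kNN, kth, y0, y1, y2, y3]; linarith
  have h := final x hx01 (by simp only [top1_r, r_r, kt, kNN]; linarith)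
  simp only [top0_r, r_r, tau_r, kt, kNN, kth, kq] at h
  rw [hN]
  exact h

open BzWW1 in
theorem rows_W1 {N : Tab} (hN : NRw.Is N) : N.Rows 1 := by
  have hc := hN.c
  refine Tab.Rows_of_box N (by rw [hc]; norm_num) _ fun s0 z0 p0 w0 θ a1 a2 a3 a4 a5 a6 a7 a8 a9 a10 h0 h1 h2 => ?_
  rw [hc] at h2
  obtain ⟨x, hx⟩ : ∃ x : ℕ → ℝ, x = fun i => if i = 0 then s0 else if i = 1 then z0 else if i = 2 then p0
      else if i = 3 then (w0 + 9 / 10) * (5 / 9) else if i = 4 then (θ + 671 / 1000) * (500 / 671) else 0 := ⟨_, rfl⟩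
  have hs : s_r x = s0 := by simp [s_r, hx]
  have hz : z_r x = z0 := by simp [z_r, hx]
  have hp : p_r x = p0 := by simp [p_r, hx]
  have hw : w_r x = w0 := by simp [w_r, hx]; ring
  have ht : th_r x = θ := by simp [th_r, hx]; ring
  have hx01 : Bern.In01 x := by
    intro i
    rw [hx]
    dsimp only
    split_ifs <;> constructor <;> linarith
  have eK : K_r x = N.K.v s0 z0 p0 θ := by
    rw [hN.K]
    simp only [K_r, r_r, tau_r, hs, hz, hp, ht, NRw.Kp]
  have eD : D_r x = N.D.v s0 z0 p0 θ := by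
    rw [hN.D]
    simp only [D_r, r_r, tau_r, hs, hz, hp, ht, NRw.Dp]
  have h := final x hx01
    (by simp only [top1_r, r_r, hs, hz, hp, hw, ht]; linarith)
    (by simp only [top2_r, r_r, hs, hz, hp, hw, ht]; linarith)
    (by simp only [top3_r, r_r, hs, hz, hp, hw, ht]; linarith)
  simp only [top0_r, eK, eD, hs, hw] at h
  linarith

end Crest.Agent.R97
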