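import Crest.Agent.R97.RowW1
import Crest.Agent.R97.TabW1
import Crest.Agent.R97.CertB9

/-! SideW1 (helper67): all side conditions of the table `W1`; the certificate is reduced to `Tab.NW` / `Tab.Mat`. -/

set_option autoImplicit false

namespace Crest.Agent.R97

theorem W1_c1 : W1.tab.c = 1 := by simp [IT.tab, W1]

theorem W1_lam : 4 < W1.tab.Λ := by norm_num [IT.tab, W1]

theorem W1_isR : NRw.Is W1.tab where
  c := W1_c1
  F := fun s z p θ => by
    simp only [Tb.h, Tb.gh, IT.tab, NRw.Fp]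
    generalize 1 - s ^ 2 = r
    generalize s ^ 3 * θ = t
    simp only [W1, toMon, List.cons_append, List.nil_append, pe]
    push_cast
    ring
  K := fun s z p θ => by
    simp only [Tb.v, Tb.g, IT.tab, NRw.Kp]
    generalize 1 - s ^ 2 = r
    generalize s ^ 3 * θ = t
    simp only [W1, toMon, pe]
    push_cast
    ring
  D := fun s z p θ => by
    simp only [Tb.v, Tb.g, IT.tab, NRw.Dp]
    generalize 1 - s ^ 2 = r
    generalize s ^ 3 * θ = t
    simp only [W1, toMon, pe]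
    push_cast
    ring
  A := fun s z p θ => by
    simp only [Tb.h, Tb.gh, IT.tab, NRw.A1p, NRw.A2p]
    generalize 1 - s ^ 2 = r
    generalize s ^ 3 * θ = t
    simp only [W1, toMon, pe]
    push_cast
    ring

theorem W1_nb : W1.tab.NB 4 := nb_W1 fun t n θ q => by
  simp only [Tab.nbP, Tb.g, IT.tab, nbW]
  generalize 1 - t ^ 2 * n = r
  generalize t ^ 3 * θ = τ
  simp only [W1, toMon, List.cons_append, List.nil_append, pe]
  push_cast
  ring

theorem W1_rows : W1.tab.Rows 1 := rows_W1 W1_isR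

/-- the certificate from the wide condition for `W1` -/
theorem cert_of_NW1 (hW : W1.tab.NW 4 R1) {d : ℕ} (hd : 2 ≤ d) (hd6 : d ≤ 6) {u : E d → ℝ} (hu : Mn 1 u) (hh : Hom u)
    (hj : JetsNear u) : ∀ x, 0 < u x → ∀ a b, pd a (pd b u) x = 0 :=
  cert_of_tab2 W1_sh W1_lam hW (NRw.nr3 W1_isR) (NRw.nr2 W1_isR) (NRw.nr1 W1_isR) W1_nb hd hd6 hu hh hj

/-- the certificate from the matrix condition for `W1` -/
theorem cert_of_Mat1 (hM : W1.tab.Mat 1) {d : ℕ} (hd : 2 ≤ d) (hd6 : d ≤ 6) {u : E d → ℝ} (hu : Mn 1 u) (hh : Hom u)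
    (hj : JetsNear u) : ∀ x, 0 < u x → ∀ a b, pd a (pd b u) x = 0 :=
  cert_of_NW1 (Tab.NW_of_mat (by rw [W1_c1]; norm_num) zero_le_one (by rw [W1_c1]; norm_num) W1_rows hM) hd hd6 hu hh hj

end Crest.Agent.R97
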