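/- R97/Sob_D: definitions of the block Sob (sub-lead helper6). Do not edit. -/
import Crest.Agent.R97.Bas

set_option autoImplicit false
open MeasureTheory Metric Set Filter Topology
open scoped RealInnerProductSpace NNReal ENNReal
open Crest.AnalysisR.PDE.OnePhase

namespace Crest.Agent.R97

variable {d : ℕ}

/-- test functions -/
def Tst (φ : E d → ℝ) : Prop := ContDiff ℝ (⊤ : ℕ∞) φ ∧ HasCompactSupport φ

/-- a radial bump `m` with its potential `ψ` -/
structure SB (m ψ : E d → ℝ) : Prop where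
  sm : ContDiff ℝ (⊤ : ℕ∞) m
  sp : ContDiff ℝ (⊤ : ℕ∞) ψ
  m0 : ∀ y, 0 ≤ m y
  p0 : ∀ y, 0 ≤ ψ y
  mz : ∀ y, 1 ≤ ‖y‖ → m y = 0
  pz : ∀ y, 1 ≤ ‖y‖ → ψ y = 0
  mp : ∀ y, ‖y‖ < 1 → 0 < m y
  grad : ∀ y, gradient ψ y = -(m y) • y
  one : ∫ y, m y = 1

/-- the kernel at scale `t` centred at `x` -/
noncomputable def kt (m : E d → ℝ) (t : ℝ) (x y : E d) : ℝ := (t ^ d)⁻¹ * m (t⁻¹ • (y - x))

/-- mollification -/
noncomputable def av {F : Type} [NormedAddCommGroup F] [NormedSpace ℝ F] (m : E d → ℝ) (f : E d → F) (t : ℝ)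
    (x : E d) : F := ∫ y, kt m t x y • f y

/-- global weak gradient -/
structure WG (u : E d → ℝ) (G : E d → E d) : Prop where
  iu : LocallyIntegrable u
  iG : LocallyIntegrable G
  eq : ∀ φ : E d → ℝ, Tst φ → ∀ i, ∫ x, u x * pd i φ x = - ∫ x, G x i * φ x

end Crest.Agent.R97
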