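/- R97/Sob_A: the bump and its kernels (sub-lead helper6). -/
import Crest.Agent.R97.Sob_D

set_option autoImplicit false
open MeasureTheory Metric Set Filter Topology
open scoped RealInnerProductSpace NNReal ENNReal
open Crest.AnalysisR.PDE.OnePhase

namespace Crest.Agent.R97

variable {d : ℕ}

theorem soba_supp {m : E d → ℝ} (h : ∀ y, 1 ≤ ‖y‖ → m y = 0) : HasCompactSupport m :=
  HasCompactSupport.intro (isCompact_closedBall 0 1) fun y hy =>
    h y (le_of_lt (by simpa using hy))

/-- `h s = expNegInvGlue (1 - s)`, `g s = ∫ r in s..1, h r` (`deriv g = -h`, smooth by `contDiff_infty_iff_deriv`, `g = 0` on `[1,∞)`, `g ≥ 0`),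
`a = ∫ y, h (‖y‖²) > 0` (`Continuous.integral_pos_of_hasCompactSupport_nonneg_nonzero`), `m y = h (‖y‖²)/a`, `ψ y = g (‖y‖²)/(2a)`
(`contDiff_norm_sq`, `hasStrictFDerivAt_norm_sq`, `hasGradientAt_iff_hasFDerivAt`). -/
theorem sob_bump (d : ℕ) : ∃ m ψ : E d → ℝ, SB m ψ := by
  obtain ⟨h, hh⟩ : ∃ h : ℝ → ℝ, h = fun s => expNegInvGlue (1 - s) := ⟨_, rfl⟩
  have hs : ContDiff ℝ (⊤ : ℕ∞) h := hh ▸ expNegInvGlue.contDiff.comp (contDiff_const.sub contDiff_id)
  have h0 : ∀ s, 0 ≤ h s := fun s => hh ▸ expNegInvGlue.nonneg _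
  have hz : ∀ s, 1 ≤ s → h s = 0 := fun s hs => hh ▸ expNegInvGlue.zero_of_nonpos (by linarith)
  have hp : ∀ s, s < 1 → 0 < h s := fun s hs => hh ▸ expNegInvGlue.pos_of_pos (by linarith)
  obtain ⟨g, hg⟩ : ∃ g : ℝ → ℝ, g = fun s => ∫ r in s..1, h r := ⟨_, rfl⟩
  have gd : ∀ s, HasDerivAt g (-h s) s := fun s => hg ▸
    intervalIntegral.integral_hasDerivAt_left (hs.continuous.intervalIntegrable _ _)
      (hs.continuous.stronglyMeasurableAtFilter _ _) hs.continuous.continuousAt
  have gs : ContDiff ℝ (⊤ : ℕ∞) g := by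
    refine contDiff_infty_iff_deriv.2 ⟨fun s => (gd s).differentiableAt, ?_⟩
    rw [show deriv g = fun s => -h s from funext fun s => (gd s).deriv]
    exact hs.neg
  have gz : ∀ s, 1 ≤ s → g s = 0 := fun s hs => by
    rw [hg]
    show ∫ r in s..1, h r = 0
    rw [intervalIntegral.integral_congr (g := fun _ => 0) fun r hr => hz r (by
      rw [uIcc_of_ge hs] at hr; exact hr.1)]
    simp
  have g0 : ∀ s, 0 ≤ g s := fun s => by
    rcases le_total s 1 with h1 | h1
    · rw [hg]
      exact intervalIntegral.integral_nonneg h1 fun r _ => h0 r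
    · exact (gz s h1).ge
  have hn : ContDiff ℝ (⊤ : ℕ∞) fun y : E d => ‖y‖ ^ 2 := contDiff_norm_sq ℝ
  have sq1 : ∀ y : E d, 1 ≤ ‖y‖ → 1 ≤ ‖y‖ ^ 2 := fun y hy => one_le_pow₀ hy
  have hm : ContDiff ℝ (⊤ : ℕ∞) fun y : E d => h (‖y‖ ^ 2) := hs.comp hn
  have ha : 0 < ∫ y : E d, h (‖y‖ ^ 2) :=
    hm.continuous.integral_pos_of_hasCompactSupport_nonneg_nonzero (x := 0)
      (soba_supp fun y hy => hz _ (sq1 y hy)) (fun y => h0 _) (hp _ (by simp)).ne'
  set a := ∫ y : E d, h (‖y‖ ^ 2) with ea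
  refine ⟨fun y => h (‖y‖ ^ 2) / a, fun y => g (‖y‖ ^ 2) / (2 * a), hm.div_const a, (gs.comp hn).div_const _,
    fun y => div_nonneg (h0 _) ha.le, fun y => div_nonneg (g0 _) (by positivity),
    fun y hy => by simp only [hz _ (sq1 y hy), zero_div], fun y hy => by simp only [gz _ (sq1 y hy), zero_div],
    fun y hy => div_pos (hp _ (pow_lt_one₀ (norm_nonneg _) hy two_ne_zero)) ha, fun y => ?_, ?_⟩
  · refine HasGradientAt.gradient (hasGradientAt_iff_hasFDerivAt.2 ?_)
    have h1 := ((gd (‖y‖ ^ 2)).comp_hasFDerivAt y (hasStrictFDerivAt_norm_sq y).hasFDerivAt).mul_const (2 * a)⁻¹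
    simp only [div_eq_mul_inv _ (2 * a)]
    refine h1.congr_fderiv ?_
    ext v
    simp only [smul_apply, InnerProductSpace.toDual_apply_apply, innerSL_apply_apply,
      real_inner_smul_left, smul_eq_mul, nsmul_eq_mul, Nat.cast_ofNat]
    field_simp
  · rw [integral_div, div_self ha.ne']

theorem SB.tst_m {m ψ : E d → ℝ} (h : SB m ψ) : Tst m := by
  exact ⟨h.sm, soba_supp h.mz⟩

theorem SB.tst_p {m ψ : E d → ℝ} (h : SB m ψ) : Tst ψ := by
  exact ⟨h.sp, soba_supp h.pz⟩

theorem Tst.kt {m : E d → ℝ} (h : Tst m) {t : ℝ} (ht : 0 < t) (x : E d) : Tst (kt m t x) := by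
  refine ⟨contDiff_const.mul (h.1.comp ((contDiff_id.sub contDiff_const).const_smul t⁻¹)), ?_⟩
  have h1 : HasCompactSupport fun y => m (t⁻¹ • (y - x)) :=
    h.2.comp_homeomorph ((Homeomorph.subRight x).trans (Homeomorph.smulOfNeZero t⁻¹ (inv_pos.2 ht).ne'))
  exact h1.mul_left

/-- `integral_sub_right_eq_self`, `Measure.integral_comp_inv_smul_of_nonneg` -/
theorem kt_int (m : E d → ℝ) {t : ℝ} (ht : 0 < t) (x : E d) : ∫ y, kt m t x y = ∫ y, m y := by
  unfold kt
  rw [integral_const_mul, integral_sub_right_eq_self (fun y => m (t⁻¹ • y)) x,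
    Measure.integral_comp_inv_smul_of_nonneg _ _ ht.le, finrank_euclideanSpace_fin, smul_eq_mul,
    inv_mul_cancel_left₀ (pow_pos ht d).ne']

theorem SB.kt_nonneg {m ψ : E d → ℝ} (h : SB m ψ) {t : ℝ} (ht : 0 < t) (x y : E d) : 0 ≤ kt m t x y := by
  exact mul_nonneg (by positivity) (h.m0 _)

theorem kt_zero {m : E d → ℝ} (h : ∀ y, 1 ≤ ‖y‖ → m y = 0) {t : ℝ} (ht : 0 < t) {x y : E d} (hy : t ≤ ‖y - x‖) :
    kt m t x y = 0 := by
  unfold kt
  rw [h, mul_zero]
  rw [norm_smul, norm_inv, Real.norm_of_nonneg ht.le, ← div_eq_inv_mul]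
  exact (one_le_div ht).2 hy

/-- a locally integrable function times a test function is integrable (`LocallyIntegrable.integrable_smul_left_of_hasCompactSupport`) -/
theorem Tst.int_smul {F : Type} [NormedAddCommGroup F] [NormedSpace ℝ F] {φ : E d → ℝ} (h : Tst φ) {f : E d → F}
    (hf : LocallyIntegrable f) : Integrable fun y => φ y • f y := by
  exact hf.integrable_smul_left_of_hasCompactSupport h.1.continuous h.2

theorem av_congr {F : Type} [NormedAddCommGroup F] [NormedSpace ℝ F] (m : E d → ℝ) {f g : E d → F}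
    (h : f =ᵐ[volume] g) (t : ℝ) (x : E d) : av m f t x = av m g t x := by
  refine integral_congr_ae ?_
  filter_upwards [h] with y hy
  rw [hy]

theorem SB.av_norm_le {F : Type} [NormedAddCommGroup F] [NormedSpace ℝ F] {m ψ : E d → ℝ} (h : SB m ψ) {f : E d → F}
    {K : ℝ} (hf : ∀ y, ‖f y‖ ≤ K) {t : ℝ} (ht : 0 < t) (x : E d) : ‖av m f t x‖ ≤ K := by
  have hi : Integrable (kt m t x) :=
    (h.tst_m.kt ht x).1.continuous.integrable_of_hasCompactSupport (h.tst_m.kt ht x).2
  refine (norm_integral_le_of_norm_le (hi.mul_const K) (Eventually.of_forall fun y => ?_)).trans_eq ?_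
  · rw [norm_smul, Real.norm_of_nonneg (h.kt_nonneg ht x y)]
    exact mul_le_mul_of_nonneg_left (hf y) (h.kt_nonneg ht x y)
  · rw [integral_mul_const, kt_int m ht, h.one, one_mul]

theorem SB.av_zero {F : Type} [NormedAddCommGroup F] [NormedSpace ℝ F] {m ψ : E d → ℝ} (h : SB m ψ) {f : E d → F}
    {c : E d} {r : ℝ} (hf : ∀ y, y ∉ ball c r → f y = 0) {t : ℝ} (ht : 0 < t) {x : E d} (hx : x ∉ ball c (r + t)) :
    av m f t x = 0 := by
  have h1 : ∀ y, kt m t x y • f y = 0 := fun y => by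
    by_cases hy : y ∈ ball c r
    · rw [kt_zero h.mz ht, zero_smul]
      rw [mem_ball] at hy hx
      rw [← dist_eq_norm]
      linarith [dist_triangle x y c, dist_comm x y]
    · rw [hf y hy, smul_zero]
  simp only [av, h1, integral_zero]

/-- `m ≥ c > 0` on the compact `closedBall 0 (1/2)` -/
theorem SB.av_lower {m ψ : E d → ℝ} (h : SB m ψ) : ∃ c : ℝ, 0 < c ∧ ∀ u : E d → ℝ, LocallyIntegrable u →
    (∀ y, 0 ≤ u y) → ∀ t : ℝ, 0 < t → ∀ x : E d, c * ∫ y in ball x (t / 2), u y ≤ t ^ d * av m u t x := by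
  obtain ⟨z, hz, hmin⟩ := (isCompact_closedBall (0 : E d) (1 / 2)).exists_isMinOn
    ⟨0, mem_closedBall_self (by norm_num)⟩ h.sm.continuous.continuousOn
  refine ⟨m z, h.mp z (lt_of_le_of_lt (mem_closedBall_zero_iff.1 hz) (by norm_num)), fun u hu u0 t ht x => ?_⟩
  have hi := (h.tst_m.kt ht x).int_smul hu
  have h1 : ∫ y in ball x (t / 2), kt m t x y • u y ≤ av m u t x :=
    setIntegral_le_integral hi (Eventually.of_forall fun y => mul_nonneg (h.kt_nonneg ht x y) (u0 y))
  have h2 : IntegrableOn u (ball x (t / 2)) :=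
    (hu.integrableOn_isCompact (isCompact_closedBall x (t / 2))).mono_set ball_subset_closedBall
  have h3 : ∫ y in ball x (t / 2), (t ^ d)⁻¹ * m z * u y ≤ ∫ y in ball x (t / 2), kt m t x y • u y := by
    refine setIntegral_mono_on (h2.const_mul _) hi.integrableOn measurableSet_ball fun y hy => ?_
    refine mul_le_mul_of_nonneg_right (mul_le_mul_of_nonneg_left (hmin ?_) (by positivity)) (u0 y)
    rw [mem_closedBall_zero_iff, norm_smul, norm_inv, Real.norm_of_nonneg ht.le, inv_mul_le_iff₀ ht]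
    rw [mem_ball, dist_eq_norm] at hy
    linarith
  rw [integral_const_mul, mul_assoc, inv_mul_le_iff₀ (pow_pos ht d)] at h3
  exact h3.trans (mul_le_mul_of_nonneg_left h1 (pow_pos ht d).le)

/-- Lebesgue points: `IsUnifLocDoublingMeasure.ae_tendsto_average_norm_sub` (or `Besicovitch.vitaliFamily`, see the proof of
`ContDiffBump.ae_convolution_tendsto_right_of_locallyIntegrable`) and `tendsto_integral_smul_of_tendsto_average_norm_sub` with
`a t = closedBall x t`, `K = sup m * volume.real (closedBall 0 1)` (`Measure.addHaar_real_closedBall`). -/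
theorem SB.av_ae {F : Type} [NormedAddCommGroup F] [NormedSpace ℝ F] [CompleteSpace F] {m ψ : E d → ℝ} (h : SB m ψ)
    {f : E d → F} (hf : LocallyIntegrable f) :
    ∀ᵐ x, Tendsto (fun t => av m f t x) (𝓝[>] 0) (𝓝 (f x)) := by
  obtain ⟨M, hM⟩ := h.sm.continuous.bounded_above_of_compact_support h.tst_m.2
  filter_upwards [(Besicovitch.vitaliFamily (volume : Measure (E d))).ae_tendsto_average_norm_sub hf] with x hx
  have h1 := hx.comp (Besicovitch.tendsto_filterAt volume x)
  refine tendsto_integral_smul_of_tendsto_average_norm_sub (M * volume.real (closedBall (0 : E d) 1)) h1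
    (Eventually.of_forall fun t => hf.integrableOn_isCompact (isCompact_closedBall _ _)) ?_ ?_ ?_
  · refine tendsto_const_nhds.congr' ?_
    filter_upwards [self_mem_nhdsWithin] with t ht
    rw [kt_int m ht, h.one]
  · filter_upwards [self_mem_nhdsWithin] with t ht y hy
    by_contra hc
    rw [mem_closedBall, dist_eq_norm, not_le] at hc
    exact hy (kt_zero h.mz ht hc.le)
  · filter_upwards [self_mem_nhdsWithin] with t ht y
    have ht' : 0 < t := ht
    have hv : 0 < volume.real (closedBall (0 : E d) 1) :=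
      ENNReal.toReal_pos (measure_closedBall_pos _ _ one_pos).ne' measure_closedBall_lt_top.ne
    rw [Measure.addHaar_real_closedBall' volume x ht'.le, finrank_euclideanSpace_fin,
      mul_div_mul_right _ _ hv.ne', abs_of_nonneg (h.kt_nonneg ht' x y), div_eq_inv_mul]
    exact mul_le_mul_of_nonneg_left ((le_abs_self _).trans (hM _)) (by positivity)

end Crest.Agent.R97
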