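/- R97/Sob_W: calculus of weak gradients (sub-lead helper6). -/
import Crest.Agent.R97.Sob_A

set_option autoImplicit false
open MeasureTheory Metric Set Filter Topology
open scoped RealInnerProductSpace NNReal ENNReal
open Crest.AnalysisR.PDE.OnePhase

namespace Crest.Agent.R97

variable {d : ℕ}

theorem sobW_pd {φ : E d → ℝ} (h : Tst φ) (i : Fin d) : Tst (pd i φ) :=
  ⟨(h.1.fderiv_right (m := (⊤ : ℕ∞)) (by simp)).clm_apply contDiff_const,
    h.2.fderiv_apply ℝ (EuclideanSpace.single i 1)⟩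

theorem sobW_int {φ f : E d → ℝ} (h : Tst φ) (hf : LocallyIntegrable f) : Integrable fun x => f x * φ x := by
  simpa only [smul_eq_mul, mul_comm] using h.int_smul hf

theorem sobW_inner (a : E d) (φ : E d → ℝ) (x : E d) : ⟪a, gradient φ x⟫ = ∑ i, a i * pd i φ x := by
  simp only [PiLp.inner_apply, gradient_apply, RCLike.inner_apply, conj_trivial, mul_comm]

theorem sob_wg {u : E d → ℝ} {G : E d → E d} (hmin : IsGlobalMinimizer u G) : WG u G := by
  obtain ⟨h1, h2, h3⟩ := hmin.2.1
  refine ⟨locallyIntegrableOn_univ.1 h1, locallyIntegrableOn_univ.1 h2, fun φ hφ i => ?_⟩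
  have := h3 φ hφ.1 hφ.2 (subset_univ _) i
  rwa [Measure.restrict_univ] at this

theorem WG.congr {u v : E d → ℝ} {G : E d → E d} (h : WG u G) (huv : u =ᵐ[volume] v) : WG v G := by
  refine ⟨fun x => ?_, h.iG, fun φ hφ i => ?_⟩
  · obtain ⟨s, hs, hi⟩ := h.iu x
    exact ⟨s, hs, hi.congr_fun_ae (ae_restrict_of_ae huv)⟩
  · rw [← h.eq φ hφ i]
    refine integral_congr_ae ?_
    filter_upwards [huv] with x hx
    rw [hx]

theorem WG.comp_int {u : E d → ℝ} {G : E d → E d} (h : WG u G) (i : Fin d) : LocallyIntegrable fun x => G x i := by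
  intro x
  obtain ⟨s, hs, hi⟩ := h.iG x
  exact ⟨s, hs, (EuclideanSpace.proj (𝕜 := ℝ) i).integrable_comp hi⟩

/-- `ae_eq_of_integral_contDiff_smul_eq` for every component -/
theorem WG.unique {u : E d → ℝ} {G G' : E d → E d} (h : WG u G) (h' : WG u G') : G =ᵐ[volume] G' := by
  have h1 : ∀ i, ∀ᵐ x, G x i = G' x i := fun i =>
    ae_eq_of_integral_contDiff_smul_eq (h.comp_int i) (h'.comp_int i) fun φ h1 h2 => by
      have e := (h.eq φ ⟨h1, h2⟩ i).symm.trans (h'.eq φ ⟨h1, h2⟩ i)
      simpa only [smul_eq_mul, mul_comm, neg_inj] using e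
  filter_upwards [ae_all_iff.2 h1] with x hx
  exact PiLp.ext hx

theorem WG.add {u v : E d → ℝ} {G G' : E d → E d} (h : WG u G) (h' : WG v G') :
    WG (fun x => u x + v x) (fun x => G x + G' x) := by
  refine ⟨h.iu.add h'.iu, h.iG.add h'.iG, fun φ hφ i => ?_⟩
  simp only [PiLp.add_apply, add_mul]
  rw [integral_add (sobW_int (sobW_pd hφ i) h.iu) (sobW_int (sobW_pd hφ i) h'.iu),
    integral_add (sobW_int hφ (h.comp_int i)) (sobW_int hφ (h'.comp_int i)), h.eq φ hφ i, h'.eq φ hφ i, neg_add]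

/-- integrals over the ball are integrals over the whole space (`setIntegral_eq_integral_of_forall_compl_eq_zero`) -/
theorem WG.on_ball {u : E d → ℝ} {G : E d → E d} (h : WG u G) (c : E d) (r : ℝ) : IsWeakGradOn (ball c r) u G := by
  refine ⟨h.iu.locallyIntegrableOn _, h.iG.locallyIntegrableOn _, fun φ h1 h2 h3 i => ?_⟩
  rw [setIntegral_eq_integral_of_forall_compl_eq_zero, setIntegral_eq_integral_of_forall_compl_eq_zero]
  · exact h.eq φ ⟨h1, h2⟩ i
  · intro x hx
    rw [image_eq_zero_of_notMem_tsupport fun h4 => hx (h3 h4), mul_zero]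
  · intro x hx
    have h5 : fderiv ℝ φ x = 0 := image_eq_zero_of_notMem_tsupport fun h4 => hx (h3 (tsupport_fderiv_subset ℝ h4))
    rw [partialD, h5, _root_.zero_apply, mul_zero]

/-- `LipschitzWith.integral_lineDeriv_mul_eq` (a test function is Lipschitz: `ContDiff.lipschitzWith_of_hasCompactSupport`), Rademacher
`LipschitzWith.ae_differentiableAt`, `DifferentiableAt.lineDeriv_eq_fderiv`, `gradient_apply`, `norm_gradient_le`, `measurable_gradient` -/
theorem lip_wg {K : ℝ≥0} {f : E d → ℝ} (hf : LipschitzWith K f) : WG f (gradient f) := by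
  refine ⟨hf.continuous.locallyIntegrable, (locallyIntegrable_const (K : ℝ)).mono
    (measurable_gradient f).aestronglyMeasurable (Eventually.of_forall fun x => ?_), fun φ hφ i => ?_⟩
  · exact (norm_gradient_le hf x).trans (le_abs_self _)
  · obtain ⟨D, hD⟩ := hφ.1.lipschitzWith_of_hasCompactSupport hφ.2 (by simp)
    have h1 := hf.integral_lineDeriv_mul_eq (μ := volume) hD hφ.2 (EuclideanSpace.single i 1)
    have h2 : ∫ x, lineDeriv ℝ f x (EuclideanSpace.single i 1) * φ x = ∫ x, gradient f x i * φ x := by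
      refine integral_congr_ae ?_
      filter_upwards [hf.ae_differentiableAt (μ := volume)] with x hx
      rw [hx.lineDeriv_eq_fderiv, gradient_apply, pd]
    rw [← h2, h1, ← integral_neg]
    refine integral_congr_ae (Eventually.of_forall fun x => ?_)
    dsimp only
    rw [(hφ.1.differentiable (by simp) x).lineDeriv_eq_fderiv, map_neg, pd]
    ring

theorem Tst.wg {φ : E d → ℝ} (h : Tst φ) : WG φ (gradient φ) := by
  obtain ⟨D, hD⟩ := h.1.lipschitzWith_of_hasCompactSupport h.2 (by simp)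
  exact lip_wg hD

theorem Tst.pd {φ : E d → ℝ} (h : Tst φ) (i : Fin d) : Tst (pd i φ) :=
  sobW_pd h i

theorem Tst.grad_cont {φ : E d → ℝ} (h : Tst φ) : Continuous (gradient φ) ∧ HasCompactSupport (gradient φ) := by
  refine ⟨(InnerProductSpace.toDual ℝ (E d)).symm.continuous.comp (h.1.continuous_fderiv (by simp)), ?_⟩
  exact (h.2.fderiv ℝ).comp_left (g := (InnerProductSpace.toDual ℝ (E d)).symm) (map_zero _)

theorem Tst.smul {φ : E d → ℝ} (h : Tst φ) (s : ℝ) :
    Tst (fun x => s * φ x) ∧ ∀ x, gradient (fun x => s * φ x) x = s • gradient φ x := by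
  refine ⟨⟨contDiff_const.mul h.1, h.2.mul_left⟩, fun x => PiLp.ext fun i => ?_⟩
  rw [PiLp.smul_apply, gradient_apply, gradient_apply, R97.pd, R97.pd,
    fderiv_const_mul (h.1.differentiable (by simp) x)]
  rfl

theorem WG.int_inner {u : E d → ℝ} {G : E d → E d} (h : WG u G) {φ : E d → ℝ} (hφ : Tst φ) :
    Integrable fun x => ⟪G x, gradient φ x⟫ := by
  simp only [sobW_inner]
  exact integrable_finsetSum _ fun i _ => sobW_int (hφ.pd i) (h.comp_int i)

/-- sum of `h.eq (pd i φ) i` -/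
theorem WG.int_lap {u : E d → ℝ} {G : E d → E d} (h : WG u G) {φ : E d → ℝ} (hφ : Tst φ) :
    ∫ x, u x * lap φ x = - ∫ x, ⟪G x, gradient φ x⟫ := by
  simp only [sobW_inner, lap, Finset.mul_sum]
  rw [integral_finsetSum _ fun i _ => sobW_int ((hφ.pd i).pd i) h.iu,
    integral_finsetSum _ fun i _ => sobW_int (hφ.pd i) (h.comp_int i), ← Finset.sum_neg_distrib]
  exact Finset.sum_congr rfl fun i _ => h.eq _ (hφ.pd i) i

theorem zeroTrace_congr {B : Set (E d)} {w w' : E d → ℝ} {g g' : E d → E d} (h : HasZeroTrace B w g)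
    (hw : w =ᵐ[volume] w') (hg : g =ᵐ[volume] g') : HasZeroTrace B w' g' := by
  intro ε hε
  obtain ⟨φ, h1, h2, h3, h4, h5⟩ := h ε hε
  refine ⟨φ, h1, h2, h3, lt_of_eq_of_lt (lintegral_congr_ae ?_) h4, lt_of_eq_of_lt (lintegral_congr_ae ?_) h5⟩
  · filter_upwards [ae_restrict_of_ae hw] with x hx
    rw [hx]
  · filter_upwards [ae_restrict_of_ae hg] with x hx
    rw [hx]

end Crest.Agent.R97
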