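/- R97/Sob_B: mollifications are smooth; zero trace of compactly supported Lipschitz functions (sub-lead helper6). -/
import Crest.Agent.R97.Sob_W

set_option autoImplicit false
open MeasureTheory Metric Set Filter Topology
open scoped RealInnerProductSpace NNReal ENNReal
open Crest.AnalysisR.PDE.OnePhase

namespace Crest.Agent.R97

variable {d : ℕ}

theorem sobb_tst {m : E d → ℝ} (hm : Tst m) {t : ℝ} (ht : 0 < t) : Tst fun z => kt m t 0 (-z) :=
  ⟨(hm.kt ht 0).1.comp contDiff_neg, (hm.kt ht 0).2.comp_homeomorph (Homeomorph.neg (E d))⟩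

theorem sobb_kt (m : E d → ℝ) (t : ℝ) (x y : E d) : kt m t x y = kt m t 0 (-(x - y)) := by
  simp [kt]

theorem sobb_conv (m f : E d → ℝ) (t : ℝ) :
    av m f t = convolution f (fun z => kt m t 0 (-z)) (ContinuousLinearMap.mul ℝ ℝ) volume := by
  funext x
  rw [convolution_mul]
  unfold av
  refine integral_congr_ae (.of_forall fun y => ?_)
  beta_reduce
  rw [sobb_kt, smul_eq_mul, mul_comm]

/-- `av m f t = k ⋆[lsmul ℝ ℝ] f` or `f ⋆ k` with `k z = kt m t z 0 = (t^d)⁻¹ m (t⁻¹ • (-z))`; `HasCompactSupport.contDiff_convolution_right` -/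
theorem av_smooth {m : E d → ℝ} (hm : Tst m) {f : E d → ℝ} (hf : LocallyIntegrable f) {t : ℝ} (ht : 0 < t) :
    ContDiff ℝ (⊤ : ℕ∞) (av m f t) := by
  rw [sobb_conv]
  exact (sobb_tst hm ht).2.contDiff_convolution_right _ hf (sobb_tst hm ht).1

/-- `HasCompactSupport.hasFDerivAt_convolution_right`, `∂_{x_i} kt m t x y = - pd i (kt m t x) y`, then `h.eq (kt m t x)` -/
theorem WG.av_pd {m : E d → ℝ} (hm : Tst m) {u : E d → ℝ} {G : E d → E d} (h : WG u G) {t : ℝ} (ht : 0 < t)
    (i : Fin d) (x : E d) : pd i (av m u t) x = av m (fun y => G y i) t x := by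
  have hk := sobb_tst hm ht
  have h1 : ContDiff ℝ 1 fun z => kt m t 0 (-z) := hk.1.of_le (by simp)
  have h2 : ∀ y, pd i (kt m t x) y = -fderiv ℝ (fun z => kt m t 0 (-z)) (x - y) (EuclideanSpace.single i 1) := by
    intro y
    have h3 : HasFDerivAt (fun y => kt m t 0 (-(x - y))) _ y :=
      (h1.differentiable one_ne_zero (x - y)).hasFDerivAt.comp y ((hasFDerivAt_id y).const_sub x)
    unfold pd
    rw [show kt m t x = fun y => kt m t 0 (-(x - y)) from funext (sobb_kt m t x), h3.fderiv]
    simp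
  have h4 := h.eq _ (hm.kt ht x) i
  simp only [h2, mul_neg, integral_neg, neg_inj] at h4
  unfold pd
  rw [sobb_conv, (hk.2.hasFDerivAt_convolution_right _ h.iu h1 x).fderiv,
    convolution_precompR_apply _ h.iu (hk.2.fderiv ℝ) (h1.continuous_fderiv one_ne_zero), convolution_mul, h4]
  unfold av
  simp only [smul_eq_mul, mul_comm]

/-- components: `gradient_apply`, `ContinuousLinearMap.integral_comp_comm (EuclideanSpace.proj i)` -/
theorem WG.av_grad {m : E d → ℝ} (hm : Tst m) {u : E d → ℝ} {G : E d → E d} (h : WG u G) {t : ℝ} (ht : 0 < t)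
    (x : E d) : gradient (av m u t) x = av m G t x := by
  ext i
  rw [gradient_apply, h.av_pd hm ht]
  have h1 := (EuclideanSpace.proj i : E d →L[ℝ] ℝ).integral_comp_comm ((hm.kt ht x).int_smul h.iG)
  unfold av
  simpa using h1

/-- bounded a.e. convergence on a set of finite measure gives `L²` convergence (`tendsto_lintegral_filter_of_dominated_convergence`) -/
theorem sob_L2conv {F : Type} [NormedAddCommGroup F] [NormedSpace ℝ F] [CompleteSpace F] {m ψ : E d → ℝ} (h : SB m ψ)
    {f : E d → F} (hf : LocallyIntegrable f) {K : ℝ} (hK : ∀ y, ‖f y‖ ≤ K)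
    (hm : ∀ t : ℝ, 0 < t → Continuous (av m f t)) (c : E d) (r : ℝ) :
    Tendsto (fun t => ∫⁻ x in ball c r, ‖f x - av m f t x‖ₑ ^ 2) (𝓝[>] 0) (𝓝 0) := by
  have h0 : (0 : ℝ≥0∞) = ∫⁻ _x in ball c r, 0 := by simp
  rw [h0]
  refine tendsto_lintegral_filter_of_dominated_convergence' (fun _ => ENNReal.ofReal (K + K) ^ 2) ?_ ?_ ?_ ?_
  · filter_upwards [self_mem_nhdsWithin] with t ht
    exact ((hf.aestronglyMeasurable.sub (hm t ht).aestronglyMeasurable).restrict.enorm).pow_const 2
  · filter_upwards [self_mem_nhdsWithin] with t ht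
    refine .of_forall fun x => pow_le_pow_left' ?_ 2
    rw [← ofReal_norm]
    exact ENNReal.ofReal_le_ofReal ((norm_sub_le _ _).trans (add_le_add (hK x) (h.av_norm_le hK ht x)))
  · rw [setLIntegral_const]
    exact ENNReal.mul_ne_top (ENNReal.pow_ne_top ENNReal.ofReal_ne_top) measure_ball_lt_top.ne
  · filter_upwards [ae_restrict_of_ae (h.av_ae hf)] with x hx
    have h1 : Continuous fun y : F => ‖f x - y‖ₑ ^ 2 :=
      (ENNReal.continuous_pow 2).comp (continuous_const.sub continuous_id).enorm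
    simpa [Function.comp_def] using (h1.tendsto (f x)).comp hx

/-- `φ = av m h t` for small `t < 1/2`: smooth, vanishes off `ball c (r + t)` (`SB.av_zero`), `gradient φ = av m (gradient h) t` (`lip_wg`, `WG.av_grad`;
it is continuous because `φ` is smooth); `h` is bounded (continuous with compact support); `sob_L2conv` twice. -/
theorem lip_trace {K : ℝ≥0} {h : E d → ℝ} (hh : LipschitzWith K h) {c : E d} {r : ℝ}
    (h0 : ∀ x, x ∉ ball c r → h x = 0) : HasZeroTrace (ball c (r + 1)) h (gradient h) := by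
  intro ε hε
  obtain ⟨m, ψ, hm⟩ := sob_bump d
  have hw := lip_wg hh
  have hcs : HasCompactSupport h :=
    HasCompactSupport.intro (isCompact_closedBall c r) fun x hx => h0 x fun hx' => hx (ball_subset_closedBall hx')
  obtain ⟨B, hB⟩ := hcs.exists_bound_of_continuous hh.continuous
  have hs : ∀ t : ℝ, 0 < t → ContDiff ℝ (⊤ : ℕ∞) (av m h t) := fun t ht => av_smooth hm.tst_m hw.iu ht
  have hg : ∀ t : ℝ, 0 < t → av m (gradient h) t = gradient (av m h t) := fun t ht =>
    funext fun x => (hw.av_grad hm.tst_m ht x).symm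
  have h1 := sob_L2conv hm hw.iu hB (fun t ht => (hs t ht).continuous) c (r + 1)
  have h2 := sob_L2conv hm hw.iG (norm_gradient_le hh) (fun t ht => by
    rw [hg t ht]
    exact (InnerProductSpace.toDual ℝ (E d)).symm.continuous.comp ((hs t ht).continuous_fderiv (by simp))) c (r + 1)
  have h3 : ∀ᶠ t in 𝓝[>] (0 : ℝ), t < 1 := mem_nhdsWithin_of_mem_nhds (Iio_mem_nhds one_pos)
  obtain ⟨t, ⟨⟨e1, e2⟩, e3⟩, ht⟩ := ((((h1.eventually (gt_mem_nhds hε)).and (h2.eventually (gt_mem_nhds hε))).and
    h3).and self_mem_nhdsWithin).exists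
  have ht' : 0 < t := ht
  have h4 : tsupport (av m h t) ⊆ closedBall c (r + t) := closure_minimal (fun x hx => by
    by_contra hx'
    exact hx (hm.av_zero h0 ht' fun h5 => hx' (ball_subset_closedBall h5))) isClosed_closedBall
  refine ⟨av m h t, hs t ht', (isCompact_closedBall c (r + t)).of_isClosed_subset (isClosed_tsupport _) h4,
    h4.trans (closedBall_subset_ball (by linarith)), e1, ?_⟩
  rwa [← hg t ht']

end Crest.Agent.R97
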