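/- R97/Sob_N: a Lipschitz representative is a minimiser among Lipschitz competitors (sub-lead helper6). -/
import Crest.Agent.R97.Sob_B

set_option autoImplicit false
open MeasureTheory Metric Set Filter Topology
open scoped RealInnerProductSpace NNReal ENNReal
open Crest.AnalysisR.PDE.OnePhase

namespace Crest.Agent.R97

variable {d : ℕ}

theorem sobN_fin {F : Type} [NormedAddCommGroup F] {g : E d → F} {c : E d} {r C : ℝ}
    (h : ∀ x ∈ ball c r, ‖g x‖ ≤ C) : (∫⁻ x in ball c r, ‖g x‖ₑ ^ 2) < ⊤ := by
  refine setLIntegral_lt_top_of_le_nnreal measure_ball_lt_top.ne ⟨C.toNNReal ^ 2, fun x hx => ?_⟩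
  rw [ENNReal.coe_pow, ← ofReal_norm]
  exact pow_le_pow_left' (ENNReal.ofReal_le_ofReal (h x hx)) 2

/-- `jd f = ‖∇f‖² + 1_{f>0}`; `ofReal_integral_eq_lintegral_ofReal`, `integrableOn_jd`, `lintegral_add_left`, `lintegral_indicator_one` -/
theorem energy_eq {K : ℝ≥0} {f : E d → ℝ} (hf : LipschitzWith K f) (c : E d) (r : ℝ) :
    onePhaseEnergy (ball c r) f (gradient f) = ENNReal.ofReal (J f (ball c r)) := by
  have hs : MeasurableSet {x | 0 < f x} := (isOpen_lt continuous_const hf.continuous).measurableSet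
  have h0 : ∀ x, 0 ≤ jd f x := fun x => by
    unfold jd
    split_ifs <;> positivity
  have e : ∀ x, ENNReal.ofReal (jd f x) = ‖gradient f x‖ₑ ^ 2 + indicator {x | 0 < f x} 1 x := fun x => by
    unfold jd
    rw [ENNReal.ofReal_add (sq_nonneg _) (by split_ifs <;> norm_num), ENNReal.ofReal_pow (norm_nonneg _),
      ofReal_norm]
    by_cases h : 0 < f x <;> simp [h]
  rw [J, ofReal_integral_eq_lintegral_ofReal (integrableOn_jd hf isBounded_ball) (Eventually.of_forall h0)]
  simp only [e]
  rw [lintegral_add_right _ (measurable_one.indicator hs), lintegral_indicator_one hs, Measure.restrict_apply hs,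
    onePhaseEnergy]

theorem energy_congr {B : Set (E d)} {w w' : E d → ℝ} {g g' : E d → E d} (hw : w =ᵐ[volume] w')
    (hg : g =ᵐ[volume] g') : onePhaseEnergy B w g = onePhaseEnergy B w' g' := by
  unfold onePhaseEnergy
  congr 1
  · refine lintegral_congr_ae (ae_restrict_of_ae ?_)
    filter_upwards [hg] with x hx
    rw [hx]
  · refine measure_congr ?_
    filter_upwards [hw] with x hx
    change (0 < w x ∧ x ∈ B) = (0 < w' x ∧ x ∈ B)
    rw [hx]

/-- `G =ᵐ gradient v` (`sob_wg`, `WG.congr`, `lip_wg`, `WG.unique`).  For a competitor `w` on `ball c r` use `hmin` on `B' = ball c (r+1)` with `(w, gradient w)`: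
`lip_wg`, `WG.on_ball`, boundedness on balls, `lip_trace` for `h = w - v` (`gradient h =ᵐ gradient w - gradient v` by Rademacher), `zeroTrace_congr`;
`energy_congr`, `energy_eq` give `J v B' ≤ J w B'`; split `B' = ball c r ∪ (B' \ ball c r)` (`integral_inter_add_diff` / `setIntegral_diff`), where
`jd w =ᵐ jd v` on the second piece (`gradient_ae_eq`). -/
theorem sob_mn {u : E d → ℝ} {G : E d → E d} (hmin : IsGlobalMinimizer u G) {L : ℝ≥0} {v : E d → ℝ}
    (hv : LipschitzWith L v) (h0 : ∀ x, 0 ≤ v x) (hae : u =ᵐ[volume] v) : Mn L v := by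
  have hG : G =ᵐ[volume] gradient v := ((sob_wg hmin).congr hae).unique (lip_wg hv)
  refine ⟨hv, h0, fun c r hr w K hw w0 he => ?_⟩
  have t1 := lip_trace (hw.sub hv) (c := c) (r := r) fun x hx => sub_eq_zero.2 (he x hx)
  have t2 : HasZeroTrace (ball c (r + 1)) (fun x => w x - u x) fun x => gradient w x - G x := by
    refine zeroTrace_congr t1 ?_ ?_
    · filter_upwards [hae] with x hx
      rw [hx]
    · filter_upwards [hG, hw.ae_differentiableAt, hv.ae_differentiableAt] with x hx h1 h2
      rw [hx]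
      unfold gradient
      rw [fderiv_fun_sub h1 h2, map_sub]
  have b1 : ∀ x ∈ ball c (r + 1), ‖w x‖ ≤ ‖w c‖ + K * (r + 1) := fun x hx => by
    have h1 := hw.dist_le_mul x c
    have h2 := mul_le_mul_of_nonneg_left (mem_ball.1 hx).le K.coe_nonneg
    have h3 := norm_le_norm_add_norm_sub' (w x) (w c)
    rw [dist_eq_norm] at h1
    linarith
  have h1 := hmin.2.2.2 c (r + 1) (by linarith) w (gradient w) w0 ((lip_wg hw).on_ball c _) (sobN_fin b1)
    (sobN_fin fun x _ => norm_gradient_le hw x) t2
  have j0 : ∀ x, 0 ≤ jd w x := fun x => by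
    unfold jd
    split_ifs <;> positivity
  rw [energy_congr hae hG, energy_eq hv, energy_eq hw,
    ENNReal.ofReal_le_ofReal_iff (show 0 ≤ J w _ from integral_nonneg j0)] at h1
  have sub : ball c r ⊆ ball c (r + 1) := ball_subset_ball (by linarith)
  have e1 := setIntegral_sdiff measurableSet_ball (integrableOn_jd hv isBounded_ball) sub
  have e2 := setIntegral_sdiff measurableSet_ball (integrableOn_jd hw isBounded_ball) sub
  have e3 : ∫ x in ball c (r + 1) \ ball c r, jd w x = ∫ x in ball c (r + 1) \ ball c r, jd v x := by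
    refine setIntegral_congr_ae (measurableSet_ball.diff measurableSet_ball) ?_
    filter_upwards [gradient_ae_eq hw hv] with x hx hm
    unfold jd
    rw [hx (he x hm.2), he x hm.2]
  unfold J at h1 ⊢
  linarith

end Crest.Agent.R97
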