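/- R97/Sob_C: derivative in the scale, Euler identity, local square integrability (sub-lead helper6). -/
import Crest.Agent.R97.Sob_W

set_option autoImplicit false
open MeasureTheory Metric Set Filter Topology
open scoped RealInnerProductSpace NNReal ENNReal
open Crest.AnalysisR.PDE.OnePhase

namespace Crest.Agent.R97

variable {d : ℕ}

/-- `d φ + ∇φ · z` -/
noncomputable def sobc_P (φ : E d → ℝ) (z : E d) : ℝ := d * φ z + fderiv ℝ φ z z

theorem sobc_tst {φ : E d → ℝ} (hφ : Tst φ) : Tst (sobc_P φ) := by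
  refine ⟨?_, ?_⟩
  · unfold sobc_P
    exact (contDiff_const.mul hφ.1).add ((hφ.1.fderiv_right (by simp)).clm_apply contDiff_id)
  · refine HasCompactSupport.add hφ.2.mul_left ?_
    refine (hφ.2.fderiv (𝕜 := ℝ)).mono fun z hz => ?_
    intro h0
    exact hz (by simp [h0])

theorem sobc_hasDeriv {φ : E d → ℝ} (hφ : Tst φ) (x y : E d) {s : ℝ} (hs : 0 < s) :
    HasDerivAt (fun s => kt φ s x y) (-(s⁻¹ * kt (sobc_P φ) s x y)) s := by
  have h1 : HasDerivAt (fun s : ℝ => (s ^ d)⁻¹) (-((d : ℝ) * s ^ (d - 1)) / (s ^ d) ^ 2) s :=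
    (hasDerivAt_pow d s).inv (by positivity)
  have h2 : HasDerivAt (fun s : ℝ => s⁻¹ • (y - x)) ((-(s ^ 2)⁻¹) • (y - x)) s :=
    (hasDerivAt_inv hs.ne').smul_const (y - x)
  have h3 := ((hφ.1.differentiable (by simp)) (s⁻¹ • (y - x))).hasFDerivAt.comp_hasDerivAt s h2
  have h4 := h1.mul h3
  refine h4.congr_deriv ?_
  have e : (d : ℝ) * s ^ (d - 1) = d * s ^ d * s⁻¹ := by
    rcases Nat.eq_zero_or_pos d with h | h
    · simp [h]
    · obtain ⟨k, rfl⟩ : ∃ k, d = k + 1 := ⟨d - 1, by omega⟩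
      simp only [Nat.add_sub_cancel, pow_succ]
      field_simp
  unfold kt sobc_P
  simp only [Function.comp_apply, map_smul, smul_eq_mul]
  rw [e]
  field_simp
  ring

theorem sobc_sum (L : E d →L[ℝ] ℝ) (w : E d) : ∑ i, w i * L (EuclideanSpace.single i 1) = L w := by
  have : w = ∑ i, w i • (EuclideanSpace.single i (1 : ℝ) : E d) := by
    ext j
    simp [Finset.sum_apply, Pi.single_apply]
  conv_rhs => rw [this]
  simp

theorem sobc_coord (x : E d) (i : Fin d) : ContDiff ℝ (⊤ : ℕ∞) fun y : E d => y i - x i :=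
  (EuclideanSpace.proj (𝕜 := ℝ) i).contDiff.sub contDiff_const

theorem sobc_div {φ : E d → ℝ} (hφ : Tst φ) (x y : E d) {t : ℝ} :
    ∑ i, pd i (fun y => (y i - x i) * kt φ t x y) y = kt (sobc_P φ) t x y := by
  have h1 : HasFDerivAt (fun y : E d => t⁻¹ • (y - x)) (t⁻¹ • ContinuousLinearMap.id ℝ (E d)) y :=
    ((hasFDerivAt_id y).sub_const x).const_smul t⁻¹
  have h2 := (((hφ.1.differentiable (by simp)) (t⁻¹ • (y - x))).hasFDerivAt.comp y h1).const_mul (t ^ d)⁻¹
  have h3 : ∀ i, pd i (fun y => (y i - x i) * kt φ t x y) y =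
      kt φ t x y + (t ^ d)⁻¹ * ((t⁻¹ • (y - x)) i * fderiv ℝ φ (t⁻¹ • (y - x)) (EuclideanSpace.single i 1)) := by
    intro i
    have h4 : HasFDerivAt (fun y : E d => y i - x i) (EuclideanSpace.proj (𝕜 := ℝ) i) y :=
      (EuclideanSpace.proj (𝕜 := ℝ) i).hasFDerivAt.sub_const (x i)
    have h5 := (h4.mul h2).fderiv
    unfold pd
    have e : (fun y : E d => (y i - x i) * kt φ t x y) =
        (fun y : E d => y i - x i) * fun y => (t ^ d)⁻¹ * (φ ∘ fun y : E d => t⁻¹ • (y - x)) y := rfl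
    rw [e, h5]
    simp [kt]
    ring
  simp only [h3]
  rw [Finset.sum_add_distrib, ← Finset.mul_sum, sobc_sum]
  simp only [kt, sobc_P, Finset.sum_const, Finset.card_univ, Fintype.card_fin, nsmul_eq_mul]
  ring

theorem sobc_ibp {φ : E d → ℝ} (hφ : Tst φ) {u : E d → ℝ} {G : E d → E d} (h : WG u G) {t : ℝ} (ht : 0 < t)
    (x : E d) : ∫ y, kt (sobc_P φ) t x y * u y = -∫ y, kt φ t x y * ⟪G y, y - x⟫ := by
  have hT : ∀ i, Tst fun y : E d => (y i - x i) * kt φ t x y := fun i =>
    ⟨(sobc_coord x i).mul (hφ.kt ht x).1, (hφ.kt ht x).2.mul_left⟩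
  have i1 : ∀ i, Integrable fun y => u y * pd i (fun y : E d => (y i - x i) * kt φ t x y) y := fun i => by
    simpa only [smul_eq_mul, mul_comm] using ((hT i).pd i).int_smul h.iu
  have i2 : ∀ i, Integrable fun y => G y i * ((y i - x i) * kt φ t x y) := fun i => by
    simpa only [smul_eq_mul, mul_comm] using (hT i).int_smul (h.comp_int i)
  have e := Finset.sum_congr rfl fun i (_ : i ∈ Finset.univ) => h.eq _ (hT i) i
  rw [← integral_finsetSum _ fun i _ => i1 i, Finset.sum_neg_distrib, ← integral_finsetSum _ fun i _ => i2 i] at e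
  have e1 : ∀ y, kt (sobc_P φ) t x y * u y = ∑ i, u y * pd i (fun y : E d => (y i - x i) * kt φ t x y) y := by
    intro y
    rw [← Finset.mul_sum, sobc_div hφ, mul_comm]
  have e2 : ∀ y, kt φ t x y * ⟪G y, y - x⟫ = ∑ i, G y i * ((y i - x i) * kt φ t x y) := by
    intro y
    rw [PiLp.inner_apply, Finset.mul_sum]
    refine Finset.sum_congr rfl fun i _ => ?_
    simp
    ring
  simp only [e1, e2]
  exact e

/-- `∂_s kt φ s x y = - s⁻¹ * ∑ i, pd i (fun y => (y i - x i) * kt φ s x y) y` (both sides are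
`-(s^d)⁻¹ s⁻¹ (d φ(z) + fderiv φ z z)`, `z = s⁻¹ • (y - x)`); differentiate under the integral with
`hasDerivAt_integral_of_dominated_loc_of_deriv_le` on `s ∈ (t/2, 2t)` (bound `M * |u y| * 1_{closedBall x (2tR)}`, `supp φ ⊆ ball 0 R`), then `h.eq`
for the test functions `y ↦ (y i - x i) * kt φ t x y`. -/
theorem WG.av_deriv {φ : E d → ℝ} (hφ : Tst φ) {u : E d → ℝ} {G : E d → E d} (h : WG u G) {t : ℝ} (ht : 0 < t)
    (x : E d) : HasDerivAt (fun s => av φ u s x) (t⁻¹ * ∫ y, kt φ t x y * ⟪G y, y - x⟫) t := by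
  have hP := sobc_tst hφ
  obtain ⟨M, hM⟩ := hP.1.continuous.bounded_above_of_compact_support hP.2
  obtain ⟨R, hR0, hR⟩ := hP.2.exists_pos_le_norm
  have hM0 : 0 ≤ M := (norm_nonneg _).trans (hM 0)
  have hs : Ioo (t / 2) (2 * t) ∈ 𝓝 t := Ioo_mem_nhds (by linarith) (by linarith)
  have hb : Integrable fun y => ((t / 2)⁻¹ * (((t / 2) ^ d)⁻¹ * M)) * ‖(closedBall x (2 * t * R)).indicator u y‖ :=
    (((h.iu.integrableOn_isCompact (isCompact_closedBall x (2 * t * R))).integrable_indicator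
      measurableSet_closedBall).norm).const_mul _
  have key := hasDerivAt_integral_of_dominated_loc_of_deriv_le (μ := volume) (F := fun s y => kt φ s x y • u y)
    (F' := fun s y => -(s⁻¹ * (kt (sobc_P φ) s x y * u y))) hs ?_ ((hφ.kt ht x).int_smul h.iu) ?_ ?_ hb ?_
  · refine key.2.congr_deriv ?_
    rw [integral_neg, integral_const_mul, sobc_ibp hφ h ht x]
    ring
  · filter_upwards [lt_mem_nhds ht] with s hs
    exact ((hφ.kt hs x).int_smul h.iu).aestronglyMeasurable
  · exact (((hP.kt ht x).int_smul h.iu).const_mul t⁻¹).neg.aestronglyMeasurable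
  · refine Eventually.of_forall fun y s hs => ?_
    have hs0 : 0 < s := by linarith [hs.1]
    by_cases hy : y ∈ closedBall x (2 * t * R)
    · rw [indicator_of_mem hy, norm_neg, norm_mul, norm_mul, ← mul_assoc]
      refine mul_le_mul_of_nonneg_right ?_ (norm_nonneg _)
      unfold kt
      rw [norm_mul, Real.norm_of_nonneg (by positivity : 0 ≤ s⁻¹), Real.norm_of_nonneg (by positivity : 0 ≤ (s ^ d)⁻¹)]
      have a1 : s⁻¹ ≤ (t / 2)⁻¹ := inv_anti₀ (by positivity) hs.1.le
      have a2 : (s ^ d)⁻¹ ≤ ((t / 2) ^ d)⁻¹ := inv_anti₀ (by positivity) (pow_le_pow_left₀ (by positivity) hs.1.le d)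
      exact mul_le_mul a1 (mul_le_mul a2 (hM _) (norm_nonneg _) (by positivity)) (by positivity) (by positivity)
    · have : sobc_P φ (s⁻¹ • (y - x)) = 0 := by
        apply hR
        rw [mem_closedBall, dist_eq_norm, not_le] at hy
        rw [norm_smul, Real.norm_of_nonneg (by positivity : 0 ≤ s⁻¹), inv_mul_eq_div, le_div_iff₀ hs0]
        nlinarith [hs.2]
      rw [indicator_of_notMem hy]
      simp [kt, this]
  · refine Eventually.of_forall fun y s hs => ?_
    have hs0 : 0 < s := by linarith [hs.1]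
    refine ((sobc_hasDeriv hφ x y hs0).smul_const (u y)).congr_deriv ?_
    simp only [smul_eq_mul]
    ring

/-- `av φ u s 0 = s * av φ u 1 0` by the change of variables `y = s • z` (`Measure.integral_comp_smul`) -/
theorem av_hom (φ : E d → ℝ) {u : E d → ℝ} (hu : Hom u) {s : ℝ} (hs : 0 < s) : av φ u s 0 = s * av φ u 1 0 := by
  have e := Measure.integral_comp_smul_of_nonneg (volume : Measure (E d)) (fun y => kt φ s 0 y • u y) s (hR := hs.le)
  have e1 : ∀ z, kt φ s 0 (s • z) • u (s • z) = (s ^ d)⁻¹ * (s * (kt φ 1 0 z • u z)) := by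
    intro z
    rw [hu s hs]
    simp only [kt, sub_zero, smul_smul, inv_mul_cancel₀ hs.ne', one_smul, one_pow, inv_one, one_mul, smul_eq_mul]
    ring
  simp only [e1, integral_const_mul, finrank_euclideanSpace, Fintype.card_fin] at e
  rw [smul_eq_mul] at e
  exact (mul_left_cancel₀ (by positivity) e).symm

/-- `av_deriv` at `x = 0`, `t = 1` and `av_hom` give `∫ φ • u = ∫ φ • ⟪G y, y⟫`; `ae_eq_of_integral_contDiff_smul_eq` -/
theorem WG.euler {u : E d → ℝ} {G : E d → E d} (h : WG u G) (hu : Hom u) : ∀ᵐ y, u y = ⟪G y, y⟫ := by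
  have hG : LocallyIntegrable fun y => ⟪G y, y⟫ := by
    have : (fun y => ⟪G y, y⟫) = ∑ i, fun y : E d => G y i * y i := by
      funext y
      rw [PiLp.inner_apply, Finset.sum_apply]
      refine Finset.sum_congr rfl fun i _ => ?_
      simp [mul_comm]
    rw [this]
    refine locallyIntegrable_finsetSum' _ fun i _ => ?_
    exact (h.comp_int i).mul_continuous (EuclideanSpace.proj (𝕜 := ℝ) i).continuous
  refine ae_eq_of_integral_contDiff_smul_eq h.iu hG fun g hg hc => ?_
  have h1 := h.av_deriv (φ := g) ⟨hg, hc⟩ one_pos 0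
  have h2 : HasDerivAt (fun s => av g u s 0) (av g u 1 0) 1 := by
    have : HasDerivAt (fun s : ℝ => s * av g u 1 0) (av g u 1 0) 1 := by
      simpa using (hasDerivAt_id (1 : ℝ)).mul_const (av g u 1 0)
    refine this.congr_of_eventuallyEq ?_
    filter_upwards [lt_mem_nhds (one_pos : (0 : ℝ) < 1)] with s hs
    exact av_hom g hu hs
  have e := h2.unique h1
  simpa [av, kt] using e

/-- `|u y|² ≤ (‖c‖ + |r|)² ‖G y‖²` on the ball -/
theorem WG.L2 {u : E d → ℝ} {G : E d → E d} (h : WG u G) (hu : Hom u) (h2 : LocallyIntegrable fun x => ‖G x‖ ^ 2)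
    (c : E d) (r : ℝ) : (∫⁻ x in ball c r, ‖u x‖ₑ ^ 2) < ⊤ := by
  have hi : IntegrableOn (fun x => (‖c‖ + |r|) ^ 2 * ‖G x‖ ^ 2) (ball c r) :=
    ((h2.integrableOn_isCompact (isCompact_closedBall c r)).mono_set ball_subset_closedBall).const_mul _
  refine lt_of_le_of_lt ?_ hi.2
  refine lintegral_mono_ae ?_
  filter_upwards [ae_restrict_of_ae (h.euler hu), ae_restrict_mem measurableSet_ball] with y hy hb
  have a1 : ‖y‖ ≤ ‖c‖ + |r| := by
    rw [mem_ball, dist_eq_norm] at hb
    have := norm_le_norm_add_norm_sub' y c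
    linarith [le_abs_self r]
  have a2 : ‖u y‖ ≤ (‖c‖ + |r|) * ‖G y‖ := by
    rw [hy, mul_comm]
    exact (norm_inner_le_norm _ _).trans (mul_le_mul_of_nonneg_left a1 (norm_nonneg _))
  rw [← enorm_pow, enorm_le_iff_norm_le, norm_pow, ← mul_pow, norm_pow]
  exact pow_le_pow_left₀ (norm_nonneg _) (a2.trans (le_abs_self _)) 2

end Crest.Agent.R97
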