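/- R97/Sob_K: smooth perturbations of a minimiser (sub-lead helper6). -/
import Crest.Agent.R97.Sob_W

set_option autoImplicit false
open MeasureTheory Metric Set Filter Topology
open scoped RealInnerProductSpace NNReal ENNReal
open Crest.AnalysisR.PDE.OnePhase

namespace Crest.Agent.R97

variable {d : ℕ}

theorem sobk_mem {F : Type} [NormedAddCommGroup F] {μ : Measure (E d)} {f : E d → F} (hf : AEStronglyMeasurable f μ) :
    MemLp f 2 μ ↔ ∫⁻ x, ‖f x‖ₑ ^ 2 ∂μ < ⊤ := by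
  rw [memLp_two_iff_integrable_sq_norm hf, Integrable, hasFiniteIntegral_iff_enorm]
  simp only [enorm_pow, enorm_norm]
  exact and_iff_right (hf.norm.pow 2)

theorem sobk_lint {F : Type} [NormedAddCommGroup F] {μ : Measure (E d)} {f : E d → F} (h : MemLp f 2 μ) :
    ∫⁻ x, ‖f x‖ₑ ^ 2 ∂μ = ENNReal.ofReal (∫ x, ‖f x‖ ^ 2 ∂μ) := by
  rw [ofReal_integral_eq_lintegral_ofReal ((memLp_two_iff_integrable_sq_norm h.1).1 h)
    (Eventually.of_forall fun x => by positivity)]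
  refine lintegral_congr fun x => ?_
  rw [ENNReal.ofReal_pow (norm_nonneg _), ofReal_norm]

/-- `B = ball 0 r ⊇ tsupport φ`; competitor `w = max (u + φ) 0 =ᵐ u + φ`, `gw = G + gradient φ` (`WG.add`, `Tst.wg`, `WG.congr`, `WG.on_ball`); zero trace: take `φ`
itself (`zeroTrace_congr`); `{0 < w} ∩ B ⊆ ({0 < u} ∩ B) ∪ {u = 0 ∧ 0 < φ}`, all measures finite; `∫⁻_B ‖g‖ₑ² = ofReal (∫_B ‖g‖²)`
(`ofReal_integral_eq_lintegral_ofReal`), `‖G + ∇φ‖² = ‖G‖² + 2⟪G,∇φ⟫ + ‖∇φ‖²` (`norm_add_sq_real`). -/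
theorem sob_comp {u : E d → ℝ} {G : E d → E d} (hmin : IsGlobalMinimizer u G)
    (h2 : ∀ (c : E d) (r : ℝ), (∫⁻ x in ball c r, ‖u x‖ₑ ^ 2) < ⊤) {φ : E d → ℝ} (hφ : Tst φ)
    (h0 : ∀ᵐ x, 0 ≤ u x + φ x) :
    0 ≤ 2 * (∫ x, ⟪G x, gradient φ x⟫) + (∫ x, ‖gradient φ x‖ ^ 2) + volume.real {x | u x = 0 ∧ 0 < φ x} := by
  obtain ⟨r, hr, hB⟩ := hφ.2.isBounded.subset_ball_lt 0 (0 : E d)
  have hu := sob_wg hmin
  have hw : (fun x => u x + φ x) =ᵐ[volume] fun x => max (u x + φ x) 0 := h0.mono fun x hx => (max_eq_left hx).symm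
  have hwg := (hu.add hφ.wg).congr hw
  have m1 : MemLp u 2 (volume.restrict (ball (0 : E d) r)) :=
    (sobk_mem hu.iu.aestronglyMeasurable.restrict).2 (h2 0 r)
  have m2 : MemLp φ 2 (volume.restrict (ball (0 : E d) r)) :=
    (hφ.1.continuous.memLp_of_hasCompactSupport hφ.2).restrict _
  have m3 : MemLp G 2 (volume.restrict (ball (0 : E d) r)) :=
    (memLp_two_iff_integrable_sq_norm hu.iG.aestronglyMeasurable.restrict).2
      ((hmin.2.2.1.integrableOn_isCompact (isCompact_closedBall 0 r)).mono_set ball_subset_closedBall)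
  have m4 : MemLp (gradient φ) 2 (volume.restrict (ball (0 : E d) r)) :=
    (hφ.grad_cont.1.memLp_of_hasCompactSupport hφ.grad_cont.2).restrict _
  have m5 : MemLp (fun x => max (u x + φ x) 0) 2 (volume.restrict (ball (0 : E d) r)) :=
    (m1.add m2).ae_eq (ae_restrict_of_ae hw)
  have m6 : MemLp (fun x => G x + gradient φ x) 2 (volume.restrict (ball (0 : E d) r)) := m3.add m4
  have hz : HasZeroTrace (ball (0 : E d) r) φ (gradient φ) :=
    fun ε hε => ⟨φ, hφ.1, hφ.2, hB, by simpa using hε, by simpa using hε⟩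
  have key := hmin.2.2.2 0 r hr _ _ (fun x => le_max_right _ _) (hwg.on_ball 0 r) ((sobk_mem m5.1).1 m5)
    ((sobk_mem m6.1).1 m6) (zeroTrace_congr hz (h0.mono fun x hx => by simp only [max_eq_left hx]; ring)
      (Eventually.of_forall fun x => by simp))
  have hsub : {x | 0 < max (u x + φ x) 0} ∩ ball (0 : E d) r ⊆
      {x | u x = 0 ∧ 0 < φ x} ∪ {x | 0 < u x} ∩ ball (0 : E d) r := by
    rintro x ⟨h1, h3⟩
    rcases (hmin.1 x).eq_or_lt with h4 | h4
    · refine Or.inl ⟨h4.symm, ?_⟩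
      simpa [← h4] using h1
    · exact Or.inr ⟨h4, h3⟩
  have f1 : volume ({x | 0 < u x} ∩ ball (0 : E d) r) ≠ ⊤ :=
    ((measure_mono inter_subset_right).trans_lt measure_ball_lt_top).ne
  have f2 : volume {x | u x = 0 ∧ 0 < φ x} ≠ ⊤ :=
    ((measure_mono fun x hx => hB (subset_tsupport _ hx.2.ne')).trans_lt measure_ball_lt_top).ne
  unfold onePhaseEnergy at key
  have k2 := key.trans (add_le_add_right ((measure_mono hsub).trans (measure_union_le _ _)) _)
  rw [← add_assoc, ENNReal.add_le_add_iff_right f1, sobk_lint m3, sobk_lint m6, ← ENNReal.ofReal_toReal f2,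
    ← ENNReal.ofReal_add (integral_nonneg fun x => by positivity) ENNReal.toReal_nonneg,
    ENNReal.ofReal_le_ofReal_iff (add_nonneg (integral_nonneg fun x => by positivity) ENNReal.toReal_nonneg)] at k2
  have hg0 : ∀ x, x ∉ ball (0 : E d) r → gradient φ x = 0 := fun x hx => by
    rw [gradient, fderiv_of_notMem_tsupport ℝ fun h' => hx (hB h'), map_zero]
  have i1 := (memLp_two_iff_integrable_sq_norm m3.1).1 m3
  have i2 := ((hu.int_inner hφ).integrableOn (s := ball (0 : E d) r)).const_mul 2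
  have i3 := (memLp_two_iff_integrable_sq_norm m4.1).1 m4
  have i4 : Integrable (fun x => ‖G x‖ ^ 2 + 2 * ⟪G x, gradient φ x⟫) (volume.restrict (ball (0 : E d) r)) :=
    i1.add i2
  have e1 : ∫ x in ball (0 : E d) r, ⟪G x, gradient φ x⟫ = ∫ x, ⟪G x, gradient φ x⟫ :=
    setIntegral_eq_integral_of_forall_compl_eq_zero fun x hx => by rw [hg0 x hx, inner_zero_right]
  have e2 : ∫ x in ball (0 : E d) r, ‖gradient φ x‖ ^ 2 = ∫ x, ‖gradient φ x‖ ^ 2 :=
    setIntegral_eq_integral_of_forall_compl_eq_zero fun x hx => by rw [hg0 x hx]; simp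
  simp only [norm_add_sq_real] at k2
  rw [integral_add i4 i3, integral_add i1 i2, integral_const_mul, e1, e2] at k2
  rw [Measure.real]
  linarith

theorem sobk_quad {a b δ : ℝ} (hδ : 0 < δ) (h : ∀ s : ℝ, |s| ≤ δ → 0 ≤ 2 * (s * a) + s ^ 2 * b) : a = 0 := by
  have h1 : IsLocalMin (fun s : ℝ => 2 * (s * a) + s ^ 2 * b) 0 := by
    filter_upwards [closedBall_mem_nhds (0 : ℝ) hδ] with s hs
    simpa using h s (by simpa using hs)
  have h2 := h1.hasDerivAt_eq_zero
    ((((hasDerivAt_id (0 : ℝ)).mul_const a).const_mul 2).add ((hasDerivAt_pow 2 (0 : ℝ)).mul_const b))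
  simpa using h2

/-- `sob_comp` for `s * φ`, `|s| * sup |φ| ≤ c`: the set `{u = 0 ∧ 0 < s φ}` is null, so `0 ≤ 2 s a + s² b` for all small `s` of both signs -/
theorem sob_harm {u : E d → ℝ} {G : E d → E d} (hmin : IsGlobalMinimizer u G)
    (h2 : ∀ (c : E d) (r : ℝ), (∫⁻ x in ball c r, ‖u x‖ₑ ^ 2) < ⊤) {φ : E d → ℝ} (hφ : Tst φ) {c : ℝ} (hc : 0 < c)
    (h0 : ∀ᵐ x, φ x ≠ 0 → c ≤ u x) : ∫ x, ⟪G x, gradient φ x⟫ = 0 := by
  obtain ⟨A, hA⟩ := hφ.1.continuous.bounded_above_of_compact_support hφ.2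
  have hA0 : 0 ≤ A := (norm_nonneg _).trans (hA 0)
  refine sobk_quad (b := ∫ x, ‖gradient φ x‖ ^ 2) (δ := c / (A + 1)) (by positivity) fun s hs => ?_
  have hb : ∀ x, |s * φ x| ≤ c := fun x => by
    rw [abs_mul]
    calc |s| * |φ x| ≤ c / (A + 1) * (A + 1) :=
          mul_le_mul hs ((hA x).trans (by linarith)) (abs_nonneg _) (by positivity)
      _ = c := by field_simp
  have h1 := sob_comp hmin h2 (hφ.smul s).1 (by
    filter_upwards [h0] with x hx
    by_cases h3 : φ x = 0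
    · simpa [h3] using hmin.1 x
    · linarith [hx h3, (abs_le.1 (hb x)).1])
  have h3 : volume {x | u x = 0 ∧ 0 < s * φ x} = 0 := by
    rw [measure_eq_zero_iff_ae_notMem]
    filter_upwards [h0] with x hx h4
    have h5 : φ x ≠ 0 := fun h6 => by simpa [h6] using h4.2
    linarith [hx h5, h4.1]
  simp only [(hφ.smul s).2, inner_smul_right, norm_smul, mul_pow, integral_const_mul, Measure.real, h3,
    ENNReal.toReal_zero, add_zero, Real.norm_eq_abs, sq_abs] at h1
  exact h1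

end Crest.Agent.R97
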