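/- R97/Sob_V: monotonicity of the mollifications of a minimiser (helper6). -/
import Crest.Agent.R97.Sob_C
import Crest.Agent.R97.Sob_K

set_option autoImplicit false
open MeasureTheory Metric Set Filter Topology
open scoped RealInnerProductSpace NNReal ENNReal
open Crest.AnalysisR.PDE.OnePhase

namespace Crest.Agent.R97

variable {d : ℕ}

theorem SB.grad_kt {m ψ : E d → ℝ} (h : SB m ψ) {t : ℝ} (ht : 0 < t) (x y : E d) :
    gradient (kt ψ t x) y = (-(t ^ 2)⁻¹ * kt m t x y) • (y - x) := by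
  have h1 : HasFDerivAt (fun y : E d => t⁻¹ • (y - x)) (t⁻¹ • ContinuousLinearMap.id ℝ (E d)) y :=
    ((hasFDerivAt_id y).sub_const x).const_smul t⁻¹
  have h2 : HasGradientAt ψ (-(m (t⁻¹ • (y - x))) • (t⁻¹ • (y - x))) (t⁻¹ • (y - x)) := by
    rw [← h.grad]
    exact ((h.sp.differentiable (by simp)) _).hasGradientAt
  have h3 := ((hasGradientAt_iff_hasFDerivAt.1 h2).comp y h1).const_mul (t ^ d)⁻¹
  refine HasGradientAt.gradient (hasGradientAt_iff_hasFDerivAt.2 ?_)
  refine h3.congr_fderiv ?_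
  ext v
  simp only [kt, InnerProductSpace.toDual_apply_apply, smul_apply, ContinuousLinearMap.comp_apply,
    ContinuousLinearMap.id_apply, real_inner_smul_left, real_inner_smul_right, smul_eq_mul]
  ring

theorem SB.deriv_eq {m ψ : E d → ℝ} (h : SB m ψ) {u : E d → ℝ} {G : E d → E d} (hw : WG u G) {t : ℝ} (ht : 0 < t)
    (x : E d) : HasDerivAt (fun s => av m u s x) (-t * ∫ y, ⟪G y, gradient (kt ψ t x) y⟫) t := by
  convert hw.av_deriv h.tst_m ht x using 1
  simp only [h.grad_kt ht, real_inner_smul_right, mul_assoc]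
  rw [integral_const_mul]
  field_simp

theorem SB.bdd {m ψ : E d → ℝ} (h : SB m ψ) : ∃ M : ℝ, 0 < M ∧ ∀ y, m y ≤ M := by
  obtain ⟨M, hM⟩ := h.sm.continuous.bounded_above_of_compact_support h.tst_m.2
  exact ⟨|M| + 1, by positivity, fun y => by
    linarith [hM y, le_abs_self M, Real.le_norm_self (m y)]⟩

theorem SB.av_nonneg {m ψ : E d → ℝ} (h : SB m ψ) {u : E d → ℝ} (h0 : ∀ y, 0 ≤ u y) {t : ℝ} (ht : 0 < t) (x : E d) :
    0 ≤ av m u t x := integral_nonneg fun y => smul_nonneg (h.kt_nonneg ht x y) (h0 y)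

theorem SB.av_upper {m ψ : E d → ℝ} (h : SB m ψ) {M : ℝ} (hM : ∀ y, m y ≤ M) {u : E d → ℝ}
    (hu : LocallyIntegrable u) (h0 : ∀ y, 0 ≤ u y) {t : ℝ} (ht : 0 < t) (x : E d) :
    t ^ d * av m u t x ≤ M * ∫ y in ball x t, u y := by
  have hi : IntegrableOn u (ball x t) :=
    (hu.integrableOn_isCompact (isCompact_closedBall x t)).mono_set ball_subset_closedBall
  unfold av
  rw [← integral_const_mul, ← integral_indicator measurableSet_ball, ← integral_const_mul]
  refine integral_mono (((h.tst_m.kt ht x).int_smul hu).const_mul _)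
    (((integrable_indicator_iff measurableSet_ball).2 hi).const_mul _) fun y => ?_
  by_cases hy : y ∈ ball x t
  · simp only [indicator_of_mem hy, kt, smul_eq_mul]
    rw [← mul_assoc, ← mul_assoc, mul_inv_cancel₀ (by positivity), one_mul]
    exact mul_le_mul_of_nonneg_right (hM _) (h0 y)
  · simp only [indicator_of_notMem hy]
    rw [kt_zero h.mz ht (by rwa [mem_ball_iff_norm, not_lt] at hy)]
    simp

theorem SB.deriv_le {m ψ : E d → ℝ} (h : SB m ψ) : ∃ C : ℝ, 0 < C ∧ ∀ (u : E d → ℝ) (G : E d → E d),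
    IsGlobalMinimizer u G → (∀ (c : E d) (r : ℝ), (∫⁻ x in ball c r, ‖u x‖ₑ ^ 2) < ⊤) → ∀ t : ℝ, 0 < t →
    ∀ x : E d, -t * ∫ y, ⟪G y, gradient (kt ψ t x) y⟫ ≤ C := by
  obtain ⟨M, hM0, hM⟩ := h.bdd
  set om := volume.real (ball (0 : E d) 1) with hom
  have hom0 : 0 ≤ om := measureReal_nonneg
  refine ⟨(M ^ 2 + 1) * om / 2 + 1, by positivity, fun u G hmin h2 t ht x => ?_⟩
  obtain ⟨hT, hg⟩ := (h.tst_p.kt ht x).smul (t ^ (d + 1))
  have hp0 : ∀ y, 0 ≤ kt ψ t x y := fun y => mul_nonneg (by positivity) (h.p0 _)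
  have hc := sob_comp hmin h2 hT (Eventually.of_forall fun y =>
    add_nonneg (hmin.1 y) (mul_nonneg (by positivity) (hp0 y)))
  have hv : volume.real (ball x t) = t ^ d * om := by
    rw [hom, Measure.real, Measure.addHaar_ball_of_pos volume x ht, ENNReal.toReal_mul,
      ENNReal.toReal_ofReal (by positivity), finrank_euclideanSpace_fin, Measure.real]
  have a1 : volume.real {y | u y = 0 ∧ 0 < t ^ (d + 1) * kt ψ t x y} ≤ t ^ d * om := by
    rw [← hv]
    refine measureReal_mono (fun y hy => ?_) measure_ball_lt_top.ne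
    by_contra hn
    have h3 := hy.2
    rw [kt_zero h.pz ht (by rwa [mem_ball_iff_norm, not_lt] at hn), mul_zero] at h3
    exact lt_irrefl _ h3
  have a2 : ∫ y, ‖gradient (fun y => t ^ (d + 1) * kt ψ t x y) y‖ ^ 2 ≤ M ^ 2 * (t ^ d * om) := by
    rw [← hv, mul_comm, ← smul_eq_mul, ← setIntegral_const, ← integral_indicator measurableSet_ball]
    refine integral_mono_of_nonneg (Eventually.of_forall fun y => by positivity)
      ((integrable_indicator_iff measurableSet_ball).2 (integrableOn_const measure_ball_lt_top.ne))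
      (Eventually.of_forall fun y => ?_)
    simp only [hg, h.grad_kt ht, smul_smul]
    by_cases hy : y ∈ ball x t
    · rw [indicator_of_mem hy]
      refine pow_le_pow_left₀ (norm_nonneg _) ?_ 2
      have e : t ^ (d + 1) * (-(t ^ 2)⁻¹ * kt m t x y) = -(t⁻¹ * m (t⁻¹ • (y - x))) := by
        unfold kt; rw [pow_succ]; field_simp
      have h4 := h.m0 (t⁻¹ • (y - x))
      rw [e, norm_smul, norm_neg, Real.norm_of_nonneg (by positivity), mul_right_comm]
      have h5 : t⁻¹ * ‖y - x‖ ≤ 1 := by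
        rw [inv_mul_le_iff₀ ht, mul_one]; exact (mem_ball_iff_norm.1 hy).le
      exact (mul_le_of_le_one_left h4 h5).trans (hM _)
    · rw [indicator_of_notMem hy, kt_zero h.mz ht (by rwa [mem_ball_iff_norm, not_lt] at hy)]
      simp
  simp only [hg, real_inner_smul_right] at hc a2
  rw [integral_const_mul] at hc
  have h6 : 0 < t ^ d := by positivity
  have h7 : t ^ d * (-t * ∫ y, ⟪G y, gradient (kt ψ t x) y⟫) ≤ t ^ d * ((M ^ 2 + 1) * om / 2) := by
    have e : t ^ (d + 1) * ∫ y, ⟪G y, gradient (kt ψ t x) y⟫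
        = -(t ^ d * (-t * ∫ y, ⟪G y, gradient (kt ψ t x) y⟫)) := by ring
    rw [e] at hc
    linarith
  linarith [le_of_mul_le_mul_left h7 h6]

theorem SB.av_mono {m ψ : E d → ℝ} (h : SB m ψ) {u : E d → ℝ} {G : E d → E d} (hw : WG u G) {C : ℝ} {x : E d}
    (hC : ∀ t : ℝ, 0 < t → -t * ∫ y, ⟪G y, gradient (kt ψ t x) y⟫ ≤ C) {s t : ℝ} (hs : 0 < s) (hst : s ≤ t) :
    av m u t x - C * t ≤ av m u s x - C * s := by
  have hd : ∀ t ∈ Ioi (0 : ℝ), HasDerivAt (fun s => av m u s x - C * s)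
      (-t * (∫ y, ⟪G y, gradient (kt ψ t x) y⟫) - C) t := fun t ht => by
    have := (h.deriv_eq hw ht x).fun_sub ((hasDerivAt_id' t).const_mul C)
    rwa [mul_one] at this
  refine antitoneOn_of_deriv_nonpos (convex_Ioi 0) (f := fun s => av m u s x - C * s)
    (fun t ht => (hd t ht).continuousAt.continuousWithinAt) (fun t ht => ?_) (fun t ht => ?_) hs
    (hs.trans_le hst) hst
  · rw [interior_Ioi] at ht
    exact (hd t ht).differentiableAt.differentiableWithinAt
  · rw [interior_Ioi] at ht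
    rw [(hd t ht).deriv]
    linarith [hC t ht]

theorem SB.av_const {m ψ : E d → ℝ} (h : SB m ψ) {u : E d → ℝ} {G : E d → E d} (hmin : IsGlobalMinimizer u G)
    (h2 : ∀ (c : E d) (r : ℝ), (∫⁻ x in ball c r, ‖u x‖ₑ ^ 2) < ⊤) {c t : ℝ} {x : E d} (hc : 0 < c)
    (h0 : ∀ᵐ y, y ∈ ball x t → c ≤ u y) {s : ℝ} (hs : 0 < s) (hst : s ≤ t) : av m u t x = av m u s x := by
  have hd : ∀ r ∈ Icc s t, HasDerivAt (fun s => av m u s x) 0 r := fun r hr => by
    have hr0 : 0 < r := hs.trans_le hr.1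
    have h3 := h.deriv_eq (sob_wg hmin) hr0 x
    rw [sob_harm hmin h2 (h.tst_p.kt hr0 x) hc (h0.mono fun y hy hne => hy ?_), mul_zero] at h3
    · exact h3
    · by_contra hn
      rw [mem_ball_iff_norm, not_lt] at hn
      exact hne (kt_zero h.pz hr0 (hr.2.trans hn))
  exact constant_of_has_deriv_right_zero (fun r hr => (hd r hr).continuousAt.continuousWithinAt)
    (fun r hr => (hd r (Ico_subset_Icc_self hr)).hasDerivWithinAt) t (right_mem_Icc.2 hst)

end Crest.Agent.R97
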