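import Crest.Agent.R97.Har
import Crest.Agent.R97.Sob_V
import Crest.Agent.R97.Sob_N

set_option autoImplicit false
open MeasureTheory Metric Set Filter Topology
open scoped RealInnerProductSpace NNReal

namespace Crest.Agent.R97

variable {d : ℕ}

/-! Sob: from the Sobolev class of the statement to `Mn`. -/

open Crest.AnalysisR.PDE.OnePhase in
/-- the representative, its positivity set and the linear growth -/
theorem sob_rep0 {u : E d → ℝ} {G : E d → E d} (hmin : IsGlobalMinimizer u G) (hhom : Hom u)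
    (h2 : ∀ (c : E d) (r : ℝ), (∫⁻ x in ball c r, ‖u x‖ₑ ^ 2) < ⊤) :
    ∃ (v : E d → ℝ) (O : Set (E d)) (K : ℝ), 0 < K ∧ IsOpen O ∧ (0 : E d) ∉ O ∧ u =ᵐ[volume] v ∧
      (∀ x ∈ O, 0 < v x ∧ ContinuousAt v x) ∧ (∀ x, x ∉ O → v x = 0) ∧ ∀ x, v x ≤ K * infDist x Oᶜ := by
  obtain ⟨m, ψ, h⟩ := sob_bump d
  obtain ⟨C, hC0, hC⟩ := h.deriv_le
  obtain ⟨M, hM0, hM⟩ := h.bdd
  obtain ⟨c0, hc0, hlow⟩ := h.av_lower
  have hw := sob_wg hmin
  have hmono : ∀ x s t, 0 < s → s ≤ t → av m u t x - C * t ≤ av m u s x - C * s := fun x s t hs hst =>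
    h.av_mono hw (fun t ht => hC u G hmin h2 t ht x) hs hst
  have hcont : ∀ t, 0 < t → Continuous (av m u t) := fun t ht => (av_smooth h.tst_m hw.iu ht).continuous
  set O : Set (E d) := {x | ∃ t, 0 < t ∧ C * t < av m u t x} with hO
  set v : E d → ℝ := fun x => limUnder (𝓝[>] (0 : ℝ)) fun t => av m u t x with hv
  have hOo : IsOpen O := by
    have : O = ⋃ t ∈ Ioi (0 : ℝ), {x | C * t < av m u t x} := by ext x; simp [hO]
    rw [this]
    exact isOpen_biUnion fun t ht => isOpen_lt continuous_const (hcont t ht)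
  have hae : u =ᵐ[volume] v := (h.av_ae hw.iu).mono fun x hx => hx.limUnder_eq.symm
  have hout : ∀ x, x ∉ O → ∀ t, 0 < t → av m u t x ≤ C * t := fun x hx t ht =>
    not_lt.1 fun h1 => hx ⟨t, ht, h1⟩
  have hz : ∀ x, x ∉ O → v x = 0 := fun x hx => by
    refine Tendsto.limUnder_eq (squeeze_zero' (g := fun t => C * t) ?_ ?_ ?_)
    · exact eventually_mem_nhdsWithin.mono fun t ht => h.av_nonneg hmin.1 ht x
    · exact eventually_mem_nhdsWithin.mono fun t ht => hout x hx t ht
    · have : Tendsto (fun t : ℝ => C * t) (𝓝 0) (𝓝 (C * 0)) := (continuous_const.mul continuous_id).tendsto 0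
      rw [mul_zero] at this
      exact this.mono_left nhdsWithin_le_nhds
  have hveq : ∀ (x : E d) (c t : ℝ), 0 < c → 0 < t → (∀ᵐ y, y ∈ ball x t → c ≤ u y) → v x = av m u t x :=
    fun x c t hc ht h0 => by
      refine Tendsto.limUnder_eq (tendsto_const_nhds.congr' ?_)
      filter_upwards [Ioc_mem_nhdsGT ht] with s hs
      exact h.av_const hmin h2 hc h0 hs.1 hs.2
  have hin : ∀ x ∈ O, 0 < v x ∧ ContinuousAt v x := by
    rintro x ⟨t, ht, hx⟩
    set c := (av m u t x - C * t) / 2 with hc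
    have hc' : 0 < c := by linarith
    obtain ⟨R, hR, hB⟩ := Metric.isOpen_iff.1 (isOpen_lt (continuous_const (y := C * t + c)) (hcont t ht)) x
      (show C * t + c < av m u t x by linarith)
    have h1 : ∀ y ∈ ball x R, ∀ s, 0 < s → s ≤ t → c ≤ av m u s y := fun y hy s hs hst => by
      have h3 : C * t + c < av m u t y := hB hy
      have := hmono y s t hs hst
      have := mul_pos hC0 hs
      linarith
    have h3 : ∀ᵐ y, y ∈ ball x R → c ≤ u y := (h.av_ae hw.iu).mono fun y hy hyB =>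
      ge_of_tendsto hy (by
        filter_upwards [Ioc_mem_nhdsGT ht] with s hs
        exact h1 y hyB s hs.1 hs.2)
    have hs0 : 0 < min t (R / 2) := lt_min ht (by linarith)
    have h4 : ∀ y ∈ ball x (R / 2), v y = av m u (min t (R / 2)) y := fun y hy =>
      hveq y c _ hc' hs0 (h3.mono fun z hz hzB => hz (ball_subset_ball' (by
        have := mem_ball.1 hy
        have := min_le_right t (R / 2)
        linarith) hzB))
    refine ⟨?_, (hcont _ hs0).continuousAt.congr ?_⟩
    · rw [h4 x (mem_ball_self (by linarith))]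
      exact hc'.trans_le (h1 x (mem_ball_self hR) _ hs0 (min_le_left _ _))
    · filter_upwards [ball_mem_nhds x (show 0 < R / 2 by linarith)] with y hy
      exact (h4 y hy).symm
  have h0O : (0 : E d) ∉ O := by
    rintro ⟨t, ht, hx⟩
    have h1 := hmono 0 (t / 2) t (by linarith) (by linarith)
    rw [av_hom m hhom (show 0 < t / 2 by linarith)] at h1
    rw [av_hom m hhom ht] at h1 hx
    linarith
  refine ⟨v, O, M / c0 * 6 ^ d * (3 * C), by positivity, hOo, h0O, hae, hin, hz, fun x => ?_⟩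
  by_cases hx : x ∈ O
  swap
  · rw [hz x hx]
    exact mul_nonneg (by positivity) infDist_nonneg
  obtain ⟨z, hzO, hzd⟩ := hOo.isClosed_compl.exists_infDist_eq_dist ⟨0, h0O⟩ x
  set δ := infDist x Oᶜ with hδ
  have hδ0 : 0 < δ := (hOo.isClosed_compl.notMem_iff_infDist_pos ⟨0, h0O⟩).1 fun h1 => h1 hx
  have hsub : closedBall x (δ / 2) ⊆ O :=
    (closedBall_subset_ball (by linarith)).trans ball_infDist_compl_subset
  obtain ⟨y0, hy0, hmin0⟩ := (isCompact_closedBall x (δ / 2)).exists_isMinOn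
    ⟨x, mem_closedBall_self (by linarith)⟩ fun y hy => (hin y (hsub hy)).2.continuousWithinAt
  have e1 : v x = av m u (δ / 2) x := hveq x (v y0) _ (hin y0 (hsub hy0)).1 (by linarith)
    (hae.mono fun y hy hyB => by rw [hy]; exact hmin0 (ball_subset_closedBall hyB))
  have a1 := h.av_upper hM hw.iu hmin.1 (show 0 < δ / 2 by linarith) x
  have a2 : ∫ y in ball x (δ / 2), u y ≤ ∫ y in ball z (3 * δ / 2), u y :=
    setIntegral_mono_set ((hw.iu.integrableOn_isCompact (isCompact_closedBall z _)).mono_set ball_subset_closedBall)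
      (Eventually.of_forall hmin.1) (ball_subset_ball' (by linarith)).eventuallyLE
  have a3 := hlow u hw.iu hmin.1 (3 * δ) (by linarith) z
  have a4 := mul_le_mul_of_nonneg_left (hout z hzO (3 * δ) (by linarith)) (show 0 ≤ (3 * δ) ^ d by positivity)
  have a5 : ∫ y in ball x (δ / 2), u y ≤ (3 * δ) ^ d * (C * (3 * δ)) / c0 := by
    rw [le_div_iff₀' hc0]
    exact (mul_le_mul_of_nonneg_left a2 hc0.le).trans (a3.trans a4)
  have a6 := a1.trans (mul_le_mul_of_nonneg_left a5 hM0.le)
  rw [e1]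
  refine le_of_mul_le_mul_left (a6.trans (le_of_eq ?_)) (show 0 < (δ / 2) ^ d by positivity)
  rw [show 3 * δ = 6 * (δ / 2) by ring, mul_pow]
  ring

theorem sob_hom {u v : E d → ℝ} (hu : Hom u) (hv : Continuous v) (hae : u =ᵐ[volume] v) : Hom v := fun r hr => by
  have hq : Measure.QuasiMeasurePreserving (fun x : E d => r • x) volume volume :=
    ⟨by fun_prop, by rw [Measure.map_addHaar_smul volume hr.ne']; exact Measure.smul_absolutelyContinuous⟩
  have h1 : (fun x => v (r • x)) =ᵐ[volume] fun x => r * v x := by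
    filter_upwards [hq.ae_eq_comp hae, hae] with x h1 h2
    have h3 : u (r • x) = v (r • x) := h1
    rw [← h3, ← h2, hu r hr]
  exact congrFun ((Continuous.ae_eq_iff_eq volume (by fun_prop) (by fun_prop)).1 h1)

open Crest.AnalysisR.PDE.OnePhase in
theorem sob_rep (hd : 1 ≤ d) {u : E d → ℝ} {G : E d → E d} (hmin : IsGlobalMinimizer u G)
    (hhom : IsOneHomogeneous u) :
    ∃ (L : ℝ≥0) (v : E d → ℝ), Mn L v ∧ Hom v ∧ u =ᵐ[volume] v := by
  have hw := sob_wg hmin
  have h2 := hw.L2 hhom hmin.2.2.1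
  obtain ⟨v, O, K, hK, hO, h0, hae, hin, hz, hb⟩ := sob_rep0 hmin hhom h2
  have hnn : ∀ x, 0 ≤ v x := fun x => by
    by_cases hx : x ∈ O
    · exact (hin x hx).1.le
    · exact (hz x hx).ge
  have hc : Continuous v := continuous_iff_continuousAt.2 fun x => by
    by_cases hx : x ∈ O
    · exact (hin x hx).2
    · rw [ContinuousAt, hz x hx]
      refine squeeze_zero (g := fun y => K * dist y x) hnn
        (fun y => (hb y).trans (mul_le_mul_of_nonneg_left (infDist_le_dist_of_mem hx) hK.le)) ?_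
      have : Continuous fun y : E d => K * dist y x := by fun_prop
      simpa using this.tendsto x
  have hH : Harm v O := weyl hO hc.continuousOn fun φ hφ hφc hφO => by
    have e : ∫ x, v x * lap φ x = ∫ x, u x * lap φ x :=
      integral_congr_ae (hae.mono fun x hx => by simp only [hx])
    rw [e, hw.int_lap ⟨hφ, hφc⟩, neg_eq_zero]
    rcases (tsupport φ).eq_empty_or_nonempty with hE | hN
    · exact sob_harm hmin h2 ⟨hφ, hφc⟩ one_pos (Eventually.of_forall fun x hx => by
        have : x ∈ tsupport φ := subset_tsupport φ hx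
        rw [hE] at this
        exact this.elim)
    · obtain ⟨y0, hy0, hm⟩ := hφc.exists_isMinOn hN hc.continuousOn
      exact sob_harm hmin h2 ⟨hφ, hφc⟩ (hin y0 (hφO hy0)).1
        (hae.mono fun x hx hne => by rw [hx]; exact hm (subset_tsupport φ hne))
  obtain ⟨Cg, hCg, hg⟩ := grad_bound d
  have hL : LipschitzWith ⟨d * (3 * Cg * K), by positivity⟩ v := by
    refine lipschitz_of_grad hc fun x hx => ?_
    have hxO : x ∈ O := by_contra fun h => hx (hz x h)
    refine ⟨(hH.1.contDiffAt (hO.mem_nhds hxO)).differentiableAt (by simp), ?_⟩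
    set δ := infDist x Oᶜ with hδ
    have hδ0 : 0 < δ := (hO.isClosed_compl.notMem_iff_infDist_pos ⟨0, h0⟩).1 fun h1 => h1 hxO
    have hsub : ball x (δ / 2) ⊆ O := (ball_subset_ball (by linarith)).trans ball_infDist_compl_subset
    have h1 := hg v x (δ / 2) (K * (3 * (δ / 2))) (by linarith) (hH.mono hsub) fun y hy => by
      rw [abs_of_nonneg (hnn y)]
      refine (hb y).trans (mul_le_mul_of_nonneg_left ?_ hK.le)
      have h3 : infDist y Oᶜ ≤ δ + dist y x := infDist_le_infDist_add_dist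
      have := mem_ball.1 hy
      linarith
    have e : Cg * (K * (3 * (δ / 2))) / (δ / 2) = 3 * Cg * K := by field_simp
    rw [e] at h1
    refine (abs_le_of_sq_le_sq' ?_ (NNReal.coe_nonneg _)).2
    rw [norm_gradient_sq]
    have h4 : ∑ i, pd i v x ^ 2 ≤ ∑ _i : Fin d, (3 * Cg * K) ^ 2 := Finset.sum_le_sum fun i _ => by
      rw [← sq_abs]; exact pow_le_pow_left₀ (abs_nonneg _) (h1 i) 2
    rw [Finset.sum_const, Finset.card_univ, Fintype.card_fin, nsmul_eq_mul] at h4
    have h5 : (1 : ℝ) ≤ d := by exact_mod_cast hd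
    refine h4.trans ?_
    show (d : ℝ) * (3 * Cg * K) ^ 2 ≤ (d * (3 * Cg * K)) ^ 2
    rw [mul_pow (d : ℝ)]
    exact mul_le_mul_of_nonneg_right (by nlinarith) (sq_nonneg _)
  exact ⟨_, v, sob_mn hmin hL hnn hae, sob_hom hhom hc hae, hae⟩

end Crest.Agent.R97
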