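import Crest.Agent.R97.StabDefs

/-! StabA (sub-lead helper49): Lipschitz gluing, integration by parts up to the zero set.  Helper prefix `sta_`. -/

set_option autoImplicit false
open MeasureTheory Metric Set Filter Topology
open scoped RealInnerProductSpace NNReal

namespace Crest.Agent.R97

variable {d : ℕ}

theorem sta_glue {K : ℝ≥0} {F : E d → ℝ} (h : ∀ x, ∃ r > 0, LipschitzOnWith K F (ball x r)) :
    LipschitzWith K F := by
  have hc : Continuous F := continuous_iff_continuousAt.2 fun x => by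
    obtain ⟨r, hr, h1⟩ := h x
    exact h1.continuousOn.continuousAt (ball_mem_nhds x hr)
  refine LipschitzWith.of_le_add_mul K fun b a => ?_
  have hγ : Continuous fun s : ℝ => a + s • (b - a) := by fun_prop
  have key := image_le_of_liminf_slope_right_le_deriv_boundary (f := fun s : ℝ => F (a + s • (b - a)))
    (a := 0) (b := 1) (hc.comp hγ).continuousOn (B := fun s => F a + s * (K * ‖b - a‖))
    (B' := fun _ => K * ‖b - a‖) (by simp) (by fun_prop)
    (fun x _ => by
      simpa using (((hasDerivAt_id x).mul_const ((K : ℝ) * ‖b - a‖)).const_add (F a)).hasDerivWithinAt)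
    (fun x _ r hr => by
      obtain ⟨ρ, hρ, h1⟩ := h (a + x • (b - a))
      have h2 : ∀ᶠ z in 𝓝[>] x, a + z • (b - a) ∈ ball (a + x • (b - a)) ρ :=
        nhdsWithin_le_nhds (hγ.continuousAt.eventually_mem (ball_mem_nhds _ hρ))
      refine Eventually.frequently ?_
      filter_upwards [h2, self_mem_nhdsWithin] with z hz hzx
      have hzx' : 0 < z - x := sub_pos.2 hzx
      have h3 := h1.dist_le_mul _ hz _ (mem_ball_self hρ)
      rw [dist_add_left, dist_eq_norm (z • (b - a)), ← sub_smul, norm_smul, Real.norm_eq_abs, abs_of_pos hzx',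
        Real.dist_eq] at h3
      rw [slope_def_field, div_lt_iff₀ hzx']
      nlinarith [le_abs_self (F (a + z • (b - a)) - F (a + x • (b - a)))])
    (right_mem_Icc.2 zero_le_one)
  simpa [dist_eq_norm] using key

/-- For `ε > 0` the function `F = max (f-ε) 0 + min (f+ε) 0` is `K`-Lipschitz near EVERY point (zero near points with
`|f| < ε`, a 1-Lipschitz function of `f` elsewhere).  On a segment `γ s = a + s • (b - a)` apply
`image_le_of_liminf_slope_right_le_deriv_boundary` to `F ∘ γ` with `B s = F a + s * (K * ‖b - a‖)`.  `|F - f| ≤ ε`, let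
`ε → 0` (`le_of_forall_pos_le_add`), `LipschitzWith.of_le_add_mul`. -/
theorem lip_of_local {K : ℝ≥0} {f : E d → ℝ} (hc : Continuous f)
    (h : ∀ x, f x ≠ 0 → ∃ r > 0, LipschitzOnWith K f (ball x r)) : LipschitzWith K f := by
  have hφ : ∀ ε s t : ℝ, 0 < ε →
      |(max (s - ε) 0 + min (s + ε) 0) - (max (t - ε) 0 + min (t + ε) 0)| ≤ |s - t| := by
    intro ε s t hε
    have h1 := le_abs_self (s - t)
    have h2 := neg_abs_le (s - t)
    rw [abs_le]
    simp only [max_def, min_def]
    constructor <;> split_ifs <;> linarith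
  have key : ∀ ε : ℝ, 0 < ε → LipschitzWith K fun x => max (f x - ε) 0 + min (f x + ε) 0 := by
    intro ε hε
    refine sta_glue fun x => ?_
    by_cases hx : f x = 0
    · have h1 : ∀ᶠ y in 𝓝 x, |f y| < ε :=
        hc.abs.continuousAt.eventually_lt continuousAt_const (by simpa [hx] using hε)
      obtain ⟨r, hr, h2⟩ := Metric.eventually_nhds_iff_ball.1 h1
      refine ⟨r, hr, LipschitzOnWith.of_dist_le_mul fun y hy z hz => ?_⟩
      have h3 := abs_lt.1 (h2 y hy)
      have h4 := abs_lt.1 (h2 z hz)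
      rw [max_eq_right (by linarith), min_eq_right (by linarith), max_eq_right (by linarith),
        min_eq_right (by linarith), dist_self]
      positivity
    · obtain ⟨r, hr, h2⟩ := h x hx
      refine ⟨r, hr, LipschitzOnWith.of_dist_le_mul fun y hy z hz => ?_⟩
      refine le_trans ?_ (h2.dist_le_mul y hy z hz)
      rw [Real.dist_eq, Real.dist_eq]
      exact hφ ε _ _ hε
  refine LipschitzWith.of_le_add_mul K fun a b => le_of_forall_pos_le_add fun ε hε => ?_
  have h1 := (key (ε / 2) (by linarith)).le_add_mul a b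
  have h2 : ∀ t : ℝ, t - ε / 2 ≤ max (t - ε / 2) 0 + min (t + ε / 2) 0 ∧
      max (t - ε / 2) 0 + min (t + ε / 2) 0 ≤ t + ε / 2 := by
    intro t
    simp only [max_def, min_def]
    constructor <;> split_ifs <;> linarith
  linarith [(h2 (f a)).1, (h2 (f b)).2]

/-- `lip_of_local`: continuity at points with `k = 0` from `|a k| ≤ M k`; near a point with `k > 0` take a ball inside
`{0 < k} ⊆ U`, there `a` is `M`-Lipschitz (`Convex.lipschitzOnWith_of_nnnorm_fderiv_le`, `‖fderiv‖ = ‖gradient‖`). -/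
theorem lip_mul {K : ℝ≥0} {a k : E d → ℝ} {U : Set (E d)} {M : ℝ} (hU : IsOpen U) (ha : ContDiffOn ℝ 1 a U)
    (hk : LipschitzWith K k) (hk0 : ∀ x, 0 ≤ k x)
    (hb : ∀ x, 0 < k x → x ∈ U ∧ k x ≤ M ∧ |a x| ≤ M ∧ ‖gradient a x‖ ≤ M) :
    ∃ K' : ℝ≥0, LipschitzWith K' (fun x => a x * k x) := by
  set N : ℝ≥0 := M.toNNReal with hN
  have hMN : M ≤ N := Real.le_coe_toNNReal M
  have hkc := hk.continuous
  refine ⟨N * K + N * N, lip_of_local (continuous_iff_continuousAt.2 fun x => ?_) fun x hx => ?_⟩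
  · rcases (hk0 x).eq_or_lt with hx | hx
    · have h1 : Tendsto (fun y => (N : ℝ) * k y) (𝓝 x) (𝓝 0) := by
        have := (hkc.tendsto x).const_mul (N : ℝ)
        rwa [← hx, mul_zero] at this
      have h2 : Tendsto (fun y => a y * k y) (𝓝 x) (𝓝 0) := by
        refine squeeze_zero_norm (fun y => ?_) h1
        rw [norm_mul, Real.norm_eq_abs, Real.norm_eq_abs, abs_of_nonneg (hk0 y)]
        rcases (hk0 y).eq_or_lt with hy | hy
        · rw [← hy]; simp
        · exact mul_le_mul_of_nonneg_right ((hb y hy).2.2.1.trans hMN) hy.le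
      rw [ContinuousAt, ← hx, mul_zero]
      exact h2
    · exact (ha.continuousOn.continuousAt (hU.mem_nhds (hb x hx).1)).mul hkc.continuousAt
  · have hx' : 0 < k x := (hk0 x).lt_of_ne fun h => hx (by rw [← h, mul_zero])
    obtain ⟨r, hr, h2⟩ := Metric.eventually_nhds_iff_ball.1
      (continuousAt_const.eventually_lt hkc.continuousAt hx')
    have hal : LipschitzOnWith N a (ball x r) := by
      refine (convex_ball x r).lipschitzOnWith_of_nnnorm_fderiv_le (𝕜 := ℝ) (fun y hy => ?_) fun y hy => ?_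
      · exact (ha.contDiffAt (hU.mem_nhds (hb y (h2 y hy)).1)).differentiableAt one_ne_zero
      · have h3 := (hb y (h2 y hy)).2.2.2
        rw [gradient, LinearIsometryEquiv.norm_map] at h3
        exact NNReal.coe_le_coe.1 (h3.trans hMN)
    refine ⟨r, hr, LipschitzOnWith.of_dist_le_mul fun y hy z hz => ?_⟩
    have h4 := hal.dist_le_mul y hy z hz
    have h5 := hk.dist_le_mul y z
    rw [Real.dist_eq] at h4 h5 ⊢
    have h6 : |a y| ≤ N := (hb y (h2 y hy)).2.2.1.trans hMN
    have h7 : |k z| ≤ N := by rw [abs_of_nonneg (hk0 z)]; exact (hb z (h2 z hz)).2.1.trans hMN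
    calc |a y * k y - a z * k z| = |a y * (k y - k z) + k z * (a y - a z)| := by congr 1; ring
      _ ≤ |a y| * |k y - k z| + |k z| * |a y - a z| := by
          rw [← abs_mul, ← abs_mul]; exact abs_add_le _ _
      _ ≤ N * (K * dist y z) + N * (N * dist y z) := by gcongr
      _ = _ := by push_cast; ring

/-- `h_κ = max (h - κ) 0`, `D = {κ < h}`, `closure D ⊆ {κ ≤ h} ⊆ U` compact.  `int_by_parts`; a.e.
`gradient h_κ = 1_{κ < h} gradient h` (equal germs on the open set `{κ < h}`, `gradient_ae_eq` with `0` on `{h ≤ κ}`);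
`h_κ * g ≤ h_κ * dv X` (`dv X` is continuous on `U`, so integrable on `closure D`).  Dominated convergence for
`κ = 1/(n+1)` on `{0 < h} ⊆ ball 0 R` (`norm_gradient_le`, `measurable_gradient`). -/
theorem ibp_le {K : ℝ≥0} {h g : E d → ℝ} {X : E d → E d} {U : Set (E d)} {R M : ℝ} (hU : IsOpen U)
    (hX : ContDiffOn ℝ 1 X U) (hh : LipschitzWith K h) (h0 : ∀ x, 0 ≤ h x) (hR : ∀ x, x ∉ ball (0 : E d) R → h x = 0)
    (hg : ContinuousOn g U) (hb : ∀ x, 0 < h x → x ∈ U ∧ ‖X x‖ ≤ M ∧ |g x| ≤ M ∧ g x ≤ dv X x) :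
    ∫ x in {x | 0 < h x}, h x * g x ≤ -∫ x in {x | 0 < h x}, ⟪X x, gradient h x⟫ := by
  have hc := hh.continuous
  set P : Set (E d) := {x | 0 < h x} with hP
  have hPo : IsOpen P := isOpen_lt continuous_const hc
  have hPm : MeasurableSet P := hPo.measurableSet
  have hPb : P ⊆ ball 0 R := fun x hx => by
    by_contra h1
    exact (ne_of_gt hx) (hR x h1)
  have hPU : P ⊆ U := fun x hx => (hb x hx).1
  have : IsFiniteMeasure (volume.restrict P) :=
    isFiniteMeasure_restrict.2 ((measure_mono hPb).trans_lt measure_ball_lt_top).ne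
  have hB : ∀ x ∈ P, h x ≤ h 0 + K * R := fun x hx => by
    have h1 := hh.le_add_mul x 0
    have h2 : dist x 0 ≤ R := (mem_ball.1 (hPb hx)).le
    nlinarith [K.2]
  have mX : AEStronglyMeasurable X (volume.restrict P) := (hX.continuousOn.mono hPU).aestronglyMeasurable hPm
  have mg : AEStronglyMeasurable g (volume.restrict P) := (hg.mono hPU).aestronglyMeasurable hPm
  have b1 : ∀ {w : E d → ℝ}, LipschitzWith K w → ∀ x ∈ P, ‖⟪X x, gradient w x⟫‖ ≤ M * K := fun hw x hx =>
    (norm_inner_le_norm _ _).trans (mul_le_mul (hb x hx).2.1 (norm_gradient_le hw x) (norm_nonneg _)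
      ((norm_nonneg _).trans (hb x hx).2.1))
  have b2 : ∀ {w : E d → ℝ}, (∀ x, 0 ≤ w x ∧ w x ≤ h x) → ∀ x ∈ P, ‖w x * g x‖ ≤ (h 0 + K * R) * M :=
    fun hw x hx => by
      rw [norm_mul, Real.norm_eq_abs, Real.norm_eq_abs, abs_of_nonneg (hw x).1]
      exact mul_le_mul ((hw x).2.trans (hB x hx)) (hb x hx).2.2.1 (abs_nonneg _) ((h0 x).trans (hB x hx))
  have i1 : ∀ {w : E d → ℝ}, LipschitzWith K w → IntegrableOn (fun x => ⟪X x, gradient w x⟫) P := fun {w} hw =>
    Integrable.of_bound (mX.inner (measurable_gradient w).aestronglyMeasurable) (M * K)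
      ((ae_restrict_iff' hPm).2 (Eventually.of_forall (b1 hw)))
  have i2 : ∀ {w : E d → ℝ}, LipschitzWith K w → (∀ x, 0 ≤ w x ∧ w x ≤ h x) →
      IntegrableOn (fun x => w x * g x) P := fun {w} hw hw' =>
    Integrable.of_bound (hw.continuous.aestronglyMeasurable.mul mg) _
      ((ae_restrict_iff' hPm).2 (Eventually.of_forall (b2 hw')))
  have cdv : ContinuousOn (dv X) U := continuousOn_finsetSum _ fun i _ =>
    (contDiffOn_pd (m := 0) hU (contDiffOn_euclidean.1 hX i) (by norm_num) i).continuousOn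
  have lk : ∀ κ : ℝ, LipschitzWith K fun x => max (h x - κ) 0 := fun κ => by
    have h1 : LipschitzWith K fun x => h x - κ := LipschitzWith.of_dist_le_mul fun x y => by
      rw [dist_sub_right]; exact hh.dist_le_mul x y
    exact h1.max_const 0
  have bk : ∀ κ : ℝ, 0 < κ → ∀ x, 0 ≤ max (h x - κ) 0 ∧ max (h x - κ) 0 ≤ h x := fun κ hκ x =>
    ⟨le_max_right _ _, max_le (by linarith) (h0 x)⟩
  have step : ∀ κ : ℝ, 0 < κ →
      ∫ x in P, (⟪X x, gradient (fun x => max (h x - κ) 0) x⟫ + max (h x - κ) 0 * g x) ≤ 0 := by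
    intro κ hκ
    have hDP : closure {x | κ < h x} ⊆ P :=
      (closure_minimal (fun x hx => le_of_lt hx) (isClosed_le continuous_const hc)).trans
        fun x (hx : κ ≤ h x) => hκ.trans_le hx
    have hDb : Bornology.IsBounded {x | κ < h x} := isBounded_ball.subset (subset_closure.trans (hDP.trans hPb))
    have hz : ∀ x, x ∉ {x | κ < h x} → max (h x - κ) 0 = 0 := fun x hx =>
      max_eq_right (by simpa using hx)
    have hI := int_by_parts (lk κ) hDb hU (hDP.trans hPU) hz hX
    rw [setIntegral_eq_of_subset_of_forall_sdiff_eq_zero hPm hDP]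
    · refine le_trans (setIntegral_mono_on (((i1 (lk κ)).add (i2 (lk κ) (bk κ hκ))).mono_set hDP)
        (((i1 (lk κ)).mono_set hDP).add ?_) isClosed_closure.measurableSet fun x hx => ?_) hI.le
      · exact ((lk κ).continuous.continuousOn.mul (cdv.mono (hDP.trans hPU))).integrableOn_compact
          hDb.isCompact_closure
      · exact add_le_add le_rfl (mul_le_mul_of_nonneg_left (hb x (hDP hx)).2.2.2 (bk κ hκ x).1)
    · rintro x ⟨_, hx⟩
      have h1 : (fun x => max (h x - κ) 0) =ᶠ[𝓝 x] fun _ => 0 := by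
        filter_upwards [isClosed_closure.isOpen_compl.mem_nhds hx] with y hy
        exact hz y fun h2 => hy (subset_closure h2)
      have h3 : max (h x - κ) 0 = 0 := h1.self_of_nhds
      rw [h1.gradient_eq, h3]
      simp
  have hκ : Tendsto (fun n : ℕ => 1 / ((n : ℝ) + 1)) atTop (𝓝 0) := tendsto_one_div_add_atTop_nhds_zero_nat
  have hκ0 : ∀ n : ℕ, 0 < 1 / ((n : ℝ) + 1) := fun n => by positivity
  have lim := tendsto_integral_of_dominated_convergence (μ := volume.restrict P)
    (F := fun (n : ℕ) x => ⟪X x, gradient (fun x => max (h x - 1 / ((n : ℝ) + 1)) 0) x⟫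
      + max (h x - 1 / ((n : ℝ) + 1)) 0 * g x)
    (f := fun x => ⟪X x, gradient h x⟫ + h x * g x) (fun _ => M * K + (h 0 + K * R) * M)
    (fun n => ((i1 (lk _)).add (i2 (lk _) (bk _ (hκ0 n)))).aestronglyMeasurable) (integrable_const _)
    (fun n => (ae_restrict_iff' hPm).2 (Eventually.of_forall fun x hx =>
      (norm_add_le _ _).trans (add_le_add (b1 (lk _) x hx) (b2 (bk _ (hκ0 n)) x hx))))
    ((ae_restrict_iff' hPm).2 (Eventually.of_forall fun x hx => by
      have h1 : Tendsto (fun n : ℕ => ⟪X x, gradient h x⟫ + (h x - 1 / ((n : ℝ) + 1)) * g x) atTop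
          (𝓝 (⟪X x, gradient h x⟫ + (h x - 0) * g x)) :=
        ((hκ.const_sub (h x)).mul_const (g x)).const_add _
      rw [sub_zero] at h1
      refine h1.congr' ?_
      filter_upwards [hκ.eventually_lt_const hx] with n hn
      have h2 : (fun x => max (h x - 1 / ((n : ℝ) + 1)) 0) =ᶠ[𝓝 x] fun x => h x - 1 / ((n : ℝ) + 1) := by
        filter_upwards [continuousAt_const.eventually_lt hc.continuousAt hn] with y hy
        exact max_eq_left (by linarith)
      have h3 : max (h x - 1 / ((n : ℝ) + 1)) 0 = h x - 1 / ((n : ℝ) + 1) := h2.self_of_nhds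
      rw [h2.gradient_eq, h3]
      simp only [gradient, fderiv_sub_const]))
  have fin := le_of_tendsto' lim fun n => step _ (hκ0 n)
  rw [integral_add (i1 hh) (i2 hh fun x => ⟨h0 x, le_rfl⟩)] at fin
  linarith

end Crest.Agent.R97
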