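import Crest.Agent.R97.StabA

/-! StabB (sub-lead helper49): the competitor `u - h`.  Helper prefix `stb_`. -/

set_option autoImplicit false
open MeasureTheory Metric Set Filter Topology
open scoped RealInnerProductSpace NNReal

namespace Crest.Agent.R97

variable {d : ℕ}

theorem stb_int {f : E d → ℝ} (hm : Measurable f) {M : ℝ} (hb : ∀ x, |f x| ≤ M) {S : Set (E d)} {R : ℝ}
    (hS : S ⊆ ball 0 R) : IntegrableOn f S :=
  IntegrableOn.mono_set (Measure.integrableOn_of_bounded (M := M) measure_ball_lt_top.ne hm.aestronglyMeasurable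
    (Eventually.of_forall hb)) hS

theorem stb_zero {K : ℝ≥0} {h : E d → ℝ} (hh : LipschitzWith K h) : ∀ᵐ x, h x = 0 → gradient h x = 0 := by
  filter_upwards [gradient_ae_eq hh (LipschitzWith.const (0 : ℝ))] with x hx h0
  rw [hx h0]
  exact gradient_fun_const x 0

theorem stb_int_sq {K : ℝ≥0} {h : E d → ℝ} (hh : LipschitzWith K h) {S : Set (E d)} {R : ℝ} (hS : S ⊆ ball 0 R) :
    IntegrableOn (fun x => ‖gradient h x‖ ^ 2) S :=
  stb_int ((measurable_gradient h).norm.pow_const 2) (M := (K : ℝ) ^ 2) (fun x => by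
    rw [abs_of_nonneg (sq_nonneg _)]
    exact pow_le_pow_left₀ (norm_nonneg _) (norm_gradient_le hh x) 2) hS

theorem stb_int_inner {K K' : ℝ≥0} {u h : E d → ℝ} (hu : LipschitzWith K' u) (hh : LipschitzWith K h)
    {S : Set (E d)} {R : ℝ} (hS : S ⊆ ball 0 R) : IntegrableOn (fun x => ⟪gradient u x, gradient h x⟫) S :=
  stb_int ((measurable_gradient u).inner (measurable_gradient h)) (M := (K' : ℝ) * K) (fun x =>
    (abs_real_inner_le_norm _ _).trans
      (mul_le_mul (norm_gradient_le hu x) (norm_gradient_le hh x) (norm_nonneg _) K'.2)) hS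

theorem stb_meas {u h : E d → ℝ} (hu : Continuous u) (hh : Continuous h) :
    MeasurableSet {x | 0 < u x ∧ h x = u x} :=
  (isOpen_lt continuous_const hu).measurableSet.inter (isClosed_eq hh hu).measurableSet

theorem stb_sub {u h : E d → ℝ} {R : ℝ} (hR : ∀ x, x ∉ ball (0 : E d) R → h x = 0) :
    {x | 0 < u x ∧ h x = u x} ⊆ ball (0 : E d) R := by
  intro x hx
  by_contra hb
  have := hR x hb
  linarith [hx.1, hx.2]

/-- `ibp_le` with `X = ± gradient u` on `U = {0 < u}` (`Mn.harm`: smooth there, `dv (gradient u) = lap u = 0` by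
`gradient_apply`), `g = 0`; on `{h = 0}` the gradient of `h` vanishes a.e. (`gradient_ae_eq`). -/
theorem stb_orth {u h : E d → ℝ} (hu : Mn 1 u) {K : ℝ≥0} (hh : LipschitzWith K h) (h0 : ∀ x, 0 ≤ h x)
    (h1 : ∀ x, h x ≤ u x) {R : ℝ} (hR : ∀ x, x ∉ ball (0 : E d) R → h x = 0) :
    ∫ x in ball (0 : E d) R, ⟪gradient u x, gradient h x⟫ = 0 := by
  have hU : IsOpen {x | 0 < u x} := isOpen_lt continuous_const hu.lip.continuous
  have hH := hu.harm
  have key : ∀ c : ℝ, |c| = 1 → c * ∫ x in {x | 0 < h x}, ⟪gradient u x, gradient h x⟫ ≤ 0 := by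
    intro c hc
    have e : ∀ i, (fun y => (c • gradient u y) i) = fun y => c * pd i u y := fun i => by
      funext y
      rw [PiLp.smul_apply, gradient_apply, smul_eq_mul]
    have hX : ContDiffOn ℝ 1 (fun y => c • gradient u y) {x | 0 < u x} := by
      refine contDiffOn_euclidean.2 fun i => ?_
      rw [e i]
      exact contDiffOn_const.mul (contDiffOn_pd hU hH.1 (by exact_mod_cast hara_le 2) i)
    have h2 := ibp_le (g := fun _ => 0) (M := 1) hU hX hh h0 hR continuousOn_const fun x hx => by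
      have hx' : 0 < u x := hx.trans_le (h1 x)
      refine ⟨hx', ?_, by simp, le_of_eq ?_⟩
      · rw [norm_smul, Real.norm_eq_abs, hc, one_mul]
        exact_mod_cast norm_gradient_le hu.lip x
      · have h3 := hH.2 x hx'
        unfold lap at h3
        unfold dv
        simp only [e, pd_const_mul]
        rw [← Finset.mul_sum, h3, mul_zero]
    simp only [mul_zero, integral_zero, real_inner_smul_left, integral_const_mul] at h2
    linarith
  have hI : ∫ x in ball (0 : E d) R, ⟪gradient u x, gradient h x⟫ =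
      ∫ x in {x | 0 < h x}, ⟪gradient u x, gradient h x⟫ := by
    refine setIntegral_eq_of_subset_of_ae_diff_eq_zero measurableSet_ball.nullMeasurableSet (fun x hx => ?_) ?_
    · by_contra hb
      exact absurd (hR x hb) (ne_of_gt hx)
    · filter_upwards [stb_zero hh] with x hx hx'
      rw [hx (le_antisymm (not_lt.1 hx'.2) (h0 x)), inner_zero_right]
  rw [hI]
  linarith [key 1 (by simp), key (-1) (by simp)]

/-- `Mn.min'` with `v = u - h` on `ball 0 R`.  A.e. (Rademacher, `LipschitzWith.ae_differentiableAt`)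
`gradient v = gradient u - gradient h`, so `jd v - jd u = -2⟪∇u,∇h⟫ + ‖∇h‖² - 1_A`, `A = {0 < u ∧ h = u} ⊆ ball 0 R`.
With `stb_orth`: `vol A ≤ ∫ ‖∇h‖²`; a.e. `∇h = ∇u` on `A`, `∇h = 0` on `{u = 0}`; the rest of the ball is `B`. -/
theorem stb_one {u h : E d → ℝ} (hu : Mn 1 u) {K : ℝ≥0} (hh : LipschitzWith K h) (h0 : ∀ x, 0 ≤ h x)
    (h1 : ∀ x, h x ≤ u x) {R : ℝ} (hR : ∀ x, x ∉ ball (0 : E d) R → h x = 0) :
    ∫ x in {x | 0 < u x ∧ h x = u x}, (1 - ‖gradient u x‖ ^ 2)
      ≤ ∫ x in {x | h x < u x} ∩ ball (0 : E d) R, ‖gradient h x‖ ^ 2 := by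
  have hA := stb_meas hu.lip.continuous hh.continuous
  have hB : MeasurableSet {x | h x < u x} := (isOpen_lt hh.continuous hu.lip.continuous).measurableSet
  have hv := hu.lip.sub hh
  have hmin := hu.min' (D := ball (0 : E d) R) isBounded_ball measurableSet_ball hv
    (fun x => sub_nonneg.2 (h1 x)) (fun x hx => by simp only [hR x hx, sub_zero])
  have hae : ∀ᵐ x, jd (fun x => u x - h x) x = ((jd u x - 2 * ⟪gradient u x, gradient h x⟫)
      + {x | h x < u x}.indicator (fun x => ‖gradient h x‖ ^ 2) x)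
      - {x | 0 < u x ∧ h x = u x}.indicator (fun x => 1 - ‖gradient u x‖ ^ 2) x := by
    filter_upwards [hu.lip.ae_differentiableAt (μ := volume), hh.ae_differentiableAt (μ := volume),
      gradient_ae_eq hh hu.lip, stb_zero hh] with x du dh e1 e2
    have eg : gradient (fun x => u x - h x) x = gradient u x - gradient h x := by
      unfold gradient
      rw [fderiv_fun_sub du dh, map_sub]
    unfold jd
    rw [eg, norm_sub_sq_real]
    rcases (h1 x).eq_or_lt with he | hl
    · rw [indicator_of_notMem (show x ∉ {x | h x < u x} from not_lt.2 he.ge), if_neg (by linarith)]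
      rcases (hu.nn x).eq_or_lt with h2 | h2
      · rw [indicator_of_notMem (show x ∉ {x | 0 < u x ∧ h x = u x} from fun hx => h2.not_lt hx.1),
          if_neg h2.not_lt, e2 (he.trans h2.symm)]
        simp
      · rw [indicator_of_mem (show x ∈ {x | 0 < u x ∧ h x = u x} from ⟨h2, he⟩), if_pos h2, e1 he]
        ring
    · rw [indicator_of_mem (show x ∈ {x | h x < u x} from hl), if_pos (by linarith), if_pos ((h0 x).trans_lt hl),
        indicator_of_notMem (show x ∉ {x | 0 < u x ∧ h x = u x} from fun hx => hl.ne hx.2)]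
      ring
  have i1 : IntegrableOn (jd u) (ball (0 : E d) R) := integrableOn_jd hu.lip isBounded_ball
  have i2 : IntegrableOn (fun x => 2 * ⟪gradient u x, gradient h x⟫) (ball (0 : E d) R) :=
    (stb_int_inner hu.lip hh Subset.rfl).const_mul 2
  have i3 : IntegrableOn ({x | h x < u x}.indicator fun x => ‖gradient h x‖ ^ 2) (ball (0 : E d) R) :=
    (stb_int_sq hh Subset.rfl).indicator hB
  have i0 : IntegrableOn (fun _ : E d => (1 : ℝ)) (ball (0 : E d) R) := integrableOn_const measure_ball_lt_top.ne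
  have i4 : IntegrableOn ({x | 0 < u x ∧ h x = u x}.indicator fun x => 1 - ‖gradient u x‖ ^ 2)
      (ball (0 : E d) R) := Integrable.indicator (i0.sub (stb_int_sq hu.lip Subset.rfl)) hA
  have i12 : IntegrableOn (fun x => jd u x - 2 * ⟪gradient u x, gradient h x⟫) (ball (0 : E d) R) := i1.sub i2
  have i123 : IntegrableOn (fun x => (jd u x - 2 * ⟪gradient u x, gradient h x⟫)
      + {x | h x < u x}.indicator (fun x => ‖gradient h x‖ ^ 2) x) (ball (0 : E d) R) := i12.add i3
  unfold J at hmin
  rw [integral_congr_ae (ae_restrict_of_ae hae), integral_sub i123 i4, integral_add i12 i3, integral_sub i1 i2,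
    integral_const_mul, stb_orth hu hh h0 h1 hR, setIntegral_indicator hA, setIntegral_indicator hB,
    inter_eq_self_of_subset_right (stb_sub hR), inter_comm] at hmin
  linarith

/-- `stb_orth` gives `∫_A ‖∇u‖² = -∫_B ⟪∇u,∇h⟫ ≤ m vol(ball)` (`‖∇u‖ ≤ 1`); add `stb_one`. -/
theorem stb_vol {u h : E d → ℝ} (hu : Mn 1 u) {K : ℝ≥0} (hh : LipschitzWith K h) (h0 : ∀ x, 0 ≤ h x)
    (h1 : ∀ x, h x ≤ u x) {R : ℝ} (hR : ∀ x, x ∉ ball (0 : E d) R → h x = 0) {m : ℝ} (hm0 : 0 ≤ m)
    (hm : ∀ x, h x < u x → ‖gradient h x‖ ≤ m) :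
    volume.real {x | 0 < u x ∧ h x = u x} ≤ (m + m ^ 2) * volume.real (ball (0 : E d) R) := by
  have hA := stb_meas hu.lip.continuous hh.continuous
  have hB : MeasurableSet {x | h x < u x} := (isOpen_lt hh.continuous hu.lip.continuous).measurableSet
  have fin : ∀ S ⊆ ball (0 : E d) R, volume S ≠ ⊤ := fun S hS =>
    ne_top_of_le_ne_top measure_ball_lt_top.ne (measure_mono hS)
  have h2 := stb_one hu hh h0 h1 hR
  have j0 : IntegrableOn (fun _ : E d => (1 : ℝ)) {x | 0 < u x ∧ h x = u x} :=
    integrableOn_const (fin _ (stb_sub hR))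
  rw [integral_sub j0 (stb_int_sq hu.lip (stb_sub hR)), setIntegral_const, smul_eq_mul, mul_one] at h2
  have h3 : ∫ x in {x | h x < u x} ∩ ball (0 : E d) R, ‖gradient h x‖ ^ 2 ≤ m ^ 2 * volume.real (ball (0 : E d) R) := by
    refine (setIntegral_mono_on (g := fun _ => m ^ 2) (stb_int_sq hh inter_subset_right)
      (integrableOn_const (fin _ inter_subset_right)) (hB.inter measurableSet_ball)
      fun x hx => pow_le_pow_left₀ (norm_nonneg _) (hm x hx.1) 2).trans ?_
    rw [setIntegral_const, smul_eq_mul, mul_comm]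
    exact mul_le_mul_of_nonneg_left (measureReal_mono inter_subset_right measure_ball_lt_top.ne) (sq_nonneg m)
  have i3 : IntegrableOn ({x | 0 < u x ∧ h x = u x}.indicator fun x => ‖gradient u x‖ ^ 2) (ball (0 : E d) R) :=
    (stb_int_sq hu.lip Subset.rfl).indicator hA
  have i0 : IntegrableOn (fun _ : E d => m) (ball (0 : E d) R) := integrableOn_const measure_ball_lt_top.ne
  have h4 : ∫ x in ball (0 : E d) R, ({x | 0 < u x ∧ h x = u x}.indicator (fun x => ‖gradient u x‖ ^ 2) x - m) ≤
      ∫ x in ball (0 : E d) R, ⟪gradient u x, gradient h x⟫ := by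
    refine integral_mono_ae (i3.sub i0) (stb_int_inner hu.lip hh Subset.rfl) (ae_restrict_of_ae ?_)
    filter_upwards [gradient_ae_eq hh hu.lip, stb_zero hh] with x e1 e2
    rcases (h1 x).eq_or_lt with he | hl
    · rcases (hu.nn x).eq_or_lt with h5 | h5
      · rw [indicator_of_notMem (show x ∉ {x | 0 < u x ∧ h x = u x} from fun hx => h5.not_lt hx.1),
          e2 (he.trans h5.symm), inner_zero_right]
        linarith
      · rw [indicator_of_mem (show x ∈ {x | 0 < u x ∧ h x = u x} from ⟨h5, he⟩), e1 he,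
          real_inner_self_eq_norm_sq]
        linarith
    · rw [indicator_of_notMem (show x ∉ {x | 0 < u x ∧ h x = u x} from fun hx => hl.ne hx.2)]
      have a1 : ‖gradient u x‖ ≤ 1 := by exact_mod_cast norm_gradient_le hu.lip x
      have a2 := (abs_real_inner_le_norm (gradient u x) (gradient h x)).trans
        (mul_le_mul a1 (hm x hl) (norm_nonneg _) zero_le_one)
      linarith [(abs_le.1 a2).1]
  rw [stb_orth hu hh h0 h1 hR, integral_sub i3 i0, setIntegral_indicator hA,
    inter_eq_self_of_subset_right (stb_sub hR), setIntegral_const, smul_eq_mul] at h4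
  linarith

end Crest.Agent.R97
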