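import Crest.Agent.R97.StabDefs

/-! StabC (sub-lead helper49): homogeneity; removing the radial part of `W`.  Helper prefix `stc_`. -/

set_option autoImplicit false
open MeasureTheory Metric Set Filter Topology
open scoped RealInnerProductSpace NNReal

namespace Crest.Agent.R97

variable {d : ℕ}

theorem stc_scale {F : E d → ℝ} {x : E d} {r a : ℝ} (h : ∀ᶠ y in 𝓝 x, F (r • y) = a * F y) (v : E d) :
    r * fderiv ℝ F (r • x) v = a * fderiv ℝ F x v := by
  have h1 : (fun y => F (r • y)) =ᶠ[𝓝 x] a • F := h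
  have h2 := h1.fderiv_eq (𝕜 := ℝ)
  rw [fderiv_comp_smul, fderiv_const_smul_field] at h2
  exact congrArg (fun T : E d →L[ℝ] ℝ => T v) h2

theorem stc_grad {F : E d → ℝ} {x : E d} {r a : ℝ} (hr : r ≠ 0) (h : ∀ᶠ y in 𝓝 x, F (r • y) = a * F y) :
    gradient F (r • x) = (a / r) • gradient F x := by
  refine ext_inner_right ℝ fun v => ?_
  rw [real_inner_smul_left, inner_gradient_left, inner_gradient_left, div_mul_eq_mul_div, ← stc_scale h v]
  field_simp

theorem stc_euler {F : E d → ℝ} {x : E d} (hF : DifferentiableAt ℝ F x) {φ : ℝ → ℝ} {k : ℝ}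
    (hφ : HasDerivAt φ k 1) (h : ∀ r : ℝ, 0 < r → F (r • x) = φ r * F x) : fderiv ℝ F x x = k * F x := by
  have h1 : HasDerivAt (fun r : ℝ => r • x) x 1 := by simpa using (hasDerivAt_id (1 : ℝ)).smul_const x
  have h2 : HasFDerivAt F (fderiv ℝ F x) ((1 : ℝ) • x) := by rw [one_smul]; exact hF.hasFDerivAt
  have h3 := h2.comp_hasDerivAt (1 : ℝ) h1
  have h4 : (F ∘ fun r : ℝ => r • x) =ᶠ[𝓝 1] fun r => φ r * F x := by
    filter_upwards [lt_mem_nhds (zero_lt_one' ℝ)] with r hr using h r hr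
  exact h3.unique ((hφ.mul_const (F x)).congr_of_eventuallyEq h4)

theorem stc_dv_scale {W : E d → E d} {x : E d} {r : ℝ} (hr : r ≠ 0) (h : ∀ᶠ y in 𝓝 x, W (r • y) = r⁻¹ • W y) :
    dv W (r • x) = dv W x / r ^ 2 := by
  rw [dv, dv, Finset.sum_div]
  refine Finset.sum_congr rfl fun i _ => ?_
  have h1 := stc_scale (F := fun y => W y i) (a := r⁻¹) (h.mono fun y hy => by rw [hy]; simp)
    (EuclideanSpace.single i 1)
  rw [pd, pd, eq_div_iff (pow_ne_zero 2 hr)]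
  field_simp at h1
  linarith

theorem stc_dv_rad {W : E d → E d} {g : E d → ℝ} {x : E d} (hW : DifferentiableAt ℝ W x)
    (hg : DifferentiableAt ℝ g x) : dv (fun y => W y - g y • y) x = dv W x - (fderiv ℝ g x x + d * g x) := by
  have h1 : ∀ i, pd i (fun y => (W y - g y • y) i) x = pd i (fun y => W y i) x - (x i * pd i g x + g x) := by
    intro i
    have c : DifferentiableAt ℝ (fun y : E d => y i) x := by fun_prop
    have w : DifferentiableAt ℝ (fun y : E d => W y i) x := by fun_prop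
    have m : DifferentiableAt ℝ (fun y : E d => g y * y i) x := hg.mul c
    have e : (fun y => (W y - g y • y) i) = fun y => W y i - g y * y i := by
      ext y
      simp
    rw [e, pd_sub w m, pd_mul hg c, pd_coord, if_pos rfl]
    ring
  simp only [dv, h1, Finset.sum_sub_distrib, Finset.sum_add_distrib, fderiv_eq_sum_pd g x x]
  simp

set_option maxHeartbeats 1000000 in
/-- `X x = W x - (⟪W x, x⟫ / ‖x‖²) • x`, `C' = 2 |C|`.  `u 0 = 0` (`hh 2`), so `u x ≤ ‖x‖` and `0 ∉ Ω = {0 < u}` (open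
cone).  One lemma does all scalings: if `F (r • y) = r^k • F y`-type identity holds on the open cone and `F` is
differentiable there, then `r • fderiv F (r • x) = (factor) • fderiv F x` (chain rule on equal germs) and Euler's identity
`fderiv F x x = k • F x` (differentiate `r ↦ F (r • x)` at `r = 1`).  Hence for `x = r • y`, `‖y‖ = 1`:
`gradient u x = gradient u y`, `rho u x = rho u y / r`, `gradient Φ x = r⁻¹ • gradient Φ y`, `dv W x = dv W y / r²`;
`⟪∇u x, x⟫ = u x`, `⟪∇Φ x, x⟫ = 0`.  `g x = ⟪W x, x⟫/‖x‖²` has degree `-2`, `dv (g • x) = fderiv g x x + d g = (d-2) g`.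
`⟪X y, ∇u y⟫ = ⟪W y, ∇u y⟫ - ⟪W y, y⟫ u y ≥ ⟪W y, ∇u y⟫ - |C| δ`. -/
theorem pk_of {u : E d → ℝ} (hu : Mn 1 u) (hh : Hom u) {Φ : E d → ℝ} {W : E d → E d} {Λ C : ℝ}
    (hΦ : ContDiffOn ℝ 1 Φ {x | 0 < u x}) (hW : ContDiffOn ℝ 1 W {x | 0 < u x})
    (hΦh : ∀ r : ℝ, 0 < r → ∀ x, 0 < u x → Φ (r • x) = Φ x)
    (hWh : ∀ r : ℝ, 0 < r → ∀ x, 0 < u x → W (r • x) = r⁻¹ • W x)
    (hΦ0 : ∀ x, 0 < u x → 0 ≤ Φ x)
    (hb : ∀ x, ‖x‖ = 1 → 0 < u x → Φ x ≤ C ∧ ‖gradient Φ x‖ ≤ C ∧ ‖W x‖ ≤ C)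
    (hint : ∀ x, ‖x‖ = 1 → 0 < u x → 0 ≤ dv W x - ((d : ℝ) - 2) * ⟪W x, x⟫ - Λ * Φ x ∧
      ‖gradient Φ x‖ ^ 2 ≤ 4 * Φ x * (dv W x - ((d : ℝ) - 2) * ⟪W x, x⟫ - Λ * Φ x))
    (hbd : ∀ ε : ℝ, 0 < ε → ∃ δ : ℝ, 0 < δ ∧ ∀ x, ‖x‖ = 1 → 0 < u x → u x < δ →
      -ε ≤ rho u x * Φ x + ⟪W x, gradient u x⟫) :
    ∃ (X : E d → E d) (C' : ℝ), Pk u Φ X Λ C' := by
  have hu0 : u 0 = 0 := by
    have := hh 2 two_pos 0
    rw [smul_zero] at this
    linarith
  have hop : IsOpen {x | 0 < u x} := isOpen_lt continuous_const hu.lip.continuous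
  have hne : ∀ x, 0 < u x → x ≠ 0 := fun x hx h => by rw [h, hu0] at hx; exact lt_irrefl _ hx
  have hev : ∀ x, 0 < u x → ∀ᶠ y in 𝓝 x, 0 < u y := fun x hx => hop.mem_nhds hx
  have pol : ∀ x, 0 < u x → ∃ (r : ℝ) (y : E d), 0 < r ∧ ‖y‖ = 1 ∧ 0 < u y ∧ ‖r • y‖ = r ∧ x = r • y := by
    intro x hx
    have hn : 0 < ‖x‖ := norm_pos_iff.2 (hne x hx)
    have e : ‖x‖ • ‖x‖⁻¹ • x = x := by rw [smul_smul, mul_inv_cancel₀ hn.ne', one_smul]
    refine ⟨‖x‖, ‖x‖⁻¹ • x, hn, norm_smul_inv_norm (𝕜 := ℝ) (hne x hx), ?_, by rw [e], e.symm⟩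
    rw [hh _ (inv_pos.2 hn)]
    positivity
  have dΦ : ∀ x, 0 < u x → DifferentiableAt ℝ Φ x := fun x hx =>
    (hΦ.contDiffAt (hop.mem_nhds hx)).differentiableAt one_ne_zero
  have dW : ∀ x, 0 < u x → DifferentiableAt ℝ W x := fun x hx =>
    (hW.contDiffAt (hop.mem_nhds hx)).differentiableAt one_ne_zero
  have du : ∀ x, 0 < u x → DifferentiableAt ℝ u x := fun x hx =>
    (hu.harm.1.contDiffAt (hop.mem_nhds hx)).differentiableAt (by simp)
  obtain ⟨g, hg⟩ : ∃ g : E d → ℝ, g = fun x => ⟪W x, x⟫ / ‖x‖ ^ 2 := ⟨_, rfl⟩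
  have hgx : ∀ x, g x = ⟪W x, x⟫ / ‖x‖ ^ 2 := fun x => by rw [hg]
  have hgs : ContDiffOn ℝ 1 g {x | 0 < u x} := by
    rw [hg]
    exact (hW.inner ℝ contDiffOn_id).div (contDiff_norm_sq ℝ).contDiffOn fun x hx =>
      pow_ne_zero 2 (norm_ne_zero_iff.2 (hne x hx))
  have dg : ∀ x, 0 < u x → DifferentiableAt ℝ g x := fun x hx =>
    (hgs.contDiffAt (hop.mem_nhds hx)).differentiableAt one_ne_zero
  have hgh : ∀ r : ℝ, 0 < r → ∀ x, 0 < u x → g (r • x) = (r ^ 2)⁻¹ * g x := by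
    intro r hr x hx
    have := norm_ne_zero_iff.2 (hne x hx)
    rw [hgx, hgx, hWh r hr x hx, real_inner_smul_left, real_inner_smul_right, norm_smul,
      Real.norm_of_nonneg hr.le]
    field_simp
  have hg1 : ∀ y : E d, ‖y‖ = 1 → g y = ⟪W y, y⟫ := fun y hy => by rw [hgx, hy]; simp
  have eg : ∀ x, 0 < u x → fderiv ℝ g x x = -2 * g x := by
    intro x hx
    refine stc_euler (dg x hx) (φ := fun r => (r ^ 2)⁻¹) ?_ fun r hr => hgh r hr x hx
    exact ((hasDerivAt_pow 2 (1 : ℝ)).fun_inv (by norm_num)).congr_deriv (by norm_num)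
  have eu : ∀ x, 0 < u x → ⟪x, gradient u x⟫ = u x := by
    intro x hx
    rw [real_inner_comm, inner_gradient_left,
      stc_euler (du x hx) (hasDerivAt_id (1 : ℝ)) fun r hr => hh r hr x, one_mul]
  have gΦ : ∀ r : ℝ, 0 < r → ∀ y, 0 < u y → gradient Φ (r • y) = r⁻¹ • gradient Φ y := by
    intro r hr y hy
    rw [← one_div]
    exact stc_grad hr.ne' ((hev y hy).mono fun z hz => by rw [hΦh r hr z hz, one_mul])
  have gu : ∀ r : ℝ, 0 < r → ∀ y, gradient u (r • y) = gradient u y := by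
    intro r hr y
    rw [stc_grad hr.ne' (Eventually.of_forall fun z => hh r hr z), div_self hr.ne', one_smul]
  have hX : ∀ r : ℝ, 0 < r → ∀ y, 0 < u y → W (r • y) - g (r • y) • r • y = r⁻¹ • (W y - g y • y) := by
    intro r hr y hy
    rw [hWh r hr y hy, hgh r hr y hy, smul_sub, smul_smul, smul_smul]
    congr 2
    field_simp
  have hdv : ∀ r : ℝ, 0 < r → ∀ y, ‖y‖ = 1 → 0 < u y →
      dv (fun x => W x - g x • x) (r • y) - Λ * Φ (r • y) / r ^ 2 =
        (dv W y - ((d : ℝ) - 2) * ⟪W y, y⟫ - Λ * Φ y) / r ^ 2 := by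
    intro r hr y h1 hy
    rw [stc_dv_scale (W := fun x => W x - g x • x) hr.ne' ((hev y hy).mono fun z hz => hX r hr z hz),
      stc_dv_rad (dW y hy) (dg y hy), eg y hy, hg1 y h1, hΦh r hr y hy]
    ring
  have hin : ∀ y : E d, ‖y‖ = 1 → 0 < u y → |⟪W y, y⟫| ≤ |C| := fun y h1 hy => by
    have := abs_real_inner_le_norm (W y) y
    rw [h1, mul_one] at this
    exact this.trans ((hb y h1 hy).2.2.trans (le_abs_self C))
  have hC : C ≤ 2 * |C| := by linarith [le_abs_self C, abs_nonneg C]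
  refine ⟨fun x => W x - g x • x, 2 * |C|, hu, fun x => ?_, hΦ, hW.sub (hgs.smul contDiffOn_id), by positivity, hΦ0,
    fun x hx => ?_, fun x hx => ?_, fun x hx => ?_, fun x hx => ?_, fun x hx => ?_, fun x hx => ?_,
    fun x hx => ?_, fun ε hε => ?_⟩
  · have := hu.lip.dist_le_mul x 0
    rw [hu0, Real.dist_eq, sub_zero, dist_zero_right, NNReal.coe_one, one_mul] at this
    exact (le_abs_self _).trans this
  · obtain ⟨r, y, hr, h1, hy, -, rfl⟩ := pol x hx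
    rw [hΦh r hr y hy]
    exact (hb y h1 hy).1.trans hC
  · obtain ⟨r, y, hr, h1, hy, hn, rfl⟩ := pol x hx
    rw [gΦ r hr y hy, hn, norm_smul, Real.norm_of_nonneg (inv_pos.2 hr).le, mul_right_comm, inv_mul_cancel₀ hr.ne',
      one_mul]
    exact (hb y h1 hy).2.1.trans hC
  · obtain ⟨r, y, hr, h1, hy, hn, rfl⟩ := pol x hx
    rw [hX r hr y hy, hn, norm_smul, Real.norm_of_nonneg (inv_pos.2 hr).le, mul_right_comm, inv_mul_cancel₀ hr.ne',
      one_mul]
    refine (norm_sub_le _ _).trans ?_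
    rw [norm_smul, h1, mul_one, hg1 y h1, Real.norm_eq_abs]
    linarith [hin y h1 hy, (hb y h1 hy).2.2, le_abs_self C]
  · rw [inner_gradient_left, stc_euler (dΦ x hx) (hasDerivAt_const (1 : ℝ) (1 : ℝ))
      fun r hr => by rw [hΦh r hr x hx, one_mul], zero_mul]
  · have := norm_ne_zero_iff.2 (hne x hx)
    rw [inner_sub_left, real_inner_smul_left, real_inner_self_eq_norm_sq, hgx]
    field_simp
    ring
  · obtain ⟨r, y, hr, h1, hy, hn, rfl⟩ := pol x hx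
    rw [hn, hdv r hr y h1 hy]
    exact div_nonneg (hint y h1 hy).1 (sq_nonneg r)
  · obtain ⟨r, y, hr, h1, hy, hn, rfl⟩ := pol x hx
    rw [hn, hdv r hr y h1 hy, gΦ r hr y hy, hΦh r hr y hy, norm_smul, Real.norm_of_nonneg (inv_pos.2 hr).le,
      mul_pow, inv_pow, ← div_eq_inv_mul, ← mul_div_assoc]
    exact div_le_div_of_nonneg_right (hint y h1 hy).2 (sq_nonneg r)
  · obtain ⟨δ, hδ, hδb⟩ := hbd (ε / 2) (half_pos hε)
    have hp : 0 < |C| + 1 := by positivity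
    refine ⟨min δ (ε / 2 / (|C| + 1)), lt_min hδ (by positivity), fun x hx hs => ?_⟩
    obtain ⟨r, y, hr, h1, hy, hn, rfl⟩ := pol x hx
    rw [hn, hh r hr, mul_comm] at hs
    have h2 := lt_of_mul_lt_mul_right hs hr.le
    have h3 := hδb y h1 hy (h2.trans_le (min_le_left _ _))
    have h4 := (lt_div_iff₀ hp).1 (h2.trans_le (min_le_right _ _))
    have h5 : ⟪W y, y⟫ * u y ≤ |C| * u y :=
      mul_le_mul_of_nonneg_right ((le_abs_self _).trans (hin y h1 hy)) hy.le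
    have e : (rho u (r • y) * Φ (r • y) + ⟪W (r • y) - g (r • y) • r • y, gradient u (r • y)⟫) * r =
        rho u y * Φ y + ⟪W y, gradient u y⟫ - ⟪W y, y⟫ * u y := by
      rw [hX r hr y hy, rho, rho, gu r hr, hh r hr, hΦh r hr y hy, real_inner_smul_left, inner_sub_left,
        real_inner_smul_left, eu y hy, hg1 y h1]
      field_simp
      ring
    rw [hn, e]
    nlinarith

end Crest.Agent.R97
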