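import Crest.Agent.R97.StabB

/-! StabD1 (helper49): the functions `f = u/φ`, `k = min (f/t) η`, `h = tφk`. -/

set_option autoImplicit false
set_option linter.unusedSectionVars false
open MeasureTheory Metric Set Filter Topology
open scoped RealInnerProductSpace NNReal

namespace Crest.Agent.R97

variable {d : ℕ}

/-- all data of one step, with one constant `M` -/
structure Pf (u Φ φ η : E d → ℝ) (X : E d → E d) (Λ M R : ℝ) : Prop where
  mn : Mn 1 u
  ule : ∀ x, u x ≤ ‖x‖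
  cΦ : ContinuousOn Φ {x | 0 < u x}
  cφ : ContDiffOn ℝ 1 φ {x | 0 < u x}
  cX : ContDiffOn ℝ 1 X {x | 0 < u x}
  rad : Rad η R
  M1 : 1 ≤ M
  Λ0 : 0 ≤ Λ
  φ0 : ∀ x, 0 ≤ φ x
  lo : ∀ x, 0 < u x → 1 ≤ M * φ x
  hi : ∀ x, 0 < u x → φ x ≤ M
  Φ0 : ∀ x, 0 < u x → 0 ≤ Φ x
  Φb : ∀ x, 0 < u x → Φ x ≤ φ x ^ 2
  gφ : ∀ x, 0 < u x → ‖gradient φ x‖ * ‖x‖ ≤ M
  Xb : ∀ x, 0 < u x → ‖X x‖ * ‖x‖ ≤ M
  tφ : ∀ x, 0 < u x → ⟪gradient φ x, x⟫ = 0
  tX : ∀ x, 0 < u x → ⟪X x, x⟫ = 0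
  i1 : ∀ x, 0 < u x → ‖gradient φ x‖ ^ 2 + Λ * Φ x / ‖x‖ ^ 2 ≤ dv X x
  ηb : ∀ x, η x ≤ M
  ηg : ∀ x, ‖gradient η x‖ ≤ M
  ηl : ∃ K : ℝ≥0, LipschitzWith K η
  bd : ∀ ε : ℝ, 0 < ε → ∃ δ : ℝ, 0 < δ ∧ ∀ x, 0 < u x → u x < δ * ‖x‖ →
    -ε ≤ (rho u x * Φ x + ⟪X x, gradient u x⟫) * ‖x‖

theorem std_grad_mul {a b : E d → ℝ} {x : E d} (ha : DifferentiableAt ℝ a x) (hb : DifferentiableAt ℝ b x) :
    gradient (fun y => a y * b y) x = a x • gradient b x + b x • gradient a x := by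
  unfold gradient
  rw [fderiv_fun_mul ha hb]
  simp

theorem std_grad_const_mul {a : E d → ℝ} {x : E d} (c : ℝ) (ha : DifferentiableAt ℝ a x) :
    gradient (fun y => c * a y) x = c • gradient a x := by
  unfold gradient
  rw [fderiv_const_mul ha]
  simp

theorem std_grad_comp {a : E d → ℝ} {x : E d} {g : ℝ → ℝ} {g' : ℝ} (ha : DifferentiableAt ℝ a x)
    (hg : HasDerivAt g g' (a x)) : gradient (fun y => g (a y)) x = g' • gradient a x := by
  unfold gradient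
  have := (hg.comp_hasFDerivAt x ha.hasFDerivAt).fderiv
  rw [show (fun y => g (a y)) = g ∘ a from rfl, this]
  simp

theorem std_lip_sq {K : ℝ≥0} {k : E d → ℝ} {M : ℝ} (hk : LipschitzWith K k) (h0 : ∀ x, 0 ≤ k x)
    (h1 : ∀ x, k x ≤ M) : ∃ K' : ℝ≥0, LipschitzWith K' (fun x => k x ^ 2) := by
  have hM : 0 ≤ M := (h0 0).trans (h1 0)
  refine ⟨NNReal.mk (2 * M * K) (by positivity), LipschitzWith.of_dist_le_mul fun a b => ?_⟩
  have := hk.dist_le_mul a b
  rw [Real.dist_eq] at this ⊢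
  rw [show k a ^ 2 - k b ^ 2 = (k a + k b) * (k a - k b) by ring, abs_mul,
    abs_of_nonneg (add_nonneg (h0 a) (h0 b)), NNReal.coe_mk, mul_assoc]
  exact mul_le_mul (by linarith [h1 a, h1 b]) this (abs_nonneg _) (by positivity)

namespace Pf
variable {u Φ φ η : E d → ℝ} {X : E d → E d} {Λ M R : ℝ} (P : Pf u Φ φ η X Λ M R)
include P

theorem opn : IsOpen {x | 0 < u x} := isOpen_lt continuous_const P.mn.lip.continuous

theorem φpos {x : E d} (hx : 0 < u x) : 0 < φ x := by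
  have h1 := P.lo x hx
  by_contra h
  have h0 : φ x = 0 := le_antisymm (not_lt.1 h) (P.φ0 x)
  rw [h0] at h1; linarith

theorem du {x : E d} (hx : 0 < u x) : DifferentiableAt ℝ u x :=
  (P.mn.harm.1.contDiffAt (P.opn.mem_nhds hx)).differentiableAt (by simp)

theorem dφ {x : E d} (hx : 0 < u x) : DifferentiableAt ℝ φ x :=
  (P.cφ.contDiffAt (P.opn.mem_nhds hx)).differentiableAt (by simp)

theorem dη (x : E d) : DifferentiableAt ℝ η x := P.rad.sm.differentiable (by simp) x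

theorem half {x : E d} (hx : 0 < η x) : 1 / 2 < ‖x‖ := by
  by_contra h
  rw [P.rad.lo x (not_lt.1 h)] at hx
  exact lt_irrefl _ hx

theorem inv_le {x : E d} (hx : 0 < u x) : (φ x)⁻¹ ≤ M := by
  rw [inv_le_iff_one_le_mul₀ (P.φpos hx)]; exact P.lo x hx

theorem grad_f {x : E d} (hx : 0 < u x) : gradient (fun y => u y / φ y) x
    = (φ x)⁻¹ • gradient u x - (u x / φ x ^ 2) • gradient φ x := by
  have h0 := (P.φpos hx).ne'
  have h1 := std_grad_mul (P.du hx) ((P.dφ hx).inv h0)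
  have h2 := std_grad_comp (g := fun s => s⁻¹) (P.dφ hx) (hasDerivAt_inv h0)
  simp only [div_eq_mul_inv]
  rw [show (fun y => u y * (φ y)⁻¹) = fun y => u y * φ⁻¹ y from rfl, h1,
    show φ⁻¹ = fun y => (φ y)⁻¹ from rfl, h2, smul_smul, add_comm, sub_eq_add_neg, ← neg_smul]
  congr 2; ring

theorem df {x : E d} (hx : 0 < u x) : DifferentiableAt ℝ (fun y => u y / φ y) x := by
  simp only [div_eq_mul_inv]
  exact (P.du hx).fun_mul ((P.dφ hx).fun_inv (P.φpos hx).ne')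

theorem f_nonneg (x : E d) : 0 ≤ u x / φ x := div_nonneg (P.mn.nn x) (P.φ0 x)

theorem f_le (x : E d) : u x / φ x ≤ M * u x := by
  rcases (P.mn.nn x).eq_or_lt with h | h
  · rw [← h]; simp
  · rw [div_eq_inv_mul]; exact mul_le_mul_of_nonneg_right (P.inv_le h) h.le

theorem lip_f : ∃ K : ℝ≥0, LipschitzWith K (fun y => u y / φ y) := by
  have hM := P.M1
  refine ⟨NNReal.mk (M + M ^ 3) (by positivity), lipschitz_of_grad ?_ (fun x hx => ?_)⟩
  · refine continuous_iff_continuousAt.2 fun x => ?_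
    rcases (P.mn.nn x).eq_or_lt with h | h
    · have hc : Tendsto (fun y => M * u y) (𝓝 x) (𝓝 0) := by
        have := (P.mn.lip.continuous.tendsto x).const_mul M
        rwa [← h, mul_zero] at this
      have := squeeze_zero P.f_nonneg P.f_le hc
      unfold ContinuousAt
      beta_reduce
      rwa [← h, zero_div]
    · exact (P.df h).continuousAt
  · have h : 0 < u x := lt_of_le_of_ne (P.mn.nn x) (fun h0 => hx (by rw [← h0]; simp))
    refine ⟨P.df h, ?_⟩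
    rw [P.grad_f h, NNReal.coe_mk]
    have hp := P.φpos h
    refine (norm_sub_le _ _).trans (add_le_add ?_ ?_)
    · rw [norm_smul, Real.norm_of_nonneg (by positivity)]
      have := norm_gradient_le P.mn.lip x
      exact (mul_le_of_le_one_right (by positivity) (by simpa using this)).trans (P.inv_le h)
    · rw [norm_smul, Real.norm_of_nonneg (by positivity)]
      have h1 := P.inv_le h
      have h2 : u x * ‖gradient φ x‖ ≤ M :=
        (mul_le_mul_of_nonneg_right (P.ule x) (norm_nonneg _)).trans (by rw [mul_comm]; exact P.gφ x h)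
      calc u x / φ x ^ 2 * ‖gradient φ x‖ = (φ x)⁻¹ ^ 2 * (u x * ‖gradient φ x‖) := by field_simp
        _ ≤ M ^ 2 * M := by gcongr
        _ = M ^ 3 := by ring

end Pf

/-- `k = min (u/(tφ)) η` -/
noncomputable def kk (u φ η : E d → ℝ) (t : ℝ) (x : E d) : ℝ := min (t⁻¹ * (u x / φ x)) (η x)

/-- `h = min u (tφη)` -/
noncomputable def hh (u φ η : E d → ℝ) (t : ℝ) (x : E d) : ℝ := (t * φ x) * kk u φ η t x

namespace Pf
variable {u Φ φ η : E d → ℝ} {X : E d → E d} {Λ M R : ℝ} (P : Pf u Φ φ η X Λ M R) {t : ℝ} (ht : 0 < t)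
include P ht

theorem k0 (x : E d) : 0 ≤ kk u φ η t x :=
  le_min (mul_nonneg (by positivity) (P.f_nonneg x)) (P.rad.nn x)

theorem k_pos {x : E d} (hx : 0 < kk u φ η t x) : 0 < u x ∧ 0 < η x := by
  refine ⟨lt_of_le_of_ne (P.mn.nn x) (fun h => ?_), hx.trans_le (min_le_right _ _)⟩
  have := hx.trans_le (min_le_left _ _)
  rw [← h] at this; simp at this

theorem lip_k : ∃ K : ℝ≥0, LipschitzWith K (kk u φ η t) := by
  obtain ⟨K1, h1⟩ := P.lip_f
  obtain ⟨K2, h2⟩ := P.ηl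
  have h3 : LipschitzWith (‖t⁻¹‖₊ * K1) (fun x => t⁻¹ * (u x / φ x)) :=
    (lipschitzWith_smul t⁻¹).comp h1
  exact ⟨_, h3.min h2⟩

theorem lip_h (ht1 : t ≤ 1) : ∃ K : ℝ≥0, LipschitzWith K (hh u φ η t) := by
  obtain ⟨K, hK⟩ := P.lip_k ht
  have hM := P.M1
  refine lip_mul (M := 2 * M) P.opn (contDiffOn_const.mul P.cφ) hK (P.k0 ht) (fun x hx => ?_)
  obtain ⟨h1, h2⟩ := P.k_pos ht hx
  have hp := P.φpos h1
  refine ⟨h1, (min_le_right _ _).trans ((P.ηb x).trans (by linarith)), ?_, ?_⟩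
  · rw [abs_of_pos (by positivity)]
    nlinarith [P.hi x h1]
  · rw [std_grad_const_mul t (P.dφ h1), norm_smul, Real.norm_of_nonneg ht.le]
    have := P.gφ x h1
    have := P.half h2
    have := norm_nonneg (gradient φ x)
    nlinarith

theorem h_eq {x : E d} (hx : 0 < u x) : hh u φ η t x = min (u x) (t * φ x * η x) := by
  have hp := P.φpos hx
  unfold hh kk
  rw [mul_min_of_nonneg _ _ (by positivity : 0 ≤ t * φ x)]
  congr 1
  field_simp

theorem h0 (x : E d) : 0 ≤ hh u φ η t x := mul_nonneg (mul_nonneg ht.le (P.φ0 x)) (P.k0 ht x)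

theorem h_le (x : E d) : hh u φ η t x ≤ u x := by
  rcases (P.mn.nn x).eq_or_lt with h | h
  · have : kk u φ η t x = 0 := le_antisymm ((min_le_left _ _).trans (by rw [← h]; simp)) (P.k0 ht x)
    unfold hh; rw [this, ← h]; simp
  · rw [P.h_eq ht h]; exact min_le_left _ _

theorem k_out {x : E d} (hx : x ∉ ball (0 : E d) R) : kk u φ η t x = 0 := by
  refine le_antisymm ((min_le_right _ _).trans (le_of_eq (P.rad.hi x ?_))) (P.k0 ht x)
  simpa using hx

theorem h_out (x : E d) (hx : x ∉ ball (0 : E d) R) : hh u φ η t x = 0 := by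
  unfold hh; rw [P.k_out ht hx, mul_zero]

theorem B_iff {x : E d} (hx : hh u φ η t x < u x) : 0 < u x ∧ η x < t⁻¹ * (u x / φ x) := by
  have h1 : 0 < u x := (P.h0 ht x).trans_lt hx
  have hp := P.φpos h1
  refine ⟨h1, ?_⟩
  rw [P.h_eq ht h1, min_lt_iff] at hx
  rcases hx with h | h
  · exact absurd h (lt_irrefl _)
  · rw [inv_mul_eq_div, div_div, lt_div_iff₀ (by positivity)]; linarith

theorem grad_h {x : E d} (hx : hh u φ η t x < u x) :
    ‖gradient (hh u φ η t) x‖ ^ 2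
      = t ^ 2 * (η x ^ 2 * ‖gradient φ x‖ ^ 2 + φ x ^ 2 * ‖gradient η x‖ ^ 2) := by
  obtain ⟨h1, h2⟩ := P.B_iff ht hx
  obtain ⟨K1, hf⟩ := P.lip_f
  have e : hh u φ η t =ᶠ[𝓝 x] fun y => t * (φ y * η y) := by
    have := (P.rad.sm.continuous.continuousAt (x := x)).eventually_lt
      ((continuous_const.mul hf.continuous).continuousAt (x := x)) h2
    filter_upwards [this] with y hy
    unfold hh kk
    rw [min_eq_right (show η y ≤ t⁻¹ * (u y / φ y) from hy.le)]; ring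
  rw [e.gradient_eq, std_grad_const_mul t ((P.dφ h1).fun_mul (P.dη x)), std_grad_mul (P.dφ h1) (P.dη x),
    norm_smul, mul_pow, Real.norm_eq_abs, sq_abs, norm_add_sq_real, norm_smul, norm_smul, mul_pow, mul_pow,
    Real.norm_eq_abs, Real.norm_eq_abs, sq_abs, sq_abs, real_inner_smul_left, real_inner_smul_right]
  obtain ⟨c, hc⟩ := P.rad.rad x
  have : ⟪gradient η x, gradient φ x⟫ = 0 := by
    rw [hc, real_inner_smul_left, real_inner_comm, P.tφ x h1, mul_zero]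
  rw [this]; ring

theorem ηgφ {x : E d} (hx : 0 < u x) : η x * ‖gradient φ x‖ ≤ 2 * M ^ 2 := by
  have hM := P.M1
  rcases (P.rad.nn x).eq_or_lt with h | h
  · rw [← h]; simp; positivity
  · have h1 := P.gφ x hx
    have h2 := P.half h
    have h3 := norm_nonneg (gradient φ x)
    have h4 : ‖gradient φ x‖ ≤ 2 * M := by nlinarith
    calc _ ≤ M * (2 * M) := mul_le_mul (P.ηb x) h4 h3 (by positivity)
      _ = _ := by ring

theorem grad_h_le {x : E d} (hx : hh u φ η t x < u x) : ‖gradient (hh u φ η t) x‖ ≤ t * (3 * M ^ 2) := by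
  have hM := P.M1
  obtain ⟨h1, -⟩ := P.B_iff ht hx
  refine (pow_le_pow_iff_left₀ (norm_nonneg _) (by positivity) two_ne_zero).1 ?_
  rw [P.grad_h ht hx, mul_pow]
  refine mul_le_mul_of_nonneg_left ?_ (by positivity)
  have a1 : (η x * ‖gradient φ x‖) ^ 2 ≤ (2 * M ^ 2) ^ 2 :=
    pow_le_pow_left₀ (mul_nonneg (P.rad.nn x) (norm_nonneg _)) (P.ηgφ ht h1) 2
  have a2 : (φ x * ‖gradient η x‖) ^ 2 ≤ (M * M) ^ 2 :=
    pow_le_pow_left₀ (mul_nonneg (P.φ0 x) (norm_nonneg _))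
      (mul_le_mul (P.hi x h1) (P.ηg x) (norm_nonneg _) (by positivity)) 2
  have : 0 ≤ M ^ 4 := by positivity
  nlinarith

/-- the pointwise inequality in the boundary layer -/
theorem layer {ε : ℝ} (hε : 0 ≤ ε) {x : E d} (hu : 0 < u x) (hx : t⁻¹ * (u x / φ x) < η x)
    (hb : -ε ≤ (rho u x * Φ x + ⟪X x, gradient u x⟫) * ‖x‖) :
    -⟪X x, gradient (fun y => kk u φ η t y ^ 2) x⟫
      ≤ (1 - ‖gradient u x‖ ^ 2) / t ^ 2 + (ε * (4 * M ^ 2) / t + 8 * M ^ 5) := by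
  have hM := P.M1
  obtain ⟨K1, hf⟩ := P.lip_f
  have hp := P.φpos hu
  have hη : 0 < η x := lt_of_le_of_lt (by positivity) hx
  have hn := P.half hη
  have e : (fun y => kk u φ η t y ^ 2) =ᶠ[𝓝 x] fun y => (t⁻¹ * (u y / φ y)) ^ 2 := by
    have := ((continuous_const.mul hf.continuous).continuousAt (x := x)).eventually_lt
      (P.rad.sm.continuous.continuousAt (x := x)) hx
    filter_upwards [this] with y hy
    unfold kk
    rw [min_eq_left (show t⁻¹ * (u y / φ y) ≤ η y from hy.le)]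
  have df : DifferentiableAt ℝ (fun y => u y / φ y) x := P.df hu
  rw [e.gradient_eq, std_grad_comp (g := fun s => (t⁻¹ * s) ^ 2) (g' := 2 * (t⁻¹ * (u x / φ x)) * t⁻¹) df
    ((((hasDerivAt_id' (u x / φ x)).const_mul t⁻¹).fun_pow 2).congr_deriv (by simp)), P.grad_f hu,
    real_inner_smul_right, inner_sub_right, real_inner_smul_right, real_inner_smul_right]
  have hg : ‖gradient u x‖ ≤ 1 := by simpa using norm_gradient_le P.mn.lip x
  have hρ : 0 ≤ rho u x := by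
    unfold rho
    exact div_nonneg (by nlinarith [norm_nonneg (gradient u x)]) (by positivity)
  have hρe : 1 - ‖gradient u x‖ ^ 2 = 2 * u x * rho u x := by unfold rho; field_simp
  have h1 : -⟪X x, gradient u x⟫ ≤ rho u x * φ x ^ 2 + 2 * ε := by
    have a1 : rho u x * Φ x ≤ rho u x * φ x ^ 2 := mul_le_mul_of_nonneg_left (P.Φb x hu) hρ
    by_contra hc
    have a2 : rho u x * Φ x + ⟪X x, gradient u x⟫ < -(2 * ε) := by linarith
    nlinarith
  have h2 : ⟪X x, gradient φ x⟫ ≤ 4 * M ^ 2 := by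
    have a1 := P.Xb x hu
    have a2 := P.gφ x hu
    have a3 : ‖X x‖ ≤ 2 * M := by nlinarith [norm_nonneg (X x)]
    have a4 : ‖gradient φ x‖ ≤ 2 * M := by nlinarith [norm_nonneg (gradient φ x)]
    calc _ ≤ ‖X x‖ * ‖gradient φ x‖ := real_inner_le_norm _ _
      _ ≤ 2 * M * (2 * M) := by gcongr
      _ = _ := by ring
  have hs : t⁻¹ * (u x / φ x) ≤ M := hx.le.trans (P.ηb x)
  have hi := P.inv_le hu
  rw [hρe]
  generalize ⟪X x, gradient u x⟫ = p at *
  generalize ⟪X x, gradient φ x⟫ = q at *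
  have hs0 : 0 < t⁻¹ * (u x / φ x) := by positivity
  have e1 : -(2 * (t⁻¹ * (u x / φ x)) * t⁻¹ * ((φ x)⁻¹ * p - u x / φ x ^ 2 * q))
      = 2 * (t⁻¹ * (u x / φ x)) * t⁻¹ * (φ x)⁻¹ * (-p) + 2 * (t⁻¹ * (u x / φ x)) ^ 2 * (φ x)⁻¹ * q := by
    field_simp; ring
  have e2 : 2 * u x * rho u x / t ^ 2 = 2 * (t⁻¹ * (u x / φ x)) * t⁻¹ * (φ x)⁻¹ * (rho u x * φ x ^ 2) := by
    field_simp
  have b1 : 2 * (t⁻¹ * (u x / φ x)) * t⁻¹ * (φ x)⁻¹ * (-p)
      ≤ 2 * (t⁻¹ * (u x / φ x)) * t⁻¹ * (φ x)⁻¹ * (rho u x * φ x ^ 2 + 2 * ε) := by gcongr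
  have b2 : 2 * (t⁻¹ * (u x / φ x)) * t⁻¹ * (φ x)⁻¹ * (2 * ε) ≤ ε * (4 * M ^ 2) / t := by
    calc _ ≤ 2 * M * t⁻¹ * M * (2 * ε) := by gcongr
      _ = _ := by field_simp; ring
  have b3 : 2 * (t⁻¹ * (u x / φ x)) ^ 2 * (φ x)⁻¹ * q ≤ 8 * M ^ 5 := by
    calc _ ≤ 2 * (t⁻¹ * (u x / φ x)) ^ 2 * (φ x)⁻¹ * (4 * M ^ 2) := by gcongr
      _ ≤ 2 * M ^ 2 * M * (4 * M ^ 2) := by gcongr
      _ = _ := by ring
  rw [e1, e2]
  nlinarith

end Pf

end Crest.Agent.R97
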