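import Crest.Agent.R97.Har

/-! StabDefs (sub-lead helper49): the data after removing the radial part of `W`. -/

set_option autoImplicit false
open MeasureTheory Metric Set Filter Topology
open scoped RealInnerProductSpace NNReal

namespace Crest.Agent.R97

variable {d : ℕ}

/-- the hypotheses of `stab_div` at every point of the cone, for the tangential part `X` of `W` -/
structure Pk (u Φ : E d → ℝ) (X : E d → E d) (Λ C : ℝ) : Prop where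
  mn : Mn 1 u
  ule : ∀ x, u x ≤ ‖x‖
  cΦ : ContDiffOn ℝ 1 Φ {x | 0 < u x}
  cX : ContDiffOn ℝ 1 X {x | 0 < u x}
  C0 : 0 ≤ C
  Φ0 : ∀ x, 0 < u x → 0 ≤ Φ x
  Φb : ∀ x, 0 < u x → Φ x ≤ C
  gΦ : ∀ x, 0 < u x → ‖gradient Φ x‖ * ‖x‖ ≤ C
  Xb : ∀ x, 0 < u x → ‖X x‖ * ‖x‖ ≤ C
  tΦ : ∀ x, 0 < u x → ⟪gradient Φ x, x⟫ = 0
  tX : ∀ x, 0 < u x → ⟪X x, x⟫ = 0
  i0 : ∀ x, 0 < u x → 0 ≤ dv X x - Λ * Φ x / ‖x‖ ^ 2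
  i1 : ∀ x, 0 < u x → ‖gradient Φ x‖ ^ 2 ≤ 4 * Φ x * (dv X x - Λ * Φ x / ‖x‖ ^ 2)
  bd : ∀ ε : ℝ, 0 < ε → ∃ δ : ℝ, 0 < δ ∧ ∀ x, 0 < u x → u x < δ * ‖x‖ →
    -ε ≤ (rho u x * Φ x + ⟪X x, gradient u x⟫) * ‖x‖

/-- radial `C¹` cut-off supported in the annulus `1/2 ≤ |x| < R` -/
structure Rad (η : E d → ℝ) (R : ℝ) : Prop where
  sm : ContDiff ℝ 1 η
  nn : ∀ x, 0 ≤ η x
  lo : ∀ x, ‖x‖ ≤ 1 / 2 → η x = 0
  hi : ∀ x, R ≤ ‖x‖ → η x = 0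
  rad : ∀ x, ∃ c : ℝ, gradient η x = c • x

end Crest.Agent.R97
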