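import Crest.Agent.R97.WeiC

set_option autoImplicit false
open MeasureTheory Metric Set Filter Topology
open scoped RealInnerProductSpace NNReal

namespace Crest.Agent.R97

variable {d : ℕ}

/-! WeiK: the monotonicity inequality (helper11). -/

theorem weiF_le {L : ℝ≥0} {u : E d → ℝ} (hu : LipschitzWith L u) (h0 : u 0 = 0) (θ : Sp d) {r : ℝ} (hr : 0 < r) :
    |weiF u θ r| ≤ L := by
  have := wei_abs_le hu h0 (r • (θ : E d))
  rw [wei_norm_smul θ hr.le] at this
  unfold weiF
  rwa [abs_div, abs_of_pos hr, div_le_iff₀ hr]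

theorem weiD_le {L : ℝ≥0} {u : E d → ℝ} (hu : LipschitzWith L u) (θ : Sp d) (r : ℝ) : |weiD u θ r| ≤ L := by
  refine (abs_real_inner_le_norm _ _).trans ?_
  rw [wei_norm, mul_one]
  exact norm_gradient_le hu _

theorem wei_meas_smul : Measurable fun p : ℝ × Sp d => p.1 • (p.2 : E d) := by
  apply Continuous.measurable
  fun_prop

theorem weiF_meas {u : E d → ℝ} (hu : Continuous u) : Measurable fun p : ℝ × Sp d => weiF u p.2 p.1 :=
  (hu.measurable.comp wei_meas_smul).div measurable_fst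

theorem weiD_meas (u : E d → ℝ) : Measurable fun p : ℝ × Sp d => weiD u p.2 p.1 :=
  ((measurable_gradient u).comp wei_meas_smul).inner (measurable_subtype_coe.comp measurable_snd)

theorem wei_jd_meas {u : E d → ℝ} (hu : Continuous u) : Measurable (jd u) :=
  ((measurable_gradient u).norm.pow_const 2).add
    (Measurable.ite (measurableSet_lt measurable_const hu.measurable) measurable_const measurable_const)

theorem wei_jd_nonneg (u : E d → ℝ) (x : E d) : 0 ≤ jd u x := by
  unfold jd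
  split_ifs <;> positivity

theorem wei_jd_le {L : ℝ≥0} {u : E d → ℝ} (hu : LipschitzWith L u) (x : E d) : |jd u x| ≤ L ^ 2 + 1 := by
  rw [abs_of_nonneg (wei_jd_nonneg u x)]
  have h1 : ‖gradient u x‖ ^ 2 ≤ (L : ℝ) ^ 2 := by
    have := norm_gradient_le hu x
    gcongr
  unfold jd
  split_ifs <;> linarith

theorem wei_T_le {L : ℝ≥0} {u : E d → ℝ} (hu : LipschitzWith L u) (h0 : u 0 = 0) (θ : Sp d) {r : ℝ} (hr : 0 < r) :
    |weiD u θ r ^ 2 - weiF u θ r ^ 2| ≤ L ^ 2 := by
  have h1 := sq_le_sq' (abs_le.1 (weiF_le hu h0 θ hr)).1 (abs_le.1 (weiF_le hu h0 θ hr)).2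
  have h2 := sq_le_sq' (abs_le.1 (weiD_le hu θ r)).1 (abs_le.1 (weiD_le hu θ r)).2
  rw [abs_le]
  constructor <;> nlinarith [sq_nonneg (weiD u θ r), sq_nonneg (weiF u θ r)]

theorem wei_int_T {L : ℝ≥0} {u : E d → ℝ} (hu : LipschitzWith L u) (h0 : u 0 = 0) {a b : ℝ} (ha : 0 < a)
    (hab : a ≤ b) : Integrable (Function.uncurry fun (r : ℝ) (θ : Sp d) => (weiD u θ r ^ 2 - weiF u θ r ^ 2) / r)
      ((volume.restrict (uIoc a b)).prod (wsg d)) := by
  rw [uIoc_of_le hab]
  refine Integrable.of_bound ((((weiD_meas u).pow_const 2).sub ((weiF_meas hu.continuous).pow_const 2)).div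
    measurable_fst).aestronglyMeasurable (L ^ 2 / a) ?_
  have : ∀ᵐ p ∂(volume.restrict (Ioc a b)).prod (wsg d), p.1 ∈ Ioc a b :=
    Measure.quasiMeasurePreserving_fst.ae (ae_restrict_mem measurableSet_Ioc)
  filter_upwards [this] with p hp
  have hr : 0 < p.1 := ha.trans hp.1
  simp only [Function.uncurry, Real.norm_eq_abs, abs_div, abs_of_pos hr]
  exact div_le_div₀ (by positivity) (wei_T_le hu h0 _ hr) ha hp.1.le

theorem wei_ray {L : ℝ≥0} {u : E d → ℝ} (hu : LipschitzWith L u) (θ : Sp d)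
    (hθ : ∀ᵐ r : ℝ, 0 < r → DifferentiableAt ℝ u (r • (θ : E d))) {a b : ℝ} (ha : 0 < a) (hab : a < b)
    (hi : IntervalIntegrable (fun r => (weiD u θ r ^ 2 - weiF u θ r ^ 2) / r) volume a b) :
    a / (b - a) * (weiF u θ b - weiF u θ a) ^ 2 + (weiF u θ b ^ 2 - weiF u θ a ^ 2) ≤
      ∫ r in a..b, (weiD u θ r ^ 2 - weiF u θ r ^ 2) / r := by
  have hl : LipschitzWith (L * 1) fun r : ℝ => u (r • (θ : E d)) := by
    refine hu.comp (LipschitzWith.of_dist_le_mul fun x y => ?_)
    rw [dist_eq_norm, ← sub_smul, norm_smul, wei_norm, dist_eq_norm]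
    simp
  have h1 : AbsolutelyContinuousOnInterval (fun r : ℝ => u (r • (θ : E d))) a b :=
    hl.lipschitzOnWith.absolutelyContinuousOnInterval
  have h2 : AbsolutelyContinuousOnInterval (fun r : ℝ => r⁻¹) a b := by
    refine ContDiffOn.absolutelyContinuousOnInterval (contDiffOn_id.inv fun x hx => ?_)
    rw [uIcc_of_le hab.le] at hx
    exact (ha.trans_le hx.1).ne'
  have hF : AbsolutelyContinuousOnInterval (weiF u θ) a b := h1.fun_mul h2
  have hF2 : AbsolutelyContinuousOnInterval (fun r => weiF u θ r * weiF u θ r) a b := hF.fun_mul hF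
  set c := (weiF u θ b - weiF u θ a) / (b - a) with hc
  have hba : 0 < b - a := by linarith
  have e : a / (b - a) * (weiF u θ b - weiF u θ a) ^ 2 + (weiF u θ b ^ 2 - weiF u θ a ^ 2) =
      ∫ r in a..b, (2 * a * c * deriv (weiF u θ) r - a * c ^ 2 + deriv (fun r => weiF u θ r * weiF u θ r) r) := by
    rw [intervalIntegral.integral_add ((hF.intervalIntegrable_deriv.const_mul _).sub intervalIntegrable_const)
      hF2.intervalIntegrable_deriv, intervalIntegral.integral_sub (hF.intervalIntegrable_deriv.const_mul _)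
      intervalIntegrable_const, intervalIntegral.integral_const_mul, hF.integral_deriv_eq_sub,
      hF2.integral_deriv_eq_sub, intervalIntegral.integral_const, smul_eq_mul, hc]
    field_simp
    ring
  rw [e]
  refine intervalIntegral.integral_mono_ae_restrict hab.le
    (((hF.intervalIntegrable_deriv.const_mul _).sub intervalIntegrable_const).add hF2.intervalIntegrable_deriv) hi ?_
  refine (ae_restrict_iff' measurableSet_Icc).2 ?_
  filter_upwards [hθ] with r hr hrm
  have hr0 : 0 < r := ha.trans_le hrm.1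
  have d1 : HasDerivAt (fun r : ℝ => u (r • (θ : E d))) (weiD u θ r) r := by
    have := (hr hr0).hasFDerivAt.comp_hasDerivAt r ((hasDerivAt_id r).smul_const (θ : E d))
    rw [one_smul] at this
    unfold weiD
    rw [gradient, InnerProductSpace.toDual_symm_apply]
    exact this
  have d2 : HasDerivAt (weiF u θ) ((weiD u θ r - weiF u θ r) / r) r := by
    refine (d1.div (hasDerivAt_id r) hr0.ne').congr_deriv ?_
    unfold weiF
    simp only [id]
    field_simp
  have d3 := (d2.mul d2).deriv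
  change deriv (fun r => weiF u θ r * weiF u θ r) r = _ at d3
  simp only [d2.deriv, d3]
  set h := (weiD u θ r - weiF u θ r) / r with hh
  have e1 : weiD u θ r = weiF u θ r + r * h := by rw [hh]; field_simp; ring
  have e2 : (weiD u θ r ^ 2 - weiF u θ r ^ 2) / r = r * h ^ 2 + 2 * weiF u θ r * h := by
    rw [e1]; field_simp; ring
  rw [e2]
  nlinarith [mul_nonneg ha.le (sq_nonneg (h - c)), mul_nonneg (sub_nonneg.2 hrm.1) (sq_nonneg h)]

theorem wei_J (hd : 1 ≤ d) {L : ℝ≥0} {u : E d → ℝ} (hu : Mn L u) (h0 : u 0 = 0) {a b : ℝ} (ha : 0 < a)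
    (hab : a ≤ b) :
    ∫ r in a..b, ∫ θ : Sp d, (weiD u θ r ^ 2 - weiF u θ r ^ 2) / r ∂wsg d ≤
      J u (ball 0 b) / b ^ d - J u (ball 0 a) / a ^ d := by
  set A : ℝ → ℝ := fun r => ∫ θ : Sp d, jd u (r • (θ : E d)) ∂wsg d with hA
  have hjm : Measurable fun p : ℝ × Sp d => jd u (p.1 • (p.2 : E d)) :=
    (wei_jd_meas hu.lip.continuous).comp wei_meas_smul
  have hAm : StronglyMeasurable A := hjm.stronglyMeasurable.integral_prod_right'
  have hAb : ∀ r, ‖A r‖ ≤ (L ^ 2 + 1) * (wsg d).real univ := fun r =>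
    norm_integral_le_of_norm_le_const (ae_of_all _ fun θ => wei_jd_le hu.lip _)
  have hb : 0 < b := ha.trans_le hab
  have hAi : IntervalIntegrable (fun s => s ^ (d - 1) * A s) volume 0 b := by
    refine IntervalIntegrable.continuousOn_mul ?_ (by fun_prop)
    rw [intervalIntegrable_iff_integrableOn_Ioc_of_le hb.le]
    exact Integrable.of_bound hAm.aestronglyMeasurable _ (ae_of_all _ hAb)
  set I : ℝ → ℝ := fun r => ∫ s in (0 : ℝ)..r, s ^ (d - 1) * A s with hI
  have hJ : ∀ r, 0 ≤ r → J u (ball 0 r) = I r := fun r hr =>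
    wei_ball hd hr (integrableOn_jd hu.lip isBounded_ball)
  have hsub : uIcc a b ⊆ uIcc 0 b := by
    rw [uIcc_of_le hab, uIcc_of_le hb.le]
    exact Icc_subset_Icc_left ha.le
  have h1 : AbsolutelyContinuousOnInterval I a b :=
    (hAi.absolutelyContinuousOnInterval_intervalIntegral left_mem_uIcc).mono hsub
  have h2 : AbsolutelyContinuousOnInterval (fun r : ℝ => (r ^ d)⁻¹) a b := by
    refine ContDiffOn.absolutelyContinuousOnInterval ((contDiffOn_id.pow d).inv fun x hx => ?_)
    rw [uIcc_of_le hab] at hx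
    exact (pow_pos (ha.trans_le hx.1) d).ne'
  have hV : AbsolutelyContinuousOnInterval (fun r => I r / r ^ d) a b := h1.fun_mul h2
  rw [hJ a ha.le, hJ b hb.le, ← hV.integral_deriv_eq_sub]
  refine intervalIntegral.integral_mono_ae_restrict hab
    (intervalIntegrable_iff.2 (wei_int_T hu.lip h0 ha hab).integral_prod_left) hV.intervalIntegrable_deriv ?_
  refine (ae_restrict_iff' measurableSet_Icc).2 ?_
  filter_upwards [hAi.ae_hasDerivAt_integral, wei_ae2 hd (hu.lip.ae_differentiableAt (μ := volume))]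
    with r hr1 hr2 hrm
  have hr0 : 0 < r := ha.trans_le hrm.1
  have d1 : HasDerivAt I (r ^ (d - 1) * A r) r := hr1 (hsub (by rwa [uIcc_of_le hab])) 0 left_mem_uIcc
  have d2 := (d1.div (hasDerivAt_pow d r) (pow_pos hr0 d).ne').deriv
  change deriv (fun r => I r / r ^ d) r = _ at d2
  have hc := wei_comp hd hu h0 hr0 (hr2 hr0)
  have i1 : Integrable (fun θ : Sp d => jd u (r • (θ : E d))) (wsg d) :=
    Integrable.of_bound (hjm.comp measurable_prodMk_left).aestronglyMeasurable _
      (ae_of_all _ fun θ => wei_jd_le hu.lip _)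
  have i2 : Integrable (fun θ : Sp d => weiD u θ r ^ 2 - weiF u θ r ^ 2) (wsg d) :=
    Integrable.of_bound ((((weiD_meas u).pow_const 2).sub ((weiF_meas hu.lip.continuous).pow_const 2)).comp
      measurable_prodMk_left).aestronglyMeasurable _ (ae_of_all _ fun θ => wei_T_le hu.lip h0 θ hr0)
  rw [integral_sub i1 i2, hJ r hr0.le] at hc
  simp only [d2, integral_div]
  change (d : ℝ) * I r ≤ r ^ d * (A r - _) at hc
  set T := ∫ θ : Sp d, (weiD u θ r ^ 2 - weiF u θ r ^ 2) ∂wsg d
  have e : r ^ d = r ^ (d - 1) * r := by rw [← pow_succ, Nat.sub_add_cancel hd]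
  have hp : 0 < r ^ (d - 1) := pow_pos hr0 _
  rw [e] at hc ⊢
  rw [div_le_div_iff₀ hr0 (by positivity)]
  nlinarith [mul_le_mul_of_nonneg_left hc (mul_pos hp hr0).le]

/-- the Weiss energy -/
noncomputable def weiW (u : E d → ℝ) (r : ℝ) : ℝ :=
  J u (ball 0 r) / r ^ d - ∫ θ : Sp d, weiF u θ r ^ 2 ∂wsg d

theorem wei_int_sq {L : ℝ≥0} {u : E d → ℝ} (hu : LipschitzWith L u) (h0 : u 0 = 0) {r : ℝ} (hr : 0 < r) :
    Integrable (fun θ : Sp d => weiF u θ r ^ 2) (wsg d) :=
  Integrable.of_bound (((weiF_meas hu.continuous).pow_const 2).comp measurable_prodMk_left).aestronglyMeasurable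
    (L ^ 2) (ae_of_all _ fun θ => by
      rw [Real.norm_eq_abs, abs_pow]
      exact pow_le_pow_left₀ (abs_nonneg _) (weiF_le hu h0 θ hr) 2)

theorem wei_sub_le {L : ℝ≥0} {u : E d → ℝ} (hu : LipschitzWith L u) (h0 : u 0 = 0) {a b : ℝ} (ha : 0 < a)
    (hb : 0 < b) (θ : Sp d) : ‖(weiF u θ b - weiF u θ a) ^ 2‖ ≤ (L + L) ^ 2 := by
  rw [Real.norm_eq_abs, abs_pow]
  exact pow_le_pow_left₀ (abs_nonneg _)
    ((abs_sub _ _).trans (add_le_add (weiF_le hu h0 θ hb) (weiF_le hu h0 θ ha))) 2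

theorem wei_sub_meas {u : E d → ℝ} (hu : Continuous u) (a b : ℝ) :
    Measurable fun θ : Sp d => (weiF u θ b - weiF u θ a) ^ 2 :=
  (((weiF_meas hu).comp measurable_prodMk_left).sub ((weiF_meas hu).comp measurable_prodMk_left)).pow_const 2

theorem wei_key (hd : 1 ≤ d) {L : ℝ≥0} {u : E d → ℝ} (hu : Mn L u) (h0 : u 0 = 0) {a b : ℝ} (ha : 0 < a)
    (hab : a < b) :
    a / (b - a) * ∫ θ : Sp d, (weiF u θ b - weiF u θ a) ^ 2 ∂wsg d ≤ weiW u b - weiW u a := by
  have hb : 0 < b := ha.trans hab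
  have h1 := wei_J hd hu h0 ha hab.le
  have hT := wei_int_T hu.lip h0 ha hab.le
  rw [intervalIntegral_integral_swap hT] at h1
  have i1 : Integrable (fun θ : Sp d => (weiF u θ b - weiF u θ a) ^ 2) (wsg d) :=
    Integrable.of_bound (wei_sub_meas hu.lip.continuous a b).aestronglyMeasurable _
      (ae_of_all _ (wei_sub_le hu.lip h0 ha hb))
  have i2 := wei_int_sq hu.lip h0 hb
  have i3 := wei_int_sq hu.lip h0 ha
  have i4 : Integrable (fun θ : Sp d => ∫ r in a..b, (weiD u θ r ^ 2 - weiF u θ r ^ 2) / r) (wsg d) := by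
    have := hT.integral_prod_right
    rw [uIoc_of_le hab.le] at this
    simp only [intervalIntegral.integral_of_le hab.le]
    exact this
  have h2 : ∫ θ : Sp d, (a / (b - a) * (weiF u θ b - weiF u θ a) ^ 2 + (weiF u θ b ^ 2 - weiF u θ a ^ 2)) ∂wsg d ≤
      ∫ θ : Sp d, (∫ r in a..b, (weiD u θ r ^ 2 - weiF u θ r ^ 2) / r) ∂wsg d := by
    refine integral_mono_ae ((i1.const_mul _).add (i2.sub i3)) i4 ?_
    filter_upwards [wei_ae1 hd (hu.lip.ae_differentiableAt (μ := volume)), hT.prod_left_ae] with θ h1 h2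
    exact wei_ray hu.lip θ h1 ha hab (intervalIntegrable_iff.2 h2)
  have i5 : Integrable (fun θ : Sp d => weiF u θ b ^ 2 - weiF u θ a ^ 2) (wsg d) := i2.sub i3
  rw [integral_add (i1.const_mul _) i5, integral_sub i2 i3, integral_const_mul] at h2
  unfold weiW
  linarith

end Crest.Agent.R97
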