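import Crest.Agent.R97.Cpt
import Crest.Agent.R97.WeiK

set_option autoImplicit false
open MeasureTheory Metric Set Filter Topology
open scoped RealInnerProductSpace NNReal

namespace Crest.Agent.R97

variable {d : ℕ}

/-! Wei: Weiss monotonicity; blow-up limits are homogeneous. -/

theorem wei_mono (hd : 1 ≤ d) {L : ℝ≥0} {u : E d → ℝ} (hu : Mn L u) (h0 : u 0 = 0) :
    MonotoneOn (weiW u) (Ioi 0) := by
  intro a ha b _ hab
  rcases hab.eq_or_lt with rfl | hab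
  · exact le_rfl
  have h1 := wei_key hd hu h0 ha hab
  have h2 : 0 ≤ a / (b - a) * ∫ θ : Sp d, (weiF u θ b - weiF u θ a) ^ 2 ∂wsg d :=
    mul_nonneg (div_nonneg (le_of_lt ha) (by linarith)) (integral_nonneg fun θ => sq_nonneg _)
  linarith

theorem wei_lim (hd : 1 ≤ d) {L : ℝ≥0} {u : E d → ℝ} (hu : Mn L u) (h0 : u 0 = 0) :
    ∃ w : ℝ, Tendsto (weiW u) (𝓝[>] 0) (𝓝 w) := by
  refine ⟨_, (wei_mono hd hu h0).tendsto_nhdsGT ⟨-(L ^ 2 * (wsg d).real univ), ?_⟩⟩
  rintro _ ⟨r, hr, rfl⟩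
  have h1 : 0 ≤ J u (ball 0 r) / r ^ d :=
    div_nonneg (integral_nonneg fun x => wei_jd_nonneg u x) (pow_pos hr d).le
  have h2 : ‖∫ θ : Sp d, weiF u θ r ^ 2 ∂wsg d‖ ≤ L ^ 2 * (wsg d).real univ :=
    norm_integral_le_of_norm_le_const (ae_of_all _ fun θ => by
      rw [Real.norm_eq_abs, abs_pow]
      exact pow_le_pow_left₀ (abs_nonneg _) (weiF_le hu.lip h0 θ hr) 2)
  have h3 := (le_abs_self _).trans h2
  unfold weiW
  linarith

theorem wei_hom0 (hd : 1 ≤ d) {L : ℝ≥0} {u : E d → ℝ} (hu : Mn L u) (h0 : u 0 = 0) {r : ℕ → ℝ}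
    (hr : ∀ k, 0 < r k) (hr0 : Tendsto r atTop (𝓝 0)) {v : E d → ℝ} (hv : Continuous v)
    (h : ∀ x, Tendsto (fun k => u (r k • x) / r k) atTop (𝓝 (v x))) {s t : ℝ} (hs : 0 < s) (hst : s < t)
    (θ : Sp d) : v (t • (θ : E d)) / t = v (s • (θ : E d)) / s := by
  have ht : 0 < t := hs.trans hst
  obtain ⟨w, hw⟩ := wei_lim hd hu h0
  have hl : ∀ c : ℝ, 0 < c → Tendsto (fun k => weiW u (r k * c)) atTop (𝓝 w) := fun c hc => by
    refine hw.comp (tendsto_nhdsWithin_iff.2 ⟨?_, Eventually.of_forall fun k => mul_pos (hr k) hc⟩)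
    simpa using hr0.mul_const c
  have hF : ∀ (c : ℝ) (θ : Sp d), Tendsto (fun k => weiF u θ (r k * c)) atTop (𝓝 (v (c • (θ : E d)) / c)) := by
    intro c θ
    refine ((h (c • (θ : E d))).div_const c).congr fun k => ?_
    unfold weiF
    rw [smul_smul, div_div]
  have h1 : Tendsto (fun k => ∫ θ : Sp d, (weiF u θ (r k * t) - weiF u θ (r k * s)) ^ 2 ∂wsg d) atTop
      (𝓝 (∫ θ : Sp d, (v (t • (θ : E d)) / t - v (s • (θ : E d)) / s) ^ 2 ∂wsg d)) :=
    tendsto_integral_of_dominated_convergence (fun _ => ((L : ℝ) + L) ^ 2)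
      (fun k => (wei_sub_meas hu.lip.continuous _ _).aestronglyMeasurable) (integrable_const _)
      (fun k => ae_of_all _ (wei_sub_le hu.lip h0 (mul_pos (hr k) hs) (mul_pos (hr k) ht)))
      (ae_of_all _ fun θ => ((hF t θ).sub (hF s θ)).pow 2)
  have h2 : s / (t - s) * ∫ θ : Sp d, (v (t • (θ : E d)) / t - v (s • (θ : E d)) / s) ^ 2 ∂wsg d ≤ w - w := by
    refine le_of_tendsto_of_tendsto' (h1.const_mul _) ((hl t ht).sub (hl s hs)) fun k => ?_
    have := wei_key hd hu h0 (mul_pos (hr k) hs) (mul_lt_mul_of_pos_left hst (hr k))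
    rwa [← mul_sub, mul_div_mul_left _ _ (hr k).ne'] at this
  have hc : Continuous fun θ : Sp d => (v (t • (θ : E d)) / t - v (s • (θ : E d)) / s) ^ 2 := by fun_prop
  have h3 : ∫ θ : Sp d, (v (t • (θ : E d)) / t - v (s • (θ : E d)) / s) ^ 2 ∂wsg d = 0 := by
    refine le_antisymm ?_ (integral_nonneg fun θ => sq_nonneg _)
    rw [sub_self] at h2
    exact nonpos_of_mul_nonpos_right h2 (div_pos hs (by linarith))
  rw [integral_eq_zero_iff_of_nonneg (fun θ => sq_nonneg _)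
    (hc.integrable_of_hasCompactSupport (HasCompactSupport.of_compactSpace _)),
    Continuous.ae_eq_iff_eq _ hc continuous_zero] at h3
  exact sub_eq_zero.1 (pow_eq_zero_iff two_ne_zero |>.1 (congrFun h3 θ))

theorem blowup_hom (hd : 1 ≤ d) {L : ℝ≥0} {u : E d → ℝ} (hu : Mn L u) {z : E d} (hz : u z = 0) {r : ℕ → ℝ}
    (hr : ∀ k, 0 < r k) (hr0 : Tendsto r atTop (𝓝 0)) {v : E d → ℝ}
    (h : ∀ R : ℝ, TendstoUniformlyOn (fun k => bl u z (r k)) v atTop (closedBall 0 R)) : Hom v := by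
  have hu1 := hu.bl z one_pos
  have h0 : bl u z 1 0 = 0 := by simp [bl, hz]
  have hp : ∀ x, Tendsto (fun k => bl u z (r k) x) atTop (𝓝 (v x)) := fun x =>
    (h ‖x‖).tendsto_at (mem_closedBall_zero_iff.2 le_rfl)
  have hv : Continuous v := by
    refine (LipschitzWith.of_dist_le_mul (K := L) fun x y => ?_).continuous
    exact le_of_tendsto' ((hp x).dist (hp y)) fun k => (hu.bl z (hr k)).lip.dist_le_mul x y
  have hp' : ∀ x, Tendsto (fun k => bl u z 1 (r k • x) / r k) atTop (𝓝 (v x)) := fun x => by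
    simpa [bl] using hp x
  have key : ∀ s t : ℝ, 0 < s → 0 < t → ∀ θ : Sp d, v (t • (θ : E d)) / t = v (s • (θ : E d)) / s := by
    intro s t hs ht θ
    rcases lt_trichotomy s t with h1 | rfl | h1
    · exact wei_hom0 hd hu1 h0 hr hr0 hv hp' hs h1 θ
    · rfl
    · exact (wei_hom0 hd hu1 h0 hr hr0 hv hp' ht h1 θ).symm
  intro c hc x
  by_cases hx : x = 0
  · have : v 0 = 0 := tendsto_nhds_unique (hp 0) (by simp [bl, hz])
    simp [hx, this]
  have hn : 0 < ‖x‖ := norm_pos_iff.2 hx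
  have h1 := key ‖x‖ (c * ‖x‖) hn (mul_pos hc hn) ⟨‖x‖⁻¹ • x, by simp [norm_smul, hn.ne']⟩
  simp only [smul_smul, mul_assoc, mul_inv_cancel₀ hn.ne', mul_one, one_smul] at h1
  field_simp at h1
  linarith

end Crest.Agent.R97
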