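import Crest.Agent.R97.WeiP

set_option autoImplicit false
open MeasureTheory Metric Set Filter Topology
open scoped RealInnerProductSpace NNReal

namespace Crest.Agent.R97

variable {d : ℕ}

/-! WeiC: the homogeneous competitor (helper11). -/

/-- homogeneous extension of the values on the sphere of radius `r` into the ball -/
noncomputable def weiZ (u : E d → ℝ) (r : ℝ) (x : E d) : ℝ :=
  min (‖x‖ / r) 1 * u ((min (‖x‖ / r) 1)⁻¹ • x)

theorem wei_abs_le {L : ℝ≥0} {u : E d → ℝ} (hu : LipschitzWith L u) (h0 : u 0 = 0) (x : E d) :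
    |u x| ≤ L * ‖x‖ := by
  have := hu.dist_le_mul x 0
  rwa [h0, Real.dist_eq, sub_zero, dist_zero_right] at this

theorem wei_persp {L : ℝ≥0} {u : E d → ℝ} (hu : LipschitzWith L u) (h0 : u 0 = 0) {a b : ℝ} (ha : 0 < a)
    (hb : 0 < b) (x y : E d) :
    |a * u (a⁻¹ • x) - b * u (b⁻¹ • y)| ≤ L * ‖x - y‖ + 2 * L * (|a - b| * (‖y‖ / b)) := by
  have hL : (0 : ℝ) ≤ L := L.2
  have h1 : |u (a⁻¹ • x) - u (b⁻¹ • y)| ≤ L * ‖a⁻¹ • x - b⁻¹ • y‖ := by
    have := hu.dist_le_mul (a⁻¹ • x) (b⁻¹ • y)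
    rwa [Real.dist_eq, dist_eq_norm] at this
  have h2 : |u (b⁻¹ • y)| ≤ L * (‖y‖ / b) := by
    have := wei_abs_le hu h0 (b⁻¹ • y)
    rwa [norm_smul, norm_inv, Real.norm_of_nonneg hb.le, inv_mul_eq_div] at this
  have h3 : a * ‖a⁻¹ • x - b⁻¹ • y‖ ≤ ‖x - y‖ + |a - b| * (‖y‖ / b) := by
    have e : a • (a⁻¹ • x - b⁻¹ • y) = (x - y) - ((a - b) * b⁻¹) • y := by
      rw [smul_sub, smul_smul, smul_smul, mul_inv_cancel₀ ha.ne', one_smul, sub_mul, mul_inv_cancel₀ hb.ne',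
        sub_smul, one_smul]
      abel
    calc a * ‖a⁻¹ • x - b⁻¹ • y‖ = ‖a • (a⁻¹ • x - b⁻¹ • y)‖ := by rw [norm_smul, Real.norm_of_nonneg ha.le]
      _ ≤ ‖x - y‖ + ‖((a - b) * b⁻¹) • y‖ := by rw [e]; exact norm_sub_le _ _
      _ = _ := by
        rw [norm_smul, norm_mul, norm_inv, Real.norm_of_nonneg hb.le, Real.norm_eq_abs]
        ring
  calc |a * u (a⁻¹ • x) - b * u (b⁻¹ • y)|
      = |a * (u (a⁻¹ • x) - u (b⁻¹ • y)) + (a - b) * u (b⁻¹ • y)| := by congr 1; ring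
    _ ≤ a * |u (a⁻¹ • x) - u (b⁻¹ • y)| + |a - b| * |u (b⁻¹ • y)| := by
        refine (abs_add_le _ _).trans (le_of_eq ?_)
        rw [abs_mul, abs_mul, abs_of_pos ha]
    _ ≤ a * (L * ‖a⁻¹ • x - b⁻¹ • y‖) + |a - b| * (L * (‖y‖ / b)) := by gcongr
    _ ≤ _ := by nlinarith [mul_le_mul_of_nonneg_left h3 hL]

theorem weiZ_out (u : E d → ℝ) {r : ℝ} (hr : 0 < r) {x : E d} (hx : r ≤ ‖x‖) : weiZ u r x = u x := by
  unfold weiZ
  rw [min_eq_right ((one_le_div hr).2 hx)]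
  simp

theorem weiZ_lip {L : ℝ≥0} {u : E d → ℝ} (hu : LipschitzWith L u) (h0 : u 0 = 0) {r : ℝ} (hr : 0 < r) :
    LipschitzWith (3 * L) (weiZ u r) := by
  have hL : (0 : ℝ) ≤ L := L.2
  have key : ∀ x y : E d, ‖y‖ ≤ ‖x‖ → |weiZ u r x - weiZ u r y| ≤ 3 * L * ‖x - y‖ := by
    intro x y hxy
    have hn := norm_nonneg (x - y)
    by_cases hx : x = 0
    · have hy : y = 0 := by
        rw [hx, norm_zero] at hxy
        exact norm_le_zero_iff.1 hxy
      simp [hx, hy]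
    have ha : 0 < min (‖x‖ / r) 1 := lt_min (div_pos (norm_pos_iff.2 hx) hr) one_pos
    by_cases hy : y = 0
    · have := wei_abs_le hu h0 ((min (‖x‖ / r) 1)⁻¹ • x)
      rw [norm_smul, norm_inv, Real.norm_of_nonneg ha.le] at this
      have e : weiZ u r y = 0 := by simp [weiZ, hy, h0]
      rw [e, hy, sub_zero, sub_zero]
      unfold weiZ
      rw [abs_mul, abs_of_pos ha]
      calc _ ≤ min (‖x‖ / r) 1 * (L * ((min (‖x‖ / r) 1)⁻¹ * ‖x‖)) := by gcongr
        _ = L * ‖x‖ := by field_simp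
        _ ≤ _ := by nlinarith [mul_nonneg hL (norm_nonneg x)]
    by_cases hyr : r ≤ ‖y‖
    · rw [weiZ_out u hr hyr, weiZ_out u hr (hyr.trans hxy)]
      have := hu.dist_le_mul x y
      rw [Real.dist_eq, dist_eq_norm] at this
      nlinarith [mul_nonneg hL hn]
    have hy0 : 0 < ‖y‖ := norm_pos_iff.2 hy
    have hb : 0 < min (‖y‖ / r) 1 := lt_min (div_pos hy0 hr) one_pos
    have h1 := wei_persp hu h0 ha hb x y
    have h2 : |min (‖x‖ / r) 1 - min (‖y‖ / r) 1| ≤ ‖x - y‖ / r := by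
      refine (abs_min_sub_min_le_max _ _ _ _).trans ?_
      rw [sub_self, abs_zero, ← sub_div, abs_div, abs_of_pos hr]
      exact max_le (div_le_div_of_nonneg_right (abs_norm_sub_norm_le x y) hr.le) (by positivity)
    have h3 : ‖y‖ / min (‖y‖ / r) 1 = r := by
      rw [min_eq_left ((div_le_one hr).2 (not_le.1 hyr).le)]
      field_simp
    rw [h3] at h1
    have h4 : |min (‖x‖ / r) 1 - min (‖y‖ / r) 1| * r ≤ ‖x - y‖ := by rwa [← le_div_iff₀ hr]
    unfold weiZ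
    nlinarith [mul_le_mul_of_nonneg_left h4 hL]
  refine LipschitzWith.of_dist_le_mul fun x y => ?_
  rw [Real.dist_eq, dist_eq_norm]
  push_cast
  rcases le_total ‖y‖ ‖x‖ with h | h
  · exact key x y h
  · rw [abs_sub_comm, norm_sub_rev]
    exact key y x h

theorem wei_norm_deriv (θ : Sp d) {s : ℝ} (hs : 0 < s) :
    HasFDerivAt (fun y : E d => ‖y‖) (innerSL ℝ (θ : E d)) (s • (θ : E d)) := by
  have h1 : HasFDerivAt (fun y : E d => ‖y‖ ^ 2) (2 • innerSL ℝ (s • (θ : E d))) (s • (θ : E d)) :=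
    (hasStrictFDerivAt_norm_sq _).hasFDerivAt
  have hn := wei_norm_smul θ hs.le
  have h2 := h1.sqrt (by rw [hn]; positivity)
  simp only [Real.sqrt_sq (norm_nonneg _)] at h2
  rw [hn] at h2
  refine h2.congr_fderiv (ContinuousLinearMap.ext fun v => ?_)
  simp only [innerSL_apply_apply, smul_apply, inner_smul_left, smul_eq_mul, nsmul_eq_mul, conj_trivial]
  field_simp
  norm_num

theorem weiZ_grad {u : E d → ℝ} {r s : ℝ} (hs : 0 < s) (hsr : s < r) (θ : Sp d)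
    (hd : DifferentiableAt ℝ u (r • (θ : E d))) :
    gradient (weiZ u r) (s • (θ : E d)) = gradient u (r • (θ : E d)) -
      (⟪gradient u (r • (θ : E d)), (θ : E d)⟫ - u (r • (θ : E d)) / r) • (θ : E d) := by
  have hr : 0 < r := hs.trans hsr
  have hn := wei_norm_smul θ hs.le
  have hN := wei_norm_deriv θ hs
  have h1 := hN.const_mul r⁻¹
  have h1' : HasFDerivAt (fun y : E d => (r⁻¹ * ‖y‖)⁻¹)
      ((-((r⁻¹ * ‖s • (θ : E d)‖) ^ 2)⁻¹) • r⁻¹ • innerSL ℝ (θ : E d)) (s • (θ : E d)) :=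
    (hasDerivAt_inv (by rw [hn]; positivity)).comp_hasFDerivAt (s • (θ : E d)) h1
  have h2 := h1'.smul (hasFDerivAt_id (s • (θ : E d)))
  have e0 : (r⁻¹ * s)⁻¹ • s • (θ : E d) = r • (θ : E d) := by
    rw [smul_smul]
    congr 1
    field_simp
  have h3 : HasFDerivAt u (fderiv ℝ u (r • (θ : E d))) ((r⁻¹ * ‖s • (θ : E d)‖)⁻¹ • s • (θ : E d)) := by
    rw [hn, e0]
    exact hd.hasFDerivAt
  have h4 := h1.mul (HasFDerivAt.comp (f := fun y : E d => (r⁻¹ * ‖y‖)⁻¹ • y) (s • (θ : E d)) h3 h2)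
  have h5 : weiZ u r =ᶠ[𝓝 (s • (θ : E d))] fun y => r⁻¹ * ‖y‖ * u ((r⁻¹ * ‖y‖)⁻¹ • y) := by
    have : ball (0 : E d) r ∈ 𝓝 (s • (θ : E d)) :=
      isOpen_ball.mem_nhds (by rw [mem_ball_zero_iff, hn]; exact hsr)
    filter_upwards [this] with y hy
    unfold weiZ
    rw [min_eq_left ((div_le_one hr).2 (mem_ball_zero_iff.1 hy).le), div_eq_inv_mul]
  have h6 := HasFDerivAt.congr_of_eventuallyEq h4 h5
  apply HasGradientAt.gradient
  rw [hasGradientAt_iff_hasFDerivAt]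
  refine h6.congr_fderiv (ContinuousLinearMap.ext fun v => ?_)
  have eg : ∀ w : E d, ⟪gradient u (r • (θ : E d)), w⟫ = fderiv ℝ u (r • (θ : E d)) w := fun w => by
    rw [gradient, InnerProductSpace.toDual_symm_apply]
  simp only [InnerProductSpace.toDual_apply_apply, inner_sub_left, inner_smul_left, eg, add_apply, smul_apply,
    ContinuousLinearMap.comp_apply, ContinuousLinearMap.smulRight_apply, ContinuousLinearMap.id_apply, map_add,
    map_smul, innerSL_apply_apply, smul_eq_mul, conj_trivial, hn, Function.comp_apply, id, e0]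
  field_simp
  ring

/-- rescaled trace on the sphere of radius `r` -/
noncomputable def weiF (u : E d → ℝ) (θ : Sp d) (r : ℝ) : ℝ := u (r • (θ : E d)) / r

/-- radial derivative -/
noncomputable def weiD (u : E d → ℝ) (θ : Sp d) (r : ℝ) : ℝ := ⟪gradient u (r • (θ : E d)), (θ : E d)⟫

theorem weiZ_jd {u : E d → ℝ} {r s : ℝ} (hs : 0 < s) (hsr : s < r) (θ : Sp d)
    (hd : DifferentiableAt ℝ u (r • (θ : E d))) :
    jd (weiZ u r) (s • (θ : E d)) = jd u (r • (θ : E d)) - (weiD u θ r ^ 2 - weiF u θ r ^ 2) := by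
  have hr : 0 < r := hs.trans hsr
  have e : weiZ u r (s • (θ : E d)) = s / r * u (r • (θ : E d)) := by
    unfold weiZ
    rw [wei_norm_smul θ hs.le, min_eq_left ((div_le_one hr).2 hsr.le), smul_smul]
    congr 3
    field_simp
  unfold jd weiD weiF
  rw [weiZ_grad hs hsr θ hd, e, norm_sub_sq_real, inner_smul_right, norm_smul, wei_norm, mul_one, Real.norm_eq_abs,
    sq_abs]
  simp only [mul_pos_iff_of_pos_left (div_pos hs hr)]
  ring

theorem wei_comp (hd : 1 ≤ d) {L : ℝ≥0} {u : E d → ℝ} (hu : Mn L u) (h0 : u 0 = 0) {r : ℝ} (hr : 0 < r)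
    (hae : ∀ᵐ θ : Sp d ∂wsg d, DifferentiableAt ℝ u (r • (θ : E d))) :
    d * J u (ball 0 r) ≤
      r ^ d * ∫ θ : Sp d, (jd u (r • (θ : E d)) - (weiD u θ r ^ 2 - weiF u θ r ^ 2)) ∂wsg d := by
  have hz := weiZ_lip hu.lip h0 hr
  have h1 := hu.min 0 r hr (weiZ u r) _ hz
    (fun x => mul_nonneg (le_min (by positivity) zero_le_one) (hu.nn _))
    (fun x hx => weiZ_out u hr (by simpa using hx))
  set I := ∫ θ : Sp d, (jd u (r • (θ : E d)) - (weiD u θ r ^ 2 - weiF u θ r ^ 2)) ∂wsg d with hI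
  have h2 : J (weiZ u r) (ball 0 r) = ∫ s in (0 : ℝ)..r, s ^ (d - 1) * I := by
    unfold J
    rw [wei_ball hd hr.le (integrableOn_jd hz isBounded_ball), intervalIntegral.integral_of_le hr.le,
      intervalIntegral.integral_of_le hr.le, integral_Ioc_eq_integral_Ioo, integral_Ioc_eq_integral_Ioo]
    refine setIntegral_congr_fun measurableSet_Ioo fun s hs => ?_
    congr 1
    refine integral_congr_ae ?_
    filter_upwards [hae] with θ hθ
    exact weiZ_jd hs.1 hs.2 θ hθ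
  rw [intervalIntegral.integral_mul_const, integral_pow, Nat.sub_add_cancel hd, zero_pow (by omega), sub_zero,
    Nat.cast_pred hd, sub_add_cancel] at h2
  have hd0 : (0 : ℝ) < d := by exact_mod_cast hd
  calc (d : ℝ) * J u (ball 0 r) ≤ d * J (weiZ u r) (ball 0 r) := by gcongr
    _ = _ := by rw [h2]; field_simp

end Crest.Agent.R97
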