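import Crest.Agent.R97.Bas

set_option autoImplicit false
open MeasureTheory Metric Set Filter Topology
open scoped RealInnerProductSpace NNReal

namespace Crest.Agent.R97

variable {d : ℕ}

/-! WeiP: polar coordinates (helper11). -/

/-- the unit sphere -/
abbrev Sp (d : ℕ) := sphere (0 : E d) 1

/-- surface measure -/
noncomputable abbrev wsg (d : ℕ) : Measure (Sp d) := (volume : Measure (E d)).toSphere

theorem wei_norm (θ : Sp d) : ‖(θ : E d)‖ = 1 := by simp

theorem wei_norm_smul (θ : Sp d) {r : ℝ} (hr : 0 ≤ r) : ‖r • (θ : E d)‖ = r := by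
  rw [norm_smul, wei_norm, mul_one, Real.norm_of_nonneg hr]

theorem wei_mp (hd : 1 ≤ d) : MeasurePreserving (fun p : Sp d × Ioi (0 : ℝ) => (p.2 : ℝ) • (p.1 : E d))
    ((wsg d).prod (Measure.volumeIoiPow (d - 1))) volume := by
  have : Nonempty (Fin d) := ⟨⟨0, hd⟩⟩
  have h1 := (Measure.measurePreserving_homeomorphUnitSphereProd (volume : Measure (E d))).symm
    (homeomorphUnitSphereProd (E d)).toMeasurableEquiv
  have h2 := (measurePreserving_subtype_coe (μa := (volume : Measure (E d)))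
    (measurableSet_singleton (0 : E d)).compl).comp h1
  rw [restrict_compl_singleton, finrank_euclideanSpace_fin] at h2
  exact h2

theorem wei_int_Ioi (n : ℕ) (g : ℝ → ℝ) :
    ∫ r : Ioi (0 : ℝ), g r ∂Measure.volumeIoiPow n = ∫ r in Ioi (0 : ℝ), r ^ n * g r := by
  simp only [Measure.volumeIoiPow, ENNReal.ofReal]
  rw [integral_withDensity_eq_integral_smul,
    integral_subtype_comap measurableSet_Ioi fun a ↦ Real.toNNReal (a ^ n) • g a,
    setIntegral_congr_fun measurableSet_Ioi fun x hx ↦ ?_]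
  · rw [NNReal.smul_def, Real.coe_toNNReal _ (pow_nonneg hx.out.le _), smul_eq_mul]
  · exact (measurable_subtype_coe.pow_const _).real_toNNReal

theorem wei_ae_Ioi (n : ℕ) {P : ℝ → Prop} (h : ∀ᵐ r : Ioi (0 : ℝ) ∂Measure.volumeIoiPow n, P r) :
    ∀ᵐ r : ℝ, 0 < r → P r := by
  rw [Measure.volumeIoiPow, ae_withDensity_iff (by fun_prop)] at h
  refine (ae_restrict_iff' (s := Ioi (0 : ℝ)) measurableSet_Ioi).1 ?_
  rw [ae_restrict_iff_subtype measurableSet_Ioi]
  filter_upwards [h] with r hr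
  exact hr (ENNReal.ofReal_pos.2 (pow_pos r.2 n)).ne'

theorem wei_ae1 (hd : 1 ≤ d) {P : E d → Prop} (h : ∀ᵐ x, P x) :
    ∀ᵐ θ : Sp d ∂wsg d, ∀ᵐ r : ℝ, 0 < r → P (r • (θ : E d)) := by
  have h1 := Measure.ae_ae_of_ae_prod ((wei_mp hd).quasiMeasurePreserving.ae h)
  filter_upwards [h1] with θ hθ
  exact wei_ae_Ioi (P := fun r => P (r • (θ : E d))) _ hθ

theorem wei_ae2 (hd : 1 ≤ d) {P : E d → Prop} (h : ∀ᵐ x, P x) :
    ∀ᵐ r : ℝ, 0 < r → ∀ᵐ θ : Sp d ∂wsg d, P (r • (θ : E d)) := by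
  have h0 := ((wei_mp hd).comp Measure.measurePreserving_swap).quasiMeasurePreserving.ae h
  have h1 := Measure.ae_ae_of_ae_prod h0
  exact wei_ae_Ioi (P := fun r => ∀ᵐ θ : Sp d ∂wsg d, P (r • (θ : E d))) _ h1

theorem wei_polar (hd : 1 ≤ d) {F : E d → ℝ} (hF : Integrable F) :
    ∫ x, F x = ∫ r in Ioi (0 : ℝ), r ^ (d - 1) * ∫ θ : Sp d, F (r • (θ : E d)) ∂wsg d := by
  have hm := wei_mp hd
  have h1 : ∫ x, F x = ∫ p : Sp d × Ioi (0 : ℝ), F ((p.2 : ℝ) • (p.1 : E d))
      ∂((wsg d).prod (Measure.volumeIoiPow (d - 1))) := by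
    rw [← hm.map_eq, integral_map hm.measurable.aemeasurable (by rw [hm.map_eq]; exact hF.1)]
  have h2 : Integrable (fun p : Sp d × Ioi (0 : ℝ) => F ((p.2 : ℝ) • (p.1 : E d)))
      ((wsg d).prod (Measure.volumeIoiPow (d - 1))) := hm.integrable_comp_of_integrable hF
  rw [h1, integral_prod_symm _ h2]
  exact wei_int_Ioi (d - 1) fun r => ∫ θ : Sp d, F (r • (θ : E d)) ∂wsg d

theorem wei_ball (hd : 1 ≤ d) {F : E d → ℝ} {R : ℝ} (hR : 0 ≤ R) (hF : IntegrableOn F (ball 0 R)) :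
    ∫ x in ball (0 : E d) R, F x = ∫ r in (0 : ℝ)..R, r ^ (d - 1) * ∫ θ : Sp d, F (r • (θ : E d)) ∂wsg d := by
  rw [← integral_indicator measurableSet_ball, wei_polar hd ((integrable_indicator_iff measurableSet_ball).2 hF),
    intervalIntegral.integral_of_le hR, integral_Ioc_eq_integral_Ioo,
    setIntegral_eq_of_subset_of_forall_sdiff_eq_zero (s := Ioo 0 R) measurableSet_Ioi Ioo_subset_Ioi_self]
  · refine setIntegral_congr_fun measurableSet_Ioo fun r hr => ?_
    congr 1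
    refine integral_congr_ae (ae_of_all _ fun θ => ?_)
    exact indicator_of_mem (by rw [mem_ball_zero_iff, wei_norm_smul θ hr.1.le]; exact hr.2) _
  · intro r hr
    have : ∀ θ : Sp d, (ball (0 : E d) R).indicator F (r • (θ : E d)) = 0 := fun θ =>
      indicator_of_notMem (by
        rw [mem_ball_zero_iff, wei_norm_smul θ (le_of_lt hr.1)]
        exact fun h => hr.2 ⟨hr.1, h⟩) _
    simp [this]

end Crest.Agent.R97
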